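import Vale.Agent.P292.ADefs

/-! The lemma of Berger. -/

set_option maxSynthPendingDepth 3

open scoped ContDiff Topology Manifold Bundle Quaternion
open Set Filter Metric

noncomputable section

namespace Vale.Agent.P292

open Vale.Agent.P219 (E)
open Vale.Agent.P219.R (Bil ip chr Good PD brD brG brI At tr)

section Aux

variable {n : ℕ} {g : Bil n} {b : Fin n → E n} {R : E n →L[ℝ] E n →L[ℝ] E n →L[ℝ] E n}
  {I J K : E n →L[ℝ] E n} {F0 F1 F2 : E n → E n → ℝ}

theorem aber_lin (hb : Onb g b) {f : E n → ℝ} (hf : IsLinearMap ℝ f) (u : E n) :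
    ∑ i, g u (b i) * f (b i) = f u := by
  have h := map_sum (hf.mk' f) (fun i => g u (b i) • b i) Finset.univ
  rw [hb.sum] at h
  simp only [IsLinearMap.mk'_apply, map_smul, smul_eq_mul] at h
  exact h.symm

theorem aber_swap (hg : PD g) (hb : Onb g b) (hI : ∀ u v, g (I u) v = -g u (I v))
    {β : E n → E n → ℝ} (h1 : ∀ v, IsLinearMap ℝ fun u => β u v) (h2 : ∀ u, IsLinearMap ℝ (β u)) :
    ∑ i, β (I (b i)) (b i) = -∑ i, β (b i) (I (b i)) := by
  have e1 : ∀ i, β (I (b i)) (b i) = ∑ j, g (I (b i)) (b j) * β (b j) (b i) := fun i =>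
    (aber_lin hb (h1 (b i)) _).symm
  have e2 : ∀ j, β (b j) (I (b j)) = ∑ i, g (I (b j)) (b i) * β (b j) (b i) := fun j =>
    (aber_lin hb (h2 (b j)) _).symm
  rw [Finset.sum_congr rfl fun i _ => e1 i, Finset.sum_congr rfl fun j _ => e2 j,
    Finset.sum_comm, ← Finset.sum_neg_distrib]
  refine Finset.sum_congr rfl fun j _ => ?_
  rw [← Finset.sum_neg_distrib]
  refine Finset.sum_congr rfl fun i _ => ?_
  rw [hI (b i), hg.symm (b i)]
  ring

theorem aber_s12 (hR : Alg g R) (x y z w : E n) : g (R x y z) w = -g (R y x z) w := by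
  rw [hR.skew x y, map_neg]
  rfl

theorem aber_s34 (hg : PD g) (hR : Alg g R) (x y z w : E n) :
    g (R x y z) w = -g (R x y w) z := by
  rw [hR.metric, hg.symm z]

theorem aber_bi (hR : Alg g R) (x y z w : E n) :
    g (R x y z) w + g (R y z x) w + g (R z x y) w = 0 := by
  have h := congrArg (fun a => g a w) (hR.bianchi x y z)
  simpa using h

theorem aber_pair (hg : PD g) (hR : Alg g R) (x y z w : E n) :
    g (R x y z) w = g (R z w x) y := by
  linarith [aber_bi hR x y z w, aber_bi hR y z w x, aber_bi hR z w x y, aber_bi hR w x y z,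
    aber_s34 hg hR x y z w, aber_s34 hg hR y z w x, aber_s34 hg hR z w x y,
    aber_s34 hg hR w x y z, aber_s34 hg hR z x y w, aber_s34 hg hR w y z x,
    aber_s12 hR x z w y, aber_s12 hR y w x z, aber_s34 hg hR y w x z, aber_s12 hR w y z x,
    aber_s34 hg hR x z w y, aber_s12 hR z x y w]

/-- a quaternionic triple and the commutators with the curvature -/
structure AberT (g : Bil n) (R : E n →L[ℝ] E n →L[ℝ] E n →L[ℝ] E n) (I J K : E n →L[ℝ] E n)
    (F0 F1 F2 : E n → E n → ℝ) : Prop where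
  ii : ∀ v, I (I v) = -v
  jj : ∀ v, J (J v) = -v
  kk : ∀ v, K (K v) = -v
  ij : ∀ v, I (J v) = K v
  jk : ∀ v, J (K v) = I v
  ki : ∀ v, K (I v) = J v
  ji : ∀ v, J (I v) = -K v
  kj : ∀ v, K (J v) = -I v
  ik : ∀ v, I (K v) = -J v
  si : ∀ u v, g (I u) v = -g u (I v)
  sj : ∀ u v, g (J u) v = -g u (J v)
  sk : ∀ u v, g (K u) v = -g u (K v)
  ci : ∀ X Y v w, g (R X Y (I v)) w + g (R X Y v) (I w) =
    F2 X Y * g (J v) w - F1 X Y * g (K v) w
  cj : ∀ X Y v w, g (R X Y (J v)) w + g (R X Y v) (J w) =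
    F0 X Y * g (K v) w - F2 X Y * g (I v) w
  ck : ∀ X Y v w, g (R X Y (K v)) w + g (R X Y v) (K w) =
    F1 X Y * g (I v) w - F0 X Y * g (J v) w

theorem AberT.cyc (h : AberT g R I J K F0 F1 F2) : AberT g R J K I F1 F2 F0 :=
  ⟨h.jj, h.kk, h.ii, h.jk, h.ki, h.ij, h.kj, h.ik, h.ji, h.sj, h.sk, h.si, h.cj, h.ck, h.ci⟩

theorem AberT.three (h : AberT g R I J K F0 F1 F2) (hg : PD g) (hR : Alg g R) (X Y Z : E n) :
    F0 X Y * g Z Z = g (R X Y Z) (I Z) + g (R X Y (J Z)) (K Z) := by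
  have h1 := h.ck X Y Z (J Z)
  have h2 : g (I Z) (J Z) = 0 := by
    have := h.sk Z Z
    rw [hg.symm (K Z)] at this
    rw [h.si, h.ij]
    linarith
  rw [h2, h.kj, h.sj Z, h.jj, map_neg, map_neg, aber_s34 hg hR] at h1
  linarith

theorem AberT.one (h : AberT g R I J K F0 F1 F2) (hg : PD g) (hb : Onb g b) (hR : Alg g R)
    (X Y : E n) : n * F0 X Y = 2 * ∑ i, g (R X Y (b i)) (I (b i)) := by
  have h1 := Finset.sum_congr rfl fun i (_ : i ∈ Finset.univ) => h.three hg hR X Y (b i)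
  have h2 := aber_swap hg hb h.sj (β := fun u v => g (R X Y u) (K v))
    (fun v => ⟨fun _ _ => by simp, fun _ _ => by simp⟩)
    (fun v => ⟨fun _ _ => by simp, fun _ _ => by simp⟩)
  simp only [h.kj, map_neg, Finset.sum_neg_distrib, neg_neg] at h2
  simp only [hb.one, mul_one, Finset.sum_const, Finset.card_univ, Fintype.card_fin,
    nsmul_eq_mul, Finset.sum_add_distrib, h2] at h1
  linarith

theorem AberT.skew (h : AberT g R I J K F0 F1 F2) (hg : PD g) (hb : Onb g b) (hR : Alg g R)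
    (hn : n ≠ 0) (X Y : E n) : F0 X Y = -F0 Y X := by
  have h0 : (n : ℝ) ≠ 0 := Nat.cast_ne_zero.2 hn
  refine mul_left_cancel₀ h0 ?_
  rw [mul_neg, h.one hg hb hR, h.one hg hb hR, ← mul_neg, ← Finset.sum_neg_distrib]
  exact congrArg _ (Finset.sum_congr rfl fun i _ => aber_s12 hR _ _ _ _)

theorem AberT.lin (h : AberT g R I J K F0 F1 F2) (hg : PD g) (hb : Onb g b) (hR : Alg g R)
    (hn : n ≠ 0) (Y : E n) : IsLinearMap ℝ fun X => F0 X Y := by
  have h0 : (n : ℝ) ≠ 0 := Nat.cast_ne_zero.2 hn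
  refine ⟨fun x y => mul_left_cancel₀ h0 ?_, fun c x => mul_left_cancel₀ h0 ?_⟩
  · rw [mul_add, h.one hg hb hR, h.one hg hb hR, h.one hg hb hR, ← mul_add,
      ← Finset.sum_add_distrib]
    simp
  · rw [smul_eq_mul, mul_left_comm, h.one hg hb hR, h.one hg hb hR, mul_left_comm c,
      Finset.mul_sum _ _ c]
    simp

theorem AberT.two (h : AberT g R I J K F0 F1 F2) (hg : PD g) (hb : Onb g b) (hR : Alg g R)
    (hn : n ≠ 0) (X Y : E n) :
    n * F0 X (I Y) + 4 * F1 X (J Y) + 4 * F2 X (K Y) = -4 * ∑ i, g (R (b i) X Y) (b i) := by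
  have h1 := h.one hg hb hR X (I Y)
  have h2 := aber_swap hg hb h.si (β := fun u v => g (R v X (I Y)) u)
    (fun v => ⟨fun _ _ => by simp, fun _ _ => by simp⟩)
    (fun v => ⟨fun _ _ => by simp, fun _ _ => by simp⟩)
  have h3 : ∀ i, g (R X (I Y) (b i)) (I (b i)) =
      g (R (I (b i)) X (I Y)) (b i) - g (R (b i) X (I Y)) (I (b i)) := fun i => by
    linarith [aber_bi hR X (I Y) (b i) (I (b i)), aber_pair hg hR (I Y) (b i) X (I (b i)),
      aber_s12 hR X (I (b i)) (I Y) (b i)]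
  have h4 : ∀ i, g (R (b i) X (I Y)) (I (b i)) = g (R (b i) X Y) (b i) -
      g (K Y) (b i) * F2 (b i) X - g (J Y) (b i) * F1 (b i) X := fun i => by
    have := h.ci (b i) X (I Y) (b i)
    rw [h.ii, h.ji, h.ki] at this
    simp only [map_neg, _root_.neg_apply] at this
    linarith
  have h5 := aber_lin hb (h.cyc.lin hg hb hR hn X) (J Y)
  have h6 := aber_lin hb (h.cyc.cyc.lin hg hb hR hn X) (K Y)
  rw [Finset.sum_congr rfl fun i _ => h3 i, Finset.sum_sub_distrib] at h1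
  have h7 := Finset.sum_congr rfl fun i (_ : i ∈ Finset.univ) => h4 i
  rw [Finset.sum_sub_distrib, Finset.sum_sub_distrib, h5, h6] at h7
  linarith [h.cyc.skew hg hb hR hn X (J Y), h.cyc.cyc.skew hg hb hR hn X (K Y)]

theorem AberT.ric (h : AberT g R I J K F0 F1 F2) (hg : PD g) (hb : Onb g b) (hR : Alg g R)
    (hn : 8 ≤ n) (X Y : E n) :
    (n + 8) * F0 X (I Y) = -4 * ∑ i, g (R (b i) X Y) (b i) := by
  have hn' : n ≠ 0 := by omega
  have h0 : (n : ℝ) - 4 ≠ 0 := by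
    have : (8 : ℝ) ≤ n := by exact_mod_cast hn
    linarith
  have h1 := h.two hg hb hR hn' X Y
  have h2 := h.cyc.two hg hb hR hn' X Y
  have h3 := h.cyc.cyc.two hg hb hR hn' X Y
  have e1 : F1 X (J Y) = F0 X (I Y) := mul_left_cancel₀ h0 (by linarith)
  have e2 : F2 X (K Y) = F0 X (I Y) := mul_left_cancel₀ h0 (by linarith)
  rw [e1, e2] at h1
  linarith

theorem AberT.ric' (h : AberT g R I J K F0 F1 F2) (hg : PD g) (hb : Onb g b) (hR : Alg g R)
    (hn : 8 ≤ n) (X Y : E n) :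
    (n + 8) * F0 X Y = 4 * ∑ i, g (R (b i) X (I Y)) (b i) := by
  have h1 := h.ric hg hb hR hn X (-I Y)
  simp only [map_neg, h.ii, neg_neg, _root_.neg_apply, Finset.sum_neg_distrib] at h1
  linarith

theorem AberT.diag (h : AberT g R I J K F0 F1 F2) (hg : PD g) (hb : Onb g b) (hR : Alg g R)
    (hn : 8 ≤ n) (X Z : E n) :
    (∑ i, g (R (b i) X X) (b i)) * g Z Z = (∑ i, g (R (b i) Z Z) (b i)) * g X X := by
  have hn' : n ≠ 0 := by omega
  have key : ∀ X Z, -8 * ((∑ i, g (R (b i) X X) (b i)) * g Z Z) = (n + 8) *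
      (g (R X (I X) Z) (I Z) + g (R X (I X) (J Z)) (K Z) +
        (g (R (J X) (K X) Z) (I Z) + g (R (J X) (K X) (J Z)) (K Z))) := fun X Z => by
    have h1 := h.ric hg hb hR hn X X
    have h2 := h.ric' hg hb hR hn (J X) (K X)
    have h3 := h.cyc.ric' hg hb hR hn (J X) X
    have h4 := h.cyc.ric hg hb hR hn X X
    have h5 := h.cyc.skew hg hb hR hn' (J X) X
    simp only [h.ik, map_neg, _root_.neg_apply, Finset.sum_neg_distrib] at h2
    rw [← h.three hg hR, ← h.three hg hR]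
    rw [h5] at h3
    linear_combination -g Z Z * (h1 + h2 + h3 + h4)
  have h1 := key X Z
  have h2 := key Z X
  rw [aber_pair hg hR Z (I Z) X, aber_pair hg hR Z (I Z) (J X), aber_pair hg hR (J Z) (K Z) X,
    aber_pair hg hR (J Z) (K Z) (J X)] at h2
  linarith

theorem aber_sym (hg : PD g) (hR : Alg g R) (u X Y : E n) : g (R u X Y) u = g (R u Y X) u := by
  rw [aber_pair hg hR, aber_s12 hR, aber_s34 hg hR, neg_neg]

theorem AberT.ein (h : AberT g R I J K F0 F1 F2) (hg : PD g) (hb : Onb g b) (hR : Alg g R)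
    (hn : 8 ≤ n) : ∃ c : ℝ, ∀ X Y, ∑ i, g (R (b i) X Y) (b i) = c * g X Y := by
  have i0 : Fin n := ⟨0, by omega⟩
  refine ⟨∑ i, g (R (b i) (b i0) (b i0)) (b i), fun X Y => ?_⟩
  have h1 := h.diag hg hb hR hn (X + Y) (b i0)
  have h2 := h.diag hg hb hR hn X (b i0)
  have h3 := h.diag hg hb hR hn Y (b i0)
  have h4 := Finset.sum_congr rfl fun i (_ : i ∈ Finset.univ) => aber_sym hg hR (b i) Y X
  simp only [map_add, _root_.add_apply, Finset.sum_add_distrib, hg.symm Y X] at h1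
  rw [hb.one] at h1 h2 h3
  linarith

end Aux

theorem berger {m : ℕ} (hm : 2 ≤ m) {g : Bil (4 * m)} (hg : PD g) {b : Fin (4 * m) → E (4 * m)}
    (hb : Onb g b) {R : E (4 * m) →L[ℝ] E (4 * m) →L[ℝ] E (4 * m) →L[ℝ] E (4 * m)} (hR : Alg g R)
    {I : Fin 3 → E (4 * m) →L[ℝ] E (4 * m)} (hq : Quat I)
    (hs : ∀ k u v, g (I k u) v = -g u (I k v)) {F : E (4 * m) → E (4 * m) → Fin 3 → ℝ}
    (hF : ∀ k X Y v, R X Y (I k v) - I k (R X Y v) =
      ∑ l, crossProduct (F X Y) (Pi.single k 1) l • I l v) :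
    ∃ ν : ℝ, (∀ X Y k, F X Y k = -ν * g (I k X) Y) ∧
      ∀ X Y, ∑ i, g (R (b i) X Y) (b i) = (m + 2) * ν * g X Y := by
  have jk : ∀ v, I 0 (I 2 v) = -I 1 v := fun v => by rw [← hq.mul, hq.sq]
  have ji : ∀ v, I 1 (I 0 v) = -I 2 v := fun v => by
    have h1 := hq.sq 2 (I 1 (I 0 v))
    rw [← hq.mul (I 1 (I 0 v)), hq.sq 1, map_neg, hq.sq 0, neg_neg] at h1
    rw [h1, neg_neg]
  have kj : ∀ v, I 2 (I 1 v) = -I 0 v := fun v => by rw [← hq.mul, hq.sq, map_neg]
  have c : ∀ k X Y v w, g (R X Y (I k v)) w + g (R X Y v) (I k w) =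
      ∑ l, crossProduct (F X Y) (Pi.single k 1) l * g (I l v) w := fun k X Y v w => by
    have h := congrArg (fun a => g a w) (hF k X Y v)
    simp only [map_sub, map_sum, map_smul, _root_.sub_apply,
      _root_.sum_apply, _root_.smul_apply, smul_eq_mul, hs k] at h
    linarith
  have T : AberT g R (I 0) (I 1) (I 2) (fun X Y => F X Y 0) (fun X Y => F X Y 1)
      fun X Y => F X Y 2 := by
    refine ⟨hq.sq 0, hq.sq 1, hq.sq 2, hq.mul, fun v => ?_, fun v => ?_, ji, kj, jk, hs 0, hs 1,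
      hs 2, fun X Y v w => ?_, fun X Y v w => ?_, fun X Y v w => ?_⟩
    · have h1 := congrArg (I 1) (ji v)
      rw [hq.sq, map_neg] at h1
      exact (neg_injective h1).symm
    · rw [← hq.mul, ji, map_neg, jk, neg_neg]
    · rw [c]
      simp [Fin.sum_univ_three, cross_apply, sub_eq_add_neg]
    · rw [c]
      simp [Fin.sum_univ_three, cross_apply, sub_eq_add_neg, add_comm]
    · rw [c]
      simp [Fin.sum_univ_three, cross_apply, sub_eq_add_neg]
  have hn : 8 ≤ 4 * m := by omega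
  obtain ⟨a, ha⟩ := T.ein hg hb hR hn
  have h0 : (m : ℝ) + 2 ≠ 0 := by positivity
  refine ⟨a / (m + 2), fun X Y k => ?_, fun X Y => by rw [ha]; field_simp⟩
  have h1 : ((4 * m : ℕ) + 8 : ℝ) * F X Y k = 4 * ∑ i, g (R (b i) X (I k Y)) (b i) := by
    fin_cases k
    · exact T.ric' hg hb hR hn X Y
    · exact T.cyc.ric' hg hb hR hn X Y
    · exact T.cyc.cyc.ric' hg hb hR hn X Y
  rw [ha] at h1
  push_cast at h1
  rw [hs]
  field_simp
  linarith

end Vale.Agent.P292
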