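import Vale.Agent.P292.ADefs

/-! The connection form and its curvature. -/

set_option maxSynthPendingDepth 3

open scoped ContDiff Topology Manifold Bundle Quaternion
open Set Filter Metric

noncomputable section

namespace Vale.Agent.P292

open Vale.Agent.P219 (E)
open Vale.Agent.P219.R (Bil ip chr Good PD brD brG brI At tr)

variable {n : ℕ} {G : E n → Bil n} {U : Set (E n)} {y : E n}

variable {I : Fin 3 → E n → E n →L[ℝ] E n}

theorem ACon_anti {J : Fin 3 → E n →L[ℝ] E n} (h : Quat J) (k l : Fin 3) (v : E n) :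
    J k (J l v) + J l (J k v) = if k = l then (-2 : ℝ) • v else 0 := by
  have h10 : ∀ v, J 1 (J 0 v) = -J 2 v := fun v => by
    have h1 : J 1 (J 0 (J 2 (J 2 v))) = J 2 v := by
      rw [← h.mul (J 2 v), h.sq, map_neg, h.sq, neg_neg]
    rw [h.sq, map_neg, map_neg] at h1
    rw [← h1, neg_neg]
  have h02 : ∀ v, J 0 (J 2 v) = -J 1 v := fun v => by rw [← h.mul, h.sq]
  have h20 : ∀ v, J 2 (J 0 v) = J 1 v := fun v => by rw [← h.mul, h10, map_neg, h02, neg_neg]
  have h21 : ∀ v, J 2 (J 1 v) = -J 0 v := fun v => by rw [← h.mul, h.sq, map_neg]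
  have h12 : ∀ v, J 1 (J 2 v) = J 0 v := fun v => by rw [← h.mul, h10, h21, neg_neg]
  fin_cases k <;> fin_cases l <;> simp [h.sq, h.mul, h10, h02, h20, h21, h12] <;> module

/-- the coefficient of `J` in `B` -/
def ACon_cf (i : Fin n) (J B : E n →L[ℝ] E n) : ℝ :=
  -(1 / 2) * (J (B (EuclideanSpace.single i 1)) i + B (J (EuclideanSpace.single i 1)) i)

theorem ACon_cf_sum (i : Fin n) {J : Fin 3 → E n →L[ℝ] E n} (h : Quat J) (c : Fin 3 → ℝ)
    (l : Fin 3) : ACon_cf i (J l) (∑ k, c k • J k) = c l := by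
  have h1 : ∀ k, J l (J k (EuclideanSpace.single i 1)) i + J k (J l (EuclideanSpace.single i 1)) i =
      if l = k then -2 else 0 := fun k => by
    have := congrArg (fun v : E n => v i) (ACon_anti h l k (EuclideanSpace.single i 1))
    split_ifs at this ⊢ <;> simpa using this
  have h2 : ∑ k, c k * (J l (J k (EuclideanSpace.single i 1)) i +
      J k (J l (EuclideanSpace.single i 1)) i) = c l * -2 := by
    simp [h1]
  simp only [Fin.sum_univ_three] at h2
  simp [ACon_cf, Fin.sum_univ_three]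
  linarith

theorem ACon_skew (i : Fin n) (h : Good G U) (hI : ∀ k, ContDiffOn ℝ ∞ (I k) U)
    (hq : ∀ y ∈ U, Quat fun k => I k y) (hy : y ∈ U) (k l : Fin 3) (X : E n) :
    ACon_cf i (I l y) (covE G (I k) y X) + ACon_cf i (I k y) (covE G (I l) y X) = 0 := by
  have d : ∀ k, HasFDerivAt (I k) (fderiv ℝ (I k) y) y := fun k =>
    (((hI k).contDiffAt (h.isOpen.mem_nhds hy)).differentiableAt (by simp)).hasFDerivAt
  set v : E n := EuclideanSpace.single i 1 with hv
  have d1 := ((d k).clm_apply ((d l).clm_apply (hasFDerivAt_const v y))).add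
    ((d l).clm_apply ((d k).clm_apply (hasFDerivAt_const v y)))
  have e1 : ((fun z => I k z (I l z v)) + fun z => I l z (I k z v)) =ᶠ[𝓝 y]
      fun _ => if k = l then (-2 : ℝ) • v else 0 := by
    filter_upwards [h.isOpen.mem_nhds hy] with z hz
    exact ACon_anti (hq z hz) k l v
  have e2 := congrArg (fun A : E n →L[ℝ] E n => A X)
    (d1.unique ((hasFDerivAt_const _ y).congr_of_eventuallyEq e1))
  simp at e2
  have e3 : om G y X (I k y (I l y v)) + om G y X (I l y (I k y v)) =
      I k y (I l y (om G y X v)) + I l y (I k y (om G y X v)) := by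
    rw [← map_add, ACon_anti (hq y hy) k l, ACon_anti (hq y hy) k l]
    split_ifs <;> simp
  have e4 : I l y (covE G (I k) y X v) + covE G (I k) y X (I l y v) +
      (I k y (covE G (I l) y X v) + covE G (I l) y X (I k y v)) = 0 := by
    simp only [covE, sub_apply, add_apply, ContinuousLinearMap.comp_apply, map_add, map_sub]
    linear_combination (norm := module) e2 + e3
  have e5 := congrArg (fun w : E n => w i) e4
  simp only [PiLp.add_apply, PiLp.zero_apply] at e5
  simp only [ACon_cf, ← hv]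
  linarith

theorem ACon_sm (i : Fin n) {J B : E n → E n →L[ℝ] E n} (hJ : ContDiffOn ℝ ∞ J U)
    (hB : ContDiffOn ℝ ∞ B U) : ContDiffOn ℝ ∞ (fun y => ACon_cf i (J y) (B y)) U :=
  contDiffOn_const.mul
    (((EuclideanSpace.proj i : E n →L[ℝ] ℝ).contDiff.comp_contDiffOn
      (hJ.clm_apply (hB.clm_apply contDiffOn_const))).add
    ((EuclideanSpace.proj i : E n →L[ℝ] ℝ).contDiff.comp_contDiffOn
      (hB.clm_apply (hJ.clm_apply contDiffOn_const))))

/-- the coefficient as a linear form -/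
def ACon_L (i : Fin n) (G : E n → Bil n) (J K : E n → E n →L[ℝ] E n) (y : E n) : E n →L[ℝ] ℝ :=
  LinearMap.toContinuousLinearMap
    { toFun := fun X => ACon_cf i (J y) (covE G K y X)
      map_add' := fun X Y => by
        simp [ACon_cf, covE]
        ring
      map_smul' := fun r X => by
        simp [ACon_cf, covE]
        ring }

theorem ACon_L_sm (i : Fin n) (h : Good G U) {J K : E n → E n →L[ℝ] E n} (hJ : ContDiffOn ℝ ∞ J U)
    (hK : ContDiffOn ℝ ∞ K U) : ContDiffOn ℝ ∞ (ACon_L i G J K) U := by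
  refine contDiffOn_clm_apply.2 fun X => ACon_sm i hJ ?_
  have h1 : ContDiffOn ℝ ∞ (fun y => om G y X) U := (om_smooth h).clm_apply contDiffOn_const
  have h2 : ContDiffOn ℝ ∞ (fderiv ℝ K) U := hK.fderiv_of_isOpen h.isOpen (by simp)
  exact ((h2.clm_apply contDiffOn_const).add (h1.clm_comp hK)).sub (hK.clm_comp h1)

theorem exists_con (hn : 0 < n) (h : Good G U) (hI : ∀ k, ContDiffOn ℝ ∞ (I k) U)
    (hq : ∀ y ∈ U, Quat fun k => I k y)
    (hs : ∀ y ∈ U, ∀ k X, covE G (I k) y X ∈ Submodule.span ℝ (range fun l => I l y)) :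
    ∃ a : E n → E n →L[ℝ] Fin 3 → ℝ, ContDiffOn ℝ ∞ a U ∧ ∀ k, ∀ y ∈ U, ∀ X,
      covE G (I k) y X = ∑ l, crossProduct (a y X) (Pi.single k 1) l • I l y := by
  let i : Fin n := ⟨0, hn⟩
  refine ⟨fun y => ContinuousLinearMap.pi
    ![ACon_L i G (I 2) (I 1) y, ACon_L i G (I 0) (I 2) y, ACon_L i G (I 1) (I 0) y], ?_,
    fun k y hy X => ?_⟩
  · refine contDiffOn_clm_apply.2 fun X => contDiffOn_pi.2 fun j => ?_
    fin_cases j
    · exact (ACon_L_sm i h (hI 2) (hI 1)).clm_apply contDiffOn_const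
    · exact (ACon_L_sm i h (hI 0) (hI 2)).clm_apply contDiffOn_const
    · exact (ACon_L_sm i h (hI 1) (hI 0)).clm_apply contDiffOn_const
  · choose c hc using fun k => (Submodule.mem_span_range_iff_exists_fun ℝ).1 (hs y hy k X)
    have h1 : ∀ k l, ACon_L i G (I l) (I k) y X = c k l := fun k l => by
      rw [← ACon_cf_sum i (hq y hy) (c k) l, hc]
      rfl
    have h2 : ∀ k l, c k l + c l k = 0 := fun k l => by
      rw [← h1, ← h1]
      exact ACon_skew i h hI hq hy k l X
    rw [← hc]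
    refine Finset.sum_congr rfl fun l _ => ?_
    congr 1
    fin_cases k <;> fin_cases l <;> simp [cross_apply, h1] <;>
      linarith [h2 0 0, h2 1 1, h2 2 2, h2 0 1, h2 0 2, h2 1 2]

end Vale.Agent.P292
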