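import Vale.Agent.P292.ADefs

/-! The Ricci identity for the frame, and the symmetries of the curvature tensor. -/

set_option maxSynthPendingDepth 3

open scoped ContDiff Topology Manifold Bundle Quaternion
open Set Filter Metric

noncomputable section

namespace Vale.Agent.P292

open Vale.Agent.P219 (E)
open Vale.Agent.P219.R (Bil ip chr Good PD brD brG brI At tr)

variable {n : ℕ} {G : E n → Bil n} {U : Set (E n)} {y : E n}

theorem acur_fd {W X : Type} [NormedAddCommGroup W] [NormedSpace ℝ W] [NormedAddCommGroup X]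
    [NormedSpace ℝ X] {c : E n → W →L[ℝ] X} {u : E n → W} (hc : DifferentiableAt ℝ c y)
    (hu : DifferentiableAt ℝ u y) (a : E n) :
    fderiv ℝ (fun z => c z (u z)) y a = fderiv ℝ c y a (u y) + c y (fderiv ℝ u y a) := by
  rw [fderiv_clm_apply hc hu]
  simp [add_comm]

theorem acur_cross {a : E n → Fin 3 → ℝ} (ha : DifferentiableAt ℝ a y) (b : Fin 3 → ℝ)
    (l : Fin 3) : HasFDerivAt (fun z => crossProduct (a z) b l)
      (((ContinuousLinearMap.proj l).comp
        (LinearMap.toContinuousLinearMap (crossProduct.flip b))).comp (fderiv ℝ a y)) y :=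
  ((ContinuousLinearMap.proj (R := ℝ) (φ := fun _ : Fin 3 => ℝ) l).comp
    (LinearMap.toContinuousLinearMap (crossProduct.flip b))).hasFDerivAt.comp y ha.hasFDerivAt

theorem acur_snd {W : Type} [NormedAddCommGroup W] [NormedSpace ℝ W] {F : E n → W}
    (hF : ContDiffAt ℝ ∞ F y) :
    DifferentiableAt ℝ F y ∧ DifferentiableAt ℝ (fderiv ℝ F) y ∧
      ∀ X Y, fderiv ℝ (fderiv ℝ F) y X Y = fderiv ℝ (fderiv ℝ F) y Y X :=
  ⟨hF.differentiableAt (by simp),
    (hF.fderiv_right (m := ∞) (by simp)).differentiableAt (by simp),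
    (hF.isSymmSndFDerivAt (by
      rw [minSmoothness_of_isRCLikeNormedField]
      exact ENat.LEInfty.out)).eq⟩

theorem curv_frame {I : Fin 3 → E n → E n →L[ℝ] E n} {a : E n → E n →L[ℝ] Fin 3 → ℝ} (h : Good G U)
    (hI : ∀ k, ContDiffOn ℝ ∞ (I k) U) (ha : ContDiffOn ℝ ∞ a U)
    (hp : ∀ k, ∀ y ∈ U, ∀ X,
      covE G (I k) y X = ∑ l, crossProduct (a y X) (Pi.single k 1) l • I l y)
    (hy : y ∈ U) (k : Fin 3) (X Y v : E n) :
    curvOm (om G) y X Y (I k y v) - I k y (curvOm (om G) y X Y v) =
      ∑ l, crossProduct (curvA a y X Y) (Pi.single k 1) l • I l y v := by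
  have hU := h.isOpen.mem_nhds hy
  have hΓ := ((om_smooth h).contDiffAt hU).differentiableAt (by simp)
  have hI' := fun l => acur_snd ((hI l).contDiffAt hU)
  have ha' := (ha.contDiffAt hU).differentiableAt (by simp)
  have c : ∀ u, DifferentiableAt ℝ (fun _ : E n => u) y := fun u : E n => differentiableAt_const u
  have p : ∀ l, ∀ z ∈ U, ∀ X w, fderiv ℝ (I l) z X w =
      I l z (om G z X w) - om G z X (I l z w) +
        ∑ m, crossProduct (a z X) (Pi.single l 1) m • I m z w := fun l z hz X w => by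
    have h1 := DFunLike.congr_fun (hp l z hz X) w
    simp only [covE, sub_apply, add_apply, ContinuousLinearMap.comp_apply, _root_.sum_apply,
      smul_apply] at h1
    rw [← h1]
    abel
  have key : ∀ X Y, fderiv ℝ (fderiv ℝ (I k)) y X Y v =
      fderiv ℝ (I k) y X (om G y Y v) + I k y (fderiv ℝ (om G) y X Y v) -
        (fderiv ℝ (om G) y X Y (I k y v) + om G y Y (fderiv ℝ (I k) y X v)) +
        ∑ m, (crossProduct (a y Y) (Pi.single k 1) m • fderiv ℝ (I m) y X v +
          crossProduct (fderiv ℝ a y X Y) (Pi.single k 1) m • I m y v) := fun X Y => by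
    have e : (fun z => fderiv ℝ (I k) z Y v) =ᶠ[𝓝 y] fun z =>
        I k z (om G z Y v) - om G z Y (I k z v) +
          ∑ m, crossProduct (a z Y) (Pi.single k 1) m • I m z v := by
      filter_upwards [hU] with z hz using p k z hz Y v
    have d1 := hΓ.clm_apply (c Y)
    have d2 := fun m => (hI' m).1.clm_apply (c v)
    have d3 := d1.clm_apply (c v)
    have d4 := fun m => acur_cross (ha'.clm_apply (c Y)) (Pi.single k 1) m
    have d5 := (hI' k).2.1.clm_apply (c Y)
    have d6 := (((hI' k).1.clm_apply d3).hasFDerivAt.fun_sub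
      (d1.clm_apply (d2 k)).hasFDerivAt).fun_add
      (HasFDerivAt.fun_sum (u := Finset.univ) fun m _ => (d4 m).fun_smul (d2 m).hasFDerivAt)
    rw [← fo_fd (hI' k).2.1, ← fo_fd d5, e.fderiv_eq, d6.fderiv]
    simp only [sub_apply, add_apply, _root_.sum_apply, smul_apply,
      ContinuousLinearMap.smulRight_apply, ContinuousLinearMap.comp_apply,
      acur_fd (hI' k).1 d3, acur_fd d1 (d2 k), fo_fd d1, fo_fd hΓ, fo_fd (hI' _).1, fo_fd ha']
    rfl
  have h1 := DFunLike.congr_fun ((hI' k).2.2 X Y) v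
  rw [key, key] at h1
  simp only [p _ y hy, map_add, map_sub, map_sum, map_smul] at h1
  simp only [curvOm_apply, curvA, map_add, map_sub]
  fin_cases k <;>
    simp [cross_apply, Fin.sum_univ_three] at h1 ⊢ <;>
    linear_combination (norm := module) -h1

theorem curv_alg (h : Good G U) (hy : y ∈ U) : Alg (G y) (curvOm (om G) y) := by
  have hU := h.isOpen.mem_nhds hy
  have hΓ := ((om_smooth h).contDiffAt hU).differentiableAt (by simp)
  have hG := acur_snd (h.smooth.contDiffAt hU)
  have c : ∀ u, DifferentiableAt ℝ (fun _ : E n => u) y := fun u : E n => differentiableAt_const u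
  have s0 : ∀ z ∈ U, ∀ u v, om G z u v = om G z v u := fun z hz u v => by
    rw [om_apply h hz, om_apply h hz, h.chr_symm hz]
  have s1 : ∀ a u v, fderiv ℝ (om G) y a u v = fderiv ℝ (om G) y a v u := fun a u v => by
    have e : (fun z => om G z u v) =ᶠ[𝓝 y] fun z => om G z v u := by
      filter_upwards [hU] with z hz using s0 z hz u v
    rw [← fo_fd hΓ, ← fo_fd (hΓ.clm_apply (c u)), e.fderiv_eq, fo_fd (hΓ.clm_apply (c v)),
      fo_fd hΓ]
  have key : ∀ X Y w z, fderiv ℝ (fderiv ℝ G) y X Y w z =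
      fderiv ℝ G y X (om G y Y w) z + G y (fderiv ℝ (om G) y X Y w) z +
        (fderiv ℝ G y X w (om G y Y z) + G y w (fderiv ℝ (om G) y X Y z)) := fun X Y w z => by
    have e : (fun x => fderiv ℝ G x Y w z) =ᶠ[𝓝 y] fun x =>
        G x (om G x Y w) z + G x w (om G x Y z) := by
      filter_upwards [hU] with x hx using om_metric h hx Y w z
    have d1 := hΓ.clm_apply (c Y)
    have d2 := fun u => d1.clm_apply (c u)
    have d3 := hG.1.clm_apply (d2 w)
    have d4 := hG.1.clm_apply (c w)
    have d5 := hG.2.1.clm_apply (c Y)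
    have d6 := (d3.clm_apply (c z)).hasFDerivAt.fun_add (d4.clm_apply (d2 z)).hasFDerivAt
    rw [← fo_fd hG.2.1, ← fo_fd d5, ← fo_fd (d5.clm_apply (c w)), e.fderiv_eq, d6.fderiv]
    simp only [add_apply, fo_fd d3, acur_fd hG.1 (d2 w), acur_fd d4 (d2 z), fo_fd d1, fo_fd hΓ,
      fo_fd hG.1]
  refine ⟨fun u v w => ?_, fun u v w => ?_, fun u v w z => ?_⟩
  · simp only [curvOm_apply]
    abel
  · simp only [curvOm_apply]
    rw [s1 u w v, s1 v u w, s1 w v u, s0 y hy w v, s0 y hy u w, s0 y hy v u]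
    abel
  · have h1 := DFunLike.congr_fun (DFunLike.congr_fun (hG.2.2 u v) w) z
    rw [key, key] at h1
    simp only [om_metric h hy] at h1
    simp only [curvOm_apply, map_add, map_sub, add_apply, sub_apply]
    linarith

end Vale.Agent.P292
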