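import Vale.Agent.P292.FO
import Vale.Agent.P219.Bridge

/-! Definitions for part A: isometric transports and quaternionic frames. -/

set_option maxSynthPendingDepth 3

open scoped ContDiff Topology Manifold Bundle Quaternion
open Set Filter Metric

noncomputable section

namespace Vale.Agent.P292

open Vale.Agent.P219 (E)
open Vale.Agent.P219.R (Bil ip chr Good PD brD brG brI At tr)

section Bridge

variable {n : ℕ} {M : Type} [TopologicalSpace M] [ChartedSpace (E n) M]
  {e : OpenPartialHomeomorph M (E n)}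

theorem ab_md (he : e ∈ At n M) : e.MDifferentiable 𝓘(ℝ, E n) 𝓘(ℝ, E n) :=
  ⟨(contMDiffOn_of_mem_maximalAtlas he).mdifferentiableOn (by simp),
    (contMDiffOn_symm_of_mem_maximalAtlas he).mdifferentiableOn (by simp)⟩

theorem ab_at [IsManifold 𝓘(ℝ, E n) ∞ M] (he : e ∈ atlas (E n) M) : e ∈ At n M :=
  IsManifold.subset_maximalAtlas he

theorem ab_chain {F : Type*} [NormedAddCommGroup F] [NormedSpace ℝ F] (he : e ∈ At n M)
    {f : F → E n} {a : F} (hf : DifferentiableAt ℝ f a) (ha : f a ∈ e.target) (u : F) :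
    mfderiv 𝓘(ℝ, F) 𝓘(ℝ, E n) (e.symm ∘ f) a u = brD e (f a) (fderiv ℝ f a u) := by
  rw [(((ab_md he).mdifferentiableAt_symm ha).hasMFDerivAt.comp a
    hf.hasFDerivAt.hasMFDerivAt).mfderiv]
  rfl

theorem ab_sec [IsManifold 𝓘(ℝ, E n) ∞ M] (he : e ∈ At n M) (u : E n) :
    ContMDiffOn 𝓘(ℝ, E n) (𝓘(ℝ, E n).prod 𝓘(ℝ, E n)) ∞ (fun y : E n => (⟨e.symm y, brD e y u⟩ :
      Bundle.TotalSpace (E n) (TangentSpace 𝓘(ℝ, E n) (M := M)))) e.target := by
  have h1 := (contMDiffOn_symm_of_mem_maximalAtlas he).contMDiffOn_tangentMapWithin (m := ∞)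
    (by simp) e.open_target.uniqueMDiffOn
  have h2 := (contMDiff_vectorSpace_iff_contDiff (𝕜 := ℝ) (n := ∞)
    (V := fun _ : E n => u)).2 contDiff_const
  refine (h1.comp h2.contMDiffOn fun y hy => hy).congr fun y hy => ?_
  simp only [Function.comp, tangentMapWithin, mfderivWithin_of_isOpen e.open_target hy, brD]
  rfl

/-- the differential of the inverse chart as a map of the model space -/
def aD (e : OpenPartialHomeomorph M (E n)) (y : E n) : E n →L[ℝ] E n := brD e y

/-- the differential of the chart as a map of the model space -/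
def aC (e : OpenPartialHomeomorph M (E n)) (x : M) : E n →L[ℝ] E n :=
  mfderiv 𝓘(ℝ, E n) 𝓘(ℝ, E n) e x

theorem aC_aD (he : e ∈ At n M) {y : E n} (hy : y ∈ e.target) (v : E n) :
    aC e (e.symm y) (aD e y v) = v :=
  DFunLike.congr_fun ((ab_md he).comp_symm_deriv hy) v

theorem aD_aC (he : e ∈ At n M) {y : E n} (hy : y ∈ e.target) (v : E n) :
    aD e y (aC e (e.symm y) v) = v := by
  have h := DFunLike.congr_fun ((ab_md he).symm_comp_deriv (e.map_target hy)) v
  rw [e.right_inv hy] at h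
  exact h

theorem aD_tr {e' : OpenPartialHomeomorph M (E n)} (he : e ∈ At n M) (he' : e' ∈ At n M)
    {x : M} (hx : x ∈ e.source) (hx' : x ∈ e'.source) (w : E n) :
    aD e (e x) w = aD e' (e' x) (fderiv ℝ (e' ∘ e.symm) (e x) w) := by
  have p : (e' ∘ e.symm) (e x) = e' x := congrArg e' (e.left_inv hx)
  have d : DifferentiableAt ℝ (e' ∘ e.symm) (e x) :=
    (((ab_md he').mdifferentiableAt ((e.left_inv hx).symm ▸ hx')).comp (e x)
      ((ab_md he).mdifferentiableAt_symm (e.map_source hx))).differentiableAt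
  have q : e'.symm ∘ e' ∘ e.symm =ᶠ[𝓝 (e x)] e.symm :=
    ((e.continuousAt_symm (e.map_source hx)).eventually_mem
      (e'.open_source.mem_nhds ((e.left_inv hx).symm ▸ hx'))).mono fun y hy => e'.left_inv hy
  have := ab_chain he' d (p ▸ e'.map_source hx') w
  rw [q.mfderiv_eq, p] at this
  exact this

variable [Bundle.RiemannianBundle fun x : M => TangentSpace 𝓘(ℝ, E n) x]

theorem ab_ip (e : OpenPartialHomeomorph M (E n)) (y u v : E n) :
    ip (brG e y) u v = brI (e.symm y) (aD e y u) (aD e y v) := rfl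

theorem ab_metric (e : OpenPartialHomeomorph M (E n)) :
    (fun z u v => ip (brG e z) u v) = St.chartMetric n e := rfl

theorem ab_good [IsManifold 𝓘(ℝ, E n) ∞ M]
    [IsContMDiffRiemannianBundle 𝓘(ℝ, E n) ∞ (E n) fun x : M => TangentSpace 𝓘(ℝ, E n) x]
    (he : e ∈ At n M) : Good (brG e) e.target :=
  ⟨e.open_target, contDiffOn_clm_apply.2 fun u => contDiffOn_clm_apply.2 fun w =>
    ContMDiffOn.contDiffOn (ContMDiffOn.inner_bundle (F := E n) (IB := 𝓘(ℝ, E n))
      (E := fun x : M => TangentSpace 𝓘(ℝ, E n) x) (ab_sec he u) (ab_sec he w)),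
    fun y hy => ⟨fun u v => real_inner_comm (brD e y v) (brD e y u), fun _ hu =>
      real_inner_self_pos.2 fun h =>
        hu ((ab_md he).symm.mfderiv_injective hy (h.trans (map_zero _).symm))⟩⟩

theorem ab_compat {e' : OpenPartialHomeomorph M (E n)} (he : e ∈ At n M) (he' : e' ∈ At n M)
    {x : M} (hx : x ∈ e.source) (hx' : x ∈ e'.source) (u v : E n) :
    ip (brG e (e x)) u v = ip (brG e' (e' x)) (fderiv ℝ (e' ∘ e.symm) (e x) u)
      (fderiv ℝ (e' ∘ e.symm) (e x) v) := by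
  rw [ab_ip, ab_ip, aD_tr he he' hx hx', aD_tr he he' hx hx', e.left_inv hx, e'.left_inv hx']

/-- parallel transport as a map of the model space -/
def Tr (x y : M) (P : E n → E n) : Prop := St.Transport n x y P

/-- an invertible isometric transport whose inverse is a transport -/
structure TI (x y : M) (T : E n ≃L[ℝ] E n) : Prop where
  fwd : Tr x y T
  bwd : Tr y x T.symm
  iso : ∀ u v, brI y (T u) (T v) = brI x u v

/-- frames obtained by transport from the frame `I₀` at `p` -/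
def Fr (p : M) (I₀ : Fin 3 → E n →L[ℝ] E n) (x : M) (I : Fin 3 → E n →L[ℝ] E n) : Prop :=
  ∃ T : E n ≃L[ℝ] E n, TI p x T ∧ ∀ k v, I k (T v) = T (I₀ k v)

/-- the same in a chart -/
def FrC (p : M) (I₀ : Fin 3 → E n →L[ℝ] E n) (e : OpenPartialHomeomorph M (E n)) (y : E n)
    (I : Fin 3 → E n →L[ℝ] E n) : Prop :=
  Fr p I₀ (e.symm y) fun k => (aD e y).comp ((I k).comp (aC e (e.symm y)))

/-- the frame `I₀` at `p` is preserved by the holonomy group -/
structure Inv (p : M) (I₀ : Fin 3 → E n →L[ℝ] E n) : Prop where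
  quat : Quat I₀
  skew : ∀ k u v, brI p (I₀ k u) v = -brI p u (I₀ k v)
  hol : ∀ P : E n → E n, Tr p p P → ∀ k, ∃ c : Fin 3 → ℝ, ∀ v, P (I₀ k v) = ∑ l, c l • I₀ l (P v)

end Bridge

/-- solutions of the transport equation along segments near `c` -/
structure Par {n : ℕ} (Γ : E n → E n →L[ℝ] E n →L[ℝ] E n) (c : E n) (r : ℝ)
    (P : E n × E n → ℝ → E n →L[ℝ] E n) : Prop where
  zero : ∀ x ∈ ball c r, ∀ w ∈ ball (0 : E n) r, P (x, w) 0 = ContinuousLinearMap.id ℝ (E n)
  ode : ∀ x ∈ ball c r, ∀ w ∈ ball (0 : E n) r, ∀ t ∈ Icc (0 : ℝ) 1,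
    HasDerivAt (P (x, w)) (-(Γ (x + t • w) w).comp (P (x, w) t)) t
  smooth : ContDiffOn ℝ ∞ (fun z => P z 1) (ball c r ×ˢ ball 0 r)
  base : ∀ x ∈ ball c r, P (x, 0) 1 = ContinuousLinearMap.id ℝ (E n)
  der : ∀ x ∈ ball c r, HasFDerivAt (fun w => P (x, w) 1) (-Γ x) 0

/-- the covariant derivative of a field of endomorphisms -/
def covE {n : ℕ} (G : E n → Bil n) (I : E n → E n →L[ℝ] E n) (y X : E n) : E n →L[ℝ] E n :=
  fderiv ℝ I y X + (om G y X).comp (I y) - (I y).comp (om G y X)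

/-- an orthonormal basis -/
structure Onb {n : ℕ} (g : Bil n) (b : Fin n → E n) : Prop where
  sum : ∀ u, ∑ i, g u (b i) • b i = u
  one : ∀ i, g (b i) (b i) = 1

/-- the symmetries of a curvature tensor -/
structure Alg {n : ℕ} (g : Bil n) (R : E n →L[ℝ] E n →L[ℝ] E n →L[ℝ] E n) : Prop where
  skew : ∀ u v w, R u v w = -R v u w
  bianchi : ∀ u v w, R u v w + R v w u + R w u v = 0
  metric : ∀ u v w z, g (R u v w) z = -g w (R u v z)

end Vale.Agent.P292
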