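import Vale.Agent.P292.ASeg

/-! The holonomy hypothesis and transported frames. -/

set_option maxSynthPendingDepth 3

open scoped ContDiff Topology Manifold Bundle Quaternion
open Set Filter Metric

noncomputable section

namespace Vale.Agent.P292

open Vale.Agent.P219 (E)
open Vale.Agent.P219.R (Bil ip chr Good PD brD brG brI At tr)

/-- the three imaginary units -/
def aholQ : Fin 3 → ℍ[ℝ] := ![⟨0, 0, 1, 0⟩, ⟨0, 1, 0, 0⟩, ⟨0, 0, 0, 1⟩]

theorem ahol_co : ((aholQ 0).re = 0 ∧ (aholQ 0).imI = 0 ∧ (aholQ 0).imJ = 1 ∧ (aholQ 0).imK = 0) ∧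
    ((aholQ 1).re = 0 ∧ (aholQ 1).imI = 1 ∧ (aholQ 1).imJ = 0 ∧ (aholQ 1).imK = 0) ∧
    ((aholQ 2).re = 0 ∧ (aholQ 2).imI = 0 ∧ (aholQ 2).imJ = 0 ∧ (aholQ 2).imK = 1) :=
  ⟨⟨rfl, rfl, rfl, rfl⟩, ⟨rfl, rfl, rfl, rfl⟩, rfl, rfl, rfl, rfl⟩

/-- right multiplication as a linear map -/
def aholR {m : ℕ} (q : ℍ[ℝ]) : St.Hm m →ₗ[ℝ] St.Hm m where
  toFun v := St.rmul v q
  map_add' u v := by
    ext1 i
    simp [St.rmul, add_mul]
  map_smul' c v := by
    ext1 i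
    simp [St.rmul]

theorem ahol_mul {m : ℕ} (v : St.Hm m) (a b : ℍ[ℝ]) :
    St.rmul (St.rmul v a) b = St.rmul v (a * b) := by
  ext1 i
  simp [St.rmul, mul_assoc]

theorem ahol_neg {m : ℕ} (v : St.Hm m) : St.rmul v (-1) = -v := by
  ext1 i
  simp [St.rmul]

theorem ahol_sum {m : ℕ} (v : St.Hm m) (c : Fin 3 → ℝ) (q : Fin 3 → ℍ[ℝ]) :
    ∑ l, c l • St.rmul v (q l) = St.rmul v (∑ l, c l • q l) := by
  ext1 i
  simp [St.rmul, Fin.sum_univ_three, mul_add]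

theorem ahol_sq (k : Fin 3) : aholQ k * aholQ k = -1 := by
  fin_cases k <;> ext <;> simp [ahol_co]

theorem ahol_ij : aholQ 1 * aholQ 0 = aholQ 2 := by
  ext <;> simp [ahol_co]

theorem ahol_skew1 (k : Fin 3) (a b : ℍ[ℝ]) :
    inner ℝ (a * aholQ k) b = -inner ℝ a (b * aholQ k) := by
  rw [Quaternion.inner_def, Quaternion.inner_def]
  fin_cases k <;> simp [ahol_co] <;> ring

theorem ahol_skew {m : ℕ} (k : Fin 3) (u v : St.Hm m) :
    inner ℝ (St.rmul u (aholQ k)) v = -inner ℝ u (St.rmul v (aholQ k)) := by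
  rw [PiLp.inner_apply, PiLp.inner_apply, ← Finset.sum_neg_distrib]
  exact Finset.sum_congr rfl fun i _ => ahol_skew1 k (u i) (v i)

theorem ahol_conj (k : Fin 3) (q : ℍ[ℝ]) (hq : ‖q‖ = 1) :
    ∃ c : Fin 3 → ℝ, aholQ k * q = ∑ l, c l • (q * aholQ l) := by
  have h1 : q * star q = 1 := by
    rw [Quaternion.self_mul_star, Quaternion.normSq_eq_norm_mul_self, hq]
    simp
  have h2 : (star q * aholQ k * q).re = 0 := by
    fin_cases k <;> simp [ahol_co] <;> ring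
  refine ⟨![(star q * aholQ k * q).imJ, (star q * aholQ k * q).imI, (star q * aholQ k * q).imK], ?_⟩
  have h3 : ∀ s : ℍ[ℝ], s.re = 0 → ∑ l, (![s.imJ, s.imI, s.imK] : Fin 3 → ℝ) l • (q * aholQ l) =
      q * s := by
    intro s hs
    have : ∑ l, (![s.imJ, s.imI, s.imK] : Fin 3 → ℝ) l • aholQ l = s := by
      ext <;> simp [ahol_co, Fin.sum_univ_three, hs]
    rw [← this, Finset.mul_sum]
    simp only [mul_smul_comm, this]
  rw [h3 _ h2, ← mul_assoc, ← mul_assoc, h1, one_mul]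

theorem exists_inv {m : ℕ} {M : Type} [TopologicalSpace M] [ChartedSpace (E (4 * m)) M]
    [Bundle.RiemannianBundle fun x : M => TangentSpace 𝓘(ℝ, E (4 * m)) x]
    (hol : St.HolonomySpSp m M) :
    ∃ (p : M) (I₀ : Fin 3 → E (4 * m) →L[ℝ] E (4 * m)), Inv p I₀ := by
  obtain ⟨p, φ, hφ, hP⟩ := hol
  let ψ : E (4 * m) ≃ₗ[ℝ] St.Hm m := φ
  have hψ : ∀ u v, inner ℝ (ψ u) (ψ v) = brI p u v := hφ
  let I₀ : Fin 3 → E (4 * m) →L[ℝ] E (4 * m) := fun k =>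
    LinearMap.toContinuousLinearMap (ψ.symm.toLinearMap ∘ₗ aholR (aholQ k) ∘ₗ ψ.toLinearMap)
  have hI : ∀ k v, ψ (I₀ k v) = St.rmul (ψ v) (aholQ k) := fun k v => ψ.apply_symm_apply _
  refine ⟨p, I₀, ⟨fun k v => ψ.injective ?_, fun v => ψ.injective ?_⟩, fun k u v => ?_,
    fun P hT k => ?_⟩
  · rw [hI, hI, ahol_mul, ahol_sq, ahol_neg, map_neg]
  · rw [hI, hI, hI, ahol_mul, ahol_ij]
  · rw [← hψ, ← hψ, hI, hI, ahol_skew]
  · obtain ⟨A, q, hA, hq, hv⟩ := hP P hT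
    have hv' : ∀ v, ψ (P v) = St.rmul (A (ψ v)) q := fun v => by
      have h := hv (ψ v)
      have h2 : φ.symm (ψ v) = v := ψ.symm_apply_apply v
      simp only [Function.comp] at h
      rw [h2] at h
      exact h
    obtain ⟨c, hc⟩ := ahol_conj k q hq
    refine ⟨c, fun v => ψ.injective ?_⟩
    rw [hv', hI, hA, ahol_mul, hc, ← ahol_sum, map_sum]
    refine Finset.sum_congr rfl fun l _ => ?_
    rw [map_smul, hI, hv', ahol_mul]

variable {n : ℕ} {M : Type} [TopologicalSpace M] [ChartedSpace (E n) M] [IsManifold 𝓘(ℝ, E n) ∞ M]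
  [Bundle.RiemannianBundle fun x : M => TangentSpace 𝓘(ℝ, E n) x]
  [IsContMDiffRiemannianBundle 𝓘(ℝ, E n) ∞ (E n) fun x : M => TangentSpace 𝓘(ℝ, E n) x]
  {e e' : OpenPartialHomeomorph M (E n)} {p : M} {I₀ I I' : Fin 3 → E n →L[ℝ] E n} {y : E n}

omit [IsContMDiffRiemannianBundle 𝓘(ℝ, E n) ∞ (E n) fun x : M => TangentSpace 𝓘(ℝ, E n) x] in
theorem ahol_fr (he : e ∈ atlas (E n) M) (hy : y ∈ e.target) :
    FrC p I₀ e y I ↔ ∃ T : E n ≃L[ℝ] E n, TI p (e.symm y) T ∧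
      ∀ k v, T (I₀ k (T.symm (aD e y v))) = aD e y (I k v) := by
  constructor
  · rintro ⟨T, hT, h⟩
    refine ⟨T, hT, fun k v => ?_⟩
    rw [← h, T.apply_symm_apply]
    exact congrArg (fun z => aD e y (I k z)) (aC_aD (ab_at he) hy v)
  · rintro ⟨T, hT, h⟩
    refine ⟨T, hT, fun k v => ?_⟩
    have h1 := h k (aC e (e.symm y) (T v))
    rw [aD_aC (ab_at he) hy, T.symm_apply_apply] at h1
    exact h1.symm

omit [Bundle.RiemannianBundle fun x : M => TangentSpace 𝓘(ℝ, E n) x]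
  [IsContMDiffRiemannianBundle 𝓘(ℝ, E n) ∞ (E n) fun x : M => TangentSpace 𝓘(ℝ, E n) x] in
theorem ahol_inj (he : e ∈ atlas (E n) M) (hy : y ∈ e.target) {u v : E n}
    (h : aD e y u = aD e y v) : u = v := by
  rw [← aC_aD (ab_at he) hy u, h, aC_aD (ab_at he) hy]

theorem exists_frC [ConnectedSpace M] (he : e ∈ atlas (E n) M) (hy : y ∈ e.target) (p : M)
    (I₀ : Fin 3 → E n →L[ℝ] E n) : ∃ I, FrC p I₀ e y I := by
  obtain ⟨T, hT⟩ := exists_ti (n := n) p (e.symm y)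
  refine ⟨fun k => (aC e (e.symm y)).comp ((T : E n →L[ℝ] E n).comp ((I₀ k).comp
    ((T.symm : E n →L[ℝ] E n).comp (aD e y)))), (ahol_fr he hy).2 ⟨T, hT, fun k v => ?_⟩⟩
  exact (aD_aC (ab_at he) hy _).symm

theorem FrC.quat (hI : Inv p I₀) (he : e ∈ atlas (E n) M) (hy : y ∈ e.target)
    (h : FrC p I₀ e y I) : Quat I := by
  obtain ⟨T, -, h⟩ := (ahol_fr he hy).1 h
  refine ⟨fun k v => ahol_inj he hy ?_, fun v => ahol_inj he hy ?_⟩
  · rw [← h, ← h, T.symm_apply_apply, hI.quat.sq, map_neg, T.apply_symm_apply, map_neg]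
  · rw [← h, ← h, ← h, T.symm_apply_apply, hI.quat.mul]

theorem FrC.skew (hI : Inv p I₀) (he : e ∈ atlas (E n) M) (hy : y ∈ e.target)
    (h : FrC p I₀ e y I) (k : Fin 3) (u v : E n) :
    ip (brG e y) (I k u) v = -ip (brG e y) u (I k v) := by
  obtain ⟨T, hT, h⟩ := (ahol_fr he hy).1 h
  rw [ab_ip, ab_ip, ← h, ← h]
  have h1 := hT.iso (I₀ k (T.symm (aD e y u))) (T.symm (aD e y v))
  have h2 := hT.iso (T.symm (aD e y u)) (I₀ k (T.symm (aD e y v)))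
  rw [T.apply_symm_apply] at h1 h2
  rw [h1, h2, hI.skew]

theorem ahol_loop (hI : Inv p I₀) {x : M} {T T' : E n ≃L[ℝ] E n} (hT : TI p x T) (hT' : TI p x T')
    (k : Fin 3) : ∃ c : Fin 3 → ℝ, ∀ v, T' (I₀ k (T'.symm v)) = ∑ l, c l • T (I₀ l (T.symm v)) := by
  obtain ⟨c, hc⟩ := hI.hol _ (hT'.trans hT.symm).fwd k
  refine ⟨c, fun v => ?_⟩
  have h := congrArg T (hc (T'.symm v))
  simp only [ContinuousLinearEquiv.trans_apply, ContinuousLinearEquiv.apply_symm_apply, map_sum,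
    map_smul] at h
  exact h

theorem FrC.span (hI : Inv p I₀) (he : e ∈ atlas (E n) M) (he' : e' ∈ atlas (E n) M) {x : M}
    (hx : x ∈ e.source) (hx' : x ∈ e'.source) (h : FrC p I₀ e (e x) I) (h' : FrC p I₀ e' (e' x) I')
    (k : Fin 3) : ∃ c : Fin 3 → ℝ, ∀ v, fderiv ℝ (e ∘ e'.symm) (e' x) (I' k v) =
      ∑ l, c l • I l (fderiv ℝ (e ∘ e'.symm) (e' x) v) := by
  obtain ⟨T, hT, h⟩ := (ahol_fr he (e.map_source hx)).1 h
  obtain ⟨T', hT', h'⟩ := (ahol_fr he' (e'.map_source hx')).1 h'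
  rw [e.left_inv hx] at hT
  rw [e'.left_inv hx'] at hT'
  obtain ⟨c, hc⟩ := ahol_loop hI hT hT' k
  refine ⟨c, fun v => ahol_inj he (e.map_source hx) ?_⟩
  rw [← aD_tr (ab_at he') (ab_at he) hx' hx, ← h', hc, map_sum]
  refine Finset.sum_congr rfl fun l _ => ?_
  rw [map_smul, ← h, ← aD_tr (ab_at he') (ab_at he) hx' hx]

theorem FrC.span_self (hI : Inv p I₀) (he : e ∈ atlas (E n) M) (hy : y ∈ e.target)
    (h : FrC p I₀ e y I) (h' : FrC p I₀ e y I') (k : Fin 3) :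
    I' k ∈ Submodule.span ℝ (range I) := by
  obtain ⟨T, hT, h⟩ := (ahol_fr he hy).1 h
  obtain ⟨T', hT', h'⟩ := (ahol_fr he hy).1 h'
  obtain ⟨c, hc⟩ := ahol_loop hI hT hT' k
  refine (Submodule.mem_span_range_iff_exists_fun ℝ).2 ⟨c, ?_⟩
  ext1 v
  refine ahol_inj he hy ?_
  rw [← h', hc, sum_apply, map_sum]
  refine Finset.sum_congr rfl fun l _ => ?_
  rw [smul_apply, map_smul, h]

/-- transport of a frame along a segment -/
theorem FrC.move (he : e ∈ atlas (E n) M) {c : E n} {r : ℝ} {P : E n × E n → ℝ → E n →L[ℝ] E n}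
    (hP : Par (om (brG e)) c r P) (hr : ball c (2 * r) ⊆ e.target) {x w : E n} (hx : x ∈ ball c r)
    (hw : w ∈ ball (0 : E n) r) (hI : ∀ k v, I' k (P (x, w) 1 v) = P (x, w) 1 (I k v)) :
    FrC p I₀ e x I ↔ FrC p I₀ e (x + w) I' := by
  have hx2 : x ∈ e.target := hr (ball_subset_ball (by linarith [pos_of_mem_ball hx]) hx)
  have hw2 : x + w ∈ e.target := by
    refine hr ?_
    rw [mem_ball, dist_eq_norm] at hx hw ⊢
    rw [sub_zero] at hw
    calc ‖x + w - c‖ = ‖(x - c) + w‖ := by rw [add_sub_right_comm]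
      _ ≤ ‖x - c‖ + ‖w‖ := norm_add_le _ _
      _ < 2 * r := by linarith
  obtain ⟨S, hS, hs⟩ := hP.ti he hr hx hw
  rw [ahol_fr he hx2, ahol_fr he hw2]
  constructor
  · rintro ⟨T, hT, h⟩
    refine ⟨T.trans S, hT.trans hS, fun k v => ?_⟩
    have h1 : aD e (x + w) (P (x, w) 1 (aC e (e.symm x) (S.symm (aD e (x + w) v)))) =
        aD e (x + w) v := by
      rw [← hs, aD_aC (ab_at he) hx2, S.apply_symm_apply]
    have h2 := ahol_inj he hw2 h1
    have h3 := h k (aC e (e.symm x) (S.symm (aD e (x + w) v)))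
    rw [aD_aC (ab_at he) hx2] at h3
    have h4 : (T.trans S) (I₀ k ((T.trans S).symm (aD e (x + w) v))) =
        S (T (I₀ k (T.symm (S.symm (aD e (x + w) v))))) := rfl
    rw [h4, h3, hs, ← hI, h2]
  · rintro ⟨T, hT, h⟩
    refine ⟨T.trans S.symm, hT.trans hS.symm, fun k v => ?_⟩
    have h4 : (T.trans S.symm) (I₀ k ((T.trans S.symm).symm (aD e x v))) =
        S.symm (T (I₀ k (T.symm (S (aD e x v))))) := rfl
    rw [h4, hs, h, hI, ← hs, S.symm_apply_apply]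

end Vale.Agent.P292
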