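import Vale.Agent.P292.AHol

/-! Smooth local frames. -/

set_option maxSynthPendingDepth 3

open scoped ContDiff Topology Manifold Bundle Quaternion
open Set Filter Metric

noncomputable section

namespace Vale.Agent.P292

open Vale.Agent.P219 (E)
open Vale.Agent.P219.R (Bil ip chr Good PD brD brG brI At tr)

theorem ALoc_mem {V F : Type} [NormedAddCommGroup V] [NormedSpace ℝ V] [NormedAddCommGroup F]
    [NormedSpace ℝ F] [FiniteDimensional ℝ F] {f : V → F} {x : V} {L : V →L[ℝ] F}
    (hf : HasFDerivAt f L x) {W : Submodule ℝ F} (hW : ∀ᶠ w in 𝓝 x, f w ∈ W) (X : V) :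
    L X ∈ W := by
  by_contra h
  obtain ⟨l, hl, hk⟩ := W.exists_le_ker_of_notMem h
  have h1 := (LinearMap.toContinuousLinearMap l).hasFDerivAt.comp x hf
  have h2 : (LinearMap.toContinuousLinearMap l ∘ f) =ᶠ[𝓝 x] fun _ => 0 :=
    hW.mono fun w hw => hk hw
  have h3 := h1.unique ((hasFDerivAt_const (0 : ℝ) x).congr_of_eventuallyEq h2)
  exact hl (congrArg (fun A : V →L[ℝ] ℝ => A X) h3)

variable {n : ℕ} {M : Type} [TopologicalSpace M] [ChartedSpace (E n) M] [IsManifold 𝓘(ℝ, E n) ∞ M]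
  [Bundle.RiemannianBundle fun x : M => TangentSpace 𝓘(ℝ, E n) x]
  [IsContMDiffRiemannianBundle 𝓘(ℝ, E n) ∞ (E n) fun x : M => TangentSpace 𝓘(ℝ, E n) x]
  {e : OpenPartialHomeomorph M (E n)}

theorem exists_frame [ConnectedSpace M] {p : M} {I₀ : Fin 3 → E n →L[ℝ] E n} (hI : Inv p I₀)
    (he : e ∈ atlas (E n) M) {c : E n} (hc : c ∈ e.target) :
    ∃ (r : ℝ) (I : Fin 3 → E n → E n →L[ℝ] E n), 0 < r ∧ ball c r ⊆ e.target ∧
      (∀ k, ContDiffOn ℝ ∞ (I k) (ball c r)) ∧ ∀ y ∈ ball c r, FrC p I₀ e y (fun k => I k y) ∧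
        ∀ k X, covE (brG e) (I k) y X ∈ Submodule.span ℝ (range fun l => I l y) := by
  have hG := ab_good (ab_at he)
  obtain ⟨r, P, hr, hb, hP⟩ := exists_par e.open_target (om_smooth hG) hc
  obtain ⟨Ic, hIc⟩ := exists_frC he hc p I₀
  have hsub : ball c r ⊆ e.target := (ball_subset_ball (by linarith)).trans hb
  have hw : ∀ y ∈ ball c r, y - c ∈ ball (0 : E n) r := fun y hy => by
    rwa [mem_ball_zero_iff, ← dist_eq_norm]
  have hQ : ContDiffOn ℝ ∞ (fun y => P (c, y - c) 1) (ball c r) :=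
    hP.smooth.comp (f := fun y => (c, y - c)) (by fun_prop) fun y hy =>
      ⟨mem_ball_self hr, hw y hy⟩
  have hR : ContDiffOn ℝ ∞ (fun y => (P (c, y - c) 1).inverse) (ball c r) := fun y hy =>
    ContDiffAt.comp_contDiffWithinAt (g := ContinuousLinearMap.inverse)
      (f := fun y => P (c, y - c) 1) y
      (hP.inv hG hb (mem_ball_self hr) (hw y hy)).contDiffAt_map_inverse (hQ y hy)
  obtain ⟨I, hIs, hIf⟩ : ∃ I : Fin 3 → E n → E n →L[ℝ] E n, (∀ k, ContDiffOn ℝ ∞ (I k) (ball c r)) ∧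
      ∀ y ∈ ball c r, FrC p I₀ e y fun k => I k y := by
    refine ⟨fun k y => (P (c, y - c) 1).comp ((Ic k).comp (P (c, y - c) 1).inverse),
      fun k => hQ.clm_comp (contDiffOn_const.clm_comp hR), fun y hy => ?_⟩
    have h1 := (FrC.move (p := p) (I₀ := I₀) (I := Ic)
      (I' := fun k => (P (c, y - c) 1).comp ((Ic k).comp (P (c, y - c) 1).inverse)) he hP hb
      (mem_ball_self hr) (hw y hy) fun k v => by
        simp only [ContinuousLinearMap.comp_apply,
          (hP.inv hG hb (mem_ball_self hr) (hw y hy)).inverse_apply_self]).1 hIc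
    rwa [add_sub_cancel] at h1
  refine ⟨r, I, hr, hsub, hIs, fun y hy => ⟨hIf y hy, fun k X => ?_⟩⟩
  have hn : ∀ᶠ w in 𝓝 (0 : E n), w ∈ ball (0 : E n) r ∧ y + w ∈ ball c r := by
    refine Filter.Eventually.and (ball_mem_nhds _ hr) ?_
    have h1 : ContinuousAt (fun w => y + w) (0 : E n) := by fun_prop
    exact h1.eventually_mem (by rw [add_zero]; exact isOpen_ball.mem_nhds hy)
  have d1 := hP.der y hy
  have b1 := hP.base y hy
  have d2 : HasFDerivAt (fun w => I k (y + w)) (fderiv ℝ (I k) y) 0 := by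
    have h1 := (((hIs k).contDiffAt (isOpen_ball.mem_nhds hy)).differentiableAt
      (by simp)).hasFDerivAt
    have h2 : HasFDerivAt (fun w => y + w) (ContinuousLinearMap.id ℝ (E n)) 0 :=
      (hasFDerivAt_id (0 : E n)).const_add y
    exact HasFDerivAt.comp (g := I k) (f := fun w => y + w) 0 (by rwa [add_zero]) h2
  have d3 : DifferentiableAt ℝ (fun w => (P (y, w) 1).inverse) 0 :=
    DifferentiableAt.comp (g := ContinuousLinearMap.inverse) (f := fun w => P (y, w) 1) 0
      (((hP.inv hG hb hy (mem_ball_self hr)).contDiffAt_map_inverse (n := 1)).differentiableAt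
        one_ne_zero) d1.differentiableAt
  have d4 := (d3.clm_comp (d2.clm_comp d1).differentiableAt).hasFDerivAt
  have m : ∀ᶠ w in 𝓝 (0 : E n), (P (y, w) 1).inverse.comp ((I k (y + w)).comp (P (y, w) 1)) ∈
      Submodule.span ℝ (range fun l => I l y) := by
    filter_upwards [hn] with w hw'
    refine FrC.span_self hI he (hsub hy) (hIf y hy)
      (I' := fun k => (P (y, w) 1).inverse.comp ((I k (y + w)).comp (P (y, w) 1))) ?_ k
    refine (FrC.move he hP hb hy hw'.1 fun k v => ?_).2 (hIf _ hw'.2)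
    simp only [ContinuousLinearMap.comp_apply, (hP.inv hG hb hy hw'.1).self_apply_inverse]
  have e1 : (fun w => (I k (y + w)).comp (P (y, w) 1)) =ᶠ[𝓝 0] fun w =>
      (P (y, w) 1).comp ((P (y, w) 1).inverse.comp ((I k (y + w)).comp (P (y, w) 1))) := by
    filter_upwards [hn] with w hw'
    rw [← ContinuousLinearMap.comp_assoc, (hP.inv hG hb hy hw'.1).self_comp_inverse,
      ContinuousLinearMap.id_comp]
  have e2 := (d2.clm_comp d1).unique ((d1.clm_comp d4).congr_of_eventuallyEq e1)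
  have e3 := congrArg (fun A : E n →L[ℝ] E n →L[ℝ] E n => A X) e2
  have e4 := ALoc_mem d4 m X
  generalize fderiv ℝ (fun w => (P (y, w) 1).inverse.comp ((I k (y + w)).comp (P (y, w) 1))) 0 =
    S at e3 e4
  have e5 : covE (brG e) (I k) y X = S X := by
    ext1 v
    have e6 := congrArg (fun A : E n →L[ℝ] E n => A v) e3
    simp [b1] at e6
    simp only [covE, sub_apply, add_apply, ContinuousLinearMap.comp_apply]
    linear_combination (norm := module) e6
  rwa [e5]

end Vale.Agent.P292
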