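import Vale.Agent.P292.ADefs
import Vale.Agent.P234.Flow

/-! The transport equation along segments. -/

set_option maxSynthPendingDepth 3

open scoped ContDiff Topology Manifold Bundle Quaternion
open Set Filter Metric

noncomputable section

namespace Vale.Agent.P292

open Vale.Agent.P219 (E)
open Vale.Agent.P219.R (Bil ip chr Good PD brD brG brI At tr)

section General

variable {V : Type} [NormedAddCommGroup V] [NormedSpace ℝ V] [FiniteDimensional ℝ V]

/-- cutting off -/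
theorem aode_cut {B : Type} [NormedAddCommGroup B] [NormedSpace ℝ B] {f : V → B} {U : Set V}
    (hU : IsOpen U) (hf : ContDiffOn ℝ ∞ f U) {c : V} (hc : c ∈ U) :
    ∃ (r : ℝ) (g : V → B), 0 < r ∧ ball c r ⊆ U ∧ ContDiff ℝ ∞ g ∧ ∀ y ∈ ball c r, g y = f y := by
  obtain ⟨ε, hε, hb⟩ := Metric.nhds_basis_closedBall.mem_iff.1 (hU.mem_nhds hc)
  let b : ContDiffBump c := ⟨ε / 2, ε, by positivity, by linarith⟩
  refine ⟨ε / 2, fun y => b y • f y, by positivity,
    (ball_subset_closedBall.trans (closedBall_subset_closedBall (by linarith))).trans hb,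
    contDiff_iff_contDiffAt.2 fun y => ?_, fun y hy => ?_⟩
  · by_cases hy : y ∈ tsupport b
    · rw [b.tsupport_eq] at hy
      exact b.contDiffAt.smul (hf.contDiffAt (hU.mem_nhds (hb hy)))
    · refine (contDiffAt_const (c := (0 : B))).congr_of_eventuallyEq ?_
      filter_upwards [notMem_tsupport_iff_eventuallyEq.1 hy] with z hz
      rw [hz, Pi.zero_apply, zero_smul]
  · show b y • f y = f y
    rw [b.one_of_mem_closedBall (ball_subset_closedBall hy), one_smul]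

omit [FiniteDimensional ℝ V] in
theorem aode_eq {f g f' : ℝ → V} {δ : ℝ} (hf : ∀ t ∈ ball (0 : ℝ) δ, HasDerivAt f (f' t) t)
    (hg : ∀ t ∈ ball (0 : ℝ) δ, HasDerivAt g (f' t) t) (h0 : f 0 = g 0) {t : ℝ}
    (ht : t ∈ ball (0 : ℝ) δ) : f t = g t :=
  isOpen_ball.eqOn_of_deriv_eq (convex_ball 0 δ).isPreconnected
    (fun s hs => (hf s hs).differentiableAt.differentiableWithinAt)
    (fun s hs => (hg s hs).differentiableAt.differentiableWithinAt)
    (fun s hs => (hf s hs).deriv.trans (hg s hs).deriv.symm)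
    (mem_ball_self (pos_of_mem_ball ht)) h0 ht

/-- the flow of the transport equation -/
theorem aode_flow {Γ : V → V →L[ℝ] V →L[ℝ] V} (hΓ : ContDiff ℝ ∞ Γ) (c : V) :
    ∃ (δ : ℝ) (Q : ℝ × V × V → V →L[ℝ] V), 0 < δ ∧
      ContDiffOn ℝ ∞ Q (ball 0 δ ×ˢ ball c δ ×ˢ ball 0 δ) ∧
      ∀ x ∈ ball c δ, ∀ w ∈ ball (0 : V) δ, Q (0, x, w) = ContinuousLinearMap.id ℝ V ∧
        ∀ t ∈ ball (0 : ℝ) δ,
          HasDerivAt (fun s => Q (s, x, w)) (-(Γ (x + t • w) w).comp (Q (t, x, w))) t := by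
  have hW : ContDiff ℝ ∞ fun z : V × V × (V →L[ℝ] V) =>
      ((z.2.1, 0, -(Γ z.1 z.2.1).comp z.2.2) : V × V × (V →L[ℝ] V)) :=
    contDiff_snd.fst.prodMk (contDiff_const.prodMk
      ((((hΓ.comp contDiff_fst).clm_apply contDiff_snd.fst).clm_comp contDiff_snd.snd).neg))
  obtain ⟨φ, δ, hδ, h1, h2, h3⟩ :=
    P234.exists_smooth_flow hW (c, 0, ContinuousLinearMap.id ℝ V)
  have hm : ∀ x ∈ ball c δ, ∀ w ∈ ball (0 : V) δ, (x, w, ContinuousLinearMap.id ℝ V) ∈
      ball (c, (0 : V), ContinuousLinearMap.id ℝ V) δ := fun x hx w hw => by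
    rw [← ball_prod_same, ← ball_prod_same]
    exact ⟨hx, hw, mem_ball_self hδ⟩
  refine ⟨δ, fun p => (φ (p.1, p.2.1, p.2.2, ContinuousLinearMap.id ℝ V)).2.2, hδ, ?_,
    fun x hx w hw => ⟨?_, fun t ht => ?_⟩⟩
  · refine (h1.comp (f := fun p : ℝ × V × V => (p.1, p.2.1, p.2.2, ContinuousLinearMap.id ℝ V))
      (by fun_prop) fun p hp => ⟨hp.1, hm _ hp.2.1 _ hp.2.2⟩).snd.snd
  · show (φ (0, x, w, _)).2.2 = _
    rw [h2 _ (hm x hx w hw)]
  · have d := h3 _ (hm x hx w hw)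
    have e2 : ∀ s ∈ ball (0 : ℝ) δ, (φ (s, x, w, ContinuousLinearMap.id ℝ V)).2.1 = w :=
      fun s hs => aode_eq (f' := fun _ => 0) (g := fun _ => w)
        (fun s hs => (d s hs).snd.fst) (fun s _ => hasDerivAt_const s w)
        (by rw [h2 _ (hm x hx w hw)]) hs
    have e1 : (φ (t, x, w, ContinuousLinearMap.id ℝ V)).1 = x + t • w :=
      aode_eq (f' := fun _ => w) (g := fun s => x + s • w)
        (fun s hs => by
          have d1 := (d s hs).fst
          rw [e2 s hs] at d1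
          exact d1)
        (fun s _ => by
          have d1 := ((hasDerivAt_id s).smul_const w).const_add x
          rw [one_smul] at d1
          exact d1)
        (by rw [h2 _ (hm x hx w hw), zero_smul, add_zero]) ht
    have d2 := (d t ht).snd.snd
    rw [e1, e2 t ht] at d2
    exact d2

/-- rescaled to the unit interval -/
theorem aode_unit {Γ : V → V →L[ℝ] V →L[ℝ] V} (hΓ : ContDiff ℝ ∞ Γ) (c : V) :
    ∃ (ρ : ℝ) (Q : ℝ × V × V → V →L[ℝ] V), 0 < ρ ∧
      ContDiffOn ℝ ∞ Q (ball 0 2 ×ˢ ball c ρ ×ˢ ball 0 ρ) ∧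
      ∀ x ∈ ball c ρ, ∀ w ∈ ball (0 : V) ρ, Q (0, x, w) = ContinuousLinearMap.id ℝ V ∧
        ∀ t ∈ ball (0 : ℝ) 2,
          HasDerivAt (fun s => Q (s, x, w)) (-(Γ (x + t • w) w).comp (Q (t, x, w))) t := by
  obtain ⟨δ, Q, hδ, h1, h2⟩ := aode_flow hΓ c
  have hs : 0 < δ / 2 := by positivity
  have a1 : ∀ t ∈ ball (0 : ℝ) 2, δ / 2 * t ∈ ball (0 : ℝ) δ := fun t ht => by
    rw [mem_ball_zero_iff] at ht ⊢
    rw [norm_mul, Real.norm_of_nonneg hs.le]
    nlinarith
  have a2 : ∀ w ∈ ball (0 : V) (min δ (δ / 2 * δ)), (δ / 2)⁻¹ • w ∈ ball (0 : V) δ := fun w hw => by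
    rw [mem_ball_zero_iff] at hw ⊢
    rw [norm_smul, Real.norm_of_nonneg (inv_pos.2 hs).le, inv_mul_lt_iff₀ hs]
    exact hw.trans_le (min_le_right _ _)
  have a3 : ball c (min δ (δ / 2 * δ)) ⊆ ball c δ := ball_subset_ball (min_le_left _ _)
  refine ⟨min δ (δ / 2 * δ), fun p => Q (δ / 2 * p.1, p.2.1, (δ / 2)⁻¹ • p.2.2), by positivity,
    h1.comp (f := fun p : ℝ × V × V => (δ / 2 * p.1, p.2.1, (δ / 2)⁻¹ • p.2.2)) (by fun_prop)
      fun p hp => ⟨a1 _ hp.1, a3 hp.2.1, a2 _ hp.2.2⟩, fun x hx w hw => ⟨?_, fun t ht => ?_⟩⟩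
  · show Q (δ / 2 * 0, x, _) = _
    rw [mul_zero]
    exact (h2 x (a3 hx) _ (a2 w hw)).1
  · have d := ((h2 x (a3 hx) _ (a2 w hw)).2 _ (a1 t ht)).scomp t
      ((hasDerivAt_id t).const_mul (δ / 2))
    have e1 : (δ / 2 * t) • (δ / 2)⁻¹ • w = t • w := by
      rw [smul_smul, mul_comm (δ / 2) t, mul_assoc, mul_inv_cancel₀ hs.ne', mul_one]
    rw [e1, map_smul, mul_one, ContinuousLinearMap.smul_comp, smul_neg, smul_smul,
      mul_inv_cancel₀ hs.ne', one_smul] at d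
    exact d

omit [FiniteDimensional ℝ V] in
/-- the derivative in the direction of the segment -/
theorem aode_der {Γ : V → V →L[ℝ] V →L[ℝ] V} (hΓ : Continuous Γ) {x : V}
    {Q : V × ℝ → V →L[ℝ] V} (hc : ∀ t ∈ Icc (0 : ℝ) 1, ContinuousAt Q (0, t))
    (h0 : ∀ t ∈ Icc (0 : ℝ) 1, Q (0, t) = ContinuousLinearMap.id ℝ V)
    (h1 : ∀ᶠ w in 𝓝 (0 : V), Q (w, 0) = ContinuousLinearMap.id ℝ V ∧ ∀ t ∈ Icc (0 : ℝ) 1,
      HasDerivAt (fun s => Q (w, s)) (-(Γ (x + t • w) w).comp (Q (w, t))) t) :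
    HasFDerivAt (fun w => Q (w, 1)) (-Γ x) 0 := by
  let k : V × ℝ → V →L[ℝ] V →L[ℝ] V := fun p =>
    Γ x - ((ContinuousLinearMap.compL ℝ V V V).flip (Q p)).comp (Γ (x + p.2 • p.1))
  have hk : ∀ t ∈ Icc (0 : ℝ) 1, Tendsto (fun p => ‖k p‖) (𝓝 (0, t)) (𝓝 0) := fun t ht => by
    have c1 : ContinuousAt k (0, t) :=
      continuousAt_const.sub (ContinuousAt.clm_comp
        ((ContinuousLinearMap.compL ℝ V V V).flip.continuous.continuousAt.comp (hc t ht))
        (hΓ.comp (by fun_prop)).continuousAt)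
    have c2 : k (0, t) = 0 := by
      ext u v
      simp [k, h0 t ht]
    have c3 := c1.norm.tendsto
    rwa [c2, norm_zero] at c3
  rw [hasFDerivAt_iff_isLittleO_nhds_zero, Asymptotics.isLittleO_iff]
  intro ε hε
  have h2 : ∀ᶠ w in 𝓝 (0 : V), ∀ t ∈ Icc (0 : ℝ) 1, ‖k (w, t)‖ ≤ ε :=
    isCompact_Icc.eventually_forall_of_forall_eventually fun t ht =>
      (hk t ht).eventually (ge_mem_nhds hε)
  filter_upwards [h1, h2] with w hw hw2
  have h3 := norm_image_sub_le_of_norm_deriv_le_segment_01' (f := fun s => Q (w, s) + s • Γ x w)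
    (f' := fun t => k (w, t) w) (C := ε * ‖w‖)
    (fun t ht => by
      have d := (hw.2 t ht).add ((hasDerivAt_id t).smul_const (Γ x w))
      have e : -(Γ (x + t • w) w).comp (Q (w, t)) + (1 : ℝ) • Γ x w = k (w, t) w := by
        rw [one_smul, neg_add_eq_sub]
        rfl
      rw [e] at d
      exact d.hasDerivWithinAt)
    fun t ht => ((k (w, t)).le_opNorm w).trans
      (mul_le_mul_of_nonneg_right (hw2 t (Ico_subset_Icc_self ht)) (norm_nonneg w))
  rw [zero_add, h0 1 (by norm_num)]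
  have e : Q (w, 1) - ContinuousLinearMap.id ℝ V - (-Γ x) w
      = Q (w, 1) + (1 : ℝ) • Γ x w - (Q (w, 0) + (0 : ℝ) • Γ x w) := by
    rw [hw.1, one_smul, zero_smul, add_zero, _root_.neg_apply]
    abel
  rw [e]
  exact h3

end General

variable {n : ℕ} {G : E n → Bil n} {U : Set (E n)} {y : E n}

theorem aode_mem {c x w : E n} {r t : ℝ} (hx : x ∈ ball c r) (hw : w ∈ ball (0 : E n) r)
    (ht : t ∈ Icc (0 : ℝ) 1) : x + t • w ∈ ball c (2 * r) := by
  rw [mem_ball_zero_iff] at hw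
  rw [mem_ball_iff_norm] at hx ⊢
  have h1 : ‖t • w‖ ≤ ‖w‖ := by
    rw [norm_smul, Real.norm_of_nonneg ht.1]
    exact mul_le_of_le_one_left (norm_nonneg w) ht.2
  have h2 := norm_add_le (x - c) (t • w)
  rw [add_sub_right_comm]
  linarith

theorem exists_par {Γ : E n → E n →L[ℝ] E n →L[ℝ] E n} (hU : IsOpen U) (hΓ : ContDiffOn ℝ ∞ Γ U)
    {c : E n} (hc : c ∈ U) : ∃ (r : ℝ) (P : E n × E n → ℝ → E n →L[ℝ] E n), 0 < r ∧
      ball c (2 * r) ⊆ U ∧ Par Γ c r P := by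
  obtain ⟨r0, Γ', hr0, hb, hΓ', he⟩ := aode_cut hU hΓ hc
  obtain ⟨ρ, Q, hρ, h1, h2⟩ := aode_unit hΓ' c
  have b1 : ∀ a : E n, ball a (min ρ (r0 / 2)) ⊆ ball a ρ := fun a =>
    ball_subset_ball (min_le_left _ _)
  have b2 : ball c (2 * min ρ (r0 / 2)) ⊆ ball c r0 :=
    ball_subset_ball (by linarith [min_le_right ρ (r0 / 2)])
  have b3 : ∀ t ∈ Icc (0 : ℝ) 1, t ∈ ball (0 : ℝ) 2 := fun t ht => by
    rw [mem_ball_zero_iff, Real.norm_of_nonneg ht.1]
    linarith [ht.2]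
  have b4 : ∀ x ∈ ball c ρ, ∀ t ∈ ball (0 : ℝ) 2, Q (t, x, 0) = ContinuousLinearMap.id ℝ (E n) :=
    fun x hx t ht => aode_eq (f := fun s => Q (s, x, 0)) (f' := fun _ => 0) (g := fun _ => _)
      (fun s hs => by
        have d := (h2 x hx 0 (mem_ball_self hρ)).2 s hs
        rw [map_zero, ContinuousLinearMap.zero_comp, neg_zero] at d
        exact d)
      (fun s _ => hasDerivAt_const s _) (h2 x hx 0 (mem_ball_self hρ)).1 ht
  refine ⟨min ρ (r0 / 2), fun z t => Q (t, z), by positivity, b2.trans hb,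
    fun x hx w hw => (h2 x (b1 _ hx) w (b1 _ hw)).1, fun x hx w hw t ht => ?_,
    h1.comp (f := fun z : E n × E n => ((1 : ℝ), z)) (by fun_prop)
      fun z hz => ⟨b3 1 (by norm_num), b1 _ hz.1, b1 _ hz.2⟩,
    fun x hx => b4 x (b1 _ hx) 1 (b3 1 (by norm_num)), fun x hx => ?_⟩
  · rw [← he _ (b2 (aode_mem hx hw ht))]
    exact (h2 x (b1 _ hx) w (b1 _ hw)).2 t (b3 t ht)
  · have hx0 : x ∈ ball c r0 :=
      ball_subset_ball (by linarith [min_le_right ρ (r0 / 2)]) hx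
    rw [← he x hx0]
    refine aode_der (Q := fun p => Q (p.2, x, p.1)) hΓ'.continuous (fun t ht => ?_)
      (fun t ht => b4 x (b1 _ hx) t (b3 t ht)) ?_
    · have o : IsOpen (ball (0 : ℝ) 2 ×ˢ ball c ρ ×ˢ ball (0 : E n) ρ) :=
        isOpen_ball.prod (isOpen_ball.prod isOpen_ball)
      exact ContinuousAt.comp (f := fun p : E n × ℝ => (p.2, x, p.1))
        (h1.continuousOn.continuousAt (o.mem_nhds ⟨b3 t ht, b1 _ hx, mem_ball_self hρ⟩))
        (by fun_prop)
    · filter_upwards [ball_mem_nhds (0 : E n) hρ] with w hw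
      exact ⟨(h2 x (b1 _ hx) w hw).1, fun t ht => (h2 x (b1 _ hx) w hw).2 t (b3 t ht)⟩

theorem Par.iso {c : E n} {r : ℝ} {P : E n × E n → ℝ → E n →L[ℝ] E n} (h : Good G U)
    (hP : Par (om G) c r P) (hr : ball c (2 * r) ⊆ U) {x w : E n} (hx : x ∈ ball c r)
    (hw : w ∈ ball (0 : E n) r) (u v : E n) :
    ip (G (x + w)) (P (x, w) 1 u) (P (x, w) 1 v) = ip (G x) u v := by
  have d : ∀ t ∈ Icc (0 : ℝ) 1,
      HasDerivAt (fun s : ℝ => G (x + s • w) (P (x, w) s u) (P (x, w) s v)) 0 t := fun t ht => by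
    have hy := hr (aode_mem hx hw ht)
    have d0 : HasDerivAt (fun s : ℝ => x + s • w) w t := by
      have d1 := ((hasDerivAt_id t).smul_const w).const_add x
      rw [one_smul] at d1
      exact d1
    have d1 := ((h.smooth.contDiffAt (h.isOpen.mem_nhds hy)).differentiableAt
      (by simp)).hasFDerivAt.comp_hasDerivAt t d0
    have d2 := hP.ode x hx w hw t ht
    have d3 := (d1.clm_apply (d2.clm_apply (hasDerivAt_const t u))).clm_apply
      (d2.clm_apply (hasDerivAt_const t v))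
    refine d3.congr_deriv ?_
    simp only [Function.comp_apply, _root_.add_apply, map_zero, add_zero,
      _root_.neg_apply, ContinuousLinearMap.comp_apply, map_neg]
    rw [om_metric h hy]
    ring
  have e := constant_of_has_deriv_right_zero
    (fun t ht => (d t ht).continuousAt.continuousWithinAt)
    (fun t ht => (d t (Ico_subset_Icc_self ht)).hasDerivWithinAt) 1 (by norm_num)
  simp only [one_smul, zero_smul, add_zero, hP.zero x hx w hw, ContinuousLinearMap.id_apply] at e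
  exact e

theorem Par.inv {c : E n} {r : ℝ} {P : E n × E n → ℝ → E n →L[ℝ] E n} (h : Good G U)
    (hP : Par (om G) c r P) (hr : ball c (2 * r) ⊆ U) {x w : E n} (hx : x ∈ ball c r)
    (hw : w ∈ ball (0 : E n) r) : (P (x, w) 1).IsInvertible := by
  have hy : x ∈ U := by
    have := hr (aode_mem hx hw (t := 0) (by norm_num))
    rwa [zero_smul, add_zero] at this
  have hi : Function.Injective (P (x, w) 1).toLinearMap :=
    (injective_iff_map_eq_zero _).2 fun u (hu : P (x, w) 1 u = 0) => by_contra fun h0 => by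
      have e := hP.iso h hr hx hw u u
      rw [hu, ip, map_zero] at e
      exact ((h.pos x hy).pos u h0).ne e
  exact ⟨((P (x, w) 1).toLinearMap.linearEquivOfInjective hi rfl).toContinuousLinearEquiv, rfl⟩

end Vale.Agent.P292
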