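import Vale.Agent.P292.ACon
import Vale.Agent.P292.ACur
import Vale.Agent.P292.ABer

/-! The sign of the scalar curvature, and the local structure. -/

set_option maxSynthPendingDepth 3

open scoped ContDiff Topology Manifold Bundle Quaternion
open Set Filter Metric

noncomputable section

namespace Vale.Agent.P292

open Vale.Agent.P219 (E)
open Vale.Agent.P219.R (Bil ip chr Good PD brD brG brI At tr)

theorem exists_onb {n : ℕ} {g : Bil n} (hg : PD g) : ∃ b, Onb g b := by
  let B : LinearMap.BilinForm ℝ (E n) := LinearMap.mk₂ ℝ (fun u v => g u v)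
    (fun u u' v => by simp) (fun c u v => by simp) (fun u v v' => by simp) (fun c u v => by simp)
  obtain ⟨v₀, hv₀⟩ := LinearMap.BilinForm.exists_orthogonal_basis (B := B)
    ⟨fun u v => hg.symm u v⟩
  let σ : Fin (Module.finrank ℝ (E n)) ≃ Fin n := finCongr finrank_euclideanSpace_fin
  let v := v₀.reindex σ
  have ho : ∀ i j, i ≠ j → g (v i) (v j) = 0 := fun i j hij => by
    have h := LinearMap.isOrthoᵢ_def.1 hv₀ (σ.symm i) (σ.symm j) fun h => hij (σ.symm.injective h)
    simp only [v, Module.Basis.reindex_apply]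
    exact h
  have hp : ∀ i, 0 < g (v i) (v i) := fun i => hg.pos _ (v.ne_zero i)
  have hs : ∀ i, (√(g (v i) (v i)))⁻¹ * (√(g (v i) (v i)))⁻¹ * g (v i) (v i) = 1 := fun i => by
    rw [← mul_inv, Real.mul_self_sqrt (hp i).le, inv_mul_cancel₀ (hp i).ne']
  refine ⟨fun i => (√(g (v i) (v i)))⁻¹ • v i, fun u => ?_, fun i => ?_⟩
  · conv_rhs => rw [← v.sum_repr u]
    refine Finset.sum_congr rfl fun i _ => ?_
    have h1 : g u (v i) = v.repr u i * g (v i) (v i) := by
      conv_lhs => rw [← v.sum_repr u]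
      rw [map_sum, sum_apply, Finset.sum_eq_single i]
      · simp
      · intro j _ hj
        simp [ho j i hj]
      · simp
    rw [map_smul, smul_smul, h1, smul_eq_mul]
    congr 1
    linear_combination v.repr u i * hs i
  · simp only [map_smul, smul_apply, smul_eq_mul]
    rw [← mul_assoc, hs]

theorem ascal_tr {n : ℕ} {g : Bil n} {b : Fin n → E n} (hb : Onb g b) (A : E n →ₗ[ℝ] E n) :
    ∑ k, A (St.ev k) k = ∑ i, g (A (b i)) (b i) := by
  have h1 : ∀ k, A (St.ev k) k = ∑ i, g (St.ev k) (b i) * A (b i) k := fun k => by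
    conv_lhs => rw [← hb.sum (St.ev k), map_sum]
    simp
  simp only [h1]
  rw [Finset.sum_comm]
  refine Finset.sum_congr rfl fun i _ => ?_
  have h2 : ∑ k, A (b i) k • St.ev k = A (b i) := P219.R.c0_sum (A (b i))
  conv_rhs => rw [← h2, map_sum, sum_apply]
  refine Finset.sum_congr rfl fun k _ => ?_
  simp [mul_comm]

theorem scal_eq {n : ℕ} {G : E n → Bil n} {U : Set (E n)} {y : E n} (h : Good G U) (hy : y ∈ U)
    {b : Fin n → E n} (hb : Onb (G y) b) {t : ℝ}
    (ht : ∀ X Y, ∑ i, G y (curvOm (om G) y (b i) X Y) (b i) = t * G y X Y) :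
    St.scal (fun z u v => ip (G z) u v) y = t * n := by
  have h1 : ∀ u v, St.ric (fun z u v => ip (G z) u v) y u v = t * G y u v := fun u v => by
    rw [← ht]
    let A : E n →ₗ[ℝ] E n :=
      { toFun := fun w => curvOm (om G) y w u v
        map_add' := fun a b => by simp
        map_smul' := fun c a => by simp }
    simp only [St.ric, riem_om h hy]
    exact ascal_tr hb A
  have h2 : (St.gram (fun z u v => ip (G z) u v) y).det ≠ 0 := P219.R.c0_det (h.pos y hy)
  have h3 := congrArg Matrix.trace (Matrix.nonsing_inv_mul _ (Ne.isUnit h2))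
  rw [Matrix.trace_one, Fintype.card_fin] at h3
  rw [← h3, St.scal, Matrix.trace, Finset.mul_sum]
  refine Finset.sum_congr rfl fun i _ => ?_
  rw [Matrix.diag_apply, Matrix.mul_apply, Finset.mul_sum]
  refine Finset.sum_congr rfl fun j _ => ?_
  rw [h1, (h.pos y hy).symm, mul_left_comm]
  rfl

theorem exists_lq {m : ℕ} (hm : 2 ≤ m) {G : E (4 * m) → Bil (4 * m)} {U : Set (E (4 * m))}
    (h : Good G U) {I : Fin 3 → E (4 * m) → E (4 * m) →L[ℝ] E (4 * m)}
    (hI : ∀ k, ContDiffOn ℝ ∞ (I k) U) (hq : ∀ y ∈ U, Quat fun k => I k y)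
    (hk : ∀ k, ∀ y ∈ U, ∀ u v, ip (G y) (I k y u) v = -ip (G y) u (I k y v))
    (hs : ∀ y ∈ U, ∀ k X, covE G (I k) y X ∈ Submodule.span ℝ (range fun l => I l y))
    (hp : ∀ y ∈ U, 0 < St.scal (fun z u v => ip (G z) u v) y) :
    ∃ L : LQ (4 * m), L.U = U ∧ L.G = G ∧ L.I = I := by
  obtain ⟨a, ha, hc⟩ := exists_con (by omega) h hI hq hs
  refine ⟨⟨U, G, h, I, hI, fun k y hy => (hq y hy).sq k, fun y hy => (hq y hy).mul, hk, a, ha,
    fun k y hy X v => ?_, fun y hy => ?_⟩, rfl, rfl, rfl⟩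
  · have h1 := DFunLike.congr_fun (hc k y hy X) v
    rw [sum_apply] at h1
    rw [← om_apply h hy, ← om_apply h hy]
    exact h1
  · obtain ⟨b, hb⟩ := exists_onb (h.pos y hy)
    obtain ⟨ν, h1, h2⟩ := berger hm (h.pos y hy) hb (curv_alg h hy) (hq y hy)
      (fun k => hk k y hy) (F := curvA a y) fun k X Y v => curv_frame h hI ha hc hy k X Y v
    have h3 := hp y hy
    rw [scal_eq h hy hb h2] at h3
    refine ⟨ν, ?_, h1⟩
    have h4 : (0 : ℝ) < ((4 * m : ℕ) : ℝ) := Nat.cast_pos.2 (by omega)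
    have h5 : (0 : ℝ) < (m : ℝ) + 2 := by positivity
    exact (mul_pos_iff_of_pos_left h5).1 ((mul_pos_iff_of_pos_right h4).1 h3)

end Vale.Agent.P292
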