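import Vale.Agent.P292.AOde

/-! Transport along segments in a chart, and along chains of segments. -/

set_option maxSynthPendingDepth 3

open scoped ContDiff Topology Manifold Bundle Quaternion
open Set Filter Metric

noncomputable section

namespace Vale.Agent.P292

open Vale.Agent.P219 (E)
open Vale.Agent.P219.R (Bil ip chr Good PD brD brG brI At tr)

variable {n : ℕ} {M : Type} [TopologicalSpace M] [ChartedSpace (E n) M] [IsManifold 𝓘(ℝ, E n) ∞ M]
  [Bundle.RiemannianBundle fun x : M => TangentSpace 𝓘(ℝ, E n) x]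
  [IsContMDiffRiemannianBundle 𝓘(ℝ, E n) ∞ (E n) fun x : M => TangentSpace 𝓘(ℝ, E n) x]
  {e : OpenPartialHomeomorph M (E n)}

omit [IsManifold 𝓘(ℝ, E n) ∞ M]
  [IsContMDiffRiemannianBundle 𝓘(ℝ, E n) ∞ (E n) fun x : M => TangentSpace 𝓘(ℝ, E n) x] in
theorem TI.trans {x y z : M} {T T' : E n ≃L[ℝ] E n} (h : TI x y T) (h' : TI y z T') :
    TI x z (T.trans T') :=
  ⟨St.Transport.comp (P := T) (Q := T') h.fwd h'.fwd,
    St.Transport.comp (P := T'.symm) (Q := T.symm) h'.bwd h.bwd,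
    fun u v => (h'.iso (T u) (T v)).trans (h.iso u v)⟩

omit [IsManifold 𝓘(ℝ, E n) ∞ M]
  [IsContMDiffRiemannianBundle 𝓘(ℝ, E n) ∞ (E n) fun x : M => TangentSpace 𝓘(ℝ, E n) x] in
theorem TI.symm {x y : M} {T : E n ≃L[ℝ] E n} (h : TI x y T) : TI y x T.symm :=
  ⟨h.bwd, h.fwd, fun u v => by rw [← h.iso, T.apply_symm_apply, T.apply_symm_apply]⟩

theorem ASeg_arc (he : e ∈ atlas (E n) M) {a b w : E n} (hb : a + w = b)
    (hseg : ∀ t ∈ Icc (0 : ℝ) 1, a + t • w ∈ e.target) {Q : E n → E n}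
    (h : ∀ v, ∃ u : ℝ → E n,
      (∀ t ∈ Icc (0 : ℝ) 1, HasDerivAt u (-om (brG e) (a + t • w) w (u t)) t) ∧
        aD e a (u 0) = v ∧ aD e b (u 1) = Q v) : Tr (e.symm a) (e.symm b) Q := by
  have hA := ab_at he
  have hγ : ContMDiffOn 𝓘(ℝ, ℝ) 𝓘(ℝ, E n) ∞ (fun t : ℝ => e.symm (a + t • w)) (Icc 0 1) :=
    (contMDiffOn_symm_of_mem_maximalAtlas hA).comp
      (ContDiff.contMDiff (f := fun t : ℝ => a + t • w) (by fun_prop)).contMDiffOn hseg
  have key : Tr (e.symm (a + (0 : ℝ) • w)) (e.symm (a + (1 : ℝ) • w)) Q := by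
    refine St.Transport.arc (fun t : ℝ => e.symm (a + t • w)) hγ Q fun v => ?_
    obtain ⟨u, hu, h0, h1⟩ := h v
    refine ⟨fun t => aD e (a + t • w) (u t), fun t ht => ⟨e, he, e.map_target (hseg t ht), ?_⟩,
      ?_, ?_⟩
    · have hc : ∀ s ∈ Icc (0 : ℝ) 1,
          St.coord n e (e.symm (a + s • w)) (aD e (a + s • w) (u s)) = u s :=
        fun s hs => aC_aD hA (hseg s hs) (u s)
      have hd : HasDerivWithinAt (e ∘ fun t : ℝ => e.symm (a + t • w)) w (Icc 0 1) t := by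
        have h2 : HasDerivAt (fun s : ℝ => a + s • w) w t := by
          simpa using ((hasDerivAt_id t).smul_const w).const_add a
        exact h2.hasDerivWithinAt.congr (fun s hs => e.right_inv (hseg s hs))
          (e.right_inv (hseg t ht))
      have h3 := (hu t ht).hasDerivWithinAt.congr hc (hc t ht)
      rw [om_apply (ab_good hA) (hseg t ht)] at h3
      rw [hd.derivWithin (uniqueDiffOn_Icc zero_lt_one t ht), hc t ht, e.right_inv (hseg t ht)]
      exact h3
    · show aD e (a + (0 : ℝ) • w) (u 0) = v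
      rw [zero_smul, add_zero, h0]
    · show aD e (a + (1 : ℝ) • w) (u 1) = Q v
      rw [one_smul, hb, h1]
  rwa [zero_smul, add_zero, one_smul, hb] at key

theorem Par.ti (he : e ∈ atlas (E n) M) {c : E n} {r : ℝ} {P : E n × E n → ℝ → E n →L[ℝ] E n}
    (hP : Par (om (brG e)) c r P) (hr : ball c (2 * r) ⊆ e.target) {x w : E n} (hx : x ∈ ball c r)
    (hw : w ∈ ball (0 : E n) r) : ∃ T : E n ≃L[ℝ] E n, TI (e.symm x) (e.symm (x + w)) T ∧
      ∀ v, T (aD e x v) = aD e (x + w) (P (x, w) 1 v) := by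
  have hA := ab_at he
  have hseg : ∀ t ∈ Icc (0 : ℝ) 1, x + t • w ∈ e.target := by
    intro t ht
    refine hr ?_
    have h1 : ‖t • w‖ ≤ ‖w‖ := by
      rw [norm_smul, Real.norm_of_nonneg ht.1]
      exact mul_le_of_le_one_left (norm_nonneg _) ht.2
    have h2 := dist_triangle (x + t • w) x c
    rw [mem_ball_zero_iff] at hw
    rw [dist_self_add_left] at h2
    rw [mem_ball] at hx ⊢
    linarith
  have hx0 : x ∈ e.target := by simpa using hseg 0 ⟨le_rfl, zero_le_one⟩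
  have hx1 : x + w ∈ e.target := by simpa using hseg 1 ⟨zero_le_one, le_rfl⟩
  obtain ⟨S, hS⟩ := hP.inv (ab_good hA) hr hx hw
  have hS' : ∀ v, P (x, w) 1 v = S v := fun v => by rw [← hS]; rfl
  let D0 := ContinuousLinearEquiv.equivOfInverse (aD e x) (aC e (e.symm x)) (aC_aD hA hx0)
    (aD_aC hA hx0)
  let D1 := ContinuousLinearEquiv.equivOfInverse (aD e (x + w)) (aC e (e.symm (x + w)))
    (aC_aD hA hx1) (aD_aC hA hx1)
  have hT : ∀ v, (D0.symm.trans (S.trans D1)) v = aD e (x + w) (S (aC e (e.symm x) v)) :=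
    fun _ => rfl
  have hT' : ∀ v, (D0.symm.trans (S.trans D1)).symm v =
      aD e x (S.symm (aC e (e.symm (x + w)) v)) := fun _ => rfl
  have hode : ∀ v, ∀ t ∈ Icc (0 : ℝ) 1, HasDerivAt (fun s => P (x, w) s v)
      (-om (brG e) (x + t • w) w (P (x, w) t v)) t := fun v t ht => by
    simpa using (hP.ode x hx w hw t ht).clm_apply (hasDerivAt_const t v)
  refine ⟨D0.symm.trans (S.trans D1), ⟨ASeg_arc he rfl hseg fun v => ?_,
    ASeg_arc he (add_neg_cancel_right x w) (fun t ht => ?_) fun v => ?_, fun u v => ?_⟩,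
    fun v => ?_⟩
  · refine ⟨fun s => P (x, w) s (aC e (e.symm x) v), hode _, ?_, ?_⟩
    · show aD e x (P (x, w) 0 _) = v
      rw [hP.zero x hx w hw]
      exact aD_aC hA hx0 v
    · show aD e (x + w) (P (x, w) 1 _) = _
      rw [hT, hS']
  · have h1 : x + w + t • -w = x + (1 - t) • w := by module
    rw [h1]
    exact hseg _ ⟨by linarith [ht.2], by linarith [ht.1]⟩
  · refine ⟨fun s => P (x, w) (1 - s) (S.symm (aC e (e.symm (x + w)) v)), fun t ht => ?_, ?_, ?_⟩
    · have h1 : x + w + t • -w = x + (1 - t) • w := by module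
      have h2 := (hode (S.symm (aC e (e.symm (x + w)) v)) (1 - t)
        ⟨by linarith [ht.2], by linarith [ht.1]⟩).scomp t ((hasDerivAt_id t).const_sub 1)
      rw [h1, map_neg]
      simpa [Function.comp_def] using h2
    · show aD e (x + w) (P (x, w) (1 - 0) _) = v
      rw [sub_zero, hS', S.apply_symm_apply]
      exact aD_aC hA hx1 v
    · show aD e x (P (x, w) (1 - 1) _) = _
      rw [sub_self, hP.zero x hx w hw, hT']
      rfl
  · rw [hT, hT, ← ab_ip, ← hS', ← hS', hP.iso (ab_good hA) hr hx hw, ab_ip, aD_aC hA hx0,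
      aD_aC hA hx0]
  · rw [hT, aC_aD hA hx0, hS']

theorem exists_ti [ConnectedSpace M] (x y : M) : ∃ T : E n ≃L[ℝ] E n, TI x y T := by
  refine PreconnectedSpace.induction₂' (fun x y => ∃ T : E n ≃L[ℝ] E n, TI x y T) (fun x => ?_)
    ⟨fun _ _ _ ⟨_, h⟩ ⟨_, h'⟩ => ⟨_, h.trans h'⟩⟩ x y
  have he := chart_mem_atlas (E n) x
  have hx := mem_chart_source (E n) x
  obtain ⟨r, P, hr0, hr, hP⟩ := exists_par (chartAt (E n) x).open_target
    (om_smooth (ab_good (ab_at he))) ((chartAt (E n) x).map_source hx)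
  filter_upwards [(chartAt (E n) x).open_source.mem_nhds hx,
    ((chartAt (E n) x).continuousAt hx).eventually_mem (ball_mem_nhds _ hr0)] with y h1 h2
  obtain ⟨T, hT, -⟩ := hP.ti he hr (mem_ball_self hr0)
    (w := chartAt (E n) x y - chartAt (E n) x x) (by rwa [mem_ball_zero_iff, ← dist_eq_norm])
  rw [add_sub_cancel, (chartAt (E n) x).left_inv hx, (chartAt (E n) x).left_inv h1] at hT
  exact ⟨⟨T, hT⟩, _, hT.symm⟩

end Vale.Agent.P292
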