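import Vale.Agent.P292.BDefs

/-! Polynomial identities for null vectors. -/

set_option maxSynthPendingDepth 3

open scoped ContDiff Topology Matrix
open Set Filter

noncomputable section

namespace Vale.Agent.P292.B

open Vale.Agent.P219 (E)
open Vale.Agent.P219.R (Bil ip chr Good)
open Complex (I)

theorem BAlg_ext {a b : Fin 3 → ℂ} (h0 : a 0 = b 0) (h1 : a 1 = b 1) (h2 : a 2 = b 2) :
    a = b := by
  funext k
  fin_cases k
  exacts [h0, h1, h2]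

theorem BAlg_dot (z : Fin 3 → ℂ) : z ⬝ᵥ z = z 0 ^ 2 + z 1 ^ 2 + z 2 ^ 2 := by
  simp [dotProduct, Fin.sum_univ_three, sq]

theorem BAlg_ne (w : ℂ) : (1 + Complex.normSq w : ℝ) ≠ 0 :=
  (add_pos_of_pos_of_nonneg one_pos (Complex.normSq_nonneg w)).ne'

theorem BAlg_nv (w : ℂ) : ∃ x y d : ℝ, w = x + y * I ∧ (starRingEnd ℂ) w = x - y * I ∧
    (1 + x ^ 2 + y ^ 2) * d = 1 ∧ ((1 + Complex.normSq w : ℝ) : ℂ)⁻¹ = d ∧
    nv w = ![2 * x * d, 2 * y * d, (1 - x ^ 2 - y ^ 2) * d] := by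
  refine ⟨w.re, w.im, (1 + Complex.normSq w)⁻¹, (Complex.re_add_im w).symm,
    Complex.ext (by simp) (by simp), ?_, by simp, ?_⟩
  · refine Eq.trans (congrArg (· * _) ?_) (mul_inv_cancel₀ (BAlg_ne w))
    rw [Complex.normSq_apply]
    ring
  · simp only [nv, div_eq_mul_inv, Complex.normSq_apply, sq, sub_sub]

theorem zv_one (w : ℂ) : zv (1, w) = zw w := by
  simp [zv, zw]

theorem zv_smul (l : ℂ) (h : ℂ × ℂ) : zv (l • h) = l ^ 2 • zv h := by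
  refine BAlg_ext ?_ ?_ ?_ <;> simp [zv] <;> ring

theorem nul_zv {h : ℂ × ℂ} (hh : h ≠ 0) : Nul (zv h) := by
  refine ⟨fun h0 => hh ?_, ?_⟩
  · have h1 : h.1 ^ 2 - h.2 ^ 2 = 0 := congrFun h0 0
    have h2 : I * (h.1 ^ 2 + h.2 ^ 2) = 0 := congrFun h0 1
    have h3 := (mul_eq_zero.1 h2).resolve_left Complex.I_ne_zero
    exact Prod.ext (pow_eq_zero_iff two_ne_zero |>.1 (by linear_combination (h1 + h3) / 2))
      (pow_eq_zero_iff two_ne_zero |>.1 (by linear_combination (h3 - h1) / 2))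
  · rw [BAlg_dot]
    simp [zv]
    linear_combination (h.1 ^ 2 + h.2 ^ 2) ^ 2 * Complex.I_sq

theorem nul_zw (w : ℂ) : Nul (zw w) := by
  rw [← zv_one]
  exact nul_zv fun h => one_ne_zero (congrArg Prod.fst h)

theorem nul_smul {z : Fin 3 → ℂ} (hz : Nul z) {l : ℂ} (hl : l ≠ 0) : Nul (l • z) := by
  exact ⟨smul_ne_zero hl hz.1, by rw [smul_dotProduct, dotProduct_smul, hz.2, smul_zero, smul_zero]⟩

theorem nul_Zm {F : Type} {p : (F × ℂ) × ℂ} (hp : p.2 ≠ 0) : Nul (Zm p) := by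
  exact nul_smul (nul_zw _) hp

theorem zv_cross_dz (h e : ℂ × ℂ) :
    crossProduct (zv h) (dz h e) = (-2 * I * wg h e) • zv h := by
  refine BAlg_ext ?_ ?_ ?_ <;> simp [cross_apply, zv, dz, wg] <;> grind [Complex.I_sq]

theorem cr_zv (a : Fin 3 → ℝ) (h : ℂ × ℂ) : cr a (zv h) = dz h (sp a h) := by
  refine BAlg_ext ?_ ?_ ?_ <;> simp [cr, cx, cross_apply, zv, dz, sp] <;> grind [Complex.I_sq]

theorem dz_add (h e e' : ℂ × ℂ) : dz h (e + e') = dz h e + dz h e' := by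
  refine BAlg_ext ?_ ?_ ?_ <;> simp [dz] <;> ring

theorem dz_smul (h e : ℂ × ℂ) (c : ℂ) : dz h (c • e) = c • dz h e := by
  refine BAlg_ext ?_ ?_ ?_ <;> simp [dz] <;> ring

theorem dz_inj {h e : ℂ × ℂ} (hh : h ≠ 0) (he : dz h e = 0) : e = 0 := by
  have h0 : 2 * h.1 * e.1 - 2 * h.2 * e.2 = 0 := congrFun he 0
  have h1 : I * (2 * h.1 * e.1 + 2 * h.2 * e.2) = 0 := congrFun he 1
  have h2 : -2 * (h.1 * e.2 + h.2 * e.1) = 0 := congrFun he 2
  have h3 := (mul_eq_zero.1 h1).resolve_left Complex.I_ne_zero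
  have h4 : h.1 * e.1 = 0 := by linear_combination (h0 + h3) / 4
  have h5 : h.2 * e.2 = 0 := by linear_combination (h3 - h0) / 4
  by_cases h6 : h.1 = 0
  · have h7 : h.2 ≠ 0 := fun h7 => hh (Prod.ext h6 h7)
    refine Prod.ext (mul_left_cancel₀ h7 ?_) ((mul_eq_zero.1 h5).resolve_left h7)
    rw [h6] at h2
    simpa using h2
  · have h7 := (mul_eq_zero.1 h4).resolve_left h6
    refine Prod.ext h7 (mul_left_cancel₀ h6 ?_)
    rw [h7] at h2
    simpa using h2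

theorem cr_smul (a : Fin 3 → ℝ) (c : ℂ) (z : Fin 3 → ℂ) : cr a (c • z) = c • cr a z := by
  exact map_smul _ _ _

theorem cr_zero (z : Fin 3 → ℂ) : cr 0 z = 0 := by
  refine BAlg_ext ?_ ?_ ?_ <;> simp [cr, cx, cross_apply]

theorem cr_zw (a : Fin 3 → ℝ) (w : ℂ) : cr a (zw w) = (2 * pf w a) • zw w + Pf w a • zw' w := by
  refine BAlg_ext ?_ ?_ ?_ <;> simp [cr, cx, cross_apply, zw, zw', pf, Pf, dotL_apply] <;> grind [Complex.I_sq]

theorem zw_cross (w : ℂ) : crossProduct (zw w) (zw' w) = (-2 * I) • zw w := by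
  refine BAlg_ext ?_ ?_ ?_ <;> simp [cross_apply, zw, zw'] <;> grind [Complex.I_sq]

theorem zw_indep {w s t : ℂ} (h : s • zw w + t • zw' w = 0) : s = 0 ∧ t = 0 := by
  have h0 : s * (1 - w ^ 2) + t * (-2 * w) = 0 := congrFun h 0
  have h1 : s * (I * (1 + w ^ 2)) + t * (2 * I * w) = 0 := congrFun h 1
  have h2 : s * (-2 * w) + t * -2 = 0 := congrFun h 2
  have h3 : s = 0 := by
    linear_combination h0 / 2 - I / 2 * h1 + (s * (1 + w ^ 2) + 2 * t * w) / 2 * Complex.I_sq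
  refine ⟨h3, ?_⟩
  rw [h3] at h2
  linear_combination -h2 / 2

theorem zw_dot_nv (w : ℂ) : zw w ⬝ᵥ cx (nv w) = 0 := by
  obtain ⟨x, y, d, rfl, h1, h2, h3, h4⟩ := BAlg_nv w
  have h5 : (1 + (x : ℂ) ^ 2 + y ^ 2) * d = 1 := by exact_mod_cast h2
  rw [h4]
  simp [zw, cx, dotProduct, Fin.sum_univ_three]
  grind [Complex.I_sq]

theorem zw_cross_nv (w : ℂ) : crossProduct (zw w) (cx (nv w)) = I • zw w := by
  obtain ⟨x, y, d, rfl, h1, h2, h3, h4⟩ := BAlg_nv w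
  have h5 : (1 + (x : ℂ) ^ 2 + y ^ 2) * d = 1 := by exact_mod_cast h2
  rw [h4]
  refine BAlg_ext ?_ ?_ ?_ <;> simp [cx, cross_apply, zw] <;> grind [Complex.I_sq]

theorem nv_dot (w : ℂ) : nv w ⬝ᵥ nv w = 1 := by
  obtain ⟨x, y, d, -, -, h2, -, h4⟩ := BAlg_nv w
  rw [h4]
  simp [dotProduct, Fin.sum_univ_three]
  grind

theorem Pf_cross (w : ℂ) (a b : Fin 3 → ℝ) :
    Pf w (crossProduct a b) = 2 * pf w b * Pf w a - 2 * pf w a * Pf w b := by
  simp [cross_apply, zw, zw', pf, Pf, dotL_apply]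
  grind [Complex.I_sq]

theorem pf_nv (w : ℂ) (a : Fin 3 → ℝ) :
    2 * pf w a + 2 * (starRingEnd ℂ) w * Pf w a / (1 + Complex.normSq w : ℝ) =
      -I * (a ⬝ᵥ nv w : ℝ) := by
  obtain ⟨x, y, d, rfl, h1, h2, h3, h4⟩ := BAlg_nv w
  have h5 : (1 + (x : ℂ) ^ 2 + y ^ 2) * d = 1 := by exact_mod_cast h2
  rw [h4]
  rw [div_eq_mul_inv, h1, h3]
  simp [zw, zw', pf, Pf, dotL_apply, dotProduct, Fin.sum_univ_three]
  grind [Complex.I_sq]

theorem lc_smul (l : ℂ) (z : Fin 3 → ℂ) : lc (l • z) = l * lc z := by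
  simp only [lc, Pi.smul_apply, smul_eq_mul]
  ring

theorem lc_Zm {F : Type} (p : (F × ℂ) × ℂ) : lc (Zm p) = 2 * p.2 := by
  simp [lc, Zm, zw]
  linear_combination (-p.2 * (1 + p.1.2 ^ 2)) * Complex.I_sq

theorem Zm_cw {F : Type} (y : F) {z : Fin 3 → ℂ} (hz : Nul z) (hl : lc z ≠ 0) :
    Zm (cw y z) = z := by
  have h1 := hz.2
  rw [BAlg_dot] at h1
  obtain ⟨u, hu⟩ : ∃ u, u * lc z = 1 := ⟨_, inv_mul_cancel₀ hl⟩
  have h2 : -z 2 / lc z = -z 2 * u := by rw [div_eq_mul_inv, eq_inv_of_mul_eq_one_left hu]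
  rw [cw, h2]
  rw [lc] at hu
  refine BAlg_ext ?_ ?_ ?_ <;> simp [Zm, zw, lc] <;> grind [Complex.I_sq]

theorem cw_Zm {F : Type} {p : (F × ℂ) × ℂ} (hp : p.2 ≠ 0) : cw p.1.1 (Zm p) = p := by
  rw [cw, lc_Zm]
  refine Prod.ext (Prod.ext rfl ?_) (by simp)
  simp [Zm, zw]
  field_simp

theorem cw_smul {F : Type} (y : F) (z : Fin 3 → ℂ) {l : ℂ} (hl : l ≠ 0) :
    cw y (l • z) = ((cw y z).1, l * (cw y z).2) := by
  simp only [cw, lc_smul, Pi.smul_apply, smul_eq_mul]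
  rw [← mul_neg, mul_div_mul_left _ _ hl, mul_div_assoc]

theorem BAlg_smul (l : ℂ) (z : Fin 3 → ℂ) : nrm (l • z) = ‖l‖ * nrm z := by
  simp only [nrm, Pi.smul_apply, norm_smul, mul_pow, ← Finset.mul_sum, mul_div_assoc]
  rw [Real.sqrt_mul (sq_nonneg _), Real.sqrt_sq (norm_nonneg _)]

theorem nrm_Zm {F : Type} (p : (F × ℂ) × ℂ) :
    nrm (Zm p) = ‖p.2‖ * (1 + Complex.normSq p.1.2) := by
  rw [Zm, BAlg_smul, nrm]
  congr 1
  rw [Real.sqrt_eq_iff_mul_self_eq_of_pos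
    (add_pos_of_pos_of_nonneg one_pos (Complex.normSq_nonneg _))]
  simp only [Complex.sq_norm]
  simp [Fin.sum_univ_three, zw, Complex.normSq_apply, sq]
  ring

theorem nrm_smul (l : ℂ) (z : Fin 3 → ℂ) : nrm (l • z) = ‖l‖ * nrm z := by
  exact BAlg_smul l z

theorem nrm_pos {z : Fin 3 → ℂ} (hz : z ≠ 0) : 0 < nrm z := by
  obtain ⟨k, hk⟩ := Function.ne_iff.1 hz
  exact Real.sqrt_pos.2 (half_pos (Finset.sum_pos' (fun _ _ => sq_nonneg _)
    ⟨k, Finset.mem_univ k, pow_pos (norm_pos_iff.2 hk) 2⟩))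

theorem lc_or {z : Fin 3 → ℂ} (hz : Nul z) : lc z ≠ 0 ∨ z 0 + I * z 1 ≠ 0 := by
  by_contra h
  rw [not_or, not_not, not_not, lc] at h
  have h0 : z 0 = 0 := by linear_combination (h.1 + h.2) / 2
  have h1 : z 1 = 0 := by linear_combination I / 2 * (h.1 - h.2) + z 1 * Complex.I_sq
  have h2 := hz.2
  rw [BAlg_dot, h0, h1] at h2
  exact hz.1 (BAlg_ext h0 h1 (by simpa using h2))

theorem rev_ne {z : Fin 3 → ℂ} (hz : Nul z) : rev z ≠ 0 := by
  intro h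
  have h0 : (z 0).re = 0 := congrFun h 0
  have h1 : (z 1).re = 0 := congrFun h 1
  have h2 : (z 2).re = 0 := congrFun h 2
  have h3 := congrArg Complex.re ((BAlg_dot z).symm.trans hz.2)
  simp only [sq, Complex.add_re, Complex.mul_re, h0, h1, h2, Complex.zero_re] at h3
  refine hz.1 (BAlg_ext (Complex.ext h0 ?_) (Complex.ext h1 ?_) (Complex.ext h2 ?_)) <;>
    exact mul_self_eq_zero.1 (by
      nlinarith [mul_self_nonneg (z 0).im, mul_self_nonneg (z 1).im, mul_self_nonneg (z 2).im])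

end Vale.Agent.P292.B
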