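import Vale.Agent.P292.BK

/-! The action, the norm and the transition maps of the cone. -/

set_option maxSynthPendingDepth 3

open scoped ContDiff Topology Matrix
open Set Filter

noncomputable section

namespace Vale.Agent.P292.B

open Vale.Agent.P219 (E)
open Vale.Agent.P219.R (Bil ip chr Good)
open Complex (I)

variable {m : ℕ} {M : Type} [TopologicalSpace M] (Q : QK m M)

variable {Q} {C : Type} [TopologicalSpace C] (N : NB Q C)

theorem NB.map_mem {j : Q.ι} {c : C} (hc : c ∈ (N.τ j).source) : N.τ j c ∈ Tg Q j := by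
  rw [← N.target]
  exact (N.τ j).map_source hc

theorem NB.eq_pt {j : Q.ι} {c : C} (hc : c ∈ (N.τ j).source) :
    N.pt j (N.τ j c).1.1 (Zm (N.τ j c)) = c := by
  rw [← N.symm j _ (N.map_mem hc), (N.τ j).left_inv hc]

theorem bc1_act {j : Q.ι} {c : C} (hc : c ∈ (N.τ j).source) {l : ℂ} (hl : l ≠ 0) :
    ((N.τ j c).1, l * (N.τ j c).2) ∈ (N.τ j).target ∧
      N.act l c = (N.τ j).symm ((N.τ j c).1, l * (N.τ j c).2) := by
  have hp := N.map_mem hc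
  have hq : ((N.τ j c).1, l * (N.τ j c).2) ∈ Tg Q j := ⟨hp.1, mul_ne_zero hl hp.2⟩
  refine ⟨(N.target j).symm ▸ hq, ?_⟩
  rw [N.symm j _ hq]
  conv_lhs => rw [← N.eq_pt hc, N.act_pt j _ hp.1.1 _ (nul_Zm hp.2) l hl]
  simp only [Zm, smul_smul]

theorem NB.act_mem (hm : 1 ≤ m) (j : Q.ι) (c : C) (hc : c ∈ (N.τ j).source) (l : ℂ)
    (hl : l ≠ 0) : N.act l c ∈ (N.τ j).source := by
  have _ := hm
  rw [(bc1_act N hc hl).2]
  exact (N.τ j).map_target (bc1_act N hc hl).1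

theorem NB.act_eq (hm : 1 ≤ m) (j : Q.ι) (c : C) (hc : c ∈ (N.τ j).source) (l : ℂ)
    (hl : l ≠ 0) : N.τ j (N.act l c) = ((N.τ j c).1, l * (N.τ j c).2) := by
  have _ := hm
  rw [(bc1_act N hc hl).2]
  exact (N.τ j).right_inv (bc1_act N hc hl).1

theorem NB.act_cont (hm : 1 ≤ m) :
    ContinuousOn (fun p : ℂ × C => N.act p.1 p.2) {p | p.1 ≠ 0} := by
  have _ := hm
  intro q hq
  obtain ⟨j, hj⟩ := N.cover q.2
  have h1 : ContinuousAt (fun p : ℂ × C => N.τ j p.2) q :=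
    ((N.τ j).continuousAt hj).comp continuousAt_snd
  have h2 : ContinuousAt (fun p : ℂ × C => (N.τ j).symm ((N.τ j p.2).1, p.1 * (N.τ j p.2).2)) q :=
    ContinuousAt.comp (g := (N.τ j).symm) ((N.τ j).continuousAt_symm (bc1_act N hj hq).1)
      (h1.fst.prodMk (continuousAt_fst.mul h1.snd))
  refine h2.continuousWithinAt.congr_of_eventuallyEq ?_ (bc1_act N hj hq).2
  filter_upwards [self_mem_nhdsWithin, mem_nhdsWithin_of_mem_nhds
    (continuousAt_snd.preimage_mem_nhds ((N.τ j).open_source.mem_nhds hj))] with p h1 h2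
  exact (bc1_act N h2 h1).2

theorem NB.r_symm {j : Q.ι} {p : (E (4 * m) × ℂ) × ℂ} (hp : p ∈ Tg Q j) :
    N.r ((N.τ j).symm p) = ‖p.2‖ * (1 + Complex.normSq p.1.2) := by
  rw [N.symm j p hp, N.r_pt j _ hp.1.1 _ (nul_Zm hp.2), nrm_Zm]

theorem NB.r_smooth (j : Q.ι) : ContDiffOn ℝ ∞ (N.r ∘ (N.τ j).symm) (N.τ j).target := by
  rw [N.target]
  exact (contDiffOn_rad.mono fun p hp => hp.2).congr fun p hp => N.r_symm hp

theorem NB.r_cont : Continuous N.r := by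
  refine continuous_iff_continuousAt.2 fun c => ?_
  obtain ⟨j, hj⟩ := N.cover c
  have h1 := ((N.r_smooth j).continuousOn.continuousAt
    ((N.τ j).open_target.mem_nhds ((N.τ j).map_source hj))).comp ((N.τ j).continuousAt hj)
  refine h1.congr ?_
  filter_upwards [(N.τ j).open_source.mem_nhds hj] with x hx
  simp only [Function.comp_apply, (N.τ j).left_inv hx]

theorem NB.r_pos (c : C) : 0 < N.r c := by
  obtain ⟨j, hj⟩ := N.cover c
  have hp := N.map_mem hj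
  rw [← N.eq_pt hj, N.r_pt j _ hp.1.1 _ (nul_Zm hp.2)]
  exact nrm_pos (nul_Zm hp.2).1

theorem NB.r_act (l : ℂ) (c : C) (hl : l ≠ 0) : N.r (N.act l c) = ‖l‖ * N.r c := by
  obtain ⟨j, hj⟩ := N.cover c
  have hp := N.map_mem hj
  rw [← N.eq_pt hj, N.act_pt j _ hp.1.1 _ (nul_Zm hp.2) l hl,
    N.r_pt j _ hp.1.1 _ (nul_smul (nul_Zm hp.2) hl), N.r_pt j _ hp.1.1 _ (nul_Zm hp.2), nrm_smul]

theorem bc1_tr {i j : Q.ι} {p : (E (4 * m) × ℂ) × ℂ}
    (hp : p ∈ (N.τ j).target ∩ (N.τ j).symm ⁻¹' (N.τ i).source) :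
    p ∈ Tg Q j ∧ (p.1.1 ∈ W Q i j ∧ lc (mv (R Q i j p.1.1) (Zm p)) ≠ 0) ∧
      N.τ i ((N.τ j).symm p) = Tm Q i j p.1.1 (Zm p) := by
  have h1 : p ∈ Tg Q j := N.target j ▸ hp.1
  have h2 := hp.2
  rw [mem_preimage, N.symm j p h1, N.mem i j _ h1.1.1 _ (nul_Zm h1.2)] at h2
  refine ⟨h1, h2, ?_⟩
  rw [N.symm j p h1, N.eq i j _ h2.1 _ (nul_Zm h1.2) h2.2]

theorem NB.smooth (hm : 1 ≤ m) (i j : Q.ι) : ContDiffOn ℝ ∞ (N.τ i ∘ (N.τ j).symm)
    ((N.τ j).target ∩ (N.τ j).symm ⁻¹' (N.τ i).source) := by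
  exact ((Tm_smooth Q hm i j).comp (contDiff_fst.fst.prodMk contDiff_Zm).contDiffOn
    fun p hp => (bc1_tr N hp).2.1).congr fun p hp => (bc1_tr N hp).2.2

theorem NB.compat (hm : 1 ≤ m) (i j : Q.ι) (p : (E (4 * m) × ℂ) × ℂ) (hp : p ∈ (N.τ j).target)
    (hp' : (N.τ j).symm p ∈ (N.τ i).source) (v : (E (4 * m) × ℂ) × ℂ) :
    thC (th Q j) p v =
      thC (th Q i) (N.τ i ((N.τ j).symm p)) (fderiv ℝ (N.τ i ∘ (N.τ j).symm) p v) := by
  obtain ⟨h1, h2, h3⟩ := bc1_tr N ⟨hp, hp'⟩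
  have e : N.τ i ∘ (N.τ j).symm =ᶠ[𝓝 p] fun q => Tm Q i j q.1.1 (Zm q) := by
    filter_upwards [((N.τ j).symm.isOpen_inter_preimage (N.τ i).open_source).mem_nhds ⟨hp, hp'⟩]
      with q hq
    exact (bc1_tr N hq).2.2
  have hx : HasFDerivAt (fun q : (E (4 * m) × ℂ) × ℂ => q.1.1)
      ((ContinuousLinearMap.fst ℝ _ _).comp (ContinuousLinearMap.fst ℝ _ _)) p :=
    hasFDerivAt_fst.fst
  rw [h3, e.fderiv_eq]
  refine (Tm_th Q hm (x := fun q : (E (4 * m) × ℂ) × ℂ => q.1.1) (ζ := Zm) hx.differentiableAt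
    (contDiff_Zm.differentiable (by simp) p) h2.1 ?_ h2.2 v ?_).symm
  · filter_upwards [(Tg_open Q j).mem_nhds h1] with q hq
    exact nul_Zm hq.2
  · rw [hx.fderiv, ← cross_nab Q j p v, ← nab_eq Q j p v]
    rfl

end Vale.Agent.P292.B
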