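import Vale.Agent.P292.BDefs

/-! Smoothness and derivatives of the elementary maps. -/

set_option maxSynthPendingDepth 3

open scoped ContDiff Topology Matrix
open Set Filter

noncomputable section

namespace Vale.Agent.P292.B

open Vale.Agent.P219 (E)
open Vale.Agent.P219.R (Bil ip chr Good)
open Complex (I)

theorem bcal_line {F G : Type} [NormedAddCommGroup F] [NormedSpace ℝ F] [NormedAddCommGroup G]
    [NormedSpace ℝ G] {f : F → G} {p v : F} {d : G} (hf : DifferentiableAt ℝ f p)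
    (h : HasDerivAt (fun t : ℝ => f (p + t • v)) d 0) : fderiv ℝ f p v = d := by
  have h1 : HasDerivAt (fun t : ℝ => p + t • v) v 0 := by
    simpa using ((hasDerivAt_id (0 : ℝ)).smul_const v).const_add p
  have h2 : HasFDerivAt f (fderiv ℝ f p) (p + (0 : ℝ) • v) := by
    rw [zero_smul, add_zero]
    exact hf.hasFDerivAt
  exact (h2.comp_hasDerivAt (0 : ℝ) h1).unique h

theorem bcal_c (a b : ℂ) : HasDerivAt (fun t : ℝ => a + t • b) b 0 := by
  simpa using ((hasDerivAt_id (0 : ℝ)).smul_const b).const_add a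

theorem bcal_re : ContDiff ℝ ∞ Complex.re := Complex.reCLM.contDiff

theorem bcal_im : ContDiff ℝ ∞ Complex.im := Complex.imCLM.contDiff

theorem bcal_nsq : ContDiff ℝ ∞ fun w : ℂ => Complex.normSq w := by
  simp only [Complex.normSq_apply]
  exact (bcal_re.mul bcal_re).add (bcal_im.mul bcal_im)

theorem bcal_pos (w : ℂ) : 0 < 1 + Complex.normSq w :=
  add_pos_of_pos_of_nonneg one_pos (Complex.normSq_nonneg w)

theorem contDiff_zv : ContDiff ℝ ∞ zv := by
  refine contDiff_pi.2 fun k => ?_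
  fin_cases k <;> simp [zv] <;> fun_prop

theorem fderiv_zv (h e : ℂ × ℂ) : fderiv ℝ zv h e = dz h e := by
  refine bcal_line (contDiff_zv.differentiable (by simp) h) (hasDerivAt_pi.2 fun k => ?_)
  have h1 := bcal_c h.1 e.1
  have h2 := bcal_c h.2 e.2
  fin_cases k
  · exact ((h1.pow 2).sub (h2.pow 2)).congr_deriv (by simp [dz])
  · exact (((h1.pow 2).add (h2.pow 2)).const_mul I).congr_deriv (by simp [dz])
  · exact ((h1.const_mul (-2)).mul h2).congr_deriv (by simp [dz]; ring)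

theorem contDiff_zw : ContDiff ℝ ∞ zw := by
  refine contDiff_pi.2 fun k => ?_
  fin_cases k <;> simp [zw] <;> fun_prop

theorem contDiff_zw' : ContDiff ℝ ∞ zw' := by
  refine contDiff_pi.2 fun k => ?_
  fin_cases k <;> simp [zw'] <;> fun_prop

theorem contDiff_nv : ContDiff ℝ ∞ nv := by
  have h1 : ContDiff ℝ ∞ fun w : ℂ => 1 + Complex.normSq w := contDiff_const.add bcal_nsq
  refine contDiff_pi.2 fun k => ?_
  fin_cases k
  · exact (contDiff_const.mul bcal_re).div h1 fun w => (bcal_pos w).ne'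
  · exact (contDiff_const.mul bcal_im).div h1 fun w => (bcal_pos w).ne'
  · exact (contDiff_const.sub bcal_nsq).div h1 fun w => (bcal_pos w).ne'

theorem bcal_dotL : ContDiff ℝ ∞ dotL :=
  ContDiff.sum fun k _ => (contDiff_apply ℝ ℂ k).smul contDiff_const

theorem contDiff_Pf : ContDiff ℝ ∞ Pf := bcal_dotL.comp (contDiff_zw.const_smul _)

theorem contDiff_pf : ContDiff ℝ ∞ pf := bcal_dotL.comp (contDiff_zw'.const_smul _)

theorem bcal_zw (w w' : ℂ) : HasDerivAt (fun t : ℝ => zw (w + t • w')) (w' • zw' w) 0 := by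
  refine hasDerivAt_pi.2 fun k => ?_
  have h1 := bcal_c w w'
  fin_cases k
  · exact ((h1.pow 2).const_sub 1).congr_deriv (by simp [zw']; ring)
  · exact (((h1.pow 2).const_add 1).const_mul I).congr_deriv (by simp [zw']; ring)
  · exact (h1.const_mul (-2)).congr_deriv (by simp [zw']; ring)

theorem fderiv_Pf (w w' : ℂ) (a : Fin 3 → ℝ) : fderiv ℝ Pf w w' a = -2 * w' * pf w a := by
  have h0 := contDiff_Pf.differentiable (by simp) w
  have h1 : fderiv ℝ (fun u => Pf u a) w w' = fderiv ℝ Pf w w' a := by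
    rw [fderiv_clm_apply h0 (differentiableAt_const a)]
    simp
  rw [← h1]
  refine bcal_line (h0.clm_apply (differentiableAt_const a)) ?_
  have h2 := hasDerivAt_pi.1 ((bcal_zw w w').const_smul (-(I / 2)))
  simp only [Pf, pf, dotL_apply]
  refine ((((h2 0).mul_const (a 0 : ℂ)).add ((h2 1).mul_const (a 1 : ℂ))).add
    ((h2 2).mul_const (a 2 : ℂ))).congr_deriv ?_
  simp only [Pi.smul_apply, smul_eq_mul]
  ring

theorem contDiff_Zm {F : Type} [NormedAddCommGroup F] [NormedSpace ℝ F] :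
    ContDiff ℝ ∞ (Zm : (F × ℂ) × ℂ → Fin 3 → ℂ) :=
  contDiff_snd.smul (contDiff_zw.comp (contDiff_snd.comp contDiff_fst))

theorem fderiv_Zm {F : Type} [NormedAddCommGroup F] [NormedSpace ℝ F] (p v : (F × ℂ) × ℂ) :
    fderiv ℝ Zm p v = v.2 • zw p.1.2 + (p.2 * v.1.2) • zw' p.1.2 := by
  refine bcal_line (contDiff_Zm.differentiable (by simp) p) ?_
  refine ((bcal_c p.2 v.2).smul (bcal_zw p.1.2 v.1.2)).congr_deriv ?_
  rw [zero_smul, zero_smul, add_zero, add_zero, smul_smul, add_comm]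

theorem contDiff_lc : ContDiff ℝ ∞ lc := by
  unfold lc
  fun_prop

theorem contDiffOn_cw {F : Type} [NormedAddCommGroup F] [NormedSpace ℝ F] :
    ContDiffOn ℝ ∞ (fun q : F × (Fin 3 → ℂ) => cw q.1 q.2) {q | lc q.2 ≠ 0} := by
  have h1 : ContDiff ℝ ∞ fun q : F × (Fin 3 → ℂ) => lc q.2 := contDiff_lc.comp contDiff_snd
  have h2 : ContDiff ℝ ∞ fun q : F × (Fin 3 → ℂ) => -q.2 2 := by fun_prop
  simp only [cw, div_eq_mul_inv]
  exact (contDiffOn_fst.prodMk (h2.contDiffOn.mul (h1.contDiffOn.inv fun q hq => hq))).prodMk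
    (h1.mul contDiff_const).contDiffOn

theorem contDiff_mv :
    ContDiff ℝ ∞ fun q : (Fin 3 → Fin 3 → ℝ) × (Fin 3 → ℂ) => mv q.1 q.2 := by
  refine contDiff_pi.2 fun l => ContDiff.sum fun k _ => ContDiff.mul ?_ (by fun_prop)
  exact Complex.ofRealCLM.contDiff.comp (by fun_prop)

theorem fderiv_mv {F : Type} [NormedAddCommGroup F] [NormedSpace ℝ F]
    {S : F → Fin 3 → Fin 3 → ℝ} {ζ : F → Fin 3 → ℂ} {p : F} (hS : DifferentiableAt ℝ S p)
    (hζ : DifferentiableAt ℝ ζ p) (v : F) : fderiv ℝ (fun q => mv (S q) (ζ q)) p v =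
      mv (fderiv ℝ S p v) (ζ p) + mv (S p) (fderiv ℝ ζ p v) := by
  have h0 : HasDerivAt (fun t : ℝ => p + t • v) v 0 := by
    simpa using ((hasDerivAt_id (0 : ℝ)).smul_const v).const_add p
  have e0 : p + (0 : ℝ) • v = p := by rw [zero_smul, add_zero]
  have h1 : HasDerivAt (fun t : ℝ => S (p + t • v)) (fderiv ℝ S p v) 0 :=
    HasFDerivAt.comp_hasDerivAt (0 : ℝ) (e0.symm ▸ hS.hasFDerivAt) h0
  have h2 : HasDerivAt (fun t : ℝ => ζ (p + t • v)) (fderiv ℝ ζ p v) 0 :=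
    HasFDerivAt.comp_hasDerivAt (0 : ℝ) (e0.symm ▸ hζ.hasFDerivAt) h0
  have h3 := (contDiff_mv.differentiable (by simp) (S p, ζ p)).comp p (hS.prodMk hζ)
  refine bcal_line h3 (hasDerivAt_pi.2 fun l => ?_)
  refine (HasDerivAt.fun_sum fun k _ => (hasDerivAt_pi.1 (hasDerivAt_pi.1 h1 l) k).ofReal_comp.mul
    (hasDerivAt_pi.1 h2 k)).congr_deriv ?_
  simp only [e0, mv, Pi.add_apply, Finset.sum_add_distrib]

theorem continuous_nrm : Continuous nrm := by
  unfold nrm
  fun_prop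

theorem contDiffOn_rad {F : Type} [NormedAddCommGroup F] [NormedSpace ℝ F] :
    ContDiffOn ℝ ∞ (fun p : (F × ℂ) × ℂ => ‖p.2‖ * (1 + Complex.normSq p.1.2)) {p | p.2 ≠ 0} :=
  (contDiffOn_snd.norm ℝ fun _ hp => hp).mul
    (contDiff_const.add (bcal_nsq.comp (contDiff_snd.comp contDiff_fst))).contDiffOn

theorem contDiffOn_lr {F : Type} [NormedAddCommGroup F] [NormedSpace ℝ F] :
    ContDiffOn ℝ ∞ (lr : (F × ℂ) × ℂ → ℝ) {p | p.2 ≠ 0} :=
  contDiffOn_rad.log fun p hp => (mul_pos (norm_pos_iff.2 hp) (bcal_pos p.1.2)).ne'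

theorem bcal_dn (a b : ℂ) : HasDerivAt (fun t : ℝ => Complex.normSq (a + t • b))
    (2 * ((starRingEnd ℂ) a * b).re) 0 := by
  have h1 := Complex.reCLM.hasFDerivAt.comp_hasDerivAt (0 : ℝ) (bcal_c a b)
  have h2 := Complex.imCLM.hasFDerivAt.comp_hasDerivAt (0 : ℝ) (bcal_c a b)
  simp only [Complex.normSq_apply]
  refine ((h1.mul h1).add (h2.mul h2)).congr_deriv ?_
  simp
  ring

theorem fderiv_lr {F : Type} [NormedAddCommGroup F] [NormedSpace ℝ F] {p : (F × ℂ) × ℂ}
    (hp : p.2 ≠ 0) (v : (F × ℂ) × ℂ) : fderiv ℝ lr p v = (v.2 / p.2).re +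
      2 * ((starRingEnd ℂ) p.1.2 * v.1.2).re / (1 + Complex.normSq p.1.2) := by
  have hO : {q : (F × ℂ) × ℂ | q.2 ≠ 0} ∈ 𝓝 p :=
    (isOpen_ne.preimage continuous_snd).mem_nhds hp
  have h1 : (lr : (F × ℂ) × ℂ → ℝ) =ᶠ[𝓝 p] fun q =>
      1 / 2 * Real.log (Complex.normSq q.2) + Real.log (1 + Complex.normSq q.1.2) := by
    filter_upwards [hO] with q hq
    rw [lr, Real.log_mul (norm_ne_zero_iff.2 hq) (bcal_pos _).ne', Complex.normSq_eq_norm_sq q.2,
      Real.log_pow]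
    ring
  have h2 : 0 < Complex.normSq p.2 := Complex.normSq_pos.2 hp
  have h3 := ((contDiffOn_lr.contDiffAt hO).differentiableAt (by simp)).congr_of_eventuallyEq
    h1.symm
  rw [h1.fderiv_eq]
  refine bcal_line h3 ?_
  refine ((((bcal_dn p.2 v.2).log (by simpa using hp)).const_mul (1 / 2)).add
    (((bcal_dn p.1.2 v.1.2).const_add 1).log (bcal_pos _).ne')).congr_deriv ?_
  rw [zero_smul, zero_smul, add_zero, add_zero, Complex.div_re]
  simp only [Complex.mul_re, Complex.conj_re, Complex.conj_im]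
  ring

end Vale.Agent.P292.B
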