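import Vale.Agent.P292.BQ
import Vale.Agent.P292.BCal

/-! The symplectic form in a chart. -/

set_option maxSynthPendingDepth 3

open scoped ContDiff Topology Matrix
open Set Filter

noncomputable section

namespace Vale.Agent.P292.B

open Vale.Agent.P219 (E)
open Vale.Agent.P219.R (Bil ip chr Good)
open Complex (I)

variable {m : ℕ} {M : Type} [TopologicalSpace M] (Q : QK m M)

theorem th_smooth (j : Q.ι) : ContDiffOn ℝ ∞ (th Q j) (Q.U j ×ˢ univ) := by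
  exact contDiffOn_const.add ((contDiff_Pf.comp contDiff_snd).contDiffOn.clm_comp
    (((Q.a_smooth j).comp contDiffOn_fst fun _ h => h.1).clm_comp contDiffOn_const))

theorem Jm_smooth (j : Q.ι) : ContDiffOn ℝ ∞ (Jm Q j) (Tg Q j) := by
  refine contDiffOn_clm_apply.2 fun v => ?_
  have h1 : ContDiff ℝ ∞ fun p : (E (4 * m) × ℂ) × ℂ => p.1.1 := contDiff_fst.fst
  have h2 : ContDiff ℝ ∞ fun p : (E (4 * m) × ℂ) × ℂ => p.1.2 := contDiff_fst.snd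
  have ha : ContDiffOn ℝ ∞ (fun p : (E (4 * m) × ℂ) × ℂ => Q.a j p.1.1) (Tg Q j) :=
    (Q.a_smooth j).comp h1.contDiffOn fun _ h => h.1.1
  have hP : ContDiffOn ℝ ∞ (fun p : (E (4 * m) × ℂ) × ℂ => Pf p.1.2) (Tg Q j) :=
    (contDiff_Pf.comp h2).contDiffOn
  have hp : ContDiffOn ℝ ∞ (fun p : (E (4 * m) × ℂ) × ℂ => pf p.1.2) (Tg Q j) :=
    (contDiff_pf.comp h2).contDiffOn
  have hX : ContDiffOn ℝ ∞ (fun p : (E (4 * m) × ℂ) × ℂ => Iv Q j p.1.1 (nv p.1.2) v.1.1)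
      (Tg Q j) := ((Iv_smooth Q j).comp (h1.prodMk (contDiff_nv.comp h2)).contDiffOn
        fun _ h => ⟨h.1.1, trivial⟩).clm_apply contDiffOn_const
  have h3 : ContDiffOn ℝ ∞ (fun p : (E (4 * m) × ℂ) × ℂ => 2 * p.2) (Tg Q j) :=
    contDiffOn_const.mul contDiffOn_snd
  simp only [Jm_apply, mk_apply, th_apply, la_apply]
  exact (hX.prodMk ((contDiffOn_const.mul (contDiffOn_const.add
    (hP.clm_apply (ha.clm_apply contDiffOn_const)))).sub (hP.clm_apply (ha.clm_apply hX)))).prodMk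
    ((contDiffOn_const.mul (contDiffOn_const.add (h3.mul (hp.clm_apply
      (ha.clm_apply contDiffOn_const))))).sub (h3.mul (hp.clm_apply (ha.clm_apply hX))))

theorem BOm_fderiv {j : Q.ι} {q : E (4 * m) × ℂ} (hq : q.1 ∈ Q.U j) (v w : E (4 * m) × ℂ) :
    fderiv ℝ (th Q j) q v w
      = -2 * v.2 * pf q.2 (Q.a j q.1 w.1) + Pf q.2 (fderiv ℝ (Q.a j) q.1 v.1 w.1) := by
  have h1 := (((Q.a_smooth j).contDiffAt ((Q.good j).isOpen.mem_nhds hq)).differentiableAt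
    (by simp)).hasFDerivAt.comp q hasFDerivAt_fst
  have h2 := (contDiff_Pf.differentiable (by simp) q.2).hasFDerivAt.comp q hasFDerivAt_snd
  have h3 := (h2.clm_comp (h1.clm_comp (hasFDerivAt_const
    (ContinuousLinearMap.fst ℝ (E (4 * m)) ℂ) q))).const_add (ContinuousLinearMap.snd ℝ _ _)
  rw [show fderiv ℝ (th Q j) q = _ from h3.fderiv, ← fderiv_Pf, add_comm]
  simp

theorem om_eq {j : Q.ι} {p : (E (4 * m) × ℂ) × ℂ} (hp : p.1.1 ∈ Q.U j) {ν : ℝ}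
    (hν : ∀ X Y k, curvA (Q.a j) p.1.1 X Y k = -ν * ip (Q.G j p.1.1) (Q.I j k p.1.1 X) Y)
    (v w : (E (4 * m) × ℂ) × ℂ) : omC (th Q j) p v w =
      la Q j p v * th Q j p.1 w.1 - la Q j p w * th Q j p.1 v.1 +
        p.2 * (I * ν / 2) * gz Q j p.1.1 (zw p.1.2) v.1.1 w.1.1 := by
  have e1 : Pf p.1.2 (curvA (Q.a j) p.1.1 v.1.1 w.1.1)
      = I * ν / 2 * gz Q j p.1.1 (zw p.1.2) v.1.1 w.1.1 := by
    simp only [Pf, dotL_apply, hν, gz, Fin.sum_univ_three, Pi.smul_apply, smul_eq_mul]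
    push_cast
    ring
  rw [curvA, map_add, map_sub, Pf_cross] at e1
  simp only [omC, BOm_fderiv Q hp, th_apply, la_apply]
  linear_combination p.2 * e1

theorem Jm_sq {j : Q.ι} {p : (E (4 * m) × ℂ) × ℂ} (hp : p ∈ Tg Q j) (v : (E (4 * m) × ℂ) × ℂ) :
    Jm Q j p (Jm Q j p v) = -v := by
  rw [Jm_apply Q j p (Jm Q j p v), Jm_apply Q j p v, mk_fst, th_mk, la_mk, Iv_mul Q hp.1.1, nv_dot,
    cross_self, ← zero_smul ℝ (0 : Fin 3 → ℝ), Iv_smul, ← mul_assoc, ← mul_assoc, Complex.I_mul_I]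
  conv_rhs => rw [← mk_eq Q j p v, ← map_neg]
  simp

theorem Jm_om {j : Q.ι} {p : (E (4 * m) × ℂ) × ℂ} (hp : p ∈ Tg Q j)
    (v w : (E (4 * m) × ℂ) × ℂ) : omC (th Q j) p (Jm Q j p v) w = I * omC (th Q j) p v w := by
  obtain ⟨ν, -, hν⟩ := Q.curv j _ hp.1.1
  rw [om_eq Q hp.1.1 hν, om_eq Q hp.1.1 hν, Jm_apply, mk_fst, th_mk, la_mk,
    gz_J Q hp.1.1 (zw_dot_nv _) (zw_cross_nv _)]
  ring

theorem om_nondeg {j : Q.ι} {p : (E (4 * m) × ℂ) × ℂ} (hp : p ∈ Tg Q j)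
    (v : (E (4 * m) × ℂ) × ℂ) (h : ∀ w, omC (th Q j) p v w = 0) : v = 0 := by
  obtain ⟨ν, h0, hν⟩ := Q.curv j _ hp.1.1
  have e : ∀ X t s, la Q j p v * t - s * th Q j p.1 v.1
      + p.2 * (I * ν / 2) * gz Q j p.1.1 (zw p.1.2) v.1.1 X = 0 := fun X t s => by
    have := h (mk Q j p (X, t, s))
    rwa [om_eq Q hp.1.1 hν, mk_fst, th_mk, la_mk] at this
  have z : gz Q j p.1.1 (zw p.1.2) v.1.1 0 = 0 := by simp [gz, ip]
  have h1 : th Q j p.1 v.1 = 0 := by simpa [z] using e 0 0 1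
  have h2 : la Q j p v = 0 := by simpa [z] using e 0 1 0
  have h3 : v.1.1 = 0 := gz_nondeg Q hp.1.1 (nul_zw p.1.2) fun Y => by
    have := e Y 0 0
    rw [mul_zero, zero_mul, sub_zero, zero_add] at this
    exact (mul_eq_zero.1 this).resolve_left (mul_ne_zero hp.2 (div_ne_zero
      (mul_ne_zero Complex.I_ne_zero (Complex.ofReal_ne_zero.2 h0.ne')) two_ne_zero))
  rw [← mk_eq Q j p v, h1, h2, h3]
  exact map_zero _

end Vale.Agent.P292.B
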