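import Vale.Agent.P292.BP1
import Vale.Agent.P292.BOm

/-! The logarithm of the norm is strictly plurisubharmonic. -/

set_option maxSynthPendingDepth 3

open scoped ContDiff Topology Matrix
open Set Filter

noncomputable section

namespace Vale.Agent.P292.B

open Vale.Agent.P219 (E)
open Vale.Agent.P219.R (Bil ip chr Good)
open Complex (I)

variable {m : ℕ} {M : Type} [TopologicalSpace M] (Q : QK m M)

theorem BP2_alg {l s t c P₁ P₂ p₁ p₂ : ℂ} {D r₁ r₂ : ℝ} (hl : l ≠ 0)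
    (h1 : 2 * p₁ + 2 * c * P₁ / D = -I * r₁) (h2 : 2 * p₂ + 2 * c * P₂ / D = -I * r₂) :
    ((I * (s + 2 * l * p₁) - 2 * l * p₂) / l).re + 2 * (c * (I * (t + P₁) - P₂)).re / D =
      -(s / l).im - 2 * (c * t).im / D + r₁ := by
  have e1 : (I * (s + 2 * l * p₁) - 2 * l * p₂) / l = I * (s / l) + I * (2 * p₁) - 2 * p₂ := by
    field_simp
  have e2 : I * (s / l) + I * (2 * p₁) - 2 * p₂ + 2 * (c * (I * (t + P₁) - P₂)) / D =
      I * (s / l) + I * (2 * (c * t) / D) + I * (-I * r₁) + I * r₂ := by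
    linear_combination I * h1 - h2
  have e3 := congrArg Complex.re e2
  rw [e1]
  generalize I * (s / l) + I * (2 * p₁) - 2 * p₂ = A at e3
  generalize c * (I * (t + P₁) - P₂) = B at e3
  generalize c * t = C at e3
  generalize s / l = E at e3
  simp [Complex.div_ofReal_re, Complex.div_ofReal_im] at e3
  linarith

theorem lr_J (j : Q.ι) {p : (E (4 * m) × ℂ) × ℂ} (hp : p.2 ≠ 0) (v : (E (4 * m) × ℂ) × ℂ) :
    fderiv ℝ lr p (Jm Q j p v) = be Q j p v := by
  rw [fderiv_lr hp, Jm_apply, mk_apply, th_apply, la_apply]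
  exact BP2_alg hp (pf_nv _ _) (pf_nv _ _)

theorem psh_lr {j : Q.ι} {f : (E (4 * m) × ℂ) × ℂ → ℝ} (hf : ∀ q ∈ Tg Q j, f q = lr q)
    {p : (E (4 * m) × ℂ) × ℂ} (hp : p ∈ Tg Q j) (v : (E (4 * m) × ℂ) × ℂ) (hv : v.1 ≠ 0) :
    fderiv ℝ (fun q => (fderiv ℝ f q).comp (Jm Q j q)) p v (Jm Q j p v) -
      fderiv ℝ (fun q => (fderiv ℝ f q).comp (Jm Q j q)) p (Jm Q j p v) v < 0 := by
  have hN := (Tg_open Q j).mem_nhds hp
  have hf' : ∀ q ∈ Tg Q j, fderiv ℝ f q = fderiv ℝ lr q := fun q hq =>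
    EventuallyEq.fderiv_eq (mem_of_superset ((Tg_open Q j).mem_nhds hq) hf)
  have hB : DifferentiableAt ℝ (fun q => (fderiv ℝ f q).comp (Jm Q j q)) p := by
    have h1 : ContDiffAt ℝ ∞ (lr : (E (4 * m) × ℂ) × ℂ → ℝ) p := contDiffOn_lr.contDiffAt
      ((isOpen_ne_fun continuous_snd continuous_const).mem_nhds hp.2)
    have h2 : DifferentiableAt ℝ (fderiv ℝ f) p :=
      ((h1.fderiv_right (m := 1) (WithTop.coe_le_coe.2 (le_top : (2 : ℕ∞) ≤ ⊤))).differentiableAt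
        one_ne_zero).congr_of_eventuallyEq (mem_of_superset hN hf')
    exact h2.clm_comp (((Jm_smooth Q j).contDiffAt hN).differentiableAt (by simp))
  have hE : ∀ u w, fderiv ℝ (fun q => (fderiv ℝ f q).comp (Jm Q j q)) p u w =
      fderiv ℝ (fun q => be Q j q w) p u := fun u w => by
    have h1 : (fun q => be Q j q w) =ᶠ[𝓝 p] fun q => (fderiv ℝ f q).comp (Jm Q j q) w :=
      mem_of_superset hN fun q hq => by
        show be Q j q w = fderiv ℝ f q (Jm Q j q w)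
        rw [hf' q hq, lr_J Q j hq.2]
    rw [h1.fderiv_eq, fderiv_clm_apply hB (differentiableAt_const w)]
    simp
  obtain ⟨ν, hν, hc⟩ := Q.curv j _ hp.1.1
  have h1 : curvA (Q.a j) p.1.1 v.1.1 (Iv Q j p.1.1 (nv p.1.2) v.1.1) ⬝ᵥ nv p.1.2 =
      -ν * ip (Q.G j p.1.1) v.1.1 v.1.1 := by
    have h := ip_Iv Q hp.1.1 (nv p.1.2) (nv p.1.2) v.1.1
    rw [nv_dot, one_mul] at h
    rw [← h]
    generalize hY : Iv Q j p.1.1 (nv p.1.2) v.1.1 = Y
    conv_rhs => rw [ip]; enter [2, 1, 2]; rw [← hY, Iv_apply]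
    simp only [dotProduct, hc, ip, map_sum, map_smul, sum_apply, smul_apply, smul_eq_mul,
      Finset.mul_sum]
    exact Finset.sum_congr rfl fun k _ => by ring
  rw [hE, hE, d_be Q hp, Jm_apply, mk_fst, th_mk, h1]
  have h2 : ((starRingEnd ℂ) (th Q j p.1 v.1) * (I * th Q j p.1 v.1)).im =
      Complex.normSq (th Q j p.1 v.1) := by
    simp [Complex.normSq_apply]
  have h3 : 0 < (1 + Complex.normSq p.1.2) ^ 2 :=
    pow_pos (add_pos_of_pos_of_nonneg one_pos (Complex.normSq_nonneg _)) 2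
  rw [h2]
  by_cases hX : v.1.1 = 0
  · have h4 : th Q j p.1 v.1 ≠ 0 := by
      rw [th_apply, hX, map_zero, map_zero, add_zero]
      exact fun h => hv (Prod.ext hX h)
    have h5 := div_pos (mul_pos four_pos (Complex.normSq_pos.2 h4)) h3
    rw [hX, ip, map_zero, mul_zero]
    linarith
  · have h4 := mul_pos hν (((Q.good j).pos _ hp.1.1).pos _ hX)
    have h5 := div_nonneg (mul_nonneg four_pos.le (Complex.normSq_nonneg (th Q j p.1 v.1))) h3.le
    rw [ip]
    linarith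

end Vale.Agent.P292.B
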