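import Vale.Agent.P292.BC1
import Vale.Agent.P292.BP2

/-! The twistor cone. -/

set_option maxSynthPendingDepth 3

open scoped ContDiff Topology Matrix
open Set Filter

noncomputable section

namespace Vale.Agent.P292.B

open Vale.Agent.P219 (E)
open Vale.Agent.P219.R (Bil ip chr Good)
open Complex (I)

variable {m : ℕ} {M : Type} [TopologicalSpace M] (Q : QK m M)

variable {Q} {C : Type} [TopologicalSpace C]

/-- the twistor cone -/
def NB.cone (N : NB Q C) (hm : 1 ≤ m) : Cone (E (4 * m) × ℂ) C where
  D := 2 * m + 1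
  three := by omega
  dim := by simp [Module.finrank_prod]; ring
  act := N.act
  act_cont := N.act_cont hm
  ι := Q.ι
  τ := N.τ
  base j := Q.U j ×ˢ univ
  base_open j := (Q.good j).isOpen.prod isOpen_univ
  target := N.target
  cover := N.cover
  act_mem := N.act_mem hm
  act_eq := N.act_eq hm
  smooth := N.smooth hm
  r := N.r
  r_cont := N.r_cont
  r_pos := N.r_pos
  r_act := N.r_act
  r_smooth := N.r_smooth
  compact := N.compact
  ϑ := th Q
  ϑ_smooth := th_smooth Q
  compat := N.compat hm
  J := Jm Q
  J_smooth j := N.target j ▸ Jm_smooth Q j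
  J_sq j _ hp := Jm_sq Q (N.target j ▸ hp)
  J_om j _ hp := Jm_om Q (N.target j ▸ hp)
  nondeg j _ hp := om_nondeg Q (N.target j ▸ hp)
  psh j _ hp := psh_lr Q (f := fun q => Real.log (N.r ((N.τ j).symm q)))
    (fun q hq => by rw [N.r_symm hq, lr]) (N.target j ▸ hp)

end Vale.Agent.P292.B
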