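import Vale.Agent.P292.BDefs

/-! Doubling the atlas. -/

set_option maxSynthPendingDepth 3

open scoped ContDiff Topology Matrix
open Set Filter

noncomputable section

namespace Vale.Agent.P292.B

open Vale.Agent.P219 (E)
open Vale.Agent.P219.R (Bil ip chr Good)
open Complex (I)

variable {m : ℕ} {M : Type} [TopologicalSpace M] (Q : QK m M)

/-- the signs -/
def bdblS (b : Bool) : Fin 3 → ℝ := cond b ![1, -1, -1] ![1, 1, 1]

/-- the diagonal rotation -/
def bdblD (b : Bool) : (Fin 3 → ℝ) →L[ℝ] Fin 3 → ℝ :=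
  ContinuousLinearMap.pi fun k => bdblS b k • ContinuousLinearMap.proj k

theorem bdblD_apply (b : Bool) (u : Fin 3 → ℝ) (k : Fin 3) : bdblD b u k = bdblS b k * u k := rfl

theorem bdbl_sq (b : Bool) (k : Fin 3) : bdblS b k * bdblS b k = 1 := by
  cases b <;> fin_cases k <;> simp [bdblS]

theorem bdbl_mul (b : Bool) : bdblS b 0 * bdblS b 1 = bdblS b 2 := by
  cases b <;> simp [bdblS]

theorem bdbl_cross (b : Bool) (u v : Fin 3 → ℝ) :
    crossProduct (bdblD b u) (bdblD b v) = bdblD b (crossProduct u v) := by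
  funext k
  cases b <;> fin_cases k <;> simp [bdblD_apply, bdblS, cross_apply] <;> ring

theorem bdbl_single (b : Bool) (u : Fin 3 → ℝ) (k l : Fin 3) :
    crossProduct (bdblD b u) (Pi.single k 1) l * bdblS b l =
      bdblS b k * crossProduct u (Pi.single k 1) l := by
  cases b <;> fin_cases k <;> fin_cases l <;> simp [bdblD_apply, bdblS, cross_apply]

theorem bdbl_false (k : Fin 3) : bdblS false k = 1 := by
  fin_cases k <;> simp [bdblS]

theorem bdbl_curv {n : ℕ} (b : Bool) {a : E n → E n →L[ℝ] Fin 3 → ℝ} {y : E n}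
    (ha : DifferentiableAt ℝ a y) (X Y : E n) :
    curvA (fun y => (bdblD b).comp (a y)) y X Y = bdblD b (curvA a y X Y) := by
  have h := ((ContinuousLinearMap.compL ℝ (E n) (Fin 3 → ℝ) (Fin 3 → ℝ)
    (bdblD b)).hasFDerivAt.comp y ha.hasFDerivAt).fderiv
  have e : fderiv ℝ (fun y => (bdblD b).comp (a y)) y = _ := h
  simp only [curvA, e, map_add, map_sub, ← bdbl_cross]
  rfl

/-- the doubled atlas -/
def bdblQ : QK m M where
  ι := Q.ι × Bool
  fin := by
    have := Q.fin
    infer_instance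
  e j := Q.e j.1
  U j := Q.U j.1
  sub j := Q.sub j.1
  cover x := let ⟨j, h⟩ := Q.cover x; ⟨(j, false), h⟩
  G j := Q.G j.1
  good j := Q.good j.1
  smooth i j := Q.smooth i.1 j.1
  compat i j := Q.compat i.1 j.1
  I j k y := bdblS j.2 k • Q.I j.1 k y
  I_smooth j k := (Q.I_smooth j.1 k).const_smul _
  I_sq j k y hy v := by
    simp only [smul_apply, map_smul, smul_smul, bdbl_sq, one_smul]
    exact Q.I_sq j.1 k y hy v
  I_mul j y hy v := by
    simp only [smul_apply, map_smul, smul_smul]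
    rw [Q.I_mul j.1 y hy v, mul_comm (bdblS j.2 1), bdbl_mul]
  I_skew j k y hy u v := by
    simp only [smul_apply, P219.R.ip_smul_left, P219.R.ip_smul_right]
    rw [Q.I_skew j.1 k y hy u v, mul_neg]
  I_span i j x h1 h2 h3 h4 k := by
    obtain ⟨c, hc⟩ := Q.I_span i.1 j.1 x h1 h2 h3 h4 k
    refine ⟨fun l => bdblS j.2 k * c l * bdblS i.2 l, fun v => ?_⟩
    simp only [smul_apply, map_smul, smul_smul, hc, Finset.smul_sum]
    refine Finset.sum_congr rfl fun l _ => ?_
    rw [mul_assoc _ (bdblS i.2 l), bdbl_sq, mul_one]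
  a j y := (bdblD j.2).comp (Q.a j.1 y)
  a_smooth j := contDiffOn_const.clm_comp (Q.a_smooth j.1)
  par j k y hy X v := by
    have e : fderiv ℝ (fun y => bdblS j.2 k • Q.I j.1 k y) y =
        bdblS j.2 k • fderiv ℝ (Q.I j.1 k) y :=
      congrFun (fderiv_const_smul_field (𝕜 := ℝ) (f := Q.I j.1 k) (bdblS j.2 k)) y
    simp only [e, smul_apply, (Q.good j.1).chr_smul hy, smul_smul,
      ContinuousLinearMap.comp_apply, bdbl_single]
    rw [← smul_add, ← smul_sub, Q.par j.1 k y hy X v, Finset.smul_sum]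
    simp only [smul_smul]
  curv j y hy := by
    obtain ⟨ν, h0, h⟩ := Q.curv j.1 y hy
    refine ⟨ν, h0, fun X Y k => ?_⟩
    rw [bdbl_curv j.2 (((Q.a_smooth j.1).contDiffAt
      ((Q.good j.1).isOpen.mem_nhds hy)).differentiableAt (by simp)), bdblD_apply, h,
      smul_apply, P219.R.ip_smul_left]
    ring

theorem bdbl_I (j : Q.ι) (k : Fin 3) (y : E (4 * m)) :
    (bdblQ Q).I (j, false) k y = Q.I j k y := by
  change bdblS false k • Q.I j k y = _
  rw [bdbl_false, one_smul]

theorem bdbl_a (j : Q.ι) (y X : E (4 * m)) : (bdblQ Q).a (j, false) y X = Q.a j y X := by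
  funext k
  change bdblS false k * Q.a j y X k = _
  rw [bdbl_false, one_mul]

theorem exists_dbl : ∃ Q' : QK m M, Cov Q' ∧
    ∀ (κ : Type) [Fintype κ] (P : Pre κ), Nonempty (Tw Q' P) → Nonempty (Tw Q P) := by
  refine ⟨bdblQ Q, fun j => ⟨(j.1, !j.2), rfl, rfl, fun y => ?_⟩, fun κ _ P ⟨T⟩ => ⟨
    { Θ := fun j => T.Θ (j, false)
      smooth := fun j => T.smooth (j, false)
      mem := fun j => T.mem (j, false)
      hom := fun j => T.hom (j, false)
      tan := fun j => T.tan (j, false)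
      vert := fun j => T.vert (j, false)
      hor := fun j x hx h h0 Y => by
        simpa only [bdbl_I, bdbl_a] using T.hor (j, false) x hx h h0 Y
      θ := fun j x hx h h0 X e => by
        simpa only [bdbl_a] using T.θ (j, false) x hx h h0 X e
      nhds := fun j => T.nhds (j, false) }⟩⟩
  obtain ⟨j, b⟩ := j
  change bdblS (!b) 0 • Q.I j 0 y = bdblS b 0 • Q.I j 0 y ∧
    bdblS (!b) 1 • Q.I j 1 y = -(bdblS b 1 • Q.I j 1 y) ∧
    bdblS (!b) 2 • Q.I j 2 y = -(bdblS b 2 • Q.I j 2 y)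
  cases b <;> simp [bdblS]

end Vale.Agent.P292.B
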