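import Vale.Agent.P292.Defs

/-! Definitions for the twistor cone. -/

set_option maxSynthPendingDepth 3

open scoped ContDiff Topology Matrix
open Set Filter

noncomputable section

namespace Vale.Agent.P292.B

open Vale.Agent.P219 (E)
open Vale.Agent.P219.R (Bil ip chr Good)
open Complex (I)

/-! ### linear algebra in three variables -/

/-- a real vector as a complex vector -/
def cx (a : Fin 3 → ℝ) : Fin 3 → ℂ := fun k => a k

/-- the real part of a complex vector -/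
def rev (z : Fin 3 → ℂ) : Fin 3 → ℝ := fun k => (z k).re

/-- the imaginary part of a complex vector -/
def imv (z : Fin 3 → ℂ) : Fin 3 → ℝ := fun k => (z k).im

/-- the cross product of a real vector with a complex vector -/
def cr (a : Fin 3 → ℝ) (z : Fin 3 → ℂ) : Fin 3 → ℂ := crossProduct (cx a) z

/-- a real matrix applied to a real vector -/
def mr (R : Fin 3 → Fin 3 → ℝ) (u : Fin 3 → ℝ) : Fin 3 → ℝ := fun l => ∑ k, R l k * u k

/-- a real matrix applied to a complex vector -/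
def mv (R : Fin 3 → Fin 3 → ℝ) (z : Fin 3 → ℂ) : Fin 3 → ℂ := fun l => ∑ k, (R l k : ℂ) * z k

/-- rotations -/
structure Rot (R : Fin 3 → Fin 3 → ℝ) : Prop where
  dot : ∀ u v, mr R u ⬝ᵥ mr R v = u ⬝ᵥ v
  cross : ∀ u v, mr R (crossProduct u v) = crossProduct (mr R u) (mr R v)

/-- nonzero null vectors -/
def Nul (z : Fin 3 → ℂ) : Prop := z ≠ 0 ∧ z ⬝ᵥ z = 0

/-- the norm on null vectors -/
def nrm (z : Fin 3 → ℂ) : ℝ := √((∑ k, ‖z k‖ ^ 2) / 2)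

/-- twice the fibre coordinate of a null vector -/
def lc (z : Fin 3 → ℂ) : ℂ := z 0 - I * z 1

/-- the null vector with stereographic coordinate `w` -/
def zw (w : ℂ) : Fin 3 → ℂ := ![1 - w ^ 2, I * (1 + w ^ 2), -2 * w]

/-- the derivative of `zw` -/
def zw' (w : ℂ) : Fin 3 → ℂ := ![-2 * w, 2 * I * w, -2]

/-- the unit vector with stereographic coordinate `w` -/
def nv (w : ℂ) : Fin 3 → ℝ :=
  ![2 * w.re / (1 + Complex.normSq w), 2 * w.im / (1 + Complex.normSq w),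
    (1 - Complex.normSq w) / (1 + Complex.normSq w)]

/-- the derivative of `zv` -/
def dz (h e : ℂ × ℂ) : Fin 3 → ℂ :=
  ![2 * h.1 * e.1 - 2 * h.2 * e.2, I * (2 * h.1 * e.1 + 2 * h.2 * e.2),
    -2 * (h.1 * e.2 + h.2 * e.1)]

/-- the pairing of a real vector with the complex vector `z` -/
def dotL (z : Fin 3 → ℂ) : (Fin 3 → ℝ) →L[ℝ] ℂ :=
  ∑ k, z k • Complex.ofRealCLM.comp (ContinuousLinearMap.proj k)

theorem dotL_apply (z : Fin 3 → ℂ) (a : Fin 3 → ℝ) :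
    dotL z a = z 0 * a 0 + z 1 * a 1 + z 2 * a 2 := by
  simp [dotL, Fin.sum_univ_three]

/-- the action of `so(3)` on the stereographic coordinate -/
def Pf (w : ℂ) : (Fin 3 → ℝ) →L[ℝ] ℂ := dotL (-(I / 2) • zw w)

/-- half the action of `so(3)` on the fibre coordinate -/
def pf (w : ℂ) : (Fin 3 → ℝ) →L[ℝ] ℂ := dotL ((I / 4) • zw' w)

/-- the null vector with coordinates `w = p.1.2` and `l = p.2` -/
def Zm {F : Type} (p : (F × ℂ) × ℂ) : Fin 3 → ℂ := p.2 • zw p.1.2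

/-- the coordinates of a null vector -/
def cw {F : Type} (y : F) (z : Fin 3 → ℂ) : (F × ℂ) × ℂ := ((y, -z 2 / lc z), lc z / 2)

/-- a nonzero vector -/
def v0 (n : ℕ) : E n := WithLp.toLp 2 fun _ => 1

theorem v0_ne {m : ℕ} (hm : 1 ≤ m) : v0 (4 * m) ≠ 0 := fun h => by
  have := congrArg (fun v : E (4 * m) => v ⟨0, by omega⟩) h
  simp [v0] at this

/-! ### the twistor cone in a chart -/

variable {m : ℕ} {M : Type} [TopologicalSpace M] (Q : QK m M)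

/-- the endomorphism `∑ u k • I k` -/
def Iv (j : Q.ι) (y : E (4 * m)) (u : Fin 3 → ℝ) : E (4 * m) →L[ℝ] E (4 * m) :=
  ∑ k, u k • Q.I j k y

/-- the complex two-form attached to a complex vector -/
def gz (j : Q.ι) (y : E (4 * m)) (z : Fin 3 → ℂ) (X Y : E (4 * m)) : ℂ :=
  ∑ k, z k * (ip (Q.G j y) (Q.I j k y X) Y : ℝ)

/-- the image of the chart `j` of the cone -/
def Tg (j : Q.ι) : Set ((E (4 * m) × ℂ) × ℂ) := (Q.U j ×ˢ univ) ×ˢ {0}ᶜ

/-- the contact form -/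
def th (j : Q.ι) (q : E (4 * m) × ℂ) : E (4 * m) × ℂ →L[ℝ] ℂ :=
  ContinuousLinearMap.snd ℝ _ _ + (Pf q.2).comp ((Q.a j q.1).comp (ContinuousLinearMap.fst ℝ _ _))

theorem th_apply (j : Q.ι) (q v : E (4 * m) × ℂ) :
    th Q j q v = v.2 + Pf q.2 (Q.a j q.1 v.1) := rfl

/-- the connection form of the fibre coordinate -/
def la (j : Q.ι) (p : (E (4 * m) × ℂ) × ℂ) : (E (4 * m) × ℂ) × ℂ →L[ℝ] ℂ :=
  ContinuousLinearMap.snd ℝ _ _ + (2 * p.2) • (pf p.1.2).comp ((Q.a j p.1.1).comp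
    ((ContinuousLinearMap.fst ℝ _ _).comp (ContinuousLinearMap.fst ℝ _ _)))

theorem la_apply (j : Q.ι) (p v : (E (4 * m) × ℂ) × ℂ) :
    la Q j p v = v.2 + 2 * p.2 * pf p.1.2 (Q.a j p.1.1 v.1.1) := rfl

/-- the vector with prescribed projection `x.1`, `th = x.2.1` and `la = x.2.2` -/
def mk (j : Q.ι) (p : (E (4 * m) × ℂ) × ℂ) : E (4 * m) × ℂ × ℂ →L[ℝ] (E (4 * m) × ℂ) × ℂ :=
  ((ContinuousLinearMap.fst ℝ _ _).prod
    ((ContinuousLinearMap.fst ℝ _ _).comp (ContinuousLinearMap.snd ℝ _ _) -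
      (Pf p.1.2).comp ((Q.a j p.1.1).comp (ContinuousLinearMap.fst ℝ _ _)))).prod
    ((ContinuousLinearMap.snd ℝ _ _).comp (ContinuousLinearMap.snd ℝ _ _) -
      (2 * p.2) • (pf p.1.2).comp ((Q.a j p.1.1).comp (ContinuousLinearMap.fst ℝ _ _)))

theorem mk_apply (j : Q.ι) (p : (E (4 * m) × ℂ) × ℂ) (X : E (4 * m)) (t s : ℂ) :
    mk Q j p (X, t, s) =
      ((X, t - Pf p.1.2 (Q.a j p.1.1 X)), s - 2 * p.2 * pf p.1.2 (Q.a j p.1.1 X)) := rfl

@[simp] theorem mk_fst (j : Q.ι) (p : (E (4 * m) × ℂ) × ℂ) (X : E (4 * m)) (t s : ℂ) :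
    (mk Q j p (X, t, s)).1.1 = X := rfl

@[simp] theorem th_mk (j : Q.ι) (p : (E (4 * m) × ℂ) × ℂ) (X : E (4 * m)) (t s : ℂ) :
    th Q j p.1 (mk Q j p (X, t, s)).1 = t := by
  simp [th_apply, mk_apply]

@[simp] theorem la_mk (j : Q.ι) (p : (E (4 * m) × ℂ) × ℂ) (X : E (4 * m)) (t s : ℂ) :
    la Q j p (mk Q j p (X, t, s)) = s := by
  simp [la_apply, mk_apply]

theorem mk_eq (j : Q.ι) (p v : (E (4 * m) × ℂ) × ℂ) :
    mk Q j p (v.1.1, th Q j p.1 v.1, la Q j p v) = v := by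
  simp [th_apply, la_apply, mk_apply]

/-- the complex structure of the cone -/
def Jm (j : Q.ι) (p : (E (4 * m) × ℂ) × ℂ) : (E (4 * m) × ℂ) × ℂ →L[ℝ] (E (4 * m) × ℂ) × ℂ :=
  (mk Q j p).comp (((Iv Q j p.1.1 (nv p.1.2)).comp
    ((ContinuousLinearMap.fst ℝ _ _).comp (ContinuousLinearMap.fst ℝ _ _))).prod
    ((I • (th Q j p.1).comp (ContinuousLinearMap.fst ℝ _ _)).prod (I • la Q j p)))

theorem Jm_apply (j : Q.ι) (p v : (E (4 * m) × ℂ) × ℂ) : Jm Q j p v =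
    mk Q j p (Iv Q j p.1.1 (nv p.1.2) v.1.1, I * th Q j p.1 v.1, I * la Q j p v) := rfl

/-- the covariant derivative of the null vector `Zm` -/
def nab (j : Q.ι) (p v : (E (4 * m) × ℂ) × ℂ) : Fin 3 → ℂ :=
  la Q j p v • zw p.1.2 + (p.2 * th Q j p.1 v.1) • zw' p.1.2

/-- the logarithm of the norm in a chart -/
def lr {F : Type} (p : (F × ℂ) × ℂ) : ℝ := Real.log (‖p.2‖ * (1 + Complex.normSq p.1.2))

/-- the form `d log r ∘ J` -/
def be (j : Q.ι) (p v : (E (4 * m) × ℂ) × ℂ) : ℝ :=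
  -(v.2 / p.2).im - 2 * ((starRingEnd ℂ) p.1.2 * v.1.2).im / (1 + Complex.normSq p.1.2) +
    Q.a j p.1.1 v.1.1 ⬝ᵥ nv p.1.2

/-! ### changes of charts -/

/-- the transition map of the base -/
def tr (i j : Q.ι) : E (4 * m) → E (4 * m) := Q.e i ∘ (Q.e j).symm

/-- the domain of the transition map -/
def W (i j : Q.ι) : Set (E (4 * m)) :=
  {y | y ∈ Q.U j ∧ (Q.e j).symm y ∈ (Q.e i).source ∧ tr Q i j y ∈ Q.U i}

/-- the rotation between the quaternionic frames -/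
def R (i j : Q.ι) (y : E (4 * m)) : Fin 3 → Fin 3 → ℝ := fun l k =>
  ip (Q.G i (tr Q i j y)) (fderiv ℝ (tr Q i j) y (Q.I j k y (v0 _)))
    (Q.I i l (tr Q i j y) (fderiv ℝ (tr Q i j) y (v0 _))) / ip (Q.G j y) (v0 _) (v0 _)

/-- the coordinates in the chart `i` of a null vector given in the frame `j` -/
def Tm (i j : Q.ι) (y : E (4 * m)) (z : Fin 3 → ℂ) : (E (4 * m) × ℂ) × ℂ :=
  cw (tr Q i j y) (mv (R Q i j y) z)

/-- the coordinates in the chart `i` of the null vector of a spinor in the frame `j` -/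
def Tv (i j : Q.ι) (q : E (4 * m) × ℂ × ℂ) : (E (4 * m) × ℂ) × ℂ := Tm Q i j q.1 (zv q.2)

/-- each frame comes with the frame rotated around the first axis -/
def Cov : Prop := ∀ j, ∃ i, Q.e i = Q.e j ∧ Q.U i = Q.U j ∧ ∀ y,
  Q.I i 0 y = Q.I j 0 y ∧ Q.I i 1 y = -Q.I j 1 y ∧ Q.I i 2 y = -Q.I j 2 y

/-- the bundle of null cones -/
structure NB (C : Type) [TopologicalSpace C] where
  pt : Q.ι → E (4 * m) → (Fin 3 → ℂ) → C
  τ : Q.ι → OpenPartialHomeomorph C ((E (4 * m) × ℂ) × ℂ)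
  act : ℂ → C → C
  r : C → ℝ
  target : ∀ j, (τ j).target = Tg Q j
  symm : ∀ j, ∀ p ∈ Tg Q j, (τ j).symm p = pt j p.1.1 (Zm p)
  mem : ∀ i j, ∀ y ∈ Q.U j, ∀ z, Nul z →
    (pt j y z ∈ (τ i).source ↔ y ∈ W Q i j ∧ lc (mv (R Q i j y) z) ≠ 0)
  eq : ∀ i j, ∀ y ∈ W Q i j, ∀ z, Nul z → lc (mv (R Q i j y) z) ≠ 0 →
    τ i (pt j y z) = Tm Q i j y z
  cover : ∀ c, ∃ j, c ∈ (τ j).source
  act_pt : ∀ j, ∀ y ∈ Q.U j, ∀ z, Nul z → ∀ l, l ≠ 0 → act l (pt j y z) = pt j y (l • z)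
  r_pt : ∀ j, ∀ y ∈ Q.U j, ∀ z, Nul z → r (pt j y z) = nrm z
  compact : IsCompact {c | r c = 1}

end Vale.Agent.P292.B
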