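import Vale.Agent.P292.BR2
import Vale.Agent.P292.BCal

/-! The differential of the change of coordinates. -/

set_option maxSynthPendingDepth 3

open scoped ContDiff Topology Matrix
open Set Filter

noncomputable section

namespace Vale.Agent.P292.B

open Vale.Agent.P219 (E)
open Vale.Agent.P219.R (Bil ip chr Good)
open Complex (I)

variable {m : ℕ} {M : Type} [TopologicalSpace M] (Q : QK m M)

theorem BK_mv (hm : 1 ≤ m) (i j : Q.ι) :
    ContDiffOn ℝ ∞ (fun q : E (4 * m) × (Fin 3 → ℂ) => mv (R Q i j q.1) q.2)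
      {q | q.1 ∈ W Q i j} :=
  contDiff_mv.comp_contDiffOn
    (((R_smooth Q hm i j).comp contDiffOn_fst fun _ h => h).prodMk contDiffOn_snd)

theorem Tm_open (hm : 1 ≤ m) (i j : Q.ι) :
    IsOpen {q : E (4 * m) × (Fin 3 → ℂ) | q.1 ∈ W Q i j ∧ lc (mv (R Q i j q.1) q.2) ≠ 0} :=
  (contDiff_lc.comp_contDiffOn (BK_mv Q hm i j)).continuousOn.isOpen_inter_preimage
    ((W_open Q i j).preimage continuous_fst) (isOpen_compl_singleton (x := 0))

theorem Tm_smooth (hm : 1 ≤ m) (i j : Q.ι) :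
    ContDiffOn ℝ ∞ (fun q : E (4 * m) × (Fin 3 → ℂ) => Tm Q i j q.1 q.2)
      {q | q.1 ∈ W Q i j ∧ lc (mv (R Q i j q.1) q.2) ≠ 0} :=
  contDiffOn_cw.comp (((tr_smooth Q i j).comp contDiffOn_fst fun _ h => h.1).prodMk
    ((BK_mv Q hm i j).mono fun _ h => h.1)) fun _ h => h.2

theorem Tm_mem {i j : Q.ι} {y : E (4 * m)} (hy : y ∈ W Q i j) {z : Fin 3 → ℂ}
    (hl : lc (mv (R Q i j y) z) ≠ 0) : Tm Q i j y z ∈ Tg Q i :=
  ⟨⟨hy.2.2, mem_univ _⟩, div_ne_zero hl two_ne_zero⟩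

theorem Zm_Tm (hm : 1 ≤ m) {i j : Q.ι} {y : E (4 * m)} (hy : y ∈ W Q i j) {z : Fin 3 → ℂ}
    (hz : Nul z) (hl : lc (mv (R Q i j y) z) ≠ 0) : Zm (Tm Q i j y z) = mv (R Q i j y) z :=
  Zm_cw _ (((R_rot Q hm hy).nul_mv z).2 hz) hl

theorem nab_eq (j : Q.ι) (p v : (E (4 * m) × ℂ) × ℂ) :
    fderiv ℝ Zm p v + cr (Q.a j p.1.1 v.1.1) (Zm p) = nab Q j p v := by
  rw [fderiv_Zm]
  simp only [Zm, cr_smul, cr_zw, nab, la_apply, th_apply]
  module

theorem cross_nab (j : Q.ι) (p v : (E (4 * m) × ℂ) × ℂ) :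
    crossProduct (Zm p) (nab Q j p v) = (-2 * I * thC (th Q j) p v) • Zm p := by
  simp only [Zm, nab, map_add, map_smul, LinearMap.smul_apply, cross_self, zw_cross, thC,
    smul_zero]
  module

/-- a tangent vector is determined by its projection and by `nab` -/
theorem nab_ext (j : Q.ι) {p : (E (4 * m) × ℂ) × ℂ} (hp : p.2 ≠ 0) {v w : (E (4 * m) × ℂ) × ℂ}
    (h1 : v.1.1 = w.1.1) (h2 : nab Q j p v = nab Q j p w) : v = w := by
  have h := zw_indep (w := p.1.2) (s := la Q j p v - la Q j p w)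
    (t := p.2 * th Q j p.1 v.1 - p.2 * th Q j p.1 w.1) (by
      rw [← sub_eq_zero.2 h2]
      simp only [nab]
      module)
  rw [← mk_eq Q j p v, ← mk_eq Q j p w, h1, sub_eq_zero.1 h.1,
    mul_left_cancel₀ hp (sub_eq_zero.1 h.2)]

theorem nab_J (j : Q.ι) (p v : (E (4 * m) × ℂ) × ℂ) :
    nab Q j p (Jm Q j p v) = I • nab Q j p v := by
  simp only [nab, Jm_apply, la_mk, th_mk]
  module

theorem Tm_deriv (hm : 1 ≤ m) {i j : Q.ι} {F : Type} [NormedAddCommGroup F] [NormedSpace ℝ F]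
    {x : F → E (4 * m)} {ζ : F → Fin 3 → ℂ} {p : F} (hx : DifferentiableAt ℝ x p)
    (hζ : DifferentiableAt ℝ ζ p) (hW : x p ∈ W Q i j) (hN : ∀ᶠ q in 𝓝 p, Nul (ζ q))
    (hl : lc (mv (R Q i j (x p)) (ζ p)) ≠ 0) (v : F) :
    (fderiv ℝ (fun q => Tm Q i j (x q) (ζ q)) p v).1.1 =
        fderiv ℝ (tr Q i j) (x p) (fderiv ℝ x p v) ∧
      nab Q i (Tm Q i j (x p) (ζ p)) (fderiv ℝ (fun q => Tm Q i j (x q) (ζ q)) p v) =
        mv (R Q i j (x p)) (fderiv ℝ ζ p v + cr (Q.a j (x p) (fderiv ℝ x p v)) (ζ p)) := by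
  have hxz : DifferentiableAt ℝ (fun q => (x q, ζ q)) p := hx.prodMk hζ
  have hn := (Tm_open Q hm i j).mem_nhds (x := (x p, ζ p)) ⟨hW, hl⟩
  have hT0 : DifferentiableAt ℝ (fun q : E (4 * m) × (Fin 3 → ℂ) => Tm Q i j q.1 q.2) (x p, ζ p) :=
    ((Tm_smooth Q hm i j).contDiffAt hn).differentiableAt (by simp)
  have hT : DifferentiableAt ℝ (fun q => Tm Q i j (x q) (ζ q)) p :=
    DifferentiableAt.comp (f := fun q => (x q, ζ q)) p hT0 hxz
  have hw := (W_open Q i j).mem_nhds hW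
  have htr : DifferentiableAt ℝ (tr Q i j) (x p) :=
    ((tr_smooth Q i j).contDiffAt hw).differentiableAt (by simp)
  have hR : DifferentiableAt ℝ (R Q i j) (x p) :=
    ((R_smooth Q hm i j).contDiffAt hw).differentiableAt (by simp)
  have ev : (Zm ∘ fun q => Tm Q i j (x q) (ζ q)) =ᶠ[𝓝 p] fun q => mv (R Q i j (x q)) (ζ q) := by
    filter_upwards [hxz.continuousAt.preimage_mem_nhds hn, hN] with q h1 h2
    exact Zm_Tm Q hm h1.1 h2 h1.2
  have e0 : (fun q => (Tm Q i j (x q) (ζ q)).1.1) = tr Q i j ∘ x := rfl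
  have e3 : (Tm Q i j (x p) (ζ p)).1.1 = tr Q i j (x p) := rfl
  have e4 := Zm_Tm Q hm hW hN.self_of_nhds hl
  have d1 := hT.hasFDerivAt.fst.fst
  rw [e0] at d1
  have e1 := DFunLike.congr_fun (d1.unique (htr.hasFDerivAt.comp p hx.hasFDerivAt)) v
  have e2 := DFunLike.congr_fun (ev.fderiv_eq (𝕜 := ℝ)) v
  rw [fderiv_comp p (contDiff_Zm.differentiable (by simp) _) hT,
    fderiv_mv (S := fun q => R Q i j (x q)) (hR.comp p hx) hζ, fderiv_fun_comp p hR hx] at e2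
  simp only [ContinuousLinearMap.comp_apply, ContinuousLinearMap.coe_fst'] at e1 e2
  refine ⟨e1, ?_⟩
  rw [← nab_eq, e1, e2, e3, e4, mv_add, ← gauge_cx (gauge Q hm hW _)]
  abel

theorem Tm_th (hm : 1 ≤ m) {i j : Q.ι} {F : Type} [NormedAddCommGroup F] [NormedSpace ℝ F]
    {x : F → E (4 * m)} {ζ : F → Fin 3 → ℂ} {p : F} (hx : DifferentiableAt ℝ x p)
    (hζ : DifferentiableAt ℝ ζ p) (hW : x p ∈ W Q i j) (hN : ∀ᶠ q in 𝓝 p, Nul (ζ q))
    (hl : lc (mv (R Q i j (x p)) (ζ p)) ≠ 0) (v : F) {c : ℂ}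
    (hc : crossProduct (ζ p) (fderiv ℝ ζ p v + cr (Q.a j (x p) (fderiv ℝ x p v)) (ζ p)) =
      (-2 * I * c) • ζ p) :
    thC (th Q i) (Tm Q i j (x p) (ζ p)) (fderiv ℝ (fun q => Tm Q i j (x q) (ζ q)) p v) = c := by
  have h := cross_nab Q i (Tm Q i j (x p) (ζ p)) (fderiv ℝ (fun q => Tm Q i j (x q) (ζ q)) p v)
  have hr := R_rot Q hm hW
  rw [(Tm_deriv Q hm hx hζ hW hN hl v).2, Zm_Tm Q hm hW hN.self_of_nhds hl, ← hr.mv_cross, hc,
    mv_smul] at h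
  have h2 := smul_left_injective ℂ ((hr.nul_mv _).2 hN.self_of_nhds).1 h
  exact (mul_left_cancel₀ (by simp) h2).symm

end Vale.Agent.P292.B
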