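import Vale.Agent.P292.BQ
import Vale.Agent.P292.BCal

/-! The exterior derivative of the form `be`. -/

set_option maxSynthPendingDepth 3

open scoped ContDiff Topology Matrix
open Set Filter

noncomputable section

namespace Vale.Agent.P292.B

open Vale.Agent.P219 (E)
open Vale.Agent.P219.R (Bil ip chr Good)
open Complex (I)

theorem bp1_abs {F : Type} [NormedAddCommGroup F] [NormedSpace ℝ F] {x y L A0 A1 A2 : F → ℝ}
    {x' y' L' A0' A1' A2' : F →L[ℝ] ℝ} {p : F} (hx : HasFDerivAt x x' p)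
    (hy : HasFDerivAt y y' p) (hL : HasFDerivAt L L' p) (h0 : HasFDerivAt A0 A0' p)
    (h1 : HasFDerivAt A1 A1' p) (h2 : HasFDerivAt A2 A2' p) (a b : ℝ) (v : F) :
    fderiv ℝ (fun q => -L q - A2 q + 2 * ((1 + (x q * x q + y q * y q))⁻¹ *
      (x q * (A0 q - b) + y q * (A1 q + a) + A2 q))) p v =
      -L' v - A2' v + 2 * (-((1 + (x p * x p + y p * y p)) ^ 2)⁻¹ * (2 * x p * x' v + 2 * y p * y' v) *
        (x p * (A0 p - b) + y p * (A1 p + a) + A2 p) + (1 + (x p * x p + y p * y p))⁻¹ *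
        (x' v * (A0 p - b) + x p * A0' v + y' v * (A1 p + a) + y p * A1' v + A2' v)) := by
  have hr : 1 + (x p * x p + y p * y p) ≠ 0 := by
    have := mul_self_nonneg (x p)
    have := mul_self_nonneg (y p)
    positivity
  have e1 := (hasDerivAt_inv hr).comp_hasFDerivAt p
    (((hx.fun_mul hx).fun_add (hy.fun_mul hy)).const_add 1)
  have e2 := ((hx.fun_mul (h0.sub_const b)).fun_add (hy.fun_mul (h1.add_const a))).fun_add h2
  have e3 := (hL.fun_neg.fun_sub h2).fun_add ((e1.fun_mul e2).const_mul 2)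
  simp only [Function.comp] at e3
  rw [e3.fderiv]
  simp only [ContinuousLinearMap.add_apply, ContinuousLinearMap.sub_apply,
    ContinuousLinearMap.neg_apply, ContinuousLinearMap.smul_apply, smul_eq_mul]
  ring

theorem bp1_re (s : ℂ) (a : Fin 3 → ℝ) : (Pf s a).re =
    -(s.re * s.im) * a 0 + (1 + s.re ^ 2 - s.im ^ 2) / 2 * a 1 - s.im * a 2 := by
  simp [Pf, dotL_apply, zw, pow_two]
  ring

theorem bp1_im (s : ℂ) (a : Fin 3 → ℝ) : (Pf s a).im =
    -((1 - s.re ^ 2 + s.im ^ 2) / 2) * a 0 + s.re * s.im * a 1 + s.re * a 2 := by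
  simp [Pf, dotL_apply, zw, pow_two]
  ring

theorem bp1_dot (s : ℂ) (a : Fin 3 → ℝ) : a ⬝ᵥ nv s =
    2 * ((1 + (s.re * s.re + s.im * s.im))⁻¹ * (s.re * a 0 + s.im * a 1 + a 2)) - a 2 := by
  have hr : 1 + (s.re * s.re + s.im * s.im) ≠ 0 := by
    have := mul_self_nonneg s.re
    have := mul_self_nonneg s.im
    positivity
  simp only [dotProduct, Fin.sum_univ_three, nv, Complex.normSq_apply, Matrix.cons_val]
  field_simp
  ring

variable {m : ℕ} {M : Type} [TopologicalSpace M] (Q : QK m M)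

theorem bp1_fd {j : Q.ι} {p : (E (4 * m) × ℂ) × ℂ} (hp : p ∈ Tg Q j)
    (v w : (E (4 * m) × ℂ) × ℂ) :
    fderiv ℝ (fun q => be Q j q w) p v =
      (w.2 * v.2 / p.2 ^ 2).im - fderiv ℝ (Q.a j) p.1.1 v.1.1 w.1.1 2 +
        2 * (-((1 + (p.1.2.re * p.1.2.re + p.1.2.im * p.1.2.im)) ^ 2)⁻¹ *
          (2 * p.1.2.re * v.1.2.re + 2 * p.1.2.im * v.1.2.im) *
          (p.1.2.re * (Q.a j p.1.1 w.1.1 0 - w.1.2.im) +
            p.1.2.im * (Q.a j p.1.1 w.1.1 1 + w.1.2.re) + Q.a j p.1.1 w.1.1 2) +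
        (1 + (p.1.2.re * p.1.2.re + p.1.2.im * p.1.2.im))⁻¹ *
          (v.1.2.re * (Q.a j p.1.1 w.1.1 0 - w.1.2.im) +
            p.1.2.re * fderiv ℝ (Q.a j) p.1.1 v.1.1 w.1.1 0 +
            v.1.2.im * (Q.a j p.1.1 w.1.1 1 + w.1.2.re) +
            p.1.2.im * fderiv ℝ (Q.a j) p.1.1 v.1.1 w.1.1 1 +
            fderiv ℝ (Q.a j) p.1.1 v.1.1 w.1.1 2)) := by
  have hl : p.2 ≠ 0 := hp.2
  have ha : HasFDerivAt (Q.a j) (fderiv ℝ (Q.a j) p.1.1) p.1.1 :=
    (((Q.a_smooth j).contDiffAt ((Q.good j).isOpen.mem_nhds hp.1.1)).differentiableAt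
      (by simp)).hasFDerivAt
  have hs : HasFDerivAt (fun q : (E (4 * m) × ℂ) × ℂ => q.1.2) _ p :=
    ((ContinuousLinearMap.snd ℝ (E (4 * m)) ℂ).comp (ContinuousLinearMap.fst ℝ _ ℂ)).hasFDerivAt
  have hy : HasFDerivAt (fun q : (E (4 * m) × ℂ) × ℂ => q.1.1) _ p :=
    ((ContinuousLinearMap.fst ℝ (E (4 * m)) ℂ).comp (ContinuousLinearMap.fst ℝ _ ℂ)).hasFDerivAt
  have hA := fun k : Fin 3 => ((ContinuousLinearMap.proj (R := ℝ) (φ := fun _ : Fin 3 => ℝ) k).comp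
    (ContinuousLinearMap.apply ℝ (Fin 3 → ℝ) w.1.1)).hasFDerivAt.comp p (ha.comp p hy)
  have hL := Complex.imCLM.hasFDerivAt.comp p (((hasDerivAt_inv hl).comp_hasFDerivAt p
    (ContinuousLinearMap.snd ℝ (E (4 * m) × ℂ) ℂ).hasFDerivAt).const_mul w.2)
  have h := bp1_abs (Complex.reCLM.hasFDerivAt.comp p hs) (Complex.imCLM.hasFDerivAt.comp p hs) hL
    (hA 0) (hA 1) (hA 2) w.1.2.re w.1.2.im v
  refine Eq.trans (congrArg (fun f => fderiv ℝ f p v) (funext fun q => ?_)) (h.trans ?_)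
  · change _ = -(w.2 * q.2⁻¹).im - Q.a j q.1.1 w.1.1 2 +
      2 * ((1 + (q.1.2.re * q.1.2.re + q.1.2.im * q.1.2.im))⁻¹ *
        (q.1.2.re * (Q.a j q.1.1 w.1.1 0 - w.1.2.im) +
          q.1.2.im * (Q.a j q.1.1 w.1.1 1 + w.1.2.re) + Q.a j q.1.1 w.1.1 2))
    rw [be, bp1_dot, Complex.mul_im, Complex.conj_re, Complex.conj_im, Complex.normSq_apply,
      div_eq_mul_inv w.2]
    ring
  · have e : (w.2 * v.2 / p.2 ^ 2).im = -(w.2 * (-(p.2 ^ 2)⁻¹ * v.2)).im := by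
      rw [← Complex.neg_im]
      exact congrArg Complex.im (by ring)
    rw [e]
    rfl

theorem d_be {j : Q.ι} {p : (E (4 * m) × ℂ) × ℂ} (hp : p ∈ Tg Q j)
    (v w : (E (4 * m) × ℂ) × ℂ) :
    fderiv ℝ (fun q => be Q j q w) p v - fderiv ℝ (fun q => be Q j q v) p w =
      curvA (Q.a j) p.1.1 v.1.1 w.1.1 ⬝ᵥ nv p.1.2 -
        4 * ((starRingEnd ℂ) (th Q j p.1 v.1) * th Q j p.1 w.1).im /
          (1 + Complex.normSq p.1.2) ^ 2 := by
  have hr : 1 + (p.1.2.re * p.1.2.re + p.1.2.im * p.1.2.im) ≠ 0 := by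
    have := mul_self_nonneg p.1.2.re
    have := mul_self_nonneg p.1.2.im
    positivity
  rw [bp1_fd Q hp, bp1_fd Q hp, bp1_dot, mul_comm w.2 v.2, Complex.mul_im, Complex.conj_re,
    Complex.conj_im, Complex.normSq_apply]
  simp only [th_apply, Complex.add_re, Complex.add_im, bp1_re, bp1_im, curvA, cross_apply,
    Pi.add_apply, Pi.sub_apply, Matrix.cons_val]
  field_simp
  ring

end Vale.Agent.P292.B
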