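import Vale.Agent.P292.BRot

/-! The quaternion algebra spanned by the frame. -/

set_option maxSynthPendingDepth 3

open scoped ContDiff Topology Matrix
open Set Filter

noncomputable section

namespace Vale.Agent.P292.B

open Vale.Agent.P219 (E)
open Vale.Agent.P219.R (Bil ip chr Good)
open Complex (I)

variable {m : ℕ} {M : Type} [TopologicalSpace M] (Q : QK m M)

theorem BQ_rel {j : Q.ι} {y : E (4 * m)} (hy : y ∈ Q.U j) (v : E (4 * m)) :
    Q.I j 0 y (Q.I j 2 y v) = -Q.I j 1 y v ∧ Q.I j 2 y (Q.I j 1 y v) = -Q.I j 0 y v ∧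
      Q.I j 1 y (Q.I j 2 y v) = Q.I j 0 y v ∧ Q.I j 1 y (Q.I j 0 y v) = -Q.I j 2 y v ∧
      Q.I j 2 y (Q.I j 0 y v) = Q.I j 1 y v := by
  have h1 : ∀ v, Q.I j 0 y (Q.I j 2 y v) = -Q.I j 1 y v := fun v => by
    rw [← Q.I_mul j y hy, Q.I_sq j 0 y hy]
  have h3 : ∀ v, Q.I j 1 y (Q.I j 2 y v) = Q.I j 0 y v := fun v => by
    have := h1 (Q.I j 2 y v)
    rw [Q.I_sq j 2 y hy, map_neg] at this
    exact (neg_injective this).symm
  have h4 : ∀ v, Q.I j 1 y (Q.I j 0 y v) = -Q.I j 2 y v := fun v => by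
    rw [← h3, Q.I_sq j 1 y hy]
  refine ⟨h1 v, ?_, h3 v, h4 v, ?_⟩
  · rw [← Q.I_mul j y hy, Q.I_sq j 1 y hy, map_neg]
  · rw [← Q.I_mul j y hy, h4, map_neg, h1, neg_neg]

theorem Tg_open (j : Q.ι) : IsOpen (Tg Q j) := by
  exact ((Q.good j).isOpen.prod isOpen_univ).prod isOpen_compl_singleton

theorem Iv_apply (j : Q.ι) (y : E (4 * m)) (u : Fin 3 → ℝ) (v : E (4 * m)) :
    Iv Q j y u v = ∑ k, u k • Q.I j k y v := by
  simp only [Iv, ContinuousLinearMap.sum_apply, ContinuousLinearMap.smul_apply]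

theorem Iv_add (j : Q.ι) (y : E (4 * m)) (u u' : Fin 3 → ℝ) :
    Iv Q j y (u + u') = Iv Q j y u + Iv Q j y u' := by
  simp only [Iv, Pi.add_apply, add_smul, Finset.sum_add_distrib]

theorem Iv_smul (j : Q.ι) (y : E (4 * m)) (c : ℝ) (u : Fin 3 → ℝ) :
    Iv Q j y (c • u) = c • Iv Q j y u := by
  simp only [Iv, Pi.smul_apply, smul_eq_mul, mul_smul, Finset.smul_sum]

theorem Iv_single (j : Q.ι) (y : E (4 * m)) (k : Fin 3) :
    Iv Q j y (Pi.single k 1) = Q.I j k y := by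
  rw [Iv, Finset.sum_eq_single k (fun l _ h => by rw [Pi.single_eq_of_ne h, zero_smul])
    (fun h => absurd (Finset.mem_univ k) h), Pi.single_eq_same, one_smul]

theorem Iv_mul {j : Q.ι} {y : E (4 * m)} (hy : y ∈ Q.U j) (u u' : Fin 3 → ℝ) (v : E (4 * m)) :
    Iv Q j y u (Iv Q j y u' v) = -(u ⬝ᵥ u') • v + Iv Q j y (crossProduct u u') v := by
  obtain ⟨h1, h2, h3, h4, h5⟩ := BQ_rel Q hy v
  simp only [Iv_apply, Fin.sum_univ_three, map_add, map_smul, h1, h2, h3, h4, h5, Q.I_sq j _ y hy,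
    Q.I_mul j y hy, cross_apply, dotProduct, Matrix.cons_val_zero, Matrix.cons_val_one,
    Matrix.cons_val_two, Matrix.head_cons, Matrix.tail_cons]
  module

theorem Iv_skew {j : Q.ι} {y : E (4 * m)} (hy : y ∈ Q.U j) (u : Fin 3 → ℝ) (v v' : E (4 * m)) :
    ip (Q.G j y) (Iv Q j y u v) v' = -ip (Q.G j y) v (Iv Q j y u v') := by
  simp only [Iv_apply, Fin.sum_univ_three, P219.R.ip_add_left, P219.R.ip_add_right,
    P219.R.ip_smul_left, P219.R.ip_smul_right, Q.I_skew j _ y hy]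
  ring

theorem ip_Iv {j : Q.ι} {y : E (4 * m)} (hy : y ∈ Q.U j) (u u' : Fin 3 → ℝ) (v : E (4 * m)) :
    ip (Q.G j y) (Iv Q j y u v) (Iv Q j y u' v) = (u ⬝ᵥ u') * ip (Q.G j y) v v := by
  have h := Iv_skew Q hy (crossProduct u u') v v
  rw [P219.R.ip_comm ((Q.good j).pos y hy)] at h
  rw [Iv_skew Q hy, Iv_mul Q hy, P219.R.ip_add_right, P219.R.ip_smul_right]
  linarith

theorem Iv_inj {j : Q.ι} {y : E (4 * m)} (hy : y ∈ Q.U j) {u u' : Fin 3 → ℝ} {v : E (4 * m)}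
    (hv : v ≠ 0) (h : Iv Q j y u v = Iv Q j y u' v) : u = u' := by
  have h1 : Iv Q j y (u + (-1 : ℝ) • u') v = 0 := by
    rw [Iv_add, Iv_smul, ContinuousLinearMap.add_apply, ContinuousLinearMap.smul_apply, h,
      neg_one_smul, add_neg_cancel]
  have h2 := ip_Iv Q hy (u + (-1 : ℝ) • u') (u + (-1 : ℝ) • u') v
  rw [h1, P219.R.ip_zero_left] at h2
  have h3 := dotProduct_self_eq_zero.1 ((mul_eq_zero.1 h2.symm).resolve_right
    (P219.R.ip_pos ((Q.good j).pos y hy) hv).ne')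
  rwa [neg_one_smul, add_neg_eq_zero] at h3

theorem Iv_smooth (j : Q.ι) : ContDiffOn ℝ ∞
    (fun q : E (4 * m) × (Fin 3 → ℝ) => Iv Q j q.1 q.2) (Q.U j ×ˢ univ) := by
  exact ContDiffOn.sum fun k _ => ((contDiff_apply ℝ ℝ k).comp contDiff_snd).contDiffOn.smul
    ((Q.I_smooth j k).comp contDiffOn_fst fun _ h => h.1)

theorem Iv_hor {j : Q.ι} {y : E (4 * m)} (hy : y ∈ Q.U j) {z : Fin 3 → ℂ} {n : Fin 3 → ℝ}
    (h1 : z ⬝ᵥ cx n = 0) (h2 : crossProduct z (cx n) = I • z) (Y : E (4 * m)) :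
    Iv Q j y (rev z) Y + Iv Q j y n (Iv Q j y (imv z) Y) = 0 := by
  obtain ⟨-, a, -, b⟩ := nv_parts h1 h2
  rw [Iv_mul Q hy, dotProduct_comm, a, ← cross_anticomm, b, ← neg_one_smul ℝ (rev z), Iv_smul]
  simp

theorem gz_eq (j : Q.ι) (y : E (4 * m)) (z : Fin 3 → ℂ) (X Y : E (4 * m)) :
    gz Q j y z X Y = (ip (Q.G j y) (Iv Q j y (rev z) X) Y : ℝ) +
      I * (ip (Q.G j y) (Iv Q j y (imv z) X) Y : ℝ) := by
  simp only [gz, Iv_apply, Fin.sum_univ_three, P219.R.ip_add_left, P219.R.ip_smul_left, rev, imv]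
  apply Complex.ext <;> simp

theorem gz_J {j : Q.ι} {y : E (4 * m)} (hy : y ∈ Q.U j) {z : Fin 3 → ℂ} {n : Fin 3 → ℝ}
    (h1 : z ⬝ᵥ cx n = 0) (h2 : crossProduct z (cx n) = I • z) (X Y : E (4 * m)) :
    gz Q j y z (Iv Q j y n X) Y = I * gz Q j y z X Y := by
  obtain ⟨a, a', b, b'⟩ := nv_parts h1 h2
  rw [gz_eq, gz_eq, Iv_mul Q hy, Iv_mul Q hy, a, a', b, b', ← neg_one_smul ℝ (imv z), Iv_smul]
  simp only [neg_zero, zero_smul, zero_add, ContinuousLinearMap.smul_apply, P219.R.ip_smul_left,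
    neg_mul, one_mul]
  apply Complex.ext <;> simp

theorem gz_nondeg {j : Q.ι} {y : E (4 * m)} (hy : y ∈ Q.U j) {z : Fin 3 → ℂ} (hz : Nul z)
    {X : E (4 * m)} (h : ∀ Y, gz Q j y z X Y = 0) : X = 0 := by
  by_contra hX
  have h1 := congrArg Complex.re (h (Iv Q j y (rev z) X))
  rw [gz_eq, ip_Iv Q hy] at h1
  simp only [Complex.add_re, Complex.ofReal_re, Complex.mul_re, Complex.I_re, Complex.I_im,
    Complex.ofReal_im, zero_mul, mul_zero, sub_zero, add_zero, Complex.zero_re] at h1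
  exact rev_ne hz (dotProduct_self_eq_zero.1 ((mul_eq_zero.1 h1).resolve_right
    (P219.R.ip_pos ((Q.good j).pos y hy) hX).ne'))

/-- a sum with complex coefficients of values of a real linear map -/
theorem sum_smul_I {F : Type} [NormedAddCommGroup F] [NormedSpace ℂ F] (L : E (4 * m) →L[ℝ] F)
    (j : Q.ι) (y : E (4 * m)) (z : Fin 3 → ℂ) (Y : E (4 * m)) :
    ∑ k, z k • L (Q.I j k y Y) = L (Iv Q j y (rev z) Y) + I • L (Iv Q j y (imv z) Y) := by
  rw [Iv_apply, Iv_apply, map_sum, map_sum, Finset.smul_sum, ← Finset.sum_add_distrib]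
  refine Finset.sum_congr rfl fun k _ => ?_
  rw [map_smul, map_smul, ← Complex.coe_smul, ← Complex.coe_smul, smul_smul, ← add_smul, rev, imv,
    mul_comm I, Complex.re_add_im]

end Vale.Agent.P292.B
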