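import Vale.Agent.P292.BQ

/-! The rotation between two frames. -/

set_option maxSynthPendingDepth 3

open scoped ContDiff Topology Matrix
open Set Filter

noncomputable section

namespace Vale.Agent.P292.B

open Vale.Agent.P219 (E)
open Vale.Agent.P219.R (Bil ip chr Good)
open Complex (I)

variable {m : ℕ} {M : Type} [TopologicalSpace M] (Q : QK m M)

theorem W_open (i j : Q.ι) : IsOpen (W Q i j) := by
  have h := (Q.e i).isOpen_inter_preimage (Q.good i).isOpen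
  have h2 := ((Q.e j).symm.isOpen_inter_preimage h).inter (Q.good j).isOpen
  have : W Q i j = (Q.e j).symm.source ∩ (Q.e j).symm ⁻¹' ((Q.e i).source ∩ Q.e i ⁻¹' Q.U i) ∩
      Q.U j := Set.ext fun y => ⟨fun h => ⟨⟨Q.sub j h.1, h.2⟩, h.1⟩, fun h => ⟨h.2, h.1.2⟩⟩
  rwa [this]

theorem tr_self {j : Q.ι} {y : E (4 * m)} (hy : y ∈ Q.U j) : tr Q j j y = y := by
  exact (Q.e j).right_inv (Q.sub j hy)

theorem W_self {j : Q.ι} {y : E (4 * m)} (hy : y ∈ Q.U j) : y ∈ W Q j j := by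
  exact ⟨hy, (Q.e j).map_target (Q.sub j hy), (tr_self Q hy).symm ▸ hy⟩

theorem mem_W {i j : Q.ι} {x : M} (hi : x ∈ (Q.e i).source) (hj : x ∈ (Q.e j).source)
    (hi' : Q.e i x ∈ Q.U i) (hj' : Q.e j x ∈ Q.U j) :
    Q.e j x ∈ W Q i j ∧ tr Q i j (Q.e j x) = Q.e i x := by
  have h : tr Q i j (Q.e j x) = Q.e i x := congrArg (Q.e i) ((Q.e j).left_inv hj)
  exact ⟨⟨hj', ((Q.e j).left_inv hj).symm ▸ hi, h.symm ▸ hi'⟩, h⟩

theorem tr_smooth (i j : Q.ι) : ContDiffOn ℝ ∞ (tr Q i j) (W Q i j) := by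
  exact (Q.smooth i j).mono fun y hy => ⟨Q.sub j hy.1, hy.2.1⟩

theorem tr_iso {i j : Q.ι} {y : E (4 * m)} (hy : y ∈ W Q i j) (u v : E (4 * m)) :
    ip (Q.G j y) u v =
      ip (Q.G i (tr Q i j y)) (fderiv ℝ (tr Q i j) y u) (fderiv ℝ (tr Q i j) y v) := by
  have e := (Q.e j).right_inv (Q.sub j hy.1)
  have := Q.compat i j _ hy.2.1 ((Q.e j).map_target (Q.sub j hy.1)) hy.2.2 (e.symm ▸ hy.1) u v
  rwa [e] at this

theorem tr_inj {i j : Q.ι} {y : E (4 * m)} (hy : y ∈ W Q i j) {u : E (4 * m)}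
    (hu : fderiv ℝ (tr Q i j) y u = 0) : u = 0 := by
  by_contra h
  have := Vale.Agent.P219.R.ip_pos ((Q.good j).pos y hy.1) h
  rw [tr_iso Q hy, hu] at this
  simp at this

theorem BR1_ne (hm : 1 ≤ m) {i j : Q.ι} {y : E (4 * m)} (hy : y ∈ W Q i j) :
    fderiv ℝ (tr Q i j) y (v0 _) ≠ 0 := fun h => v0_ne hm (tr_inj Q hy h)

theorem BR1_diff {i j : Q.ι} {y : E (4 * m)} (hy : y ∈ W Q i j) :
    DifferentiableAt ℝ (tr Q i j) y :=
  ((tr_smooth Q i j).contDiffAt ((W_open Q i j).mem_nhds hy)).differentiableAt (by simp)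

theorem BR1_id {i j : Q.ι} (he : Q.e i = Q.e j) (hU : Q.U i = Q.U j) {y : E (4 * m)}
    (hy : y ∈ Q.U j) : y ∈ W Q i j ∧ tr Q i j y = y ∧ ∀ v, fderiv ℝ (tr Q i j) y v = v := by
  have h : ∀ y ∈ Q.U j, tr Q i j y = y := fun y hy => by
    rw [tr, he]; exact tr_self Q hy
  have h2 : tr Q i j =ᶠ[𝓝 y] id := mem_of_superset ((Q.good j).isOpen.mem_nhds hy) h
  refine ⟨⟨hy, he ▸ (Q.e j).map_target (Q.sub j hy), by rwa [h y hy, hU]⟩, h y hy, fun v => ?_⟩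
  rw [h2.fderiv_eq, fderiv_id]
  rfl

theorem R_span (hm : 1 ≤ m) {i j : Q.ι} {y : E (4 * m)} (hy : y ∈ W Q i j) (u : Fin 3 → ℝ)
    (v : E (4 * m)) : fderiv ℝ (tr Q i j) y (Iv Q j y u v) =
      Iv Q i (tr Q i j y) (mr (R Q i j y) u) (fderiv ℝ (tr Q i j) y v) := by
  have e := (Q.e j).right_inv (Q.sub j hy.1)
  have h := Q.I_span i j _ hy.2.1 ((Q.e j).map_target (Q.sub j hy.1)) hy.2.2 (e.symm ▸ hy.1)
  rw [e] at h
  choose c hc using h
  replace hc : ∀ k v, fderiv ℝ (tr Q i j) y (Q.I j k y v) =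
      Iv Q i (tr Q i j y) (c k) (fderiv ℝ (tr Q i j) y v) := fun k v => by
    rw [Iv_apply]; exact hc k v
  have hR : ∀ l k, R Q i j y l k = c k l := fun l k => by
    have h0 := Vale.Agent.P219.R.ip_pos ((Q.good j).pos y hy.1) (v0_ne hm)
    rw [R, hc, ← Iv_single, ip_Iv Q hy.2.2, ← tr_iso Q hy, mul_div_cancel_right₀ _ h0.ne',
      dotProduct_single_one]
  simp only [Iv_apply, map_sum, map_smul, hc, mr, hR, Finset.sum_smul, Finset.smul_sum, smul_smul,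
    mul_comm]
  exact Finset.sum_comm

theorem R_smooth (hm : 1 ≤ m) (i j : Q.ι) : ContDiffOn ℝ ∞ (R Q i j) (W Q i j) := by
  have h1 := tr_smooth Q i j
  have h2 := h1.fderiv_of_isOpen (m := ∞) (W_open Q i j) (by simp)
  have h3 : MapsTo (tr Q i j) (W Q i j) (Q.U i) := fun y hy => hy.2.2
  refine contDiffOn_pi.2 fun l => contDiffOn_pi.2 fun k => ContDiffOn.div ?_
    (((Q.good j).ip_smooth _ _).mono fun y hy => hy.1) fun y hy =>
      (Vale.Agent.P219.R.ip_pos ((Q.good j).pos y hy.1) (v0_ne hm)).ne'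
  exact (((Q.good i).smooth.comp h1 h3).clm_apply (h2.clm_apply
    (((Q.I_smooth j k).mono fun y hy => hy.1).clm_apply contDiffOn_const))).clm_apply
      (((Q.I_smooth i l).comp h1 h3).clm_apply (h2.clm_apply contDiffOn_const))

theorem R_rot (hm : 1 ≤ m) {i j : Q.ι} {y : E (4 * m)} (hy : y ∈ W Q i j) : Rot (R Q i j y) := by
  have h0 := Vale.Agent.P219.R.ip_pos ((Q.good j).pos y hy.1) (v0_ne hm)
  have hd : ∀ u v, mr (R Q i j y) u ⬝ᵥ mr (R Q i j y) v = u ⬝ᵥ v := fun u v => by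
    refine mul_right_cancel₀ h0.ne' ?_
    rw [← ip_Iv Q hy.1 u v, tr_iso Q hy (Iv Q j y u _), R_span Q hm hy, R_span Q hm hy,
      ip_Iv Q hy.2.2, ← tr_iso Q hy]
  refine ⟨hd, fun u v => Iv_inj Q hy.2.2 (BR1_ne Q hm hy) ?_⟩
  have h := congrArg (fderiv ℝ (tr Q i j) y) (Iv_mul Q hy.1 u v (v0 _))
  rw [map_add, map_smul, R_span Q hm hy, R_span Q hm hy, R_span Q hm hy, Iv_mul Q hy.2.2, hd] at h
  exact (add_left_cancel h).symm

theorem R_self (hm : 1 ≤ m) {j : Q.ι} {y : E (4 * m)} (hy : y ∈ Q.U j) (z : Fin 3 → ℂ) :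
    mv (R Q j j y) z = z := by
  obtain ⟨h1, h2, h3⟩ := BR1_id Q rfl rfl hy
  refine mv_id (fun u => Iv_inj Q hy (v0_ne hm) ?_) z
  have h := R_span Q hm h1 u (v0 _)
  rwa [h2, h3, h3, eq_comm] at h

theorem R_comp (hm : 1 ≤ m) {i j k : Q.ι} {y : E (4 * m)} (hy : y ∈ W Q i j)
    (hy' : tr Q i j y ∈ W Q k i) (z : Fin 3 → ℂ) :
    mv (R Q k i (tr Q i j y)) (mv (R Q i j y) z) = mv (R Q k j y) z := by
  have e : ∀ y ∈ W Q i j, (Q.e i).symm (tr Q i j y) = (Q.e j).symm y := fun y hy =>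
    (Q.e i).left_inv hy.2.1
  have e' : ∀ y ∈ W Q i j, tr Q k i (tr Q i j y) = tr Q k j y := fun y hy =>
    congrArg (Q.e k) (e y hy)
  have h1 : y ∈ W Q k j := ⟨hy.1, e y hy ▸ hy'.2.1, e' y hy ▸ hy'.2.2⟩
  have h2 : tr Q k j =ᶠ[𝓝 y] tr Q k i ∘ tr Q i j :=
    mem_of_superset ((W_open Q i j).mem_nhds hy) fun y hy => (e' y hy).symm
  have h3 : ∀ v, fderiv ℝ (tr Q k j) y v =
      fderiv ℝ (tr Q k i) (tr Q i j y) (fderiv ℝ (tr Q i j) y v) := fun v => by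
    rw [h2.fderiv_eq, fderiv_comp _ (BR1_diff Q hy') (BR1_diff Q hy)]
    rfl
  refine mv_comp (fun u => Iv_inj Q h1.2.2 (BR1_ne Q hm h1) ?_) z
  rw [← R_span Q hm h1, h3, h3, R_span Q hm hy, R_span Q hm hy', e' y hy]

theorem R_cov (hm : 1 ≤ m) (hc : Cov Q) {j : Q.ι} {y : E (4 * m)} (hy : y ∈ Q.U j)
    {z : Fin 3 → ℂ} (hz : Nul z) : ∃ i, y ∈ W Q i j ∧ lc (mv (R Q i j y) z) ≠ 0 := by
  rcases lc_or hz with h | h
  · exact ⟨j, W_self Q hy, by rwa [R_self Q hm hy]⟩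
  obtain ⟨i, he, hU, hI⟩ := hc j
  obtain ⟨h1, h2, h3⟩ := BR1_id Q he hU hy
  have h4 : ∀ u, mr (R Q i j y) u = ![u 0, -u 1, -u 2] := fun u => by
    refine Iv_inj Q (hU ▸ hy : y ∈ Q.U i) (v0_ne hm) ?_
    have h := R_span Q hm h1 u (v0 _)
    rw [h2, h3, h3] at h
    rw [← h]
    simp [Iv_apply, Fin.sum_univ_three, (hI y).1, (hI y).2.1, (hI y).2.2]
  refine ⟨i, h1, ?_⟩
  rw [← rev_add_imv z, mv_add, mv_smul, mv_cx, mv_cx, h4, h4]
  rw [← rev_add_imv z] at h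
  refine fun e => h ?_
  simp only [lc, cx, Pi.add_apply, Pi.smul_apply, smul_eq_mul, Matrix.cons_val_zero,
    Matrix.cons_val_one, Complex.ofReal_neg] at e ⊢
  linear_combination e

end Vale.Agent.P292.B
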