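import Vale.Agent.P292.BR1

/-! The gauge transformation of the connection forms. -/

set_option maxSynthPendingDepth 3

open scoped ContDiff Topology Matrix
open Set Filter

noncomputable section

namespace Vale.Agent.P292.B

open Vale.Agent.P219 (E)
open Vale.Agent.P219.R (Bil ip chr Good)
open Complex (I)

variable {m : ℕ} {M : Type} [TopologicalSpace M] (Q : QK m M)

theorem BR2_par {j : Q.ι} {y : E (4 * m)} (hy : y ∈ Q.U j) (X v : E (4 * m)) (u : Fin 3 → ℝ) :
    ∑ k, u k • fderiv ℝ (Q.I j k) y X v = Iv Q j y (crossProduct (Q.a j y X) u) v -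
      chr (Q.G j) y X (Iv Q j y u v) + Iv Q j y u (chr (Q.G j) y X v) := by
  have h0 := Q.par j 0 y hy X v
  have h1 := Q.par j 1 y hy X v
  have h2 := Q.par j 2 y hy X v
  simp only [Iv_apply, Fin.sum_univ_three, (Q.good j).chr_add hy, (Q.good j).chr_smul hy,
    cross_apply, Matrix.cons_val_zero, Matrix.cons_val_one, Matrix.cons_val, Pi.single_eq_same,
    ne_eq, Fin.reduceEq, not_false_eq_true, Pi.single_eq_of_ne] at h0 h1 h2 ⊢
  linear_combination (norm := module) u 0 • h0 + u 1 • h1 + u 2 • h2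

theorem BR2_I {j : Q.ι} {y : E (4 * m)} (hy : y ∈ Q.U j) (k : Fin 3) :
    HasFDerivAt (Q.I j k) (fderiv ℝ (Q.I j k) y) y :=
  (((Q.I_smooth j k).contDiffAt ((Q.good j).isOpen.mem_nhds hy)).differentiableAt
    (by simp)).hasFDerivAt

theorem gauge (hm : 1 ≤ m) {i j : Q.ι} {y : E (4 * m)} (hy : y ∈ W Q i j) (X : E (4 * m))
    (u : Fin 3 → ℝ) : mr (fderiv ℝ (R Q i j) y X) u +
      crossProduct (Q.a i (tr Q i j y) (fderiv ℝ (tr Q i j) y X)) (mr (R Q i j y) u) =
      mr (R Q i j y) (crossProduct (Q.a j y X) u) := by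
  have hW := (W_open Q i j).mem_nhds hy
  have hφ := (tr_smooth Q i j).contDiffAt hW
  have ht : HasFDerivAt (tr Q i j) (fderiv ℝ (tr Q i j) y) y :=
    (hφ.differentiableAt (by simp)).hasFDerivAt
  have hA : HasFDerivAt (fderiv ℝ (tr Q i j)) (fderiv ℝ (fderiv ℝ (tr Q i j)) y) y :=
    ((hφ.fderiv_right (m := 1) (by norm_cast)).differentiableAt (by simp)).hasFDerivAt
  have hR : HasFDerivAt (R Q i j) (fderiv ℝ (R Q i j) y) y :=
    (((R_smooth Q hm i j).contDiffAt hW).differentiableAt (by simp)).hasFDerivAt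
  generalize fderiv ℝ (fderiv ℝ (tr Q i j)) y = B at hA
  generalize fderiv ℝ (R Q i j) y = DR at hR ⊢
  have hc : ∀ w, fderiv ℝ (tr Q i j) y (chr (Q.G j) y X w) =
      chr (Q.G i) (tr Q i j y) (fderiv ℝ (tr Q i j) y X) (fderiv ℝ (tr Q i j) y w) + B X w := by
    intro w
    rw [(Q.good j).chr_transform (Q.good i) hy.1 hy.2.2 hφ
      (mem_of_superset hW fun z hz => tr_iso Q hz) X w,
      (hA.clm_apply (hasFDerivAt_const w y)).fderiv]
    simp
  set v := v0 (4 * m) with hv
  have hL := hA.clm_apply (HasFDerivAt.fun_sum (u := Finset.univ) fun k _ =>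
    ((BR2_I Q hy.1 k).clm_apply (hasFDerivAt_const v y)).fun_const_smul (u k))
  have hRl : ∀ l, HasFDerivAt (fun z => mr (R Q i j z) u l)
      (∑ k, u k • (ContinuousLinearMap.proj k).comp ((ContinuousLinearMap.proj l).comp DR)) y :=
    fun l => HasFDerivAt.fun_sum fun k _ =>
      (hasFDerivAt_pi'.1 (hasFDerivAt_pi'.1 hR l) k).mul_const (u k)
  have hRr := HasFDerivAt.fun_sum (u := Finset.univ) fun l _ => (hRl l).fun_smul
    (((BR2_I Q hy.2.2 l).comp y ht).clm_apply (hA.clm_apply (hasFDerivAt_const v y)))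
  have he : (fun z => fderiv ℝ (tr Q i j) z (∑ k, u k • Q.I j k z v)) =ᶠ[𝓝 y]
      fun z => ∑ l, mr (R Q i j z) u l • Q.I i l (tr Q i j z) (fderiv ℝ (tr Q i j) z v) := by
    filter_upwards [hW] with z hz
    rw [← Iv_apply, R_span Q hm hz, Iv_apply]
  have h1 := congrArg (fun L : E (4 * m) →L[ℝ] E (4 * m) => L X)
    (hL.unique (hRr.congr_of_eventuallyEq he))
  have h2 : fderiv ℝ (tr Q i j) y (∑ k, u k • fderiv ℝ (Q.I j k) y X v) + B X (Iv Q j y u v) =
      ∑ l, mr (R Q i j y) u l • fderiv ℝ (Q.I i l) (tr Q i j y) (fderiv ℝ (tr Q i j) y X)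
        (fderiv ℝ (tr Q i j) y v) + Iv Q i (tr Q i j y) (mr (R Q i j y) u) (B X v) +
        Iv Q i (tr Q i j y) (mr (DR X) u) (fderiv ℝ (tr Q i j) y v) := by
    simp only [ContinuousLinearMap.add_apply, ContinuousLinearMap.comp_apply,
      ContinuousLinearMap.flip_apply, ContinuousLinearMap.sum_apply,
      ContinuousLinearMap.smul_apply, ContinuousLinearMap.zero_apply, map_zero, zero_add,
      ContinuousLinearMap.smulRight_apply, ContinuousLinearMap.proj_apply, Function.comp_apply,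
      smul_eq_mul, smul_add, Finset.sum_add_distrib, smul_zero, Finset.sum_const_zero] at h1
    have e : ∀ l, mr (DR X) u l = ∑ k, u k * DR X l k := fun l =>
      Finset.sum_congr rfl fun k _ => mul_comm _ _
    simp only [Iv_apply, e]
    rw [h1]
    abel
  rw [BR2_par Q hy.1, BR2_par Q hy.2.2, map_add, map_sub, R_span Q hm hy, R_span Q hm hy, hc, hc,
    R_span Q hm hy, map_add] at h2
  refine Iv_inj Q hy.2.2 (v := fderiv ℝ (tr Q i j) y v)
    (fun h => v0_ne hm (tr_inj Q hy h)) ?_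
  rw [Iv_add, ContinuousLinearMap.add_apply]
  linear_combination (norm := module) -h2

end Vale.Agent.P292.B
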