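import Vale.Agent.P292.BAlg

/-! Rotations acting on complex vectors. -/

set_option maxSynthPendingDepth 3

open scoped ContDiff Topology Matrix
open Set Filter

noncomputable section

namespace Vale.Agent.P292.B

open Vale.Agent.P219 (E)
open Vale.Agent.P219.R (Bil ip chr Good)
open Complex (I)

theorem mv_add (S : Fin 3 → Fin 3 → ℝ) (z z' : Fin 3 → ℂ) : mv S (z + z') = mv S z + mv S z' := by
  funext l
  simp [mv, mul_add, Finset.sum_add_distrib]

theorem mv_smul (S : Fin 3 → Fin 3 → ℝ) (c : ℂ) (z : Fin 3 → ℂ) : mv S (c • z) = c • mv S z := by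
  funext l
  simp [mv, Finset.mul_sum, mul_left_comm]

theorem mv_zero (S : Fin 3 → Fin 3 → ℝ) : mv S 0 = 0 := by
  funext l
  simp [mv]

theorem mv_cx (S : Fin 3 → Fin 3 → ℝ) (a : Fin 3 → ℝ) : mv S (cx a) = cx (mr S a) := by
  funext l
  simp [mv, cx, mr]

theorem rev_mv (S : Fin 3 → Fin 3 → ℝ) (z : Fin 3 → ℂ) : rev (mv S z) = mr S (rev z) := by
  funext l
  simp [mv, rev, mr]

theorem imv_mv (S : Fin 3 → Fin 3 → ℝ) (z : Fin 3 → ℂ) : imv (mv S z) = mr S (imv z) := by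
  funext l
  simp [mv, imv, mr]

theorem rev_add_imv (z : Fin 3 → ℂ) : cx (rev z) + I • cx (imv z) = z := by
  funext l
  simp [cx, rev, imv, mul_comm I]

theorem BRot_ext {z z' : Fin 3 → ℂ} (h : rev z = rev z') (h' : imv z = imv z') : z = z' := by
  rw [← rev_add_imv z, h, h', rev_add_imv]

theorem BRot_add (S : Fin 3 → Fin 3 → ℝ) (u v : Fin 3 → ℝ) : mr S (u + v) = mr S u + mr S v := by
  funext l
  simp [mr, mul_add, Finset.sum_add_distrib]

theorem BRot_sub (S : Fin 3 → Fin 3 → ℝ) (u v : Fin 3 → ℝ) : mr S (u - v) = mr S u - mr S v := by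
  funext l
  simp [mr, mul_sub, Finset.sum_sub_distrib]

theorem BRot_dot_re (z z' : Fin 3 → ℂ) : (z ⬝ᵥ z').re = rev z ⬝ᵥ rev z' - imv z ⬝ᵥ imv z' := by
  simp [dotProduct, rev, imv, Finset.sum_sub_distrib]

theorem BRot_dot_im (z z' : Fin 3 → ℂ) : (z ⬝ᵥ z').im = rev z ⬝ᵥ imv z' + imv z ⬝ᵥ rev z' := by
  simp [dotProduct, rev, imv, Finset.sum_add_distrib]

theorem BRot_cross_re (z z' : Fin 3 → ℂ) : rev (crossProduct z z') =
    crossProduct (rev z) (rev z') - crossProduct (imv z) (imv z') := by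
  funext l
  fin_cases l <;> simp [cross_apply, rev, imv] <;> ring

theorem BRot_cross_im (z z' : Fin 3 → ℂ) : imv (crossProduct z z') =
    crossProduct (rev z) (imv z') + crossProduct (imv z) (rev z') := by
  funext l
  fin_cases l <;> simp [cross_apply, rev, imv] <;> ring

theorem BRot_rev_cx (a : Fin 3 → ℝ) : rev (cx a) = a := rfl

theorem BRot_imv_cx (a : Fin 3 → ℝ) : imv (cx a) = 0 := rfl

theorem BRot_nrm (z : Fin 3 → ℂ) : nrm z = √((rev z ⬝ᵥ rev z + imv z ⬝ᵥ imv z) / 2) := by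
  simp [nrm, dotProduct, rev, imv, Complex.sq_norm, Complex.normSq_apply, Finset.sum_add_distrib]

theorem mv_comp {S T U : Fin 3 → Fin 3 → ℝ} (h : ∀ u, mr S (mr T u) = mr U u) (z : Fin 3 → ℂ) :
    mv S (mv T z) = mv U z :=
  BRot_ext (by simp only [rev_mv, h]) (by simp only [imv_mv, h])

theorem mv_id {S : Fin 3 → Fin 3 → ℝ} (h : ∀ u, mr S u = u) (z : Fin 3 → ℂ) : mv S z = z :=
  BRot_ext (by simp only [rev_mv, h]) (by simp only [imv_mv, h])

theorem Rot.mv_dot {S : Fin 3 → Fin 3 → ℝ} (h : Rot S) (z z' : Fin 3 → ℂ) :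
    mv S z ⬝ᵥ mv S z' = z ⬝ᵥ z' :=
  Complex.ext (by simp only [BRot_dot_re, rev_mv, imv_mv, h.dot])
    (by simp only [BRot_dot_im, rev_mv, imv_mv, h.dot])

theorem Rot.mv_cross {S : Fin 3 → Fin 3 → ℝ} (h : Rot S) (z z' : Fin 3 → ℂ) :
    mv S (crossProduct z z') = crossProduct (mv S z) (mv S z') :=
  BRot_ext (by simp only [BRot_cross_re, rev_mv, imv_mv, BRot_sub, h.cross])
    (by simp only [BRot_cross_im, rev_mv, imv_mv, BRot_add, h.cross])

theorem Rot.nrm_mv {S : Fin 3 → Fin 3 → ℝ} (h : Rot S) (z : Fin 3 → ℂ) : nrm (mv S z) = nrm z := by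
  simp only [BRot_nrm, rev_mv, imv_mv, h.dot]

theorem Rot.mv_inj {S : Fin 3 → Fin 3 → ℝ} (h : Rot S) {z : Fin 3 → ℂ} (hz : mv S z = 0) :
    z = 0 := by
  have h1 : ∀ u, mr S u = 0 → u = 0 := fun u hu =>
    dotProduct_self_eq_zero.1 (by rw [← h.dot, hu, dotProduct_zero])
  exact BRot_ext (h1 _ (by rw [← rev_mv, hz]; rfl)) (h1 _ (by rw [← imv_mv, hz]; rfl))

theorem Rot.nul_mv {S : Fin 3 → Fin 3 → ℝ} (h : Rot S) (z : Fin 3 → ℂ) : Nul (mv S z) ↔ Nul z := by
  rw [Nul, h.mv_dot]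
  exact and_congr_left' (not_congr ⟨h.mv_inj, fun e => by rw [e, mv_zero]⟩)

/-- a real linear identity for the gauge transformation extends to complex vectors -/
theorem gauge_cx {S S' : Fin 3 → Fin 3 → ℝ} {a b : Fin 3 → ℝ}
    (h : ∀ u, mr S' u + crossProduct a (mr S u) = mr S (crossProduct b u)) (z : Fin 3 → ℂ) :
    mv S' z + cr a (mv S z) = mv S (cr b z) := by
  refine BRot_ext ?_ ?_
  · change rev (mv S' z) + rev (cr a (mv S z)) = _
    simp only [cr, BRot_cross_re, rev_mv, BRot_rev_cx, BRot_imv_cx, map_zero,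
      LinearMap.zero_apply, sub_zero, h]
  · change imv (mv S' z) + imv (cr a (mv S z)) = _
    simp only [cr, BRot_cross_im, imv_mv, BRot_rev_cx, BRot_imv_cx, map_zero,
      LinearMap.zero_apply, add_zero, h]

/-- real and imaginary parts of the relations between a null vector and its unit vector -/
theorem nv_parts {z : Fin 3 → ℂ} {n : Fin 3 → ℝ} (h1 : z ⬝ᵥ cx n = 0)
    (h2 : crossProduct z (cx n) = I • z) : rev z ⬝ᵥ n = 0 ∧ imv z ⬝ᵥ n = 0 ∧
      crossProduct (rev z) n = -imv z ∧ crossProduct (imv z) n = rev z := by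
  have k1 := BRot_dot_re z (cx n)
  have k2 := BRot_dot_im z (cx n)
  have k3 := BRot_cross_re z (cx n)
  have k4 := BRot_cross_im z (cx n)
  rw [h1, BRot_rev_cx, BRot_imv_cx, dotProduct_zero] at k1 k2
  rw [h2, BRot_rev_cx, BRot_imv_cx, map_zero] at k3 k4
  rw [sub_zero] at k1 k3
  rw [zero_add] at k2 k4
  refine ⟨k1.symm, k2.symm, k3.symm.trans (funext fun l => ?_), k4.symm.trans (funext fun l => ?_)⟩
  · simp [rev, imv]
  · simp [rev, imv]

theorem compact_sphere : IsCompact {z : {z : Fin 3 → ℂ // Nul z} | nrm z.1 = 1} := by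
  have hc : Continuous nrm := by unfold nrm; fun_prop
  have hK : IsCompact {z : Fin 3 → ℂ | z ⬝ᵥ z = 0 ∧ nrm z = 1} := by
    refine (isCompact_closedBall (0 : Fin 3 → ℂ) 2).of_isClosed_subset
      ((isClosed_eq (by fun_prop) continuous_const).inter (isClosed_eq hc continuous_const))
      fun z hz => mem_closedBall_zero_iff.2 ((pi_norm_le_iff_of_nonneg zero_le_two).2 fun k => ?_)
    have h1 := Real.sqrt_eq_one.1 hz.2
    have h2 := Finset.single_le_sum (f := fun k => ‖z k‖ ^ 2) (fun _ _ => sq_nonneg _)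
      (Finset.mem_univ k)
    nlinarith [norm_nonneg (z k)]
  rw [Subtype.isCompact_iff]
  refine (congrArg IsCompact (Set.ext fun z => ⟨fun hz => ?_, ?_⟩)).mp hK
  · refine ⟨⟨z, fun e => ?_, hz.1⟩, hz.2, rfl⟩
    have := hz.2
    simp [e, nrm] at this
  · rintro ⟨z, hz, rfl⟩
    exact ⟨z.2.2, hz⟩

end Vale.Agent.P292.B
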