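import Vale.Agent.P292.BK

/-! The differential of the parametrization by spinors. -/

set_option maxSynthPendingDepth 3

open scoped ContDiff Topology Matrix
open Set Filter

noncomputable section

namespace Vale.Agent.P292.B

open Vale.Agent.P219 (E)
open Vale.Agent.P219.R (Bil ip chr Good)
open Complex (I)

variable {m : ℕ} {M : Type} [TopologicalSpace M] (Q : QK m M)

theorem BT_diff (p : E (4 * m) × ℂ × ℂ) :
    DifferentiableAt ℝ (fun q : E (4 * m) × ℂ × ℂ => zv q.2) p :=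
  (contDiff_zv.differentiable (by simp) _).comp p differentiableAt_snd

theorem BT_d (x X : E (4 * m)) (h e : ℂ × ℂ) :
    fderiv ℝ (fun q : E (4 * m) × ℂ × ℂ => zv q.2) (x, h) (X, e) = dz h e := by
  rw [← fderiv_zv]
  exact DFunLike.congr_fun (HasFDerivAt.comp (f := Prod.snd) (x, h)
    (contDiff_zv.differentiable (by simp) h).hasFDerivAt hasFDerivAt_snd).fderiv (X, e)

theorem BT_nul (x : E (4 * m)) {h : ℂ × ℂ} (hh : h ≠ 0) :
    ∀ᶠ q : E (4 * m) × ℂ × ℂ in 𝓝 (x, h), Nul (zv q.2) :=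
  (continuous_snd.continuousAt.eventually_ne (x := (x, h)) hh).mono fun _ => nul_zv

theorem BT_sp (h : ℂ × ℂ) : sp 0 h = 0 := by
  simp [sp]

theorem BT_dz (h : ℂ × ℂ) : dz h 0 = 0 := by
  simpa using dz_smul h 0 0

variable (hm : 1 ≤ m) {i j : Q.ι} {x : E (4 * m)} {h : ℂ × ℂ} (hx : x ∈ W Q i j) (hh : h ≠ 0)
  (hl : lc (mv (R Q i j x) (zv h)) ≠ 0)

include hm hx hh hl

theorem Tv_smooth : ContDiffAt ℝ ∞ (Tv Q i j) (x, h) := by
  have h1 : ContDiffAt ℝ ∞ (fun q : E (4 * m) × (Fin 3 → ℂ) => Tm Q i j q.1 q.2) (x, zv h) :=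
    (Tm_smooth Q hm i j).contDiffAt ((Tm_open Q hm i j).mem_nhds (x := (x, zv h)) ⟨hx, hl⟩)
  have h2 : ContDiffAt ℝ ∞ (fun q : E (4 * m) × ℂ × ℂ => (q.1, zv q.2)) (x, h) :=
    contDiffAt_fst.prodMk (contDiff_zv.comp contDiff_snd).contDiffAt
  exact ContDiffAt.comp (f := fun q : E (4 * m) × ℂ × ℂ => (q.1, zv q.2)) (x, h) h1 h2

theorem Tv_deriv (X : E (4 * m)) (e : ℂ × ℂ) :
    (fderiv ℝ (Tv Q i j) (x, h) (X, e)).1.1 = fderiv ℝ (tr Q i j) x X ∧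
      nab Q i (Tv Q i j (x, h)) (fderiv ℝ (Tv Q i j) (x, h) (X, e)) =
        mv (R Q i j x) (dz h (e + sp (Q.a j x X) h)) := by
  have := Tm_deriv Q hm (x := Prod.fst) (ζ := fun q : E (4 * m) × ℂ × ℂ => zv q.2) (p := (x, h))
    differentiableAt_fst (BT_diff _) hx (BT_nul x hh) hl (X, e)
  rw [BT_d, fderiv_fst, cr_zv, ← dz_add] at this
  exact this

theorem Tv_surj : Function.Surjective (fderiv ℝ (Tv Q i j) (x, h)) := by
  have e : Module.finrank ℝ (E (4 * m) × ℂ × ℂ) = Module.finrank ℝ ((E (4 * m) × ℂ) × ℂ) := by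
    simp only [Module.finrank_prod, add_assoc]
  refine (LinearMap.injective_iff_surjective_of_finrank_eq_finrank e
    (f := (fderiv ℝ (Tv Q i j) (x, h)).toLinearMap)).1
    ((injective_iff_map_eq_zero _).2 fun ⟨X, e⟩ h0 => ?_)
  obtain ⟨h1, h2⟩ := Tv_deriv Q hm hx hh hl X e
  have h3 : fderiv ℝ (Tv Q i j) (x, h) (X, e) = 0 := h0
  rw [h3] at h1 h2
  obtain rfl : X = 0 := tr_inj Q hx h1.symm
  have h4 : nab Q i (Tv Q i j (x, h)) 0 = 0 := by simp [nab]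
  have h5 := dz_inj hh ((R_rot Q hm hx).mv_inj (h2.symm.trans h4))
  rw [map_zero, BT_sp, add_zero] at h5
  rw [h5]
  rfl

theorem Tv_nhds : map (Tv Q i j) (𝓝 (x, h)) = 𝓝 (Tv Q i j (x, h)) :=
  ((Tv_smooth Q hm hx hh hl).hasStrictFDerivAt (by simp)).map_nhds_eq_of_surj
    (LinearMap.range_eq_top.2 (Tv_surj Q hm hx hh hl))

theorem Tv_vert (e : ℂ × ℂ) : fderiv ℝ (Tv Q i j) (x, h) (0, I • e) =
    Jm Q i (Tv Q i j (x, h)) (fderiv ℝ (Tv Q i j) (x, h) (0, e)) := by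
  obtain ⟨h1, h2⟩ := Tv_deriv Q hm hx hh hl 0 e
  obtain ⟨h3, h4⟩ := Tv_deriv Q hm hx hh hl 0 (I • e)
  refine nab_ext Q i (Tm_mem Q hx hl).2 ?_ ?_
  · rw [h3, Jm_apply, mk_fst, h1, map_zero, map_zero]
  · refine h4.trans (Eq.trans ?_ (nab_J Q i _ _).symm)
    refine Eq.trans ?_ (congrArg (I • ·) h2).symm
    simp only [map_zero, BT_sp, add_zero, dz_smul, mv_smul]

theorem Tv_th (X : E (4 * m)) (e : ℂ × ℂ) :
    thC (th Q i) (Tv Q i j (x, h)) (fderiv ℝ (Tv Q i j) (x, h) (X, e)) =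
      wg h (e + sp (Q.a j x X) h) :=
  Tm_th Q hm (x := Prod.fst) (ζ := fun q : E (4 * m) × ℂ × ℂ => zv q.2) (p := (x, h))
    differentiableAt_fst (BT_diff _) hx (BT_nul x hh) hl (X, e) (by
      rw [BT_d, fderiv_fst, cr_zv, ← dz_add]
      exact zv_cross_dz _ _)

theorem Tv_hor (X : E (4 * m)) : fderiv ℝ (Tv Q i j) (x, h) (X, -sp (Q.a j x X) h) =
    mk Q i (Tv Q i j (x, h)) (fderiv ℝ (tr Q i j) x X, 0, 0) := by
  obtain ⟨h1, h2⟩ := Tv_deriv Q hm hx hh hl X (-sp (Q.a j x X) h)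
  refine nab_ext Q i (Tm_mem Q hx hl).2 h1 (h2.trans ?_)
  rw [neg_add_cancel, BT_dz, mv_zero]
  change 0 = nab Q i (Tv Q i j (x, h)) _
  simp [nab]

theorem Tv_hor_sum {F : Type} [NormedAddCommGroup F] [NormedSpace ℂ F]
    (L : (E (4 * m) × ℂ) × ℂ →L[ℝ] F) (hL : ∀ u, L (Jm Q i (Tv Q i j (x, h)) u) = I • L u)
    (Y : E (4 * m)) : ∑ k, zv h k • L (fderiv ℝ (Tv Q i j) (x, h)
      (Q.I j k x Y, -sp (Q.a j x (Q.I j k x Y)) h)) = 0 := by
  obtain ⟨p, hp⟩ : ∃ p, p = Tv Q i j (x, h) := ⟨_, rfl⟩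
  have h1 : p.1.1 = tr Q i j x := by rw [hp]; rfl
  have h2 : mv (R Q i j x) (zv h) = p.2 • zw p.1.2 := by
    rw [hp]
    exact (Zm_Tm Q hm hx (nul_zv hh) hl).symm
  let H : E (4 * m) →L[ℝ] F := L.comp ((mk Q i p).comp (ContinuousLinearMap.inl ℝ _ _))
  have hH : ∀ X, H (Iv Q i p.1.1 (nv p.1.2) X) = I • H X := fun X => by
    have := hL (mk Q i p (X, 0, 0))
    rw [← hp, Jm_apply, mk_fst, th_mk, la_mk, mul_zero] at this
    exact this
  have h3 := sum_smul_I Q (H.comp (fderiv ℝ (tr Q i j) x)) j x (zv h) Y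
  simp only [Tv_hor Q hm hx hh hl, ← hp]
  refine h3.trans ?_
  simp only [ContinuousLinearMap.comp_apply, R_span Q hm hx, ← rev_mv, ← imv_mv, h2]
  rw [← h1, ← hH, ← map_add, Iv_hor Q (h1 ▸ hx.2.2), map_zero]
  · rw [smul_dotProduct, zw_dot_nv, smul_zero]
  · rw [map_smul, LinearMap.smul_apply, zw_cross_nv, smul_comm]

end Vale.Agent.P292.B
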