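import Vale.Agent.P292.BRot
import Vale.Agent.P292.BCal

/-! General facts on bundles; the chart of the null cone. -/

set_option maxSynthPendingDepth 3

open scoped ContDiff Topology Matrix
open Set Filter

noncomputable section

namespace Vale.Agent.P292.B

open Vale.Agent.P219 (E)
open Vale.Agent.P219.R (Bil ip chr Good)
open Complex (I)

theorem core_t2 {ι B F : Type} [TopologicalSpace B] [TopologicalSpace F] [T2Space B] [T2Space F]
    (Z : FiberBundleCore ι B F) : T2Space Z.TotalSpace := by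
  refine ⟨fun x y hxy => ?_⟩
  by_cases h : Z.proj x = Z.proj y
  · let e := (Z.localTriv (Z.indexAt (Z.proj x))).toOpenPartialHomeomorph
    have hx : x ∈ e.source := Z.mem_baseSet_at (Z.proj x)
    have hy : y ∈ e.source := by
      change Z.proj y ∈ Z.baseSet (Z.indexAt (Z.proj x))
      rw [← h]
      exact Z.mem_baseSet_at _
    obtain ⟨u, v, hu, hv, h1, h2, h3⟩ := t2_separation fun h4 => hxy (e.injOn hx hy h4)
    exact ⟨_, _, e.isOpen_inter_preimage hu, e.isOpen_inter_preimage hv, ⟨hx, h1⟩, ⟨hy, h2⟩,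
      (h3.preimage e).mono inter_subset_right inter_subset_right⟩
  · exact separated_by_continuous Z.continuous_proj h

theorem core_compact {ι B F : Type} [TopologicalSpace B] [TopologicalSpace F] [T2Space B]
    [CompactSpace B] (Z : FiberBundleCore ι B F) (f : F → ℝ)
    (hf : ∀ i j, ∀ x ∈ Z.baseSet i ∩ Z.baseSet j, ∀ v, f (Z.coordChange i j x v) = f v)
    (hc : IsCompact {v | f v = 1}) : IsCompact {c : Z.TotalSpace | f c.2 = 1} := by
  choose K hK h1 h2 using fun x : B =>
    exists_compact_subset (Z.isOpen_baseSet (Z.indexAt x)) (Z.mem_baseSet_at x)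
  obtain ⟨t, ht⟩ := isCompact_univ.elim_finite_subcover (fun x => interior (K x))
    (fun _ => isOpen_interior) fun x _ => mem_iUnion.2 ⟨x, h1 x⟩
  have e : {c : Z.TotalSpace | f c.2 = 1} = ⋃ x ∈ t,
      (Z.localTriv (Z.indexAt x)).toOpenPartialHomeomorph.symm '' (K x ×ˢ {v | f v = 1}) := by
    ext c
    simp only [mem_iUnion, mem_ofPred_eq]
    constructor
    · intro h
      obtain ⟨x, hx, h3⟩ := mem_iUnion₂.1 (ht (mem_univ c.1))
      have h4 : c.1 ∈ K x := interior_subset h3
      refine ⟨x, hx, Z.localTriv (Z.indexAt x) c, ⟨h4, ?_⟩,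
        (Z.localTriv (Z.indexAt x)).toOpenPartialHomeomorph.left_inv (h2 x h4)⟩
      exact (hf _ _ _ ⟨Z.mem_baseSet_at _, h2 x h4⟩ _).trans h
    · rintro ⟨x, -, p, hp, rfl⟩
      exact (hf _ _ _ ⟨h2 x hp.1, Z.mem_baseSet_at _⟩ _).trans hp.2
  rw [e]
  refine t.isCompact_biUnion fun x _ => ((hK x).prod hc).image_of_continuousOn ?_
  exact (Z.localTriv (Z.indexAt x)).toOpenPartialHomeomorph.continuousOn_symm.mono
    fun p hp => (Z.mem_localTriv_target _ p).2 (h2 x hp.1)

open Classical in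
/-- the inverse of the chart of the null cone -/
def btop1_inv (p : ℂ × ℂ) : {z : Fin 3 → ℂ // Nul z} :=
  if h : p.2 ≠ 0 then ⟨p.2 • zw p.1, nul_smul (nul_zw _) h⟩ else ⟨zw 0, nul_zw 0⟩

theorem btop1_val {p : ℂ × ℂ} (h : p.2 ≠ 0) : (btop1_inv p).1 = p.2 • zw p.1 := by
  rw [btop1_inv, dif_pos h]

theorem btop1_co (k : Fin 3) : Continuous fun z : {z : Fin 3 → ℂ // Nul z} => z.1 k :=
  (continuous_apply k).comp continuous_subtype_val

theorem btop1_lc : Continuous fun z : {z : Fin 3 → ℂ // Nul z} => lc z.1 :=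
  (btop1_co 0).sub (continuous_const.mul (btop1_co 1))

theorem btop1_zw : Continuous zw := by
  unfold zw
  fun_prop

theorem exists_sigma : ∃ σ : OpenPartialHomeomorph {z : Fin 3 → ℂ // Nul z} (ℂ × ℂ),
    σ.source = {z | lc z.1 ≠ 0} ∧ σ.target = univ ×ˢ {0}ᶜ ∧
      (∀ z, σ z = (-z.1 2 / lc z.1, lc z.1 / 2)) ∧
      ∀ p ∈ σ.target, (σ.symm p).1 = p.2 • zw p.1 := by
  refine ⟨{
    toFun := fun z => (-z.1 2 / lc z.1, lc z.1 / 2)
    invFun := btop1_inv
    source := {z | lc z.1 ≠ 0}
    target := univ ×ˢ {0}ᶜ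
    map_source' := fun z hz => ⟨trivial, div_ne_zero hz two_ne_zero⟩
    map_target' := fun p hp => ?_
    left_inv' := fun z hz => Subtype.ext ?_
    right_inv' := fun p hp => ?_
    open_source := isOpen_ne_fun btop1_lc continuous_const
    open_target := isOpen_univ.prod isOpen_compl_singleton
    continuousOn_toFun := ?_
    continuousOn_invFun := ?_ }, rfl, rfl, fun _ => rfl, fun p hp => btop1_val hp.2⟩
  · change lc (btop1_inv p).1 ≠ 0
    rw [btop1_val hp.2]
    exact (lc_Zm (((), p.1), p.2)).trans_ne (mul_ne_zero two_ne_zero hp.2)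
  · rw [btop1_val (div_ne_zero hz two_ne_zero)]
    exact Zm_cw () z.2 hz
  · rw [btop1_val hp.2]
    exact congrArg (fun q : (Unit × ℂ) × ℂ => (q.1.2, q.2)) (cw_Zm (p := (((), p.1), p.2)) hp.2)
  · exact ((btop1_co 2).neg.continuousOn.div btop1_lc.continuousOn fun z hz => hz).prodMk
      (btop1_lc.div_const 2).continuousOn
  · refine Topology.IsInducing.subtypeVal.continuousOn_iff.2 ?_
    exact (continuous_snd.smul (btop1_zw.comp continuous_fst)).continuousOn.congr
      fun p hp => btop1_val hp.2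

end Vale.Agent.P292.B
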