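import Vale.Agent.P292.BR1
import Vale.Agent.P292.BCal

/-! The bundle of null cones. -/

set_option maxSynthPendingDepth 3

open scoped ContDiff Topology Matrix
open Set Filter

noncomputable section

namespace Vale.Agent.P292.B

open Vale.Agent.P219 (E)
open Vale.Agent.P219.R (Bil ip chr Good)
open Complex (I)

variable {m : ℕ} {M : Type} [TopologicalSpace M] (Q : QK m M)

/-- the base sets -/
def btop2B (j : Q.ι) : Set M := (Q.e j).source ∩ Q.e j ⁻¹' Q.U j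

variable {Q} in
theorem btop2_W {i j : Q.ι} {x : M} (hi : x ∈ btop2B Q i) (hj : x ∈ btop2B Q j) :
    Q.e j x ∈ W Q i j ∧ tr Q i j (Q.e j x) = Q.e i x := mem_W Q hi.1 hj.1 hi.2 hj.2

open Classical in
/-- the changes of frames -/
def btop2C (hm : 1 ≤ m) (j i : Q.ι) (x : M) (z : {z : Fin 3 → ℂ // Nul z}) :
    {z : Fin 3 → ℂ // Nul z} :=
  if h : x ∈ btop2B Q j ∩ btop2B Q i then
    ⟨mv (R Q i j (Q.e j x)) z.1, ((R_rot Q hm (btop2_W h.2 h.1).1).nul_mv _).2 z.2⟩ else z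

variable {Q} in
theorem btop2C_eq (hm : 1 ≤ m) {j i : Q.ι} {x : M} (hj : x ∈ btop2B Q j) (hi : x ∈ btop2B Q i)
    (z : {z : Fin 3 → ℂ // Nul z}) : (btop2C Q hm j i x z).1 = mv (R Q i j (Q.e j x)) z.1 := by
  rw [btop2C, dif_pos ⟨hj, hi⟩]

theorem exists_core (hm : 1 ≤ m) : ∃ Z : FiberBundleCore Q.ι M {z : Fin 3 → ℂ // Nul z},
    (∀ j, Z.baseSet j = (Q.e j).source ∩ Q.e j ⁻¹' Q.U j) ∧
      ∀ i j, ∀ x ∈ Z.baseSet i ∩ Z.baseSet j, ∀ z,
        (Z.coordChange j i x z).1 = mv (R Q i j (Q.e j x)) z.1 := by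
  refine ⟨⟨btop2B Q, fun j => (Q.e j).isOpen_inter_preimage (Q.good j).isOpen,
    fun x => (Q.cover x).choose, fun x => (Q.cover x).choose_spec, btop2C Q hm,
    fun i x hx v => Subtype.ext ?_, fun j i => ?_, fun i j k x hx v => Subtype.ext ?_⟩,
    fun _ => rfl, fun i j x hx z => btop2C_eq hm hx.2 hx.1 z⟩
  · rw [btop2C_eq hm hx hx, R_self Q hm hx.2]
  · refine Topology.IsInducing.subtypeVal.continuousOn_iff.2 ?_
    have h1 : ContinuousOn (fun p : M × {z : Fin 3 → ℂ // Nul z} => R Q i j (Q.e j p.1))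
        ((btop2B Q j ∩ btop2B Q i) ×ˢ univ) :=
      (R_smooth Q hm i j).continuousOn.comp
        ((Q.e j).continuousOn.comp continuousOn_fst fun p hp => hp.1.1.1)
        fun p hp => (btop2_W hp.1.2 hp.1.1).1
    exact (contDiff_mv.continuous.comp_continuousOn (h1.prodMk
      (continuous_subtype_val.comp continuous_snd).continuousOn)).congr
      fun p hp => btop2C_eq hm hp.1.1 hp.1.2 p.2
  · have h1 := btop2_W hx.1.2 hx.1.1
    rw [btop2C_eq hm hx.1.2 hx.2, btop2C_eq hm hx.1.1 hx.1.2, btop2C_eq hm hx.1.1 hx.2, ← h1.2,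
      R_comp Q hm h1.1 (h1.2 ▸ (btop2_W hx.2 hx.1.2).1)]

end Vale.Agent.P292.B
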