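import Vale.Agent.P292.BTop1
import Vale.Agent.P292.BTop2

/-! The charts of the bundle of null cones. -/

set_option maxSynthPendingDepth 3

open scoped ContDiff Topology Matrix
open Set Filter

noncomputable section

namespace Vale.Agent.P292.B

open Vale.Agent.P219 (E)
open Vale.Agent.P219.R (Bil ip chr Good)
open Complex (I)

variable {m : ℕ} {M : Type} [TopologicalSpace M] (Q : QK m M)

/-- a null vector as an element of the null cone -/
def btop3_n (z : Fin 3 → ℂ) : {z : Fin 3 → ℂ // Nul z} := by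
  classical exact if h : Nul z then ⟨z, h⟩ else ⟨zw 0, nul_zw 0⟩

theorem btop3_n_val {z : Fin 3 → ℂ} (h : Nul z) : (btop3_n z).1 = z := by
  simp [btop3_n, h]

theorem btop3_n_eq (z : {z : Fin 3 → ℂ // Nul z}) : btop3_n z.1 = z :=
  Subtype.ext (btop3_n_val z.2)

variable {Q} (Z : FiberBundleCore Q.ι M {z : Fin 3 → ℂ // Nul z})

/-- the point with given coordinates -/
def btop3_pt (j : Q.ι) (y : E (4 * m)) (z : Fin 3 → ℂ) : Z.TotalSpace :=
  ⟨(Q.e j).symm y, Z.coordChange j (Z.indexAt ((Q.e j).symm y)) ((Q.e j).symm y) (btop3_n z)⟩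

theorem btop3_pt_of {j : Q.ι} {y : E (4 * m)} {x : M} (h : (Q.e j).symm y = x) (z : Fin 3 → ℂ) :
    btop3_pt Z j y z = ⟨x, Z.coordChange j (Z.indexAt x) x (btop3_n z)⟩ := by
  subst h
  rfl

/-- the charts -/
def btop3_ch (σ : OpenPartialHomeomorph {z : Fin 3 → ℂ // Nul z} (ℂ × ℂ)) (j : Q.ι) :
    OpenPartialHomeomorph Z.TotalSpace ((E (4 * m) × ℂ) × ℂ) :=
  (Z.localTriv j).toOpenPartialHomeomorph.trans (((Q.e j).prod σ).trans
    (Homeomorph.prodAssoc (E (4 * m)) ℂ ℂ).symm.toOpenPartialHomeomorph)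

variable (σ : OpenPartialHomeomorph {z : Fin 3 → ℂ // Nul z} (ℂ × ℂ))

theorem btop3_src (j : Q.ι) (c : Z.TotalSpace) : c ∈ (btop3_ch Z σ j).source ↔
    c.1 ∈ Z.baseSet j ∧ c.1 ∈ (Q.e j).source ∧
      Z.coordChange (Z.indexAt c.1) j c.1 c.2 ∈ σ.source := by
  simp only [btop3_ch, OpenPartialHomeomorph.trans_source, mem_inter_iff, mem_preimage,
    OpenPartialHomeomorph.prod_source, mem_prod, Homeomorph.toOpenPartialHomeomorph_source,
    mem_univ, and_true]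
  rfl

theorem btop3_app (j : Q.ι) (c : Z.TotalSpace) : btop3_ch Z σ j c =
    ((Q.e j c.1, (σ (Z.coordChange (Z.indexAt c.1) j c.1 c.2)).1),
      (σ (Z.coordChange (Z.indexAt c.1) j c.1 c.2)).2) := rfl

theorem btop3_symm (j : Q.ι) (p : (E (4 * m) × ℂ) × ℂ) : (btop3_ch Z σ j).symm p =
    ⟨(Q.e j).symm p.1.1, Z.coordChange j (Z.indexAt ((Q.e j).symm p.1.1)) ((Q.e j).symm p.1.1)
      (σ.symm (p.1.2, p.2))⟩ := rfl

theorem btop3_tgt (j : Q.ι) (p : (E (4 * m) × ℂ) × ℂ) : p ∈ (btop3_ch Z σ j).target ↔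
    (p.1.1 ∈ (Q.e j).target ∧ (p.1.2, p.2) ∈ σ.target) ∧ (Q.e j).symm p.1.1 ∈ Z.baseSet j := by
  simp only [btop3_ch, OpenPartialHomeomorph.trans_target, mem_inter_iff, mem_preimage,
    OpenPartialHomeomorph.prod_target, mem_prod, Homeomorph.toOpenPartialHomeomorph_target,
    mem_univ, true_and]
  exact and_congr Iff.rfl ⟨fun h => h.1, fun h => ⟨h, mem_univ _⟩⟩

variable (Q)

theorem exists_NB [T2Space M] [CompactSpace M] (hm : 1 ≤ m) (hc : Cov Q) :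
    ∃ (C : Type) (_ : TopologicalSpace C) (_ : T2Space C), Nonempty (NB Q C) := by
  obtain ⟨Z, hb, hZ⟩ := exists_core Q hm
  obtain ⟨σ, hs, ht, hσ, hσ'⟩ := exists_sigma
  have hbj : ∀ j, ∀ y ∈ Q.U j, (Q.e j).symm y ∈ Z.baseSet j := fun j y hy => by
    rw [hb]
    exact ⟨(Q.e j).map_target (Q.sub j hy), by
      rw [mem_preimage, (Q.e j).right_inv (Q.sub j hy)]; exact hy⟩
  have hW : ∀ i j, ∀ y ∈ Q.U j, ((Q.e j).symm y ∈ Z.baseSet i ↔ y ∈ W Q i j) := fun i j y hy => by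
    rw [hb]
    exact ⟨fun h => ⟨hy, h.1, h.2⟩, fun h => ⟨h.2.1, h.2.2⟩⟩
  have hco : ∀ i j, ∀ y ∈ Q.U j, (Q.e j).symm y ∈ Z.baseSet i → ∀ z, Nul z →
      (Z.coordChange j i ((Q.e j).symm y) (btop3_n z)).1 = mv (R Q i j y) z :=
    fun i j y hy hi z hz => by
      rw [hZ i j _ ⟨hi, hbj j y hy⟩, (Q.e j).right_inv (Q.sub j hy), btop3_n_val hz]
  have hcc : ∀ i j, ∀ y ∈ Q.U j, (Q.e j).symm y ∈ Z.baseSet i → ∀ z, Nul z →
      (Z.coordChange (Z.indexAt (btop3_pt Z j y z).1) i (btop3_pt Z j y z).1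
        (btop3_pt Z j y z).2).1 = mv (R Q i j y) z := fun i j y hy hi z hz => by
    rw [← hco i j y hy hi z hz]
    exact congrArg Subtype.val (Z.coordChange_comp j _ i _
      ⟨⟨hbj j y hy, Z.mem_baseSet_at _⟩, hi⟩ _)
  have hmem : ∀ i j, ∀ y ∈ Q.U j, ∀ z, Nul z → (btop3_pt Z j y z ∈ (btop3_ch Z σ i).source ↔
      y ∈ W Q i j ∧ lc (mv (R Q i j y) z) ≠ 0) := fun i j y hy z hz => by
    rw [btop3_src, hs]
    refine ⟨fun h => ⟨(hW i j y hy).1 h.1, ?_⟩, fun h => ?_⟩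
    · rw [← hcc i j y hy h.1 z hz]
      exact h.2.2
    · have h1 := (hW i j y hy).2 h.1
      refine ⟨h1, h.1.2.1, ?_⟩
      rw [mem_ofPred_eq, hcc i j y hy h1 z hz]
      exact h.2
  have hnrm : ∀ i j, ∀ x ∈ Z.baseSet i ∩ Z.baseSet j, ∀ v,
      nrm (Z.coordChange i j x v).1 = nrm v.1 := fun i j x hx v => by
    rw [hZ j i x ⟨hx.2, hx.1⟩]
    have h1 := hx.1
    have h2 := hx.2
    rw [hb] at h1 h2
    exact (R_rot Q hm (mem_W Q h2.1 h1.1 h2.2 h1.2).1).nrm_mv _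
  refine ⟨Z.TotalSpace, inferInstance, core_t2 Z, ⟨{
    pt := btop3_pt Z
    τ := btop3_ch Z σ
    act := fun l c => ⟨c.1, btop3_n (l • (show {z : Fin 3 → ℂ // Nul z} from c.2).1)⟩
    r := fun c => nrm (show {z : Fin 3 → ℂ // Nul z} from c.2).1
    target := fun j => ?_
    symm := fun j p hp => ?_
    mem := hmem
    eq := fun i j y hy z hz hl => ?_
    cover := fun c => ?_
    act_pt := fun j y hy z hz l hl => ?_
    r_pt := fun j y hy z hz => ?_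
    compact := core_compact Z (fun v => nrm v.1) hnrm compact_sphere }⟩⟩
  · ext p
    rw [btop3_tgt, ht, hb]
    refine ⟨fun h => ⟨⟨?_, mem_univ _⟩, h.1.2.2⟩, fun h => ⟨⟨Q.sub j h.1.1, mem_univ _, h.2⟩, ?_⟩⟩
    · have := h.2.2
      rwa [mem_preimage, (Q.e j).right_inv h.1.1] at this
    · rw [← hb]
      exact hbj j _ h.1.1
  · have : σ.symm (p.1.2, p.2) = btop3_n (Zm p) := Subtype.ext (by
      rw [hσ' _ (by rw [ht]; exact ⟨mem_univ _, hp.2⟩), btop3_n_val (nul_Zm hp.2)]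
      rfl)
    rw [btop3_symm, this]
    rfl
  · rw [btop3_app, hσ, hcc i j y hy.1 ((hW i j y hy.1).2 hy) z hz]
    rfl
  · obtain ⟨x, z⟩ := c
    have hx := Z.mem_baseSet_at x
    have hx' := hx
    rw [hb] at hx'
    obtain ⟨i, hi⟩ := R_cov Q hm hc hx'.2 (show {z : Fin 3 → ℂ // Nul z} from z).2
    refine ⟨i, ?_⟩
    have h := (hmem i _ _ hx'.2 _ (show {z : Fin 3 → ℂ // Nul z} from z).2).2 hi
    rwa [btop3_pt_of Z ((Q.e _).left_inv hx'.1), btop3_n_eq, Z.coordChange_self _ _ hx] at h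
  · have h0 := Z.mem_baseSet_at ((Q.e j).symm y)
    simp only [btop3_pt]
    congr 1
    apply Subtype.ext
    rw [hco _ j y hy h0 z hz, hco _ j y hy h0 _ (nul_smul hz hl), mv_smul, btop3_n_val]
    exact nul_smul (((R_rot Q hm ((hW _ j y hy).1 h0)).nul_mv z).2 hz) hl
  · exact (hnrm j _ _ ⟨hbj j y hy, Z.mem_baseSet_at _⟩ _).trans (by rw [btop3_n_val hz])

end Vale.Agent.P292.B
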