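import Vale.Agent.P292.BCone
import Vale.Agent.P292.BT

/-! The parametrization of the embedded cone by spinors. -/

set_option maxSynthPendingDepth 3

open scoped ContDiff Topology Matrix
open Set Filter

noncomputable section

namespace Vale.Agent.P292.B

open Vale.Agent.P219 (E)
open Vale.Agent.P219.R (Bil ip chr Good)
open Complex (I)

variable {m : ℕ} {M : Type} [TopologicalSpace M] (Q : QK m M)

variable {Q} {C : Type} [TopologicalSpace C]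

theorem BTw_symm (N : NB Q C) {i j : Q.ι} {x : E (4 * m)} {h : ℂ × ℂ} (hx : x ∈ W Q i j)
    (hh : h ≠ 0) (hl : lc (mv (R Q i j x) (zv h)) ≠ 0) :
    (N.τ i).symm (Tv Q i j (x, h)) = N.pt j x (zv h) := by
  have h1 := (N.mem i j x hx.1 _ (nul_zv hh)).2 ⟨hx, hl⟩
  have h2 : N.τ i (N.pt j x (zv h)) = Tv Q i j (x, h) := N.eq i j x hx _ (nul_zv hh) hl
  rw [← h2, (N.τ i).left_inv h1]

theorem BTw_ev (N : NB Q C) (hm : 1 ≤ m) {i j : Q.ι} {x : E (4 * m)} {h : ℂ × ℂ}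
    (hx : x ∈ W Q i j) (hh : h ≠ 0) (hl : lc (mv (R Q i j x) (zv h)) ≠ 0) :
    (fun q : E (4 * m) × ℂ × ℂ => N.pt j q.1 (zv q.2)) =ᶠ[𝓝 (x, h)] (N.τ i).symm ∘ Tv Q i j := by
  have h1 : Continuous fun q : E (4 * m) × ℂ × ℂ => (q.1, zv q.2) :=
    continuous_fst.prodMk (contDiff_zv.continuous.comp continuous_snd)
  have h2 := ((Tm_open Q hm i j).preimage h1).mem_nhds (x := (x, h)) ⟨hx, hl⟩
  have h3 : {q : E (4 * m) × ℂ × ℂ | q.2 ≠ 0} ∈ 𝓝 (x, h) :=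
    (isOpen_ne.preimage continuous_snd).mem_nhds hh
  filter_upwards [h2, h3] with q hq hq'
  exact (BTw_symm N hq.1 hq' hq.2).symm

theorem BTw_sm (N : NB Q C) (hm : 1 ≤ m) {κ : Type} [Fintype κ] (ε : (N.cone hm).Emb κ) {i : Q.ι}
    {p : (E (4 * m) × ℂ) × ℂ} (hp : p ∈ (N.τ i).target) :
    ContDiffAt ℝ ∞ (ε.Φ ∘ (N.τ i).symm) p :=
  contDiffAt_pi.2 fun k => (ε.sm k i).contDiffAt ((N.τ i).open_target.mem_nhds hp)

theorem BTw_hol (N : NB Q C) (hm : 1 ≤ m) {κ : Type} [Fintype κ] (ε : (N.cone hm).Emb κ) {i : Q.ι}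
    {p : (E (4 * m) × ℂ) × ℂ} (hp : p ∈ (N.τ i).target) (u : (E (4 * m) × ℂ) × ℂ) :
    fderiv ℝ (ε.Φ ∘ (N.τ i).symm) p (Jm Q i p u) = I • fderiv ℝ (ε.Φ ∘ (N.τ i).symm) p u := by
  have h1 : ∀ k v, fderiv ℝ (ε.Φ ∘ (N.τ i).symm) p v k =
      fderiv ℝ ((fun c => ε.Φ c k) ∘ (N.τ i).symm) p v := fun k v =>
    (DFunLike.congr_fun (fderiv_apply ((BTw_sm N hm ε hp).differentiableAt (by simp)) k) v).symm
  ext k
  have h2 : fderiv ℝ ((fun c => ε.Φ c k) ∘ (N.τ i).symm) p u +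
      I * fderiv ℝ ((fun c => ε.Φ c k) ∘ (N.τ i).symm) p (Jm Q i p u) = 0 :=
    DFunLike.congr_fun (ε.hol k i p hp) u
  rw [Pi.smul_apply, h1, h1, smul_eq_mul]
  linear_combination (-I) * h2 +
    fderiv ℝ ((fun c => ε.Φ c k) ∘ (N.τ i).symm) p (Jm Q i p u) * Complex.I_mul_I

theorem BTw_loc (N : NB Q C) (hm : 1 ≤ m) (hc : Cov Q) {κ : Type} [Fintype κ]
    (ε : (N.cone hm).Emb κ) {j : Q.ι} {x : E (4 * m)} {h : ℂ × ℂ} (hx : x ∈ Q.U j) (hh : h ≠ 0) :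
    ∃ i, x ∈ W Q i j ∧ lc (mv (R Q i j x) (zv h)) ≠ 0 ∧ Tv Q i j (x, h) ∈ (N.τ i).target ∧
      (N.τ i).symm (Tv Q i j (x, h)) = N.pt j x (zv h) ∧
      (fun q : E (4 * m) × ℂ × ℂ => ε.Φ (N.pt j q.1 (zv q.2))) =ᶠ[𝓝 (x, h)]
        (ε.Φ ∘ (N.τ i).symm) ∘ Tv Q i j ∧
      ∀ v, fderiv ℝ (fun q : E (4 * m) × ℂ × ℂ => ε.Φ (N.pt j q.1 (zv q.2))) (x, h) v =
        fderiv ℝ (ε.Φ ∘ (N.τ i).symm) (Tv Q i j (x, h)) (fderiv ℝ (Tv Q i j) (x, h) v) := by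
  obtain ⟨i, hW, hl⟩ := R_cov Q hm hc hx (nul_zv hh)
  have h1 : Tv Q i j (x, h) ∈ (N.τ i).target := (N.target i).symm ▸ Tm_mem Q hW hl
  have h2 : (fun q : E (4 * m) × ℂ × ℂ => ε.Φ (N.pt j q.1 (zv q.2))) =ᶠ[𝓝 (x, h)]
      (ε.Φ ∘ (N.τ i).symm) ∘ Tv Q i j := (BTw_ev N hm hW hh hl).fun_comp ε.Φ
  refine ⟨i, hW, hl, h1, BTw_symm N hW hh hl, h2, fun v => ?_⟩
  rw [h2.fderiv_eq, fderiv_comp _ ((BTw_sm N hm ε h1).differentiableAt (by simp))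
    ((Tv_smooth Q hm hW hh hl).differentiableAt (by simp))]
  rfl

theorem NB.tw (N : NB Q C) (hm : 1 ≤ m) (hc : Cov Q) {κ : Type} [Fintype κ]
    (ε : (N.cone hm).Emb κ) (P : Pre κ) (L : Lnk ε P) : Nonempty (Tw Q P) := by
  refine ⟨⟨fun j q => ε.Φ (N.pt j q.1 (zv q.2)), fun j => ?_, fun j p _ => ?_,
    fun j x hx h hh l hl => ?_, fun j => ?_, fun j => ?_, fun j x hx h hh Y => ?_,
    fun j x hx h hh X e => ?_, fun j => ?_⟩⟩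
  · rintro ⟨x, h⟩ ⟨hx, hh⟩
    obtain ⟨i, hW, hl, h1, -, h2, -⟩ := BTw_loc N hm hc ε hx hh
    exact (((BTw_sm N hm ε h1).comp _ (Tv_smooth Q hm hW hh hl)).congr_of_eventuallyEq
      h2).contDiffWithinAt
  · rw [L.C]
    exact mem_range_self _
  · ext k
    have h1 := ε.hom k (l ^ 2) (N.pt j x (zv h)) (pow_ne_zero 2 hl)
    have h2 : (N.cone hm).act (l ^ 2) (N.pt j x (zv h)) = N.pt j x (zv (l • h)) := by
      rw [zv_smul]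
      exact N.act_pt j x hx _ (nul_zv hh) _ (pow_ne_zero 2 hl)
    rw [h2] at h1
    rw [L.w]
    exact h1
  · rintro ⟨x, h⟩ ⟨hx, hh⟩ u
    obtain ⟨i, hW, hl, h1, h2, -, h3⟩ := BTw_loc N hm hc ε hx hh
    have h4 : u ∈ P.T (ε.Φ ((N.τ i).symm (Tv Q i j (x, h)))) ↔
        ∃ v, fderiv ℝ (ε.Φ ∘ (N.τ i).symm) (Tv Q i j (x, h)) v = u := L.T i _ h1 u
    rw [h2] at h4
    refine h4.trans ⟨fun ⟨v, hv⟩ => ?_, fun ⟨v, hv⟩ => ⟨_, (h3 v).symm.trans hv⟩⟩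
    obtain ⟨w, rfl⟩ := Tv_surj Q hm hW hh hl v
    exact ⟨w, (h3 w).trans hv⟩
  · rintro ⟨x, h⟩ ⟨hx, hh⟩ e
    obtain ⟨i, hW, hl, h1, -, -, h3⟩ := BTw_loc N hm hc ε hx hh
    rw [h3, h3, Tv_vert Q hm hW hh hl, BTw_hol N hm ε h1]
  · obtain ⟨i, hW, hl, h1, -, -, h3⟩ := BTw_loc N hm hc ε hx hh
    simp only [h3]
    exact Tv_hor_sum Q hm hW hh hl _ (BTw_hol N hm ε h1) Y
  · obtain ⟨i, hW, hl, h1, h2, -, h3⟩ := BTw_loc N hm hc ε hx hh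
    have h4 : P.θ (ε.Φ ((N.τ i).symm (Tv Q i j (x, h))))
        (fderiv ℝ (ε.Φ ∘ (N.τ i).symm) (Tv Q i j (x, h)) (fderiv ℝ (Tv Q i j) (x, h) (X, e))) =
        thC (th Q i) (Tv Q i j (x, h)) (fderiv ℝ (Tv Q i j) (x, h) (X, e)) := L.θ i _ h1 _
    rw [h2, Tv_th Q hm hW hh hl] at h4
    rw [h3]
    exact h4
  · rintro ⟨x, h⟩ ⟨hx, hh⟩ S hS
    obtain ⟨i, hW, hl, h1, h2, h3, -⟩ := BTw_loc N hm hc ε hx hh
    have h4 := image_mem_map (m := fun q : E (4 * m) × ℂ × ℂ => ε.Φ (N.pt j q.1 (zv q.2))) hS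
    rw [map_congr h3, ← map_map, ← map_map, Tv_nhds Q hm hW hh hl, (N.τ i).symm.map_nhds_eq h1,
      L.ind.map_nhds_eq, h2, ← L.C] at h4
    exact h4

end Vale.Agent.P292.B
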