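import Mathlib

/-! Abstract setting for the elliptic estimates: a family of pre-Hilbert spaces `H k`, first order
operators `X a` and an algebra `M` of multipliers; all constants are uniform in `k`. -/

open scoped InnerProductSpace Topology
open Filter

noncomputable section

namespace Vale.Agent.P292

/-- families of operators -/
abbrev Ops (H : ℕ → Type) [∀ k, NormedAddCommGroup (H k)] [∀ k, InnerProductSpace ℂ (H k)] :
    Type := ∀ k, Module.End ℂ (H k)

section Defs

variable {H : ℕ → Type} [∀ k, NormedAddCommGroup (H k)] [∀ k, InnerProductSpace ℂ (H k)]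
  {ι : Type}

/-- the product of the generators along a word -/
def word (X : ι → Ops H) (I : List ι) : Ops H := (I.map X).prod

variable (H ι) in
/-- first order operators `X a` and multipliers `M` -/
structure Sys [Fintype ι] where
  X : ι → Ops H
  M : Subalgebra ℂ (Ops H)
  leib : ∀ a, ∀ f ∈ M, X a * f - f * X a ∈ M
  br : ∀ a b, ∃ c : ι → Ops H, (∀ e, c e ∈ M) ∧ X a * X b - X b * X a = ∑ e, c e * X e
  adjM : ∀ f ∈ M, ∃ g ∈ M, ∀ k (u v : H k), ⟪f k u, v⟫_ℂ = ⟪u, g k v⟫_ℂ
  adjX : ∀ a, ∃ d ∈ M, ∀ k (u v : H k), ⟪X a k u, v⟫_ℂ = -⟪u, X a k v⟫_ℂ - ⟪u, d k v⟫_ℂ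
  bdd : ∀ f ∈ M, ∃ C : ℝ, ∀ k (u : H k), ‖f k u‖ ≤ C * ‖u‖
  flow : ∀ a k, ∃ U : ℝ → Module.End ℂ (H k), U 0 = 1 ∧ ∀ (u : H k) (I : List ι) (t : ℝ),
    HasDerivAt (fun s => word X I k (U s u)) (word X I k (X a k (U t u))) t
  complete : ∀ k (u : ℕ → H k), (∀ I, CauchySeq fun n => word X I k (u n)) →
    ∃ v : H k, ∀ I, Tendsto (fun n => word X I k (u n)) atTop (𝓝 (word X I k v))

variable [Fintype ι]

/-- the Sobolev inner products -/
def sip (X : ι → Ops H) (k : ℕ) : ℕ → H k → H k → ℂ
  | 0, u, v => ⟪u, v⟫_ℂ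
  | j + 1, u, v => ⟪u, v⟫_ℂ + ∑ a, sip X k j (X a k u) (X a k v)

theorem sip_conj (X : ι → Ops H) (k j : ℕ) (u v : H k) :
    (starRingEnd ℂ) (sip X k j v u) = sip X k j u v := by
  induction j generalizing u v with
  | zero => exact inner_conj_symm u v
  | succ j ih => simp only [sip, map_add, map_sum, inner_conj_symm, ih]

theorem sip_add_left (X : ι → Ops H) (k j : ℕ) (u v w : H k) :
    sip X k j (u + v) w = sip X k j u w + sip X k j v w := by
  induction j generalizing u v w with
  | zero => exact inner_add_left u v w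
  | succ j ih =>
    simp only [sip, map_add, inner_add_left, ih, Finset.sum_add_distrib]
    ring

theorem sip_smul_left (X : ι → Ops H) (k j : ℕ) (c : ℂ) (u v : H k) :
    sip X k j (c • u) v = (starRingEnd ℂ) c * sip X k j u v := by
  induction j generalizing u v with
  | zero => exact inner_smul_left u v c
  | succ j ih => simp only [sip, map_smul, inner_smul_left, ih, mul_add, Finset.mul_sum]

theorem sip_nonneg (X : ι → Ops H) (k j : ℕ) (u : H k) : 0 ≤ (sip X k j u u).re := by
  induction j generalizing u with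
  | zero => exact inner_self_nonneg (𝕜 := ℂ)
  | succ j ih =>
    simp only [sip, Complex.add_re, Complex.re_sum]
    exact add_nonneg (inner_self_nonneg (𝕜 := ℂ)) (Finset.sum_nonneg fun a _ => ih _)

/-- the Sobolev inner product as a core structure -/
@[reducible] def sipCore (X : ι → Ops H) (k j : ℕ) : PreInnerProductSpace.Core ℂ (H k) where
  inner := sip X k j
  conj_inner_symm := sip_conj X k j
  re_inner_nonneg := sip_nonneg X k j
  add_left := sip_add_left X k j
  smul_left := fun u v c => sip_smul_left X k j c u v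

theorem sip_cs (X : ι → Ops H) (k j : ℕ) (u v : H k) :
    ‖sip X k j u v‖ ≤ √(sip X k j u u).re * √(sip X k j v v).re :=
  @InnerProductSpace.Core.norm_inner_le_norm ℂ (H k) _ _ _ (sipCore X k j) u v

theorem sip_add_right (X : ι → Ops H) (k j : ℕ) (u v w : H k) :
    sip X k j u (v + w) = sip X k j u v + sip X k j u w := by
  rw [← sip_conj, sip_add_left, map_add, sip_conj, sip_conj]

theorem sip_smul_right (X : ι → Ops H) (k j : ℕ) (c : ℂ) (u v : H k) :
    sip X k j u (c • v) = c * sip X k j u v := by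
  rw [← sip_conj, sip_smul_left, map_mul, sip_conj, Complex.conj_conj]

/-- the Sobolev norms -/
def snrm (X : ι → Ops H) (k j : ℕ) : Seminorm ℂ (H k) :=
  Seminorm.of (fun u => √(sip X k j u u).re)
    (fun u v => by
      have h1 := sip_cs X k j u v
      have h2 := sip_cs X k j v u
      have h3 := Complex.re_le_norm (sip X k j u v)
      have h4 := Complex.re_le_norm (sip X k j v u)
      have h5 := Real.sq_sqrt (sip_nonneg X k j u)
      have h6 := Real.sq_sqrt (sip_nonneg X k j v)
      refine Real.sqrt_le_iff.2 ⟨by positivity, ?_⟩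
      simp only [sip_add_left, sip_add_right, Complex.add_re]
      nlinarith)
    (fun c u => by
      rw [sip_smul_left, sip_smul_right, ← mul_assoc, Complex.conj_mul', ← Complex.ofReal_pow,
        Complex.re_ofReal_mul, Real.sqrt_mul (sq_nonneg _), Real.sqrt_sq (norm_nonneg _)])

namespace Sys

variable (S : Sys H ι)

/-- the Sobolev inner products of the system -/
abbrev ip (k j : ℕ) (u v : H k) : ℂ := sip S.X k j u v

/-- the Sobolev norms of the system -/
abbrev N (k j : ℕ) : Seminorm ℂ (H k) := snrm S.X k j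

/-- operators of order at most `j` -/
def Op (j : ℕ) : Submodule ℂ (Ops H) :=
  Submodule.span ℂ {P | ∃ f ∈ S.M, ∃ I : List ι, I.length ≤ j ∧ P = f * word S.X I}

/-- the sum of the squares -/
def lap : Ops H := ∑ a, S.X a * S.X a

/-- second order operators with the leading part `-lap` -/
def Ell (P : Ops H) : Prop := P + S.lap ∈ S.Op 1

/-- sums of forms `⟪P u, Q v⟫` with `P, Q` of order at most `j` -/
inductive Form (j : ℕ) : (∀ k, H k → H k → ℂ) → Prop
  | base (P Q : Ops H) : P ∈ S.Op j → Q ∈ S.Op j → Form j fun k u v => ⟪P k u, Q k v⟫_ℂ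
  | add (b c : ∀ k, H k → H k → ℂ) : Form j b → Form j c → Form j fun k u v => b k u v + c k u v

theorem N_sq (k j : ℕ) (u : H k) : S.N k j u ^ 2 = (S.ip k j u u).re :=
  Real.sq_sqrt (sip_nonneg S.X k j u)

theorem N_zero (k : ℕ) (u : H k) : S.N k 0 u = ‖u‖ :=
  (norm_eq_sqrt_re_inner (𝕜 := ℂ) u).symm

theorem N_succ_sq (k j : ℕ) (u : H k) :
    S.N k (j + 1) u ^ 2 = ‖u‖ ^ 2 + ∑ a, S.N k j (S.X a k u) ^ 2 := by
  simp only [N_sq, ip, sip, Complex.add_re, Complex.re_sum]
  rw [← inner_self_eq_norm_sq (𝕜 := ℂ)]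
  rfl

theorem ip_le (k j : ℕ) (u v : H k) : ‖S.ip k j u v‖ ≤ S.N k j u * S.N k j v :=
  sip_cs S.X k j u v

end Sys

/-- the range of `P` is dense for the seminorm `p` -/
def DenseR {E : Type} [AddCommGroup E] [Module ℂ E] (p : Seminorm ℂ E) (P : Module.End ℂ E) :
    Prop := ∀ f : E, ∀ ε : ℝ, 0 < ε → ∃ u, p (P u - f) ≤ ε

end Defs

section Kohn

variable {H : ℕ → Type} [∀ k, NormedAddCommGroup (H k)] [∀ k, InnerProductSpace ℂ (H k)]
  {κ : Type} [Fintype κ]

/-- `X + i J X` -/
def opL (X : Option (κ × Bool) → Ops H) (a : κ) : Ops H :=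
  X (some (a, false)) + Complex.I • X (some (a, true))

/-- `X - i J X` -/
def opLb (X : Option (κ × Bool) → Ops H) (a : κ) : Ops H :=
  X (some (a, false)) - Complex.I • X (some (a, true))

variable (H κ) in
/-- a system with a vertical generator, an integrable complex structure and a positive Levi form -/
structure KSys extends Sys H (Option (κ × Bool)) where
  vert : ∀ k (u : H k), X none k u = (Complex.I * k) • u
  nij : ∀ a b, ∃ c : κ → Ops H, (∀ e, c e ∈ M) ∧
    opL X a * opL X b - opL X b * opL X a = ∑ e, c e * opL X e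
  levi : ∃ (θ : κ → κ → Ops H) (c₀ : ℝ), 0 < c₀ ∧
    (∀ a b, θ a b ∈ M ∧ ∃ c c' : κ → Ops H, (∀ e, c e ∈ M) ∧ (∀ e, c' e ∈ M) ∧
      opLb X a * opL X b - opL X b * opLb X a =
        θ a b * X none + ∑ e, c e * opL X e + ∑ e, c' e * opLb X e) ∧
    ∀ k (u : H k), c₀ * ∑ a, ‖opL X a k u‖ ^ 2 ≤
      (∑ a, ∑ b, ⟪θ a b k (Complex.I • opL X a k u), opL X b k u⟫_ℂ).re

namespace KSys

variable (S : KSys H κ)

/-- the divergence of a generator -/
def dv (a : Option (κ × Bool)) : Ops H := Classical.choose (S.adjX a)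

/-- the adjoint of `opL` -/
def Ls (a : κ) : Ops H :=
  -opLb S.X a - (S.dv (some (a, false)) - Complex.I • S.dv (some (a, true)))

/-- the Kohn Laplacian -/
def box : Ops H := ∑ a, S.Ls a * opL S.X a

/-- the elliptic operator; on `H k` it is `box + (k ^ 2 + 1)` -/
def boxp : Ops H := S.box - S.X none * S.X none + 1

/-- the quadratic form of `box` -/
def qf (k : ℕ) (u : H k) : ℝ := ∑ a, ‖opL S.X a k u‖ ^ 2

end KSys

end Kohn

end Vale.Agent.P292
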