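import Vale.Agent.P292.CA0

/-! The filtered algebra of differential operators and the Sobolev norms. -/

open scoped InnerProductSpace Topology
open Filter

noncomputable section

namespace Vale.Agent.P292

variable {H : ℕ → Type} [∀ k, NormedAddCommGroup (H k)] [∀ k, InnerProductSpace ℂ (H k)]
  {ι : Type} [Fintype ι]

namespace Sys

variable (S : Sys H ι)


omit [Fintype ι] in
theorem ca1_nil (X : ι → Ops H) : word X [] = 1 := rfl

omit [Fintype ι] in
theorem ca1_cons (X : ι → Ops H) (a : ι) (I : List ι) : word X (a :: I) = X a * word X I := by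
  simp [word]

omit [Fintype ι] in
theorem ca1_snoc (X : ι → Ops H) (a : ι) (I : List ι) : word X (I ++ [a]) = word X I * X a := by
  simp [word]

theorem ca1_base {f : Ops H} (hf : f ∈ S.M) {I : List ι} {j : ℕ} (hI : I.length ≤ j) :
    f * word S.X I ∈ S.Op j := Submodule.subset_span ⟨f, hf, I, hI, rfl⟩

theorem Op_mono {i j : ℕ} (h : i ≤ j) : S.Op i ≤ S.Op j := by
  refine Submodule.span_mono ?_
  rintro P ⟨f, hf, I, hI, rfl⟩
  exact ⟨f, hf, I, hI.trans h, rfl⟩

theorem M_mem {f : Ops H} (hf : f ∈ S.M) (j : ℕ) : f ∈ S.Op j := by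
  have := S.ca1_base hf (I := []) (Nat.zero_le j)
  rwa [ca1_nil, mul_one] at this

theorem one_mem (j : ℕ) : (1 : Ops H) ∈ S.Op j := by
  exact S.M_mem S.M.one_mem j

theorem word_mem (I : List ι) : word S.X I ∈ S.Op I.length := by
  have := S.ca1_base S.M.one_mem (I := I) le_rfl
  rwa [one_mul] at this

theorem X_mem (a : ι) : S.X a ∈ S.Op 1 := by
  have := S.word_mem [a]
  rwa [ca1_cons, ca1_nil, mul_one] at this

theorem ca1_M_mul {j : ℕ} {f P : Ops H} (hf : f ∈ S.M) (hP : P ∈ S.Op j) : f * P ∈ S.Op j := by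
  induction hP using Submodule.span_induction with
  | mem x hx =>
    obtain ⟨g, hg, I, hI, rfl⟩ := hx
    rw [← mul_assoc]
    exact S.ca1_base (S.M.mul_mem hf hg) hI
  | zero => rw [mul_zero]; exact Submodule.zero_mem _
  | add x y _ _ hx hy => rw [mul_add]; exact Submodule.add_mem _ hx hy
  | smul c x _ hx => rw [mul_smul_comm]; exact Submodule.smul_mem _ c hx

theorem ca1_X_mul {j : ℕ} {P : Ops H} (a : ι) (hP : P ∈ S.Op j) :
    S.X a * P ∈ S.Op (j + 1) := by
  induction hP using Submodule.span_induction with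
  | mem x hx =>
    obtain ⟨g, hg, I, hI, rfl⟩ := hx
    have e : S.X a * (g * word S.X I) =
        (S.X a * g - g * S.X a) * word S.X I + g * word S.X (a :: I) := by
      rw [ca1_cons]; noncomm_ring
    rw [e]
    exact Submodule.add_mem _ (S.ca1_base (S.leib a g hg) (by omega))
      (S.ca1_base hg (by simpa using hI))
  | zero => rw [mul_zero]; exact Submodule.zero_mem _
  | add x y _ _ hx hy => rw [mul_add]; exact Submodule.add_mem _ hx hy
  | smul c x _ hx => rw [mul_smul_comm]; exact Submodule.smul_mem _ c hx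

theorem ca1_word_mul {j : ℕ} {P : Ops H} (I : List ι) (hP : P ∈ S.Op j) :
    word S.X I * P ∈ S.Op (j + I.length) := by
  induction I with
  | nil => rwa [ca1_nil, one_mul]
  | cons a I ih =>
    rw [ca1_cons, mul_assoc]
    exact S.ca1_X_mul a ih

/-- First `X a * P ∈ Op (j + 1)` for `P ∈ Op j` (use `leib`), then induction on the word. -/
theorem Op_mul {i j : ℕ} {P Q : Ops H} (hP : P ∈ S.Op i) (hQ : Q ∈ S.Op j) :
    P * Q ∈ S.Op (i + j) := by
  induction hP using Submodule.span_induction with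
  | mem x hx =>
    obtain ⟨f, hf, I, hI, rfl⟩ := hx
    rw [mul_assoc]
    exact S.ca1_M_mul hf (S.Op_mono (by omega) (S.ca1_word_mul I hQ))
  | zero => rw [zero_mul]; exact Submodule.zero_mem _
  | add x y _ _ hx hy => rw [add_mul]; exact Submodule.add_mem _ hx hy
  | smul c x _ hx => rw [smul_mul_assoc]; exact Submodule.smul_mem _ c hx

theorem ca1_comm_word (a : ι) (I : List ι) :
    S.X a * word S.X I - word S.X I * S.X a ∈ S.Op I.length := by
  induction I with
  | nil => rw [ca1_nil, mul_one, one_mul, sub_self]; exact Submodule.zero_mem _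
  | cons b I ih =>
    obtain ⟨c, hc, hb⟩ := S.br a b
    have e : S.X a * word S.X (b :: I) - word S.X (b :: I) * S.X a =
        (S.X a * S.X b - S.X b * S.X a) * word S.X I +
          S.X b * (S.X a * word S.X I - word S.X I * S.X a) := by
      rw [ca1_cons]; noncomm_ring
    rw [e, hb, Finset.sum_mul]
    refine Submodule.add_mem _ (Submodule.sum_mem _ fun e _ => ?_) (S.ca1_X_mul b ih)
    rw [mul_assoc, ← ca1_cons]
    exact S.ca1_base (hc e) (by simp)

/-- `[X a, f w] = [X a, f] w + f [X a, w]`, and for words induction with `br` and `Op_mul`. -/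
theorem Op_comm {j : ℕ} {P : Ops H} (hP : P ∈ S.Op j) (a : ι) :
    S.X a * P - P * S.X a ∈ S.Op j := by
  induction hP using Submodule.span_induction with
  | mem x hx =>
    obtain ⟨g, hg, I, hI, rfl⟩ := hx
    have e : S.X a * (g * word S.X I) - g * word S.X I * S.X a =
        (S.X a * g - g * S.X a) * word S.X I +
          g * (S.X a * word S.X I - word S.X I * S.X a) := by noncomm_ring
    rw [e]
    exact Submodule.add_mem _ (S.ca1_base (S.leib a g hg) hI)
      (S.ca1_M_mul hg (S.Op_mono hI (S.ca1_comm_word a I)))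
  | zero => rw [mul_zero, zero_mul, sub_zero]; exact Submodule.zero_mem _
  | add x y _ _ hx hy =>
    have e : S.X a * (x + y) - (x + y) * S.X a =
        (S.X a * x - x * S.X a) + (S.X a * y - y * S.X a) := by noncomm_ring
    rw [e]; exact Submodule.add_mem _ hx hy
  | smul c x _ hx =>
    rw [mul_smul_comm, smul_mul_assoc, ← smul_sub]; exact Submodule.smul_mem _ c hx

theorem norm_le_N (k j : ℕ) (u : H k) : ‖u‖ ≤ S.N k j u := by
  cases j with
  | zero => exact (S.N_zero k u).ge
  | succ j =>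
    refine abs_le_of_sq_le_sq' ?_ (apply_nonneg _ _) |>.2
    rw [N_succ_sq]
    exact le_add_of_nonneg_right (Finset.sum_nonneg fun a _ => sq_nonneg _)

theorem N_X_le (k j : ℕ) (a : ι) (u : H k) : S.N k j (S.X a k u) ≤ S.N k (j + 1) u := by
  refine abs_le_of_sq_le_sq' ?_ (apply_nonneg _ _) |>.2
  rw [N_succ_sq]
  exact le_add_of_nonneg_of_le (sq_nonneg _)
    (Finset.single_le_sum (f := fun a => S.N k j (S.X a k u) ^ 2) (fun a _ => sq_nonneg _)
      (Finset.mem_univ a))

theorem N_mono (k : ℕ) {i j : ℕ} (h : i ≤ j) (u : H k) : S.N k i u ≤ S.N k j u := by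
  have step : ∀ j (u : H k), S.N k j u ≤ S.N k (j + 1) u := by
    intro j
    induction j with
    | zero => intro u; rw [N_zero]; exact S.norm_le_N k _ u
    | succ j ih =>
      intro u
      refine abs_le_of_sq_le_sq' ?_ (apply_nonneg _ _) |>.2
      rw [N_succ_sq, N_succ_sq]
      exact add_le_add le_rfl (Finset.sum_le_sum fun a _ =>
        pow_le_pow_left₀ (apply_nonneg _ _) (ih _) 2)
  induction h with
  | refl => exact le_rfl
  | step _ ih => exact ih.trans (step _ u)

theorem N_word_le (k j : ℕ) (I : List ι) (u : H k) :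
    S.N k j (word S.X I k u) ≤ S.N k (j + I.length) u := by
  induction I generalizing j with
  | nil => exact le_rfl
  | cons a I ih =>
    rw [ca1_cons]
    refine (S.N_X_le k j a (word S.X I k u)).trans ((ih (j + 1)).trans (le_of_eq ?_))
    rw [List.length_cons, add_assoc, add_comm 1]

theorem ca1_succ_le (k j : ℕ) (u : H k) :
    S.N k (j + 1) u ≤ ‖u‖ + ∑ a, S.N k j (S.X a k u) := by
  have h0 : 0 ≤ ∑ a, S.N k j (S.X a k u) := Finset.sum_nonneg fun a _ => apply_nonneg _ _
  refine abs_le_of_sq_le_sq' ?_ (add_nonneg (norm_nonneg _) h0) |>.2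
  rw [N_succ_sq]
  have := Finset.sum_sq_le_sq_sum_of_nonneg (s := Finset.univ)
    (f := fun a => S.N k j (S.X a k u)) fun a _ => apply_nonneg _ _
  nlinarith [mul_nonneg (norm_nonneg u) h0]

/-- Induction on `j` for all `p, P` (`X a * P ∈ Op (p + 1)`); for `j = 0` span induction with
`bdd` and `N_word_le`. -/
theorem N_Op {p : ℕ} {P : Ops H} (hP : P ∈ S.Op p) (j : ℕ) :
    ∃ C : ℝ, 0 ≤ C ∧ ∀ k (u : H k), S.N k j (P k u) ≤ C * S.N k (j + p) u := by
  induction j generalizing p P with
  | zero =>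
    induction hP using Submodule.span_induction with
    | mem x hx =>
      obtain ⟨g, hg, I, hI, rfl⟩ := hx
      obtain ⟨C, hC⟩ := S.bdd g hg
      refine ⟨max C 0, le_max_right _ _, fun k u => ?_⟩
      rw [N_zero]
      refine (hC k (word S.X I k u)).trans ?_
      refine mul_le_mul (le_max_left _ _) ?_ (norm_nonneg _) (le_max_right _ _)
      rw [← S.N_zero k]
      exact (S.N_word_le k 0 I u).trans (S.N_mono k (by omega) u)
    | zero => exact ⟨0, le_rfl, fun k u => by simp⟩
    | add x y _ _ hx hy =>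
      obtain ⟨C, hC, h1⟩ := hx
      obtain ⟨D, hD, h2⟩ := hy
      refine ⟨C + D, add_nonneg hC hD, fun k u => ?_⟩
      rw [add_mul]
      exact (map_add_le_add _ _ _).trans (add_le_add (h1 k u) (h2 k u))
    | smul c x _ hx =>
      obtain ⟨C, hC, h1⟩ := hx
      refine ⟨‖c‖ * C, mul_nonneg (norm_nonneg _) hC, fun k u => ?_⟩
      rw [mul_assoc]
      exact (map_smul_eq_mul (S.N k 0) c (x k u)).le.trans
        (mul_le_mul_of_nonneg_left (h1 k u) (norm_nonneg _))
  | succ j ih =>
    obtain ⟨C, hC, h1⟩ := ih hP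
    choose D hD h2 using fun a => ih (S.ca1_X_mul a hP)
    refine ⟨C + ∑ a, D a, add_nonneg hC (Finset.sum_nonneg fun a _ => hD a), fun k u => ?_⟩
    refine (S.ca1_succ_le k j _).trans ?_
    rw [add_mul, Finset.sum_mul]
    refine add_le_add ?_ (Finset.sum_le_sum fun a _ => ?_)
    · exact (S.norm_le_N k j _).trans ((h1 k u).trans
        (mul_le_mul_of_nonneg_left (S.N_mono k (by omega) u) hC))
    · exact (h2 a k u).trans (mul_le_mul_of_nonneg_left (S.N_mono k (by omega) u) (hD a))

/-- a bound for all words of length at most `j` bounds the norm -/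
theorem N_le_of_word (j : ℕ) : ∃ C : ℝ, 0 ≤ C ∧ ∀ k (u : H k) (η : ℝ), 0 ≤ η →
    (∀ I : List ι, I.length ≤ j → ‖word S.X I k u‖ ≤ η) → S.N k j u ≤ C * η := by
  induction j with
  | zero => exact ⟨1, zero_le_one, fun k u η _ h => by
      rw [N_zero, one_mul]; exact h [] le_rfl⟩
  | succ j ih =>
    obtain ⟨C, hC, h1⟩ := ih
    refine ⟨1 + ∑ _a : ι, C, add_nonneg zero_le_one (Finset.sum_nonneg fun _ _ => hC),
      fun k u η hη h => ?_⟩
    refine (S.ca1_succ_le k j _).trans ?_
    rw [add_mul, Finset.sum_mul, one_mul]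
    refine add_le_add (h [] (Nat.zero_le _)) (Finset.sum_le_sum fun a _ => h1 k _ η hη ?_)
    intro I hI
    have := h (I ++ [a]) (by simpa using hI)
    rwa [ca1_snoc] at this

theorem tendsto_N (k j : ℕ) (w : ℕ → H k)
    (h : ∀ I, Tendsto (fun n => word S.X I k (w n)) atTop (𝓝 0)) :
    Tendsto (fun n => S.N k j (w n)) atTop (𝓝 0) := by
  induction j generalizing w with
  | zero =>
    simp only [N_zero]
    exact tendsto_zero_iff_norm_tendsto_zero.1 (h [])
  | succ j ih =>
    refine squeeze_zero (fun n => apply_nonneg _ _) (fun n => S.ca1_succ_le k j (w n)) ?_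
    have h1 := tendsto_finsetSum (Finset.univ : Finset ι) fun a _ =>
      ih (fun n => S.X a k (w n)) fun I => by
        have := h (I ++ [a])
        rwa [ca1_snoc] at this
    have h2 := (tendsto_zero_iff_norm_tendsto_zero.1 (h [])).add h1
    rw [Finset.sum_const_zero, add_zero] at h2
    exact h2

theorem complete_N (k : ℕ) (u : ℕ → H k)
    (h : ∀ j, ∀ ε : ℝ, 0 < ε → ∃ n₀, ∀ n, n₀ ≤ n → ∀ m, n₀ ≤ m → S.N k j (u n - u m) ≤ ε) :
    ∃ v : H k, ∀ j, Tendsto (fun n => S.N k j (u n - v)) atTop (𝓝 0) := by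
  obtain ⟨v, hv⟩ := S.complete k u fun I => by
    refine Metric.cauchySeq_iff.2 fun ε hε => ?_
    obtain ⟨n₀, hn⟩ := h (0 + I.length) (ε / 2) (half_pos hε)
    refine ⟨n₀, fun m hm n hn' => ?_⟩
    rw [dist_eq_norm, ← map_sub, ← S.N_zero k]
    exact ((S.N_word_le k 0 I _).trans (hn m hm n hn')).trans_lt (half_lt_self hε)
  refine ⟨v, fun j => S.tendsto_N k j _ fun I => ?_⟩
  simp only [map_sub]
  exact tendsto_sub_nhds_zero_iff.2 (hv I)

end Sys

end Vale.Agent.P292
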