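import Vale.Agent.P292.CA1

/-! Coercivity and a priori estimates. -/

open scoped InnerProductSpace Topology
open Filter

noncomputable section

namespace Vale.Agent.P292

variable {H : ℕ → Type} [∀ k, NormedAddCommGroup (H k)] [∀ k, InnerProductSpace ℂ (H k)]
  {ι : Type} [Fintype ι]

namespace Sys

variable (S : Sys H ι)


theorem ca2_amgm (K A B : ℝ) {ε : ℝ} (hε : 0 < ε) :
    K * (A * B) ≤ ε * A ^ 2 + K ^ 2 / (4 * ε) * B ^ 2 := by
  have e : ε * A ^ 2 + K ^ 2 / (4 * ε) * B ^ 2 - K * (A * B) =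
      (2 * ε * A - K * B) ^ 2 / (4 * ε) := by
    field_simp
    ring
  have : 0 ≤ (2 * ε * A - K * B) ^ 2 / (4 * ε) := by positivity
  linarith

theorem ca2_two {P : Ops H} (hP : S.Ell P) : P ∈ S.Op 2 := by
  have h1 : S.lap ∈ S.Op 2 := by
    rw [lap]
    exact Submodule.sum_mem _ fun a _ => S.Op_mul (i := 1) (j := 1) (S.X_mem a) (S.X_mem a)
  have := Submodule.sub_mem _ (S.Op_mono (by norm_num : 1 ≤ 2) hP) h1
  rwa [add_sub_cancel_right] at this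

theorem ca2_coer0 {P : Ops H} (hP : S.Ell P) {ε : ℝ} (hε : 0 < ε) : ∃ C : ℝ, 0 ≤ C ∧
    ∀ k (u : H k), (1 - ε) * S.N k (0 + 1) u ^ 2 - C * S.N k 0 u ^ 2 ≤
      (S.ip k 0 (P k u) u).re := by
  obtain ⟨C, hC, h1⟩ := S.N_Op hP 0
  choose d hd h2 using S.adjX
  choose D hD h3 using fun a => S.N_Op (S.M_mem (hd a) 0) 0
  have hK : 0 ≤ ∑ a, D a := Finset.sum_nonneg fun a _ => hD a
  refine ⟨1 + (C + ∑ a, D a) ^ 2 / (4 * ε), by positivity, fun k u => ?_⟩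
  have hA := apply_nonneg (S.N k (0 + 1)) u
  have e0 : P k u = (P + S.lap) k u - ∑ a, S.X a k (S.X a k u) := by
    simp [lap, Finset.sum_apply, LinearMap.sum_apply]
  have e1 : ∀ a, ‖S.X a k u‖ ^ 2 - D a * (S.N k (0 + 1) u * ‖u‖) ≤
      -(⟪S.X a k (S.X a k u), u⟫_ℂ).re := by
    intro a
    have h4 := (abs_le.1 (Complex.abs_re_le_norm ⟪S.X a k u, d a k u⟫_ℂ)).1
    have h5 := norm_inner_le_norm (𝕜 := ℂ) (S.X a k u) (d a k u)
    have h6 := h3 a k u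
    have h7 := S.N_X_le k 0 a u
    rw [N_zero] at h7
    rw [N_zero, N_zero] at h6
    have h8 := mul_le_mul h7 h6 (norm_nonneg _) hA
    have h9 : (⟪S.X a k u, S.X a k u⟫_ℂ).re = ‖S.X a k u‖ ^ 2 :=
      inner_self_eq_norm_sq (𝕜 := ℂ) _
    rw [h2 a k, Complex.sub_re, Complex.neg_re, h9]
    nlinarith
  have e2 := Finset.sum_le_sum fun a (_ : a ∈ Finset.univ) => e1 a
  rw [Finset.sum_sub_distrib, ← Finset.sum_mul, Finset.sum_neg_distrib] at e2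
  have e3 := (abs_le.1 (Complex.abs_re_le_norm ⟪(P + S.lap) k u, u⟫_ℂ)).1
  have e4 := norm_inner_le_norm (𝕜 := ℂ) ((P + S.lap) k u) u
  have e5 := h1 k u
  rw [N_zero] at e5
  have e6 := mul_le_mul_of_nonneg_right e5 (norm_nonneg u)
  have e7 := S.N_succ_sq k 0 u
  simp only [N_zero] at e7
  have e8 := ca2_amgm (C + ∑ a, D a) (S.N k (0 + 1) u) ‖u‖ hε
  have e9 : (S.ip k 0 (P k u) u).re =
      (⟪(P + S.lap) k u, u⟫_ℂ).re - ∑ a, (⟪S.X a k (S.X a k u), u⟫_ℂ).re := by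
    rw [ip, sip, e0, inner_sub_left, sum_inner, Complex.sub_re, Complex.re_sum]
  rw [e9, N_zero]
  nlinarith

theorem ca2_shift (k j : ℕ) (P : Ops H) (μ : ℝ) (u : H k) :
    (S.ip k j (P k u) u).re + μ * S.N k j u ^ 2 ≤ S.N k j (P k u + (μ : ℂ) • u) * S.N k j u := by
  have h1 := (Complex.re_le_norm _).trans (S.ip_le k j (P k u + (μ : ℂ) • u) u)
  rwa [ip, sip_add_left, sip_smul_left, Complex.add_re, Complex.conj_ofReal,
    Complex.re_ofReal_mul, ← S.N_sq] at h1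

/-- Induction on `j` (for all `ε`).  `j = 0`: `P = -lap + R`, `R ∈ Op 1`, `adjX`.  Step:
`ip (j+1) (P u) u = ⟪P u, u⟫ + ∑ ip j (P X u) (X u) + ∑ ip j ([X, P] u) (X u)`, `[X, P] ∈ Op 2`
(`P ∈ Op 2`, `Op_comm`), bounded by `C N (j+2) u * N (j+1) u`; the first term is at least
`- C N 1 u ^ 2` by the case `j = 0`. -/
theorem coer {P : Ops H} (hP : S.Ell P) (j : ℕ) {ε : ℝ} (hε : 0 < ε) : ∃ C : ℝ, 0 ≤ C ∧
    ∀ k (u : H k), (1 - ε) * S.N k (j + 1) u ^ 2 - C * S.N k j u ^ 2 ≤ (S.ip k j (P k u) u).re := by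
  induction j generalizing ε with
  | zero => exact S.ca2_coer0 hP hε
  | succ j ih =>
    obtain ⟨C, hC, h1⟩ := ih (half_pos hε)
    obtain ⟨C0, hC0, h0⟩ := S.ca2_coer0 hP one_pos
    choose D hD h2 using fun a => S.N_Op (S.Op_comm (S.ca2_two hP) a) j
    have hK : 0 ≤ ∑ a, D a := Finset.sum_nonneg fun a _ => hD a
    refine ⟨1 + C + C0 + (∑ a, D a) ^ 2 / (2 * ε), by positivity, fun k u => ?_⟩
    have hA := apply_nonneg (S.N k (j + 1 + 1)) u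
    have hB := apply_nonneg (S.N k (j + 1)) u
    have e1 : ∀ a, (1 - ε / 2) * S.N k (j + 1) (S.X a k u) ^ 2 - C * S.N k j (S.X a k u) ^ 2 -
        D a * (S.N k (j + 1 + 1) u * S.N k (j + 1) u) ≤
        (S.ip k j (S.X a k (P k u)) (S.X a k u)).re := by
      intro a
      have e : S.X a k (P k u) = P k (S.X a k u) + (S.X a * P - P * S.X a) k u := by simp
      have h3 := S.ip_le k j ((S.X a * P - P * S.X a) k u) (S.X a k u)
      have h4 := mul_le_mul (h2 a k u) (S.N_X_le k j a u) (apply_nonneg _ _)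
        (mul_nonneg (hD a) (apply_nonneg _ _))
      have h5 := (abs_le.1 (Complex.abs_re_le_norm
        (S.ip k j ((S.X a * P - P * S.X a) k u) (S.X a k u)))).1
      have h6 := h1 k (S.X a k u)
      rw [e, ip, sip_add_left, Complex.add_re]
      rw [mul_assoc] at h4
      simp only [ip] at h3 h5 h6
      linarith
    have e2 := Finset.sum_le_sum fun a (_ : a ∈ Finset.univ) => e1 a
    rw [Finset.sum_sub_distrib, Finset.sum_sub_distrib, ← Finset.mul_sum, ← Finset.mul_sum,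
      ← Finset.sum_mul] at e2
    have e3 : (S.ip k (j + 1) (P k u) u).re =
        (S.ip k 0 (P k u) u).re + ∑ a, (S.ip k j (S.X a k (P k u)) (S.X a k u)).re := by
      simp only [ip, sip, Complex.add_re, Complex.re_sum]
    have e4 := S.N_succ_sq k (j + 1) u
    have e5 := S.N_succ_sq k j u
    have e6 := h0 k u
    rw [N_zero] at e6
    have e7 : ‖u‖ ^ 2 ≤ S.N k (j + 1) u ^ 2 :=
      pow_le_pow_left₀ (norm_nonneg _) (S.norm_le_N k _ u) 2
    have e8 := ca2_amgm (∑ a, D a) (S.N k (j + 1 + 1) u) (S.N k (j + 1) u) (half_pos hε)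
    have e9 : (∑ a, D a) ^ 2 / (4 * (ε / 2)) = (∑ a, D a) ^ 2 / (2 * ε) := by
      congr 1; ring
    rw [e9] at e8
    rw [e3]
    generalize (∑ a, S.N k (j + 1) (S.X a k u) ^ 2) = s1 at *
    generalize (∑ a, S.N k j (S.X a k u) ^ 2) = s2 at *
    have e10 : s1 = S.N k (j + 1 + 1) u ^ 2 - ‖u‖ ^ 2 := by linarith
    have e11 : s2 = S.N k (j + 1) u ^ 2 - ‖u‖ ^ 2 := by linarith
    rw [e10, e11] at e2
    nlinarith [mul_nonneg hε.le (sq_nonneg ‖u‖), mul_nonneg hC (sq_nonneg ‖u‖),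
      mul_le_mul_of_nonneg_left e7 hC0]

/-- `N j (Q u) * N j u ≥ N (j+1) u ^ 2 / 2 + (μ - C) N j u ^ 2 ≥ √(2 (μ - C)) N (j+1) u * N j u`. -/
theorem est_big {P : Ops H} (hP : S.Ell P) (j : ℕ) {δ : ℝ} (hδ : 0 < δ) : ∃ μ₀ : ℝ, ∀ μ, μ₀ ≤ μ →
    ∀ k (u : H k), S.N k (j + 1) u ≤ δ * S.N k j (P k u + (μ : ℂ) • u) := by
  obtain ⟨C, hC, h1⟩ := S.coer hP j (ε := 1 / 2) (by norm_num)
  refine ⟨C + 1 / (2 * δ ^ 2), fun μ hμ k u => ?_⟩
  have h2 := S.ca2_shift k j P μ u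
  have h3 := h1 k u
  have h4 := ca2_amgm 1 (S.N k j (P k u + (μ : ℂ) • u)) (S.N k j u)
    (ε := δ ^ 2 / 2) (by positivity)
  have e : (1 : ℝ) ^ 2 / (4 * (δ ^ 2 / 2)) = 1 / (2 * δ ^ 2) := by
    field_simp
    ring
  rw [e] at h4
  have h5 := mul_le_mul_of_nonneg_right hμ (sq_nonneg (S.N k j u))
  refine abs_le_of_sq_le_sq' ?_ (mul_nonneg hδ.le (apply_nonneg _ _)) |>.2
  nlinarith

/-- Induction: `N j u ≤ C N j g` gives `N (j+1) u ^ 2 / 2 ≤ N j g * N j u + C N j u ^ 2`. -/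
theorem est {P : Ops H} (hP : S.Ell P) (pos : ∀ k (u : H k), ‖u‖ ^ 2 ≤ (⟪P k u, u⟫_ℂ).re)
    (j : ℕ) : ∃ C : ℝ, 0 < C ∧ ∀ k (ν : ℝ), 0 ≤ ν → ∀ u : H k,
      S.N k (j + 1) u ≤ C * S.N k j (P k u + (ν : ℂ) • u) := by
  have step : ∀ j, (∃ C : ℝ, 0 < C ∧ ∀ k (ν : ℝ), 0 ≤ ν → ∀ u : H k,
      S.N k j u ≤ C * S.N k j (P k u + (ν : ℂ) • u)) → ∃ C : ℝ, 0 < C ∧ ∀ k (ν : ℝ), 0 ≤ ν →
      ∀ u : H k, S.N k (j + 1) u ≤ C * S.N k j (P k u + (ν : ℂ) • u) := by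
    rintro j ⟨C, hC, h1⟩
    obtain ⟨D, hD, h2⟩ := S.coer hP j (ε := 1 / 2) (by norm_num)
    have hK : 0 ≤ 2 * (C + D * C ^ 2) := by positivity
    refine ⟨2 * (C + D * C ^ 2) + 1, by positivity, fun k ν hν u => ?_⟩
    have h3 := S.ca2_shift k j P ν u
    have h4 := h2 k u
    have h5 := h1 k ν hν u
    have hG := apply_nonneg (S.N k j) (P k u + (ν : ℂ) • u)
    have h6 := mul_le_mul_of_nonneg_left (pow_le_pow_left₀ (apply_nonneg _ _) h5 2) hD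
    have h7 := mul_le_mul_of_nonneg_left h5 hG
    have h8 := mul_nonneg hν (sq_nonneg (S.N k j u))
    refine abs_le_of_sq_le_sq' ?_ (by positivity) |>.2
    have h9 : S.N k (j + 1) u ^ 2 ≤
        2 * (C + D * C ^ 2) * S.N k j (P k u + (ν : ℂ) • u) ^ 2 := by nlinarith
    refine h9.trans ?_
    rw [mul_pow]
    exact mul_le_mul_of_nonneg_right (by nlinarith) (sq_nonneg _)
  induction j with
  | zero =>
    refine step 0 ⟨1, one_pos, fun k ν hν u => ?_⟩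
    have h3 := S.ca2_shift k 0 P ν u
    have h4 : S.N k 0 u ^ 2 ≤ (S.ip k 0 (P k u) u).re := by rw [N_zero]; exact pos k u
    have h8 := mul_nonneg hν (sq_nonneg (S.N k 0 u))
    rw [one_mul]
    rcases (apply_nonneg (S.N k 0) u).eq_or_lt with h | h
    · rw [← h]; exact apply_nonneg _ _
    · refine le_of_mul_le_mul_right ?_ h
      nlinarith
  | succ j ih =>
    obtain ⟨C, hC, h1⟩ := ih
    exact step _ ⟨C, hC, fun k ν hν u => (h1 k ν hν u).trans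
      (mul_le_mul_of_nonneg_left (S.N_mono k (Nat.le_succ j) _) hC.le)⟩

theorem est_pow {P : Ops H} (hP : S.Ell P) (pos : ∀ k (u : H k), ‖u‖ ^ 2 ≤ (⟪P k u, u⟫_ℂ).re)
    (j : ℕ) : ∃ C : ℝ, 0 < C ∧ ∀ k (u : H k), S.N k j u ≤ C * ‖(P k ^ j) u‖ := by
  induction j with
  | zero => exact ⟨1, one_pos, fun k u => by rw [N_zero, one_mul, pow_zero]; exact le_rfl⟩
  | succ j ih =>
    obtain ⟨C, hC, h1⟩ := ih
    obtain ⟨D, hD, h2⟩ := S.est hP pos j
    refine ⟨D * C, mul_pos hD hC, fun k u => ?_⟩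
    have h3 := h2 k 0 le_rfl u
    rw [Complex.ofReal_zero, zero_smul, add_zero] at h3
    rw [mul_assoc, pow_succ]
    exact h3.trans (mul_le_mul_of_nonneg_left (h1 k (P k u)) hD.le)

end Sys

end Vale.Agent.P292
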