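import Vale.Agent.P292.CA1

/-! Averages over the flows. -/

open scoped InnerProductSpace Topology
open Filter

noncomputable section

namespace Vale.Agent.P292

variable {H : ℕ → Type} [∀ k, NormedAddCommGroup (H k)] [∀ k, InnerProductSpace ℂ (H k)]
  {ι : Type} [Fintype ι]

namespace Sys

variable (S : Sys H ι)


theorem form_mono {i j : ℕ} (h : i ≤ j) {b : ∀ k, H k → H k → ℂ} (hb : S.Form i b) :
    S.Form j b := by
  induction hb with
  | base P Q hP hQ => exact Form.base P Q (S.Op_mono h hP) (S.Op_mono h hQ)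
  | add b c _ _ ihb ihc => exact Form.add b c ihb ihc

theorem CA3_form_congr {j : ℕ} {b c : ∀ k, H k → H k → ℂ} (hb : S.Form j b)
    (h : ∀ k u v, c k u v = b k u v) : S.Form j c := by
  have : c = b := by
    funext k u v
    exact h k u v
  rw [this]
  exact hb

theorem CA3_form_zero (j : ℕ) : S.Form j fun _ _ _ => 0 :=
  S.CA3_form_congr (Form.base 0 0 (zero_mem _) (zero_mem _)) fun k u v => by simp

theorem CA3_form_sum {j : ℕ} {α : Type} (s : Finset α) (b : α → ∀ k, H k → H k → ℂ)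
    (hb : ∀ a, S.Form j (b a)) : S.Form j fun k u v => ∑ a ∈ s, b a k u v := by
  classical
  induction s using Finset.induction_on with
  | empty => exact S.CA3_form_congr (S.CA3_form_zero j) fun k u v => by simp
  | insert a s ha ih =>
    exact S.CA3_form_congr (Form.add _ _ (hb a) ih) fun k u v => by rw [Finset.sum_insert ha]

theorem CA3_form_X {j : ℕ} {b : ∀ k, H k → H k → ℂ} (hb : S.Form j b) (a : ι) :
    S.Form (j + 1) fun k u v => b k (S.X a k u) (S.X a k v) := by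
  induction hb with
  | base P Q hP hQ =>
    exact S.CA3_form_congr (Form.base (P * S.X a) (Q * S.X a) (S.Op_mul hP (S.X_mem a))
      (S.Op_mul hQ (S.X_mem a))) fun k u v => rfl
  | add b c _ _ ihb ihc => exact Form.add _ _ ihb ihc

theorem form_ip (j : ℕ) : S.Form j fun k u v => S.ip k j u v := by
  induction j with
  | zero => exact S.CA3_form_congr (Form.base 1 1 (S.one_mem 0) (S.one_mem 0)) fun k u v => rfl
  | succ j ih =>
    have h1 : S.Form (j + 1) fun k u v => ⟪u, v⟫_ℂ :=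
      S.CA3_form_congr (Form.base 1 1 (S.one_mem _) (S.one_mem _)) fun k u v => rfl
    have h2 := S.CA3_form_sum Finset.univ _ fun a => S.CA3_form_X ih a
    exact S.CA3_form_congr (Form.add _ _ h1 h2) fun k u v => rfl

theorem form_le {j : ℕ} {b : ∀ k, H k → H k → ℂ} (hb : S.Form j b) :
    ∃ C : ℝ, 0 ≤ C ∧ ∀ k (u v : H k), ‖b k u v‖ ≤ C * (S.N k j u * S.N k j v) := by
  induction hb with
  | base P Q hP hQ =>
    obtain ⟨C1, h1, hP'⟩ := S.N_Op hP 0
    obtain ⟨C2, h2, hQ'⟩ := S.N_Op hQ 0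
    refine ⟨C1 * C2, by positivity, fun k u v => ?_⟩
    have e1 := hP' k u
    have e2 := hQ' k v
    rw [S.N_zero, zero_add] at e1 e2
    calc ‖⟪P k u, Q k v⟫_ℂ‖ ≤ ‖P k u‖ * ‖Q k v‖ := norm_inner_le_norm _ _
      _ ≤ (C1 * S.N k j u) * (C2 * S.N k j v) :=
        mul_le_mul e1 e2 (norm_nonneg _) (mul_nonneg h1 (apply_nonneg _ _))
      _ = _ := by ring
  | add b c _ _ ihb ihc =>
    obtain ⟨C1, h1, hb'⟩ := ihb
    obtain ⟨C2, h2, hc'⟩ := ihc
    refine ⟨C1 + C2, by positivity, fun k u v => ?_⟩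
    calc ‖b k u v + c k u v‖ ≤ ‖b k u v‖ + ‖c k u v‖ := norm_add_le _ _
      _ ≤ _ := add_le_add (hb' k u v) (hc' k u v)
      _ = _ := by ring

/-- `⟪P X u, Q v⟫ + ⟪P u, Q X v⟫ = -⟪P u, d Q v⟫ - ⟪[X, P] u, Q v⟫ - ⟪P u, [X, Q] v⟫`. -/
theorem form_der {j : ℕ} {b : ∀ k, H k → H k → ℂ} (hb : S.Form j b) (a : ι) :
    S.Form j fun k u v => b k (S.X a k u) v + b k u (S.X a k v) := by
  induction hb with
  | base P Q hP hQ =>
    obtain ⟨d, hd, hX⟩ := S.adjX a
    have hdQ : d * Q ∈ S.Op j := by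
      have := S.Op_mul (S.M_mem hd 0) hQ
      rwa [zero_add] at this
    refine S.CA3_form_congr (Form.add _ _
      (Form.base P (-(d * Q) - (S.X a * Q - Q * S.X a)) hP
        (sub_mem (neg_mem hdQ) (S.Op_comm hQ a)))
      (Form.base (-(S.X a * P - P * S.X a)) Q (neg_mem (S.Op_comm hP a)) hQ)) fun k u v => ?_
    have e := hX k (P k u) (Q k v)
    simp only [Pi.sub_apply, Pi.neg_apply, Pi.mul_apply, LinearMap.sub_apply, LinearMap.neg_apply,
      Module.End.mul_apply, inner_sub_left, inner_sub_right, inner_neg_left, inner_neg_right, e]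
    ring
  | add b c _ _ ihb ihc =>
    exact S.CA3_form_congr (Form.add _ _ ihb ihc) fun k u v => by ring

/-- curves differentiable in all norms -/
def Cv (k : ℕ) (γ γ' : ℝ → H k) : Prop :=
  ∀ (I : List ι) (t : ℝ), HasDerivAt (fun s => word S.X I k (γ s)) (word S.X I k (γ' t)) t

/-- span induction; a multiplier is a continuous linear map (`LinearMap.mkContinuous`, `bdd`) -/
theorem Cv.op {k : ℕ} {γ γ' : ℝ → H k} (h : S.Cv k γ γ') {j : ℕ} {P : Ops H} (hP : P ∈ S.Op j)
    (t : ℝ) : HasDerivAt (fun s => P k (γ s)) (P k (γ' t)) t := by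
  induction hP using Submodule.span_induction with
  | mem P hP =>
    obtain ⟨f, hf, I, -, rfl⟩ := hP
    obtain ⟨C, hC⟩ := S.bdd f hf
    let L : H k →L[ℂ] H k := LinearMap.mkContinuous (f k) C (hC k)
    exact (L.restrictScalars ℝ).hasFDerivAt.comp_hasDerivAt t (h I t)
  | zero => simpa using hasDerivAt_const t (0 : H k)
  | add P Q _ _ ihP ihQ => exact ihP.add ihQ
  | smul c P _ ih => exact ih.const_smul c

theorem Cv.form {k : ℕ} {γ γ' η η' : ℝ → H k} (h : S.Cv k γ γ') (h' : S.Cv k η η') {j : ℕ}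
    {b : ∀ k, H k → H k → ℂ} (hb : S.Form j b) (t : ℝ) :
    HasDerivAt (fun s => b k (γ s) (η s)) (b k (γ' t) (η t) + b k (γ t) (η' t)) t := by
  induction hb with
  | base P Q hP hQ =>
    have := HasDerivAt.inner ℂ (Cv.op S h hP t) (Cv.op S h' hQ t)
    rw [add_comm] at this
    exact this
  | add b c _ _ ihb ihc =>
    refine (ihb.add ihc).congr_deriv ?_
    ring

omit [Fintype ι] in
theorem CA3_word_snoc (X : ι → Ops H) (I : List ι) (a : ι) (k : ℕ) (u : H k) :
    word X (I ++ [a]) k u = word X I k (X a k u) := by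
  simp only [word, List.map_append, List.prod_append, List.map_cons, List.map_nil,
    List.prod_cons, List.prod_nil, mul_one]
  rfl

theorem CA3_Cv_X {k : ℕ} {γ γ' : ℝ → H k} (h : S.Cv k γ γ') (a : ι) :
    S.Cv k (fun t => S.X a k (γ t)) fun t => S.X a k (γ' t) := fun I t => by
  have := h (I ++ [a]) t
  simpa only [CA3_word_snoc] using this

theorem CA3_mv {E : Type} [NormedAddCommGroup E] [NormedSpace ℝ E] {g g' : ℝ → E}
    (hg : ∀ t, HasDerivAt g (g' t) t) (h0 : g 0 = 0) {K : ℝ} (hK : 0 ≤ K) (n : ℕ)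
    (hb : ∀ t, |t| ≤ 1 → ‖g' t‖ ≤ K * |t| ^ n) (s : ℝ) (hs : |s| ≤ 1) :
    ‖g s‖ ≤ K * |s| ^ (n + 1) := by
  have key := (convex_closedBall (0 : ℝ) |s|).norm_image_sub_le_of_norm_hasDerivWithin_le
    (f := g) (f' := g') (C := K * |s| ^ n) (x := 0) (y := s)
    (fun t _ => (hg t).hasDerivWithinAt)
    (fun t ht => by
      have ht' : |t| ≤ |s| := by simpa using ht
      refine (hb t (ht'.trans hs)).trans ?_
      exact mul_le_mul_of_nonneg_left (pow_le_pow_left₀ (abs_nonneg _) ht' n) hK)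
    (by simp) (by simp)
  rw [h0, sub_zero, sub_zero, Real.norm_eq_abs] at key
  calc ‖g s‖ ≤ _ := key
    _ = _ := by ring

theorem CA3_gron {F F' : ℝ → ℝ} (hF : ∀ t, HasDerivAt F (F' t) t) {C : ℝ}
    (hb : ∀ t, |F' t| ≤ C * F t) (t : ℝ) : F t ≤ Real.exp (C * |t|) * F 0 := by
  rcases le_total 0 t with ht | ht
  · have hd : ∀ s, HasDerivAt (fun s => Real.exp (-C * s) * F s)
        (Real.exp (-C * s) * (-C * 1) * F s + Real.exp (-C * s) * F' s) s := fun s =>
      (((hasDerivAt_id' s).const_mul (-C)).exp).mul (hF s)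
    have han : Antitone fun s => Real.exp (-C * s) * F s := by
      refine antitone_of_deriv_nonpos (fun s => (hd s).differentiableAt) fun s => ?_
      rw [(hd s).deriv]
      have h1 := (abs_le.1 (hb s)).2
      have h2 := Real.exp_pos (-C * s)
      nlinarith
    have h := han ht
    simp only [mul_zero, Real.exp_zero, one_mul] at h
    rw [abs_of_nonneg ht]
    have h3 : Real.exp (C * t) * Real.exp (-C * t) = 1 := by
      rw [← Real.exp_add]
      simp
    calc F t = Real.exp (C * t) * (Real.exp (-C * t) * F t) := by rw [← mul_assoc, h3, one_mul]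
      _ ≤ _ := mul_le_mul_of_nonneg_left h (Real.exp_pos _).le
  · have hd : ∀ s, HasDerivAt (fun s => Real.exp (C * s) * F s)
        (Real.exp (C * s) * (C * 1) * F s + Real.exp (C * s) * F' s) s := fun s =>
      (((hasDerivAt_id' s).const_mul C).exp).mul (hF s)
    have han : Monotone fun s => Real.exp (C * s) * F s := by
      refine monotone_of_deriv_nonneg (fun s => (hd s).differentiableAt) fun s => ?_
      rw [(hd s).deriv]
      have h1 := (abs_le.1 (hb s)).1
      have h2 := Real.exp_pos (C * s)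
      nlinarith
    have h := han ht
    simp only [mul_zero, Real.exp_zero, one_mul] at h
    rw [abs_of_nonpos ht]
    have h3 : Real.exp (C * -t) * Real.exp (C * t) = 1 := by
      rw [← Real.exp_add]
      simp
    calc F t = Real.exp (C * -t) * (Real.exp (C * t) * F t) := by rw [← mul_assoc, h3, one_mul]
      _ ≤ _ := mul_le_mul_of_nonneg_left h (Real.exp_pos _).le

theorem CA3_neg {E : Type} [NormedAddCommGroup E] [NormedSpace ℝ E] {g g' : ℝ → E}
    (hg : ∀ t, HasDerivAt g (g' t) t) (t : ℝ) : HasDerivAt (fun s => g (-s)) (-g' (-t)) t := by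
  have := (hg (-t)).scomp t (hasDerivAt_neg t)
  simpa [Function.comp_def] using this

theorem CA3_taylor2 {F F1 F2 : ℝ → ℝ} (h1 : ∀ t, HasDerivAt F (F1 t) t)
    (h2 : ∀ t, HasDerivAt F1 (F2 t) t) {K : ℝ} (hK : 0 ≤ K) (hb : ∀ t, |t| ≤ 1 → |F2 t| ≤ K)
    (s : ℝ) (hs : |s| ≤ 1) : F s + F (-s) ≤ 2 * F 0 + 2 * K * s ^ 2 := by
  have d1 : ∀ t, HasDerivAt (fun s => F s + F (-s) - 2 * F 0) (F1 t + -F1 (-t)) t := fun t =>
    ((h1 t).add (CA3_neg h1 t)).sub_const _
  have d2 : ∀ t, HasDerivAt (fun s => F1 s + -F1 (-s)) (F2 t + - -F2 (-t)) t := fun t =>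
    (h2 t).add (CA3_neg h2 t).neg
  have b2 : ∀ t, |t| ≤ 1 → ‖F2 t + - -F2 (-t)‖ ≤ 2 * K * |t| ^ 0 := fun t ht => by
    have e1 := hb t ht
    have e2 := hb (-t) (by rwa [abs_neg])
    rw [neg_neg, Real.norm_eq_abs]
    have := abs_add_le (F2 t) (F2 (-t))
    simp only [pow_zero, mul_one]
    linarith
  have b1 := CA3_mv d2 (by simp) (by positivity) 0 b2
  have b0 := CA3_mv d1 (by simp; ring) (by positivity) 1 b1 s hs
  rw [Real.norm_eq_abs, sq_abs] at b0
  linarith [(abs_le.1 b0).2]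

theorem CA3_taylor3 {E : Type} [NormedAddCommGroup E] [NormedSpace ℝ E] {g g1 g2 g3 : ℝ → E}
    (h1 : ∀ t, HasDerivAt g (g1 t) t) (h2 : ∀ t, HasDerivAt g1 (g2 t) t)
    (h3 : ∀ t, HasDerivAt g2 (g3 t) t) {K : ℝ} (hK : 0 ≤ K) (hb : ∀ t, |t| ≤ 1 → ‖g3 t‖ ≤ K)
    (s : ℝ) (hs : |s| ≤ 1) :
    ‖g s + g (-s) - (2 : ℝ) • g 0 - (s ^ 2) • g2 0‖ ≤ 2 * K * |s| ^ 3 := by
  have d1 : ∀ t, HasDerivAt (fun s => g s + g (-s) - (2 : ℝ) • g 0 - (s ^ 2) • g2 0)
      (g1 t + -g1 (-t) - (2 * t) • g2 0) t := fun t => by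
    have e : HasDerivAt (fun s : ℝ => s ^ 2) (2 * t) t := by simpa using hasDerivAt_pow 2 t
    exact (((h1 t).add (CA3_neg h1 t)).sub_const _).sub (e.smul_const _)
  have d2 : ∀ t, HasDerivAt (fun s => g1 s + -g1 (-s) - (2 * s) • g2 0)
      (g2 t + - -g2 (-t) - (2 * 1 : ℝ) • g2 0) t := fun t =>
    ((h2 t).add (CA3_neg h2 t).neg).sub (((hasDerivAt_id' t).const_mul 2).smul_const _)
  have d3 : ∀ t, HasDerivAt (fun s => g2 s + - -g2 (-s) - (2 * 1 : ℝ) • g2 0)
      (g3 t + - - -g3 (-t)) t := fun t =>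
    ((h3 t).add (CA3_neg h3 t).neg.neg).sub_const _
  have b3 : ∀ t, |t| ≤ 1 → ‖g3 t + - - -g3 (-t)‖ ≤ 2 * K * |t| ^ 0 := fun t ht => by
    have e1 := hb t ht
    have e2 := hb (-t) (by rwa [abs_neg])
    have := norm_add_le (g3 t) (- - -g3 (-t))
    simp only [norm_neg] at this
    simp only [pow_zero, mul_one]
    linarith
  have b2 := CA3_mv d3 (by simp [two_smul]) (by positivity) 0 b3
  have b1 := CA3_mv d2 (by simp) (by positivity) 1 b2
  exact CA3_mv d1 (by simp [two_smul]) (by positivity) 2 b1 s hs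

theorem CA3_energy (a : ι) (j : ℕ) : ∃ C : ℝ, 0 ≤ C ∧ ∀ k (γ : ℝ → H k),
    S.Cv k γ (fun t => S.X a k (γ t)) → ∀ s : ℝ, |s| ≤ 1 →
      S.N k j (γ s) ≤ C * S.N k j (γ 0) ∧
      S.N k j (γ s) ^ 2 + S.N k j (γ (-s)) ^ 2 ≤ (2 + C * s ^ 2) * S.N k j (γ 0) ^ 2 := by
  have f0 := S.form_ip j
  have f1 := S.form_der f0 a
  have f2 := S.form_der f1 a
  obtain ⟨C1, hC1, b1⟩ := S.form_le f1
  obtain ⟨C2, hC2, b2⟩ := S.form_le f2
  have hE : 1 ≤ Real.exp C1 := Real.one_le_exp hC1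
  refine ⟨Real.exp C1 + 2 * (C2 * Real.exp C1), by positivity, fun k γ hγ => ?_⟩
  have d0 := fun t => Complex.reCLM.hasFDerivAt.comp_hasDerivAt t (Cv.form S hγ hγ f0 t)
  have d1 := fun t => Complex.reCLM.hasFDerivAt.comp_hasDerivAt t (Cv.form S hγ hγ f1 t)
  have hg : ∀ s : ℝ, |s| ≤ 1 → S.N k j (γ s) ^ 2 ≤ Real.exp C1 * S.N k j (γ 0) ^ 2 := by
    intro s hs
    have := CA3_gron (C := C1) d0 (fun t => by
      have e := b1 k (γ t) (γ t)
      rw [← sq, S.N_sq] at e
      exact (Complex.abs_re_le_norm _).trans e) s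
    rw [S.N_sq, S.N_sq]
    refine le_trans this (mul_le_mul_of_nonneg_right ?_ (sip_nonneg S.X k j _))
    exact Real.exp_le_exp.2 (by nlinarith [abs_nonneg s])
  intro s hs
  have n0 : 0 ≤ S.N k j (γ 0) := apply_nonneg _ _
  constructor
  · refine le_trans ?_ (mul_le_mul_of_nonneg_right
      (le_add_of_nonneg_right (by positivity : 0 ≤ 2 * (C2 * Real.exp C1))) n0)
    refine (abs_le_of_sq_le_sq' ((hg s hs).trans ?_) (by positivity)).2
    rw [mul_pow]
    exact mul_le_mul_of_nonneg_right (by nlinarith) (sq_nonneg _)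
  · have := CA3_taylor2 (K := C2 * Real.exp C1 * S.N k j (γ 0) ^ 2) d0 d1 (by positivity)
      (fun t ht => by
        have e := b2 k (γ t) (γ t)
        rw [← sq] at e
        refine (Complex.abs_re_le_norm _).trans (le_trans e ?_)
        rw [mul_assoc]
        exact mul_le_mul_of_nonneg_left (hg t ht) hC2) s hs
    have e : ∀ t, (⇑Complex.reCLM ∘ fun s => S.ip k j (γ s) (γ s)) t = S.N k j (γ t) ^ 2 :=
      fun t => (S.N_sq k j (γ t)).symm
    rw [e, e, e] at this
    have p : 0 ≤ Real.exp C1 * s ^ 2 * S.N k j (γ 0) ^ 2 := by positivity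
    nlinarith

/-- `F t = N j (U t u) ^ 2` has `|F'|, |F''| ≤ C F`; Gronwall gives `F t ≤ exp (C |t|) F 0`, so
`F s + F (-s) ≤ (2 + C' s ^ 2) F 0` and `N (x + y) ^ 2 ≤ 2 (N x ^ 2 + N y ^ 2)`.
Taylor: for each word `I` of length at most `j` the curve `g t = word I (U t u)` has the third
derivative `word I (X ^ 3 U t u)`, of norm at most `N (j + 3) (U t u)`; mean value inequality
three times for `g s + g (-s) - 2 g 0 - s ^ 2 g'' 0`, then `N_le_of_word`. -/
theorem avg (a : ι) (k : ℕ) : ∃ U : ℝ → Module.End ℂ (H k), ∀ j, ∃ C : ℝ, 0 ≤ C ∧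
    ∀ (u : H k) (s : ℝ), |s| ≤ 1 →
      S.N k j (U s u + U (-s) u) ≤ 2 * (1 + C * s ^ 2) * S.N k j u ∧
      S.N k j (U s u + U (-s) u - (2 : ℂ) • u - ((s : ℂ) ^ 2) • S.X a k (S.X a k u)) ≤
        C * |s| ^ 3 * S.N k (j + 3) u := by
  obtain ⟨U, hU0, hU⟩ := S.flow a k
  refine ⟨U, fun j => ?_⟩
  obtain ⟨C1, hC1, e1⟩ := S.CA3_energy a j
  obtain ⟨C2, hC2, e2⟩ := S.CA3_energy a (j + 3)
  obtain ⟨C3, hC3, e3⟩ := S.N_le_of_word j
  refine ⟨C1 + C3 * (2 * C2), by positivity, fun u s hs => ?_⟩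
  have hγ : S.Cv k (fun t => U t u) fun t => S.X a k (U t u) := fun I t => hU u I t
  have n0 : 0 ≤ S.N k j u := apply_nonneg _ _
  have n3 : 0 ≤ S.N k (j + 3) u := apply_nonneg _ _
  constructor
  · have h := (e1 k _ hγ s hs).2
    simp only [hU0, Module.End.one_apply] at h
    have h2 := map_add_le_add (S.N k j) (U s u) (U (-s) u)
    have h3 : 0 ≤ S.N k j (U s u + U (-s) u) := apply_nonneg _ _
    refine le_trans h2 (abs_le_of_sq_le_sq' ?_ (by positivity)).2
    have p1 : 0 ≤ C1 * s ^ 2 * S.N k j u ^ 2 := by positivity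
    have p2 : 0 ≤ C3 * (2 * C2) * s ^ 2 * S.N k j u ^ 2 := by positivity
    have p3 : 0 ≤ ((C1 + C3 * (2 * C2)) * s ^ 2) ^ 2 * S.N k j u ^ 2 := by positivity
    nlinarith [sq_nonneg (S.N k j (U s u) - S.N k j (U (-s) u))]
  · have hγ1 := S.CA3_Cv_X hγ a
    have hγ2 := S.CA3_Cv_X hγ1 a
    have key := e3 k (U s u + U (-s) u - (2 : ℂ) • u - ((s : ℂ) ^ 2) • S.X a k (S.X a k u))
      (2 * (C2 * S.N k (j + 3) u) * |s| ^ 3) (by positivity) fun I hI => by
        have := CA3_taylor3 (K := C2 * S.N k (j + 3) u) (hγ I) (hγ1 I) (hγ2 I) (by positivity)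
          (fun t ht => by
            have h1 := (e2 k _ hγ t ht).1
            simp only [hU0, Module.End.one_apply] at h1
            refine le_trans ?_ h1
            rw [← CA3_word_snoc, ← CA3_word_snoc, ← CA3_word_snoc, ← S.N_zero]
            refine (S.N_word_le k 0 _ _).trans (S.N_mono k ?_ _)
            simp only [List.length_append, List.length_cons, List.length_nil]
            omega) s hs
        simp only [hU0, Module.End.one_apply] at this
        refine le_trans (le_of_eq ?_) this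
        congr 1
        simp only [map_add, map_sub, map_smul]
        rw [← Complex.coe_smul, ← Complex.coe_smul]
        push_cast
        rfl
    refine key.trans ?_
    have p : 0 ≤ C1 * |s| ^ 3 * S.N k (j + 3) u := by positivity
    nlinarith

end Sys

end Vale.Agent.P292
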