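import Vale.Agent.P292.CA2
import Vale.Agent.P292.CA3

/-! Dense range and solvability. -/

open scoped InnerProductSpace Topology
open Filter

noncomputable section

namespace Vale.Agent.P292

variable {H : ℕ → Type} [∀ k, NormedAddCommGroup (H k)] [∀ k, InnerProductSpace ℂ (H k)]
  {ι : Type} [Fintype ι]

theorem ca4_iter {E : Type} [AddCommGroup E] [Module ℂ E] {p q : Seminorm ℂ E}
    {A : Module.End ℂ E} {a b τ : ℝ} (ha : 0 ≤ a) (hτ : 0 < τ) (hb : a + τ ≤ b)
    (hp : ∀ u, p (A u) ≤ a * p u) (hq : ∀ u, q (A u) ≤ a * q u) (f : E) (n : ℕ) :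
    ∃ u, q u ≤ q f ∧ p ((b : ℂ) • u - A u - (τ : ℂ) • f) ≤ (a / b) ^ n * (τ * p f) := by
  have hb0 : 0 < b := by linarith
  have hbc : (b : ℂ) ≠ 0 := Complex.ofReal_ne_zero.2 hb0.ne'
  have nb : ‖(b : ℂ)⁻¹‖ = b⁻¹ := by rw [norm_inv, Complex.norm_real, Real.norm_of_nonneg hb0.le]
  have nτ : ‖(τ : ℂ)‖ = τ := by rw [Complex.norm_real, Real.norm_of_nonneg hτ.le]
  induction n with
  | zero =>
    refine ⟨0, by simp, ?_⟩
    rw [smul_zero, map_zero, sub_zero, zero_sub, map_neg_eq_map, map_smul_eq_mul, nτ, pow_zero,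
      one_mul]
  | succ n ih =>
    obtain ⟨u, h1, h2⟩ := ih
    refine ⟨(b : ℂ)⁻¹ • ((τ : ℂ) • f + A u), ?_, ?_⟩
    · rw [map_smul_eq_mul, nb, inv_mul_le_iff₀ hb0]
      refine (map_add_le_add q _ _).trans ?_
      rw [map_smul_eq_mul, nτ]
      have h3 := hq u
      have h4 := mul_le_mul_of_nonneg_left h1 ha
      have h5 := mul_le_mul_of_nonneg_right hb (apply_nonneg q f)
      linarith
    · have e : (b : ℂ) • (b : ℂ)⁻¹ • ((τ : ℂ) • f + A u) - A ((b : ℂ)⁻¹ • ((τ : ℂ) • f + A u))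
          - (τ : ℂ) • f = (b : ℂ)⁻¹ • A ((b : ℂ) • u - A u - (τ : ℂ) • f) := by
        simp only [map_smul, map_add, map_sub, smul_sub, smul_add, smul_inv_smul₀ hbc,
          inv_smul_smul₀ hbc]
        abel
      rw [e, map_smul_eq_mul, nb]
      calc b⁻¹ * p (A ((b : ℂ) • u - A u - (τ : ℂ) • f))
          ≤ b⁻¹ * (a * ((a / b) ^ n * (τ * p f))) :=
            mul_le_mul_of_nonneg_left ((hp _).trans (mul_le_mul_of_nonneg_left h2 ha))
              (by positivity)
        _ = _ := by rw [pow_succ]; field_simp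

theorem ca4_approx {E : Type} [AddCommGroup E] [Module ℂ E] {p q : Seminorm ℂ E}
    {A L : Module.End ℂ E} {c D τ μ η : ℝ} (hc : 0 ≤ c) (hD : 0 ≤ D) (hτ : 0 < τ) (hη : 0 ≤ η)
    (hμ : D + 1 ≤ μ) (hp : ∀ u, p (A u) ≤ (c + D * τ) * p u)
    (hq : ∀ u, q (A u) ≤ (c + D * τ) * q u)
    (he : ∀ u, p (A u - (c : ℂ) • u - (τ : ℂ) • L u) ≤ η * τ * q u) (f : E) {ε : ℝ}
    (hε : 0 < ε) : ∃ u, p ((μ : ℂ) • u - L u - f) ≤ ε + η * q f := by
  have ha : 0 ≤ c + D * τ := by positivity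
  have hb : c + D * τ + τ ≤ c + μ * τ := by nlinarith
  have hlt : (c + D * τ) / (c + μ * τ) < 1 := by
    rw [div_lt_one (by linarith)]; linarith
  obtain ⟨n, hn⟩ := exists_pow_lt_of_lt_one (x := ε / (p f + 1))
    (div_pos hε (by linarith [apply_nonneg p f])) hlt
  obtain ⟨u, h1, h2⟩ := ca4_iter ha hτ hb hp hq f n
  refine ⟨u, le_of_mul_le_mul_left ?_ hτ⟩
  have nτ : ‖(τ : ℂ)‖ = τ := by rw [Complex.norm_real, Real.norm_of_nonneg hτ.le]
  have e : (τ : ℂ) • ((μ : ℂ) • u - L u - f) = (((c + μ * τ : ℝ) : ℂ) • u - A u - (τ : ℂ) • f)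
      + (A u - (c : ℂ) • u - (τ : ℂ) • L u) := by
    push_cast
    module
  have h3 := map_add_le_add p (((c + μ * τ : ℝ) : ℂ) • u - A u - (τ : ℂ) • f)
    (A u - (c : ℂ) • u - (τ : ℂ) • L u)
  rw [← e, map_smul_eq_mul, nτ] at h3
  have h4 := he u
  have h5 : η * τ * q u ≤ η * τ * q f := mul_le_mul_of_nonneg_left h1 (by positivity)
  have h6 : ((c + D * τ) / (c + μ * τ)) ^ n * (τ * p f) ≤ ε / (p f + 1) * (τ * (p f + 1)) :=
    mul_le_mul hn.le (by nlinarith) (mul_nonneg hτ.le (apply_nonneg p f))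
      (div_pos hε (by linarith [apply_nonneg p f])).le
  have h7 : ε / (p f + 1) * (τ * (p f + 1)) = τ * ε := by
    have : p f + 1 ≠ 0 := by linarith [apply_nonneg p f]
    field_simp
  linarith

theorem ca4_sum_le {E α : Type} [AddCommGroup E] [Module ℂ E] (p : Seminorm ℂ E) (s : Finset α)
    (g : α → E) : p (∑ a ∈ s, g a) ≤ ∑ a ∈ s, p (g a) := by
  classical
  induction s using Finset.induction_on with
  | empty => simp
  | insert a s ha ih =>
    rw [Finset.sum_insert ha, Finset.sum_insert ha]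
    exact (map_add_le_add p _ _).trans (by linarith)

namespace Sys

variable (S : Sys H ι)


/-- `R = card ι`, `Q = (1 / 2R) ∑ (U a s + U a (-s))`, `τ = s ^ 2`, `θ = 1 / (1 + ν τ)`,
`ν = μ / (2 R)`, `u n = τ θ ∑ i < n, (θ Q) ^ i f`.  Then ` (ν + (1 - Q) / τ) (u n) = f - (θ Q) ^ n f`,
`θ Q` contracts `N j` and `N (j + 3)` by ` (1 + C τ) / (1 + ν τ) < 1` when `ν > C`, so
`N (j + 3) (u n) ≤ N (j + 3) f / (ν - C)`, and ` (1 - Q) / τ + lap / (2 R)` is at most
`C |s| N (j + 3)`.  First choose `s`, then `n`; rescale by `2 R`. -/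
theorem dense_lap [Nonempty ι] (k j : ℕ) : ∃ μ₀ : ℝ, ∀ μ : ℝ, μ₀ ≤ μ →
    DenseR (S.N k j) ((μ : ℂ) • (1 : Module.End ℂ (H k)) - S.lap k) := by
  choose U hU using fun a => S.avg a k
  choose C hC0 hC using hU
  set D : ℝ := ∑ a, C a j + ∑ a, C a (j + 3) with hD
  have h1 : 0 ≤ ∑ a, C a j := Finset.sum_nonneg fun a _ => hC0 a j
  have h2 : 0 ≤ ∑ a, C a (j + 3) := Finset.sum_nonneg fun a _ => hC0 a (j + 3)
  have hD0 : 0 ≤ D := add_nonneg h1 h2
  refine ⟨2 * D + 1, fun μ hμ f ε hε => ?_⟩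
  have hq0 := apply_nonneg (S.N k (j + 3)) f
  have hden : 0 < D * S.N k (j + 3) f + 1 := by positivity
  set s : ℝ := min 1 (ε / 2 / (D * S.N k (j + 3) f + 1)) with hs
  have hs0 : 0 < s := lt_min one_pos (by positivity)
  have hs1 : |s| ≤ 1 := by rw [abs_of_pos hs0]; exact min_le_left _ _
  have hs2 : s * (D * S.N k (j + 3) f + 1) ≤ ε / 2 := (le_div_iff₀ hden).1 (min_le_right _ _)
  have hA : ∀ i, ∑ a, C a i ≤ D → ∀ u, S.N k i ((∑ a, (U a s + U a (-s))) u)
      ≤ (2 * (Fintype.card ι : ℝ) + 2 * D * s ^ 2) * S.N k i u := fun i hi u => by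
    rw [LinearMap.sum_apply]
    refine (ca4_sum_le _ _ _).trans ((Finset.sum_le_sum fun a _ => (hC a i u s hs1).1).trans ?_)
    rw [← Finset.sum_mul, ← Finset.mul_sum, Finset.sum_add_distrib, ← Finset.sum_mul,
      Finset.sum_const, Finset.card_univ, nsmul_eq_mul, mul_one]
    refine mul_le_mul_of_nonneg_right ?_ (apply_nonneg _ _)
    nlinarith [mul_le_mul_of_nonneg_right hi (sq_nonneg s)]
  obtain ⟨u, hu⟩ := ca4_approx (p := S.N k j) (q := S.N k (j + 3)) (L := S.lap k)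
    (η := D * s) (by positivity) (by positivity) (pow_pos hs0 2) (by positivity) hμ
    (hA j (by linarith)) (hA (j + 3) (by linarith)) (fun u => by
      have e : (∑ a, (U a s + U a (-s))) u - ((2 * (Fintype.card ι : ℝ) : ℝ) : ℂ) • u
          - ((s ^ 2 : ℝ) : ℂ) • S.lap k u = ∑ a, (U a s u + U a (-s) u - (2 : ℂ) • u
            - ((s : ℂ) ^ 2) • S.X a k (S.X a k u)) := by
        simp only [lap, LinearMap.sum_apply, Finset.sum_apply, Pi.mul_apply, Module.End.mul_apply,
          LinearMap.add_apply, Finset.sum_sub_distrib, Finset.sum_const, Finset.card_univ,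
          ← Finset.smul_sum, ← Nat.cast_smul_eq_nsmul ℂ, smul_smul]
        push_cast
        rw [mul_comm]
      rw [e]
      refine (ca4_sum_le _ _ _).trans ((Finset.sum_le_sum fun a _ => (hC a j u s hs1).2).trans ?_)
      rw [← Finset.sum_mul, ← Finset.sum_mul, abs_of_pos hs0]
      refine mul_le_mul_of_nonneg_right ?_ (apply_nonneg _ _)
      nlinarith [mul_nonneg h2 (pow_pos hs0 3).le]) f (half_pos hε)
  refine ⟨u, le_trans (le_of_eq ?_) (hu.trans (by nlinarith))⟩
  simp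

omit S in
/-- By induction on `n`: for every `f` some `u` has `p ((P + B) u - f) ≤ (3/4) ^ n * p f`. -/
theorem denseR_add {E : Type} [AddCommGroup E] [Module ℂ E] {p : Seminorm ℂ E}
    {P B : Module.End ℂ E} (hP : DenseR p P) (hB : ∀ u, p (B u) ≤ p (P u) / 2) :
    DenseR p (P + B) := by
  have one : ∀ f, ∃ u, p ((P + B) u - f) ≤ 3 / 4 * p f := fun f => by
    rcases (apply_nonneg p f).eq_or_lt with h0 | h0
    · exact ⟨0, by rw [map_zero, zero_sub, map_neg_eq_map, ← h0, mul_zero]⟩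
    · obtain ⟨u, hu⟩ := hP f (p f / 6) (by positivity)
      refine ⟨u, ?_⟩
      have h1 := map_add_le_add p (P u - f) f
      have h2 := map_add_le_add p (P u - f) (B u)
      rw [sub_add_cancel] at h1
      rw [LinearMap.add_apply, add_sub_right_comm]
      linarith [hB u]
  have key : ∀ (n : ℕ) (f : E), ∃ u, p ((P + B) u - f) ≤ (3 / 4) ^ n * p f := fun n f => by
    induction n with
    | zero => exact ⟨0, by rw [map_zero, zero_sub, map_neg_eq_map, pow_zero, one_mul]⟩
    | succ n ih =>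
      obtain ⟨u, hu⟩ := ih
      obtain ⟨v, hv⟩ := one (f - (P + B) u)
      refine ⟨u + v, ?_⟩
      have e : (P + B) (u + v) - f = (P + B) v - (f - (P + B) u) := by rw [map_add]; abel
      rw [map_sub_rev p f] at hv
      rw [e, pow_succ]
      linarith
  intro f ε hε
  have h0 := apply_nonneg p f
  obtain ⟨n, hn⟩ := exists_pow_lt_of_lt_one (x := ε / (p f + 1)) (y := 3 / 4) (by positivity)
    (by norm_num)
  obtain ⟨u, hu⟩ := key n f
  refine ⟨u, hu.trans ?_⟩
  rw [lt_div_iff₀ (by positivity)] at hn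
  nlinarith [pow_pos (show (0 : ℝ) < 3 / 4 by norm_num) n]

/-- For large `μ` perturb `μ - lap` by the first order operator `P + lap` (`est_big` for `-lap`,
`N_Op`); then lower `μ` to `0` in steps of size `1 / (2 C)` (`est`, `N_mono`). -/
theorem dense_ell [Nonempty ι] {P : Ops H} (hP : S.Ell P)
    (pos : ∀ k (u : H k), ‖u‖ ^ 2 ≤ (⟪P k u, u⟫_ℂ).re) (k j : ℕ) : DenseR (S.N k j) (P k) := by
  obtain ⟨C, hC0, hC⟩ := S.N_Op (show P + S.lap ∈ S.Op 1 from hP) j
  have hl : S.Ell (-S.lap) := by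
    rw [Ell, neg_add_cancel]
    exact zero_mem _
  obtain ⟨μ₀, hμ₀⟩ := S.est_big hl j (δ := 1 / (2 * (C + 1))) (by positivity)
  obtain ⟨μ₁, hμ₁⟩ := S.dense_lap k j
  obtain ⟨K, hK0, hK⟩ := S.est hP pos j
  have big : ∀ μ : ℝ, max μ₀ μ₁ ≤ μ →
      DenseR (S.N k j) (P k + (μ : ℂ) • (1 : Module.End ℂ (H k))) := fun μ hμ => by
    have h1 := denseR_add (B := (P + S.lap) k) (hμ₁ μ ((le_max_right _ _).trans hμ)) fun u => by
      have h2 := hμ₀ μ ((le_max_left _ _).trans hμ) k u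
      have e : (-S.lap) k u + (μ : ℂ) • u = ((μ : ℂ) • (1 : Module.End ℂ (H k)) - S.lap k) u := by
        simp only [Pi.neg_apply, LinearMap.neg_apply, LinearMap.sub_apply, LinearMap.smul_apply,
          Module.End.one_apply]
        abel
      rw [e] at h2
      refine (hC k u).trans ((mul_le_mul_of_nonneg_left h2 hC0).trans ?_)
      have h3 : C * (1 / (2 * (C + 1))) ≤ 1 / 2 := by
        rw [mul_one_div, div_le_iff₀ (by positivity)]; linarith
      nlinarith [mul_le_mul_of_nonneg_right h3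
        (apply_nonneg (S.N k j) (((μ : ℂ) • (1 : Module.End ℂ (H k)) - S.lap k) u))]
    have e : (μ : ℂ) • (1 : Module.End ℂ (H k)) - S.lap k + (P + S.lap) k
        = P k + (μ : ℂ) • (1 : Module.End ℂ (H k)) := by
      rw [Pi.add_apply]; abel
    rwa [e] at h1
  have hh : 0 < 1 / (2 * K) := by positivity
  have down : ∀ n : ℕ, DenseR (S.N k j)
      (P k + ((n * (1 / (2 * K)) : ℝ) : ℂ) • (1 : Module.End ℂ (H k))) → DenseR (S.N k j) (P k) := by
    intro n
    induction n with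
    | zero => simp
    | succ n ih =>
      intro h
      have h1 := denseR_add (B := -(((1 / (2 * K) : ℝ) : ℂ) • (1 : Module.End ℂ (H k)))) h
        fun u => by
          have h2 := (S.N_mono k (Nat.le_succ j) u).trans
            (hK k (((n + 1 : ℕ) : ℝ) * (1 / (2 * K))) (by positivity) u)
          simp only [LinearMap.neg_apply, LinearMap.smul_apply, Module.End.one_apply,
            map_neg_eq_map, map_smul_eq_mul, LinearMap.add_apply, Complex.norm_real,
            Real.norm_of_nonneg hh.le]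
          refine (mul_le_mul_of_nonneg_left h2 hh.le).trans (le_of_eq ?_)
          field_simp
      refine ih ?_
      have e : P k + ((((n + 1 : ℕ) : ℝ) * (1 / (2 * K)) : ℝ) : ℂ) • (1 : Module.End ℂ (H k))
          + -(((1 / (2 * K) : ℝ) : ℂ) • (1 : Module.End ℂ (H k)))
          = P k + ((n * (1 / (2 * K)) : ℝ) : ℂ) • (1 : Module.End ℂ (H k)) := by
        push_cast
        module
      rwa [e] at h1
  obtain ⟨n, hn⟩ := exists_nat_ge (max μ₀ μ₁ / (1 / (2 * K)))
  exact down n (big _ ((div_le_iff₀ hh).1 hn))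

/-- choose `u n` with `N n (P (u n) - f) ≤ 1 / (n + 1)`; `est` with `ν = 0`, `complete_N`,
`N_Op` (`P ∈ Op 2`), `N_zero`. -/
theorem solve [Nonempty ι] {P : Ops H} (hP : S.Ell P)
    (pos : ∀ k (u : H k), ‖u‖ ^ 2 ≤ (⟪P k u, u⟫_ℂ).re) (k : ℕ) :
    Function.Bijective (P k) := by
  refine ⟨(injective_iff_map_eq_zero _).2 fun u hu => ?_, fun f => ?_⟩
  · have h := pos k u
    rw [hu, inner_zero_left, Complex.zero_re] at h
    exact norm_eq_zero.1 (pow_eq_zero_iff two_ne_zero |>.1 (le_antisymm h (sq_nonneg _)))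
  · choose u hu using fun n : ℕ => S.dense_ell hP pos k n f (1 / ((n : ℝ) + 1)) (by positivity)
    have hlap : S.lap ∈ S.Op 2 := by
      rw [lap]
      exact Submodule.sum_mem _ fun a _ => S.Op_mul (i := 1) (j := 1) (S.X_mem a) (S.X_mem a)
    have hP2 : P ∈ S.Op 2 := by
      have h := Submodule.sub_mem _ (S.Op_mono (by norm_num : 1 ≤ 2)
        (show P + S.lap ∈ S.Op 1 from hP)) hlap
      rwa [add_sub_cancel_right] at h
    obtain ⟨v, hv⟩ := S.complete_N k u fun j ε hε => by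
      obtain ⟨K, hK0, hK⟩ := S.est hP pos j
      obtain ⟨N, hN⟩ := exists_nat_one_div_lt (show 0 < ε / (2 * K) by positivity)
      have h0 : ∀ n, max N j ≤ n → S.N k j (P k (u n) - f) ≤ ε / (2 * K) := fun n hn => by
        refine (S.N_mono k ((le_max_right _ _).trans hn) _).trans ((hu n).trans (le_trans ?_ hN.le))
        have : (N : ℝ) ≤ n := by exact_mod_cast (le_max_left _ _).trans hn
        exact one_div_le_one_div_of_le (by positivity) (by linarith)
      refine ⟨max N j, fun n hn m hm => ?_⟩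
      have h1 := (S.N_mono k (Nat.le_succ j) _).trans (hK k 0 le_rfl (u n - u m))
      have e : P k (u n - u m) + ((0 : ℝ) : ℂ) • (u n - u m)
          = (P k (u n) - f) - (P k (u m) - f) := by simp
      rw [e] at h1
      have h2 := map_sub_le_add (S.N k j) (P k (u n) - f) (P k (u m) - f)
      refine h1.trans ((mul_le_mul_of_nonneg_left
        (h2.trans (add_le_add (h0 n hn) (h0 m hm))) hK0.le).trans (le_of_eq ?_))
      field_simp
      norm_num
    obtain ⟨C, hC0, hC⟩ := S.N_Op hP2 0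
    have lim : Tendsto (fun n : ℕ => C * S.N k (0 + 2) (u n - v) + 1 / ((n : ℝ) + 1)) atTop
        (𝓝 (C * 0 + 0)) :=
      ((hv _).const_mul C).add tendsto_one_div_add_atTop_nhds_zero_nat
    have h3 : ‖P k v - f‖ ≤ C * 0 + 0 := ge_of_tendsto' lim fun n => by
      have e : P k v - f = (P k (u n) - f) - P k (u n - v) := by rw [map_sub]; abel
      have h4 := hC k (u n - v)
      have h5 := (S.norm_le_N k n _).trans (hu n)
      rw [S.N_zero] at h4
      rw [e]
      linarith [norm_sub_le (P k (u n) - f) (P k (u n - v))]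
    rw [mul_zero, add_zero] at h3
    exact ⟨v, sub_eq_zero.1 (norm_le_zero_iff.1 h3)⟩

end Sys

end Vale.Agent.P292
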