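import Vale.Agent.P292.CA1

/-! The Kohn Laplacian and its spectral gap. -/

open scoped InnerProductSpace Topology
open Filter

noncomputable section

namespace Vale.Agent.P292

variable {H : ℕ → Type} [∀ k, NormedAddCommGroup (H k)] [∀ k, InnerProductSpace ℂ (H k)]
  {κ : Type} [Fintype κ]

/-- operators bounded by a weight -/
def CA5B (s : ∀ k, H k → ℝ) (P : Ops H) : Prop :=
  ∃ C : ℝ, 0 ≤ C ∧ ∀ k (u : H k), ‖P k u‖ ≤ C * s k u

/-- error terms bounded by a weight -/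
def CA5E (s : ∀ k, H k → ℝ) (E : ∀ k, H k → ℂ) : Prop :=
  ∃ C : ℝ, 0 ≤ C ∧ ∀ k (u : H k), ‖E k u‖ ≤ C * s k u

omit [∀ k, NormedAddCommGroup (H k)] [∀ k, InnerProductSpace ℂ (H k)] in
theorem CA5E.add {s : ∀ k, H k → ℝ} {E F : ∀ k, H k → ℂ} (h : CA5E s E) (h' : CA5E s F) :
    CA5E s fun k u => E k u + F k u := by
  obtain ⟨C, hC, h⟩ := h
  obtain ⟨C', hC', h'⟩ := h'
  refine ⟨C + C', add_nonneg hC hC', fun k u => (norm_add_le _ _).trans ?_⟩
  linarith [h k u, h' k u]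

omit [∀ k, NormedAddCommGroup (H k)] [∀ k, InnerProductSpace ℂ (H k)] in
theorem CA5E.neg {s : ∀ k, H k → ℝ} {E : ∀ k, H k → ℂ} (h : CA5E s E) :
    CA5E s fun k u => -E k u := by
  obtain ⟨C, hC, h⟩ := h
  exact ⟨C, hC, fun k u => by rw [norm_neg]; exact h k u⟩

omit [∀ k, NormedAddCommGroup (H k)] [∀ k, InnerProductSpace ℂ (H k)] in
theorem CA5E.sum {s : ∀ k, H k → ℝ} {E : κ → ∀ k, H k → ℂ} (h : ∀ a, CA5E s (E a)) :
    CA5E s fun k u => ∑ a, E a k u := by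
  choose C hC h using h
  refine ⟨∑ a, C a, Finset.sum_nonneg fun a _ => hC a, fun k u => (norm_sum_le _ _).trans ?_⟩
  rw [Finset.sum_mul]
  exact Finset.sum_le_sum fun a _ => h a k u

omit [∀ k, NormedAddCommGroup (H k)] [∀ k, InnerProductSpace ℂ (H k)] in
theorem CA5E.congr {s : ∀ k, H k → ℝ} {E F : ∀ k, H k → ℂ} (h : CA5E s E)
    (e : ∀ k u, F k u = E k u) : CA5E s F := by
  obtain ⟨C, hC, h⟩ := h
  exact ⟨C, hC, fun k u => by rw [e]; exact h k u⟩

theorem CA5B.inner {s t : ∀ k, H k → ℝ} {P Q : Ops H} (h : CA5B s P) (h' : CA5B t Q) :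
    CA5E (fun k u => s k u * t k u) (fun k u => ⟪P k u, Q k u⟫_ℂ) ∧
      CA5E (fun k u => s k u * t k u) fun k u => ⟪Q k u, P k u⟫_ℂ := by
  obtain ⟨C, hC, h⟩ := h
  obtain ⟨C', hC', h'⟩ := h'
  have key : ∀ k u, ‖P k u‖ * ‖Q k u‖ ≤ C * C' * (s k u * t k u) := fun k u =>
    (mul_le_mul (h k u) (h' k u) (norm_nonneg _) ((norm_nonneg _).trans (h k u))).trans_eq
      (by ring)
  exact ⟨⟨C * C', mul_nonneg hC hC', fun k u => (norm_inner_le_norm _ _).trans (key k u)⟩,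
    ⟨C * C', mul_nonneg hC hC', fun k u =>
      ((norm_inner_le_norm _ _).trans_eq (mul_comm _ _)).trans (key k u)⟩⟩

theorem CA5_alg {A : Type} [Ring A] [Algebra ℂ A] (x y d : A) :
    (-(x - Complex.I • y) - d) * (x + Complex.I • y) + (y * y + x * x) =
      Complex.I • (y * x - x * y) - d * (x + Complex.I • y) := by
  have h : Complex.I • Complex.I • (y * y) = -(y * y) := by
    rw [smul_smul, Complex.I_mul_I, neg_smul, one_smul]
  simp only [neg_mul, sub_mul, mul_add, smul_mul_assoc, mul_smul_comm, smul_sub, smul_neg, h]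
  abel

theorem CA5_alg' {A : Type} [Ring A] (p : κ → A) (q : Option (κ × Bool) → A) :
    ∑ a, p a - q none + 1 + ∑ a, q a =
      1 + ∑ a, (p a + (q (some (a, true)) + q (some (a, false)))) := by
  rw [Fintype.sum_option, Fintype.sum_prod_type, Finset.sum_add_distrib]
  simp only [Fintype.sum_bool]
  abel

namespace KSys

variable (S : KSys H κ)


theorem dv_mem (a : Option (κ × Bool)) : S.dv a ∈ S.M :=
  (Classical.choose_spec (S.adjX a)).1

theorem CA5_dv (a : Option (κ × Bool)) (k : ℕ) (u v : H k) :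
    ⟪S.X a k u, v⟫_ℂ = -⟪u, S.X a k v⟫_ℂ - ⟪u, S.dv a k v⟫_ℂ :=
  (Classical.choose_spec (S.adjX a)).2 k u v

/-- the zero order part of `Ls` -/
def CA5d (a : κ) : Ops H := S.dv (some (a, false)) - Complex.I • S.dv (some (a, true))

theorem CA5d_mem (a : κ) : S.CA5d a ∈ S.M :=
  S.M.sub_mem (S.dv_mem _) (S.M.smul_mem (S.dv_mem _) _)

theorem CA5_Ls (a : κ) : S.Ls a = -opLb S.X a - S.CA5d a := rfl

theorem L_mem (a : κ) : opL S.X a ∈ S.toSys.Op 1 :=
  Submodule.add_mem _ (S.toSys.X_mem _) (Submodule.smul_mem _ _ (S.toSys.X_mem _))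

theorem Ls_mem (a : κ) : S.Ls a ∈ S.toSys.Op 1 :=
  Submodule.sub_mem _ (Submodule.neg_mem _ (Submodule.sub_mem _ (S.toSys.X_mem _)
    (Submodule.smul_mem _ _ (S.toSys.X_mem _)))) (S.toSys.M_mem (S.CA5d_mem a) 1)

theorem adjL (a : κ) (k : ℕ) (u v : H k) : ⟪opL S.X a k u, v⟫_ℂ = ⟪u, S.Ls a k v⟫_ℂ := by
  simp only [opL, Ls, opLb, Pi.add_apply, Pi.sub_apply, Pi.neg_apply, Pi.smul_apply,
    LinearMap.add_apply, LinearMap.sub_apply, LinearMap.neg_apply, LinearMap.smul_apply,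
    inner_add_left, inner_smul_left, inner_sub_right, inner_neg_right, inner_smul_right,
    S.CA5_dv _ k u v, Complex.conj_I]
  ring

theorem CA5_adj (a : κ) (k : ℕ) (u v : H k) : ⟪S.Ls a k u, v⟫_ℂ = ⟪u, opL S.X a k v⟫_ℂ := by
  rw [← inner_conj_symm, ← S.adjL, inner_conj_symm]

theorem CA5_box (k : ℕ) (u : H k) : S.box k u = ∑ a, S.Ls a k (opL S.X a k u) := by
  simp only [box, Finset.sum_apply, LinearMap.sum_apply, Pi.mul_apply, Module.End.mul_apply]

theorem box_inner (k : ℕ) (u v : H k) :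
    ⟪S.box k u, v⟫_ℂ = ∑ a, ⟪opL S.X a k u, opL S.X a k v⟫_ℂ := by
  simp only [S.CA5_box, sum_inner, S.CA5_adj]

theorem box_symm (k : ℕ) (u v : H k) : ⟪S.box k u, v⟫_ℂ = ⟪u, S.box k v⟫_ℂ := by
  rw [S.box_inner]
  simp only [S.CA5_box, inner_sum, S.adjL]

theorem box_qf (k : ℕ) (u : H k) : (⟪S.box k u, u⟫_ℂ).re = S.qf k u := by
  rw [S.box_inner, Complex.re_sum, qf]
  exact Finset.sum_congr rfl fun a _ => inner_self_eq_norm_sq (𝕜 := ℂ) _

theorem boxp_apply (k : ℕ) (u : H k) :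
    S.boxp k u = S.box k u + (((k : ℝ) ^ 2 + 1 : ℝ) : ℂ) • u := by
  simp only [boxp, Pi.add_apply, Pi.sub_apply, Pi.mul_apply, Pi.one_apply, LinearMap.add_apply,
    LinearMap.sub_apply, Module.End.mul_apply, Module.End.one_apply, S.vert, smul_smul]
  rw [show Complex.I * k * (Complex.I * k) = -(k : ℂ) ^ 2 by
    linear_combination (k : ℂ) ^ 2 * Complex.I_mul_I]
  push_cast
  module

theorem CA5_qf (k : ℕ) (u : H k) : 0 ≤ S.qf k u := Finset.sum_nonneg fun _ _ => sq_nonneg _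

theorem boxp_pos (k : ℕ) (u : H k) : ‖u‖ ^ 2 ≤ (⟪S.boxp k u, u⟫_ℂ).re := by
  rw [S.boxp_apply, inner_add_left, Complex.add_re, S.box_qf, inner_smul_left,
    Complex.conj_ofReal, Complex.re_ofReal_mul,
    show (⟪u, u⟫_ℂ).re = ‖u‖ ^ 2 from inner_self_eq_norm_sq (𝕜 := ℂ) u]
  nlinarith [S.CA5_qf k u, mul_nonneg (sq_nonneg (k : ℝ)) (sq_nonneg ‖u‖)]

/-- `(X - iY) (X + iY) = X X + Y Y + i [X, Y]`; split the sum with `Fintype.sum_option`,
`Fintype.sum_prod_type`, `Fintype.sum_bool`. -/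
theorem boxp_ell : S.toSys.Ell S.boxp := by
  have e : ∀ a, S.Ls a * opL S.X a + (S.X (some (a, true)) * S.X (some (a, true)) +
      S.X (some (a, false)) * S.X (some (a, false))) =
      Complex.I • (S.X (some (a, true)) * S.X (some (a, false)) -
        S.X (some (a, false)) * S.X (some (a, true))) - S.CA5d a * opL S.X a := fun a =>
    CA5_alg _ _ _
  have e2 : S.boxp + S.toSys.lap = 1 + ∑ a, (S.Ls a * opL S.X a +
      (S.X (some (a, true)) * S.X (some (a, true)) +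
        S.X (some (a, false)) * S.X (some (a, false)))) :=
    CA5_alg' (fun a => S.Ls a * opL S.X a) fun a => S.X a * S.X a
  rw [Sys.Ell, e2]
  refine Submodule.add_mem _ (S.toSys.one_mem 1) (Submodule.sum_mem _ fun a _ => ?_)
  rw [e]
  have h1 := S.toSys.Op_mul (S.toSys.M_mem (S.CA5d_mem a) 0) (S.L_mem a)
  rw [Nat.zero_add] at h1
  have h2 := S.toSys.Op_comm (S.toSys.X_mem (some (a, false))) (some (a, true))
  exact Submodule.sub_mem _ (Submodule.smul_mem _ _ h2) h1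

theorem CA5_leib (a : κ) {f : Ops H} (hf : f ∈ S.M) : opL S.X a * f - f * opL S.X a ∈ S.M := by
  have e : opL S.X a * f - f * opL S.X a = (S.X (some (a, false)) * f - f * S.X (some (a, false)))
      + Complex.I • (S.X (some (a, true)) * f - f * S.X (some (a, true))) := by
    simp only [opL, add_mul, mul_add, smul_mul_assoc, mul_smul_comm, smul_sub]
    abel
  rw [e]
  exact S.M.add_mem (S.leib _ f hf) (S.M.smul_mem (S.leib _ f hf) _)

theorem CA5_mul {s : ∀ k, H k → ℝ} {f P : Ops H} (hf : f ∈ S.M) (h : CA5B s P) :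
    CA5B s (f * P) := by
  obtain ⟨C, hC, h⟩ := h
  obtain ⟨D, hD⟩ := S.bdd f hf
  refine ⟨|D| * C, by positivity, fun k u => (hD k (P k u)).trans ?_⟩
  rw [mul_assoc]
  exact (mul_le_mul_of_nonneg_right (le_abs_self D) (norm_nonneg _)).trans
    (mul_le_mul_of_nonneg_left (h k u) (abs_nonneg D))

/-- the second order energy -/
def CA5G (k : ℕ) (u : H k) : ℝ := ∑ a, ∑ b, ‖opL S.X b k (opL S.X a k u)‖ ^ 2

theorem CA5_one (a : κ) : CA5B (fun k u => √(S.qf k u)) (opL S.X a) :=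
  ⟨1, zero_le_one, fun k u => by
    rw [one_mul]
    exact Real.le_sqrt_of_sq_le (Finset.single_le_sum (f := fun a => ‖opL S.X a k u‖ ^ 2)
      (fun _ _ => sq_nonneg _) (Finset.mem_univ a))⟩

theorem CA5_one' (a : κ) : CA5B (fun k u => √(S.CA5G k u) + √(S.qf k u)) (opL S.X a) := by
  obtain ⟨C, hC, h⟩ := S.CA5_one a
  exact ⟨C, hC, fun k u => (h k u).trans
    (mul_le_mul_of_nonneg_left (le_add_of_nonneg_left (Real.sqrt_nonneg _)) hC)⟩

theorem CA5_two (a b : κ) :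
    CA5B (fun k u => √(S.CA5G k u) + √(S.qf k u)) (opL S.X b * opL S.X a) :=
  ⟨1, zero_le_one, fun k u => by
    rw [one_mul]
    refine le_add_of_le_of_nonneg (Real.le_sqrt_of_sq_le ?_) (Real.sqrt_nonneg _)
    exact (Finset.single_le_sum (f := fun b => ‖opL S.X b k (opL S.X a k u)‖ ^ 2)
      (fun _ _ => sq_nonneg _) (Finset.mem_univ b)).trans
      (Finset.single_le_sum (f := fun a => ∑ b, ‖opL S.X b k (opL S.X a k u)‖ ^ 2)
        (fun _ _ => Finset.sum_nonneg fun _ _ => sq_nonneg _) (Finset.mem_univ a))⟩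

theorem CA5_bar (a b e : κ) {f : Ops H} (hf : f ∈ S.M) :
    CA5E (fun k u => (√(S.CA5G k u) + √(S.qf k u)) * √(S.qf k u))
      fun k u => ⟪f k (opLb S.X e k (opL S.X a k u)), opL S.X b k u⟫_ℂ := by
  obtain ⟨g, hg, h⟩ := S.adjM f hf
  refine ((((S.CA5_mul hg (S.CA5_two b e)).inner (S.CA5_one a)).2.add
    ((S.CA5_mul (S.CA5_leib e hg) (S.CA5_one' b)).inner (S.CA5_one a)).2).add
    ((S.CA5_mul (S.CA5d_mem e) (S.CA5_one' a)).inner (S.CA5_mul hg (S.CA5_one b))).1).neg.congr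
    fun k u => ?_
  have e1 := S.CA5_adj e k (opL S.X a k u) (g k (opL S.X b k u))
  simp only [S.CA5_Ls, Pi.sub_apply, Pi.neg_apply, LinearMap.sub_apply, LinearMap.neg_apply,
    inner_sub_left, inner_neg_left] at e1
  simp only [h, Pi.mul_apply, Pi.sub_apply, Module.End.mul_apply, LinearMap.sub_apply,
    inner_sub_right]
  linear_combination -e1

theorem CA5_pair (a b : κ) {θ : Ops H} {c c' : κ → Ops H} (hc : ∀ e, c e ∈ S.M)
    (hc' : ∀ e, c' e ∈ S.M) (h : opLb S.X a * opL S.X b - opL S.X b * opLb S.X a =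
      θ * S.X none + ∑ e, c e * opL S.X e + ∑ e, c' e * opLb S.X e) :
    CA5E (fun k u => (√(S.CA5G k u) + √(S.qf k u)) * √(S.qf k u))
      fun k u => ⟪opL S.X b k (S.Ls a k (opL S.X a k u)), opL S.X b k u⟫_ℂ -
        ⟪opL S.X b k (opL S.X a k u), opL S.X b k (opL S.X a k u)⟫_ℂ -
        k * ⟪θ k (Complex.I • opL S.X a k u), opL S.X b k u⟫_ℂ := by
  obtain ⟨n, hn, h'⟩ := S.nij a b
  refine ((((CA5E.sum fun e => ((S.CA5_two a b).inner (S.CA5_mul (hn e) (S.CA5_one e))).1).add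
    (CA5E.sum fun e => ((S.CA5_mul (hc e) (S.CA5_two a e)).inner (S.CA5_one b)).1)).add
    (CA5E.sum fun e => S.CA5_bar a b e (hc' e))).add
    ((S.CA5_mul (S.CA5_leib b (S.CA5d_mem a)) (S.CA5_one' a)).inner (S.CA5_one b)).1.neg).congr
    fun k u => ?_
  have e1 := congrArg (fun P : Ops H => ⟪P k (opL S.X a k u), opL S.X b k u⟫_ℂ) h
  have e2 := congrArg (fun P : Ops H => ⟪opL S.X b k (opL S.X a k u), P k u⟫_ℂ) h'
  have e3 := S.CA5_adj a k (opL S.X b k (opL S.X a k u)) (opL S.X b k u)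
  have e4 : ⟪θ k (S.X none k (opL S.X a k u)), opL S.X b k u⟫_ℂ =
      k * ⟪θ k (Complex.I • opL S.X a k u), opL S.X b k u⟫_ℂ := by
    rw [S.vert, mul_comm, mul_smul, map_smul, inner_smul_left, map_natCast]
  simp only [S.CA5_Ls, Pi.sub_apply, Pi.neg_apply, Pi.add_apply, Pi.mul_apply, Finset.sum_apply,
    LinearMap.sub_apply, LinearMap.neg_apply, LinearMap.add_apply, LinearMap.sum_apply,
    Module.End.mul_apply, inner_sub_left, inner_neg_left, inner_add_left, sum_inner,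
    inner_sub_right, inner_sum, map_sub, map_neg] at e1 e2 e3 ⊢
  linear_combination e1 + e2 + e3 + e4

/-- `w a = L a u`.  `‖box u‖ ^ 2 = ∑ ⟪L b Ls a w a, w b⟫`,
`L b Ls a = Ls a L b + [Lb a, L b] - [L b, δ a]` with `δ a ∈ M`, `[L b, δ a] ∈ M` (`leib`).
`⟪Ls a L b w a, w b⟫ = ⟪L b w a, L a w b⟫` and `L a w b = L b w a + ∑ c e w e` (`nij`).
In `[Lb a, L b]` the vertical part gives `k ⟪θ a b (i w a), w b⟫` (`vert`, `levi`), the `L e`
terms are absorbed in `G = ∑ ‖L b w a‖ ^ 2`, and `⟪c' Lb e w, w'⟫ = ⟪Lb e w, g w'⟫ =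
-⟪w, L e (g w')⟫ + O(‖w‖ ‖w'‖)` (`adjM`, `adjX`), `L e g = g L e + [L e, g]`. All error terms are
at most `C √G √q + C q ≤ G + C' q`. -/
theorem kohn : ∃ c C : ℝ, 0 < c ∧ ∀ k (u : H k), (c * k - C) * S.qf k u ≤ ‖S.box k u‖ ^ 2 := by
  obtain ⟨θ, c₀, hc₀, hθ, hl⟩ := S.levi
  obtain ⟨C, hC, hE⟩ := CA5E.sum fun a => CA5E.sum fun b => by
    obtain ⟨-, c, c', hc, hc', h⟩ := hθ a b
    exact S.CA5_pair a b hc hc' h
  refine ⟨c₀, C ^ 2 + C, hc₀, fun k u => ?_⟩
  have e1 : ⟪S.box k u, S.box k u⟫_ℂ =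
      ∑ a, ∑ b, ⟪opL S.X b k (S.Ls a k (opL S.X a k u)), opL S.X b k u⟫_ℂ := by
    rw [← S.box_symm, S.box_inner, Finset.sum_comm]
    simp only [S.CA5_box, map_sum, sum_inner]
  have e2 : (∑ a, ∑ b, ⟪opL S.X b k (opL S.X a k u), opL S.X b k (opL S.X a k u)⟫_ℂ).re =
      S.CA5G k u := by
    simp only [Complex.re_sum, CA5G]
    exact Finset.sum_congr rfl fun a _ => Finset.sum_congr rfl fun b _ =>
      inner_self_eq_norm_sq (𝕜 := ℂ) _
  have h1 := (Complex.abs_re_le_norm _).trans (hE k u)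
  simp only [Finset.sum_sub_distrib, ← Finset.mul_sum] at h1
  rw [← e1, Complex.sub_re, Complex.sub_re, e2, ← Complex.ofReal_natCast, Complex.re_ofReal_mul,
    show (⟪S.box k u, S.box k u⟫_ℂ).re = ‖S.box k u‖ ^ 2 from inner_self_eq_norm_sq (𝕜 := ℂ) _]
    at h1
  have h2 := mul_le_mul_of_nonneg_left (hl k u) (Nat.cast_nonneg (α := ℝ) k)
  have h3 := (abs_le.1 h1).1
  have h4 := Real.sq_sqrt (S.CA5_qf k u)
  have h5 : √(S.CA5G k u) ^ 2 = S.CA5G k u :=
    Real.sq_sqrt (Finset.sum_nonneg fun _ _ => Finset.sum_nonneg fun _ _ => sq_nonneg _)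
  change (k : ℝ) * (c₀ * S.qf k u) ≤ _ at h2
  generalize √(S.qf k u) = n at *
  generalize √(S.CA5G k u) = g at *
  rw [← h4] at h2 ⊢
  nlinarith [sq_nonneg (g - C * n), sq_nonneg g, sq_nonneg (C * n)]

end KSys

end Vale.Agent.P292
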