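import Vale.Agent.P292.CA4
import Vale.Agent.P292.CA5

/-! The projection on the kernel. -/

open scoped InnerProductSpace Topology
open Filter

noncomputable section

namespace Vale.Agent.P292

variable {H : ℕ → Type} [∀ k, NormedAddCommGroup (H k)] [∀ k, InnerProductSpace ℂ (H k)]
  {κ : Type} [Fintype κ]

theorem ca6_geo {E : Type} [AddCommGroup E] [Module ℂ E] (p : Seminorm ℂ E) (x : ℕ → E)
    {A θ : ℝ} (hA : 0 ≤ A) (h0 : 0 ≤ θ) (h1 : θ < 1) (h : ∀ i, p (x i - x (i + 1)) ≤ A * θ ^ i)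
    {n m : ℕ} (hnm : n ≤ m) : p (x n - x m) ≤ A / (1 - θ) * θ ^ n := by
  obtain ⟨d, rfl⟩ := Nat.exists_eq_add_of_le hnm
  have h2 : 0 < 1 - θ := by linarith
  have key : p (x n - x (n + d)) ≤ A / (1 - θ) * (θ ^ n - θ ^ (n + d)) := by
    induction d with
    | zero => simp
    | succ d ih =>
      have e1 : x n - x (n + (d + 1)) = (x n - x (n + d)) + (x (n + d) - x (n + d + 1)) := by
        rw [← add_assoc]
        abel
      have e2 : A / (1 - θ) * (θ ^ n - θ ^ (n + (d + 1))) =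
          A / (1 - θ) * (θ ^ n - θ ^ (n + d)) + A * θ ^ (n + d) := by
        rw [← add_assoc, pow_succ]
        field_simp
        ring
      rw [e1, e2]
      exact (map_add_le_add p _ _).trans (add_le_add (ih (Nat.le_add_right _ _)) (h _))
  refine key.trans (mul_le_mul_of_nonneg_left ?_ (by positivity))
  have : 0 ≤ θ ^ (n + d) := by positivity
  linarith

namespace KSys

variable (S : KSys H κ)


theorem ca6_qf_nonneg (k : ℕ) (u : H k) : 0 ≤ S.qf k u :=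
  Finset.sum_nonneg fun _ _ => sq_nonneg _

theorem ca6_qf_add (k : ℕ) (z : H k) (t : ℝ) :
    S.qf k z + 2 * t * ‖S.box k z‖ ^ 2 ≤ S.qf k (z + (t : ℂ) • S.box k z) := by
  have h1 : ‖S.box k z‖ ^ 2 =
      ∑ a, (⟪opL S.X a k z, opL S.X a k (S.box k z)⟫_ℂ).re := by
    rw [← Complex.re_sum, ← S.box_inner, ← inner_self_eq_norm_sq (𝕜 := ℂ)]
    rfl
  rw [h1, qf, qf, Finset.mul_sum, ← Finset.sum_add_distrib]
  refine Finset.sum_le_sum fun a _ => ?_
  rw [map_add, map_smul, norm_add_sq (𝕜 := ℂ), inner_smul_right]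
  have h2 : RCLike.re ((t : ℂ) * ⟪opL S.X a k z, opL S.X a k (S.box k z)⟫_ℂ) =
      t * (⟪opL S.X a k z, opL S.X a k (S.box k z)⟫_ℂ).re := Complex.re_ofReal_mul _ _
  rw [h2]
  have h3 := sq_nonneg ‖(t : ℂ) • opL S.X a k (S.box k z)‖
  linarith

theorem ca6_step {k : ℕ} (gap : ∀ u : H k, S.qf k u ≤ ‖S.box k u‖ ^ 2) {ν : ℝ} (hν : 1 ≤ ν)
    {y z : H k} (h : S.box k z + (ν : ℂ) • z = (ν : ℂ) • y) :
    √(S.qf k z) ≤ (1 - 1 / (4 * ν)) * √(S.qf k y) ∧ ‖y - z‖ ≤ √(S.qf k y) := by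
  have hν0 : 0 < ν := by linarith
  have hνc : (ν : ℂ) ≠ 0 := by exact_mod_cast hν0.ne'
  have e1 : y = z + ((1 / ν : ℝ) : ℂ) • S.box k z := by
    refine smul_right_injective _ hνc ?_
    show (ν : ℂ) • y = (ν : ℂ) • (z + ((1 / ν : ℝ) : ℂ) • S.box k z)
    rw [← h, smul_add, smul_smul, add_comm]
    congr 1
    rw [← Complex.ofReal_mul, mul_one_div_cancel hν0.ne', Complex.ofReal_one, one_smul]
  have h1 := S.ca6_qf_add k z (1 / ν)
  rw [← e1] at h1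
  have h2 := gap z
  have h3 := S.ca6_qf_nonneg k z
  have h4 := S.ca6_qf_nonneg k y
  obtain ⟨t, ht⟩ : ∃ t, t = 1 / ν := ⟨_, rfl⟩
  have t0 : 0 < t := by rw [ht]; positivity
  have t1 : t ≤ 1 := by rw [ht]; exact (div_le_one hν0).2 hν
  have e2 : 1 / (4 * ν) = t / 4 := by rw [ht]; field_simp
  rw [← ht] at h1 e1
  rw [e2]
  constructor
  · have h5 : 0 ≤ 1 - t / 4 := by linarith
    rw [← Real.sqrt_sq h5, ← Real.sqrt_mul (sq_nonneg _)]
    refine Real.sqrt_le_sqrt ?_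
    have h6 : (1 + 2 * t) * S.qf k z ≤ S.qf k y := by nlinarith
    have h7 : 1 ≤ (1 - t / 4) ^ 2 * (1 + 2 * t) := by nlinarith [mul_nonneg t0.le (sub_nonneg.2 t1)]
    calc S.qf k z = 1 * S.qf k z := (one_mul _).symm
      _ ≤ (1 - t / 4) ^ 2 * (1 + 2 * t) * S.qf k z := by gcongr
      _ = (1 - t / 4) ^ 2 * ((1 + 2 * t) * S.qf k z) := by ring
      _ ≤ _ := by gcongr
  · refine Real.le_sqrt_of_sq_le ?_
    have e3 : y - z = (t : ℂ) • S.box k z := by rw [e1]; abel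
    rw [e3, norm_smul, Complex.norm_real, Real.norm_of_nonneg t0.le, mul_pow]
    have h5 := sq_nonneg ‖S.box k z‖
    nlinarith [mul_nonneg t0.le h5]

theorem ca6_sqrt_le (k : ℕ) (u : H k) : √(S.qf k u) ≤ ∑ a, ‖opL S.X a k u‖ := by
  refine Real.sqrt_le_iff.2 ⟨Finset.sum_nonneg fun _ _ => norm_nonneg _, ?_⟩
  exact Finset.sum_sq_le_sq_sum_of_nonneg fun _ _ => norm_nonneg _

theorem ca6_le_sqrt (k : ℕ) (u : H k) (a : κ) : ‖opL S.X a k u‖ ≤ √(S.qf k u) :=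
  Real.le_sqrt_of_sq_le (Finset.single_le_sum (f := fun a => ‖opL S.X a k u‖ ^ 2)
    (fun _ _ => sq_nonneg _) (Finset.mem_univ a))

theorem ca6_main {k : ℕ} (gap : ∀ u : H k, S.qf k u ≤ ‖S.box k u‖ ^ 2) {C : ℕ → ℝ}
    (hC0 : ∀ j, 0 < C j) (hC : ∀ j (u : H k), S.toSys.N k j u ≤ C j * ‖(S.boxp k ^ j) u‖)
    (u : H k) : ∃ s : H k, (∀ a, opL S.X a k s = 0) ∧ ∀ j, S.toSys.N k j (s - u) ≤
      4 * ((k : ℝ) ^ 2 + 1) * C j * √(S.qf k ((S.boxp k ^ j) u)) := by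
  obtain ⟨ν, hν⟩ : ∃ ν : ℝ, ν = (k : ℝ) ^ 2 + 1 := ⟨_, rfl⟩
  have hν1 : 1 ≤ ν := by rw [hν]; nlinarith [sq_nonneg (k : ℝ)]
  have hbij := S.toSys.solve S.boxp_ell S.boxp_pos k
  obtain ⟨T, hT⟩ : ∃ T : Module.End ℂ (H k), ∀ y, S.boxp k (T y) = (ν : ℂ) • y :=
    ⟨(ν : ℂ) • (LinearEquiv.ofBijective (S.boxp k) hbij).symm.toLinearMap, fun y => by
      rw [LinearMap.smul_apply, map_smul]
      congr 1
      exact (LinearEquiv.ofBijective (S.boxp k) hbij).apply_symm_apply y⟩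
  have hcomm : Commute (S.boxp k) T := by
    refine LinearMap.ext fun y => hbij.1 ?_
    show S.boxp k (S.boxp k (T y)) = S.boxp k (T (S.boxp k y))
    rw [hT, hT, map_smul]
  have hst : ∀ y, √(S.qf k (T y)) ≤ (1 - 1 / (4 * ν)) * √(S.qf k y) ∧
      ‖y - T y‖ ≤ √(S.qf k y) := fun y =>
    S.ca6_step gap hν1 (by rw [← hT y, S.boxp_apply k (T y), hν])
  obtain ⟨θ, hθ⟩ : ∃ θ : ℝ, θ = 1 - 1 / (4 * ν) := ⟨_, rfl⟩
  have hν4 : 0 < 1 / (4 * ν) := by positivity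
  have θ1 : θ < 1 := by linarith
  have θ0 : 0 ≤ θ := by
    have : 1 / (4 * ν) ≤ 1 := (div_le_one (by positivity)).2 (by linarith)
    linarith
  rw [← hθ] at hst
  have hq : ∀ i y, √(S.qf k ((T ^ i) y)) ≤ θ ^ i * √(S.qf k y) := by
    intro i y
    induction i with
    | zero => simp
    | succ i ih =>
      rw [pow_succ', pow_succ', Module.End.mul_apply, mul_assoc]
      exact (hst _).1.trans (mul_le_mul_of_nonneg_left ih θ0)
  have hd : ∀ j i, S.toSys.N k j ((T ^ i) u - (T ^ (i + 1)) u) ≤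
      C j * √(S.qf k ((S.boxp k ^ j) u)) * θ ^ i := by
    intro j i
    have e1 : ∀ i, (S.boxp k ^ j) ((T ^ i) u) = (T ^ i) ((S.boxp k ^ j) u) := fun i =>
      LinearMap.congr_fun (hcomm.pow_pow j i).eq u
    refine (hC j _).trans ?_
    rw [map_sub, e1, e1, pow_succ', Module.End.mul_apply, mul_assoc]
    refine mul_le_mul_of_nonneg_left ((hst _).2.trans ?_) (hC0 j).le
    rw [mul_comm]
    exact hq _ _
  have hA : ∀ j, 0 ≤ C j * √(S.qf k ((S.boxp k ^ j) u)) := fun j =>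
    mul_nonneg (hC0 j).le (Real.sqrt_nonneg _)
  have hg := fun j n m (h : n ≤ m) =>
    ca6_geo (S.toSys.N k j) (fun i => (T ^ i) u) (hA j) θ0 θ1 (hd j) h
  have hlim := tendsto_pow_atTop_nhds_zero_of_lt_one θ0 θ1
  obtain ⟨s, hs⟩ := S.toSys.complete_N k (fun i => (T ^ i) u) fun j ε hε => by
    have h1 := hlim.const_mul (C j * √(S.qf k ((S.boxp k ^ j) u)) / (1 - θ))
    rw [mul_zero] at h1
    obtain ⟨n₀, hn₀⟩ := eventually_atTop.1 (h1.eventually (ge_mem_nhds hε))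
    refine ⟨n₀, fun n hn m hm => ?_⟩
    rcases le_total n m with h | h
    · exact (hg j n m h).trans (hn₀ n hn)
    · rw [map_sub_rev]
      exact (hg j m n h).trans (hn₀ m hm)
  refine ⟨s, fun a => ?_, fun j => ?_⟩
  · obtain ⟨D, -, hD⟩ := S.toSys.N_Op (S.L_mem a) 0
    have h1 := (hlim.mul_const √(S.qf k u)).add ((hs (0 + 1)).const_mul D)
    rw [zero_mul, mul_zero, add_zero] at h1
    refine norm_le_zero_iff.1 (ge_of_tendsto' h1 fun n => ?_)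
    have e1 : opL S.X a k s = opL S.X a k ((T ^ n) u) - opL S.X a k ((T ^ n) u - s) := by
      rw [← map_sub, sub_sub_cancel]
    rw [e1]
    refine (norm_sub_le _ _).trans (add_le_add ((S.ca6_le_sqrt k _ a).trans (hq n u)) ?_)
    rw [← S.toSys.N_zero]
    exact hD k _
  · have h1 := (hs j).add_const (C j * √(S.qf k ((S.boxp k ^ j) u)) / (1 - θ) * θ ^ 0)
    rw [zero_add] at h1
    refine (ge_of_tendsto' h1 fun n => ?_).trans (le_of_eq ?_)
    · have e1 : s - u = -(((T ^ n) u - s) + ((T ^ 0) u - (T ^ n) u)) := by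
        rw [pow_zero, Module.End.one_apply]
        abel
      rw [e1, map_neg_eq_map]
      exact (map_add_le_add _ _ _).trans (add_le_add le_rfl (hg j 0 n (Nat.zero_le n)))
    · rw [hθ, ← hν, pow_zero, sub_sub_cancel]
      field_simp

/-- `L a (box + ν) w = ν L a w + ∑ b, (L a * Ls b) (L b w)`, `L a * Ls b ∈ Op 2`; induction on
`i` for all `p`. -/
theorem L_pow (i p : ℕ) : ∃ C : ℝ, 0 ≤ C ∧ ∀ k (u : H k),
    ∑ a, S.toSys.N k p (opL S.X a k ((S.boxp k ^ i) u)) ≤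
      C * ((k : ℝ) ^ 2 + 1) ^ i * ∑ a, S.toSys.N k (p + 2 * i) (opL S.X a k u) := by
  induction i generalizing p with
  | zero => exact ⟨1, zero_le_one, fun k u => by simp⟩
  | succ i ih =>
    obtain ⟨C, hC0, hC⟩ := ih (p + 2)
    have h1 := fun a b => S.toSys.N_Op (S.toSys.Op_mul (S.L_mem a) (S.Ls_mem b)) p
    choose D hD0 hD using h1
    have hD1 : 0 ≤ ∑ a, ∑ b, D a b :=
      Finset.sum_nonneg fun a _ => Finset.sum_nonneg fun b _ => hD0 a b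
    refine ⟨(1 + ∑ a, ∑ b, D a b) * C, by positivity, fun k u => ?_⟩
    obtain ⟨ν, hν⟩ : ∃ ν : ℝ, ν = (k : ℝ) ^ 2 + 1 := ⟨_, rfl⟩
    have hν1 : 1 ≤ ν := by rw [hν]; nlinarith [sq_nonneg (k : ℝ)]
    have h2 := hC k u
    rw [pow_succ' (S.boxp k), Module.End.mul_apply, show p + 2 * (i + 1) = p + 2 + 2 * i by ring]
    rw [← hν] at h2 ⊢
    generalize (S.boxp k ^ i) u = w at h2 ⊢
    obtain ⟨Z, hZ⟩ : ∃ Z, Z = ∑ a, S.toSys.N k (p + 2) (opL S.X a k w) := ⟨_, rfl⟩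
    have hZ0 : 0 ≤ Z := hZ ▸ Finset.sum_nonneg fun a _ => apply_nonneg _ _
    have hZ1 : ∀ b, S.toSys.N k (p + 2) (opL S.X b k w) ≤ Z := fun b => hZ ▸
      Finset.single_le_sum (f := fun a => S.toSys.N k (p + 2) (opL S.X a k w))
        (fun _ _ => apply_nonneg _ _) (Finset.mem_univ b)
    have h3 : ∀ a, S.toSys.N k p (opL S.X a k (S.boxp k w)) ≤
        (∑ b, D a b) * Z + ν * S.toSys.N k (p + 2) (opL S.X a k w) := by
      intro a
      have e1 : opL S.X a k (S.box k w) = ∑ b, (opL S.X a * S.Ls b) k (opL S.X b k w) := by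
        simp only [box, Finset.sum_apply, LinearMap.sum_apply, map_sum, Pi.mul_apply,
          Module.End.mul_apply]
      rw [S.boxp_apply, ← hν, map_add, map_smul, e1]
      refine (map_add_le_add _ _ _).trans (add_le_add ?_ ?_)
      · rw [Finset.sum_mul]
        refine (Finset.le_sum_of_subadditive (S.toSys.N k p) (map_zero _).le (map_add_le_add _) _
          _).trans (Finset.sum_le_sum fun b _ => ?_)
        exact (hD a b k _).trans (mul_le_mul_of_nonneg_left (hZ1 b) (hD0 a b))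
      · rw [map_smul_eq_mul, Complex.norm_real, Real.norm_of_nonneg (by linarith)]
        exact mul_le_mul_of_nonneg_left (S.toSys.N_mono k (by omega) _) (by linarith)
    have h4 := Finset.sum_le_sum fun a (_ : a ∈ Finset.univ) => h3 a
    rw [Finset.sum_add_distrib, ← Finset.sum_mul, ← Finset.mul_sum, ← hZ] at h4
    rw [← hZ] at h2
    calc _ ≤ _ := h4
      _ ≤ (∑ a, ∑ b, D a b) * (ν * Z) + ν * Z := by
        have : Z ≤ ν * Z := le_mul_of_one_le_left hZ0 hν1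
        gcongr
      _ = (1 + ∑ a, ∑ b, D a b) * ν * Z := by ring
      _ ≤ (1 + ∑ a, ∑ b, D a b) * ν *
          (C * ν ^ i * ∑ a, S.toSys.N k (p + 2 + 2 * i) (opL S.X a k u)) := by
        have : 0 ≤ ν := by linarith
        gcongr
      _ = _ := by ring

/-- `ν = k ^ 2 + 1`, `T = ν boxp⁻¹` (`solve`), `y = T y + box (T y) / ν`, so
`qf y = qf (T y) + 2 ‖box T y‖ ^ 2 / ν + qf (box T y) / ν ^ 2`; with the gap `qf ≤ ‖box‖ ^ 2`
(`kohn`, `c k - C ≥ 1`) `qf (T y) ≤ (1 - 1 / (4 ν)) ^ 2 qf y` and `‖box T y‖ ^ 2 ≤ ν qf y / 2`.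
`T` commutes with `boxp`, `box`; `N j (T ^ i u - T ^ (i+1) u) ≤ C ‖box T ^ (i+1) boxp ^ j u‖ / ν`
(`est_pow`) is at most `C (1 - 1 / (4 ν)) ^ i √(qf (boxp ^ j u))`; geometric sums,
`complete_N`, `L_pow`. -/
theorem proj (j : ℕ) : ∃ (n m k₀ : ℕ) (B : ℝ), 0 ≤ B ∧ ∀ k, k₀ ≤ k → ∀ u : H k, ∃ s : H k,
    (∀ a, opL S.X a k s = 0) ∧
      S.toSys.N k j (s - u) ≤ B * (k : ℝ) ^ m * ∑ a, S.toSys.N k n (opL S.X a k u) := by
  obtain ⟨c, C₀, hc, hk⟩ := S.kohn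
  choose C hC0 hC using fun j => S.toSys.est_pow S.boxp_ell S.boxp_pos j
  obtain ⟨D, hD0, hD⟩ := S.L_pow j 0
  obtain ⟨k₁, hk₁⟩ := exists_nat_ge ((C₀ + 1) / c)
  have hCj := hC0 j
  refine ⟨0 + 2 * j, 2 * (j + 1), max k₁ 1, 4 * C j * D * 2 ^ (j + 1), by positivity,
    fun k hk0 u => ?_⟩
  have h1 : (k₁ : ℝ) ≤ k := by exact_mod_cast (le_max_left _ _).trans hk0
  have h2 : (1 : ℝ) ≤ k := by exact_mod_cast (le_max_right _ _).trans hk0
  have h3 : 1 ≤ c * k - C₀ := by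
    have := (div_le_iff₀' hc).1 (hk₁.trans h1)
    linarith
  obtain ⟨s, hs, hb⟩ := S.ca6_main (k := k)
    (fun u => (le_mul_of_one_le_left (S.ca6_qf_nonneg k u) h3).trans (hk k u)) hC0
    (fun j => hC j k) u
  refine ⟨s, hs, (hb j).trans ?_⟩
  have h4 := hD k u
  simp only [Sys.N_zero] at h4
  have h5 := (S.ca6_sqrt_le k _).trans h4
  have h6 : 0 ≤ ∑ a, S.toSys.N k (0 + 2 * j) (opL S.X a k u) :=
    Finset.sum_nonneg fun a _ => apply_nonneg _ _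
  generalize ∑ a, S.toSys.N k (0 + 2 * j) (opL S.X a k u) = Z at h5 h6 ⊢
  have h7 : (k : ℝ) ^ 2 + 1 ≤ 2 * (k : ℝ) ^ 2 := by nlinarith
  calc _ ≤ 4 * ((k : ℝ) ^ 2 + 1) * C j * (D * ((k : ℝ) ^ 2 + 1) ^ j * Z) := by gcongr
    _ = 4 * C j * D * ((k : ℝ) ^ 2 + 1) ^ (j + 1) * Z := by ring
    _ ≤ 4 * C j * D * (2 * (k : ℝ) ^ 2) ^ (j + 1) * Z := by gcongr
    _ = _ := by rw [mul_pow, ← pow_mul]; ring

end KSys

end Vale.Agent.P292
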