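import Vale.Agent.P292.CR0

/-! The action, tubes, transitions. -/

set_option maxSynthPendingDepth 3

open scoped ContDiff Topology ComplexConjugate
open Set Filter MeasureTheory

noncomputable section

namespace Vale.Agent.P292

variable {V : Type} [NormedAddCommGroup V] [NormedSpace ℝ V] {C : Type} [TopologicalSpace C]
  {A : Cone V C}

namespace Cone

theorem ch_mem (c : C) : c ∈ (A.τ (A.ch c)).source := by
  sorry

theorem mem_target {j : A.ι} {p : V × ℂ} : p ∈ (A.τ j).target ↔ p.1 ∈ A.base j ∧ p.2 ≠ 0 := by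
  sorry

theorem act_one (c : C) : A.act 1 c = c := by
  sorry

theorem act_act {l l' : ℂ} (hl : l ≠ 0) (hl' : l' ≠ 0) (c : C) :
    A.act l (A.act l' c) = A.act (l * l') c := by
  sorry

theorem act_mem_iff {j : A.ι} {l : ℂ} (hl : l ≠ 0) {c : C} :
    A.act l c ∈ (A.τ j).source ↔ c ∈ (A.τ j).source := by
  sorry

theorem scale_mem {j : A.ι} {p : V × ℂ} (hp : p ∈ (A.τ j).target) {l : ℂ} (hl : l ≠ 0) :
    (p.1, l * p.2) ∈ (A.τ j).target := by
  sorry

theorem symm_scale {j : A.ι} {p : V × ℂ} (hp : p ∈ (A.τ j).target) {l : ℂ} (hl : l ≠ 0) :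
    (A.τ j).symm (p.1, l * p.2) = A.act l ((A.τ j).symm p) := by
  sorry

/-- every point of a chart is a multiple of a point with second coordinate one -/
theorem eq_act_one {j : A.ι} {c : C} (hc : c ∈ (A.τ j).source) :
    (A.τ j c).2 ≠ 0 ∧ (A.τ j c).1 ∈ A.base j ∧
      c = A.act (A.τ j c).2 ((A.τ j).symm ((A.τ j c).1, 1)) := by
  sorry

theorem act_mem_tube {j : A.ι} {K : Set V} {l : ℂ} (hl : l ≠ 0) {c : C} :
    A.act l c ∈ A.tube j K ↔ c ∈ A.tube j K := by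
  sorry

/-- the image of the compact set `K × circle` under `(x, z) ↦ τ⁻¹ (x, z / r (τ⁻¹ (x, 1)))` -/
theorem isCompact_tube_one {j : A.ι} {K : Set V} (hK : IsCompact K) (hs : K ⊆ A.base j) :
    IsCompact (A.tube j K ∩ {c | A.r c = 1}) := by
  sorry

/-- the preimage of the compact set `tube ∩ {r = 1}` under the continuous map
`c ↦ act (r c)⁻¹ c` -/
theorem isClosed_tube [T2Space C] {j : A.ι} {K : Set V} (hK : IsCompact K)
    (hs : K ⊆ A.base j) : IsClosed (A.tube j K) := by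
  sorry

theorem bdd_of_inv {f : C → ℝ} (hf : Continuous f) (h : ∀ l c, l ≠ 0 → f (A.act l c) = f c) :
    ∃ B : ℝ, 0 ≤ B ∧ ∀ c, f c ≤ B := by
  sorry

theorem ext_of_mem {F : Type} [Zero F] {j : A.ι} (g : V × ℂ → F) {c : C}
    (hc : c ∈ (A.τ j).source) : A.ext j g c = g (A.τ j c) := by
  sorry

theorem ext_of_not {F : Type} [Zero F] {j : A.ι} (g : V × ℂ → F) {c : C}
    (hc : c ∉ (A.τ j).source) : A.ext j g c = 0 := by
  sorry

theorem ext_act {F : Type} [Zero F] {j : A.ι} {g : V × ℂ → F}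
    (hg : ∀ p ∈ (A.τ j).target, ∀ l : ℂ, l ≠ 0 → g (p.1, l * p.2) = g p) {l : ℂ} (hl : l ≠ 0)
    (c : C) : A.ext j g (A.act l c) = A.ext j g c := by
  sorry

theorem isOpen_ov (i j : A.ι) :
    IsOpen ((A.τ j).target ∩ (A.τ j).symm ⁻¹' (A.τ i).source) := by
  sorry

theorem contDiffAt_tr {i j : A.ι} {p : V × ℂ} (hp : p ∈ (A.τ j).target)
    (hi : (A.τ j).symm p ∈ (A.τ i).source) : ContDiffAt ℝ ∞ (A.τ i ∘ (A.τ j).symm) p := by
  sorry

/-- the chain rule for a function read in two charts -/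
theorem fderiv_chart {F : Type} [NormedAddCommGroup F] [NormedSpace ℝ F] {u : C → F} {i j : A.ι}
    {p : V × ℂ} (hp : p ∈ (A.τ j).target) (hi : (A.τ j).symm p ∈ (A.τ i).source)
    (hu : DifferentiableAt ℝ (u ∘ (A.τ i).symm) (A.τ i ((A.τ j).symm p))) :
    fderiv ℝ (u ∘ (A.τ j).symm) p =
      (fderiv ℝ (u ∘ (A.τ i).symm) (A.τ i ((A.τ j).symm p))).comp (A.dtr i j p) := by
  sorry

theorem dtr_self {j : A.ι} {p : V × ℂ} (hp : p ∈ (A.τ j).target) (v : V × ℂ) :
    A.dtr j j p v = v := by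
  sorry

theorem dtr_dtr {i j k : A.ι} {p : V × ℂ} (hp : p ∈ (A.τ k).target)
    (hj : (A.τ k).symm p ∈ (A.τ j).source) (hi : (A.τ k).symm p ∈ (A.τ i).source) (v : V × ℂ) :
    A.dtr i j (A.τ j ((A.τ k).symm p)) (A.dtr j k p v) = A.dtr i k p v := by
  sorry

/-- differentiate `tr (scale l q) = scale l (tr q)` -/
theorem dtr_scale {i j : A.ι} {p : V × ℂ} (hp : p ∈ (A.τ j).target)
    (hi : (A.τ j).symm p ∈ (A.τ i).source) {l : ℂ} (hl : l ≠ 0) (v : V × ℂ) :
    A.dtr i j (p.1, l * p.2) (v.1, l * v.2) = ((A.dtr i j p v).1, l * (A.dtr i j p v).2) := by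
  sorry

/-- differentiate `tr (x, (1 + t z) l) = scale (1 + t z) (tr (x, l))` at `t = 0` -/
theorem dtr_vert {i j : A.ι} {p : V × ℂ} (hp : p ∈ (A.τ j).target)
    (hi : (A.τ j).symm p ∈ (A.τ i).source) (z : ℂ) :
    A.dtr i j p (0, z * p.2) = (0, z * (A.τ i ((A.τ j).symm p)).2) := by
  sorry

end Cone

end Vale.Agent.P292
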