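import Vale.Agent.P292.CB1

/-! Smooth functions and derivatives along vector fields. -/

set_option maxSynthPendingDepth 3

open scoped ContDiff Topology ComplexConjugate
open Set Filter MeasureTheory

noncomputable section

namespace Vale.Agent.P292

variable {V : Type} [NormedAddCommGroup V] [NormedSpace ℝ V] {C : Type} [TopologicalSpace C]
  {A : Cone V C}

namespace Cone

theorem sm_of_local {u : C → ℂ}
    (h : ∀ c, ∃ j, c ∈ (A.τ j).source ∧ ContDiffAt ℝ ∞ (u ∘ (A.τ j).symm) (A.τ j c)) :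
    A.Sm u := by
  sorry

theorem Sm.at {u : C → ℂ} (hu : A.Sm u) {j : A.ι} {p : V × ℂ} (hp : p ∈ (A.τ j).target) :
    ContDiffAt ℝ ∞ (u ∘ (A.τ j).symm) p := by
  sorry

theorem Sm.continuous {u : C → ℂ} (hu : A.Sm u) : Continuous u := by
  sorry

theorem sm_const (z : ℂ) : A.Sm fun _ => z := by
  sorry

theorem Sm.add {u v : C → ℂ} (hu : A.Sm u) (hv : A.Sm v) : A.Sm fun c => u c + v c := by
  sorry

theorem Sm.sub {u v : C → ℂ} (hu : A.Sm u) (hv : A.Sm v) : A.Sm fun c => u c - v c := by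
  sorry

theorem Sm.mul {u v : C → ℂ} (hu : A.Sm u) (hv : A.Sm v) : A.Sm fun c => u c * v c := by
  sorry

theorem Sm.conj {u : C → ℂ} (hu : A.Sm u) : A.Sm fun c => conj (u c) := by
  sorry

theorem sm_sum {α : Type} (s : Finset α) {u : α → C → ℂ} (hu : ∀ a ∈ s, A.Sm (u a)) :
    A.Sm fun c => ∑ a ∈ s, u a c := by
  sorry

theorem sm_rpow (m : ℤ) : A.Sm fun c => (A.r c : ℂ) ^ m := by
  sorry

/-- `sm_of_local`: inside the chart, or near a point outside the closed tube -/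
theorem sm_ext [T2Space C] {j : A.ι} {K : Set V} (hK : IsCompact K) (hs : K ⊆ A.base j)
    {g : V × ℂ → ℂ} (hg : ContDiffOn ℝ ∞ g (A.τ j).target)
    (h0 : ∀ p ∈ (A.τ j).target, p.1 ∉ K → g p = 0) : A.Sm (A.ext j g) := by
  sorry

theorem ap_eq {ξ : A.Fld} (hξ : A.IsVF ξ) {u : C → ℂ} (hu : A.Sm u) {j : A.ι} {c : C}
    (hc : c ∈ (A.τ j).source) :
    A.ap ξ u c = fderiv ℝ (u ∘ (A.τ j).symm) (A.τ j c) (ξ j (A.τ j c)) := by
  sorry

theorem ap_symm {ξ : A.Fld} (hξ : A.IsVF ξ) {u : C → ℂ} (hu : A.Sm u) {j : A.ι} {p : V × ℂ}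
    (hp : p ∈ (A.τ j).target) :
    A.ap ξ u ((A.τ j).symm p) = fderiv ℝ (u ∘ (A.τ j).symm) p (ξ j p) := by
  sorry

theorem ap_sm {ξ : A.Fld} (hξ : A.IsVF ξ) {u : C → ℂ} (hu : A.Sm u) : A.Sm (A.ap ξ u) := by
  sorry

theorem ap_add (ξ : A.Fld) {u v : C → ℂ} (hu : A.Sm u) (hv : A.Sm v) (c : C) :
    A.ap ξ (fun c => u c + v c) c = A.ap ξ u c + A.ap ξ v c := by
  sorry

theorem ap_sub (ξ : A.Fld) {u v : C → ℂ} (hu : A.Sm u) (hv : A.Sm v) (c : C) :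
    A.ap ξ (fun c => u c - v c) c = A.ap ξ u c - A.ap ξ v c := by
  sorry

theorem ap_const (ξ : A.Fld) (z : ℂ) (c : C) : A.ap ξ (fun _ => z) c = 0 := by
  sorry

theorem ap_mul (ξ : A.Fld) {u v : C → ℂ} (hu : A.Sm u) (hv : A.Sm v) (c : C) :
    A.ap ξ (fun c => u c * v c) c = A.ap ξ u c * v c + u c * A.ap ξ v c := by
  sorry

theorem ap_const_mul (ξ : A.Fld) (z : ℂ) {u : C → ℂ} (hu : A.Sm u) (c : C) :
    A.ap ξ (fun c => z * u c) c = z * A.ap ξ u c := by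
  sorry

theorem ap_conj (ξ : A.Fld) {u : C → ℂ} (hu : A.Sm u) (c : C) :
    A.ap ξ (fun c => conj (u c)) c = conj (A.ap ξ u c) := by
  sorry

/-- locality -/
theorem ap_off (ξ : A.Fld) {u : C → ℂ} {Z : Set C} (hZ : IsClosed Z) (hu : ∀ c, c ∉ Z → u c = 0)
    {c : C} (hc : c ∉ Z) : A.ap ξ u c = 0 := by
  sorry

theorem ap_supp {ξ : A.Fld} {j : A.ι} {K : Set V} (h : A.Supp ξ j K) (u : C → ℂ) {c : C}
    (hc : c ∉ A.tube j K) : A.ap ξ u c = 0 := by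
  sorry

/-- in a chart differentiate `u (scale l q) = z * u q` and use `IsVF.scale` -/
theorem ap_act {ξ : A.Fld} (hξ : A.IsVF ξ) {u : C → ℂ} (hu : A.Sm u) {l z : ℂ} (hl : l ≠ 0)
    (h : ∀ c, u (A.act l c) = z * u c) (c : C) : A.ap ξ u (A.act l c) = z * A.ap ξ u c := by
  sorry

/-- `r = exp (log r)` has derivative `r * al ξ = 0` -/
theorem ap_rpow {ξ : A.Fld} (hξ : A.Tan ξ) (m : ℤ) {u : C → ℂ} (hu : A.Sm u) (c : C) :
    A.ap ξ (fun c => (A.r c : ℂ) ^ m * u c) c = (A.r c : ℂ) ^ m * A.ap ξ u c := by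
  sorry

/-- differentiate `t ↦ u (act (exp (t z)) c)` at `t = 0` -/
theorem vert_hom {k : ℕ} {u : C → ℂ} (hu : A.Sm u) (hk : A.Hom k u) {j : A.ι} {p : V × ℂ}
    (hp : p ∈ (A.τ j).target) (z : ℂ) :
    fderiv ℝ (u ∘ (A.τ j).symm) p (0, z * p.2) = k * z * u ((A.τ j).symm p) := by
  sorry

theorem vert_eqv {k : ℕ} {u : C → ℂ} (hu : A.Sm u) (hk : A.Eqv k u) {j : A.ι} {p : V × ℂ}
    (hp : p ∈ (A.τ j).target) (z : ℂ) :
    fderiv ℝ (u ∘ (A.τ j).symm) p (0, z * p.2) =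
      k * (Complex.I * z.im) * u ((A.τ j).symm p) := by
  sorry

theorem ap_tF {k : ℕ} {u : C → ℂ} (hu : A.Sm u) (hk : A.Eqv k u) (c : C) :
    A.ap A.tF u c = Complex.I * k * u c := by
  sorry

theorem eqv_zero {u : C → ℂ} : A.Eqv 0 u ↔ A.Inv u := by
  sorry

theorem Eqv.norm {k : ℕ} {u : C → ℂ} (hk : A.Eqv k u) {l : ℂ} (hl : l ≠ 0) (c : C) :
    ‖u (A.act l c)‖ = ‖u c‖ := by
  sorry

theorem Eqv.inv_mul {k : ℕ} {u v : C → ℂ} (hu : A.Eqv k u) (hv : A.Eqv k v) :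
    A.Inv fun c => conj (u c) * v c := by
  sorry

theorem Hom.eqv {k : ℕ} {u : C → ℂ} (hu : A.Hom k u) :
    A.Eqv k fun c => (A.r c : ℂ) ^ (-(k : ℤ)) * u c := by
  sorry

theorem Eqv.hom {k : ℕ} {u : C → ℂ} (hu : A.Eqv k u) :
    A.Hom k fun c => (A.r c : ℂ) ^ (k : ℤ) * u c := by
  sorry

end Cone

end Vale.Agent.P292
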