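import Vale.Agent.P292.CD1

/-! Completeness. -/

set_option maxSynthPendingDepth 3

open scoped ContDiff Topology ComplexConjugate
open Set Filter MeasureTheory

noncomputable section

namespace Vale.Agent.P292

variable {V : Type} [NormedAddCommGroup V] [NormedSpace ℝ V] [FiniteDimensional ℝ V]
  {C : Type} [TopologicalSpace C] [T2Space C] {A : Cone V C}

namespace Cone.Part

variable (P : A.Part)

/-- the differential in terms of the generators: `dec_own`, `horV`, `vert_eqv` -/
theorem fderiv_eqv (hJ : A.JFacts) {k : ℕ} {u : C → ℂ} (hu : A.Sm u) (hk : A.Eqv k u)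
    (s : Fin P.n) {p : V × ℂ} (hp : p ∈ (A.τ (P.ch s)).target) (v : V × ℂ) :
    (P.χ s p.1 : ℂ) * fderiv ℝ (u ∘ (A.τ (P.ch s)).symm) p v =
      ∑ i, ((bas V).repr v.1 i : ℂ) * A.ap (P.xF (s, i)) u ((A.τ (P.ch s)).symm p) -
        P.χ s p.1 * A.be (P.ch s) p v * (Complex.I * k * u ((A.τ (P.ch s)).symm p)) := by
  sorry

/-- Call `v` a limit if `u n → v` uniformly for a sequence as in the hypothesis; then every
`ap (gen a) (u n)` is again such a sequence (`wd (I ++ [a])`).  On the open set
`target ∩ {χ s ≠ 0}` the differentials converge locally uniformly by `fderiv_eqv`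
(`hasFDerivAt_of_tendstoLocallyUniformlyOn`), and the differential of `v` is given by the same
formula with limits `v a`; by induction on `m` all limits are `C^m` there
(`contDiffOn_succ_iff_fderiv_of_isOpen`); `sm_of_local`, `exists_chi`.  Then
`ap (gen a) v = v a`, induction on `I`. -/
theorem compl (hJ : A.JFacts) {k : ℕ} (u : ℕ → C → ℂ) (hu : ∀ n, A.Sm (u n))
    (hk : ∀ n, A.Eqv k (u n)) (h : ∀ I, UniformCauchySeqOn (fun n => P.wd I (u n)) atTop univ) :
    ∃ v, A.Sm v ∧ A.Eqv k v ∧ ∀ I, TendstoUniformly (fun n => P.wd I (u n)) (P.wd I v) atTop := by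
  sorry

end Cone.Part

end Vale.Agent.P292
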