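import Vale.Agent.P292.CV2

/-! The generators span the tangent fields. -/

set_option maxSynthPendingDepth 3

open scoped ContDiff Topology ComplexConjugate
open Set Filter MeasureTheory

noncomputable section

namespace Vale.Agent.P292

variable {V : Type} [NormedAddCommGroup V] [NormedSpace ℝ V] [FiniteDimensional ℝ V]
  {C : Type} [TopologicalSpace C] [T2Space C] {A : Cone V C}

namespace Cone.Part

variable (P : A.Part)

theorem exists_chi (c : C) :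
    ∃ s, c ∈ (A.τ (P.ch s)).source ∧ P.χ s (A.τ (P.ch s) c).1 ≠ 0 := by
  sorry

theorem xF_isVF (hJ : A.JFacts) (a : P.κ) : A.IsVF (P.xF a) := by
  sorry

theorem gen_isVF (hJ : A.JFacts) (a : Option (P.κ × Bool)) : A.IsVF (P.gen a) := by
  sorry

theorem xF_tan (a : P.κ) : A.Tan (P.xF a) := by
  sorry

theorem jxF_tan (hJ : A.JFacts) (a : P.κ) : A.Tan (A.jF (P.xF a)) := by
  sorry

theorem jjxF_tan (a : P.κ) : A.Tan (A.jF (A.jF (P.xF a))) := by
  sorry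

theorem gen_tan (hJ : A.JFacts) (a : Option (P.κ × Bool)) : A.Tan (P.gen a) := by
  sorry

theorem xF_supp (a : P.κ) : A.Supp (P.xF a) (P.ch a.1) (tsupport (P.χ a.1)) := by
  sorry

theorem gen_supp (a : P.κ) (b : Bool) :
    A.Supp (P.gen (some (a, b))) (P.ch a.1) (tsupport (P.χ a.1)) := by
  sorry

theorem xF_self (a : P.κ) {p : V × ℂ} (hp : p ∈ (A.τ (P.ch a.1)).target) :
    P.xF a (P.ch a.1) p = P.χ a.1 p.1 • A.horV (P.ch a.1) p (bas V a.2, 0) := by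
  sorry

theorem dec_own (hJ : A.JFacts) (s : Fin P.n) {p : V × ℂ} (hp : p ∈ (A.τ (P.ch s)).target)
    (v : V × ℂ) : P.χ s p.1 • A.horV (P.ch s) p v =
      ∑ i, (bas V).repr v.1 i • P.xF (s, i) (P.ch s) p := by
  sorry

theorem cf_sm {ξ : A.Fld} (h : A.IsVF ξ) (a : P.κ) : A.Sm fun c => (P.cf ξ a c : ℂ) := by
  sorry

theorem cf_act {ξ : A.Fld} (h : A.IsVF ξ) (a : P.κ) {l : ℂ} (hl : l ≠ 0) (c : C) :
    P.cf ξ a (A.act l c) = P.cf ξ a c := by
  sorry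

/-- Any vector: `horV v = ∑ χ s ^ 2 horV v`, and for `s` with `χ s ≠ 0` at the point go to the
chart `ch s` (`dtr_horV`, `dtr_dtr`, `dtr_self`, `dec_own`, `IsVF.compat`). -/
theorem dec_vec (hJ : A.JFacts) {j : A.ι} {c : C} (hc : c ∈ (A.τ j).source) (v : V × ℂ) :
    A.horV j (A.τ j c) v = ∑ a : P.κ, A.ext (P.ch a.1) (fun q => P.χ a.1 q.1 *
      (bas V).repr (A.dtr (P.ch a.1) j (A.τ j c) v).1 a.2) c • P.xF a j (A.τ j c) := by
  sorry

theorem dec (hJ : A.JFacts) {ξ : A.Fld} (h : A.IsVF ξ) (t : A.Tan ξ) {j : A.ι} {c : C}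
    (hc : c ∈ (A.τ j).source) : ξ j (A.τ j c) = ∑ a, P.cf ξ a c • P.xF a j (A.τ j c) -
      A.beF ξ c • A.tF j (A.τ j c) := by
  sorry

theorem ap_dec (hJ : A.JFacts) {ξ : A.Fld} (h : A.IsVF ξ) (t : A.Tan ξ) (u : C → ℂ) (c : C) :
    A.ap ξ u c = ∑ a, (P.cf ξ a c : ℂ) * A.ap (P.xF a) u c - A.beF ξ c * A.ap A.tF u c := by
  sorry

theorem wd_sm (hJ : A.JFacts) (I : List (Option (P.κ × Bool))) {u : C → ℂ} (hu : A.Sm u) :
    A.Sm (P.wd I u) := by
  sorry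

theorem wd_act (hJ : A.JFacts) (I : List (Option (P.κ × Bool))) {u : C → ℂ} (hu : A.Sm u)
    {l z : ℂ} (hl : l ≠ 0) (h : ∀ c, u (A.act l c) = z * u c) (c : C) :
    P.wd I u (A.act l c) = z * P.wd I u c := by
  sorry

theorem wd_rpow (hJ : A.JFacts) (I : List (Option (P.κ × Bool))) (m : ℤ) {u : C → ℂ}
    (hu : A.Sm u) : P.wd I (fun c => (A.r c : ℂ) ^ m * u c) =
      fun c => (A.r c : ℂ) ^ m * P.wd I u c := by
  sorry

theorem wd_sub (hJ : A.JFacts) (I : List (Option (P.κ × Bool))) {u v : C → ℂ} (hu : A.Sm u)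
    (hv : A.Sm v) : P.wd I (fun c => u c - v c) = fun c => P.wd I u c - P.wd I v c := by
  sorry

theorem lF_sm (hJ : A.JFacts) (a : P.κ) {u : C → ℂ} (hu : A.Sm u) : A.Sm (P.lF a u) := by
  sorry

theorem lF_rpow (hJ : A.JFacts) (a : P.κ) (m : ℤ) {u : C → ℂ} (hu : A.Sm u) :
    P.lF a (fun c => (A.r c : ℂ) ^ m * u c) = fun c => (A.r c : ℂ) ^ m * P.lF a u c := by
  sorry

theorem lF_eq (hJ : A.JFacts) (a : P.κ) {u : C → ℂ} (hu : A.Sm u) {j : A.ι} {c : C}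
    (hc : c ∈ (A.τ j).source) : P.lF a u c = A.dbar j u (A.τ j c) (P.xF a j (A.τ j c)) := by
  sorry

end Cone.Part

end Vale.Agent.P292
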