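import Vale.Agent.P292.CD1

/-! Commutation relations. -/

set_option maxSynthPendingDepth 3

open scoped ContDiff Topology ComplexConjugate
open Set Filter MeasureTheory

noncomputable section

namespace Vale.Agent.P292

variable {V : Type} [NormedAddCommGroup V] [NormedSpace ℝ V] [FiniteDimensional ℝ V]
  {C : Type} [TopologicalSpace C] [T2Space C] {A : Cone V C}

namespace Cone.Part

variable (P : A.Part)

/-- `ap_brF`, `ap_dec` for the bracket; the coefficients of the fields `J X` are zero -/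
theorem br_fun (hJ : A.JFacts) (a b : Option (P.κ × Bool)) :
    ∃ f : Option (P.κ × Bool) → C → ℂ, (∀ e, A.Sm (f e) ∧ A.Inv (f e)) ∧ ∀ u, A.Sm u → ∀ c,
      A.ap (P.gen a) (A.ap (P.gen b) u) c - A.ap (P.gen b) (A.ap (P.gen a) u) c =
        ∑ e, f e c * A.ap (P.gen e) u c := by
  sorry

/-- `Z = [X, Y] - [JX, JY]` and `J Z = [X, JY] + [JX, Y]` (`nij_vec`) are tangent, so `beF Z = 0`;
apply `J` to `dec` for `Z` in the chart `A.ch c`; `[L a, L b] = Z + i J Z`. -/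
theorem nij_fun (hJ : A.JFacts) (a b : P.κ) :
    ∃ f : P.κ → C → ℂ, (∀ e, A.Sm (f e) ∧ A.Inv (f e)) ∧ ∀ u, A.Sm u → ∀ c,
      P.lF a (P.lF b u) c - P.lF b (P.lF a u) c = ∑ e, f e c * P.lF e u c := by
  sorry

theorem th_sm (hJ : A.JFacts) (a b : P.κ) : A.Sm (P.th a b) ∧ A.Inv (P.th a b) := by
  sorry

/-- four brackets, `ap_dec`, `X = (L + Lb) / 2` -/
theorem levi_fun (hJ : A.JFacts) (a b : P.κ) :
    ∃ f : P.κ → C → ℂ, (∀ e, A.Sm (f e) ∧ A.Inv (f e)) ∧ ∀ u, A.Sm u → ∀ c,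
      P.lbF a (P.lF b u) c - P.lF b (P.lbF a u) c = P.th a b c * A.ap A.tF u c +
        ∑ e, f e c * P.lF e u c + ∑ e, f e c * P.lbF e u c := by
  sorry

end Cone.Part

end Vale.Agent.P292
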