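import Vale.Agent.P292.CV1
import Vale.Agent.P265.Flow

/-! Flows of invariant vector fields. -/

set_option maxSynthPendingDepth 3

open scoped ContDiff Topology ComplexConjugate
open Set Filter MeasureTheory

noncomputable section

namespace Vale.Agent.P292

variable {V : Type} [NormedAddCommGroup V] [NormedSpace ℝ V] [FiniteDimensional ℝ V]
  {C : Type} [TopologicalSpace C] [T2Space C] {A : Cone V C}

omit [T2Space C] in
/-- `ψ` is the flow of `ζ` (`Vale.Agent.P265.exists_flow`), `γ (t, x) = ∫ s in 0..t, β (ψ (s, x))`.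
Smoothness of `γ`: for `|t| sup ‖β‖ < n` it is the second component of the flow of the compactly
supported field `(x, z) ↦ (κ z • ζ x, κ z • β x)`, `κ = 1` on the ball of radius `n`, started at
`(x, 0)` (uniqueness on an interval: `Vale.Agent.P265.flow_uniq`). -/
theorem flow_pair {ζ : V → V} {β : V → ℂ} (hζ : ContDiff ℝ ∞ ζ) (hβ : ContDiff ℝ ∞ β)
    {K : Set V} (hK : IsCompact K) (h0 : ∀ x, x ∉ K → ζ x = 0 ∧ β x = 0) :
    ∃ (ψ : ℝ × V → V) (γ : ℝ × V → ℂ), ContDiff ℝ ∞ ψ ∧ ContDiff ℝ ∞ γ ∧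
      (∀ x, ψ (0, x) = x ∧ γ (0, x) = 0) ∧
      (∀ t x, HasDerivAt (fun s => ψ (s, x)) (ζ (ψ (t, x))) t ∧
        HasDerivAt (fun s => γ (s, x)) (β (ψ (t, x))) t) ∧
      (∀ s t x, ψ (s + t, x) = ψ (s, ψ (t, x)) ∧ γ (s + t, x) = γ (s, ψ (t, x)) + γ (t, x)) ∧
      (∀ t x, x ∉ K → ψ (t, x) = x ∧ γ (t, x) = 0) ∧ ∀ t, ∀ x ∈ K, ψ (t, x) ∈ K := by
  sorry

namespace Cone

/-- the flow of an invariant field, acting on functions -/
structure IsFl (ξ : A.Fld) (φ : ℝ → C → C) : Prop where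
  zero : ∀ c, φ 0 c = c
  act : ∀ t l c, l ≠ 0 → φ t (A.act l c) = A.act l (φ t c)
  js : ∀ u, A.Sm u → A.JS fun t c => u (φ t c)
  der : ∀ u, A.Sm u → ∀ t c,
    HasDerivAt (fun s => u (φ s c)) (A.ap ξ (fun c => u (φ t c)) c) t

omit [FiniteDimensional ℝ V] [T2Space C] in
/-- `φ t = act (exp (i t))` -/
theorem exists_fl_tF : ∃ φ, IsFl A.tF φ := by
  sorry

/-- `ζ x = (ξ j (x, 1)).1`, `β x = (ξ j (x, 1)).2` on `base j`, zero outside; `ξ j (x, l) =
(ζ x, l β x)` by `scale`.  `φ t c = τ⁻¹ (ψ (t, x), l exp (γ (t, x)))` for `τ c = (x, l)`, and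
`φ t c = c` outside the chart (also outside the closed tube).  `φ (s + t) = φ s ∘ φ t`, so the
derivative at `t` is the derivative at `0` of `s ↦ (u ∘ φ t) (φ s c)`. -/
theorem exists_fl {ξ : A.Fld} (hξ : A.IsVF ξ) {j : A.ι} {K : Set V} (hK : IsCompact K)
    (hs : K ⊆ A.base j) (h : A.Supp ξ j K) : ∃ φ, IsFl ξ φ := by
  sorry

end Cone

end Vale.Agent.P292
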