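import Vale.Agent.P292.CD1

/-! Smooth curves of functions. -/

set_option maxSynthPendingDepth 3

open scoped ContDiff Topology ComplexConjugate
open Set Filter MeasureTheory

noncomputable section

namespace Vale.Agent.P292

variable {V : Type} [NormedAddCommGroup V] [NormedSpace ℝ V] [FiniteDimensional ℝ V]
  {C : Type} [TopologicalSpace C] [T2Space C] {A : Cone V C}

namespace Cone

omit [FiniteDimensional ℝ V] [T2Space C] in
theorem JS.sm {γ : ℝ → C → ℂ} (h : A.JS γ) (t : ℝ) : A.Sm (γ t) := by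
  sorry

omit [FiniteDimensional ℝ V] [T2Space C] in
/-- In a chart `G (t, p)` is smooth, `ap ξ (γ t) = DG (t, p) (0, ξ p)`, `γ' t = DG (t, p) (1, 0)`;
symmetry of the second derivative (`ContDiffAt.isSymmSndFDerivAt`). -/
theorem JS.ap {ξ : A.Fld} (hξ : A.IsVF ξ) {γ γ' : ℝ → C → ℂ} (h : A.JS γ)
    (hd : ∀ t c, HasDerivAt (fun s => γ s c) (γ' t c) t) :
    A.JS (fun t => A.ap ξ (γ t)) ∧
      ∀ t c, HasDerivAt (fun s => A.ap ξ (γ s) c) (A.ap ξ (γ' t) c) t := by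
  sorry

omit [FiniteDimensional ℝ V] [T2Space C] in
/-- uniform continuity of `DG (t, (x, 1)) (1, 0)` on `[t - 1, t + 1] × K` and the mean value
inequality -/
theorem JS.unif {γ γ' : ℝ → C → ℂ} (h : A.JS γ)
    (hd : ∀ t c, HasDerivAt (fun s => γ s c) (γ' t c) t) {j : A.ι} {K : Set V} (hK : IsCompact K)
    (hs : K ⊆ A.base j) (t : ℝ) {ε : ℝ} (hε : 0 < ε) : ∀ᶠ s in 𝓝 t, ∀ x ∈ K,
      ‖γ s ((A.τ j).symm (x, 1)) - γ t ((A.τ j).symm (x, 1)) -
        ((s - t : ℝ) : ℂ) * γ' t ((A.τ j).symm (x, 1))‖ ≤ ε * |s - t| := by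
  sorry

theorem Part.js_wd (P : A.Part) (hJ : A.JFacts) (I : List (Option (P.κ × Bool)))
    {γ γ' : ℝ → C → ℂ} (h : A.JS γ) (hd : ∀ t c, HasDerivAt (fun s => γ s c) (γ' t c) t) :
    A.JS (fun t => P.wd I (γ t)) ∧
      ∀ t c, HasDerivAt (fun s => P.wd I (γ s) c) (P.wd I (γ' t) c) t := by
  sorry

end Cone

end Vale.Agent.P292
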