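import Vale.Agent.P292.CD1

/-! Elementary properties of the integral. -/

set_option maxSynthPendingDepth 3

open scoped ContDiff Topology ComplexConjugate
open Set Filter MeasureTheory

noncomputable section

namespace Vale.Agent.P292

variable {V : Type} [NormedAddCommGroup V] [NormedSpace ℝ V] [FiniteDimensional ℝ V]
  [MeasurableSpace V] [BorelSpace V] {C : Type} [TopologicalSpace C] [T2Space C] {A : Cone V C}

namespace Cone.Part

variable (P : A.Part)

/-- continuous with compact support: continuous on `base`, zero outside `tsupport χ` -/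
theorem integrable_chi (s : Fin P.n) {g : C → ℂ} (hg : Continuous g) :
    Integrable (fun x => (P.χ s x : ℂ) ^ 2 * g ((A.τ (P.ch s)).symm (x, 1))) (bas V).addHaar := by
  sorry

theorem integ_add {f g : C → ℂ} (hf : Continuous f) (hg : Continuous g) :
    P.integ (fun c => f c + g c) = P.integ f + P.integ g := by
  sorry

theorem integ_sum {α : Type} (t : Finset α) {f : α → C → ℂ} (hf : ∀ a ∈ t, Continuous (f a)) :
    P.integ (fun c => ∑ a ∈ t, f a c) = ∑ a ∈ t, P.integ (f a) := by
  sorry

theorem integ_const_mul (z : ℂ) (g : C → ℂ) : P.integ (fun c => z * g c) = z * P.integ g := by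
  sorry

theorem integ_conj (g : C → ℂ) : P.integ (fun c => conj (g c)) = conj (P.integ g) := by
  sorry

theorem integ_ofReal (g : C → ℝ) : P.integ (fun c => (g c : ℂ)) = (P.integR g : ℂ) := by
  sorry

theorem integ_re {g : C → ℂ} (hg : Continuous g) :
    (P.integ g).re = P.integR fun c => (g c).re := by
  sorry

theorem integR_add {f g : C → ℝ} (hf : Continuous f) (hg : Continuous g) :
    P.integR (fun c => f c + g c) = P.integR f + P.integR g := by
  sorry

theorem integR_sum {α : Type} (t : Finset α) {f : α → C → ℝ} (hf : ∀ a ∈ t, Continuous (f a)) :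
    P.integR (fun c => ∑ a ∈ t, f a c) = ∑ a ∈ t, P.integR (f a) := by
  sorry

theorem integR_const_mul (z : ℝ) (g : C → ℝ) :
    P.integR (fun c => z * g c) = z * P.integR g := by
  sorry

theorem integR_nonneg {g : C → ℝ} (hg : ∀ c, 0 ≤ g c) : 0 ≤ P.integR g := by
  sorry

theorem integR_mono {f g : C → ℝ} (hf : Continuous f) (hg : Continuous g) (h : ∀ c, f c ≤ g c) :
    P.integR f ≤ P.integR g := by
  sorry

/-- only the values at the points `τ⁻¹ (x, 1)`, `x ∈ tsupport χ`, matter -/
theorem integR_le : ∃ B : ℝ, 0 ≤ B ∧ ∀ (g : C → ℝ) (η : ℝ), 0 ≤ η →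
    (∀ s, ∀ x ∈ tsupport (P.χ s), |g ((A.τ (P.ch s)).symm (x, 1))| ≤ η) →
      P.integR g ≤ B * η := by
  sorry

/-- `Continuous.integral_pos_of_hasCompactSupport_nonneg_nonzero` or `integral_eq_zero_iff_of_nonneg`
with `Continuous.ae_eq_iff_eq`; `exists_chi`, `eq_act_one` -/
theorem integR_eq_zero {g : C → ℝ} (hg : Continuous g) (h0 : ∀ c, 0 ≤ g c)
    (hi : ∀ l c, l ≠ 0 → g (A.act l c) = g c) (h : P.integR g = 0) (c : C) : g c = 0 := by
  sorry

end Cone.Part

end Vale.Agent.P292
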