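import Vale.Agent.P292.CH

/-! The density of the integral in a chart. -/

set_option maxSynthPendingDepth 3

open scoped ContDiff Topology ComplexConjugate
open Set Filter MeasureTheory

noncomputable section

namespace Vale.Agent.P292

variable {V : Type} [NormedAddCommGroup V] [NormedSpace ℝ V] [FiniteDimensional ℝ V]
  [MeasurableSpace V] [BorelSpace V] {C : Type} [TopologicalSpace C] [T2Space C] {A : Cone V C}

namespace Cone.Part

variable (P : A.Part)

/-- `φ s x = (τ (ch s) (τ j⁻¹ (x, 1))).1` is a diffeomorphism from the open set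
`O s = {x ∈ base j | τ j⁻¹ (x, 1) ∈ source (ch s)}` onto the analogous set for `(ch s, j)`
(invariance of the sources, `eq_act_one`, `symm_scale`).  `m = ∑ s, indicator (O s)
(χ s (φ s x) ^ 2 * |det Dφ s x|)`; each term is smooth on `base j` (the determinant does not
vanish, and the term is zero near points outside the closed tube of `s`);
`integral_image_eq_integral_abs_det_fderiv_smul`. -/
theorem exists_density (j : A.ι) : ∃ m : V → ℝ, ContDiffOn ℝ ∞ m (A.base j) ∧
    (∀ x ∈ A.base j, 0 < m x) ∧ ∀ K, IsCompact K → K ⊆ A.base j → ∀ g : C → ℂ, Continuous g →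
      A.Inv g → (∀ c, c ∉ A.tube j K → g c = 0) →
        P.integ g = ∫ x in A.base j, (m x : ℂ) * g ((A.τ j).symm (x, 1)) ∂(bas V).addHaar := by
  sorry

end Cone.Part

end Vale.Agent.P292
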