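import Vale.Agent.P292.CI1

/-! Integration by parts. -/

set_option maxSynthPendingDepth 3

open scoped ContDiff Topology ComplexConjugate
open Set Filter MeasureTheory

noncomputable section

namespace Vale.Agent.P292

variable {V : Type} [NormedAddCommGroup V] [NormedSpace ℝ V] [FiniteDimensional ℝ V]
  [MeasurableSpace V] [BorelSpace V] {C : Type} [TopologicalSpace C] [T2Space C] {A : Cone V C}

/-- write `ζ x = ∑ repr (ζ x) i • bas i` and use
`integral_mul_fderiv_eq_neg_fderiv_mul_of_integrable`; all integrands extended by zero are smooth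
with compact support -/
theorem integral_fderiv_apply {O K : Set V} (hO : IsOpen O) (hK : IsCompact K) (hs : K ⊆ O)
    {g : V → ℂ} (hg : ContDiffOn ℝ ∞ g O) {ζ : V → V} (hζ : ContDiffOn ℝ ∞ ζ O)
    (h0 : ∀ x ∈ O, x ∉ K → ζ x = 0) :
    ∫ x in O, fderiv ℝ g x (ζ x) ∂(bas V).addHaar = -∫ x in O,
      ((∑ i, (bas V).repr (fderiv ℝ ζ x (bas V i)) i : ℝ) : ℂ) * g x ∂(bas V).addHaar := by
  sorry

namespace Cone.Part

variable (P : A.Part)

/-- `ζ x = m x • (ξ j (x, 1)).1`, `d = ext j (div ζ / m)` (`sm_ext`, `ext_act`).  For invariant `g`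
the vertical derivative vanishes (`vert_eqv` with `k = 0`), so
`ap ξ g (τ⁻¹ (x, 1)) = fderiv (fun x => g (τ⁻¹ (x, 1))) x (ξ j (x, 1)).1`. -/
theorem ibp_supp {ξ : A.Fld} (hξ : A.IsVF ξ) {j : A.ι} {K : Set V} (hK : IsCompact K)
    (hs : K ⊆ A.base j) (h : A.Supp ξ j K) : ∃ d : C → ℂ, A.Sm d ∧ A.Inv d ∧
      ∀ g, A.Sm g → A.Inv g → P.integ (A.ap ξ g) = -P.integ fun c => d c * g c := by
  sorry

theorem ibp (hJ : A.JFacts) (a : Option (P.κ × Bool)) : ∃ d : C → ℂ, A.Sm d ∧ A.Inv d ∧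
    ∀ g, A.Sm g → A.Inv g → P.integ (A.ap (P.gen a) g) = -P.integ fun c => d c * g c := by
  sorry

end Cone.Part

end Vale.Agent.P292
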