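import Vale.Agent.P292.CD2

/-! Positivity of the Levi form. -/

set_option maxSynthPendingDepth 3

open scoped ContDiff Topology ComplexConjugate
open Set Filter MeasureTheory

noncomputable section

namespace Vale.Agent.P292

variable {V : Type} [NormedAddCommGroup V] [NormedSpace ℝ V] [FiniteDimensional ℝ V]
  {C : Type} [TopologicalSpace C] [T2Space C] {A : Cone V C}

/-- the form `omg` as a bilinear map -/
def CLom (A : Cone V C) (j : A.ι) (p : V × ℂ) : V × ℂ →L[ℝ] V × ℂ →L[ℝ] ℝ :=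
  fderiv ℝ (A.be j) p - (fderiv ℝ (A.be j) p).flip

omit [FiniteDimensional ℝ V] [T2Space C] in
theorem CLom_eq (j : A.ι) (p v w : V × ℂ) : A.omg j p v w = CLom A j p v w := rfl

theorem CL_alg {F κ : Type} [NormedAddCommGroup F] [NormedSpace ℝ F] [Fintype κ]
    (B : F →L[ℝ] F →L[ℝ] ℝ) (hB : ∀ v w, B v w = -B w v) (X Y : κ → F) (w : κ → ℂ) :
    (∑ a, ∑ b, conj ((-((-B (X a) (X b) + -B (Y a) (Y b) : ℝ) : ℂ) -
      Complex.I * ((-B (X a) (Y b) - -B (Y a) (X b) : ℝ) : ℂ)) * (Complex.I * w a)) * w b).re =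
      -2 * B (∑ b, ((w b).re • X b + (w b).im • Y b)) (∑ b, ((w b).re • Y b - (w b).im • X b)) := by
  have e : ∀ f g : κ → F, B (∑ a, f a) (∑ b, g b) = ∑ a, ∑ b, B (f a) (g b) := fun f g => by
    rw [map_sum B, ContinuousLinearMap.sum_apply]
    exact Finset.sum_congr rfl fun a _ => map_sum _ _ _
  have h2 : ∀ v w, -2 * B v w = B w v - B v w := fun v w => by
    rw [hB w v]
    ring
  rw [h2, e, e, ← Finset.sum_sub_distrib, Complex.re_sum]
  refine Finset.sum_congr rfl fun a _ => ?_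
  rw [← Finset.sum_sub_distrib, Complex.re_sum]
  refine Finset.sum_congr rfl fun b _ => ?_
  simp only [map_add, map_sub, map_smul, ContinuousLinearMap.add_apply,
    ContinuousLinearMap.sub_apply, ContinuousLinearMap.smul_apply, smul_eq_mul, Complex.mul_re,
    Complex.mul_im, Complex.conj_re, Complex.conj_im, Complex.sub_re, Complex.sub_im,
    Complex.neg_re, Complex.neg_im, Complex.ofReal_re, Complex.ofReal_im, Complex.I_re,
    Complex.I_im]
  ring

omit [FiniteDimensional ℝ V] [T2Space C] in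
theorem CL_cont (j : A.ι) : ContinuousOn (fun q : (V × ℂ) × V =>
    -A.omg j q.1 (A.horV j q.1 (q.2, 0)) (A.J j q.1 (A.horV j q.1 (q.2, 0))))
    ((A.τ j).target ×ˢ univ) := by
  have hm : MapsTo (Prod.fst : (V × ℂ) × V → V × ℂ) ((A.τ j).target ×ˢ univ) (A.τ j).target :=
    fun q hq => hq.1
  have h1 := (Cone.al_smooth (A := A) j).continuousOn.comp continuousOn_fst hm
  have h2 := (Cone.be_smooth (A := A) j).continuousOn.comp continuousOn_fst hm
  have h3 := (A.J_smooth j).continuousOn.comp continuousOn_fst hm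
  have h4 := ((Cone.be_smooth (A := A) j).continuousOn_fderiv_of_isOpen (A.τ j).open_target
    (by simp)).comp continuousOn_fst hm
  have e0 : Continuous fun q : (V × ℂ) × V => ((q.2, 0) : V × ℂ) := by fun_prop
  have e1 : Continuous fun q : (V × ℂ) × V => ((0, q.1.2) : V × ℂ) := by fun_prop
  have e2 : Continuous fun q : (V × ℂ) × V => ((0, Complex.I * q.1.2) : V × ℂ) := by fun_prop
  have h5 : ContinuousOn (fun q : (V × ℂ) × V => A.horV j q.1 (q.2, 0))
      ((A.τ j).target ×ˢ univ) :=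
    (e0.continuousOn.sub ((h1.clm_apply e0.continuousOn).smul e1.continuousOn)).add
      ((h2.clm_apply e0.continuousOn).smul e2.continuousOn)
  have h6 := h3.clm_apply h5
  exact (((h4.clm_apply h5).clm_apply h6).sub ((h4.clm_apply h6).clm_apply h5)).neg

omit [FiniteDimensional ℝ V] [T2Space C] in
theorem CL_dbar_J {j : A.ι} (u : C → ℂ) {p : V × ℂ} (hp : p ∈ (A.τ j).target) (v : V × ℂ) :
    A.dbar j u p (A.J j p v) = -Complex.I * A.dbar j u p v := by
  simp only [Cone.dbar, ContinuousLinearMap.add_apply, ContinuousLinearMap.smul_apply,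
    ContinuousLinearMap.comp_apply, A.J_sq j p hp, map_neg, smul_eq_mul]
  linear_combination (fderiv ℝ (u ∘ (A.τ j).symm) p (A.J j p v)) * Complex.I_mul_I

namespace Cone.Part

variable (P : A.Part)

/-- On the compact set `τ (tube ∩ {r = 1}) × sphere` the continuous function
`- omg p (horV (e, 0)) (J horV (e, 0))` is positive (`psh`, `horV_fst`); homogeneity in `e`. -/
theorem omg_le (s : Fin P.n) : ∃ c₁ : ℝ, 0 < c₁ ∧
    ∀ c ∈ A.tube (P.ch s) (tsupport (P.χ s)), A.r c = 1 → ∀ e : V,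
      c₁ * ∑ i, (bas V).repr e i ^ 2 ≤ -A.omg (P.ch s) (A.τ (P.ch s) c)
        (A.horV (P.ch s) (A.τ (P.ch s) c) (e, 0))
        (A.J (P.ch s) (A.τ (P.ch s) c) (A.horV (P.ch s) (A.τ (P.ch s) c) (e, 0))) := by
  haveI : ProperSpace V := FiniteDimensional.proper_real V
  have hK := (isCompact_tube_one (A := A) (P.cpt s).isCompact (P.sub s)).image_of_continuousOn
    ((A.τ (P.ch s)).continuousOn.mono fun c hc => hc.1.1)
  have hsub : A.τ (P.ch s) '' (A.tube (P.ch s) (tsupport (P.χ s)) ∩ {c | A.r c = 1}) ⊆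
      (A.τ (P.ch s)).target := by
    rintro _ ⟨c, hc, rfl⟩
    exact (A.τ (P.ch s)).map_source hc.1.1
  have hG : Continuous fun e : V => ∑ i, (bas V).repr e i ^ 2 :=
    continuous_finset_sum _ fun i _ =>
      (LinearMap.continuous_of_finiteDimensional ((bas V).coord i)).pow 2
  have hG0 : ∀ e : V, e ≠ 0 → 0 < ∑ i, (bas V).repr e i ^ 2 := by
    intro e he
    refine lt_of_le_of_ne (Finset.sum_nonneg fun i _ => sq_nonneg _) fun h => he ?_
    have := (Finset.sum_eq_zero_iff_of_nonneg fun i _ => sq_nonneg _).1 h.symm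
    exact (bas V).forall_coord_eq_zero_iff.1 fun i =>
      pow_eq_zero_iff two_ne_zero |>.1 (this i (Finset.mem_univ _))
  have hne : ∀ e ∈ Metric.sphere (0 : V) 1, e ≠ 0 := by
    rintro e he rfl
    simp at he
  obtain ⟨c₁, h1, h2⟩ := (hK.prod (isCompact_sphere (0 : V) 1)).exists_forall_le'
    (f := fun q : (V × ℂ) × V => -A.omg (P.ch s) q.1 (A.horV (P.ch s) q.1 (q.2, 0))
      (A.J (P.ch s) q.1 (A.horV (P.ch s) q.1 (q.2, 0))) / ∑ i, (bas V).repr q.2 i ^ 2) (a := 0)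
    (((CL_cont (P.ch s)).mono (prod_mono hsub (subset_univ _))).div
      (hG.comp continuous_snd).continuousOn fun q hq => (hG0 _ (hne _ hq.2)).ne')
    (fun q hq => div_pos (neg_pos.2 (A.psh (P.ch s) q.1 (hsub hq.1) _ (by
      rw [horV_fst]
      exact hne _ hq.2))) (hG0 _ (hne _ hq.2)))
  refine ⟨c₁, h1, fun c hc hr e => ?_⟩
  by_cases he : e = 0
  · have : ((e, 0) : V × ℂ) = (0 : ℝ) • ((e, 0) : V × ℂ) := by simp [he]
    rw [this, horV_smul, CLom_eq]
    simp [he]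
  · have hn : 0 < ‖e‖ := norm_pos_iff.2 he
    have hs : ‖e‖⁻¹ • e ∈ Metric.sphere (0 : V) 1 := by
      simp [norm_smul, hn.ne']
    have h3 := (le_div_iff₀ (hG0 _ (hne _ hs))).1
      (h2 (A.τ (P.ch s) c, ‖e‖⁻¹ • e) ⟨⟨c, ⟨hc, hr⟩, rfl⟩, hs⟩)
    have e1 : ((‖e‖⁻¹ • e, 0) : V × ℂ) = ‖e‖⁻¹ • ((e, 0) : V × ℂ) := by simp
    simp only [e1, horV_smul, CLom_eq, map_smul, ContinuousLinearMap.smul_apply, smul_eq_mul,
      Finsupp.smul_apply, mul_pow, ← Finset.mul_sum] at h3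
    rw [CLom_eq]
    have hp : 0 < ‖e‖⁻¹ ^ 2 := by positivity
    refine le_of_mul_le_mul_left ?_ hp
    linarith

/-- For `w b = p b + i q b` and `W j = ∑ p b • X b + q b • J X b` read in a chart `j` around `c`
the sum equals `-2 omg (W j) (J W j)` (`beF_eq`, `be_brF`, bilinearity and skew symmetry of `omg`,
`J_sq`). -/
theorem th_sum (hJ : A.JFacts) (w : P.κ → ℂ) {j : A.ι} {c : C} (hc : c ∈ (A.τ j).source) :
    (∑ a, ∑ b, conj (P.th a b c * (Complex.I * w a)) * w b).re =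
      -2 * A.omg j (A.τ j c)
        (∑ b, ((w b).re • P.xF b j (A.τ j c) + (w b).im • A.jF (P.xF b) j (A.τ j c)))
        (A.J j (A.τ j c)
          (∑ b, ((w b).re • P.xF b j (A.τ j c) + (w b).im • A.jF (P.xF b) j (A.τ j c)))) := by
  have hp := (A.τ j).map_source hc
  have hX := P.xF_isVF hJ
  have hY := fun a => (P.xF_isVF hJ a).jF hJ
  have tX := P.jxF_tan hJ
  have tY := P.jjxF_tan
  have e : A.J j (A.τ j c)
      (∑ b, ((w b).re • P.xF b j (A.τ j c) + (w b).im • A.jF (P.xF b) j (A.τ j c))) =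
      ∑ b, ((w b).re • A.jF (P.xF b) j (A.τ j c) - (w b).im • P.xF b j (A.τ j c)) := by
    rw [map_sum]
    refine Finset.sum_congr rfl fun b _ => ?_
    simp only [map_add, map_smul, jF, A.J_sq j _ hp, smul_neg, sub_eq_add_neg]
  rw [e, CLom_eq, ← CL_alg (CLom A j (A.τ j c)) (fun v w => by
    simp only [← CLom_eq, omg, neg_sub])]
  refine congrArg _ (Finset.sum_congr rfl fun a _ => Finset.sum_congr rfl fun b _ => ?_)
  rw [th, beF_eq hJ ((hX a).brF (hX b)) hc, beF_eq hJ ((hY a).brF (hY b)) hc,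
    beF_eq hJ ((hX a).brF (hY b)) hc, beF_eq hJ ((hY a).brF (hX b)) hc,
    be_brF (hX a) (hX b) (tX a) (tX b) hp, be_brF (hY a) (hY b) (tY a) (tY b) hp,
    be_brF (hX a) (hY b) (tX a) (tY b) hp, be_brF (hY a) (hX b) (tY a) (tX b) hp]
  rfl

/-- the vector with the coefficients `w` -/
def CLvec (w : P.κ → ℂ) (j : A.ι) (p : V × ℂ) : V × ℂ :=
  ∑ b, ((w b).re • P.xF b j p + (w b).im • A.jF (P.xF b) j p)

theorem CLvec_hor (hJ : A.JFacts) (w : P.κ → ℂ) {j : A.ι} {p : V × ℂ} (hp : p ∈ (A.τ j).target) :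
    A.horV j p (P.CLvec w j p) = P.CLvec w j p := by
  have h1 : A.al j p (P.CLvec w j p) = 0 := by
    rw [CLvec, map_sum]
    refine Finset.sum_eq_zero fun b _ => ?_
    rw [map_add, map_smul, map_smul, P.xF_tan b j p hp, P.jxF_tan hJ b j p hp]
    simp
  have h2 : A.be j p (P.CLvec w j p) = 0 := by
    rw [CLvec, map_sum]
    refine Finset.sum_eq_zero fun b _ => ?_
    have e1 : A.be j p (P.xF b j p) = 0 := P.jxF_tan hJ b j p hp
    have e2 : A.be j p (A.jF (P.xF b) j p) = 0 := P.jjxF_tan b j p hp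
    rw [map_add, map_smul, map_smul, e1, e2]
    simp
  rw [horV, h1, h2, zero_smul, zero_smul, sub_zero, add_zero]

theorem CLvec_dtr (hJ : A.JFacts) (w : P.κ → ℂ) {i j : A.ι} {c : C} (hj : c ∈ (A.τ j).source)
    (hi : c ∈ (A.τ i).source) :
    A.dtr i j (A.τ j c) (P.CLvec w j (A.τ j c)) = P.CLvec w i (A.τ i c) := by
  have hp := (A.τ j).map_source hj
  have e := (A.τ j).left_inv hj
  have hi' : (A.τ j).symm (A.τ j c) ∈ (A.τ i).source := by rwa [e]
  rw [CLvec, CLvec, map_sum]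
  refine Finset.sum_congr rfl fun b _ => ?_
  rw [map_add, map_smul, map_smul, (P.xF_isVF hJ b).compat i j _ hp hi',
    ((P.xF_isVF hJ b).jF hJ).compat i j _ hp hi', e]

theorem CL_cs (hJ : A.JFacts) {u : C → ℂ} (hu : A.Sm u) {j : A.ι} {c : C}
    (hc : c ∈ (A.τ j).source) (γ : P.κ → ℝ)
    (h : P.CLvec (fun a => P.lF a u c) j (A.τ j c) = ∑ a, γ a • P.xF a j (A.τ j c)) :
    ∑ a, ‖P.lF a u c‖ ^ 2 ≤ ∑ a, γ a ^ 2 := by
  have hp := (A.τ j).map_source hc
  have h1 := congrArg (fun v => (A.dbar j u (A.τ j c) v).re) h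
  simp only [CLvec, map_sum, map_add, map_smul, jF, CL_dbar_J u hp, ← P.lF_eq hJ _ hu hc,
    Complex.re_sum] at h1
  have h2 : ∑ a, ‖P.lF a u c‖ ^ 2 = ∑ a, (γ a • P.lF a u c).re := by
    rw [← h1]
    refine Finset.sum_congr rfl fun a _ => ?_
    rw [Complex.sq_norm, Complex.normSq_apply]
    simp
  have h3 : ∑ a, (γ a • P.lF a u c).re ≤ ∑ a, (γ a ^ 2 + ‖P.lF a u c‖ ^ 2) / 2 := by
    refine Finset.sum_le_sum fun a _ => ?_
    rw [Complex.sq_norm, Complex.normSq_apply, Complex.smul_re, smul_eq_mul]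
    nlinarith [sq_nonneg (γ a - (P.lF a u c).re), sq_nonneg (P.lF a u c).im]
  rw [← Finset.sum_div, Finset.sum_add_distrib] at h3
  linarith

/-- Both sides are invariant, so let `r c = 1`.  `w a = lF a u c`, `W j` as above is horizontal
(`horV W = W`) and compatible with the transitions.  `∑ ‖w a‖ ^ 2 = dbar u W` (`lF_eq`,
`dbar (J v) = -i dbar v`) `= ∑ γ a * w a` with `γ (s, i) = χ s * repr (W (ch s)).1 i` (`dec_vec`),
so `∑ ‖w a‖ ^ 2 ≤ ∑ γ a ^ 2` by Cauchy-Schwarz; and the left side of `th_sum` equals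
`∑ s, χ s ^ 2 * (-2 omg (ch s) W (J W)) ≥ 2 c₁ ∑ γ a ^ 2` (`P.sum`, `omg_le`, `horV_eq`). -/
theorem levi_pos (hJ : A.JFacts) : ∃ c₀ : ℝ, 0 < c₀ ∧ ∀ (k : ℕ) (u : C → ℂ), A.Sm u → A.Eqv k u →
    ∀ c, c₀ * ∑ a, ‖P.lF a u c‖ ^ 2 ≤
      (∑ a, ∑ b, conj (P.th a b c * (Complex.I * P.lF a u c)) * P.lF b u c).re := by
  choose c₁ h1 h2 using P.omg_le
  obtain ⟨c₀, h3, h4⟩ : ∃ c₀ : ℝ, (∀ s, c₀ ≤ c₁ s) ∧ 0 < c₀ :=
    ((eventually_all.2 fun s => mem_nhdsWithin_of_mem_nhds (Iic_mem_nhds (h1 s))).and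
      (self_mem_nhdsWithin : Ioi (0 : ℝ) ∈ 𝓝[>] 0)).exists
  refine ⟨2 * c₀, by positivity, fun k u hu hk => ?_⟩
  have main : ∀ c, A.r c = 1 → 2 * c₀ * ∑ a, ‖P.lF a u c‖ ^ 2 ≤
      (∑ a, ∑ b, conj (P.th a b c * (Complex.I * P.lF a u c)) * P.lF b u c).re := by
    intro c hr
    have hc := ch_mem (A := A) c
    have hd := P.dec_vec hJ hc (P.CLvec (fun a => P.lF a u c) (A.ch c) (A.τ (A.ch c) c))
    rw [P.CLvec_hor hJ _ ((A.τ _).map_source hc)] at hd
    refine (mul_le_mul_of_nonneg_left (P.CL_cs hJ hu hc _ hd) (by positivity)).trans ?_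
    rw [← one_mul (Complex.re _), ← P.sum c, Finset.sum_mul, Fintype.sum_prod_type,
      Finset.mul_sum]
    refine Finset.sum_le_sum fun s _ => ?_
    by_cases hs : c ∈ (A.τ (P.ch s)).source
    · simp only [ext_of_mem _ hs, P.CLvec_dtr hJ _ hc hs, mul_pow, ← Finset.mul_sum]
      by_cases h0 : P.χ s (A.τ (P.ch s) c).1 = 0
      · simp [h0]
      · have h5 := h2 s c ⟨hs, subset_tsupport _ h0⟩ hr
          (P.CLvec (fun a => P.lF a u c) (P.ch s) (A.τ (P.ch s) c)).1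
        rw [horV_eq hJ ((A.τ _).map_source hs), P.CLvec_hor hJ _ ((A.τ _).map_source hs)] at h5
        rw [P.th_sum hJ (fun a => P.lF a u c) hs, mul_left_comm]
        refine mul_le_mul_of_nonneg_left ?_ (sq_nonneg _)
        have h6 := mul_le_mul_of_nonneg_right (h3 s) (Finset.sum_nonneg fun i
          (_ : i ∈ Finset.univ) => sq_nonneg ((bas V).repr
            (P.CLvec (fun a => P.lF a u c) (P.ch s) (A.τ (P.ch s) c)).1 i))
        have h7 := h6.trans h5
        rw [CLvec] at h7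
        rw [CLvec]
        linarith
    · simp [ext_of_not _ hs]
  intro c
  have hr := A.r_pos c
  have hl : (((A.r c)⁻¹ : ℝ) : ℂ) ≠ 0 := Complex.ofReal_ne_zero.2 (inv_pos.2 hr).ne'
  have hn : ‖(((A.r c)⁻¹ : ℝ) : ℂ)‖ = (A.r c)⁻¹ := by
    rw [Complex.norm_real, Real.norm_of_nonneg (inv_pos.2 hr).le]
  have hu' : ∀ c', u (A.act (((A.r c)⁻¹ : ℝ) : ℂ) c') = 1 * u c' := fun c' => by
    rw [hk _ c' hl, hn, div_self hl, one_pow]
  have hL : ∀ a, P.lF a u (A.act (((A.r c)⁻¹ : ℝ) : ℂ) c) = P.lF a u c := fun a => by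
    rw [lF, lF, ap_act (P.xF_isVF hJ a) hu hl hu', ap_act ((P.xF_isVF hJ a).jF hJ) hu hl hu',
      one_mul, one_mul]
  have := main (A.act (((A.r c)⁻¹ : ℝ) : ℂ) c) (by
    rw [A.r_act _ c hl, hn, inv_mul_cancel₀ hr.ne'])
  simpa only [hL, (P.th_sm hJ _ _).2 _ c hl] using this

end Cone.Part

end Vale.Agent.P292
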