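import Vale.Agent.P292.CB2

/-! Existence of partitions. -/

set_option maxSynthPendingDepth 3

open scoped ContDiff Topology ComplexConjugate
open Set Filter MeasureTheory

noncomputable section

namespace Vale.Agent.P292

variable {V : Type} [NormedAddCommGroup V] [NormedSpace ℝ V] [FiniteDimensional ℝ V]
  {C : Type} [TopologicalSpace C] [T2Space C] {A : Cone V C}

namespace Cone

/-- Finitely many bump functions `b s` on `V` with compact support in `base (ch s)` whose tubes
`{b s ≠ 0}` cover the compact set `r = 1` (`exists_contDiff_tsupport_subset` or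
`exists_smooth_tsupport_subset`), and one more for `(j, K)` (`exists_contMDiff_support_eq` or
`exists_smooth_zero_one_of_isClosed`, or a finite sum of squares of bumps).
`S = ∑ (ext b s) ^ 2` is smooth (`sm_ext`), invariant, positive;
`χ s x = b s x / √(S (τ⁻¹ (x, 1)))` is smooth on `V` (zero near points outside `tsupport (b s)`). -/
theorem exists_part (j : A.ι) {K : Set V} (hK : IsCompact K) (hs : K ⊆ A.base j) :
    ∃ (P : A.Part) (s : Fin P.n), P.ch s = j ∧ ∀ x ∈ K, P.χ s x ≠ 0 := by
  sorry

end Cone

end Vale.Agent.P292
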