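import Vale.Agent.P292.Defs
import Vale.Agent.P292.CA0

/-! Vector fields, partitions and integrals on a cone. -/

set_option maxSynthPendingDepth 3

open scoped ContDiff Topology ComplexConjugate
open Set Filter MeasureTheory

noncomputable section

namespace Vale.Agent.P292

variable {V : Type} [NormedAddCommGroup V] [NormedSpace ℝ V] {C : Type} [TopologicalSpace C]

namespace Cone

variable (A : Cone V C)

/-- a chart around `c` -/
def ch (c : C) : A.ι := Classical.choose (A.cover c)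

/-- the differential of the transition from the chart `j` to the chart `i` -/
abbrev dtr (i j : A.ι) (p : V × ℂ) : V × ℂ →L[ℝ] V × ℂ := fderiv ℝ (A.τ i ∘ (A.τ j).symm) p

/-- functions of weight `k` for the circle, invariant under positive numbers -/
def Eqv (k : ℕ) (u : C → ℂ) : Prop :=
  ∀ l c, l ≠ 0 → u (A.act l c) = (l / (‖l‖ : ℂ)) ^ k * u c

/-- invariant functions -/
def Inv (f : C → ℂ) : Prop := ∀ l c, l ≠ 0 → f (A.act l c) = f c

/-- the points of the chart `j` over `K` -/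
def tube (j : A.ι) (K : Set V) : Set C := {c | c ∈ (A.τ j).source ∧ (A.τ j c).1 ∈ K}

open Classical in
/-- extension by zero of a function in the chart `j` -/
def ext {F : Type} [Zero F] (j : A.ι) (g : V × ℂ → F) (c : C) : F :=
  if c ∈ (A.τ j).source then g (A.τ j c) else 0

/-- families of vector fields in the charts -/
abbrev Fld : Type := A.ι → V × ℂ → V × ℂ

/-- smooth invariant vector fields -/
structure IsVF (ξ : A.Fld) : Prop where
  smooth : ∀ j, ContDiffOn ℝ ∞ (ξ j) (A.τ j).target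
  scale : ∀ j, ∀ p ∈ (A.τ j).target, ∀ l : ℂ, l ≠ 0 →
    ξ j (p.1, l * p.2) = ((ξ j p).1, l * (ξ j p).2)
  compat : ∀ i j, ∀ p ∈ (A.τ j).target, (A.τ j).symm p ∈ (A.τ i).source →
    A.dtr i j p (ξ j p) = ξ i (A.τ i ((A.τ j).symm p))

/-- the derivative of a function along a vector field -/
def ap (ξ : A.Fld) (u : C → ℂ) (c : C) : ℂ :=
  fderiv ℝ (u ∘ (A.τ (A.ch c)).symm) (A.τ (A.ch c) c) (ξ (A.ch c) (A.τ (A.ch c) c))

/-- the form `d log r` -/
def al (j : A.ι) (p : V × ℂ) : V × ℂ →L[ℝ] ℝ :=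
  fderiv ℝ (fun q => Real.log (A.r ((A.τ j).symm q))) p

/-- the form `d log r ∘ J` -/
def be (j : A.ι) (p : V × ℂ) : V × ℂ →L[ℝ] ℝ := (A.al j p).comp (A.J j p)

/-- the exterior derivative of `be` -/
def omg (j : A.ι) (p v w : V × ℂ) : ℝ := fderiv ℝ (A.be j) p v w - fderiv ℝ (A.be j) p w v

/-- the Euler field -/
def eF : A.Fld := fun _ p => (0, p.2)

/-- the generator of the circle action -/
def tF : A.Fld := fun _ p => (0, Complex.I * p.2)

/-- `J ξ` -/
def jF (ξ : A.Fld) : A.Fld := fun j p => A.J j p (ξ j p)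

/-- the horizontal part of a vector -/
def horV (j : A.ι) (p v : V × ℂ) : V × ℂ :=
  v - A.al j p v • ((0, p.2) : V × ℂ) + A.be j p v • ((0, Complex.I * p.2) : V × ℂ)

/-- the horizontal part of a field -/
def hor (ξ : A.Fld) : A.Fld := fun j p => A.horV j p (ξ j p)

open Classical in
/-- extension by zero of a field in the chart `j` -/
def ofC (j : A.ι) (ζ : V × ℂ → V × ℂ) : A.Fld := fun i p =>
  if (A.τ i).symm p ∈ (A.τ j).source then
    A.dtr i j (A.τ j ((A.τ i).symm p)) (ζ (A.τ j ((A.τ i).symm p))) else 0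

/-- the bracket -/
def brF (ξ η : A.Fld) : A.Fld := fun j => VectorField.lieBracket ℝ (ξ j) (η j)

/-- fields tangent to the levels of `r` -/
def Tan (ξ : A.Fld) : Prop := ∀ j, ∀ p ∈ (A.τ j).target, A.al j p (ξ j p) = 0

/-- fields vanishing outside a tube -/
def Supp (ξ : A.Fld) (j : A.ι) (K : Set V) : Prop :=
  ∀ i, ∀ p ∈ (A.τ i).target, (A.τ i).symm p ∉ A.tube j K → ξ i p = 0

/-- the function `be ξ` -/
def beF (ξ : A.Fld) (c : C) : ℝ :=
  A.be (A.ch c) (A.τ (A.ch c) c) (ξ (A.ch c) (A.τ (A.ch c) c))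

/-- jointly smooth families of functions -/
def JS (γ : ℝ → C → ℂ) : Prop :=
  ∀ j, ContDiffOn ℝ ∞ (fun q : ℝ × V × ℂ => γ q.1 ((A.τ j).symm q.2)) (univ ×ˢ (A.τ j).target)

/-- smooth functions of weight `k` -/
def Hs (k : ℕ) : Submodule ℂ (C → ℂ) where
  carrier := {u | A.Sm u ∧ A.Eqv k u}
  zero_mem' := ⟨fun _ => contDiffOn_const, fun l c _ => by simp⟩
  add_mem' := fun hu hv => ⟨fun j => (hu.1 j).add (hv.1 j), fun l c hl => by
    simp only [Pi.add_apply, hu.2 l c hl, hv.2 l c hl, mul_add]⟩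
  smul_mem' := fun z u hu => ⟨fun j => contDiffOn_const.mul (hu.1 j), fun l c hl => by
    simp only [Pi.smul_apply, smul_eq_mul, hu.2 l c hl]
    ring⟩

/-- a finite family of bump functions whose squares add up to one -/
structure Part where
  n : ℕ
  ch : Fin n → A.ι
  χ : Fin n → V → ℝ
  smooth : ∀ s, ContDiff ℝ ∞ (χ s)
  cpt : ∀ s, HasCompactSupport (χ s)
  sub : ∀ s, tsupport (χ s) ⊆ A.base (ch s)
  sum : ∀ c, ∑ s, A.ext (ch s) (fun p => χ s p.1) c ^ 2 = 1

end Cone

variable [FiniteDimensional ℝ V]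

variable (V) in
/-- a basis of the model space -/
abbrev bas : Module.Basis (Fin (Module.finrank ℝ V)) ℝ V := Module.finBasis ℝ V

namespace Cone.Part

variable {A : Cone V C} (P : A.Part)

/-- the index set of the horizontal generators -/
abbrev κ : Type := Fin P.n × Fin (Module.finrank ℝ V)

/-- the horizontal generators -/
def xF (a : P.κ) : A.Fld :=
  A.hor (A.ofC (P.ch a.1) fun p => P.χ a.1 p.1 • ((bas V a.2, 0) : V × ℂ))

/-- all generators -/
def gen : Option (P.κ × Bool) → A.Fld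
  | none => A.tF
  | some (a, false) => P.xF a
  | some (a, true) => A.jF (P.xF a)

/-- the coefficients of a field -/
def cf (ξ : A.Fld) (a : P.κ) : C → ℝ :=
  A.ext (P.ch a.1) fun p => P.χ a.1 p.1 * (bas V).repr (ξ (P.ch a.1) p).1 a.2

/-- iterated derivatives along the generators -/
def wd (I : List (Option (P.κ × Bool))) (u : C → ℂ) : C → ℂ :=
  I.foldr (fun a v => A.ap (P.gen a) v) u

/-- `(X + i J X) u` -/
def lF (a : P.κ) (u : C → ℂ) : C → ℂ :=
  fun c => A.ap (P.xF a) u c + Complex.I * A.ap (A.jF (P.xF a)) u c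

/-- `(X - i J X) u` -/
def lbF (a : P.κ) (u : C → ℂ) : C → ℂ :=
  fun c => A.ap (P.xF a) u c - Complex.I * A.ap (A.jF (P.xF a)) u c

/-- the vertical component of `[X a - i J X a, X b + i J X b]` -/
def th (a b : P.κ) (c : C) : ℂ :=
  -(A.beF (A.brF (P.xF a) (P.xF b)) c + A.beF (A.brF (A.jF (P.xF a)) (A.jF (P.xF b))) c : ℝ) -
    Complex.I * (A.beF (A.brF (P.xF a) (A.jF (P.xF b))) c -
      A.beF (A.brF (A.jF (P.xF a)) (P.xF b)) c : ℝ)

variable [MeasurableSpace V] [BorelSpace V]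

/-- the integral of an invariant complex function -/
def integ (g : C → ℂ) : ℂ :=
  ∑ s, ∫ x, (P.χ s x : ℂ) ^ 2 * g ((A.τ (P.ch s)).symm (x, 1)) ∂(bas V).addHaar

/-- the integral of an invariant real function -/
def integR (g : C → ℝ) : ℝ :=
  ∑ s, ∫ x, P.χ s x ^ 2 * g ((A.τ (P.ch s)).symm (x, 1)) ∂(bas V).addHaar

end Cone.Part

end Vale.Agent.P292
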