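import Vale.Agent.P292.CR0

/-! Two estimates on a vector space. -/

set_option maxSynthPendingDepth 3

open scoped ContDiff Topology ComplexConjugate
open Set Filter MeasureTheory

noncomputable section

namespace Vale.Agent.P292

variable {V : Type} [NormedAddCommGroup V] [NormedSpace ℝ V]

/-- iterated derivatives along vector fields -/
def dirs {F : Type} [NormedAddCommGroup F] [NormedSpace ℝ F] (l : List (V → V)) (f : V → F) :
    V → F := l.foldr (fun ζ g x => fderiv ℝ g x (ζ x)) f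

/-- Transport to `Fin d → ℝ` (`(bas V).equivFunL`, `Module.Basis.map_addHaar` or uniqueness of
Haar measure).  There, by induction on a list of distinct coordinates,
`‖f x‖ₑ ≤ ∫⋯∫⁻_l.toFinset, ‖dirs l f‖ₑ` (`lmarginal_insert`,
`HasCompactSupport.enorm_le_lintegral_Ici_deriv` on a line). -/
theorem sup_le_integral [FiniteDimensional ℝ V] [MeasurableSpace V] [BorelSpace V] :
    ∃ B : ℝ, 0 ≤ B ∧ ∀ f : V → ℂ, ContDiff ℝ ∞ f → HasCompactSupport f → ∀ x,
      ‖f x‖ ≤ B * ∫ y, ‖dirs ((List.finRange (Module.finrank ℝ V)).map fun i _ => bas V i) f y‖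
        ∂(bas V).addHaar := by
  sorry

/-- Induction on the list for all orders `n`:
`‖D^n (dirs l f) p‖ ≤ B η` if `‖D^i f p‖ ≤ η` for `i ≤ n + length l`
(`norm_iteratedFDerivWithin_clm_apply`, `norm_iteratedFDerivWithin_fderivWithin`,
`iteratedFDerivWithin_of_isOpen`, continuity of the derivatives of the fields on `K`). -/
theorem dirs_le {O K : Set V} (hO : IsOpen O) (hK : IsCompact K) (hs : K ⊆ O) (l : List (V → V))
    (hl : ∀ ζ ∈ l, ContDiffOn ℝ ∞ ζ O) {ζ₀ : V → V} (h₀ : ContDiffOn ℝ ∞ ζ₀ O) :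
    ∃ B : ℝ, 0 ≤ B ∧ ∀ w : V → V →L[ℝ] ℂ, ContDiffOn ℝ ∞ w O → ∀ p ∈ K, ∀ η : ℝ,
      (∀ i ≤ l.length, ‖iteratedFDeriv ℝ i w p‖ ≤ η) →
        ‖dirs l (fun q => w q (ζ₀ q)) p‖ ≤ B * η := by
  sorry

end Vale.Agent.P292
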