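import Vale.Agent.P292.CH
import Vale.Agent.P292.CS1

/-! The Sobolev inequality. -/

set_option maxSynthPendingDepth 3

open scoped ContDiff Topology ComplexConjugate
open Set Filter MeasureTheory

noncomputable section

namespace Vale.Agent.P292

variable {V : Type} [NormedAddCommGroup V] [NormedSpace ℝ V] [FiniteDimensional ℝ V]
  [MeasurableSpace V] [BorelSpace V] {C : Type} [TopologicalSpace C] [T2Space C] {A : Cone V C}

namespace Cone.Part

variable (P : A.Part)

/-- Fix `s`, `G I x = wd I g (τ⁻¹ (x, 1))`.  For invariant `g`, `G (some ((s, i), false) :: I) x =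
χ x * fderiv (G I) x (bas i)` on `base` (`xF_self`, `vert_eqv` with `k = 0`).  By induction on a
list `l` of basis vectors, `dirs l (χ ^ (m + length l) * b * G I)` is a finite sum of terms
`χ ^ m * b' * G I'` with `b'` smooth on `V` independent of `g` (`b = 1` at the start; `b'` is a
polynomial in derivatives of `χ`), `length I' ≤ length I + length l`.  Take `m = 2`; `b'` is bounded
on `tsupport χ`; `sup_le_integral`; some `s` has `χ s ^ 2 ≥ 1 / n` at `c` (`P.sum`). -/
theorem sob_inv (hJ : A.JFacts) : ∃ B : ℝ, 0 ≤ B ∧ ∀ g, A.Sm g → A.Inv g → ∀ η : ℝ, 0 ≤ η →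
    (∀ I : List (Option (P.κ × Bool)), I.length ≤ Module.finrank ℝ V →
      P.integR (fun c => ‖P.wd I g c‖) ≤ η) → ∀ c, ‖g c‖ ≤ B * η := by
  sorry

/-- `g = conj u * u`; `‖wd I (conj u * v) c‖` is at most the sum over the `2 ^ length I`
splittings of `‖wd I' u c‖ * ‖wd I'' v c‖ ≤ (‖..‖ ^ 2 + ‖..‖ ^ 2) / 2` (induction on `I` from the
right: `wd (I ++ [a]) f = wd I (ap (gen a) f)`, for all `u v`). -/
theorem sob (hJ : A.JFacts) : ∃ B : ℝ, 0 ≤ B ∧ ∀ (k : ℕ) (u : C → ℂ), A.Sm u → A.Eqv k u →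
    ∀ η : ℝ, 0 ≤ η → (∀ I : List (Option (P.κ × Bool)), I.length ≤ Module.finrank ℝ V →
      P.integR (fun c => ‖P.wd I u c‖ ^ 2) ≤ η ^ 2) → ∀ c, ‖u c‖ ≤ B * η := by
  sorry

end Cone.Part

end Vale.Agent.P292
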