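import Vale.Agent.P292.CB2

/-! The forms `al`, `be` and horizontal fields. -/

set_option maxSynthPendingDepth 3

open scoped ContDiff Topology ComplexConjugate
open Set Filter MeasureTheory

noncomputable section

namespace Vale.Agent.P292

variable {V : Type} [NormedAddCommGroup V] [NormedSpace ℝ V] {C : Type} [TopologicalSpace C]
  {A : Cone V C}

namespace Cone

theorem al_smooth (j : A.ι) : ContDiffOn ℝ ∞ (A.al j) (A.τ j).target := by
  sorry

theorem be_smooth (j : A.ι) : ContDiffOn ℝ ∞ (A.be j) (A.τ j).target := by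
  sorry

theorem al_compat {i j : A.ι} {p : V × ℂ} (hp : p ∈ (A.τ j).target)
    (hi : (A.τ j).symm p ∈ (A.τ i).source) (v : V × ℂ) :
    A.al i (A.τ i ((A.τ j).symm p)) (A.dtr i j p v) = A.al j p v := by
  sorry

theorem be_compat (hJ : A.JFacts) {i j : A.ι} {p : V × ℂ} (hp : p ∈ (A.τ j).target)
    (hi : (A.τ j).symm p ∈ (A.τ i).source) (v : V × ℂ) :
    A.be i (A.τ i ((A.τ j).symm p)) (A.dtr i j p v) = A.be j p v := by
  sorry

/-- `log r (scale l q) = log ‖l‖ + log r q` -/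
theorem al_scale {j : A.ι} {p : V × ℂ} (hp : p ∈ (A.τ j).target) {l : ℂ} (hl : l ≠ 0)
    (v : V × ℂ) : A.al j (p.1, l * p.2) (v.1, l * v.2) = A.al j p v := by
  sorry

theorem be_scale (hJ : A.JFacts) {j : A.ι} {p : V × ℂ} (hp : p ∈ (A.τ j).target) {l : ℂ}
    (hl : l ≠ 0) (v : V × ℂ) : A.be j (p.1, l * p.2) (v.1, l * v.2) = A.be j p v := by
  sorry

/-- differentiate `t ↦ log r (x, exp (t z) l) = t re z + log r (x, l)` -/
theorem al_vert {j : A.ι} {p : V × ℂ} (hp : p ∈ (A.τ j).target) (z : ℂ) :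
    A.al j p (0, z * p.2) = z.re := by
  sorry

theorem be_vert (hJ : A.JFacts) {j : A.ι} {p : V × ℂ} (hp : p ∈ (A.τ j).target) (z : ℂ) :
    A.be j p (0, z * p.2) = -z.im := by
  sorry

theorem horV_fst (j : A.ι) (p v : V × ℂ) : (A.horV j p v).1 = v.1 := by
  sorry

theorem horV_add (j : A.ι) (p v w : V × ℂ) :
    A.horV j p (v + w) = A.horV j p v + A.horV j p w := by
  sorry

theorem horV_smul (j : A.ι) (p v : V × ℂ) (t : ℝ) : A.horV j p (t • v) = t • A.horV j p v := by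
  sorry

theorem al_horV {j : A.ι} {p : V × ℂ} (hp : p ∈ (A.τ j).target) (v : V × ℂ) :
    A.al j p (A.horV j p v) = 0 := by
  sorry

theorem be_horV (hJ : A.JFacts) {j : A.ι} {p : V × ℂ} (hp : p ∈ (A.τ j).target) (v : V × ℂ) :
    A.be j p (A.horV j p v) = 0 := by
  sorry

/-- the horizontal part depends only on the first component -/
theorem horV_eq (hJ : A.JFacts) {j : A.ι} {p : V × ℂ} (hp : p ∈ (A.τ j).target) (v : V × ℂ) :
    A.horV j p (v.1, 0) = A.horV j p v := by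
  sorry

theorem dtr_horV (hJ : A.JFacts) {i j : A.ι} {p : V × ℂ} (hp : p ∈ (A.τ j).target)
    (hi : (A.τ j).symm p ∈ (A.τ i).source) (v : V × ℂ) :
    A.dtr i j p (A.horV j p v) = A.horV i (A.τ i ((A.τ j).symm p)) (A.dtr i j p v) := by
  sorry

theorem isVF_tF : A.IsVF A.tF := by
  sorry

theorem tan_tF : A.Tan A.tF := by
  sorry

theorem IsVF.jF (hJ : A.JFacts) {ξ : A.Fld} (h : A.IsVF ξ) : A.IsVF (A.jF ξ) := by
  sorry

theorem IsVF.hor (hJ : A.JFacts) {ξ : A.Fld} (h : A.IsVF ξ) : A.IsVF (A.hor ξ) := by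
  sorry

theorem IsVF.sub {ξ η : A.Fld} (h : A.IsVF ξ) (h' : A.IsVF η) : A.IsVF (ξ - η) := by
  sorry

theorem beF_eq (hJ : A.JFacts) {ξ : A.Fld} (h : A.IsVF ξ) {j : A.ι} {c : C}
    (hc : c ∈ (A.τ j).source) : A.beF ξ c = A.be j (A.τ j c) (ξ j (A.τ j c)) := by
  sorry

theorem beF_sm (hJ : A.JFacts) {ξ : A.Fld} (h : A.IsVF ξ) : A.Sm fun c => (A.beF ξ c : ℂ) := by
  sorry

theorem beF_act (hJ : A.JFacts) {ξ : A.Fld} (h : A.IsVF ξ) {l : ℂ} (hl : l ≠ 0) (c : C) :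
    A.beF ξ (A.act l c) = A.beF ξ c := by
  sorry

theorem ofC_self {j : A.ι} (ζ : V × ℂ → V × ℂ) {p : V × ℂ} (hp : p ∈ (A.τ j).target) :
    A.ofC j ζ j p = ζ p := by
  sorry

theorem ofC_supp {j : A.ι} {K : Set V} {ζ : V × ℂ → V × ℂ}
    (h0 : ∀ p ∈ (A.τ j).target, p.1 ∉ K → ζ p = 0) : A.Supp (A.ofC j ζ) j K := by
  sorry

/-- smooth on the overlap, zero near points outside the closed tube; `dtr_scale`, `dtr_dtr` -/
theorem isVF_ofC [T2Space C] {j : A.ι} {K : Set V} (hK : IsCompact K) (hs : K ⊆ A.base j)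
    {ζ : V × ℂ → V × ℂ} (hζ : ContDiffOn ℝ ∞ ζ (A.τ j).target)
    (h0 : ∀ p ∈ (A.τ j).target, p.1 ∉ K → ζ p = 0)
    (hl : ∀ p ∈ (A.τ j).target, ∀ l : ℂ, l ≠ 0 → ζ (p.1, l * p.2) = ((ζ p).1, l * (ζ p).2)) :
    A.IsVF (A.ofC j ζ) := by
  sorry

end Cone

end Vale.Agent.P292
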