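import Vale.Agent.P292.CV1

/-! Brackets. -/

set_option maxSynthPendingDepth 3

open scoped ContDiff Topology ComplexConjugate
open Set Filter MeasureTheory

noncomputable section

namespace Vale.Agent.P292

variable {V : Type} [NormedAddCommGroup V] [NormedSpace ℝ V] {C : Type} [TopologicalSpace C]
  {A : Cone V C}

namespace Cone

/-- If `Dφ ξ = ξ' ∘ φ` and `Dφ η = η' ∘ φ` near `p` then `Dφ [ξ, η] = [ξ', η'] ∘ φ` at `p`:
differentiate both relations, the second derivative of `φ` is symmetric.  Use it for the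
transitions and for the linear map `scale l`. -/
theorem IsVF.brF {ξ η : A.Fld} (h : A.IsVF ξ) (h' : A.IsVF η) : A.IsVF (A.brF ξ η) := by
  sorry

/-- in a chart `ap η u ∘ τ⁻¹ = fun q => fderiv (u ∘ τ⁻¹) q (η q)` near the point;
`VectorField.fderiv_apply_lieBracket` -/
theorem ap_brF {ξ η : A.Fld} (h : A.IsVF ξ) (h' : A.IsVF η) {u : C → ℂ} (hu : A.Sm u) (c : C) :
    A.ap (A.brF ξ η) u c = A.ap ξ (A.ap η u) c - A.ap η (A.ap ξ u) c := by
  sorry

theorem Tan.brF {ξ η : A.Fld} (h : A.IsVF ξ) (h' : A.IsVF η) (t : A.Tan ξ) (t' : A.Tan η) :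
    A.Tan (A.brF ξ η) := by
  sorry

/-- expand the brackets, use `JFacts.nij` and `J_sq` -/
theorem nij_vec (hJ : A.JFacts) {ξ η : A.Fld} (h : A.IsVF ξ) (h' : A.IsVF η) {j : A.ι}
    {p : V × ℂ} (hp : p ∈ (A.τ j).target) :
    A.J j p (A.brF ξ η j p - A.brF (A.jF ξ) (A.jF η) j p) =
      A.brF ξ (A.jF η) j p + A.brF (A.jF ξ) η j p := by
  sorry

/-- differentiate `be ξ = 0` and `be η = 0` -/
theorem be_brF {ξ η : A.Fld} (h : A.IsVF ξ) (h' : A.IsVF η) (t : A.Tan (A.jF ξ))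
    (t' : A.Tan (A.jF η)) {j : A.ι} {p : V × ℂ} (hp : p ∈ (A.τ j).target) :
    A.be j p (A.brF ξ η j p) = -A.omg j p (ξ j p) (η j p) := by
  sorry

end Cone

end Vale.Agent.P292
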