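import Vale.Agent.P292.CD1
import Vale.Agent.P292.CS1

/-! From the generators back to the charts. -/

set_option maxSynthPendingDepth 3

open scoped ContDiff Topology ComplexConjugate
open Set Filter MeasureTheory

noncomputable section

namespace Vale.Agent.P292

variable {V : Type} [NormedAddCommGroup V] [NormedSpace ℝ V] [FiniteDimensional ℝ V]
  {C : Type} [TopologicalSpace C] [T2Space C] {A : Cone V C}

namespace Cone.Part

variable (P : A.Part)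

/-- In the chart `ch s` with `χ s ≠ 0`: `dbar` kills `horV v` (`dec_own`, `lF_eq`) and vertical
vectors (`vert_hom`, `JFacts.vert`).  Other charts: `fderiv_chart`, `JFacts.compat`. -/
theorem hol_of_lF (hJ : A.JFacts) {k : ℕ} {u : C → ℂ} (hu : A.Sm u) (hk : A.Hom k u)
    (h : ∀ a c, P.lF a u c = 0) : A.Hol u := by
  sorry

/-- `dec_own`, `vert_hom`; `1 / χ`, `al`, `be` and the coordinates are bounded on `K × {1}` -/
theorem fderiv_le (hJ : A.JFacts) (s : Fin P.n) {K : Set V} (hK : IsCompact K)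
    (h : ∀ x ∈ K, P.χ s x ≠ 0) : ∃ B : ℝ, 0 ≤ B ∧ ∀ (k : ℕ) (w : C → ℂ), A.Sm w → A.Hom k w →
      ∀ x ∈ K, ∀ η : ℝ, ‖w ((A.τ (P.ch s)).symm (x, 1))‖ ≤ η →
        (∀ i, ‖A.ap (P.xF (s, i)) w ((A.τ (P.ch s)).symm (x, 1))‖ ≤ η) →
          ‖fderiv ℝ (w ∘ (A.τ (P.ch s)).symm) (x, 1)‖ ≤ B * (k + 1) * η := by
  sorry

/-- Outside the closed tube everything vanishes (`ap_off`).  Inside, both sides scale by
`‖l‖ ^ k` (`wd_act`), so let `c = τ⁻¹ (x, 1)`; on the target `wd I (lF a u) ∘ τ⁻¹ =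
dirs (I.map fun e => gen e j) (fun q => dbar j u q (xF a j q))` (`ap_symm`, `lF_eq`, the target is
open); `dirs_le` on `V × ℂ`, finitely many words. -/
theorem src_le (hJ : A.JFacts) (j : A.ι) {K : Set V} (hK : IsCompact K) (hs : K ⊆ A.base j)
    (n : ℕ) : ∃ B : ℝ, 0 ≤ B ∧ ∀ (k : ℕ) (u : C → ℂ) (η : ℝ), 0 ≤ η → A.Sm u → A.Hom k u →
      (∀ c, u c ≠ 0 → c ∈ (A.τ j).source ∧ (A.τ j c).1 ∈ K) →
      (∀ i ≤ n, ∀ x ∈ K, ‖iteratedFDeriv ℝ i (A.dbar j u) (x, 1)‖ ≤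
        η * A.r ((A.τ j).symm (x, 1)) ^ k) →
      ∀ (a : P.κ) (I : List (Option (P.κ × Bool))), I.length ≤ n → ∀ c,
        ‖P.wd I (P.lF a u) c‖ ≤ B * η * A.r c ^ k := by
  sorry

end Cone.Part

end Vale.Agent.P292
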