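import Vale.Agent.P292.HN

/-! The theorem of Sard for holomorphic maps. Hints: `small_crit`: the set where the rank is at
most `r` is locally analytic (minors, or: all `(r+1)`-fold determinants `det (l_i (Dφ e_j))`
vanish); stratify it by `LocAn.holIm`; the rank of a composition is at most the rank of `Dφ`.
`Small.null` is in the file `HN`. -/

set_option maxSynthPendingDepth 3

open scoped ContDiff Topology
open Set Filter

noncomputable section

namespace Vale.Agent.P292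

variable {F F' : Type} [NormedAddCommGroup F] [NormedSpace ℂ F] [NormedAddCommGroup F']
  [NormedSpace ℂ F']

theorem hc_left {A B C : Type} [AddCommGroup A] [Module ℂ A] [AddCommGroup B] [Module ℂ B]
    [AddCommGroup C] [Module ℂ C] [FiniteDimensional ℂ A] (f : A →ₗ[ℂ] B) (g : B →ₗ[ℂ] C) :
    Module.finrank ℂ (g.comp f).range ≤ Module.finrank ℂ f.range := by
  rw [LinearMap.range_comp]
  exact Submodule.finrank_map_le _ _

theorem hc_right {A B C : Type} [AddCommGroup A] [Module ℂ A] [AddCommGroup B] [Module ℂ B]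
    [AddCommGroup C] [Module ℂ C] [FiniteDimensional ℂ B] (f : A →ₗ[ℂ] B) (g : B →ₗ[ℂ] C) :
    Module.finrank ℂ (g.comp f).range ≤ Module.finrank ℂ g.range :=
  Submodule.finrank_mono (LinearMap.range_comp_le_range f g)

theorem hc_small {r : ℕ} {S : Set F} {J : Type} [Countable J] (d : J → ℕ)
    (O : ∀ n, Set (Fin (d n) → ℂ)) (φ : ∀ n, (Fin (d n) → ℂ) → F)
    (h : ∀ n, IsOpen (O n) ∧ AnalyticOnNhd ℂ (φ n) (O n) ∧
      ∀ x ∈ O n, Module.finrank ℂ (fderiv ℂ (φ n) x).range ≤ r) (hS : S ⊆ ⋃ n, φ n '' O n) :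
    Small r S := by
  rcases isEmpty_or_nonempty J with hJ | hJ
  · refine ⟨fun _ => 0, fun _ => ∅, fun _ _ => 0, fun _ => ⟨isOpen_empty, fun _ h => h.elim,
      fun _ h => h.elim⟩, fun x hx => ?_⟩
    obtain ⟨n, -⟩ := mem_iUnion.1 (hS hx)
    exact hJ.elim n
  · obtain ⟨e, he⟩ := exists_surjective_nat J
    refine ⟨fun n => d (e n), fun n => O (e n), fun n => φ (e n), fun n => h (e n), fun x hx => ?_⟩
    obtain ⟨n, hn⟩ := mem_iUnion.1 (hS hx)
    obtain ⟨m, rfl⟩ := he n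
    exact mem_iUnion.2 ⟨m, hn⟩

theorem hc_det [FiniteDimensional ℂ F] [FiniteDimensional ℂ F'] (r : ℕ) (A : F →L[ℂ] F') :
    Module.finrank ℂ A.range ≤ r ↔ ∀ (l : Fin (r + 1) → F' →L[ℂ] ℂ) (e : Fin (r + 1) → F),
      (Matrix.of fun i j => l i (A (e j))).det = 0 := by
  constructor
  · intro h l e
    by_contra hne
    have h1 := Matrix.linearIndependent_cols_of_det_ne_zero hne
    have h2 : LinearIndependent ℂ fun j => (⟨A (e j), ⟨e j, rfl⟩⟩ : A.range) :=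
      LinearIndependent.of_comp ((LinearMap.pi fun i => (l i).toLinearMap).comp A.range.subtype) h1
    have h3 := h2.fintype_card_le_finrank
    rw [Fintype.card_fin] at h3
    omega
  · intro h
    by_contra hne
    obtain ⟨v, hv⟩ := exists_linearIndependent_of_le_finrank (R := ℂ) (M := A.range) (n := r + 1)
      (by omega)
    have h1 : LinearIndependent ℂ fun j => (v j : F') :=
      hv.map' A.range.subtype (Submodule.ker_subtype _)
    obtain ⟨L, hL⟩ := LinearMap.exists_leftInverse_of_injective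
      (Fintype.linearCombination ℂ fun j => (v j : F'))
      (LinearMap.ker_eq_bot.2 h1.fintypeLinearCombination_injective)
    choose e he using fun j => (v j).2
    have h2 := h (fun i => LinearMap.toContinuousLinearMap ((LinearMap.proj i).comp L)) e
    have h3 : (Matrix.of fun i j => LinearMap.toContinuousLinearMap ((LinearMap.proj i).comp L)
        (A (e j))) = (1 : Matrix (Fin (r + 1)) (Fin (r + 1)) ℂ) := by
      ext i j
      have h4 := LinearMap.congr_fun hL (Pi.single j 1)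
      rw [LinearMap.comp_apply, Fintype.linearCombination_apply_single, one_smul,
        LinearMap.id_apply] at h4
      have h5 : A (e j) = v j := he j
      change L (A (e j)) i = _
      rw [h5, h4, Matrix.one_apply, Pi.single_apply]
    rw [h3, Matrix.det_one] at h2
    exact one_ne_zero h2

theorem Small.mono {r r' : ℕ} {S S' : Set F} (h : Small r S) (hr : r ≤ r') (hS : S' ⊆ S) :
    Small r' S' := by
  obtain ⟨d, O, φ, h1, h2⟩ := h
  exact ⟨d, O, φ, fun n => ⟨(h1 n).1, (h1 n).2.1, fun x hx => ((h1 n).2.2 x hx).trans hr⟩,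
    hS.trans h2⟩

theorem Small.iUnion {r : ℕ} {ι : Type} [Countable ι] {S : ι → Set F} (h : ∀ i, Small r (S i)) :
    Small r (⋃ i, S i) := by
  choose d O φ h1 h2 using h
  refine hc_small (J := ι × ℕ) (fun q => d q.1 q.2) (fun q => O q.1 q.2) (fun q => φ q.1 q.2)
    (fun q => h1 q.1 q.2) fun x hx => ?_
  obtain ⟨i, hi⟩ := mem_iUnion.1 hx
  obtain ⟨n, hn⟩ := mem_iUnion.1 (h2 i hi)
  exact mem_iUnion.2 ⟨(i, n), hn⟩

theorem Small.union {r : ℕ} {S S' : Set F} (h : Small r S) (h' : Small r S') :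
    Small r (S ∪ S') := by
  rw [union_eq_iUnion]
  exact Small.iUnion fun b => by cases b <;> assumption

theorem Small.image [CompleteSpace F'] {r : ℕ} {S : Set F} (h : Small r S) {g : F → F'}
    (hg : ∀ x ∈ S, AnalyticAt ℂ g x) : Small r (g '' S) := by
  obtain ⟨d, O, φ, h1, h2⟩ := h
  refine ⟨d, fun n => O n ∩ φ n ⁻¹' {x | AnalyticAt ℂ g x}, fun n => g ∘ φ n, fun n =>
    ⟨(h1 n).2.1.continuousOn.isOpen_inter_preimage (h1 n).1 (isOpen_analyticAt ℂ g),
      fun x hx => AnalyticAt.comp hx.2 ((h1 n).2.1 x hx.1), fun x hx => ?_⟩, ?_⟩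
  · rw [fderiv_comp x (AnalyticAt.differentiableAt hx.2) ((h1 n).2.1 x hx.1).differentiableAt]
    exact (hc_left _ _).trans ((h1 n).2.2 x hx.1)
  · rintro _ ⟨x, hx, rfl⟩
    obtain ⟨n, y, hy, rfl⟩ := mem_iUnion.1 (h2 hx)
    exact mem_iUnion.2 ⟨n, y, ⟨hy, hg _ hx⟩, rfl⟩

/-- the rank is bounded along every holomorphic map into `S` -/
theorem HolIm.small {r : ℕ} {S : Set F} (h : HolIm S) {g : F → F'} (hg : AnRel S g)
    (hr : ∀ (d : ℕ) (φ : (Fin d → ℂ) → F) (x : Fin d → ℂ), AnalyticAt ℂ φ x →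
      (∀ᶠ y in 𝓝 x, φ y ∈ S) → Module.finrank ℂ (fderiv ℂ (g ∘ φ) x).range ≤ r) :
    Small r (g '' S) := by
  obtain ⟨d, O, φ, h1, h2⟩ := h
  have hm : ∀ n, MapsTo (φ n) (O n) S := fun n x hx => h2 ▸ mem_iUnion.2 ⟨n, x, hx, rfl⟩
  refine ⟨d, O, fun n => g ∘ φ n, fun n => ⟨(h1 n).1, hg.comp_analytic (h1 n).1 (h1 n).2 (hm n),
    fun x hx => hr _ _ x ((h1 n).2 x hx)
      (eventually_of_mem ((h1 n).1.mem_nhds hx) fun y hy => hm n hy)⟩, ?_⟩
  rintro _ ⟨x, hx, rfl⟩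
  obtain ⟨n, y, hy, rfl⟩ := mem_iUnion.1 (h2 ▸ hx)
  exact mem_iUnion.2 ⟨n, y, hy, rfl⟩

theorem small_crit [FiniteDimensional ℂ F] [FiniteDimensional ℂ F'] (r : ℕ) {O : Set F}
    (hO : IsOpen O) {φ : F → F'} (hφ : AnalyticOnNhd ℂ φ O) :
    Small r (φ '' {x ∈ O | Module.finrank ℂ (fderiv ℂ φ x).range ≤ r}) := by
  have hZ : LocAn {x ∈ O | Module.finrank ℂ (fderiv ℂ φ x).range ≤ r} := by
    intro x hx
    refine ⟨O, {f | ∃ (l : Fin (r + 1) → F' →L[ℂ] ℂ) (e : Fin (r + 1) → F),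
      f = fun y => (Matrix.of fun i j => l i (fderiv ℂ φ y (e j))).det}, hO, hx.1, ?_, ?_⟩
    · rintro _ ⟨l, e, rfl⟩ y hy
      have h1 := hφ.fderiv_of_isOpen hO y hy
      simp only [Matrix.det_apply', Matrix.of_apply]
      refine Finset.analyticAt_fun_sum _ fun σ _ => analyticAt_const.mul
        (Finset.analyticAt_fun_prod _ fun i _ => ?_)
      exact (((l (σ i)).comp (ContinuousLinearMap.apply ℂ F' (e i))).analyticAt _).comp h1
    · ext y
      constructor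
      · rintro ⟨⟨h1, h2⟩, -⟩
        refine ⟨h1, ?_⟩
        rintro _ ⟨l, e, rfl⟩
        exact (hc_det r _).1 h2 l e
      · rintro ⟨h1, h2⟩
        exact ⟨⟨h1, (hc_det r _).2 fun l e => h2 _ ⟨l, e, rfl⟩⟩, h1⟩
  refine hZ.holIm.small (AnRel.of_analytic fun x hx => hφ x hx.1) fun d ψ x hψ hx => ?_
  have h1 := hx.self_of_nhds
  rw [fderiv_comp x (hφ _ h1.1).differentiableAt hψ.differentiableAt]
  exact (hc_right _ _).trans h1.2

theorem Small.dense_compl [FiniteDimensional ℂ F] {r : ℕ} {S : Set F} (h : Small r S)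
    (hr : r < Module.finrank ℂ F) : Dense Sᶜ := by
  have e : F ≃L[ℂ] (Fin (Module.finrank ℂ F) → ℂ) :=
    ContinuousLinearEquiv.ofFinrankEq (Module.finrank_fin_fun ℂ).symm
  have h1 := (h.image (g := e) fun x _ => e.analyticAt x).null hr
  have h2 := interior_eq_empty_iff_dense_compl.1
    (MeasureTheory.Measure.interior_eq_empty_of_null h1)
  have h3 : Dense (e ⁻¹' (e '' S)ᶜ) := h2.preimage e.toHomeomorph.isOpenMap
  have h4 : e ⁻¹' (e '' S)ᶜ ⊆ Sᶜ := fun x hx hS => hx ⟨x, hS, rfl⟩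
  exact h3.mono h4

variable {κ : Type} [Fintype κ]

theorem Pre.finrank_T (P : Pre κ) {p : κ → ℂ} (hp : p ∈ P.C) :
    Module.finrank ℂ (P.T p) = P.ρ := by
  obtain ⟨π, χ, ϑ, h1, -, h2, h3⟩ := P.loc p hp
  have h4 := (h3.self_of_nhds hp).1
  have h5 := h2.self_of_nhds.2.2
  rw [h4] at h5
  have h6 : fderiv ℂ (π ∘ χ) (π p) = fderiv ℂ id (π p) :=
    EventuallyEq.fderiv_eq (h2.mono fun u hu => hu.2.1)
  rw [fderiv_comp _ π.differentiableAt h1.differentiableAt, π.fderiv, fderiv_id] at h6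
  have h7 : Function.Injective (fderiv ℂ χ (π p)) :=
    Function.LeftInverse.injective (g := π) fun v => ContinuousLinearMap.ext_iff.1 h6 v
  rw [h5, LinearMap.finrank_range_of_inj h7, Module.finrank_fin_fun]

/-- the differential of a map into the cone has values in the tangent space -/
theorem Pre.fderiv_mem (P : Pre κ) {φ : F → κ → ℂ} {x : F} (hφ : DifferentiableAt ℂ φ x)
    (hC : ∀ᶠ y in 𝓝 x, φ y ∈ P.C) (v : F) : fderiv ℂ φ x v ∈ P.T (φ x) := by
  have hp := hC.self_of_nhds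
  obtain ⟨π, χ, ϑ, h1, -, h2, h3⟩ := P.loc _ hp
  have h4 := (h3.self_of_nhds hp).1
  have h5 := h2.self_of_nhds.2.2
  rw [h4] at h5
  have h6 : fderiv ℂ φ x = fderiv ℂ (χ ∘ π ∘ φ) x := by
    refine EventuallyEq.fderiv_eq ?_
    filter_upwards [hφ.continuousAt.eventually h3, hC] with y hy hy'
    exact (hy hy').1.symm
  rw [h5, h6, fderiv_comp x h1.differentiableAt (π.differentiableAt.comp x hφ)]
  exact ⟨_, rfl⟩

theorem Pre.locAn (P : Pre κ) : LocAn P.C := by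
  intro p hp
  obtain ⟨π, χ, ϑ, h1, -, h2, h3⟩ := P.loc p hp
  obtain ⟨N, hN, hNo, hpN⟩ := eventually_nhds_iff.1
    (((π.continuous.continuousAt (x := p)).eventually (h1.eventually_analyticAt.and h2)).and h3)
  refine ⟨N, {f | ∃ i, f = fun q => q i - χ (π q) i}, hNo, hpN, ?_, ?_⟩
  · rintro _ ⟨i, rfl⟩ q hq
    have a1 := (ContinuousLinearMap.proj (R := ℂ) (φ := fun _ : κ => ℂ) i).analyticAt
    exact (a1 q).sub ((a1 _).comp ((hN q hq).1.1.comp (π.analyticAt q)))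
  · ext q
    constructor
    · rintro ⟨hq, hq'⟩
      refine ⟨hq', ?_⟩
      rintro _ ⟨i, rfl⟩
      exact sub_eq_zero.2 (congrFun ((hN q hq').2 hq).1 i).symm
    · rintro ⟨hq, hq'⟩
      have : q = χ (π q) := funext fun i => sub_eq_zero.1 (hq' _ ⟨i, rfl⟩)
      exact ⟨this ▸ (hN q hq).1.2.1, hq⟩

theorem Pre.dense_compl (P : Pre κ) {S : Set (κ → ℂ)} (h : Small (P.ρ - 1) S) :
    ∀ p ∈ P.C, ∀ N ∈ 𝓝 p, ∃ y ∈ N ∩ P.C, y ∉ S := by
  intro p hp N hN
  obtain ⟨π, χ, ϑ, h1, -, h2, h3⟩ := P.loc p hp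
  have h4 := (h3.self_of_nhds hp).1
  have h5 := (h.image (g := π) fun x _ => π.analyticAt x).dense_compl (by
    have := P.four
    rw [Module.finrank_fin_fun]
    omega)
  have h6 : ∀ᶠ u in 𝓝 (π p), χ u ∈ N := h1.continuousAt (h4.symm ▸ hN)
  obtain ⟨u, hu, hu'⟩ := h5.inter_nhds_nonempty (h6.and h2)
  exact ⟨χ u, ⟨hu'.1, hu'.2.1⟩, fun hS => hu ⟨χ u, hS, hu'.2.2.1⟩⟩

/-- regular values of a countable family of maps into the cone -/
theorem Pre.regular (P : Pre κ) {S : Set F} (h : HolIm S) {g : F → κ → ℂ} (hg : AnRel S g)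
    (hC : MapsTo g S P.C) : ∃ (𝒩 : Set (κ → ℂ)) (d : ℕ → ℕ) (O : ∀ n, Set (Fin (d n) → ℂ))
      (φ : ∀ n, (Fin (d n) → ℂ) → F), Small (P.ρ - 1) 𝒩 ∧
      (∀ n, IsOpen (O n) ∧ AnalyticOnNhd ℂ (φ n) (O n)) ∧ S = ⋃ n, φ n '' O n ∧
      ∀ n, ∀ x ∈ O n, g (φ n x) ∉ 𝒩 → P.T (g (φ n x)) ≤ (fderiv ℂ (g ∘ φ n) x).range := by
  obtain ⟨d, O, φ, h1, h2⟩ := h
  have hm : ∀ n, MapsTo (φ n) (O n) S := fun n x hx => h2 ▸ mem_iUnion.2 ⟨n, x, hx, rfl⟩
  have ha : ∀ n, AnalyticOnNhd ℂ (g ∘ φ n) (O n) := fun n =>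
    hg.comp_analytic (h1 n).1 (h1 n).2 (hm n)
  refine ⟨⋃ n, (g ∘ φ n) '' {x ∈ O n | Module.finrank ℂ (fderiv ℂ (g ∘ φ n) x).range ≤ P.ρ - 1},
    d, O, φ, Small.iUnion fun n => small_crit _ (h1 n).1 (ha n), h1, h2, fun n x hx hn => ?_⟩
  have h3 : ¬ Module.finrank ℂ (fderiv ℂ (g ∘ φ n) x).range ≤ P.ρ - 1 := fun hle =>
    hn (mem_iUnion.2 ⟨n, x, ⟨hx, hle⟩, rfl⟩)
  have h4 : (fderiv ℂ (g ∘ φ n) x).range ≤ P.T (g (φ n x)) := by
    rintro _ ⟨v, rfl⟩
    exact P.fderiv_mem (ha n x hx).differentiableAt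
      (eventually_of_mem ((h1 n).1.mem_nhds hx) fun y hy => hC (hm n hy)) v
  refine (Submodule.eq_of_le_of_finrank_le h4 ?_).ge
  rw [P.finrank_T (hC (hm n hx))]
  omega

end Vale.Agent.P292
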