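import Vale.Agent.P292.HB
import Vale.Agent.P292.HC

/-! Part D, definitions: polynomial maps of the cone to `ℂ^ρ`, charts, etale points, critical
values, fibres. -/

set_option maxSynthPendingDepth 3

open scoped ContDiff Topology
open Set Filter Metric

noncomputable section

namespace Vale.Agent.P292

variable {κ : Type} [Fintype κ]

/-- a polynomial map -/
def pm {σ : Type} (f : σ → MvPolynomial κ ℂ) (w : κ → ℂ) : σ → ℂ :=
  fun i => MvPolynomial.eval w (f i)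

omit [Fintype κ] in
theorem pm_apply {σ : Type} (f : σ → MvPolynomial κ ℂ) (w : κ → ℂ) (i : σ) :
    pm f w i = MvPolynomial.eval w (f i) := rfl

theorem ev_analytic (g : MvPolynomial κ ℂ) (w : κ → ℂ) :
    AnalyticAt ℂ (fun q => MvPolynomial.eval q g) w :=
  AnalyticOnNhd.eval_mvPolynomial g w (mem_univ w)

theorem pm_analytic {σ : Type} [Fintype σ] (f : σ → MvPolynomial κ ℂ) (w : κ → ℂ) :
    AnalyticAt ℂ (pm f) w :=
  analyticAt_pi_iff.2 fun i => ev_analytic (f i) w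

omit [Fintype κ] in
theorem pm_continuous {σ : Type} (f : σ → MvPolynomial κ ℂ) : Continuous (pm f) :=
  continuous_pi fun i => MvPolynomial.continuous_eval (f i)

namespace Pre

variable (P : Pre κ)

/-- a chart of the cone -/
structure Ch (π : (κ → ℂ) →L[ℂ] Fin P.ρ → ℂ) (χ : (Fin P.ρ → ℂ) → κ → ℂ)
    (O : Set (Fin P.ρ → ℂ)) : Prop where
  op : IsOpen O
  an : AnalyticOnNhd ℂ χ O
  mem : ∀ u ∈ O, χ u ∈ P.C
  inv : ∀ u ∈ O, π (χ u) = u
  T : ∀ u ∈ O, P.T (χ u) = (fderiv ℂ χ u).range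

/-- charts on balls around all points, countably many of which cover the cone -/
structure Atlas where
  π : (κ → ℂ) → (κ → ℂ) →L[ℂ] Fin P.ρ → ℂ
  χ : (κ → ℂ) → (Fin P.ρ → ℂ) → κ → ℂ
  r : (κ → ℂ) → ℝ
  s : Set (κ → ℂ)
  r_pos : ∀ p ∈ P.C, 0 < r p
  ch : ∀ p ∈ P.C, P.Ch (π p) (χ p) (ball (π p p) (r p))
  cen : ∀ p ∈ P.C, χ p (π p p) = p
  loc : ∀ p ∈ P.C, ∀ᶠ q in 𝓝 p, q ∈ P.C → χ p (π p q) = q
  cnt : s.Countable
  sub : s ⊆ P.C
  cov : ∀ q ∈ P.C, ∃ p ∈ s, ∃ u ∈ ball (π p p) (r p), χ p u = q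

/-- the polynomial map is unramified at the point -/
def Et (f : Fin P.ρ → MvPolynomial κ ℂ) (w : κ → ℂ) : Prop :=
  ∀ v ∈ P.T w, fderiv ℂ (pm f) w v = 0 → v = 0

/-- the Jacobian determinant in a chart -/
def jac (f : Fin P.ρ → MvPolynomial κ ℂ) (χ : (Fin P.ρ → ℂ) → κ → ℂ) (u : Fin P.ρ → ℂ) : ℂ :=
  (fderiv ℂ (pm f ∘ χ) u).det

/-- a proper, generically unramified polynomial map -/
structure Proj (f : Fin P.ρ → MvPolynomial κ ℂ) : Prop where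
  growth : ∃ K : ℝ, 0 ≤ K ∧ ∀ w ∈ insert 0 P.C, ‖w‖ ≤ K * (1 + ‖pm f w‖)
  dense : ∀ w ∈ P.C, ∀ N ∈ 𝓝 w, ∃ w' ∈ N ∩ P.C, P.Et f w'

/-- the critical values -/
def crit (f : Fin P.ρ → MvPolynomial κ ℂ) : Set (Fin P.ρ → ℂ) :=
  pm f '' insert 0 {w ∈ P.C | ¬P.Et f w}

/-- the fibres, including possibly the vertex -/
def fib (f : Fin P.ρ → MvPolynomial κ ℂ) (u : Fin P.ρ → ℂ) : Set (κ → ℂ) :=
  {w ∈ insert 0 P.C | pm f w = u}

/-- a local section through `w` -/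
structure Sec (f : Fin P.ρ → MvPolynomial κ ℂ) (w : κ → ℂ) (σ : (Fin P.ρ → ℂ) → κ → ℂ) :
    Prop where
  an : AnalyticAt ℂ σ (pm f w)
  cen : σ (pm f w) = w
  mem : ∀ᶠ u in 𝓝 (pm f w), σ u ∈ P.C ∧ pm f (σ u) = u
  loc : ∀ᶠ q in 𝓝 w, q ∈ P.C → σ (pm f q) = q

/-- the characteristic polynomial of a linear form on the fibres; the first coordinate is the
variable of the polynomial -/
def chp (f : Fin P.ρ → MvPolynomial κ ℂ) (l : (κ → ℂ) →L[ℂ] ℂ) (x : Fin (P.ρ + 1) → ℂ) : ℂ :=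
  ∏ᶠ w ∈ P.fib f (Fin.tail x), (x 0 - l w)

/-- `Q` extends the characteristic polynomial -/
def IsChp (f : Fin P.ρ → MvPolynomial κ ℂ) (l : (κ → ℂ) →L[ℂ] ℂ)
    (Q : MvPolynomial (Fin (P.ρ + 1)) ℂ) : Prop :=
  ∀ x : Fin (P.ρ + 1) → ℂ, Fin.tail x ∉ P.crit f → MvPolynomial.eval x Q = P.chp f l x

/-- the polynomials vanishing on the closed cone -/
def Van (g : MvPolynomial κ ℂ) : Prop := ∀ w ∈ insert 0 P.C, MvPolynomial.eval w g = 0

end Pre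

end Vale.Agent.P292
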