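import Vale.Agent.P292.D0

/-! Part D, charts. Hints: `atlas`: from `P.loc p` choose a ball on which the eventual properties
hold (`AnalyticAt.eventually_analyticAt`); for `p ∉ C` take anything (choose with the hypothesis
inside); the sets `{q | π q ∈ ball ∧ χ (π q) = q}` are neighbourhoods within `C`
(`TopologicalSpace.countable_cover_nhdsWithin`). `et_iff`: `π ∘ χ = id` near `u`, so `D χ` is injective
with range `T`; chain rule; a linear endomorphism is injective iff its determinant is not zero.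
`jac_an`: `AnalyticOnNhd.fderiv`, and the determinant is a polynomial in the entries
(`LinearMap.det_toLin'`, `Matrix.det_apply'`). `exists_sec`: inverse function theorem for
`pm f ∘ χ` at `π w` (`HasStrictFDerivAt.toOpenPartialHomeomorph`,
`OpenPartialHomeomorph.analyticAt_symm'`), `σ = χ ∘ symm`. `et_open`: in the chart around `w`. -/

set_option maxSynthPendingDepth 3

open scoped ContDiff Topology
open Set Filter Metric

noncomputable section

namespace Vale.Agent.P292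

variable {κ : Type} [Fintype κ]

theorem d1_det {n : ℕ} (A : (Fin n → ℂ) →L[ℂ] Fin n → ℂ) :
    A.det ≠ 0 ↔ ∀ v, A v = 0 → v = 0 := by
  rw [ContinuousLinearMap.det, Ne, LinearMap.det_eq_zero_iff_ker_ne_bot, not_not,
    LinearMap.ker_eq_bot']
  rfl

theorem d1_det_eq {n : ℕ} (A : (Fin n → ℂ) →L[ℂ] Fin n → ℂ) :
    A.det = ∑ τ : Equiv.Perm (Fin n), ((Equiv.Perm.sign τ : ℤ) : ℂ) *
      ∏ i, A (Pi.single i 1) (τ i) := by
  rw [ContinuousLinearMap.det, ← LinearMap.det_toMatrix', Matrix.det_apply']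
  refine Finset.sum_congr rfl fun τ _ => ?_
  simp [LinearMap.toMatrix'_apply]

namespace Pre

variable (P : Pre κ)

theorem d1_chart {p : κ → ℂ} (hp : p ∈ P.C) : ∃ (π : (κ → ℂ) →L[ℂ] Fin P.ρ → ℂ)
    (χ : (Fin P.ρ → ℂ) → κ → ℂ) (r : ℝ), 0 < r ∧ P.Ch π χ (ball (π p) r) ∧ χ (π p) = p ∧
      ∀ᶠ q in 𝓝 p, q ∈ P.C → χ (π q) = q := by
  obtain ⟨π, χ, ϑ, h1, -, h3, h4⟩ := P.loc p hp
  obtain ⟨r, hr, hb⟩ := Metric.eventually_nhds_iff_ball.1 (h3.and h1.eventually_analyticAt)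
  exact ⟨π, χ, r, hr, ⟨isOpen_ball, fun u hu => (hb u hu).2, fun u hu => (hb u hu).1.1,
    fun u hu => (hb u hu).1.2.1, fun u hu => (hb u hu).1.2.2⟩, (h4.self_of_nhds hp).1,
    h4.mono fun q hq hC => (hq hC).1⟩

theorem atlas : Nonempty P.Atlas := by
  have h : ∀ p, ∃ (π : (κ → ℂ) →L[ℂ] Fin P.ρ → ℂ)
      (χ : (Fin P.ρ → ℂ) → κ → ℂ) (r : ℝ), p ∈ P.C → 0 < r ∧ P.Ch π χ (ball (π p) r) ∧
        χ (π p) = p ∧ ∀ᶠ q in 𝓝 p, q ∈ P.C → χ (π q) = q := by
    intro p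
    by_cases hp : p ∈ P.C
    · obtain ⟨π, χ, r, h⟩ := P.d1_chart hp
      exact ⟨π, χ, r, fun _ => h⟩
    · exact ⟨0, 0, 0, fun h => (hp h).elim⟩
  choose π χ r h using h
  obtain ⟨s, hs1, hs2, hs3⟩ := TopologicalSpace.countable_cover_nhdsWithin (s := P.C)
    (f := fun p => {q | π p q ∈ ball (π p p) (r p) ∧ χ p (π p q) = q}) (fun p hp => by
      have h1 : ∀ᶠ q in 𝓝 p, π p q ∈ ball (π p p) (r p) :=
        (π p).continuous.continuousAt.eventually (ball_mem_nhds _ (h p hp).1)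
      filter_upwards [mem_nhdsWithin_of_mem_nhds h1, mem_nhdsWithin_of_mem_nhds (h p hp).2.2.2,
        self_mem_nhdsWithin] with q a b c using ⟨a, b c⟩)
  refine ⟨⟨π, χ, r, s, fun p hp => (h p hp).1, fun p hp => (h p hp).2.1,
    fun p hp => (h p hp).2.2.1, fun p hp => (h p hp).2.2.2, hs2, hs1, fun q hq => ?_⟩⟩
  obtain ⟨p, hp, h1⟩ := mem_iUnion₂.1 (hs3 hq)
  exact ⟨p, hp, _, h1.1, h1.2⟩

variable {P} {f : Fin P.ρ → MvPolynomial κ ℂ} {π : (κ → ℂ) →L[ℂ] Fin P.ρ → ℂ}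
  {χ : (Fin P.ρ → ℂ) → κ → ℂ} {O : Set (Fin P.ρ → ℂ)}

theorem Ch.left_inv (h : P.Ch π χ O) {u : Fin P.ρ → ℂ} (hu : u ∈ O) (v : Fin P.ρ → ℂ) :
    π (fderiv ℂ χ u v) = v := by
  have h1 : π ∘ χ =ᶠ[𝓝 u] id := by
    filter_upwards [h.op.mem_nhds hu] with y hy using h.inv y hy
  have h2 := h1.fderiv_eq (𝕜 := ℂ)
  rw [fderiv_comp _ π.differentiableAt (h.an u hu).differentiableAt, π.fderiv, fderiv_id] at h2
  exact congrArg (fun L : (Fin P.ρ → ℂ) →L[ℂ] Fin P.ρ → ℂ => L v) h2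

theorem Ch.fderiv_comp (h : P.Ch π χ O) {u : Fin P.ρ → ℂ} (hu : u ∈ O) :
    fderiv ℂ (pm f ∘ χ) u = (fderiv ℂ (pm f) (χ u)).comp (fderiv ℂ χ u) :=
  _root_.fderiv_comp _ (pm_analytic f _).differentiableAt (h.an u hu).differentiableAt

theorem Ch.et_iff (h : P.Ch π χ O) {u : Fin P.ρ → ℂ} (hu : u ∈ O) :
    P.Et f (χ u) ↔ P.jac f χ u ≠ 0 := by
  rw [jac, d1_det, h.fderiv_comp hu, Et, h.T u hu]
  constructor
  · intro h1 v hv
    have h2 := h1 (fderiv ℂ χ u v) ⟨v, rfl⟩ hv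
    rw [← h.left_inv hu v, h2, map_zero]
  · rintro h1 _ ⟨v, rfl⟩ hv
    have h2 := h1 v hv
    rw [h2, map_zero]

theorem Ch.jac_an (h : P.Ch π χ O) : AnalyticOnNhd ℂ (P.jac f χ) O := by
  have h1 : AnalyticOnNhd ℂ (pm f ∘ χ) O := fun u hu => (pm_analytic f _).comp (h.an u hu)
  have h2 := h1.fderiv
  intro u hu
  have e : P.jac f χ = fun y => ∑ τ : Equiv.Perm (Fin P.ρ), ((Equiv.Perm.sign τ : ℤ) : ℂ) *
      ∏ i, fderiv ℂ (pm f ∘ χ) y (Pi.single i 1) (τ i) := funext fun y => d1_det_eq _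
  rw [e]
  refine Finset.analyticAt_fun_sum _ fun τ _ => analyticAt_const.mul
    (Finset.analyticAt_fun_prod _ fun i _ => ?_)
  exact analyticAt_pi_iff.1 (((ContinuousLinearMap.apply ℂ (Fin P.ρ → ℂ)
    (Pi.single i (1 : ℂ) : Fin P.ρ → ℂ)).analyticAt _).comp (h2 u hu)) (τ i)

theorem et_open {w : κ → ℂ} (hw : w ∈ P.C) (h : P.Et f w) :
    ∀ᶠ q in 𝓝 w, q ∈ P.C → P.Et f q := by
  obtain ⟨π, χ, r, hr, hc, h1, h2⟩ := P.d1_chart hw
  have hu : π w ∈ ball (π w) r := mem_ball_self hr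
  have h3 : P.jac f χ (π w) ≠ 0 := (hc.et_iff hu).1 (by rw [h1]; exact h)
  have h4 : ∀ᶠ u in 𝓝 (π w), u ∈ ball (π w) r ∧ P.jac f χ u ≠ 0 :=
    (show ∀ᶠ u in 𝓝 (π w), u ∈ ball (π w) r from ball_mem_nhds _ hr).and
      ((hc.jac_an _ hu).continuousAt.eventually_ne h3)
  filter_upwards [h2, π.continuous.continuousAt.eventually h4] with q a b hq
  rw [← a hq]
  exact (hc.et_iff b.1).2 b.2

theorem exists_sec {w : κ → ℂ} (hw : w ∈ P.C) (h : P.Et f w) : ∃ σ, P.Sec f w σ := by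
  obtain ⟨π, χ, r, hr, hc, h1, h2⟩ := P.d1_chart hw
  have hu : π w ∈ ball (π w) r := mem_ball_self hr
  have h3 : (fderiv ℂ (pm f ∘ χ) (π w)).det ≠ 0 := (hc.et_iff hu).1 (by rw [h1]; exact h)
  have h4 : AnalyticAt ℂ (pm f ∘ χ) (π w) := (pm_analytic f _).comp (hc.an _ hu)
  have h5 : HasStrictFDerivAt (pm f ∘ χ)
      ((fderiv ℂ (pm f ∘ χ) (π w)).toContinuousLinearEquivOfDetNeZero h3 :
        (Fin P.ρ → ℂ) →L[ℂ] Fin P.ρ → ℂ) (π w) := by
    rw [ContinuousLinearMap.coe_toContinuousLinearEquivOfDetNeZero]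
    exact h4.hasStrictFDerivAt
  have e0 : (pm f ∘ χ) (π w) = pm f w := by rw [Function.comp_apply, h1]
  have h6 : AnalyticAt ℂ (h5.localInverse _ _ _) (pm f w) := by
    rw [← e0]
    exact (h5.toOpenPartialHomeomorph _).analyticAt_symm' h5.mem_toOpenPartialHomeomorph_source h4
      (ContinuousLinearMap.coe_toContinuousLinearEquivOfDetNeZero _ h3).symm
  have h7 : h5.localInverse _ _ _ (pm f w) = π w := by
    rw [← e0]; exact h5.localInverse_apply_image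
  have h8 := h5.eventually_right_inverse
  rw [e0] at h8
  refine ⟨χ ∘ h5.localInverse _ _ _, ?_, ?_, ?_, ?_⟩
  · exact AnalyticAt.comp (by rw [h7]; exact hc.an _ hu) h6
  · rw [Function.comp_apply, h7, h1]
  · have h9 : ∀ᶠ u in 𝓝 (pm f w), h5.localInverse _ _ _ u ∈ ball (π w) r :=
      h6.continuousAt.eventually (by rw [h7]; exact ball_mem_nhds _ hr)
    filter_upwards [h8, h9] with u a b using ⟨hc.mem _ b, a⟩
  · filter_upwards [h2, π.continuous.continuousAt.eventually h5.eventually_left_inverse]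
      with q a b hq
    rw [Function.comp_apply, a hq] at b
    rw [Function.comp_apply, b, a hq]

end Pre

end Vale.Agent.P292
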