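import Vale.Agent.P292.D1

/-! Part D, the leading part of the projection. Hints: `cone_proj`: induction on `n`. If `n ≤ ρ` take an
injective linear map (extend by zero). Otherwise the complement of `Y` is dense
(`Small.dense_compl`), pick `y₀ ∉ Y`, `y₀ ≠ 0`, a linear map to `Fin (n - 1) → ℂ` with kernel the line
through `y₀` (quotient and `LinearEquiv.ofFinrankEq`, or with `y₀ i ≠ 0` the map
`y ↦ (y - (y i / y₀ i) • y₀) ∘ i.succAbove`), and apply the hypothesis to the image (`Small.image`).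
`exists_top`: `d = 2 * ∏ w i`, `φ q i = q i ^ (d / w i)`, `φ (act l q) = l ^ d • φ q`; `φ '' C` (reindexed
by `Fintype.equivFin`) is `Small ρ` (the atlas), a cone (`IsAlgClosed.exists_pow_nat_eq`), without `0`.
On the compact set of `q ∈ insert 0 C` with `‖φ q‖ = 1` the norm of `Λ (φ q)` is at least `c > 0`; scale
by a positive real `l` with `l ^ d = ‖φ q‖⁻¹`: `c * ‖φ q‖ ≤ ‖Λ (φ q)‖`; and
`‖q i‖ ^ 2 ≤ 1 + ‖q i‖ ^ (d / w i)`. -/

set_option maxSynthPendingDepth 3

open scoped ContDiff Topology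
open Set Filter Metric

noncomputable section

namespace Vale.Agent.P292

variable {κ : Type} [Fintype κ]

theorem d2_inj {ρ n : ℕ} (hn : n ≤ ρ) :
    ∃ Λ : (Fin n → ℂ) →L[ℂ] Fin ρ → ℂ, ∀ y, Λ y = 0 → y = 0 := by
  refine ⟨ContinuousLinearMap.pi fun j => if h : (j : ℕ) < n then
    ContinuousLinearMap.proj (⟨j, h⟩ : Fin n) else 0, fun y hy => funext fun i => ?_⟩
  have := congrFun hy (Fin.castLE hn i)
  simpa using this

theorem cone_proj (ρ n : ℕ) (Y : Set (Fin n → ℂ)) (hY : Small ρ Y) (h0 : 0 ∉ Y)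
    (hc : ∀ y ∈ Y, ∀ l : ℂ, l ≠ 0 → l • y ∈ Y) :
    ∃ Λ : (Fin n → ℂ) →L[ℂ] Fin ρ → ℂ, ∀ y ∈ Y, Λ y ≠ 0 := by
  induction n with
  | zero =>
    obtain ⟨Λ, hΛ⟩ := d2_inj (Nat.zero_le ρ)
    exact ⟨Λ, fun y hy h => h0 (hΛ y h ▸ hy)⟩
  | succ n ih =>
    by_cases hn : n + 1 ≤ ρ
    · obtain ⟨Λ, hΛ⟩ := d2_inj hn
      exact ⟨Λ, fun y hy h => h0 (hΛ y h ▸ hy)⟩
    have hd : Dense Yᶜ := hY.dense_compl (by simp; omega)
    obtain ⟨y₀, hy₀, hy₀'⟩ := hd.exists_mem_open (U := {0}ᶜ) isOpen_compl_singleton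
      ⟨1, one_ne_zero⟩
    obtain ⟨i, hi⟩ := Function.ne_iff.1 hy₀'
    have hi' : y₀ i ≠ 0 := hi
    let L : (Fin (n + 1) → ℂ) →L[ℂ] Fin n → ℂ := ContinuousLinearMap.pi fun j =>
      ContinuousLinearMap.proj (i.succAbove j) -
        (y₀ (i.succAbove j) / y₀ i) • ContinuousLinearMap.proj i
    have hL : ∀ y ∈ Y, L y ≠ 0 := by
      intro y hy h
      have h1 : y = (y i / y₀ i) • y₀ := by
        funext k
        refine i.succAboveCases ?_ (fun j => ?_) k
        · simp [hi']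
        · have h2 : y (i.succAbove j) - y₀ (i.succAbove j) / y₀ i * y i = 0 := congrFun h j
          rw [Pi.smul_apply, smul_eq_mul, sub_eq_zero.1 h2]
          ring
      have h2 : y i / y₀ i ≠ 0 := by
        intro h2
        rw [h2, zero_smul] at h1
        exact h0 (h1 ▸ hy)
      have h3 := hc y hy _ (inv_ne_zero h2)
      rw [h1, smul_smul] at h3
      rw [← h1, inv_mul_cancel₀ h2, one_smul] at h3
      exact hy₀ h3
    obtain ⟨Λ, hΛ⟩ := ih (L '' Y) (hY.image fun x _ => L.analyticAt x)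
      (by
        rintro ⟨y, hy, h⟩
        exact hL y hy h)
      (by
        rintro _ ⟨y, hy, rfl⟩ l hl
        exact ⟨l • y, hc y hy l hl, map_smul L l y⟩)
    exact ⟨Λ.comp L, fun y hy => hΛ _ ⟨y, hy, rfl⟩⟩

theorem d2_small (P : Pre κ) : Small P.ρ P.C := by
  obtain ⟨A⟩ := P.atlas
  have : Countable A.s := A.cnt.to_subtype
  refine hc_small (J := A.s) (fun _ => P.ρ) (fun p => ball (A.π p p) (A.r p)) (fun p => A.χ p)
    (fun p => ⟨isOpen_ball, (A.ch p (A.sub p.2)).an, fun x _ => ?_⟩) fun q hq => ?_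
  · refine (LinearMap.finrank_range_le _).trans ?_
    simp
  · obtain ⟨p, hp, u, hu, h⟩ := A.cov q hq
    exact mem_iUnion.2 ⟨⟨p, hp⟩, u, hu, h⟩

theorem Pre.exists_top (P : Pre κ) : ∃ (g : Fin P.ρ → MvPolynomial κ ℂ) (c : ℝ), 0 < c ∧
    ∀ w ∈ P.C, c * (‖w‖ ^ 2 - 1) ≤ ‖pm g w‖ := by
  classical
  obtain ⟨d, m, hd, hm, hwm⟩ : ∃ (d : ℕ) (m : κ → ℕ), 0 < d ∧ (∀ i, 2 ≤ m i) ∧
      ∀ i, P.w i * m i = d := by
    have hp : ∀ s : Finset κ, 0 < ∏ j ∈ s, P.w j := fun s => Finset.prod_pos fun j _ => P.w_pos j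
    refine ⟨2 * ∏ j, P.w j, fun i => 2 * ∏ j ∈ Finset.univ.erase i, P.w j, by
      have := hp Finset.univ
      omega, fun i => by
      have := hp (Finset.univ.erase i)
      show 2 ≤ 2 * ∏ j ∈ Finset.univ.erase i, P.w j
      omega, fun i => ?_⟩
    rw [← Finset.mul_prod_erase _ _ (Finset.mem_univ i)]
    ring
  let e := (Fintype.equivFin κ).symm
  let G : Fin (Fintype.card κ) → MvPolynomial κ ℂ := fun k => MvPolynomial.X (e k) ^ m (e k)
  have hG : ∀ q k, pm G q k = q (e k) ^ m (e k) := fun q k => by simp [pm, G]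
  have hact : ∀ (t : ℂ) q, pm G (act P.w t q) = t ^ d • pm G q := by
    intro t q
    funext k
    have : act P.w t q (e k) = t ^ P.w (e k) * q (e k) := rfl
    rw [hG, Pi.smul_apply, hG, this, mul_pow, ← pow_mul, hwm, smul_eq_mul]
  have hle : ∀ q i, ‖q i‖ ^ m i ≤ ‖pm G q‖ := by
    intro q i
    have := norm_le_pi_norm (pm G q) (e.symm i)
    rwa [hG, e.apply_symm_apply, norm_pow] at this
  have hne : ∀ q ∈ P.C, pm G q ≠ 0 := by
    intro q hq h
    have : q = 0 := by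
      funext i
      have h1 := hle q i
      rw [h, norm_zero] at h1
      have h2 : ‖q i‖ ^ m i = 0 := le_antisymm h1 (by positivity)
      exact norm_eq_zero.1 (pow_eq_zero_iff (by have := hm i; omega) |>.1 h2)
    exact P.zero_not (this ▸ hq)
  obtain ⟨Λ, hΛ⟩ := cone_proj P.ρ _ (pm G '' P.C)
    ((d2_small P).image fun x _ => pm_analytic G x)
    (by
      rintro ⟨q, hq, h⟩
      exact hne q hq h)
    (by
      rintro _ ⟨q, hq, rfl⟩ l hl
      obtain ⟨t, rfl⟩ := IsAlgClosed.exists_pow_nat_eq l hd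
      exact ⟨act P.w t q, P.act_mem q hq t fun h => hl (by rw [h, zero_pow hd.ne']), hact t q⟩)
  let g : Fin P.ρ → MvPolynomial κ ℂ := fun j =>
    ∑ k, MvPolynomial.C (Λ (Pi.single k 1) j) * G k
  have hg : ∀ q, pm g q = Λ (pm G q) := by
    intro q
    funext j
    conv_rhs => rw [pi_eq_sum_univ' (pm G q), map_sum, Finset.sum_apply]
    simp only [pm, g, map_sum, map_mul, MvPolynomial.eval_C, map_smul, Pi.smul_apply, smul_eq_mul]
    exact Finset.sum_congr rfl fun k _ => mul_comm _ _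
  have hK : IsCompact (insert 0 P.C ∩ {q | ‖pm G q‖ = 1}) := by
    refine (isCompact_closedBall (0 : κ → ℂ) 1).of_isClosed_subset
      (P.closed.inter (isClosed_eq (pm_continuous G).norm continuous_const)) fun q hq => ?_
    rw [mem_closedBall_zero_iff, pi_norm_le_iff_of_nonneg zero_le_one]
    intro i
    have h1 := hle q i
    rw [show ‖pm G q‖ = 1 from hq.2] at h1
    exact (pow_le_one_iff_of_nonneg (norm_nonneg _) (by have := hm i; omega)).1 h1
  obtain ⟨c, hc, hcK⟩ := hK.exists_forall_le' (f := fun q => ‖Λ (pm G q)‖) (a := 0)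
    (Λ.continuous.comp (pm_continuous G)).norm.continuousOn (by
      rintro q ⟨hq | hq, hq1⟩
      · have h1 : pm G q = 0 := by
          funext k
          rw [hG, hq]
          exact zero_pow (by have := hm (e k); omega)
        have h2 : ‖pm G q‖ = 1 := hq1
        rw [h1, norm_zero] at h2
        exact absurd h2 zero_ne_one
      · exact norm_pos_iff.2 (hΛ _ ⟨q, hq, rfl⟩))
  refine ⟨g, c, hc, fun q hq => ?_⟩
  have hN : 0 < ‖pm G q‖ := norm_pos_iff.2 (hne q hq)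
  obtain ⟨t, ht0, ht⟩ : ∃ t : ℝ, 0 < t ∧ t ^ d = ‖pm G q‖⁻¹ :=
    ⟨‖pm G q‖⁻¹ ^ ((d : ℝ)⁻¹), by positivity, Real.rpow_inv_natCast_pow (by positivity) hd.ne'⟩
  have hnt : ‖(t : ℂ) ^ d‖ = ‖pm G q‖⁻¹ := by
    rw [norm_pow, Complex.norm_real, Real.norm_of_nonneg ht0.le, ht]
  have h1 := hcK (act P.w t q) ⟨Or.inr (P.act_mem q hq t (by exact_mod_cast ht0.ne')), by
    show ‖pm G (act P.w t q)‖ = 1
    rw [hact, norm_smul, hnt, inv_mul_cancel₀ hN.ne']⟩
  rw [hact, map_smul, norm_smul, hnt, ← div_eq_inv_mul, le_div_iff₀ hN] at h1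
  have h2 : ‖q‖ ≤ √(1 + ‖pm G q‖) := by
    rw [pi_norm_le_iff_of_nonneg (Real.sqrt_nonneg _)]
    intro i
    refine Real.le_sqrt_of_sq_le ?_
    have h3 := hle q i
    rcases le_total ‖q i‖ 1 with h | h
    · have := pow_le_one₀ (norm_nonneg _) h (n := 2)
      linarith
    · have := pow_le_pow_right₀ h (hm i)
      linarith
  have h3 : ‖q‖ ^ 2 ≤ 1 + ‖pm G q‖ := by
    have := pow_le_pow_left₀ (norm_nonneg _) h2 2
    rwa [Real.sq_sqrt (by positivity)] at this
  rw [hg]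
  nlinarith

end Vale.Agent.P292
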