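import Vale.Agent.P292.D2

/-! Part D, existence of projections. Hints: `f = g + L` with `g` from `exists_top` and `L` a linear
map (`lin_poly`). `exists_lin`: for each index the set of `L` with `det (A + L ∘ D) ≠ 0` is open and
dense (`det (M + t • 1)` is a monic polynomial in `t`, or: `M + t • 1` is invertible unless `-t` is in the
finite spectrum, `Module.End.finite_spectrum`); Baire (`dense_iInter_of_isOpen`). Apply it to the
centres `q ∈ insert p s` of the atlas with `A = D g ∘ D χ`, `D = D χ`, `π ∘ D = 1` (`Ch.left_inv`).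
Then `jac` is not zero at the centre of each ball, so it is frequently non zero near every point of
the ball (`AnalyticOnNhd.eqOn_zero_of_preconnected_of_eventuallyEq_zero`). Growth: if `1 ≤ ‖w‖` then
`c * ‖w‖ ≤ ‖f w‖ + c + ‖L‖`. -/

set_option maxSynthPendingDepth 3

open scoped ContDiff Topology
open Set Filter Metric

noncomputable section

namespace Vale.Agent.P292

variable {κ : Type} [Fintype κ]

theorem lin_poly {σ : Type} [Fintype σ] (L : (κ → ℂ) →L[ℂ] σ → ℂ) :
    ∃ h : σ → MvPolynomial κ ℂ, ∀ w, pm h w = L w := by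
  classical
  refine ⟨fun i => ∑ k, MvPolynomial.X k * MvPolynomial.C (L (fun j => if k = j then 1 else 0) i),
    fun w => funext fun i => ?_⟩
  have := congrFun (L.toLinearMap.pi_apply_eq_sum_univ w) i
  simpa [pm_apply] using this.symm

theorem exists_lin {ρ : ℕ} {ι : Type} [Countable ι] (A : ι → (Fin ρ → ℂ) →L[ℂ] Fin ρ → ℂ)
    (D : ι → (Fin ρ → ℂ) →L[ℂ] κ → ℂ) (π : ι → (κ → ℂ) →L[ℂ] Fin ρ → ℂ)
    (h : ∀ i v, π i (D i v) = v) :
    ∃ L : (κ → ℂ) →L[ℂ] Fin ρ → ℂ, ∀ i, (A i + L.comp (D i)).det ≠ 0 := by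
  have ho : ∀ i, IsOpen {L : (κ → ℂ) →L[ℂ] Fin ρ → ℂ | (A i + L.comp (D i)).det ≠ 0} := fun i =>
    isOpen_ne.preimage (f := fun L : (κ → ℂ) →L[ℂ] Fin ρ → ℂ => (A i + L.comp (D i)).det)
      (ContinuousLinearMap.continuous_det.comp
        (continuous_const.add (continuous_id.clm_comp continuous_const)))
  have hd : ∀ i, Dense {L : (κ → ℂ) →L[ℂ] Fin ρ → ℂ | (A i + L.comp (D i)).det ≠ 0} := by
    intro i L
    have h1 : {t : ℂ | (A i + (L + t • π i).comp (D i)).det = 0}.Countable := by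
      refine ((Module.End.finite_hasEigenvalue (A i + L.comp (D i)).toLinearMap).countable.preimage
        neg_injective).mono fun t ht => ?_
      obtain ⟨v, hv, hv0⟩ := (Submodule.ne_bot_iff _).1 (LinearMap.det_eq_zero_iff_ker_ne_bot.1 ht)
      refine Module.End.hasEigenvalue_of_hasEigenvector ⟨Module.End.mem_eigenspace_iff.2 ?_, hv0⟩
      have h2 : A i v + (L (D i v) + t • π i (D i v)) = 0 := hv
      rw [h, ← add_assoc, add_eq_zero_iff_eq_neg, ← neg_smul] at h2
      exact h2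
    have := HB_neBot h1 0
    have h2 : Tendsto (fun t : ℂ => L + t • π i) (𝓝 0) (𝓝 L) :=
      (by fun_prop : Continuous fun t : ℂ => L + t • π i).tendsto' _ _ (by simp)
    exact mem_closure_of_tendsto (h2.mono_left (nhdsWithin_le_nhds
      (s := {t : ℂ | (A i + (L + t • π i).comp (D i)).det = 0}ᶜ))) eventually_mem_nhdsWithin
  obtain ⟨L, hL⟩ := (dense_iInter_of_isOpen ho hd).nonempty
  exact ⟨L, mem_iInter.1 hL⟩

theorem Pre.exists_proj (P : Pre κ) {p : κ → ℂ} (hp : p ∈ P.C) :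
    ∃ f, P.Proj f ∧ P.Et f p := by
  obtain ⟨A⟩ := P.atlas
  obtain ⟨g, c, hc, hg⟩ := P.exists_top
  have := (A.cnt.insert p).to_subtype
  have hs : insert p A.s ⊆ P.C := insert_subset hp A.sub
  obtain ⟨L, hL⟩ := exists_lin (ι := ↥(insert p A.s))
    (fun q => (fderiv ℂ (pm g) q).comp (fderiv ℂ (A.χ q) (A.π q q)))
    (fun q => fderiv ℂ (A.χ q) (A.π q q)) (fun q => A.π q)
    fun q => (A.ch q (hs q.2)).left_inv (mem_ball_self (A.r_pos q (hs q.2)))
  obtain ⟨h, hh⟩ := lin_poly L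
  have e : pm (g + h) = fun w => pm g w + L w := funext fun w => by
    rw [← hh]
    funext i
    simp [pm_apply]
  have hj : ∀ q ∈ insert p A.s, P.jac (g + h) (A.χ q) (A.π q q) ≠ 0 := fun q hq => by
    rw [Pre.jac, (A.ch q (hs hq)).fderiv_comp (mem_ball_self (A.r_pos q (hs hq))), A.cen q (hs hq),
      e, ((pm_analytic g q).differentiableAt.hasFDerivAt.fun_add L.hasFDerivAt).fderiv,
      ContinuousLinearMap.add_comp]
    exact hL ⟨q, hq⟩
  refine ⟨g + h, ⟨⟨(1 + c + ‖L‖) / c, by positivity, fun w hw => ?_⟩, fun w hw N hN => ?_⟩, ?_⟩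
  · rw [div_mul_eq_mul_div, le_div_iff₀ hc]
    have h0 := norm_nonneg (pm (g + h) w)
    have h1 := norm_nonneg L
    rcases le_total ‖w‖ 1 with h2 | h2
    · nlinarith [mul_nonneg h0 h1, mul_nonneg h0 hc.le, mul_le_mul_of_nonneg_right h2 hc.le]
    have h3 : ‖pm g w‖ ≤ ‖pm (g + h) w‖ + ‖L‖ * ‖w‖ := by
      rw [e, ← add_sub_cancel_right (pm g w) (L w)]
      exact (norm_sub_le _ _).trans (by gcongr; exact L.le_opNorm w)
    have h4 := hg w (hw.resolve_left fun h => by simp [h] at h2; linarith)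
    have h5 : ‖w‖ * c * ‖w‖ ≤ (‖pm (g + h) w‖ + c + ‖L‖) * ‖w‖ := by
      nlinarith [mul_le_mul_of_nonneg_left h2 h0, mul_le_mul_of_nonneg_left h2 hc.le]
    have h6 := le_of_mul_le_mul_right h5 (by linarith)
    nlinarith [mul_nonneg h0 h1, mul_nonneg h0 hc.le]
  · obtain ⟨q, hq, u, hu, rfl⟩ := A.cov w hw
    have hq' := A.sub hq
    have h1 : ¬ P.jac (g + h) (A.χ q) =ᶠ[𝓝 u] 0 := fun h => hj q (Or.inr hq)
      ((A.ch q hq').jac_an.eqOn_zero_of_preconnected_of_eventuallyEq_zero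
        (convex_ball _ _).isPreconnected hu h (mem_ball_self (A.r_pos q hq')))
    obtain ⟨v, h2, h3, h4⟩ := ((not_eventually.1 h1).and_eventually (Eventually.and
      (p := fun v => v ∈ ball (A.π q q) (A.r q)) (isOpen_ball.mem_nhds hu)
      (((A.ch q hq').an u hu).continuousAt.eventually (p := fun y => y ∈ N) hN))).exists
    exact ⟨_, ⟨h4, (A.ch q hq').mem v h3⟩, ((A.ch q hq').et_iff h3).2 h2⟩
  · have := ((A.ch p hp).et_iff (mem_ball_self (A.r_pos p hp))).2 (hj p (Or.inl rfl))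
    rwa [A.cen p hp] at this

end Vale.Agent.P292
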