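import Vale.Agent.P292.D1

/-! Part D, critical values. Hints: `closed_image`: a closed subset `S` of `insert 0 C` has a closed
image (near a point `u` of the closure only the compact set `S ∩ closedBall 0 (K * (2 + ‖u‖))` matters).
`tube`: apply it to `insert 0 C \ V`. `crit_closed`: `et_open`. `crit_holIm`: in the charts of the atlas
the critical points are the zeros of `jac` (`HolIm.zero`, `HolIm.image`, `HolIm.iUnion`; a point is the
image of `Fin 0 → ℂ`). `crit_dense`: `small_crit` with `r = ρ - 1` (determinant zero means that the range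
is a proper subspace) and `Small.dense_compl`; or
`MeasureTheory.addHaar_image_eq_zero_of_det_fderivWithin_eq_zero`. `line_countable`: the set `T` of
parameters is the first projection of `{(s, z) ∈ univ ×ˢ Z | u + s • v - z = 0}`, so `HolIm T`, it is
closed and `0 ∉ T`: `HolIm.countable_or` with `O = univ`. -/

set_option maxSynthPendingDepth 3

open scoped ContDiff Topology
open Set Filter Metric

noncomputable section

namespace Vale.Agent.P292

variable {κ : Type} [Fintype κ]

theorem line_countable {n : ℕ} {Z : Set (Fin n → ℂ)} (hZ : HolIm Z) (hc : IsClosed Z)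
    {u : Fin n → ℂ} (hu : u ∉ Z) (v : Fin n → ℂ) : {s : ℂ | u + s • v ∈ Z}.Countable := by
  have h1 : HolIm {s : ℂ | u + s • v ∈ Z} := by
    have h2 := (((holIm_of_isOpen (isOpen_univ (X := ℂ))).prod hZ).zero
      (g := fun x => u + x.1 • v - x.2) (AnRel.of_analytic fun x _ =>
        (analyticAt_const.add (analyticAt_fst.smul analyticAt_const)).sub analyticAt_snd)).image
      (g := Prod.fst) (AnRel.of_analytic fun x _ => analyticAt_fst)
    have e : {s : ℂ | u + s • v ∈ Z} =
        Prod.fst '' {x ∈ (univ : Set ℂ) ×ˢ Z | u + x.1 • v - x.2 = 0} := by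
      refine Subset.antisymm (fun s hs => ⟨(s, _), ⟨⟨trivial, hs⟩, sub_self _⟩, rfl⟩) ?_
      rintro _ ⟨x, hx, rfl⟩
      rw [mem_ofPred_eq, sub_eq_zero.1 hx.2]
      exact hx.1.2
    rwa [e]
  have h3 : IsClosed {s : ℂ | u + s • v ∈ Z} := hc.preimage (by fun_prop)
  rcases h1.countable_or isOpen_univ isPreconnected_univ
    (fun z _ hz => h3.closure_subset hz) with h | h
  · simpa using h
  · exact (hu (by simpa using h (mem_univ 0))).elim

namespace Pre

variable {P : Pre κ} {f : Fin P.ρ → MvPolynomial κ ℂ}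

theorem Proj.closed_image (h : P.Proj f) {S : Set (κ → ℂ)} (hS : IsClosed S)
    (hC : S ⊆ insert 0 P.C) : IsClosed (pm f '' S) := by
  obtain ⟨K, hK, hg⟩ := h.growth
  refine isClosed_of_closure_subset fun u hu => ?_
  have h1 : IsClosed (pm f '' (S ∩ closedBall 0 (K * (2 + ‖u‖)))) :=
    (((isCompact_closedBall _ _).inter_left hS).image (pm_continuous f)).isClosed
  refine image_mono inter_subset_left (h1.closure_subset
    (closure_mono ?_ (isOpen_ball.closure_inter ⟨hu, mem_ball_self one_pos⟩)))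
  rintro _ ⟨⟨w, hw, rfl⟩, h2⟩
  refine ⟨w, ⟨hw, mem_closedBall_zero_iff.2 ((hg w (hC hw)).trans ?_)⟩, rfl⟩
  have h3 := norm_sub_norm_le (pm f w) u
  rw [mem_ball_iff_norm] at h2
  exact mul_le_mul_of_nonneg_left (by linarith) hK

theorem Proj.fib_compact (h : P.Proj f) (u : Fin P.ρ → ℂ) : IsCompact (P.fib f u) := by
  obtain ⟨K, -, hg⟩ := h.growth
  exact (isCompact_closedBall 0 (K * (1 + ‖u‖))).of_isClosed_subset
    (P.closed.inter (isClosed_singleton.preimage (pm_continuous f)))
    fun w hw => mem_closedBall_zero_iff.2 (hw.2 ▸ hg w hw.1)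

theorem Proj.tube (h : P.Proj f) (u : Fin P.ρ → ℂ) {V : Set (κ → ℂ)} (hV : IsOpen V)
    (hF : P.fib f u ⊆ V) : ∀ᶠ u' in 𝓝 u, P.fib f u' ⊆ V := by
  have h1 := h.closed_image (P.closed.sdiff hV) sdiff_subset
  have h2 : u ∉ pm f '' (insert 0 P.C \ V) := by
    rintro ⟨w, hw, e⟩
    exact hw.2 (hF ⟨hw.1, e⟩)
  filter_upwards [h1.isOpen_compl.mem_nhds h2] with u' hu' w hw
  exact by_contra fun hw' => hu' ⟨w, ⟨hw.1, hw'⟩, hw.2⟩

theorem Proj.crit_closed (h : P.Proj f) : IsClosed (P.crit f) := by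
  refine h.closed_image (isClosed_of_closure_subset fun w hw => ?_)
    (insert_subset_insert (sep_subset _ _))
  rcases P.closed.closure_subset (closure_mono (insert_subset_insert (sep_subset _ _)) hw)
    with h0 | hC
  · exact Or.inl h0
  refine Or.inr ⟨hC, fun he => ?_⟩
  obtain ⟨q, h1, h2, h3⟩ := ((mem_closure_iff_frequently.1 hw).and_eventually ((et_open hC he).and
    (eventually_ne_nhds (b := 0) fun h => P.zero_not (h ▸ hC)))).exists
  exact (h1.resolve_left h3).2 (h2 (h1.resolve_left h3).1)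

theorem D4_single {n : ℕ} {a : Fin n → ℂ} : HolIm ({a} : Set (Fin n → ℂ)) :=
  ⟨fun _ => 0, fun _ => univ, fun _ _ => a, fun _ => ⟨isOpen_univ, analyticOnNhd_const⟩, by
    simp⟩

theorem D4_crit (f : Fin P.ρ → MvPolynomial κ ℂ) (A : P.Atlas) : P.crit f = {pm f 0} ∪
    ⋃ p : A.s, (pm f ∘ A.χ p) '' {u ∈ ball (A.π p p) (A.r p) | P.jac f (A.χ p) u = 0} := by
  rw [crit, image_insert_eq, insert_eq]
  congr 1
  refine Subset.antisymm ?_ (iUnion_subset fun p => ?_)
  · rintro _ ⟨w, hw, rfl⟩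
    obtain ⟨p, hp, u, hu, rfl⟩ := A.cov w hw.1
    exact mem_iUnion.2 ⟨⟨p, hp⟩, u,
      ⟨hu, by_contra fun h => hw.2 (((A.ch p (A.sub hp)).et_iff hu).2 h)⟩, rfl⟩
  · rintro _ ⟨u, hu, rfl⟩
    have hp := A.ch p (A.sub p.2)
    exact ⟨_, ⟨hp.mem u hu.1, fun h => (hp.et_iff hu.1).1 h hu.2⟩, rfl⟩

theorem crit_holIm (f : Fin P.ρ → MvPolynomial κ ℂ) : HolIm (P.crit f) := by
  obtain ⟨A⟩ := P.atlas
  have := A.cnt.to_subtype
  rw [D4_crit f A]
  refine D4_single.union (HolIm.iUnion fun p => ?_)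
  have hp := A.ch p (A.sub p.2)
  exact ((holIm_of_isOpen isOpen_ball).zero (AnRel.of_analytic hp.jac_an)).image
    (AnRel.of_analytic fun u hu => (pm_analytic f _).comp (hp.an u hu.1))

theorem crit_dense (f : Fin P.ρ → MvPolynomial κ ℂ) : Dense (P.crit f)ᶜ := by
  obtain ⟨A⟩ := P.atlas
  have := A.cnt.to_subtype
  have : Nonempty (Fin P.ρ) := ⟨⟨0, by have := P.four; omega⟩⟩
  refine MeasureTheory.Measure.dense_of_ae (μ := MeasureTheory.volume)
    (MeasureTheory.compl_mem_ae_iff.2 ?_)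
  rw [D4_crit f A]
  refine MeasureTheory.measure_union_null (MeasureTheory.measure_singleton _)
    (MeasureTheory.measure_iUnion_null fun p => ?_)
  have hp := A.ch p (A.sub p.2)
  refine MeasureTheory.addHaar_image_eq_zero_of_det_fderivWithin_eq_zero _
    (f' := fun u => (fderiv ℂ (pm f ∘ A.χ p) u).restrictScalars ℝ) (fun u hu =>
      (((pm_analytic f _).comp (hp.an u hu.1)).differentiableAt.hasFDerivAt.restrictScalars
        ℝ).hasFDerivWithinAt) fun u hu => ?_
  obtain ⟨v, hv, hv0⟩ := (Submodule.ne_bot_iff _).1 (LinearMap.det_eq_zero_iff_ker_ne_bot.1 hu.2)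
  exact LinearMap.det_eq_zero_iff_ker_ne_bot.2 ((Submodule.ne_bot_iff _).2 ⟨v, hv, hv0⟩)

end Pre

end Vale.Agent.P292
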