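import Vale.Agent.P292.D4

/-! Part D, the covering over the regular values. Hints: for `u ∉ crit` every point of the fibre is in
`C` and unramified, so it has a section (`exists_sec`) and is isolated in the compact fibre
(`IsCompact.finite` or a finite subcover). `triv`: choose sections `σ w`, open sets `V w ∋ w` on
which `Sec.loc` holds; `tube` for their union; the values `σ w u'` are different for `u'` near `u`
(continuity, finitely many pairs). `card_const`: the number of points is locally constant off `crit`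
(`triv`, `Set.InjOn.ncard_image`), and the complement of a countable set in the line through two
regular values is preconnected (`line_countable`, `isPreconnected_diff_countable`,
`IsPreconnected.constant` or `IsLocallyConstant`). `chp_an`: near `x` the function is the finite
product of `y 0 - l (σ w (tail y))` (`finprod_mem_image`, `finprod_mem_eq_finite_toFinset_prod`).
`chp_bound`: each factor is at most `‖x‖ + ‖l‖ * K * (1 + ‖x‖)`. -/

set_option maxSynthPendingDepth 3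

open scoped ContDiff Topology
open Set Filter Metric

noncomputable section

namespace Vale.Agent.P292

variable {κ : Type} [Fintype κ]

namespace Pre

variable {P : Pre κ} {f : Fin P.ρ → MvPolynomial κ ℂ}

theorem fib_et {u : Fin P.ρ → ℂ} (hu : u ∉ P.crit f) {w : κ → ℂ} (hw : w ∈ P.fib f u) :
    w ∈ P.C ∧ P.Et f w ∧ pm f w = u := by
  have h1 : w ∈ P.C := hw.1.resolve_left fun h => hu ⟨w, Or.inl h, hw.2⟩
  exact ⟨h1, by_contra fun h => hu ⟨w, Or.inr ⟨h1, h⟩, hw.2⟩, hw.2⟩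

theorem Proj.fib_finite (h : P.Proj f) {u : Fin P.ρ → ℂ} (hu : u ∉ P.crit f) :
    (P.fib f u).Finite := by
  obtain ⟨t, -, ht⟩ := (h.fib_compact u).elim_nhdsWithin_subcover (fun w => {w}) fun w hw => by
    obtain ⟨h1, h2, h3⟩ := fib_et hu hw
    obtain ⟨σ, hσ⟩ := exists_sec h1 h2
    filter_upwards [mem_nhdsWithin_of_mem_nhds hσ.loc, self_mem_nhdsWithin] with q hq hq'
    have h4 := hq (fib_et hu hq').1
    rw [hq'.2, ← h3, hσ.cen] at h4
    exact h4.symm
  exact (t.finite_toSet.biUnion fun _ _ => finite_singleton _).subset ht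

theorem Proj.triv (h : P.Proj f) {u : Fin P.ρ → ℂ} (hu : u ∉ P.crit f) :
    ∃ σ : (κ → ℂ) → (Fin P.ρ → ℂ) → κ → ℂ, (∀ w ∈ P.fib f u, AnalyticAt ℂ (σ w) u) ∧
      ∀ᶠ u' in 𝓝 u, InjOn (fun w => σ w u') (P.fib f u) ∧
        P.fib f u' = (fun w => σ w u') '' P.fib f u := by
  have hf := h.fib_finite hu
  choose! σ hσ using fun w (hw : w ∈ P.fib f u) => exists_sec (fib_et hu hw).1 (fib_et hu hw).2.1
  have ha : ∀ w ∈ P.fib f u, AnalyticAt ℂ (σ w) u := fun w hw => hw.2 ▸ (hσ w hw).an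
  have hc : ∀ w ∈ P.fib f u, σ w u = w := fun w hw => hw.2 ▸ (hσ w hw).cen
  refine ⟨σ, ha, ?_⟩
  have h1 : ∀ᶠ u' in 𝓝 u, ∀ w ∈ P.fib f u, ∀ w' ∈ P.fib f u, w ≠ w' → σ w u' ≠ σ w' u' :=
    (eventually_all_finite hf).2 fun w hw => (eventually_all_finite hf).2 fun w' hw' => by
      by_cases e : w = w'
      · exact Eventually.of_forall fun _ h => (h e).elim
      · refine (ContinuousAt.eventually_ne (g := fun v => σ w v - σ w' v) (y := 0)
          ((ha w hw).continuousAt.sub (ha w' hw').continuousAt) ?_).mono fun v hv _ =>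
            sub_ne_zero.1 hv
        rwa [hc w hw, hc w' hw', sub_ne_zero]
  have h2 : ∀ᶠ u' in 𝓝 u, ∀ w ∈ P.fib f u, σ w u' ∈ P.C ∧ pm f (σ w u') = u' :=
    (eventually_all_finite hf).2 fun w hw => hw.2 ▸ (hσ w hw).mem
  have h3 := h.tube u (V := ⋃ w ∈ P.fib f u, interior {q | q ≠ 0 ∧ (q ∈ P.C → σ w (pm f q) = q)})
    (isOpen_biUnion fun _ _ => isOpen_interior) fun w hw => mem_iUnion₂.2 ⟨w, hw,
      mem_interior_iff_mem_nhds.2 ((eventually_ne_nhds fun h : w = 0 =>
        P.zero_not (h ▸ (fib_et hu hw).1)).and (hσ w hw).loc)⟩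
  filter_upwards [h1, h2, h3] with v h1 h2 h3
  refine ⟨fun w hw w' hw' e => by_contra fun hne => h1 w hw w' hw' hne e,
    Subset.antisymm (fun q hq => ?_) ?_⟩
  · obtain ⟨w, hw, h4⟩ := mem_iUnion₂.1 (h3 hq)
    have h5 := interior_subset h4
    exact ⟨w, hw, hq.2 ▸ h5.2 (hq.1.resolve_left h5.1)⟩
  · rintro _ ⟨w, hw, rfl⟩
    exact ⟨Or.inr (h2 w hw).1, (h2 w hw).2⟩

theorem Proj.card_const (h : P.Proj f) :
    ∃ N : ℕ, ∀ u, u ∉ P.crit f → (P.fib f u).ncard = N := by
  obtain ⟨u, hu⟩ := (crit_dense f).nonempty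
  refine ⟨(P.fib f u).ncard, fun v hv => ?_⟩
  have h1 := isPreconnected_diff_countable isOpen_univ isPreconnected_univ
    (line_countable (crit_holIm f) h.crit_closed hu (v - u))
  have h2 : ContinuousOn (fun s : ℂ => (P.fib f (u + s • (v - u))).ncard)
      (univ \ {s : ℂ | u + s • (v - u) ∈ P.crit f}) := fun s hs => by
    obtain ⟨σ, -, h3⟩ := h.triv hs.2
    have h4 : ContinuousAt (fun s : ℂ => u + s • (v - u)) s := by fun_prop
    refine (continuousAt_const.congr (f := fun _ => (P.fib f (u + s • (v - u))).ncard)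
      ((h4.eventually h3).mono fun t ht => ?_)).continuousWithinAt
    simp only [ht.2, ht.1.ncard_image]
  simpa using h1.constant h2 (x := 1) (y := 0) ⟨trivial, by simpa using hv⟩
    ⟨trivial, by simpa using hu⟩

theorem Proj.chp_an (h : P.Proj f) (l : (κ → ℂ) →L[ℂ] ℂ) {x : Fin (P.ρ + 1) → ℂ}
    (hx : Fin.tail x ∉ P.crit f) : AnalyticAt ℂ (P.chp f l) x := by
  obtain ⟨σ, h1, h2⟩ := h.triv hx
  have hf := h.fib_finite hx
  have ht : AnalyticAt ℂ (fun y : Fin (P.ρ + 1) → ℂ => (Fin.tail y : Fin P.ρ → ℂ)) x :=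
    analyticAt_pi_iff.2 fun i => (ContinuousLinearMap.proj (R := ℂ)
      (φ := fun _ : Fin (P.ρ + 1) => ℂ) i.succ).analyticAt x
  have h3 : AnalyticAt ℂ (fun y : Fin (P.ρ + 1) → ℂ =>
      ∏ w ∈ hf.toFinset, (y 0 - l (σ w (Fin.tail y)))) x :=
    Finset.analyticAt_fun_prod _ fun w hw => ((ContinuousLinearMap.proj (R := ℂ)
      (φ := fun _ : Fin (P.ρ + 1) => ℂ) 0).analyticAt x).sub ((l.analyticAt _).comp
        (AnalyticAt.comp (f := fun y : Fin (P.ρ + 1) → ℂ => (Fin.tail y : Fin P.ρ → ℂ))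
          (h1 w (hf.mem_toFinset.1 hw)) ht))
  refine h3.congr ((ht.continuousAt.eventually h2).mono fun y hy => ?_)
  rw [chp, hy.2, finprod_mem_image hy.1, finprod_mem_eq_finite_toFinset_prod _ hf]

theorem Proj.chp_bound (h : P.Proj f) (l : (κ → ℂ) →L[ℂ] ℂ) : ∃ (B : ℝ) (e : ℕ),
    ∀ x : Fin (P.ρ + 1) → ℂ, Fin.tail x ∉ P.crit f → ‖P.chp f l x‖ ≤ B * (1 + ‖x‖) ^ e := by
  obtain ⟨N, hN⟩ := h.card_const
  obtain ⟨K, hK, hg⟩ := h.growth
  refine ⟨(1 + ‖l‖ * K) ^ N, N, fun x hx => ?_⟩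
  have hf := h.fib_finite hx
  rw [chp, finprod_mem_eq_finite_toFinset_prod _ hf, ← mul_pow, ← hN _ hx,
    ncard_eq_toFinset_card _ hf, norm_prod, ← Finset.prod_const]
  refine Finset.prod_le_prod (fun _ _ => norm_nonneg _) fun w hw => ?_
  have h1 := hf.mem_toFinset.1 hw
  have h2 := hg w h1.1
  have h3 : ‖(Fin.tail x : Fin P.ρ → ℂ)‖ ≤ ‖x‖ :=
    (pi_norm_le_iff_of_nonneg (norm_nonneg _)).2 fun i => norm_le_pi_norm x i.succ
  rw [h1.2] at h2
  have h4 : ‖l w‖ ≤ ‖l‖ * (K * (1 + ‖x‖)) := (l.le_opNorm w).trans (by gcongr; exact h2.trans (by gcongr))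
  have h5 := norm_le_pi_norm x 0
  have h6 := norm_sub_le (x 0) (l w)
  nlinarith

end Pre

end Vale.Agent.P292
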