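import Vale.Agent.P292.D5
import Vale.Agent.P271.Poly

/-! Part D, the characteristic polynomial is a polynomial. Hints: `poly_of_lines`: as
`P271.exists_poly`; on a line use `removable_countable`, extend the bound to the entire extension by
density of the complement of a countable set, and apply `P271.eq_sum_of_growth` with `S = ∅`. -/

set_option maxSynthPendingDepth 3

open scoped ContDiff Topology
open Set Filter Metric

noncomputable section

namespace Vale.Agent.P292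

variable {κ : Type} [Fintype κ]

theorem d6_line {Z : Set ℂ} (hZ : Z.Countable) (hc : IsClosed Z) (h0 : (0 : ℂ) ∉ Z) {g : ℂ → ℂ}
    (hg : ∀ t, t ∉ Z → AnalyticAt ℂ g t) {C : ℝ} {e : ℕ}
    (hb : ∀ t, t ∉ Z → ‖g t‖ ≤ C * (1 + ‖t‖) ^ e) {t : ℂ} (ht : t ∉ Z) :
    g t = ∑ k ∈ Finset.range (e + 1), (k.factorial : ℂ)⁻¹ * iteratedDeriv k g 0 * t ^ k := by
  obtain ⟨G, hG, h1⟩ := removable_countable hZ hc (f := g)
    (fun s hs => (hg s hs).differentiableAt.differentiableWithinAt) (fun z => by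
      refine ⟨ball z 1, ball_mem_nhds z one_pos, |C| * (1 + (‖z‖ + 1)) ^ e, fun y hy => ?_⟩
      have h3 : ‖y‖ ≤ ‖z‖ + 1 := by
        have h4 := hy.1
        rw [Metric.mem_ball, dist_eq_norm] at h4
        linarith [norm_sub_norm_le y z]
      refine (hb y hy.2).trans ?_
      exact mul_le_mul (le_abs_self C) (by gcongr) (by positivity) (abs_nonneg C))
  have hd : Dense Zᶜ := hZ.dense_compl ℂ
  have hb' : ∀ s, ‖G s‖ ≤ C * (1 + ‖s‖) ^ e := by
    intro s
    have hcl : IsClosed {s : ℂ | ‖G s‖ ≤ C * (1 + ‖s‖) ^ e} :=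
      isClosed_le hG.continuous.norm (by fun_prop)
    refine hcl.closure_subset_iff.2 (fun y hy => ?_) (hd s)
    have := hb y hy
    rw [← h1 y hy] at this
    exact this
  have h2 : G =ᶠ[𝓝 0] g := by
    filter_upwards [hc.isOpen_compl.mem_nhds h0] with s hs using h1 s hs
  have h3 := P271.eq_sum_of_growth (g := G) (S := ∅) finite_empty (notMem_empty _)
    (fun s _ => hG.analyticAt s) (fun s _ => hb' s) (notMem_empty t)
  rw [← h1 t ht, h3]
  refine Finset.sum_congr rfl fun k _ => ?_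
  rw [h2.iteratedDeriv_eq k]

theorem poly_of_lines {n : ℕ} {Z : Set (Fin n → ℂ)} (hZ : IsClosed Z) {x₀ : Fin n → ℂ}
    (h0 : x₀ ∉ Z) (hl : ∀ v, {s : ℂ | x₀ + s • v ∈ Z}.Countable) {c : (Fin n → ℂ) → ℂ}
    (hc : ∀ x, x ∉ Z → AnalyticAt ℂ c x) {B : ℝ} {e : ℕ}
    (hb : ∀ x, x ∉ Z → ‖c x‖ ≤ B * (1 + ‖x‖) ^ e) :
    ∃ Q : MvPolynomial (Fin n) ℂ, ∀ x, x ∉ Z → MvPolynomial.eval x Q = c x := by
  choose P hP1 hP2 using fun k =>
    P271.exists_mvPolynomial_of_mem_monSpan (P271.jet_mem_monSpan k x₀ c)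
  obtain ⟨Q, -, hQ2⟩ := P271.poly_shift x₀
    (∑ k ∈ Finset.range (e + 1), MvPolynomial.C (k.factorial : ℂ)⁻¹ * P k)
  refine ⟨Q, fun y hy => ?_⟩
  have h1 := d6_line (g := fun t : ℂ => c (x₀ + t • (y - x₀))) (hl (y - x₀))
    (hZ.preimage (f := fun t : ℂ => x₀ + t • (y - x₀)) (by fun_prop)) (by simpa using h0)
    (fun t ht => AnalyticAt.comp (g := c) (f := fun t : ℂ => x₀ + t • (y - x₀)) (hc _ ht)
      (by fun_prop))
    (C := |B| * (1 + ‖x₀‖ + ‖y - x₀‖) ^ e) (e := e) (fun t ht => ?_) (t := 1)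
    (by simpa using hy)
  · rw [hQ2]
    simp only [one_smul, add_sub_cancel, one_pow, mul_one] at h1
    rw [h1, map_sum]
    refine Finset.sum_congr rfl fun k _ => ?_
    rw [map_mul, MvPolynomial.eval_C, hP2, P271.jet_eq_iteratedDeriv (hc x₀ h0)]
  · refine (hb _ ht).trans ?_
    rw [mul_assoc, ← mul_pow]
    refine mul_le_mul (le_abs_self B) (pow_le_pow_left₀ (by positivity) ?_ e) (by positivity)
      (abs_nonneg B)
    have h2 := norm_add_le x₀ (t • (y - x₀))
    rw [norm_smul] at h2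
    have h3 := mul_nonneg (norm_nonneg x₀) (norm_nonneg t)
    linarith [norm_nonneg t, norm_nonneg (y - x₀)]

theorem Pre.Proj.exists_chp {P : Pre κ} {f : Fin P.ρ → MvPolynomial κ ℂ} (h : P.Proj f)
    (l : (κ → ℂ) →L[ℂ] ℂ) : ∃ Q, P.IsChp f l Q := by
  obtain ⟨u, hu⟩ := (Pre.crit_dense f).nonempty
  obtain ⟨B, e, hB⟩ := h.chp_bound l
  have hct : Continuous fun x : Fin (P.ρ + 1) → ℂ => Fin.tail x :=
    continuous_pi fun i => continuous_apply _
  obtain ⟨Q, hQ⟩ := poly_of_lines (Z := {x : Fin (P.ρ + 1) → ℂ | Fin.tail x ∈ P.crit f})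
    (h.crit_closed.preimage hct) (x₀ := Fin.cons 0 u) (by simpa using hu)
    (fun v => by
      have h1 := line_countable (Pre.crit_holIm f) h.crit_closed hu (Fin.tail v)
      refine h1.mono fun s hs => ?_
      have e1 : Fin.tail (Fin.cons (0 : ℂ) u + s • v : Fin (P.ρ + 1) → ℂ) = u + s • Fin.tail v := by
        funext i
        simp [Fin.tail]
      have hs' : Fin.tail (Fin.cons (0 : ℂ) u + s • v : Fin (P.ρ + 1) → ℂ) ∈ P.crit f := hs
      rw [e1] at hs'
      exact hs')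
    (c := P.chp f l) (fun x hx => h.chp_an l hx) hB
  exact ⟨Q, hQ⟩

end Vale.Agent.P292
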