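import Vale.Agent.P292.D6

/-! Part D, zeros of the characteristic polynomial. Hints: `chp_zero`: clear if `pm f w ∉ crit` (a factor
vanishes); such `w` are dense in `C` (`Proj.dense`, a section at an unramified point, `crit_dense`);
`0` is in the closure of `C` (`act l p → 0` for `l → 0`). `chp_ne`: the compact set `l '' fib` has distance
`> δ` from `T`; by `tube` all factors are at least `δ` over regular values near `u`, so the norm is at
least `δ ^ N`; pass to the limit (`crit_dense`). `fib_finite'`: for a coordinate `l` the polynomial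
`T ↦ eval (cons T u) Q` (`MvPolynomial.eval_eq_eval_mv_eval'`) is not zero (`chp_ne` for a large `T`) and
vanishes on `l '' fib`; `Set.Finite.pi'`. `chp_simple`: with a section `σ` through `p`, an open set
`V₀ ∋ p` where `Sec.loc` holds and `V = {w | 2 * δ < ‖l p - l w‖}` (the fibre is finite), `tube` gives
`fib u' ⊆ {σ u'} ∪ V` with `σ u' ∈ fib u'`, so for `‖T - l p‖ < δ` the norm is at least
`‖T - l (σ u')‖ * δ ^ (N - 1)`; in the limit `‖T - l p‖ * δ ^ (N - 1)`; a function with derivative `0`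
is `o (T - l p)`. -/

set_option maxSynthPendingDepth 3

open scoped ContDiff Topology
open Set Filter Metric

noncomputable section

namespace Vale.Agent.P292

variable {κ : Type} [Fintype κ]

theorem d7_zero_mem (P : Pre κ) (hne : P.C.Nonempty) : (0 : κ → ℂ) ∈ closure P.C := by
  obtain ⟨p, hp⟩ := hne
  have h1 : Tendsto (fun l : ℂ => act P.w l p) (𝓝 0) (𝓝 0) := by
    have h2 : Continuous fun l : ℂ => act P.w l p :=
      continuous_pi fun i => by
        simp only [act, ContinuousLinearMap.pi_apply, smul_apply,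
          ContinuousLinearMap.proj_apply]
        fun_prop
    have h3 : act P.w 0 p = 0 := by
      funext i
      simp [act, (P.w_pos i).ne']
    simpa [h3] using h2.tendsto 0
  refine mem_closure_of_tendsto (h1.mono_left (nhdsWithin_le_nhds (s := {0}ᶜ))) ?_
  filter_upwards [self_mem_nhdsWithin] with l hl using P.act_mem p hp l hl

theorem d7_cons {ρ : ℕ} {X : Type} [TopologicalSpace X] {a : X → ℂ} {b : X → Fin ρ → ℂ} {x : X}
    (ha : ContinuousAt a x) (hb : ContinuousAt b x) :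
    ContinuousAt (fun y => (Fin.cons (a y) (b y) : Fin (ρ + 1) → ℂ)) x := by
  refine continuousAt_pi.2 fun i => Fin.cases ?_ (fun j => ?_) i
  · simpa using ha
  · simpa using continuousAt_pi.1 hb j

namespace Pre

variable {P : Pre κ} {f : Fin P.ρ → MvPolynomial κ ℂ} {l : (κ → ℂ) →L[ℂ] ℂ}
  {Q : MvPolynomial (Fin (P.ρ + 1)) ℂ}

theorem d7_eval (h : P.Proj f) (hQ : P.IsChp f l Q) {u : Fin P.ρ → ℂ} (hu : u ∉ P.crit f) (T : ℂ) :
    MvPolynomial.eval (Fin.cons T u) Q = ∏ w ∈ (h.fib_finite hu).toFinset, (T - l w) := by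
  rw [hQ _ (by simpa using hu), chp]
  simp only [Fin.tail_cons, Fin.cons_zero]
  exact finprod_mem_eq_finite_toFinset_prod _ _

theorem d7_limit {u : Fin P.ρ → ℂ} {a b : (Fin P.ρ → ℂ) → ℝ} (ha : ContinuousAt a u)
    (hb : ContinuousAt b u) (hab : ∀ᶠ u' in 𝓝 u, u' ∉ P.crit f → a u' ≤ b u') : a u ≤ b u := by
  have hne : (𝓝[(P.crit f)ᶜ] u).NeBot := mem_closure_iff_nhdsWithin_neBot.1 (crit_dense f u)
  refine le_of_tendsto_of_tendsto (ha.tendsto.mono_left (nhdsWithin_le_nhds (s := (P.crit f)ᶜ)))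
    (hb.tendsto.mono_left nhdsWithin_le_nhds) ?_
  filter_upwards [mem_nhdsWithin_of_mem_nhds hab, self_mem_nhdsWithin] with y h1 h2 using h1 h2

theorem d7_dense (h : P.Proj f) : P.C ⊆ closure {w ∈ P.C | pm f w ∉ P.crit f} := by
  intro w hw
  refine mem_closure_iff.2 fun N hN hwN => ?_
  obtain ⟨w', ⟨h1, h2⟩, h3⟩ := h.dense w hw N (hN.mem_nhds hwN)
  obtain ⟨σ, hσ⟩ := exists_sec h2 h3
  have h4 : ∀ᶠ u in 𝓝 (pm f w'), σ u ∈ N :=
    hσ.an.continuousAt.eventually (by rw [hσ.cen]; exact hN.mem_nhds h1)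
  obtain ⟨u, hu1, hu2⟩ := mem_closure_iff_nhds.1 (crit_dense f (pm f w')) _ (h4.and hσ.mem)
  exact ⟨σ u, hu1.1, hu1.2.1, by rw [hu1.2.2]; exact hu2⟩

theorem Proj.chp_zero (h : P.Proj f) (hQ : P.IsChp f l Q) (hne : P.C.Nonempty) {w : κ → ℂ}
    (hw : w ∈ insert 0 P.C) : MvPolynomial.eval (Fin.cons (l w) (pm f w)) Q = 0 := by
  have hcl : IsClosed {w : κ → ℂ | MvPolynomial.eval (Fin.cons (l w) (pm f w)) Q = 0} := by
    refine isClosed_eq ((MvPolynomial.continuous_eval Q).comp
      (continuous_iff_continuousAt.2 fun y => ?_)) continuous_const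
    exact d7_cons l.continuous.continuousAt (pm_continuous f).continuousAt
  have h1 : P.C ⊆ {w : κ → ℂ | MvPolynomial.eval (Fin.cons (l w) (pm f w)) Q = 0} := by
    refine (d7_dense h).trans (hcl.closure_subset_iff.2 fun y hy => ?_)
    show MvPolynomial.eval (Fin.cons (l y) (pm f y)) Q = 0
    rw [d7_eval h hQ hy.2]
    exact Finset.prod_eq_zero ((h.fib_finite hy.2).mem_toFinset.2
      ⟨mem_insert_of_mem _ hy.1, rfl⟩) (sub_self _)
  rcases hw with rfl | hw
  · exact hcl.closure_subset_iff.2 h1 (d7_zero_mem P hne)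
  · exact h1 hw

theorem d7_cont (T : ℂ) (u : Fin P.ρ → ℂ) :
    ContinuousAt (fun u' : Fin P.ρ → ℂ => ‖MvPolynomial.eval (Fin.cons T u') Q‖) u :=
  ((MvPolynomial.continuous_eval Q).continuousAt.comp
    (d7_cons continuousAt_const continuousAt_id)).norm

theorem Proj.chp_ne (h : P.Proj f) (hQ : P.IsChp f l Q) {u : Fin P.ρ → ℂ} {T : ℂ}
    (hT : ∀ w ∈ P.fib f u, l w ≠ T) : MvPolynomial.eval (Fin.cons T u) Q ≠ 0 := by
  obtain ⟨N, hN⟩ := h.card_const
  have hc : IsClosed (l '' P.fib f u) := ((h.fib_compact u).image l.continuous).isClosed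
  obtain ⟨δ, hδ, hb⟩ := Metric.isOpen_iff.1 hc.isOpen_compl T (by
    rintro ⟨w, hw, e⟩
    exact hT w hw e)
  have h1 := h.tube u (V := {w | δ / 2 < ‖T - l w‖}) (isOpen_lt continuous_const (by fun_prop))
    (fun w hw => by
      by_contra h2
      have h3 : ‖T - l w‖ ≤ δ / 2 := not_lt.1 h2
      refine hb (show l w ∈ ball T δ from ?_) ⟨w, hw, rfl⟩
      rw [mem_ball, dist_comm, dist_eq_norm]
      linarith)
  have h4 : (δ / 2) ^ N ≤ ‖MvPolynomial.eval (Fin.cons T u) Q‖ := by
    refine d7_limit (f := f) (a := fun _ => (δ / 2) ^ N) continuousAt_const (d7_cont T u) ?_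
    filter_upwards [h1] with u' h5 hu'
    rw [d7_eval h hQ hu', norm_prod, ← hN u' hu', Set.ncard_eq_toFinset_card _ (h.fib_finite hu'),
      ← Finset.prod_const]
    exact Finset.prod_le_prod (fun _ _ => by positivity) fun w hw =>
      le_of_lt (h5 ((h.fib_finite hu').mem_toFinset.1 hw))
  exact norm_pos_iff.1 (lt_of_lt_of_le (by positivity) h4)

theorem Proj.fib_finite' (h : P.Proj f) (hne : P.C.Nonempty) (u : Fin P.ρ → ℂ) :
    (P.fib f u).Finite := by
  have h1 : ∀ i : κ, ∃ S : Set ℂ, S.Finite ∧ ∀ w ∈ P.fib f u, w i ∈ S := by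
    intro i
    obtain ⟨Q, hQ⟩ := h.exists_chp (ContinuousLinearMap.proj i)
    set R := Polynomial.map (MvPolynomial.eval u) (MvPolynomial.finSuccEquiv ℂ P.ρ Q) with hR
    have h2 : ∀ T, MvPolynomial.eval (Fin.cons T u) Q = R.eval T := fun T =>
      MvPolynomial.eval_eq_eval_mv_eval' u T Q
    obtain ⟨M, hM⟩ := (h.fib_compact u).isBounded.exists_norm_le
    have h3 : R ≠ 0 := by
      intro h0
      refine h.chp_ne hQ (u := u) (T := ((|M| + 1 : ℝ) : ℂ)) (fun w hw e => ?_)
        (by rw [h2, h0, Polynomial.eval_zero])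
      have h4 := (norm_le_pi_norm w i).trans (hM w hw)
      have e' : w i = ((|M| + 1 : ℝ) : ℂ) := e
      rw [e', Complex.norm_real, Real.norm_eq_abs, abs_of_pos (by positivity)] at h4
      linarith [le_abs_self M]
    refine ⟨_, Polynomial.finite_setOfPred_isRoot h3, fun w hw => ?_⟩
    have h5 := h.chp_zero hQ hne hw.1
    rw [hw.2, h2] at h5
    exact h5
  choose S hS1 hS2 using h1
  exact (Set.Finite.pi' hS1).subset fun w hw i => hS2 i w hw

theorem Proj.chp_simple (h : P.Proj f) (hQ : P.IsChp f l Q) {p : κ → ℂ} (hp : p ∈ P.C)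
    (he : P.Et f p) (hl : ∀ w ∈ P.fib f (pm f p), w ≠ p → l w ≠ l p) :
    deriv (fun T : ℂ => MvPolynomial.eval (Fin.cons T (pm f p)) Q) (l p) ≠ 0 := by
  classical
  obtain ⟨N, hN⟩ := h.card_const
  obtain ⟨σ, hσ⟩ := exists_sec hp he
  obtain ⟨V₀, hV1, hV2, hV3⟩ := _root_.eventually_nhds_iff.1
    (hσ.loc.and (isOpen_ne.mem_nhds (show p ≠ 0 from fun e => P.zero_not (e ▸ hp))))
  have hc : IsClosed (l '' (P.fib f (pm f p) \ {p})) :=
    (((h.fib_finite' ⟨p, hp⟩ _).sdiff).image l).isClosed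
  obtain ⟨δ, hδ, hb⟩ := Metric.isOpen_iff.1 hc.isOpen_compl (l p) (by
    rintro ⟨w, hw, e⟩
    exact hl w hw.1 hw.2 e)
  have h1 := h.tube (pm f p) (V := V₀ ∪ {w | δ / 2 < ‖l p - l w‖})
    (hV2.union (isOpen_lt continuous_const (by fun_prop))) (fun w hw => by
      by_cases hwp : w = p
      · exact Or.inl (hwp ▸ hV3)
      refine Or.inr ?_
      by_contra h2
      have h3 : ‖l p - l w‖ ≤ δ / 2 := not_lt.1 h2
      refine hb (show l w ∈ ball (l p) δ from ?_) ⟨w, ⟨hw, hwp⟩, rfl⟩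
      rw [mem_ball, dist_comm, dist_eq_norm]
      linarith)
  have h4 : ∀ T : ℂ, ‖T - l p‖ < δ / 4 → ‖T - l p‖ * (δ / 4) ^ (N - 1) ≤
      ‖MvPolynomial.eval (Fin.cons T (pm f p)) Q‖ := by
    intro T hT
    have hca : ContinuousAt (fun u' => ‖T - l (σ u')‖ * (δ / 4) ^ (N - 1)) (pm f p) :=
      (continuousAt_const.sub (l.continuous.continuousAt.comp hσ.an.continuousAt)).norm.mul
        continuousAt_const
    have h5 := d7_limit (f := f) hca (d7_cont (Q := Q) T (pm f p)) (by
      filter_upwards [h1, hσ.mem] with u' h5 h6 hu'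
      have hm : σ u' ∈ (h.fib_finite hu').toFinset :=
        (h.fib_finite hu').mem_toFinset.2 ⟨mem_insert_of_mem _ h6.1, h6.2⟩
      rw [d7_eval h hQ hu', norm_prod, ← Finset.mul_prod_erase _ _ hm, ← hN u' hu',
        Set.ncard_eq_toFinset_card _ (h.fib_finite hu'), ← Finset.card_erase_of_mem hm,
        ← Finset.prod_const]
      refine mul_le_mul_of_nonneg_left (Finset.prod_le_prod (fun _ _ => by positivity)
        fun w hw => ?_) (norm_nonneg _)
      have hw1 := (h.fib_finite hu').mem_toFinset.1 (Finset.mem_of_mem_erase hw)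
      rcases h5 hw1 with h7 | h7
      · exfalso
        refine Finset.ne_of_mem_erase hw ?_
        have h8 := (hV1 w h7).1 (hw1.1.resolve_left (hV1 w h7).2)
        rw [hw1.2] at h8
        exact h8.symm
      · have h8 : δ / 2 < ‖l p - l w‖ := h7
        have h9 := norm_sub_le (T - l w) (T - l p)
        rw [show T - l w - (T - l p) = l p - l w by ring] at h9
        linarith)
    simpa only [hσ.cen] using h5
  intro h0
  have hd : DifferentiableAt ℂ (fun T : ℂ => MvPolynomial.eval (Fin.cons T (pm f p)) Q) (l p) := by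
    simp only [MvPolynomial.eval_eq_eval_mv_eval']
    exact Polynomial.differentiableAt _
  have h6 := hd.hasDerivAt
  rw [h0] at h6
  have h7 := (hasDerivAt_iff_isLittleO.1 h6).def
    (show 0 < (δ / 4) ^ (N - 1) / 2 by positivity)
  have h8 : ∀ᶠ T in 𝓝 (l p), ‖T - l p‖ < δ / 4 := by
    filter_upwards [ball_mem_nhds (l p) (show 0 < δ / 4 by positivity)] with T hT
    rwa [mem_ball, dist_eq_norm] at hT
  obtain ⟨T, hT1, hT2⟩ := (((h7.and h8).filter_mono (nhdsWithin_le_nhds (s := {l p}ᶜ))).and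
    self_mem_nhdsWithin).exists
  have h9 := h4 T hT1.2
  have h10 := hT1.1
  rw [h.chp_zero hQ ⟨p, hp⟩ (mem_insert_of_mem _ hp), smul_zero, sub_zero, sub_zero] at h10
  have h11 : 0 < ‖T - l p‖ := norm_pos_iff.2 (sub_ne_zero.2 hT2)
  have h12 : 0 < ‖T - l p‖ * (δ / 4) ^ (N - 1) := by positivity
  linarith

end Pre

end Vale.Agent.P292
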