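import Vale.Agent.P292.D3
import Vale.Agent.P292.D7

/-! Part D, enough polynomials. Hints: `G = aeval (cons (l as a polynomial) f) Q`, which vanishes on the
closed cone by `chp_zero`. Choose `l` by `Module.exists_dual_forall_apply_ne_zero` on the finite fibre. -/

set_option maxSynthPendingDepth 3

open scoped ContDiff Topology
open Set Filter Metric

noncomputable section

namespace Vale.Agent.P292

variable {κ : Type} [Fintype κ]

theorem d8_dual {S : Set (κ → ℂ)} (hS : S.Finite) (h0 : ∀ v ∈ S, v ≠ 0) :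
    ∃ l : (κ → ℂ) →L[ℂ] ℂ, ∀ v ∈ S, l v ≠ 0 := by
  have : Finite S := hS.to_subtype
  obtain ⟨l, hl⟩ := Module.exists_dual_forall_apply_ne_zero (K := ℂ) (fun v : S => (v : κ → ℂ))
    fun v => h0 v v.2
  exact ⟨LinearMap.toContinuousLinearMap l, fun v hv => hl ⟨v, hv⟩⟩

theorem d8_subst {ρ : ℕ} (f : Fin ρ → MvPolynomial κ ℂ) (l : (κ → ℂ) →L[ℂ] ℂ)
    (Q : MvPolynomial (Fin (ρ + 1)) ℂ) : ∃ g : MvPolynomial κ ℂ, ∀ w,
      MvPolynomial.eval w g = MvPolynomial.eval (Fin.cons (l w) (pm f w)) Q := by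
  obtain ⟨h, hh⟩ := lin_poly (σ := Unit) (ContinuousLinearMap.pi fun _ => l)
  refine ⟨MvPolynomial.aeval (Fin.cons (h ()) f : Fin (ρ + 1) → MvPolynomial κ ℂ) Q, fun w => ?_⟩
  have e1 : (fun i => MvPolynomial.eval w
      ((Fin.cons (h ()) f : Fin (ρ + 1) → MvPolynomial κ ℂ) i)) = Fin.cons (l w) (pm f w) := by
    funext i
    refine Fin.cases ?_ (fun j => ?_) i
    · simpa [pm_apply] using congrFun (hh w) ()
    · simp [pm_apply]
  rw [← e1]
  induction Q using MvPolynomial.induction_on with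
  | C a => simp
  | add p q hp hq => simp only [map_add, hp, hq]
  | mul_X p i hp => simp only [map_mul, hp, MvPolynomial.aeval_X, MvPolynomial.eval_X]

namespace Pre

variable (P : Pre κ)

theorem van_sep {q : κ → ℂ} (hq : q ∉ insert 0 P.C) :
    ∃ g, P.Van g ∧ MvPolynomial.eval q g ≠ 0 := by
  rcases P.C.eq_empty_or_nonempty with hC | ⟨p, hp⟩
  · have hq0 : q ≠ 0 := fun h => hq (h ▸ mem_insert _ _)
    obtain ⟨i, hi⟩ := Function.ne_iff.1 hq0
    refine ⟨MvPolynomial.X i, fun w hw => ?_, by simpa using hi⟩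
    rw [hC] at hw
    rcases hw with rfl | hw
    · simp
    · exact hw.elim
  · obtain ⟨f, hf, -⟩ := P.exists_proj hp
    obtain ⟨l, hl⟩ := d8_dual ((hf.fib_finite' ⟨p, hp⟩ (pm f q)).image fun w => w - q) (by
      rintro _ ⟨w, hw, rfl⟩ h
      exact hq (sub_eq_zero.1 h ▸ hw.1))
    obtain ⟨Q, hQ⟩ := hf.exists_chp l
    obtain ⟨g, hg⟩ := d8_subst f l Q
    refine ⟨g, fun w hw => by rw [hg]; exact hf.chp_zero hQ ⟨p, hp⟩ hw, ?_⟩
    rw [hg]
    refine hf.chp_ne hQ fun w hw h => hl _ ⟨w, hw, rfl⟩ ?_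
    simp [h]

theorem d8_tan {p : κ → ℂ} (hp : p ∈ P.C) {v : κ → ℂ} (hv : v ∈ P.T p) {g : MvPolynomial κ ℂ}
    (hg : P.Van g) : fderiv ℂ (fun q => MvPolynomial.eval q g) p v = 0 := by
  obtain ⟨A⟩ := P.atlas
  have hc := A.ch p hp
  have hu : A.π p p ∈ ball (A.π p p) (A.r p) := mem_ball_self (A.r_pos p hp)
  have hT := hc.T _ hu
  rw [A.cen p hp] at hT
  rw [hT] at hv
  obtain ⟨a, rfl⟩ := hv
  have h1 : (fun q => MvPolynomial.eval q g) ∘ A.χ p =ᶠ[𝓝 (A.π p p)] fun _ => 0 := by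
    filter_upwards [hc.op.mem_nhds hu] with u hu' using hg _ (mem_insert_of_mem _ (hc.mem u hu'))
  have h2 := h1.fderiv_eq (𝕜 := ℂ)
  rw [fderiv_comp _ (ev_analytic g _).differentiableAt (hc.an _ hu).differentiableAt,
    A.cen p hp] at h2
  have h3 := congrArg (fun L : (Fin P.ρ → ℂ) →L[ℂ] ℂ => L a) h2
  simpa using h3

theorem van_tan {p : κ → ℂ} (hp : p ∈ P.C) (v : κ → ℂ) : v ∈ P.T p ↔
    ∀ g, P.Van g → fderiv ℂ (fun q => MvPolynomial.eval q g) p v = 0 := by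
  refine ⟨fun hv g hg => P.d8_tan hp hv hg, fun hv => ?_⟩
  obtain ⟨f, hf, he⟩ := P.exists_proj hp
  obtain ⟨σ, hσ⟩ := exists_sec hp he
  set a := fderiv ℂ σ (pm f p) (fderiv ℂ (pm f) p v) with ha
  have haT : a ∈ P.T p := by
    have := P.fderiv_mem hσ.an.differentiableAt (hσ.mem.mono fun _ h => h.1)
      (fderiv ℂ (pm f) p v)
    rwa [hσ.cen] at this
  have h1 : pm f ∘ σ =ᶠ[𝓝 (pm f p)] id := hσ.mem.mono fun _ h => h.2
  have h2 := h1.fderiv_eq (𝕜 := ℂ)
  rw [fderiv_comp _ (pm_analytic f _).differentiableAt hσ.an.differentiableAt, hσ.cen,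
    fderiv_id] at h2
  have h3 : fderiv ℂ (pm f) p (v - a) = 0 := by
    have h4 := congrArg (fun L : (Fin P.ρ → ℂ) →L[ℂ] Fin P.ρ → ℂ => L (fderiv ℂ (pm f) p v)) h2
    simp only [ContinuousLinearMap.comp_apply, ContinuousLinearMap.id_apply] at h4
    rw [map_sub, ha, h4, sub_self]
  by_cases h0 : v - a = 0
  · rw [sub_eq_zero.1 h0]; exact haT
  exfalso
  obtain ⟨l, hl⟩ := d8_dual (((hf.fib_finite' ⟨p, hp⟩ (pm f p)).sdiff (t := {p})).image
    (fun w => w - p) |>.insert (v - a)) (by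
      rintro _ (rfl | ⟨w, hw, rfl⟩)
      · exact h0
      · exact sub_ne_zero.2 hw.2)
  obtain ⟨Q, hQ⟩ := hf.exists_chp l
  obtain ⟨g, hg⟩ := d8_subst f l Q
  have hV : P.Van g := fun w hw => by rw [hg]; exact hf.chp_zero hQ ⟨p, hp⟩ hw
  have h5 : fderiv ℂ (fun q => MvPolynomial.eval q g) p (v - a) = 0 := by
    rw [map_sub, hv g hV, P.d8_tan hp haT hV, sub_self]
  have h6 := hf.chp_simple hQ hp he fun w hw hwp h => hl (w - p)
    (mem_insert_of_mem _ ⟨w, ⟨hw, hwp⟩, rfl⟩) (by simp [h])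
  set E : (Fin (P.ρ + 1) → ℂ) → ℂ := fun x => MvPolynomial.eval x Q with hE
  set x : Fin (P.ρ + 1) → ℂ := Fin.cons (l p) (pm f p) with hx
  have hEd : HasFDerivAt E (fderiv ℂ E x) x := (ev_analytic Q x).differentiableAt.hasFDerivAt
  have c1 : HasDerivAt (fun T : ℂ => (Fin.cons T (pm f p) : Fin (P.ρ + 1) → ℂ))
      (Fin.cons 1 0) (l p) := by
    refine hasDerivAt_pi.2 fun i => Fin.cases ?_ (fun j => ?_) i
    · simpa using hasDerivAt_id' (l p)
    · simpa using hasDerivAt_const (l p) (pm f p j)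
  have c2 := (hEd.comp_hasDerivAt (l p) c1).deriv
  have c3 : HasDerivAt (fun s : ℂ => p + s • (v - a)) (v - a) 0 := by
    simpa using ((hasDerivAt_id' (0 : ℂ)).smul_const (v - a)).const_add p
  have c4 : HasDerivAt (fun s : ℂ => (Fin.cons (l (p + s • (v - a))) (pm f (p + s • (v - a))) :
      Fin (P.ρ + 1) → ℂ)) (Fin.cons (l (v - a)) 0) 0 := by
    have d1 := l.hasFDerivAt.comp_hasDerivAt (0 : ℂ) c3
    have d2 := HasFDerivAt.comp_hasDerivAt_of_eq (0 : ℂ)
      (pm_analytic f p).differentiableAt.hasFDerivAt c3 (by simp)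
    rw [h3] at d2
    refine hasDerivAt_pi.2 fun i => Fin.cases ?_ (fun j => ?_) i
    · simp only [Fin.cons_zero]
      exact d1
    · simpa using hasDerivAt_pi.1 d2 j
  have c5 := HasFDerivAt.comp_hasDerivAt_of_eq (0 : ℂ) hEd c4 (by simp [hx])
  have c6 := HasFDerivAt.comp_hasDerivAt_of_eq (0 : ℂ)
    (ev_analytic g p).differentiableAt.hasFDerivAt c3 (by simp)
  rw [h5] at c6
  have c7 : fderiv ℂ E x (Fin.cons (l (v - a)) 0) = 0 := by
    refine c5.unique ?_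
    convert c6 using 1
    funext s
    simp only [Function.comp_apply, hE, hg]
  have c8 : (Fin.cons (l (v - a)) 0 : Fin (P.ρ + 1) → ℂ) = l (v - a) • Fin.cons 1 0 := by
    funext i
    refine Fin.cases ?_ (fun j => ?_) i <;> simp
  rw [c8, map_smul, smul_eq_mul, mul_eq_zero] at c7
  rcases c7 with c7 | c7
  · exact hl _ (mem_insert _ _) c7
  · exact h6 (c2.trans c7)

end Pre

end Vale.Agent.P292
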