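import Vale.Agent.P292.FC0

/-! Twistor lines. -/

set_option maxSynthPendingDepth 3

open scoped ContDiff Topology
open Set Filter Asymptotics

noncomputable section

namespace Vale.Agent.P292

open Vale.Agent.P219 (E)
open Vale.Agent.P219.R (Bil ip chr Good PD)

variable {κ : Type} [Fintype κ] {n : ℕ} {L : LQ n} {P : Pre κ} (T : LT L P)
  {x : E n} {b : ℂ × ℂ}

/-- the linear map behind the parametrization of a line -/
def fcL (b : ℂ × ℂ) : ℂ × ℂ →L[ℂ] ℂ × ℂ :=
  (ContinuousLinearMap.fst ℂ ℂ ℂ).smulRight b + (ContinuousLinearMap.snd ℂ ℂ ℂ).smulRight (anti b)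

theorem fcL_apply (b v : ℂ × ℂ) : fcL b v = v.1 • b + v.2 • anti b := rfl

theorem fc_eq (b : ℂ × ℂ) (x : E n) : T.crv b x = (fun e => T.Θ (x, e)) ∘ fcL b := rfl

theorem LT.crv_one (b : ℂ × ℂ) (x : E n) : T.crv b x (1, 0) = T.Θ (x, b) := by
  simp [LT.crv]

theorem LT.crv_curve (hx : x ∈ L.U) (hb : b ≠ 0) : P.Curve 2 (T.crv b x) := by
  refine ⟨fun v hv => ?_, fun l hl v hv => ?_, fun v hv => T.mem _ ⟨hx, comb_ne hb hv⟩⟩
  · rw [fc_eq]
    exact ((T.hol hx (comb_ne hb hv)).comp v (fcL b).differentiableAt).differentiableWithinAt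
  · have e : T.crv b x (l • v) = T.Θ (x, l • fcL b v) := by
      rw [← map_smul]
      rfl
    rw [e]
    exact T.hom x hx _ (comb_ne hb hv) l hl

theorem LT.crv_theta (hx : x ∈ L.U) (hb : b ≠ 0) :
    P.θ (T.Θ (x, b)) (fderiv ℂ (T.crv b x) (1, 0) (0, 1)) ≠ 0 := by
  have e1 : fcL b (1, 0) = b := by simp [fcL_apply]
  have e2 : fcL b (0, 1) = anti b := by simp [fcL_apply]
  have h1 : DifferentiableAt ℂ (fun e => T.Θ (x, e)) (fcL b (1, 0)) := by
    rw [e1]; exact T.hol hx hb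
  rw [fc_eq, fderiv_comp _ h1 (fcL b).differentiableAt, ContinuousLinearMap.fderiv,
    ContinuousLinearMap.comp_apply, e1, e2, T.hol_fderiv hx hb, T.θ x hx b hb, map_zero]
  have e3 : sp 0 b = 0 := by simp [sp]
  rw [e3, add_zero]
  exact wg_anti hb

theorem LT.crv_close (hx : x ∈ L.U) (hb : b ≠ 0) {δ : ℝ} (hδ : 0 < δ) :
    ∀ᶠ y in 𝓝 x, ∀ v : ℂ × ℂ, ‖v‖ = 1 → ‖T.crv b y v - T.crv b x v‖ < δ := by
  have h := (isCompact_sphere (0 : ℂ × ℂ) 1).eventually_forall_of_forall_eventually (x₀ := x)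
    (P := fun y v => ‖T.crv b y v - T.crv b x v‖ < δ) fun v hv => by
      have hv0 : v ≠ 0 := by
        rintro rfl
        simp at hv
      have c0 := (T.cda hx (comb_ne hb hv0)).continuousAt
      have c1 : ContinuousAt (fun z : E n × ℂ × ℂ => T.Θ (z.1, fcL b z.2)) (x, v) :=
        ContinuousAt.comp (f := fun z : E n × ℂ × ℂ => (z.1, fcL b z.2)) c0 (by fun_prop)
      have c2 : ContinuousAt (fun z : E n × ℂ × ℂ => T.Θ (x, fcL b z.2)) (x, v) :=
        ContinuousAt.comp (f := fun z : E n × ℂ × ℂ => (x, fcL b z.2)) c0 (by fun_prop)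
      exact (c1.sub c2).norm.eventually_lt continuousAt_const (by simpa using hδ)
  filter_upwards [h] with y hy v hv
  exact hy v (by simpa using hv)

end Vale.Agent.P292
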