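import Vale.Agent.P292.FZ

/-! Derivatives of the parametrization of the twistor cone. -/

set_option maxSynthPendingDepth 3

open scoped ContDiff Topology
open Set Filter Asymptotics

noncomputable section

namespace Vale.Agent.P292

open Vale.Agent.P219 (E)
open Vale.Agent.P219.R (Bil ip chr Good PD)

variable {κ : Type} [Fintype κ] {n : ℕ} {L : LQ n} {P : Pre κ} (T : LT L P)
  {x : E n} {h : ℂ × ℂ}

theorem FC0_smul {V W : Type} [NormedAddCommGroup V] [NormedSpace ℂ V] [NormedAddCommGroup W]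
    [NormedSpace ℂ W] (A : V →L[ℝ] W) (hA : ∀ e, A (Complex.I • e) = Complex.I • A e) (c : ℂ)
    (e : V) : A (c • e) = c • A e := by
  have h1 : ∀ {Z : Type} [NormedAddCommGroup Z] [NormedSpace ℂ Z] (z : Z),
      c • z = c.re • z + c.im • Complex.I • z := by
    intro Z _ _ z
    conv_lhs => rw [← Complex.re_add_im c]
    rw [add_smul, mul_smul, Complex.coe_smul, Complex.coe_smul]
  rw [h1 e, h1 (A e), map_add, map_smul, map_smul, hA]

theorem FC0_hol {V W : Type} [NormedAddCommGroup V] [NormedSpace ℂ V] [NormedAddCommGroup W]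
    [NormedSpace ℂ W] {f : V → W} {A : V →L[ℝ] W} {v : V} (hf : HasFDerivAt f A v)
    (hA : ∀ e, A (Complex.I • e) = Complex.I • A e) :
    ∃ B : V →L[ℂ] W, HasFDerivAt f B v ∧ ∀ e, B e = A e := by
  let B : V →L[ℂ] W := ⟨⟨A.toLinearMap.toAddHom, fun c e => FC0_smul A hA c e⟩, A.cont⟩
  exact ⟨B, hasFDerivAt_of_restrictScalars ℝ hf rfl, fun _ => rfl⟩

theorem FC0_nhds (hx : x ∈ L.U) (hh : h ≠ 0) : L.U ×ˢ ({0}ᶜ : Set (ℂ × ℂ)) ∈ 𝓝 (x, h) :=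
  (L.good.isOpen.prod isOpen_compl_singleton).mem_nhds ⟨hx, hh⟩

theorem LT.cda (hx : x ∈ L.U) (hh : h ≠ 0) : ContDiffAt ℝ ∞ T.Θ (x, h) := by
  exact T.smooth.contDiffAt (FC0_nhds hx hh)

theorem LT.vert_smul (hx : x ∈ L.U) (hh : h ≠ 0) (c : ℂ) (e : ℂ × ℂ) :
    fderiv ℝ T.Θ (x, h) (0, c • e) = c • fderiv ℝ T.Θ (x, h) (0, e) := by
  exact FC0_smul ((fderiv ℝ T.Θ (x, h)).comp (ContinuousLinearMap.inr ℝ _ _))
    (fun e => T.vert (x, h) ⟨hx, hh⟩ e) c e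

theorem LT.hom_deriv (hx : x ∈ L.U) (hh : h ≠ 0) {l : ℂ} (hl : l ≠ 0) (X : E n) (e : ℂ × ℂ) :
    fderiv ℝ T.Θ (x, l • h) (X, l • e) = act P.w (l ^ 2) (fderiv ℝ T.Θ (x, h) (X, e)) := by
  let M : E n × ℂ × ℂ →L[ℝ] E n × ℂ × ℂ := (ContinuousLinearMap.id ℝ (E n)).prodMap
    ((l • ContinuousLinearMap.id ℂ (ℂ × ℂ)).restrictScalars ℝ)
  have h1 : HasFDerivAt (T.Θ ∘ M) ((fderiv ℝ T.Θ (x, l • h)).comp M) (x, h) :=
    HasFDerivAt.comp (x, h)
      ((T.cda hx (smul_ne_zero hl hh)).differentiableAt (by simp)).hasFDerivAt M.hasFDerivAt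
  have h2 : HasFDerivAt (((act P.w (l ^ 2)).restrictScalars ℝ) ∘ T.Θ)
      (((act P.w (l ^ 2)).restrictScalars ℝ).comp (fderiv ℝ T.Θ (x, h))) (x, h) :=
    ((act P.w (l ^ 2)).restrictScalars ℝ).hasFDerivAt.comp (x, h)
      ((T.cda hx hh).differentiableAt (by simp)).hasFDerivAt
  have h3 : (T.Θ ∘ M) =ᶠ[𝓝 (x, h)] (((act P.w (l ^ 2)).restrictScalars ℝ) ∘ T.Θ) := by
    filter_upwards [FC0_nhds hx hh] with p hp
    exact T.hom p.1 hp.1 p.2 hp.2 l hl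
  exact DFunLike.congr_fun (h1.unique (h2.congr_of_eventuallyEq h3)) (X, e)

theorem FC0_slice (hx : x ∈ L.U) (hh : h ≠ 0) : ∃ B : ℂ × ℂ →L[ℂ] κ → ℂ,
    HasFDerivAt (fun e => T.Θ (x, e)) B h ∧ ∀ e, B e = fderiv ℝ T.Θ (x, h) (0, e) :=
  FC0_hol (A := (fderiv ℝ T.Θ (x, h)).comp (ContinuousLinearMap.inr ℝ _ _))
    (HasFDerivAt.comp h ((T.cda hx hh).differentiableAt (by simp)).hasFDerivAt
      (hasFDerivAt_prodMk_right x h)) fun e => T.vert (x, h) ⟨hx, hh⟩ e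

theorem LT.hol (hx : x ∈ L.U) (hh : h ≠ 0) : DifferentiableAt ℂ (fun e => T.Θ (x, e)) h := by
  obtain ⟨B, hB, -⟩ := FC0_slice T hx hh
  exact hB.differentiableAt

theorem LT.hol_fderiv (hx : x ∈ L.U) (hh : h ≠ 0) (e : ℂ × ℂ) :
    fderiv ℂ (fun e => T.Θ (x, e)) h e = fderiv ℝ T.Θ (x, h) (0, e) := by
  obtain ⟨B, hB, hB'⟩ := FC0_slice T hx hh
  rw [hB.fderiv, hB']

theorem LT.hol_deriv (hx : x ∈ L.U) (hh : h ≠ 0) (w : E n × ℂ × ℂ) :
    DifferentiableAt ℂ (fun e => fderiv ℝ T.Θ (x, e) w) h := by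
  have hD : HasFDerivAt (fderiv ℝ T.Θ) (fderiv ℝ (fderiv ℝ T.Θ) (x, h)) (x, h) :=
    (((T.cda hx hh).fderiv_right (m := 1) (by norm_cast)).differentiableAt (by simp)).hasFDerivAt
  have hs : IsSymmSndFDerivAt ℝ T.Θ (x, h) := (T.cda hx hh).isSymmSndFDerivAt (by
    simp only [minSmoothness_of_isRCLikeNormedField]
    norm_cast)
  have hap : ∀ v : E n × ℂ × ℂ, HasFDerivAt (fun p => fderiv ℝ T.Θ p v)
      ((fderiv ℝ (fderiv ℝ T.Θ) (x, h)).flip v) (x, h) := fun v =>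
    (ContinuousLinearMap.apply ℝ (κ → ℂ) v).hasFDerivAt.comp (x, h) hD
  have hv : ∀ e : ℂ × ℂ, fderiv ℝ (fderiv ℝ T.Θ) (x, h) w (0, Complex.I • e) =
      Complex.I • fderiv ℝ (fderiv ℝ T.Θ) (x, h) w (0, e) := by
    intro e
    have h3 : (fun p => fderiv ℝ T.Θ p (0, Complex.I • e)) =ᶠ[𝓝 (x, h)]
        fun p => Complex.I • fderiv ℝ T.Θ p (0, e) := by
      filter_upwards [FC0_nhds hx hh] with p hp
      exact T.vert p hp e
    exact DFunLike.congr_fun ((hap _).unique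
      (((hap (0, e)).const_smul Complex.I).congr_of_eventuallyEq h3)) w
  obtain ⟨B, hB, -⟩ := FC0_hol (A := ((fderiv ℝ (fderiv ℝ T.Θ) (x, h)).flip w).comp
    (ContinuousLinearMap.inr ℝ _ _)) (HasFDerivAt.comp h (hap w) (hasFDerivAt_prodMk_right x h))
    fun e => by
      show fderiv ℝ (fderiv ℝ T.Θ) (x, h) (0, Complex.I • e) w =
        Complex.I • fderiv ℝ (fderiv ℝ T.Θ) (x, h) (0, e) w
      rw [hs.eq, hv, hs.eq]
  exact hB.differentiableAt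

end Vale.Agent.P292
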