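import Vale.Agent.P292.Defs

/-! Definitions for part F: one chart of a quaternionic-Kaehler atlas and of its twistor cone. -/

set_option maxSynthPendingDepth 3

open scoped ContDiff Topology
open Set Filter

noncomputable section

namespace Vale.Agent.P292

open Vale.Agent.P219 (E)
open Vale.Agent.P219.R (Bil ip chr Good)

/-! ### algebra -/

/-- three anticommuting complex structures -/
structure Quat {n : ℕ} (I : Fin 3 → E n →L[ℝ] E n) : Prop where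
  sq : ∀ k v, I k (I k v) = -v
  mul : ∀ v, I 0 (I 1 v) = I 2 v

/-- the endomorphism with coefficients `q` -/
def hat {n : ℕ} (I : Fin 3 → E n →L[ℝ] E n) (q : Fin 3 → ℝ) : E n →L[ℝ] E n := ∑ k, q k • I k

/-- a real vector as a complex vector -/
def cx (a : Fin 3 → ℝ) : Fin 3 → ℂ := fun k => (a k : ℂ)

/-- the real or imaginary part of a complex vector -/
def pt (l : ℂ →L[ℝ] ℝ) (z : Fin 3 → ℂ) : Fin 3 → ℝ := fun k => l (z k)

/-- the derivative of `zv` at `b` in the direction `e` -/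
def zd (b e : ℂ × ℂ) : Fin 3 → ℂ :=
  ![2 * (b.1 * e.1 - b.2 * e.2), 2 * Complex.I * (b.1 * e.1 + b.2 * e.2),
    -2 * (b.1 * e.2 + b.2 * e.1)]

/-- the antipodal spinor -/
def anti (b : ℂ × ℂ) : ℂ × ℂ := (-(starRingEnd ℂ b.2), starRingEnd ℂ b.1)

/-! ### connections in coordinates -/

section Conn

variable {V : Type} [NormedAddCommGroup V] [NormedSpace ℝ V]

/-- the curvature of a connection -/
def curvOm (Γ : V → V →L[ℝ] V →L[ℝ] V) (y : V) : V →L[ℝ] V →L[ℝ] V →L[ℝ] V :=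
  fderiv ℝ Γ y - (fderiv ℝ Γ y).flip +
    ((ContinuousLinearMap.compL ℝ V V V).bilinearComp (Γ y) (Γ y) -
      ((ContinuousLinearMap.compL ℝ V V V).bilinearComp (Γ y) (Γ y)).flip)

theorem curvOm_apply (Γ : V → V →L[ℝ] V →L[ℝ] V) (y u v w : V) :
    curvOm Γ y u v w =
      fderiv ℝ Γ y u v w - fderiv ℝ Γ y v u w + Γ y u (Γ y v w) - Γ y v (Γ y u w) := by
  simp [curvOm, add_sub_assoc]

/-- the covariant derivative of a tensor of type (1,3) -/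
def covT (Γ : V → V →L[ℝ] V →L[ℝ] V) (R : V → V →L[ℝ] V →L[ℝ] V →L[ℝ] V) (y a u v w : V) : V :=
  fderiv ℝ R y a u v w + Γ y a (R y u v w) - R y (Γ y a u) v w - R y u (Γ y a v) w -
    R y u v (Γ y a w)

/-- the Lie derivative of the connection vanishes at `y` -/
def LieOm (Γ : V → V →L[ℝ] V →L[ℝ] V) (ξ : V → V) (y : V) : Prop :=
  ∀ X Y, fderiv ℝ (fderiv ℝ ξ) y X Y + fderiv ℝ Γ y (ξ y) X Y + Γ y (fderiv ℝ ξ y X) Y +
    Γ y X (fderiv ℝ ξ y Y) - fderiv ℝ ξ y (Γ y X Y) = 0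

/-- the Lie derivative of a tensor of type (1,3) vanishes at `y` -/
def LieR (R : V → V →L[ℝ] V →L[ℝ] V →L[ℝ] V) (ξ : V → V) (y : V) : Prop :=
  ∀ u v w, fderiv ℝ R y (ξ y) u v w + R y (fderiv ℝ ξ y u) v w + R y u (fderiv ℝ ξ y v) w +
    R y u v (fderiv ℝ ξ y w) - fderiv ℝ ξ y (R y u v w) = 0

end Conn

/-- the Christoffel map as a bilinear map -/
def om {n : ℕ} (G : E n → Bil n) (y : E n) : E n →L[ℝ] E n →L[ℝ] E n :=
  ∑ i, ∑ j, (EuclideanSpace.proj i : E n →L[ℝ] ℝ).smulRight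
    ((EuclideanSpace.proj j : E n →L[ℝ] ℝ).smulRight (chr G y (P219.ev i) (P219.ev j)))

/-- the covariant derivative of a vector field -/
def cv {n : ℕ} (G : E n → Bil n) (ξ : E n → E n) (y : E n) : E n →L[ℝ] E n :=
  fderiv ℝ ξ y + (om G y).flip (ξ y)

/-! ### one chart -/

/-- one chart of a quaternionic-Kaehler atlas -/
structure LQ (n : ℕ) where
  U : Set (E n)
  G : E n → Bil n
  good : Good G U
  I : Fin 3 → E n → E n →L[ℝ] E n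
  I_smooth : ∀ k, ContDiffOn ℝ ∞ (I k) U
  I_sq : ∀ k, ∀ y ∈ U, ∀ v, I k y (I k y v) = -v
  I_mul : ∀ y ∈ U, ∀ v, I 0 y (I 1 y v) = I 2 y v
  I_skew : ∀ k, ∀ y ∈ U, ∀ u v, ip (G y) (I k y u) v = -ip (G y) u (I k y v)
  a : E n → E n →L[ℝ] Fin 3 → ℝ
  a_smooth : ContDiffOn ℝ ∞ a U
  par : ∀ k, ∀ y ∈ U, ∀ X v, fderiv ℝ (I k) y X v + chr G y X (I k y v) -
    I k y (chr G y X v) = ∑ l, crossProduct (a y X) (Pi.single k 1) l • I l y v
  curv : ∀ y ∈ U, ∃ ν : ℝ, 0 < ν ∧ ∀ X Y k, curvA a y X Y k = -ν * ip (G y) (I k y X) Y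

/-- the chart `j` -/
def QK.loc {m : ℕ} {M : Type} [TopologicalSpace M] (Q : QK m M) (j : Q.ι) : LQ (4 * m) :=
  ⟨Q.U j, Q.G j, Q.good j, Q.I j, Q.I_smooth j, Q.I_sq j, Q.I_mul j, Q.I_skew j, Q.a j,
    Q.a_smooth j, Q.par j, Q.curv j⟩

namespace LQ

variable {n : ℕ} (L : LQ n)

/-- restriction to a smaller open set -/
def res (W : Set (E n)) (hW : IsOpen W) (h : W ⊆ L.U) : LQ n :=
  ⟨W, L.G, ⟨hW, L.good.smooth.mono h, fun y hy => L.good.pos y (h hy)⟩, L.I,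
    fun k => (L.I_smooth k).mono h, fun k y hy => L.I_sq k y (h hy), fun y hy => L.I_mul y (h hy),
    fun k y hy => L.I_skew k y (h hy), L.a, L.a_smooth.mono h, fun k y hy => L.par k y (h hy),
    fun y hy => L.curv y (h hy)⟩

/-- the frame at a point -/
abbrev fr (y : E n) : Fin 3 → E n →L[ℝ] E n := fun k => L.I k y

theorem quat {y : E n} (hy : y ∈ L.U) : Quat (L.fr y) :=
  ⟨fun k => L.I_sq k y hy, L.I_mul y hy⟩

/-- the covariant derivative of a section of the bundle spanned by the frame -/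
def nab (μ : E n → Fin 3 → ℝ) (y X : E n) : Fin 3 → ℝ :=
  fderiv ℝ μ y X + crossProduct (L.a y X) (μ y)

/-- the same for complex sections -/
def nabC (μ : E n → Fin 3 → ℂ) (y X : E n) : Fin 3 → ℂ :=
  fderiv ℝ μ y X + crossProduct (cx (L.a y X)) (μ y)

/-- `μ` is the moment map of the vector field `ξ` -/
structure Pot (μ : E n → Fin 3 → ℝ) (ξ : E n → E n) : Prop where
  μ_smooth : ContDiffOn ℝ ∞ μ L.U
  ξ_smooth : ContDiffOn ℝ ∞ ξ L.U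
  eq : ∀ y ∈ L.U, ∀ Y k, L.nab μ y Y k = ip (L.G y) (ξ y) (L.I k y Y)

end LQ

variable {κ : Type} [Fintype κ]

/-- one chart of the twistor cone -/
structure LT {n : ℕ} (L : LQ n) (P : Pre κ) where
  Θ : E n × ℂ × ℂ → κ → ℂ
  smooth : ContDiffOn ℝ ∞ Θ (L.U ×ˢ {0}ᶜ)
  mem : ∀ p ∈ L.U ×ˢ ({0}ᶜ : Set (ℂ × ℂ)), Θ p ∈ P.C
  hom : ∀ x ∈ L.U, ∀ h : ℂ × ℂ, h ≠ 0 → ∀ l : ℂ, l ≠ 0 →
    Θ (x, l • h) = act P.w (l ^ 2) (Θ (x, h))
  tan : ∀ p ∈ L.U ×ˢ ({0}ᶜ : Set (ℂ × ℂ)), ∀ u, u ∈ P.T (Θ p) ↔ ∃ v, fderiv ℝ Θ p v = u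
  vert : ∀ p ∈ L.U ×ˢ ({0}ᶜ : Set (ℂ × ℂ)), ∀ e : ℂ × ℂ,
    fderiv ℝ Θ p (0, Complex.I • e) = Complex.I • fderiv ℝ Θ p (0, e)
  hor : ∀ x ∈ L.U, ∀ h : ℂ × ℂ, h ≠ 0 → ∀ Y, ∑ k, zv h k • fderiv ℝ Θ (x, h)
    (L.I k x Y, -sp (L.a x (L.I k x Y)) h) = 0
  θ : ∀ x ∈ L.U, ∀ h : ℂ × ℂ, h ≠ 0 → ∀ X e, P.θ (Θ (x, h))
    (fderiv ℝ Θ (x, h) (X, e)) = wg h (e + sp (L.a x X) h)

/-- the chart `j` -/
def Tw.loc {m : ℕ} {M : Type} [TopologicalSpace M] {Q : QK m M} {P : Pre κ} (T : Tw Q P)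
    (j : Q.ι) : LT (Q.loc j) P :=
  ⟨T.Θ j, T.smooth j, T.mem j, T.hom j, T.tan j, T.vert j, T.hor j, T.θ j⟩

/-- the twistor line over `x`, parametrized so that `(1, 0)` goes to the spinor `b` -/
def LT.crv {n : ℕ} {L : LQ n} {P : Pre κ} (T : LT L P) (b : ℂ × ℂ) (x : E n) (v : ℂ × ℂ) :
    κ → ℂ := T.Θ (x, v.1 • b + v.2 • anti b)

/-- the equations for the two-jet of the moment map at the base point -/
structure Jet {n : ℕ} (μ : E n → Fin 3 → ℂ) (x : E n) (b : ℂ × ℂ) (s : E n → ℂ × ℂ) : Prop where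
  val : μ x = (-1 / 2 : ℂ) • zv b
  mix : ∀ X e, fderiv ℝ μ x X ⬝ᵥ zd b e = 2 * wg b e * wg b (s X)
  hor : ∀ X, fderiv ℝ (fderiv ℝ μ) x X X ⬝ᵥ zv b = 2 * wg b (s X) ^ 2

end Vale.Agent.P292
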