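import Vale.Agent.P292.FZ

/-! The two-jet of the moment map. -/

set_option maxSynthPendingDepth 3

open scoped ContDiff Topology
open Set Filter Asymptotics

noncomputable section

namespace Vale.Agent.P292

open Vale.Agent.P219 (E)
open Vale.Agent.P219.R (Bil ip chr Good PD)

theorem FJ_two {ψ ψ' : ℝ → ℂ} {d c : ℂ} (h1 : ∀ᶠ t in 𝓝 (0 : ℝ), HasDerivAt ψ (ψ' t) t)
    (h2 : HasDerivAt ψ' d 0) (h3 : (fun t : ℝ => ψ t - (t : ℂ) ^ 2 * c) =o[𝓝 0] fun t : ℝ => t ^ 2) :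
    d = 2 * c := by
  obtain ⟨r, hr, hb⟩ := Metric.eventually_nhds_iff_ball.1 h1
  have hn : 𝓝[Metric.ball (0 : ℝ) r] (0 : ℝ) = 𝓝 0 :=
    Metric.isOpen_ball.nhdsWithin_eq (Metric.mem_ball_self hr)
  have h4 := (convex_ball (0 : ℝ) r).isLittleO_pow_succ_real (n := 1) (Metric.mem_ball_self hr)
    (f := fun t : ℝ => ψ t - t * ψ' 0 - (t : ℂ) * t * (d / 2))
    (f' := fun t : ℝ => ψ' t - ψ' 0 - (t - 0) • d) (fun t ht => by
      have k : HasDerivAt (fun t : ℝ => (t : ℂ)) 1 t := Complex.ofRealCLM.hasDerivAt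
      refine ((((hb t ht).fun_sub (k.mul_const (ψ' 0))).fun_sub
        ((k.fun_mul k).mul_const (d / 2))).congr_deriv ?_).hasDerivWithinAt
      rw [Complex.real_smul]
      push_cast
      ring) (by
      rw [hn]
      simp only [pow_one]
      exact hasDerivAt_iff_isLittleO.1 h2)
  rw [hn] at h4
  simp only [sub_zero, Complex.ofReal_zero, zero_mul, one_add_one_eq_two] at h4
  have h0 : ψ 0 = 0 := by
    have := (h3.isBigOWith.bound).self_of_nhds
    simpa using this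
  have h5 := h3.sub h4
  have h6 := h5.add ((h5.comp_tendsto (continuous_neg.tendsto' (0 : ℝ) 0 neg_zero)).congr_right
    fun t => neg_sq t)
  by_contra hne
  have hpos : 0 < ‖d - 2 * c‖ := norm_pos_iff.2 (sub_ne_zero.2 hne)
  obtain ⟨t, ht, ht0⟩ := (((h6.def (half_pos hpos)).filter_mono nhdsWithin_le_nhds).and
    (self_mem_nhdsWithin (s := {0}ᶜ))).exists
  have e : ψ t - (t : ℂ) ^ 2 * c - (ψ t - t * ψ' 0 - (t : ℂ) * t * (d / 2) - ψ 0) +
      (ψ (-t) - ((-t : ℝ) : ℂ) ^ 2 * c - (ψ (-t) - (-t : ℝ) * ψ' 0 -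
        ((-t : ℝ) : ℂ) * (-t : ℝ) * (d / 2) - ψ 0)) = ((t ^ 2 : ℝ) : ℂ) * (d - 2 * c) := by
    rw [h0]
    push_cast
    ring
  simp only [Function.comp_apply] at ht
  rw [e, norm_mul, Complex.norm_real] at ht
  have h7 : 0 < ‖t ^ 2‖ := norm_pos_iff.2 (pow_ne_zero 2 ht0)
  nlinarith [mul_pos hpos h7]

theorem FJ_dot {f g : ℝ → Fin 3 → ℂ} {f' g' : Fin 3 → ℂ} {t : ℝ} (hf : HasDerivAt f f' t)
    (hg : HasDerivAt g g' t) : HasDerivAt (fun s => f s ⬝ᵥ g s) (f' ⬝ᵥ g t + f t ⬝ᵥ g') t := by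
  simp only [dotProduct, ← Finset.sum_add_distrib]
  exact HasDerivAt.fun_sum fun k _ => (hasDerivAt_pi.1 hf k).fun_mul (hasDerivAt_pi.1 hg k)

theorem FJ_key {n : ℕ} {μ : E n → Fin 3 → ℂ} {x : E n} (hμ : ContDiffAt ℝ ∞ μ x) (b e : ℂ × ℂ)
    (X : E n) {c : ℂ} (h : (fun t : ℝ => μ (x + t • X) ⬝ᵥ zv (b + t • e) - (t : ℂ) ^ 2 * c)
      =o[𝓝 0] fun t : ℝ => t ^ 2) :
    fderiv ℝ (fderiv ℝ μ) x X X ⬝ᵥ zv b + 2 * (fderiv ℝ μ x X ⬝ᵥ zd b e) + 2 * (μ x ⬝ᵥ zv e) =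
      2 * c := by
  have hl : ∀ t : ℝ, HasDerivAt (fun t : ℝ => x + t • X) X t := fun t => by
    simpa using ((hasDerivAt_id t).smul_const X).const_add x
  have hx : x + (0 : ℝ) • X = x := by rw [zero_smul, add_zero]
  have ht : Tendsto (fun t : ℝ => x + t • X) (𝓝 0) (𝓝 x) := by
    have := (hl 0).continuousAt.tendsto
    rwa [hx] at this
  have hz : ∀ t : ℝ, zv (b + t • e) = zv b + t • zd b e + (t * t) • zv e := fun t => by
    rw [zv_add, ← Complex.coe_smul, zd_smul, zv_smul, ← Complex.coe_smul, ← Complex.coe_smul, sq,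
      Complex.ofReal_mul]
  have z1 : ∀ t : ℝ, HasDerivAt (fun t : ℝ => zv (b + t • e)) (zd b e + (t + t) • zv e) t :=
    fun t => by
      simp only [hz]
      simpa using (((hasDerivAt_id t).smul_const (zd b e)).const_add (zv b)).fun_add
        (((hasDerivAt_id t).fun_mul (hasDerivAt_id t)).smul_const (zv e))
  have z2 : HasDerivAt (fun t : ℝ => zd b e + (t + t) • zv e) ((2 : ℝ) • zv e) 0 := by
    have := (((hasDerivAt_id (0 : ℝ)).fun_add (hasDerivAt_id 0)).smul_const (zv e)).const_add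
      (zd b e)
    rwa [one_add_one_eq_two] at this
  have m1 : ∀ᶠ t in 𝓝 (0 : ℝ), HasDerivAt (fun t : ℝ => μ (x + t • X))
      (fderiv ℝ μ (x + t • X) X) t := by
    filter_upwards [ht.eventually ((hμ.of_le (m := 1) (by simp)).eventually (by simp))] with t h
    exact (h.differentiableAt one_ne_zero).hasFDerivAt.comp_hasDerivAt t (hl t)
  have m2 : HasDerivAt (fun t : ℝ => fderiv ℝ μ (x + t • X) X) (fderiv ℝ (fderiv ℝ μ) x X X) 0 := by
    have k1 : DifferentiableAt ℝ (fderiv ℝ μ) x :=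
      (hμ.fderiv_right (m := 1) (by norm_cast)).differentiableAt one_ne_zero
    have k2 := k1.hasFDerivAt.comp_hasDerivAt_of_eq 0 (hl 0) hx.symm
    simpa using k2.clm_apply (hasDerivAt_const (0 : ℝ) X)
  have key := FJ_two (m1.mono fun t ht => FJ_dot ht (z1 t))
    ((FJ_dot m2 (z1 0)).fun_add (FJ_dot m1.self_of_nhds z2)) h
  rw [← key]
  simp only [zero_smul, add_zero, dotProduct_smul, Complex.real_smul, Complex.ofReal_ofNat]
  ring

theorem jet_of_littleO {n : ℕ} {μ : E n → Fin 3 → ℂ} {x : E n} (hμ : ContDiffAt ℝ ∞ μ x)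
    (b : ℂ × ℂ) {s : E n → ℂ × ℂ} (hs : s 0 = 0)
    (h : ∀ (X : E n) (e : ℂ × ℂ), (fun t : ℝ => μ (x + t • X) ⬝ᵥ zv (b + t • e) -
      (t : ℂ) ^ 2 * wg b (e + s X) ^ 2) =o[𝓝 0] fun t : ℝ => t ^ 2) : Jet μ x b s := by
  have key := fun X e => FJ_key hμ b e X (h X e)
  have hv : ∀ e, μ x ⬝ᵥ zv e = wg b e ^ 2 := fun e => by
    have := key 0 e
    simp only [map_zero, zero_dotProduct, hs, add_zero] at this
    linear_combination this / 2
  have hh : ∀ X, fderiv ℝ (fderiv ℝ μ) x X X ⬝ᵥ zv b = 2 * wg b (s X) ^ 2 := fun X => by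
    have h1 := key X 0
    have h2 : zd b 0 = 0 := by simpa using zd_smul 0 b 0
    have h3 : zv 0 = 0 := by simpa using zv_smul 0 0
    rw [h2, h3, dotProduct_zero, dotProduct_zero, zero_add] at h1
    linear_combination h1
  refine ⟨zv_span fun e => ?_, fun X e => ?_, hh⟩
  · rw [hv, smul_dotProduct, zv_dot, smul_eq_mul]
    ring
  · have h1 := key X e
    rw [hh, hv, wg_add] at h1
    linear_combination h1 / 2

end Vale.Agent.P292
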