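import Vale.Agent.P292.FX

/-! The vector field is a Killing field. -/

set_option maxSynthPendingDepth 3

open scoped ContDiff Topology
open Set Filter Asymptotics

noncomputable section

namespace Vale.Agent.P292

open Vale.Agent.P219 (E)
open Vale.Agent.P219.R (Bil ip chr Good PD)

variable {n : ℕ} {L : LQ n} {μ : E n → Fin 3 → ℝ} {ξ : E n → E n} {y : E n}

theorem FK_hat (y : E n) (q : Fin 3 → ℝ) (X Y : E n) : ip (L.G y) (hat (L.fr y) q X) Y =
    q 0 * ip (L.G y) (L.I 0 y X) Y + q 1 * ip (L.G y) (L.I 1 y X) Y +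
      q 2 * ip (L.G y) (L.I 2 y X) Y := by
  simp only [hat_apply, P219.R.ip_add_left, P219.R.ip_smul_left]

theorem FK_comm (hy : y ∈ L.U) (q : Fin 3 → ℝ) (k : Fin 3) (X Y : E n) :
    ip (L.G y) (hat (L.fr y) q X) (L.I k y Y) - ip (L.G y) (hat (L.fr y) q Y) (L.I k y X) =
      2 * ip (L.G y) (hat (L.fr y) (crossProduct q (Pi.single k 1)) X) Y := by
  have hs : ∀ k u v, ip (L.G y) (L.fr y k u) v = -ip (L.G y) u (L.fr y k v) :=
    fun k => L.I_skew k y hy
  have h1 : ip (L.G y) (hat (L.fr y) q X) (L.I k y Y) =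
      -ip (L.G y) (hat (L.fr y) (Pi.single k 1) (hat (L.fr y) q X)) Y := by
    rw [hat_single, hs, neg_neg]
  have h2 : ip (L.G y) (hat (L.fr y) q Y) (L.I k y X) =
      -ip (L.G y) (hat (L.fr y) q (hat (L.fr y) (Pi.single k 1) X)) Y := by
    rw [hat_single, hat_skew hs, P219.R.ip_comm (L.good.pos y hy)]
  rw [h1, h2, (L.quat hy).hat_mul, (L.quat hy).hat_mul, dotProduct_comm q,
    ← cross_anticomm q, ← neg_one_smul ℝ (crossProduct q _), hat_smul]
  simp only [P219.R.ip_add_left, smul_apply, P219.R.ip_smul_left]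
  ring

theorem LQ.Pot.sym (h : L.Pot μ ξ) (hy : y ∈ L.U) {ν : ℝ}
    (hν : ∀ X Y k, curvA L.a y X Y k = -ν * ip (L.G y) (L.I k y X) Y) (k : Fin 3) (X Y : E n) :
    ip (L.G y) ((cv L.G ξ y + (ν / 2) • hat (L.fr y) (μ y)) X) (L.I k y Y) =
      ip (L.G y) ((cv L.G ξ y + (ν / 2) • hat (L.fr y) (μ y)) Y) (L.I k y X) := by
  have h1 := h.fderiv_nab hy X Y k
  have h2 := h.fderiv_nab hy Y X k
  rw [L.fderiv_nab h.μ_smooth hy] at h1 h2
  have hs : fderiv ℝ (fderiv ℝ μ) y Y X = fderiv ℝ (fderiv ℝ μ) y X Y :=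
    ((h.μ_smooth.contDiffAt (L.good.isOpen.mem_nhds hy)).isSymmSndFDerivAt
      (by simpa using P219.R.c1_two)).eq Y X
  rw [hs, L.good.chr_symm hy Y X] at h2
  have h3 := FK_comm hy (μ y) k X Y
  rw [FK_hat y (crossProduct _ _)] at h3
  have f0 := hν X Y 0
  have f1 := hν X Y 1
  have f2 := hν X Y 2
  simp only [add_apply, smul_apply, P219.R.ip_add_left, P219.R.ip_smul_left]
  generalize L.nab μ y (chr L.G y X Y) k = c at h1 h2
  simp only [LQ.nab, curvA] at h1 h2 f0 f1 f2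
  fin_cases k <;>
    simp [cross_apply, Matrix.vecHead, Matrix.vecTail] at h1 h2 h3 f0 f1 f2 ⊢
  · linear_combination h2 - h1 + ν / 2 * h3 + μ y 2 * f1 - μ y 1 * f2
  · linear_combination h2 - h1 + ν / 2 * h3 + μ y 0 * f2 - μ y 2 * f0
  · linear_combination h2 - h1 + ν / 2 * h3 + μ y 1 * f0 - μ y 0 * f1

theorem LQ.Pot.killing (h : L.Pot μ ξ) (hy : y ∈ L.U) (X Y : E n) :
    ip (L.G y) (cv L.G ξ y X) Y = -ip (L.G y) X (cv L.G ξ y Y) := by
  obtain ⟨ν, -, hν⟩ := L.curv y hy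
  have hs : ∀ k u v, ip (L.G y) (L.fr y k u) v = -ip (L.G y) u (L.fr y k v) :=
    fun k => L.I_skew k y hy
  have h1 := ((L.quat hy).skew_of (L.good.pos y hy) hs _ (h.sym hy hν)).1 X Y
  have h2 := hat_skew hs (μ y) X Y
  simp only [add_apply, smul_apply, P219.R.ip_add_left, P219.R.ip_smul_left,
    P219.R.ip_add_right, P219.R.ip_smul_right] at h1
  linear_combination h1 - ν / 2 * h2

end Vale.Agent.P292
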