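import Vale.Agent.P292.FO

/-! Killing fields preserve the connection. -/

set_option maxSynthPendingDepth 3

open scoped ContDiff Topology
open Set Filter Asymptotics

noncomputable section

namespace Vale.Agent.P292

open Vale.Agent.P219 (E)
open Vale.Agent.P219.R (Bil ip chr Good PD)

section General

variable {V : Type} [NormedAddCommGroup V] [NormedSpace ℝ V] {G : V → V →L[ℝ] V →L[ℝ] ℝ} {y : V}

theorem FL1_kil {ξ : V → V} (g1 : DifferentiableAt ℝ G y) (g2 : DifferentiableAt ℝ (fderiv ℝ G) y)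
    (x1 : DifferentiableAt ℝ ξ y) (x2 : DifferentiableAt ℝ (fderiv ℝ ξ) y) {X Y : V}
    (K : ∀ᶠ z in 𝓝 y,
      fderiv ℝ G z (ξ z) X Y + G z (fderiv ℝ ξ z X) Y + G z X (fderiv ℝ ξ z Y) = 0) (Z : V) :
    fderiv ℝ (fderiv ℝ G) y Z (ξ y) X Y + fderiv ℝ G y (fderiv ℝ ξ y Z) X Y +
      fderiv ℝ G y Z (fderiv ℝ ξ y X) Y + G y (fderiv ℝ (fderiv ℝ ξ) y Z X) Y +
      fderiv ℝ G y Z X (fderiv ℝ ξ y Y) + G y X (fderiv ℝ (fderiv ℝ ξ) y Z Y) = 0 := by
  have c := fun w : V => hasFDerivAt_const (𝕜 := ℝ) w y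
  have h1 := ((((g2.hasFDerivAt.clm_apply x1.hasFDerivAt).clm_apply (c X)).clm_apply (c Y)).fun_add
    ((g1.hasFDerivAt.clm_apply (x2.hasFDerivAt.clm_apply (c X))).clm_apply (c Y))).fun_add
      ((g1.hasFDerivAt.clm_apply (c X)).clm_apply (x2.hasFDerivAt.clm_apply (c Y)))
  have h2 := ContinuousLinearMap.ext_iff.1
    (h1.unique ((hasFDerivAt_const (0 : ℝ) y).congr_of_eventuallyEq K)) Z
  simp at h2
  linarith

theorem FL1_kos {Γ : V → V →L[ℝ] V →L[ℝ] V} (g1 : DifferentiableAt ℝ G y)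
    (g2 : DifferentiableAt ℝ (fderiv ℝ G) y) (o1 : DifferentiableAt ℝ Γ y) {u v w : V}
    (K : ∀ᶠ z in 𝓝 y, 2 * G z (Γ z u v) w =
      fderiv ℝ G z u v w + fderiv ℝ G z v u w - fderiv ℝ G z w u v) (a : V) :
    2 * (fderiv ℝ G y a (Γ y u v) w + G y (fderiv ℝ Γ y a u v) w) =
      fderiv ℝ (fderiv ℝ G) y a u v w + fderiv ℝ (fderiv ℝ G) y a v u w -
        fderiv ℝ (fderiv ℝ G) y a w u v := by
  have c := fun w : V => hasFDerivAt_const (𝕜 := ℝ) w y
  have h0 := fun p q r => ((g2.hasFDerivAt.clm_apply (c p)).clm_apply (c q)).clm_apply (c r)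
  have h1 := ((g1.hasFDerivAt.clm_apply ((o1.hasFDerivAt.clm_apply (c u)).clm_apply
    (c v))).clm_apply (c w)).const_mul 2
  have h2 := ContinuousLinearMap.ext_iff.1 (h1.unique
    ((((h0 u v w).fun_add (h0 v u w)).fun_sub (h0 w u v)).congr_of_eventuallyEq K)) a
  simp at h2
  linarith

end General

variable {n : ℕ} {G : E n → Bil n} {U : Set (E n)} {ξ : E n → E n}

theorem killing_lie (h : Good G U) (hξ : ContDiffOn ℝ ∞ ξ U)
    (hK : ∀ y ∈ U, ∀ X Y, ip (G y) (cv G ξ y X) Y = -ip (G y) X (cv G ξ y Y)) :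
    ∀ y ∈ U, LieOm (om G) ξ y := by
  have K : ∀ z ∈ U, ∀ X Y,
      fderiv ℝ G z (ξ z) X Y + G z (fderiv ℝ ξ z X) Y + G z X (fderiv ℝ ξ z Y) = 0 := by
    intro z hz X Y
    have h1 := hK z hz X Y
    rw [cv_apply h hz, cv_apply h hz, h.chr_symm hz X, h.chr_symm hz Y, P219.R.ip_add_left,
      P219.R.ip_add_right, ← om_apply h hz, ← om_apply h hz] at h1
    rw [om_metric h hz]
    simp only [ip] at h1
    linarith
  intro y hy u v
  have hn := h.isOpen.mem_nhds hy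
  have hm : minSmoothness ℝ 2 ≤ ∞ := by
    simp only [minSmoothness_of_isRCLikeNormedField]
    exact P219.R.c1_two
  have g2 := (h.c0D_smooth.contDiffAt hn).differentiableAt (by simp)
  have K' := fun X Y => FL1_kil (X := X) (Y := Y) (h.c0_diff hy) g2
    ((hξ.contDiffAt hn).differentiableAt (by simp))
    (((hξ.contDiffAt hn).fderiv_right (m := 1) P219.R.c1_two).differentiableAt (by simp))
    (by filter_upwards [hn] with z hz using K z hz X Y)
  have s1 := (h.smooth.contDiffAt hn).isSymmSndFDerivAt hm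
  have s2 := (hξ.contDiffAt hn).isSymmSndFDerivAt hm
  refine P219.R.ip_ext (h.pos y hy) fun w => ?_
  have e1 := K' v w u
  have e2 := K' u w v
  have e3 := K' u v w
  have e4 := FL1_kos (h.c0_diff hy) g2 (((om_smooth h).contDiffAt hn).differentiableAt (by simp))
    (by filter_upwards [hn] with z hz using om_koszul h hz u v w) (ξ y)
  rw [s1 (ξ y) u, s1 (ξ y) v, s1 (ξ y) w] at e4
  rw [s2 v u] at e2
  rw [s2 w u, s2 w v, (h.pos y hy).symm _ v] at e3
  rw [P219.R.ip_sub_left, P219.R.ip_add_left, P219.R.ip_add_left, P219.R.ip_add_left,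
    P219.R.ip_zero_left]
  simp only [ip]
  linear_combination (e1 + e2 - e3 + e4 + om_koszul h hy (fderiv ℝ ξ y u) v w +
    om_koszul h hy u (fderiv ℝ ξ y v) w + om_koszul h hy u v (fderiv ℝ ξ y w)) / 2 -
    K y hy (om G y u v) w

end Vale.Agent.P292
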