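import Vale.Agent.P292.FDefs

/-! A field which preserves a connection preserves its curvature. -/

set_option maxSynthPendingDepth 3

open scoped ContDiff Topology
open Set Filter Asymptotics

noncomputable section

namespace Vale.Agent.P292

open Vale.Agent.P219 (E)
open Vale.Agent.P219.R (Bil ip chr Good PD)

variable {V : Type} [NormedAddCommGroup V] [NormedSpace ℝ V]
  {Γ : V → V →L[ℝ] V →L[ℝ] V} {U : Set V} {ξ : V → V}

theorem FL2_d {W : Type} [NormedAddCommGroup W] [NormedSpace ℝ W] {f : V → W} {y : V}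
    (hf : ContDiffAt ℝ ∞ f y) : ContDiffAt ℝ ∞ (fderiv ℝ f) y := hf.fderiv_right (by simp)

theorem FL2_h {W : Type} [NormedAddCommGroup W] [NormedSpace ℝ W] {f : V → W} {y : V}
    (hf : ContDiffAt ℝ ∞ f y) : HasFDerivAt f (fderiv ℝ f y) y :=
  (hf.differentiableAt (by simp)).hasFDerivAt

theorem FL2_s {W : Type} [NormedAddCommGroup W] [NormedSpace ℝ W] {f : V → W} {y : V}
    (hf : ContDiffAt ℝ ∞ f y) (u v : V) :
    fderiv ℝ (fderiv ℝ f) y u v = fderiv ℝ (fderiv ℝ f) y v u :=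
  (hf.isSymmSndFDerivAt (by
    rw [minSmoothness_of_isRCLikeNormedField]; exact WithTop.coe_le_coe.2 le_top)) u v

theorem lieR_of_lieOm (hU : IsOpen U) (hΓ : ContDiffOn ℝ ∞ Γ U) (hξ : ContDiffOn ℝ ∞ ξ U)
    (hR : ContDiffOn ℝ ∞ (curvOm Γ) U) (h : ∀ y ∈ U, LieOm Γ ξ y) :
    ∀ y ∈ U, LieR (curvOm Γ) ξ y := by
  intro y hy u v w
  have cΓ := hΓ.contDiffAt (hU.mem_nhds hy)
  have cξ := hξ.contDiffAt (hU.mem_nhds hy)
  have cR := hR.contDiffAt (hU.mem_nhds hy)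
  have g0 := FL2_h cΓ
  have g1 := FL2_h (FL2_d cΓ)
  have x0 := FL2_h cξ
  have x1 := FL2_h (FL2_d cξ)
  have x2 := FL2_h (FL2_d (FL2_d cξ))
  have c := fun a : V => hasFDerivAt_const (𝕜 := ℝ) a y
  have hE : ∀ a X Y, fderiv ℝ (fderiv ℝ (fderiv ℝ ξ)) y a X Y +
      (fderiv ℝ (fderiv ℝ Γ) y a (ξ y) X Y + fderiv ℝ Γ y (fderiv ℝ ξ y a) X Y) +
      (fderiv ℝ Γ y a (fderiv ℝ ξ y X) Y + Γ y (fderiv ℝ (fderiv ℝ ξ) y a X) Y) +
      (fderiv ℝ Γ y a X (fderiv ℝ ξ y Y) + Γ y X (fderiv ℝ (fderiv ℝ ξ) y a Y)) -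
      (fderiv ℝ (fderiv ℝ ξ) y a (Γ y X Y) + fderiv ℝ ξ y (fderiv ℝ Γ y a X Y)) = 0 := by
    intro a X Y
    have d := (((((x2.clm_apply (c X)).clm_apply (c Y)).add
      (((g1.clm_apply x0).clm_apply (c X)).clm_apply (c Y))).add
      ((g0.clm_apply (x1.clm_apply (c X))).clm_apply (c Y))).add
      ((g0.clm_apply (c X)).clm_apply (x1.clm_apply (c Y)))).sub
      (x1.clm_apply ((g0.clm_apply (c X)).clm_apply (c Y)))
    have e := d.unique ((c 0).congr_of_eventuallyEq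
      (Filter.mem_of_superset (hU.mem_nhds hy) fun z hz => h z hz X Y))
    have e' := congrArg (fun L : V →L[ℝ] V => L a) e
    simp only [add_apply, sub_apply, ContinuousLinearMap.comp_apply,
      ContinuousLinearMap.flip_apply, zero_apply, map_zero, zero_add] at e'
    rw [← e']
    abel
  have hD : fderiv ℝ (curvOm Γ) y (ξ y) u v w =
      fderiv ℝ (fderiv ℝ Γ) y (ξ y) u v w - fderiv ℝ (fderiv ℝ Γ) y (ξ y) v u w +
      (fderiv ℝ Γ y (ξ y) u (Γ y v w) + Γ y u (fderiv ℝ Γ y (ξ y) v w)) -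
      (fderiv ℝ Γ y (ξ y) v (Γ y u w) + Γ y v (fderiv ℝ Γ y (ξ y) u w)) := by
    have d := (((((g1.clm_apply (c u)).clm_apply (c v)).clm_apply (c w)).sub
      (((g1.clm_apply (c v)).clm_apply (c u)).clm_apply (c w))).add
      ((g0.clm_apply (c u)).clm_apply ((g0.clm_apply (c v)).clm_apply (c w)))).sub
      ((g0.clm_apply (c v)).clm_apply ((g0.clm_apply (c u)).clm_apply (c w)))
    have e := ((((FL2_h cR).clm_apply (c u)).clm_apply (c v)).clm_apply (c w)).unique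
      (d.congr_of_eventuallyEq (Eventually.of_forall fun z => curvOm_apply Γ z u v w))
    have e' := congrArg (fun L : V →L[ℝ] V => L (ξ y)) e
    simp only [add_apply, sub_apply, ContinuousLinearMap.comp_apply,
      ContinuousLinearMap.flip_apply, zero_apply, map_zero, zero_add] at e'
    rw [e']
    abel
  have hS : ∀ X Y, fderiv ℝ (fderiv ℝ ξ) y X Y = fderiv ℝ ξ y (Γ y X Y) -
      fderiv ℝ Γ y (ξ y) X Y - Γ y (fderiv ℝ ξ y X) Y - Γ y X (fderiv ℝ ξ y Y) := fun X Y => by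
    rw [← sub_eq_zero, ← h y hy X Y]
    abel
  have e1 := hE u v w
  have e2 := hE v u w
  rw [FL2_s cΓ u, FL2_s (FL2_d cξ) u v, FL2_s cξ u v, hS u w, hS u (Γ y v w)] at e1
  rw [FL2_s cΓ v, hS v w, hS v (Γ y u w)] at e2
  rw [hD]
  simp only [curvOm_apply, map_add, map_sub] at e1 e2 ⊢
  rw [← sub_eq_zero.2 (e1.trans e2.symm)]
  abel

end Vale.Agent.P292
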