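import Vale.Agent.P292.FDefs

/-! The Lie derivative of the covariant derivative at a zero of the field. -/

set_option maxSynthPendingDepth 3

open scoped ContDiff Topology
open Set Filter Asymptotics

noncomputable section

namespace Vale.Agent.P292

open Vale.Agent.P219 (E)
open Vale.Agent.P219.R (Bil ip chr Good PD)

variable {V : Type} [NormedAddCommGroup V] [NormedSpace ℝ V]
  {Γ : V → V →L[ℝ] V →L[ℝ] V} {R : V → V →L[ℝ] V →L[ℝ] V →L[ℝ] V} {U : Set V} {ξ : V → V}

theorem FL3_app {A B : Type} [NormedAddCommGroup A] [NormedSpace ℝ A] [NormedAddCommGroup B]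
    [NormedSpace ℝ B] {c : ℝ → A →L[ℝ] B} {c' : A →L[ℝ] B} (hc : HasDerivAt c c' 0) (u : A) :
    HasDerivAt (fun t => c t u) (c' u) 0 := by
  simpa using hc.clm_apply (hasDerivAt_const (0 : ℝ) u)

theorem FL3_line {B : Type} [NormedAddCommGroup B] [NormedSpace ℝ B] {f : V → B} {x : V}
    (hf : DifferentiableAt ℝ f x) (a : V) :
    HasDerivAt (fun t : ℝ => f (x + t • a)) (fderiv ℝ f x a) 0 := by
  have h1 : HasDerivAt (fun t : ℝ => x + t • a) a 0 := by
    simpa using ((hasDerivAt_id (0 : ℝ)).smul_const a).const_add x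
  exact HasFDerivAt.comp_hasDerivAt_of_eq (0 : ℝ) hf.hasFDerivAt h1 (by simp)

theorem lie_covT (hU : IsOpen U) (hξ : ContDiffOn ℝ ∞ ξ U) (hR : ContDiffOn ℝ ∞ R U)
    (h : ∀ y ∈ U, LieR R ξ y) {x : V} (hx : x ∈ U) (h0 : ξ x = 0) (hΓ : LieOm Γ ξ x)
    (a u v w : V) : fderiv ℝ ξ x (covT Γ R x a u v w) =
      covT Γ R x (fderiv ℝ ξ x a) u v w + covT Γ R x a (fderiv ℝ ξ x u) v w +
        covT Γ R x a u (fderiv ℝ ξ x v) w + covT Γ R x a u v (fderiv ℝ ξ x w) := by
  have hn : U ∈ 𝓝 x := hU.mem_nhds hx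
  have cξ : ContDiffAt ℝ ∞ ξ x := hξ.contDiffAt hn
  have cR : ContDiffAt ℝ ∞ R x := hR.contDiffAt hn
  have d1 := FL3_line (cξ.differentiableAt (by simp)) a
  have d2 := FL3_line ((cξ.fderiv_right (m := ∞) le_rfl).differentiableAt
    (by simp)) a
  have r1 := FL3_line (cR.differentiableAt (by simp)) a
  have r2 := FL3_line ((cR.fderiv_right (m := ∞) le_rfl).differentiableAt
    (by simp)) a
  have t1 := FL3_app (FL3_app (FL3_app (r2.clm_apply d1) u) v) w
  have t2 := FL3_app (FL3_app (r1.clm_apply (FL3_app d2 u)) v) w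
  have t3 := FL3_app ((FL3_app r1 u).clm_apply (FL3_app d2 v)) w
  have t4 := (FL3_app (FL3_app r1 u) v).clm_apply (FL3_app d2 w)
  have t5 := d2.clm_apply (FL3_app (FL3_app (FL3_app r1 u) v) w)
  have t := (((t1.fun_add t2).fun_add t3).fun_add t4).fun_sub t5
  have hev : ∀ᶠ s : ℝ in 𝓝 0, x + s • a ∈ U := by
    refine ContinuousAt.preimage_mem_nhds (by fun_prop) ?_
    simpa using hn
  have hz := t.unique ((hasDerivAt_const (0 : ℝ) (0 : V)).congr_of_eventuallyEq
    (hev.mono fun s hs => h _ hs u v w))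
  have e : ∀ Y, fderiv ℝ (fderiv ℝ ξ) x a Y = fderiv ℝ ξ x (Γ x a Y) -
      Γ x (fderiv ℝ ξ x a) Y - Γ x a (fderiv ℝ ξ x Y) := fun Y => by
    have := hΓ a Y
    rw [h0, map_zero, zero_apply, zero_apply] at this
    linear_combination (norm := module) this
  have l : ∀ u v w, fderiv ℝ ξ x (R x u v w) = R x (fderiv ℝ ξ x u) v w +
      R x u (fderiv ℝ ξ x v) w + R x u v (fderiv ℝ ξ x w) := fun u v w => by
    have := h x hx u v w
    rw [h0, map_zero, zero_apply, zero_apply,
      zero_apply] at this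
    linear_combination (norm := module) -this
  simp only [zero_smul, add_zero, h0, map_zero, zero_add, e, l, map_add, map_sub,
    add_apply, sub_apply] at hz
  simp only [covT, l, map_add, map_sub]
  linear_combination (norm := module) -hz

end Vale.Agent.P292
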