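import Vale.Agent.P292.FDefs

/-! Algebra of three anticommuting complex structures. -/

set_option maxSynthPendingDepth 3

open scoped ContDiff Topology
open Set Filter Asymptotics

noncomputable section

namespace Vale.Agent.P292

open Vale.Agent.P219 (E)
open Vale.Agent.P219.R (Bil ip chr Good PD)

variable {n : ℕ} {I : Fin 3 → E n →L[ℝ] E n}

theorem hat_apply (I : Fin 3 → E n →L[ℝ] E n) (q : Fin 3 → ℝ) (v : E n) :
    hat I q v = q 0 • I 0 v + q 1 • I 1 v + q 2 • I 2 v := by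
  simp [hat, Fin.sum_univ_three]

theorem hat_single (I : Fin 3 → E n →L[ℝ] E n) (k : Fin 3) : hat I (Pi.single k 1) = I k := by
  ext1 v
  rw [hat_apply]
  fin_cases k <;> simp

theorem hat_smul (I : Fin 3 → E n →L[ℝ] E n) (c : ℝ) (q : Fin 3 → ℝ) :
    hat I (c • q) = c • hat I q := by
  ext1 v
  simp only [hat_apply, smul_apply, Pi.smul_apply, smul_eq_mul, smul_add, smul_smul]

theorem hat_skew {A : Bil n} (hs : ∀ k u v, ip A (I k u) v = -ip A u (I k v)) (q : Fin 3 → ℝ)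
    (u v : E n) : ip A (hat I q u) v = -ip A u (hat I q v) := by
  simp only [hat_apply, P219.R.ip_add_left, P219.R.ip_add_right, P219.R.ip_smul_left,
    P219.R.ip_smul_right, hs]
  ring

/-- real and imaginary part of a null vector -/
theorem null_pt {z : Fin 3 → ℂ} (hz : z ≠ 0) (h0 : z ⬝ᵥ z = 0) :
    pt Complex.reCLM z ⬝ᵥ pt Complex.reCLM z = pt Complex.imCLM z ⬝ᵥ pt Complex.imCLM z ∧
      pt Complex.reCLM z ⬝ᵥ pt Complex.imCLM z = 0 ∧
      0 < pt Complex.reCLM z ⬝ᵥ pt Complex.reCLM z := by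
  have h1 := congrArg Complex.re h0
  have h2 := congrArg Complex.im h0
  simp only [dotProduct, Fin.sum_univ_three, Complex.add_re, Complex.mul_re, Complex.add_im,
    Complex.mul_im, Complex.zero_re, Complex.zero_im] at h1 h2
  simp only [pt, dotProduct, Fin.sum_univ_three, Complex.reCLM_apply, Complex.imCLM_apply]
  refine ⟨by linarith, by linarith, ?_⟩
  by_contra hn
  refine hz (funext fun k => ?_)
  have a0 := mul_self_nonneg (z 0).re
  have a1 := mul_self_nonneg (z 1).re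
  have a2 := mul_self_nonneg (z 2).re
  have b0 := mul_self_nonneg (z 0).im
  have b1 := mul_self_nonneg (z 1).im
  have b2 := mul_self_nonneg (z 2).im
  fin_cases k
  · exact Complex.ext (mul_self_eq_zero.1 (show (z 0).re * (z 0).re = 0 by linarith))
      (mul_self_eq_zero.1 (show (z 0).im * (z 0).im = 0 by linarith))
  · exact Complex.ext (mul_self_eq_zero.1 (show (z 1).re * (z 1).re = 0 by linarith))
      (mul_self_eq_zero.1 (show (z 1).im * (z 1).im = 0 by linarith))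
  · exact Complex.ext (mul_self_eq_zero.1 (show (z 2).re * (z 2).re = 0 by linarith))
      (mul_self_eq_zero.1 (show (z 2).im * (z 2).im = 0 by linarith))

theorem Quat.hat_mul (h : Quat I) (p q : Fin 3 → ℝ) (v : E n) :
    hat I p (hat I q v) = -(p ⬝ᵥ q) • v + hat I (crossProduct p q) v := by
  have e02 : ∀ v, I 0 (I 2 v) = -I 1 v := fun v => by rw [← h.mul, h.sq]
  have e21 : ∀ v, I 2 (I 1 v) = -I 0 v := fun v => by rw [← h.mul, h.sq, map_neg]
  have e12 : ∀ v, I 1 (I 2 v) = I 0 v := fun v => by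
    have h1 := e02 (I 2 v)
    rw [h.sq, map_neg] at h1
    exact (neg_inj.1 h1).symm
  have e20 : ∀ v, I 2 (I 0 v) = I 1 v := fun v => by
    have h1 := congrArg (I 2) (e21 v)
    rw [h.sq, map_neg] at h1
    exact (neg_inj.1 h1).symm
  have e10 : ∀ v, I 1 (I 0 v) = -I 2 v := fun v => by rw [← e12, h.sq]
  simp only [hat_apply, map_add, map_smul, h.sq, h.mul, e02, e21, e12, e20, e10, cross_apply,
    dotProduct, Fin.sum_univ_three, Matrix.cons_val_zero, Matrix.cons_val_one, Matrix.cons_val]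
  module

theorem Quat.hat_sq (h : Quat I) (q : Fin 3 → ℝ) (v : E n) :
    hat I q (hat I q v) = -(q ⬝ᵥ q) • v := by
  rw [h.hat_mul, cross_self]
  simp [hat_apply]

theorem FQ_dot {q : Fin 3 → ℝ} (hq : q ≠ 0) : q ⬝ᵥ q ≠ 0 := fun h =>
  hq (dotProduct_self_eq_zero.1 h)

theorem FQ_cross {u w : Fin 3 → ℝ} (h1 : u ⬝ᵥ u = w ⬝ᵥ w) (h2 : u ⬝ᵥ w = 0) :
    crossProduct u w ⬝ᵥ crossProduct u w = (u ⬝ᵥ u) ^ 2 := by
  rw [cross_dot_cross, h2, ← h1]
  ring

theorem Quat.hat_inj (h : Quat I) {q : Fin 3 → ℝ} (hq : q ≠ 0) {v : E n} (hv : hat I q v = 0) :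
    v = 0 := by
  have h1 := h.hat_sq q v
  rw [hv, map_zero] at h1
  exact (smul_eq_zero.1 h1.symm).resolve_left (neg_ne_zero.2 (FQ_dot hq))

theorem Quat.hat_surj (h : Quat I) {q : Fin 3 → ℝ} (hq : q ≠ 0) (v : E n) :
    ∃ u, hat I q u = v := by
  refine ⟨(-(q ⬝ᵥ q))⁻¹ • hat I q v, ?_⟩
  rw [map_smul, h.hat_sq, smul_smul, inv_mul_cancel₀ (neg_ne_zero.2 (FQ_dot hq)), one_smul]

theorem FQ_J (h : Quat I) {κ : Type} [Fintype κ] (H : E n →L[ℝ] κ → ℂ) {u w : Fin 3 → ℝ}
    (h1 : u ⬝ᵥ u = w ⬝ᵥ w) (h2 : u ⬝ᵥ w = 0)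
    (hH : ∀ Y, ∑ k, ((u k : ℂ) + Complex.I * w k) • H (I k Y) = 0) (Y : E n) :
    H (hat I (crossProduct u w) Y) = (u ⬝ᵥ u) • Complex.I • H Y := by
  have h3 : ∀ Y, H (hat I u Y) + Complex.I • H (hat I w Y) = 0 := fun Y => by
    rw [← hH Y]
    simp only [hat_apply, map_add, map_smul, Fin.sum_univ_three, ← Complex.coe_smul]
    module
  have h4 := h3 (hat I w Y)
  rw [h.hat_mul, h.hat_sq, h2, ← h1, neg_zero, zero_smul, zero_add, map_smul, neg_smul, smul_neg,
    add_neg_eq_zero, smul_comm] at h4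
  exact h4

/-- values at two antipodal points can be prescribed -/
theorem Quat.two_pt (h : Quat I) {κ : Type} [Fintype κ] (H H' : E n →L[ℝ] κ → ℂ)
    {z : Fin 3 → ℂ} (hz : z ≠ 0) (h0 : z ⬝ᵥ z = 0) (hH : ∀ Y, ∑ k, z k • H (I k Y) = 0)
    (hH' : ∀ Y, ∑ k, (-(starRingEnd ℂ (z k))) • H' (I k Y) = 0) (X₁ X₂ : E n) :
    ∃ X Y, H X + Complex.I • H Y = H X₁ ∧ H' X + Complex.I • H' Y = H' X₂ := by
  obtain ⟨h1, h2, h3⟩ := null_pt hz h0
  set u := pt Complex.reCLM z with hu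
  set w := pt Complex.imCLM z with hw
  have e1 := FQ_J h H h1 h2 fun Y => by
    rw [← hH Y]
    refine Finset.sum_congr rfl fun k _ => ?_
    congr 1
    apply Complex.ext <;> simp [hu, hw, pt]
  have e2 := FQ_J h H' (u := -u) (w := w) (by simpa using h1) (by simpa using h2) fun Y => by
    rw [← hH' Y]
    refine Finset.sum_congr rfl fun k _ => ?_
    congr 1
    apply Complex.ext <;> simp [hu, hw, pt]
  have e3 : ∀ Y, H' (hat I (crossProduct u w) Y) = -((u ⬝ᵥ u) • Complex.I • H' Y) := fun Y => by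
    have := e2 Y
    rw [map_neg, LinearMap.neg_apply, ← neg_one_smul ℝ (crossProduct u w), hat_smul, smul_apply,
      map_smul, neg_one_smul, neg_dotProduct_neg] at this
    exact neg_eq_iff_eq_neg.1 this
  have hI : ∀ x : κ → ℂ, Complex.I • Complex.I • x = -x := fun x => by
    rw [smul_smul, Complex.I_mul_I, neg_one_smul]
  refine ⟨(1 / 2 : ℝ) • (X₁ + X₂),
    (-(2 * (u ⬝ᵥ u))⁻¹ : ℝ) • hat I (crossProduct u w) (X₁ - X₂), ?_, ?_⟩
  · rw [map_smul, map_smul, e1, smul_smul, smul_comm Complex.I, hI, map_add, map_sub,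
      show -(2 * (u ⬝ᵥ u))⁻¹ * (u ⬝ᵥ u) = (-1 / 2 : ℝ) by field_simp]
    module
  · rw [map_smul, map_smul, e3, smul_neg, smul_smul, smul_neg, smul_comm Complex.I, hI, map_add,
      map_sub, show -(2 * (u ⬝ᵥ u))⁻¹ * (u ⬝ᵥ u) = (-1 / 2 : ℝ) by field_simp]
    module

theorem Quat.skew_of (h : Quat I) {A : Bil n} (hA : PD A)
    (hs : ∀ k u v, ip A (I k u) v = -ip A u (I k v)) (B : E n →L[ℝ] E n)
    (hB : ∀ k X Y, ip A (B X) (I k Y) = ip A (B Y) (I k X)) :
    (∀ X Y, ip A (B X) Y = -ip A X (B Y)) ∧ ∀ k X, B (I k X) = I k (B X) := by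
  have h1 : ∀ k X Y, ip A (B (I k X)) (I k Y) = -ip A (B Y) X := fun k X Y => by
    rw [hB, h.sq, P219.R.ip_neg_right]
  have h2 : ∀ X Y, ip A (B X) Y = -ip A (B Y) X := fun X Y => by
    rw [← h1 2, ← h.mul, ← h.mul, h1, h1, neg_neg]
  refine ⟨fun X Y => by rw [h2, P219.R.ip_comm hA], fun k X => P219.R.ip_ext hA fun Y => ?_⟩
  have h3 := h1 k X (I k Y)
  rw [h.sq, P219.R.ip_neg_right] at h3
  rw [hs]
  linarith [h2 X (I k Y)]

theorem Quat.eq_zero (h : Quat I) {z : Fin 3 → ℂ} (hz : z ≠ 0) (h0 : z ⬝ᵥ z = 0)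
    (B B' : E n →L[ℝ] E n) (hB : ∀ k X, B (I k X) = I k (B X))
    (hB' : ∀ k X, B' (I k X) = I k (B' X))
    (he : ∀ X, hat I (pt Complex.reCLM z) (B X) = hat I (pt Complex.imCLM z) (B' X)) : B = 0 := by
  obtain ⟨h1, h2, h3⟩ := null_pt hz h0
  set u := pt Complex.reCLM z
  set w := pt Complex.imCLM z
  have hc : ∀ C : E n →L[ℝ] E n, (∀ k X, C (I k X) = I k (C X)) → ∀ q X,
      C (hat I q X) = hat I q (C X) := fun C hC q X => by
    simp only [hat_apply, map_add, map_smul, hC]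
  have hu : u ≠ 0 := fun h => by simp [h] at h3
  have hx : crossProduct u w ≠ 0 := fun h => by
    have := FQ_cross h1 h2
    rw [h, zero_dotProduct] at this
    exact h3.ne' (pow_eq_zero_iff two_ne_zero |>.1 this.symm)
  ext1 X
  have e1 := he (hat I u X)
  rw [hc B hB, hc B' hB', he, h.hat_mul, h.hat_mul, dotProduct_comm w, add_right_inj,
    ← cross_anticomm u w, ← neg_one_smul ℝ (crossProduct u w), hat_smul, smul_apply] at e1
  have e2 : hat I (crossProduct u w) (B' X) = 0 := by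
    have : (2 : ℝ) • hat I (crossProduct u w) (B' X) = 0 := by
      linear_combination (norm := module) e1
    exact (smul_eq_zero.1 this).resolve_left two_ne_zero
  have e3 := he X
  rw [h.hat_inj hx e2, map_zero] at e3
  exact h.hat_inj hu e3

/-- a tensor with four arguments which is killed by a multiple of a complex structure vanishes -/
theorem four_zero {V : Type} [AddCommGroup V] [Module ℝ V] (A : V →ₗ[ℝ] V) {c : ℝ} (hc : c ≠ 0)
    (hA : ∀ v, A (A v) = -c • v) (T : V → V → V → V → V)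
    (h1 : ∀ (r : ℝ) a u v w, T (r • a) u v w = r • T a u v w)
    (h2 : ∀ (r : ℝ) a u v w, T a (r • u) v w = r • T a u v w)
    (h3 : ∀ (r : ℝ) a u v w, T a u (r • v) w = r • T a u v w)
    (h4 : ∀ (r : ℝ) a u v w, T a u v (r • w) = r • T a u v w)
    (hT : ∀ a u v w, A (T a u v w) =
      T (A a) u v w + T a (A u) v w + T a u (A v) w + T a u v (A w)) (a u v w : V) :
    T a u v w = 0 := by
  have hS : ∀ a u v w, (-c) • T a u v w =
      (-4 * c) • T a u v w + (2 : ℝ) • (T (A a) (A u) v w + T (A a) u (A v) w + T (A a) u v (A w) +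
        T a (A u) (A v) w + T a (A u) v (A w) + T a u (A v) (A w)) := fun a u v w => by
    rw [← hA, hT, map_add, map_add, map_add, hT, hT, hT, hT]
    simp only [hA, h1, h2, h3, h4]
    module
  have e0 := hS a u v w
  have e1 := hS (A a) (A u) v w
  have e2 := hS (A a) u (A v) w
  have e3 := hS (A a) u v (A w)
  have e4 := hS a (A u) (A v) w
  have e5 := hS a (A u) v (A w)
  have e6 := hS a u (A v) (A w)
  have e7 := hS (A a) (A u) (A v) (A w)
  simp only [hA, h1, h2, h3, h4] at e1 e2 e3 e4 e5 e6 e7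
  have key : (15 / 2 * c ^ 3) • T a u v w = 0 := by
    linear_combination (norm := module) (-3 / 2 * c ^ 2) • e0 -
      c • (e1 + e2 + e3 + e4 + e5 + e6) - (4 : ℝ) • e7
  exact (smul_eq_zero.1 key).resolve_left (by positivity)

end Vale.Agent.P292
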