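import Vale.Agent.P292.FC0
import Vale.Agent.P292.FQ

/-! Twistor lines are very free. -/

set_option maxSynthPendingDepth 3

open scoped ContDiff Topology
open Set Filter Asymptotics

noncomputable section

namespace Vale.Agent.P292

open Vale.Agent.P219 (E)
open Vale.Agent.P219.R (Bil ip chr Good PD)

variable {κ : Type} [Fintype κ] {n : ℕ} {L : LQ n} {P : Pre κ} (T : LT L P)
  {x : E n} {b : ℂ × ℂ}

theorem LT.FV_hor {h : ℂ × ℂ} (hx : x ∈ L.U) (hh : h ≠ 0) : ∃ H : E n →L[ℝ] κ → ℂ,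
    (∀ Y, ∑ k, zv h k • H (L.I k x Y) = 0) ∧ ∀ X₁ X Y f, H X + Complex.I • H Y = H X₁ → ∃ e,
      fderiv ℝ T.Θ (x, h) (X, 0) + Complex.I • fderiv ℝ T.Θ (x, h) (Y, 0) +
        fderiv ℝ T.Θ (x, h) (0, e) = fderiv ℝ T.Θ (x, h) (X₁, f) := by
  obtain ⟨S, hS⟩ := sp_lin h
  refine ⟨(fderiv ℝ T.Θ (x, h)).comp ((ContinuousLinearMap.id ℝ _).prod (-(S.comp (L.a x)))),
    fun Y => ?_, fun X₁ X Y f e => ⟨f + S (L.a x X₁) - S (L.a x X) - Complex.I • S (L.a x Y), ?_⟩⟩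
  · simpa [hS] using T.hor x hx h hh Y
  · have e0 : ∀ (Z : E n) (u : ℂ × ℂ), fderiv ℝ T.Θ (x, h) (Z, u) =
        fderiv ℝ T.Θ (x, h) (Z, 0) + fderiv ℝ T.Θ (x, h) (0, u) := by
      intro Z u
      rw [← map_add, Prod.mk_add_mk, add_zero, zero_add]
    have e1 : ∀ u v : ℂ × ℂ, fderiv ℝ T.Θ (x, h) (0, u - v) =
        fderiv ℝ T.Θ (x, h) (0, u) - fderiv ℝ T.Θ (x, h) (0, v) := by
      intro u v
      rw [← map_sub, Prod.mk_sub_mk 0 0, sub_zero]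
    have e2 : ∀ u v : ℂ × ℂ, fderiv ℝ T.Θ (x, h) (0, u + v) =
        fderiv ℝ T.Θ (x, h) (0, u) + fderiv ℝ T.Θ (x, h) (0, v) := by
      intro u v
      rw [← map_add, Prod.mk_add_mk 0 0, add_zero]
    have e3 : ∀ Z : E n, fderiv ℝ T.Θ (x, h) (Z, -S (L.a x Z)) =
        fderiv ℝ T.Θ (x, h) (Z, 0) - fderiv ℝ T.Θ (x, h) (0, S (L.a x Z)) := by
      intro Z
      rw [← map_sub, Prod.mk_sub_mk, sub_zero, zero_sub]
    have e4 : fderiv ℝ T.Θ (x, h) (X, -S (L.a x X)) +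
        Complex.I • fderiv ℝ T.Θ (x, h) (Y, -S (L.a x Y)) =
        fderiv ℝ T.Θ (x, h) (X₁, -S (L.a x X₁)) := e
    rw [e3, e3, e3] at e4
    rw [e1, e1, e2, T.vert_smul hx hh, e0 X₁ f]
    linear_combination (norm := module) e4

theorem LT.crv_free (hx : x ∈ L.U) (hb : b ≠ 0) : P.VeryFree (T.crv b x) := by
  intro a ha a' ha'
  have hb' := anti_ne hb
  have g1 : ((1, 0) : ℂ × ℂ).1 • b + ((1, 0) : ℂ × ℂ).2 • anti b = b := by simp
  have g2 : ((0, 1) : ℂ × ℂ).1 • b + ((0, 1) : ℂ × ℂ).2 • anti b = anti b := by simp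
  unfold LT.crv at ha ha'
  rw [g1] at ha
  rw [g2] at ha'
  obtain ⟨⟨X₁, f₁⟩, rfl⟩ := (T.tan (x, b) ⟨hx, hb⟩ a).1 ha
  obtain ⟨⟨X₂, f₂⟩, rfl⟩ := (T.tan (x, anti b) ⟨hx, hb'⟩ a').1 ha'
  obtain ⟨H, hH, kH⟩ := T.FV_hor hx hb
  obtain ⟨H', hH', kH'⟩ := T.FV_hor hx hb'
  obtain ⟨X, Y, h1, h2⟩ := (L.quat hx).two_pt H H' (zv_ne hb) (zv_null b) hH
    (fun Y => by simpa only [zv_anti] using hH' Y) X₁ X₂
  obtain ⟨e₁, he₁⟩ := kH X₁ X Y f₁ h1
  obtain ⟨e₂, he₂⟩ := kH' X₂ X Y f₂ h2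
  refine ⟨fun v => fderiv ℝ T.Θ (x, v.1 • b + v.2 • anti b) (X, 0) +
    Complex.I • fderiv ℝ T.Θ (x, v.1 • b + v.2 • anti b) (Y, 0) +
    v.1 • fderiv ℝ T.Θ (x, v.1 • b + v.2 • anti b) (0, e₁) +
    v.2 • fderiv ℝ T.Θ (x, v.1 • b + v.2 • anti b) (0, e₂), ⟨?_, ?_, ?_⟩, ?_, ?_⟩
  · intro v hv
    have d : ∀ w, DifferentiableAt ℂ
        (fun v : ℂ × ℂ => fderiv ℝ T.Θ (x, v.1 • b + v.2 • anti b) w) v := fun w =>
      (T.hol_deriv hx (comb_ne hb hv) w).comp v (f := fun v : ℂ × ℂ => v.1 • b + v.2 • anti b)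
        ((differentiableAt_fst.smul_const b).add (differentiableAt_snd.smul_const (anti b)))
    exact ((((d _).add ((d _).const_smul Complex.I)).add (differentiableAt_fst.smul (d _))).add
      (differentiableAt_snd.smul (d _))).differentiableWithinAt
  · intro l hl v hv
    have hg := comb_ne hb hv
    have g3 : (l • v).1 • b + (l • v).2 • anti b = l • (v.1 • b + v.2 • anti b) := by
      rw [Prod.smul_fst, Prod.smul_snd, smul_add, smul_assoc, smul_assoc]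
    have k1 : ∀ Z : E n, fderiv ℝ T.Θ (x, l • (v.1 • b + v.2 • anti b)) (Z, 0) =
        act P.w (l ^ 2) (fderiv ℝ T.Θ (x, v.1 • b + v.2 • anti b) (Z, 0)) := fun Z => by
      rw [← T.hom_deriv hx hg hl, smul_zero]
    have k2 : ∀ (c : ℂ) (e : ℂ × ℂ),
        (l • c) • fderiv ℝ T.Θ (x, l • (v.1 • b + v.2 • anti b)) (0, e) =
        c • act P.w (l ^ 2) (fderiv ℝ T.Θ (x, v.1 • b + v.2 • anti b) (0, e)) := fun c e => by
      rw [← T.hom_deriv hx hg hl, T.vert_smul hx (smul_ne_zero hl hg), smul_smul, smul_eq_mul,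
        mul_comm]
    simp only [g3]
    rw [Prod.smul_fst, Prod.smul_snd, k1, k1, k2, k2, map_add, map_add, map_add, map_smul, map_smul,
      map_smul]
  · intro v hv
    have m : ∀ w, fderiv ℝ T.Θ (x, v.1 • b + v.2 • anti b) w ∈ P.T (T.crv b x v) := fun w =>
      (T.tan (x, v.1 • b + v.2 • anti b) ⟨hx, comb_ne hb hv⟩ _).2 ⟨w, rfl⟩
    exact add_mem (add_mem (add_mem (m _) (Submodule.smul_mem _ _ (m _)))
      (Submodule.smul_mem _ _ (m _))) (Submodule.smul_mem _ _ (m _))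
  · simp only [g1]
    rw [one_smul, zero_smul, add_zero, he₁]
  · simp only [g2]
    rw [one_smul, zero_smul, add_zero, he₂]

end Vale.Agent.P292
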