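import Vale.Agent.P292.FC
import Vale.Agent.P292.FV

/-! The moment map at a good point. -/

set_option maxSynthPendingDepth 3

open scoped ContDiff Topology
open Set Filter Asymptotics

noncomputable section

namespace Vale.Agent.P292

open Vale.Agent.P219 (E)
open Vale.Agent.P219.R (Bil ip chr Good PD)

variable {κ : Type} [Fintype κ] {n : ℕ} {L : LQ n} {P : Pre κ} (T : LT L P)
  {x : E n} {b : ℂ × ℂ}

theorem FM_cda {y : E n} (hy : y ∈ L.U) (hb : b ≠ 0) (s : ℂ) :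
    ContDiffAt ℝ ∞ (fun z => T.crv b z (1, s)) y :=
  (T.cda hy (comb_ne (v := (1, s)) hb fun h => one_ne_zero (congrArg Prod.fst h))).comp y
    (contDiffAt_id.prodMk contDiffAt_const)

theorem LT.exists_mu (hx : x ∈ L.U) (hb : b ≠ 0) (hg : P.GoodPt (T.Θ (x, b))) :
    ∃ (K : (κ → ℂ) → ℂ) (W : Set (E n)) (μ : E n → Fin 3 → ℂ), AnalyticAt ℂ K (T.Θ (x, b)) ∧
      IsOpen W ∧ x ∈ W ∧ W ⊆ L.U ∧ ContDiffOn ℝ ∞ μ W ∧
      (∀ᶠ p in 𝓝 (x, b), K (T.Θ p) = μ p.1 ⬝ᵥ zv p.2) ∧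
      ∀ (X : E n) (e : ℂ × ℂ), (fun t : ℝ => μ (x + t • X) ⬝ᵥ zv (b + t • e) -
        (t : ℂ) ^ 2 * wg b (e + sp (L.a x X) b) ^ 2) =o[𝓝 0] fun t : ℝ => t ^ 2 := by
  obtain ⟨K, δ, hK, hδ, H1, H2⟩ := hg _ (T.crv_curve hx hb) (T.crv_one b x) (T.crv_theta hx hb)
    (T.crv_free hx hb)
  have hU : ∀ᶠ y in 𝓝 x, y ∈ L.U := L.good.isOpen.mem_nhds hx
  have hs : ∀ᶠ s in 𝓝 (0 : ℂ), AnalyticAt ℂ K (T.crv b x (1, s)) ∧ ‖s‖ < δ := by
    have h1 : Tendsto (fun s : ℂ => (x, (1 : ℂ) • b + s • anti b)) (𝓝 0) (𝓝 (x, b)) :=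
      Continuous.tendsto' (by fun_prop) _ _ (by rw [one_smul, zero_smul, add_zero])
    refine (((T.cda hx hb).continuousAt.tendsto.comp h1).eventually hK.eventually_analyticAt).and ?_
    exact continuous_norm.continuousAt.eventually_lt continuousAt_const (by rwa [norm_zero])
  obtain ⟨s, ⟨⟨k1, k2⟩, k3, -⟩, hs0⟩ := (((hs.and ((continuous_neg.tendsto' (0 : ℂ) 0
    neg_zero).eventually hs)).filter_mono nhdsWithin_le_nhds).and
    (self_mem_nhdsWithin (s := {0}ᶜ))).exists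
  have k0 := hs.self_of_nhds.1
  have ev : ∀ σ : ℂ, AnalyticAt ℂ K (T.crv b x (1, σ)) →
      ∀ᶠ y in 𝓝 x, ContDiffAt ℝ ∞ (fun z => K (T.crv b z (1, σ))) y := fun σ h => by
    filter_upwards [hU, (FM_cda T hx hb σ).continuousAt.eventually h.eventually_analyticAt]
      with y h1 h2
    exact (h2.contDiffAt.restrict_scalars ℝ).comp y (FM_cda T h1 hb σ)
  obtain ⟨W, hW, hWo, hxW⟩ := eventually_nhds_iff.1
    (hU.and ((ev 0 k0).and ((ev s k1).and (ev (-s) k3))))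
  obtain ⟨m₀, m₁, m₂, hm⟩ := zv_quad hb
  obtain ⟨φ, hφ, hφ'⟩ := comb_coord hb
  obtain ⟨μ, hμ⟩ : ∃ μ : E n → Fin 3 → ℂ, μ = fun y => K (T.crv b y (1, 0)) • m₀ +
      ((K (T.crv b y (1, s)) - K (T.crv b y (1, -s))) * (2 * s)⁻¹) • m₁ +
      ((K (T.crv b y (1, s)) + K (T.crv b y (1, -s)) - 2 * K (T.crv b y (1, 0))) *
        (2 * s ^ 2)⁻¹) • m₂ := ⟨_, rfl⟩
  have he : ∀ᶠ p : E n × ℂ × ℂ in 𝓝 (x, b), K (T.Θ p) = μ p.1 ⬝ᵥ zv p.2 := by
    have h1 : ∀ᶠ p : E n × ℂ × ℂ in 𝓝 (x, b), ‖φ p.2 - (1, 0)‖ < δ :=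
      ContinuousAt.eventually_lt (by fun_prop) continuousAt_const
        (by rwa [hφ, sub_self, norm_zero])
    filter_upwards [h1, continuous_fst.continuousAt.eventually (hU.and (T.crv_close hx hb hδ))]
      with ⟨y, h⟩ t1 t2
    obtain ⟨A, B, C, h3⟩ := H1 _ (T.crv_curve t2.1 hb) t2.2
    have n1 : ∀ σ : ℂ, ‖σ‖ < δ → ‖((1, σ) : ℂ × ℂ) - (1, 0)‖ < δ := fun σ h => by
      simpa using h
    have t3 := h3 _ t1
    have t4 := hm (φ h)
    unfold LT.crv at t3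
    rw [hφ'] at t3 t4
    have hs0' : s ≠ 0 := hs0
    simp only [hμ]
    rw [t3, h3 _ (n1 0 (by rwa [norm_zero])), h3 _ (n1 s k2), h3 _ (n1 (-s) (by rwa [norm_neg])),
      add_dotProduct, add_dotProduct, smul_dotProduct, smul_dotProduct, smul_dotProduct, t4.1,
      t4.2.1, t4.2.2]
    simp only [smul_eq_mul]
    field_simp
    ring
  refine ⟨K, W, μ, hK, hWo, hxW, fun y hy => (hW y hy).1, fun y hy => ?_, he, fun X e => ?_⟩
  · obtain ⟨-, a0, a1, a2⟩ := hW y hy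
    rw [hμ]
    exact (((a0.smul contDiffAt_const).add (((a1.sub a2).mul contDiffAt_const).smul
      contDiffAt_const)).add ((((a1.add a2).sub (contDiffAt_const.mul a0)).mul
        contDiffAt_const).smul contDiffAt_const)).contDiffWithinAt
  · have h1 : HasDerivAt (fun t : ℝ => ((x, b) : E n × ℂ × ℂ) + t • (X, e)) (X, e) 0 := by
      simpa using ((hasDerivAt_id (0 : ℝ)).smul_const ((X, e) : E n × ℂ × ℂ)).const_add (x, b)
    have h0 : ((x, b) : E n × ℂ × ℂ) + (0 : ℝ) • (X, e) = (x, b) := by rw [zero_smul, add_zero]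
    have h2 := h1.continuousAt.tendsto
    rw [h0] at h2
    have h3 := H2 (fun t : ℝ => T.Θ ((x, b) + t • (X, e))) _ (by rw [h0])
      ((h2.eventually ((L.good.isOpen.prod isOpen_compl_singleton).mem_nhds ⟨hx, hb⟩)).mono
        fun t ht => T.mem _ ht)
      (((T.cda hx hb).differentiableAt (by simp)).hasFDerivAt.comp_hasDerivAt_of_eq 0 h1 h0.symm)
    rw [T.θ x hx b hb] at h3
    refine h3.congr' ((h2.eventually he).mono fun t ht => ?_) EventuallyEq.rfl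
    exact congrArg (· - _) ht

end Vale.Agent.P292
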