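import Vale.Agent.P292.FDefs

/-! The Christoffel map and the curvature as multilinear maps. -/

set_option maxSynthPendingDepth 3

open scoped ContDiff Topology
open Set Filter Asymptotics

noncomputable section

namespace Vale.Agent.P292

open Vale.Agent.P219 (E)
open Vale.Agent.P219.R (Bil ip chr Good PD)

section General

variable {V : Type} [NormedAddCommGroup V] [NormedSpace ℝ V] [FiniteDimensional ℝ V]
  {Γ : V → V →L[ℝ] V →L[ℝ] V} {U : Set V}

theorem curvOm_smooth (hU : IsOpen U) (hΓ : ContDiffOn ℝ ∞ Γ U) :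
    ContDiffOn ℝ ∞ (curvOm Γ) U := by
  have hD : ContDiffOn ℝ ∞ (fderiv ℝ Γ) U := hΓ.fderiv_of_isOpen hU (by simp)
  refine contDiffOn_clm_apply.2 fun u => contDiffOn_clm_apply.2 fun v =>
    contDiffOn_clm_apply.2 fun w => ?_
  simp only [curvOm_apply]
  have h1 : ∀ u v, ContDiffOn ℝ ∞ (fun y => fderiv ℝ Γ y u v w) U := fun u v =>
    ((hD.clm_apply contDiffOn_const).clm_apply contDiffOn_const).clm_apply contDiffOn_const
  have h2 : ∀ u v, ContDiffOn ℝ ∞ (fun y => Γ y u (Γ y v w)) U := fun u v =>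
    (hΓ.clm_apply contDiffOn_const).clm_apply
      ((hΓ.clm_apply contDiffOn_const).clm_apply contDiffOn_const)
  exact (((h1 u v).sub (h1 v u)).add (h2 u v)).sub (h2 v u)

theorem covT_cont (hU : IsOpen U) (hΓ : ContDiffOn ℝ ∞ Γ U) (a u v w : V) :
    ContinuousOn (fun y => covT Γ (curvOm Γ) y a u v w) U := by
  have hR := curvOm_smooth hU hΓ
  have hD : ContDiffOn ℝ ∞ (fderiv ℝ (curvOm Γ)) U := hR.fderiv_of_isOpen hU (by simp)
  have hc : ∀ u, ContDiffOn ℝ ∞ (fun _ : V => u) U := fun u : V => contDiffOn_const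
  have h1 : ∀ u, ContDiffOn ℝ ∞ (fun y => Γ y a u) U := fun u =>
    (hΓ.clm_apply (hc a)).clm_apply (hc u)
  have h2 : ∀ {p q r : V → V}, ContDiffOn ℝ ∞ p U → ContDiffOn ℝ ∞ q U → ContDiffOn ℝ ∞ r U →
      ContDiffOn ℝ ∞ (fun y => curvOm Γ y (p y) (q y) (r y)) U := fun hp hq hr =>
    ((hR.clm_apply hp).clm_apply hq).clm_apply hr
  exact (((((((((hD.clm_apply (hc a)).clm_apply (hc u)).clm_apply (hc v)).clm_apply (hc w)).add
    ((hΓ.clm_apply (hc a)).clm_apply (h2 (hc u) (hc v) (hc w)))).sub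
    (h2 (h1 u) (hc v) (hc w))).sub (h2 (hc u) (h1 v) (hc w))).sub
    (h2 (hc u) (hc v) (h1 w)))).continuousOn

theorem fo_fd {W X : Type} [NormedAddCommGroup W] [NormedSpace ℝ W] [NormedAddCommGroup X]
    [NormedSpace ℝ X] {n : ℕ} {R : E n → W →L[ℝ] X} {y : E n} (hR : DifferentiableAt ℝ R y)
    (a : E n) (u : W) : fderiv ℝ (fun z => R z u) y a = fderiv ℝ R y a u := by
  rw [fderiv_clm_apply hR (differentiableAt_const u)]
  simp

end General

variable {n : ℕ} {G : E n → Bil n} {U : Set (E n)} {y : E n}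

theorem om_apply (h : Good G U) (hy : y ∈ U) (u v : E n) : om G y u v = chr G y u v := by
  let B : E n →ₗ[ℝ] E n →ₗ[ℝ] E n := LinearMap.mk₂ ℝ (chr G y) (h.c1_add_left hy)
    (h.c1_smul_left hy) (h.chr_add hy) (h.chr_smul hy)
  have hB : ∀ u v, chr G y u v = B u v := fun _ _ => rfl
  conv_rhs => rw [hB, ← P219.R.c0_sum u, ← P219.R.c0_sum v]
  simp only [om, hB, _root_.sum_apply, ContinuousLinearMap.smulRight_apply,
    _root_.smul_apply, map_sum, map_smul, LinearMap.sum_apply, LinearMap.smul_apply,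
    Finset.smul_sum, PiLp.proj_apply]
  rw [Finset.sum_comm]
  exact Finset.sum_congr rfl fun i _ => Finset.sum_congr rfl fun j _ => smul_comm _ _ _

theorem om_smooth (h : Good G U) : ContDiffOn ℝ ∞ (om G) U := by
  refine contDiffOn_clm_apply.2 fun u => contDiffOn_clm_apply.2 fun v => ?_
  have h1 : ContDiffOn ℝ ∞ (fun z : E n => chr G z u v) U :=
    h.chr_smooth.comp (f := fun z : E n => (z, u, v)) (by fun_prop) fun z hz => ⟨hz, trivial⟩
  exact h1.congr fun z hz => om_apply h hz u v

theorem cv_apply (h : Good G U) (hy : y ∈ U) (ξ : E n → E n) (X : E n) :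
    cv G ξ y X = fderiv ℝ ξ y X + chr G y X (ξ y) := by
  simp [cv, om_apply h hy]

/-- the Koszul formula -/
theorem om_koszul (h : Good G U) (hy : y ∈ U) (u v w : E n) :
    2 * G y (om G y u v) w = fderiv ℝ G y u v w + fderiv ℝ G y v u w - fderiv ℝ G y w u v := by
  have h1 := h.ip_chr hy u v w
  rw [h.dG_eq hy, h.dG_eq hy, h.dG_eq hy, ← om_apply h hy] at h1
  simp only [ip, P219.R.c0D] at h1
  linarith

theorem fo_symm (h : Good G U) (hy : y ∈ U) (a u v : E n) :
    fderiv ℝ G y a u v = fderiv ℝ G y a v u := by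
  have h1 := h.dG_symm hy a u v
  rwa [h.dG_eq hy, h.dG_eq hy] at h1

/-- the connection is metric -/
theorem om_metric (h : Good G U) (hy : y ∈ U) (a u v : E n) :
    fderiv ℝ G y a u v = G y (om G y a u) v + G y u (om G y a v) := by
  have h1 := om_koszul h hy a u v
  have h2 := om_koszul h hy a v u
  have h3 := fo_symm h hy
  rw [(h.pos y hy).symm u]
  linarith [h3 a v u, h3 u a v, h3 v a u]

theorem riem_om (h : Good G U) (hy : y ∈ U) (u v w : E n) :
    St.riem (fun z u v => ip (G z) u v) y u v w = curvOm (om G) y u v w := by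
  have h1 : ∀ a u v, lineDeriv ℝ (fun z => St.chr (fun z u v => ip (G z) u v) z u v) y a =
      fderiv ℝ (om G) y a u v := fun a u v => by
    have h2 : (fun z => St.chr (fun z u v => ip (G z) u v) z u v) =ᶠ[𝓝 y] fun z => om G z u v := by
      filter_upwards [h.isOpen.mem_nhds hy] with z hz
      exact (om_apply h hz u v).symm
    have h3 := ((om_smooth h).contDiffAt (h.isOpen.mem_nhds hy)).differentiableAt (by simp)
    have h4 := h3.clm_apply (differentiableAt_const u)
    rw [h2.lineDeriv_eq, (h4.clm_apply (differentiableAt_const v)).lineDeriv_eq_fderiv,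
      fo_fd h4, fo_fd h3]
  rw [curvOm_apply, St.riem, h1, h1]
  simp only [om_apply h hy]
  rfl

theorem covRiem_om (h : Good G U) (hy : y ∈ U) (a u v w : E n) :
    St.covRiem (fun z u v => ip (G z) u v) y a u v w =
      covT (om G) (curvOm (om G)) y a u v w := by
  have h2 : (fun z => St.riem (fun z u v => ip (G z) u v) z u v w) =ᶠ[𝓝 y]
      fun z => curvOm (om G) z u v w := by
    filter_upwards [h.isOpen.mem_nhds hy] with z hz
    exact riem_om h hz u v w
  have h3 := ((curvOm_smooth h.isOpen (om_smooth h)).contDiffAt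
    (h.isOpen.mem_nhds hy)).differentiableAt (by simp)
  have h4 := h3.clm_apply (differentiableAt_const u)
  have h5 := h4.clm_apply (differentiableAt_const v)
  rw [St.covRiem, covT, h2.lineDeriv_eq,
    (h5.clm_apply (differentiableAt_const w)).lineDeriv_eq_fderiv, fo_fd h5, fo_fd h4, fo_fd h3]
  simp only [riem_om h hy, om_apply h hy]
  rfl

end Vale.Agent.P292
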