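import Vale.Agent.P292.FC0

/-! The twistor equation. -/

set_option maxSynthPendingDepth 3

open scoped ContDiff Topology
open Set Filter Asymptotics

noncomputable section

namespace Vale.Agent.P292

open Vale.Agent.P219 (E)
open Vale.Agent.P219.R (Bil ip chr Good PD)

variable {κ : Type} [Fintype κ] {n : ℕ} {L : LQ n} {P : Pre κ} (T : LT L P)
  {x : E n} {b : ℂ × ℂ}

theorem FT_pt (l : ℂ →L[ℝ] ℝ) : ∃ A : (Fin 3 → ℂ) →L[ℝ] Fin 3 → ℝ, ∀ z, pt l z = A z :=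
  ⟨ContinuousLinearMap.pi fun k => l.comp (ContinuousLinearMap.proj k), fun _ => rfl⟩

theorem LQ.nab_pt (L : LQ n) (l : ℂ →L[ℝ] ℝ) {μ : E n → Fin 3 → ℂ} {y : E n}
    (hμ : DifferentiableAt ℝ μ y) (X : E n) (k : Fin 3) :
    L.nab (fun z => pt l (μ z)) y X k = l (L.nabC μ y X k) := by
  obtain ⟨A, hA⟩ := FT_pt l
  have h1 : fderiv ℝ (fun z => pt l (μ z)) y X = pt l (fderiv ℝ μ y X) := by
    simp only [hA]
    exact congrArg (· X) (A.hasFDerivAt.comp y hμ.hasFDerivAt).fderiv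
  have h2 : ∀ (a : ℝ) (z : ℂ), l (a * z) = a * l z := fun a z => by
    rw [← Complex.real_smul, map_smul, smul_eq_mul]
  unfold LQ.nab LQ.nabC
  rw [h1, Pi.add_apply, Pi.add_apply, map_add]
  congr 1
  fin_cases k <;> simp [cross_apply, cx, pt, h2]

theorem pt_smooth (l : ℂ →L[ℝ] ℝ) {μ : E n → Fin 3 → ℂ} {W : Set (E n)}
    (hμ : ContDiffOn ℝ ∞ μ W) : ContDiffOn ℝ ∞ (fun z => pt l (μ z)) W := by
  obtain ⟨A, hA⟩ := FT_pt l
  simp only [hA]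
  exact A.contDiff.comp_contDiffOn hμ

theorem FT_line {V : Type} [NormedAddCommGroup V] [NormedSpace ℝ V] (p v : V) :
    HasDerivAt (fun t : ℝ => p + t • v) v 0 := by
  simpa using ((hasDerivAt_id (0 : ℝ)).smul_const v).const_add p

theorem FT_deriv {Θ : E n × ℂ × ℂ → κ → ℂ} {K : (κ → ℂ) → ℂ} {μ : E n → Fin 3 → ℂ} {y : E n}
    {h : ℂ × ℂ} (hΘ : DifferentiableAt ℝ Θ (y, h)) (hK : DifferentiableAt ℂ K (Θ (y, h)))
    (hμ : DifferentiableAt ℝ μ y) (he : ∀ᶠ p in 𝓝 (y, h), K (Θ p) = μ p.1 ⬝ᵥ zv p.2) (X : E n)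
    (e : ℂ × ℂ) : fderiv ℂ K (Θ (y, h)) (fderiv ℝ Θ (y, h) (X, e)) =
      fderiv ℝ μ y X ⬝ᵥ zv h + μ y ⬝ᵥ zd h e := by
  have h1 : HasFDerivAt (fun p => K (Θ p)) _ (y, h) :=
    (hK.hasFDerivAt.restrictScalars ℝ).comp (y, h) hΘ.hasFDerivAt
  have h2 := (h1.congr_of_eventuallyEq (EventuallyEq.symm he)).comp_hasDerivAt_of_eq 0
    (FT_line (y, h) (X, e)) (by rw [zero_smul, add_zero])
  have h3 := hμ.hasFDerivAt.comp_hasDerivAt_of_eq 0 (FT_line y X) (by rw [zero_smul, add_zero])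
  have h4 := (zv_contDiff.differentiable (by simp) h).hasFDerivAt.comp_hasDerivAt_of_eq 0
    (FT_line h e) (by rw [zero_smul, add_zero])
  have h5 := HasDerivAt.fun_sum (u := Finset.univ) fun k _ =>
    (hasDerivAt_pi.1 h3 k).fun_mul (hasDerivAt_pi.1 h4 k)
  refine (h2.unique h5).trans ?_
  simp only [Function.comp_apply, zero_smul, add_zero, zv_fderiv, dotProduct,
    Finset.sum_add_distrib]

theorem LT.twistor_eq (hx : x ∈ L.U) (hb : b ≠ 0) {K : (κ → ℂ) → ℂ}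
    (hK : AnalyticAt ℂ K (T.Θ (x, b))) {W : Set (E n)} (hW : W ∈ 𝓝 x) {μ : E n → Fin 3 → ℂ}
    (hμ : ContDiffOn ℝ ∞ μ W) (he : ∀ᶠ p in 𝓝 (x, b), K (T.Θ p) = μ p.1 ⬝ᵥ zv p.2) :
    ∀ᶠ y in 𝓝 x, ∀ Y, L.nabC μ y (L.I 0 y Y) 0 = L.nabC μ y (L.I 1 y Y) 1 ∧
      L.nabC μ y (L.I 1 y Y) 1 = L.nabC μ y (L.I 2 y Y) 2 := by
  have h1 : ∀ᶠ p : E n × ℂ × ℂ in 𝓝 (x, b), p.1 ∈ L.U :=
    continuous_fst.continuousAt.eventually (L.good.isOpen.mem_nhds hx)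
  have h2 : ∀ᶠ p : E n × ℂ × ℂ in 𝓝 (x, b), p.2 ≠ 0 := continuous_snd.continuousAt.eventually_ne hb
  have h3 : ∀ᶠ p : E n × ℂ × ℂ in 𝓝 (x, b), W ∈ 𝓝 p.1 :=
    continuous_fst.continuousAt.eventually (eventually_mem_nhds_iff.2 hW)
  have h4 := (T.cda hx hb).continuousAt.eventually hK.eventually_analyticAt
  have h5 : ∀ᶠ p : E n × ℂ × ℂ in 𝓝 (x, b), ∀ Y,
      ∑ k, zv p.2 k * (L.nabC μ p.1 (L.I k p.1 Y) ⬝ᵥ zv p.2) = 0 := by
    filter_upwards [h1, h2, h3, h4, he.eventually_nhds] with ⟨y, h⟩ k1 k2 k3 k4 k5 Y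
    have k6 := FT_deriv ((T.cda k1 k2).differentiableAt (by simp)) k4.differentiableAt
      ((hμ.contDiffAt k3).differentiableAt (by simp)) k5
    have k7 := congrArg (fderiv ℂ K (T.Θ (y, h))) (T.hor y k1 h k2 Y)
    rw [map_sum, map_zero] at k7
    refine Eq.trans (Finset.sum_congr rfl fun k _ => ?_) k7
    rw [map_smul, smul_eq_mul, k6, zd_neg, zd_sp, LQ.nabC, add_dotProduct, dotProduct_neg,
      triple_product_permutation, triple_product_permutation, ← dotProduct_neg, cross_anticomm,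
      dotProduct_comm (zv h)]
  rw [nhds_prod_eq] at h5
  filter_upwards [h5.curry] with y hy Y
  exact zv_quartic (fun k => L.nabC μ y (L.I k y Y)) b (hy.mono fun e he => he Y)

end Vale.Agent.P292
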