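import Vale.Agent.P292.FK
import Vale.Agent.P292.FT

/-! The Killing field at the base point. -/

set_option maxSynthPendingDepth 3

open scoped ContDiff Topology
open Set Filter Asymptotics

noncomputable section

namespace Vale.Agent.P292

open Vale.Agent.P219 (E)
open Vale.Agent.P219.R (Bil ip chr Good PD)

variable {n : ℕ} {L : LQ n} {μ : E n → Fin 3 → ℂ} {x : E n} {b : ℂ × ℂ}

theorem FP_da (hx : x ∈ L.U) (hμ : ContDiffOn ℝ ∞ μ L.U) : DifferentiableAt ℝ μ x :=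
  FX_da L hμ hx

theorem FP_dot (hj : Jet μ x b fun X => sp (L.a x X) b) (X : E n) (e : ℂ × ℂ) :
    L.nabC μ x X ⬝ᵥ zd b e = 0 := by
  rw [LQ.nabC, hj.val, map_smul, ← zd_sp, add_dotProduct, hj.mix, smul_dotProduct, zd_dot,
    smul_eq_mul]
  ring

theorem FP_hat (y : E n) (q : Fin 3 → ℝ) (X Y : E n) : ip (L.G y) X (hat (L.fr y) q Y) =
    q 0 * ip (L.G y) X (L.I 0 y Y) + q 1 * ip (L.G y) X (L.I 1 y Y) +
      q 2 * ip (L.G y) X (L.I 2 y Y) := by
  simp only [hat_apply, P219.R.ip_add_right, P219.R.ip_smul_right]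

/-- the moment map is parallel at the base point -/
theorem LQ.Pot.zero (hx : x ∈ L.U) (hb : b ≠ 0) (hμ : ContDiffOn ℝ ∞ μ L.U)
    (hj : Jet μ x b fun X => sp (L.a x X) b) (l : ℂ →L[ℝ] ℝ) {ξ : E n → E n}
    (h : L.Pot (fun z => pt l (μ z)) ξ) : ξ x = 0 := by
  obtain ⟨r, hr, he⟩ := zd_anti hb
  refine P219.R.ip_ext (L.good.pos x hx) fun v => ?_
  obtain ⟨X, rfl⟩ := (L.quat hx).hat_surj hr v
  have h1 := congrArg l (FP_dot hj X (anti b))
  have h2 : ∀ (z : ℂ) (t : ℝ), l (z * t) = t * l z := fun z t => by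
    rw [mul_comm, ← Complex.real_smul, map_smul, smul_eq_mul]
  rw [he] at h1
  simp only [dotProduct, Fin.sum_univ_three, cx, map_add, h2, map_zero] at h1
  rw [FP_hat, ← h.eq x hx, ← h.eq x hx, ← h.eq x hx, L.nab_pt l (FP_da hx hμ),
    L.nab_pt l (FP_da hx hμ), L.nab_pt l (FP_da hx hμ), h1, P219.R.ip_zero_left]

/-- the real or imaginary part as a linear map -/
def FP_L (l : ℂ →L[ℝ] ℝ) : (Fin 3 → ℂ) →L[ℝ] Fin 3 → ℝ :=
  ContinuousLinearMap.pi fun k => l.comp (ContinuousLinearMap.proj k)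

theorem FP_d1 (l : ℂ →L[ℝ] ℝ) {y : E n} (hμ : DifferentiableAt ℝ μ y) (X : E n) :
    fderiv ℝ (fun z => pt l (μ z)) y X = pt l (fderiv ℝ μ y X) := by
  have h1 := ((FP_L l).hasFDerivAt.comp y hμ.hasFDerivAt).fderiv
  exact congrArg (fun A : E n →L[ℝ] Fin 3 → ℝ => A X) h1

theorem FP_d2 (l : ℂ →L[ℝ] ℝ) (hx : x ∈ L.U) (hμ : ContDiffOn ℝ ∞ μ L.U) (X Y : E n) :
    fderiv ℝ (fderiv ℝ fun z => pt l (μ z)) x X Y = pt l (fderiv ℝ (fderiv ℝ μ) x X Y) := by
  have h1 := (FX_line (FX_da L (FX_fd L (pt_smooth l hμ)) hx) X).clm_apply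
    (hasDerivAt_const (0 : ℝ) Y)
  have h2 := (FX_line (FX_da L (hμ.fderiv_of_isOpen (m := ∞) L.good.isOpen (by simp)) hx)
    X).clm_apply (hasDerivAt_const (0 : ℝ) Y)
  have h3 := (FP_L l).hasFDerivAt.comp_hasDerivAt (0 : ℝ) h2
  have h4 : ∀ᶠ t : ℝ in 𝓝 0, x + t • X ∈ L.U :=
    (P219.R.c1_line x X).continuousAt.eventually
      (L.good.isOpen.mem_nhds (by simpa using hx))
  have h5 := h1.unique (h3.congr_of_eventuallyEq
    (h4.mono fun t ht => FP_d1 l (FX_da L hμ ht) Y))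
  simp only [map_zero, add_zero] at h5
  exact h5

theorem FP_cross (l : ℂ →L[ℝ] ℝ) (a : Fin 3 → ℝ) (z : Fin 3 → ℂ) :
    crossProduct a (pt l z) = pt l (crossProduct (cx a) z) := by
  have h2 : ∀ (z : ℂ) (t : ℝ), l (t * z) = t * l z := fun z t => by
    rw [← Complex.real_smul, map_smul, smul_eq_mul]
  ext k
  fin_cases k <;> simp [cross_apply, pt, cx, h2]

/-- the second order expression -/
def FP_w (L : LQ n) (μ : E n → Fin 3 → ℂ) (x X : E n) : Fin 3 → ℂ :=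
  fderiv ℝ (fderiv ℝ μ) x X X + crossProduct (cx (fderiv ℝ L.a x X X)) (μ x) +
    crossProduct (cx (L.a x X)) (fderiv ℝ μ x X)

theorem FP_cv (hx : x ∈ L.U) (hμ : ContDiffOn ℝ ∞ μ L.U) (l : ℂ →L[ℝ] ℝ) {ξ : E n → E n}
    (h : L.Pot (fun z => pt l (μ z)) ξ) (h0 : ξ x = 0) (X : E n) (k : Fin 3) :
    ip (L.G x) (cv L.G ξ x X) (L.I k x X) = l (FP_w L μ x X k) := by
  have h1 := h.fderiv_nab hx X X k
  have h2 : ∀ Y, L.nab (fun z => pt l (μ z)) x Y = 0 := fun Y => funext fun k => by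
    rw [h.eq x hx, h0, P219.R.ip_zero_left, Pi.zero_apply]
  rw [h2, h2, map_zero, Pi.zero_apply, add_zero, add_zero, L.fderiv_nab h.μ_smooth hx,
    FP_d2 l hx hμ, FP_d1 l (FP_da hx hμ), FP_cross, FP_cross] at h1
  rw [← h1]
  simp [FP_w, pt]

theorem FP_w_dot (hj : Jet μ x b fun X => sp (L.a x X) b) {X : E n} (h0 : L.nabC μ x X = 0) :
    FP_w L μ x X ⬝ᵥ zv b = 0 := by
  have h1 : fderiv ℝ μ x X = (1 / 2 : ℂ) • crossProduct (cx (L.a x X)) (zv b) := by
    rw [LQ.nabC, hj.val, map_smul, add_eq_zero_iff_eq_neg] at h0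
    rw [h0, ← neg_smul]
    norm_num
  have h2 := zd_dot b (sp (L.a x X) b) (sp (L.a x X) b)
  rw [zd_sp] at h2
  have h3 : ∀ a z : Fin 3 → ℂ, crossProduct a (crossProduct a z) ⬝ᵥ z =
      -(crossProduct a z ⬝ᵥ crossProduct a z) := fun a z => by
    simp [cross_apply, dotProduct, Fin.sum_univ_three]
    ring
  rw [FP_w, add_dotProduct, add_dotProduct, hj.hor, hj.val, h1, map_smul, map_smul,
    smul_dotProduct, smul_dotProduct, h3, h2, dotProduct_comm, dot_cross_self]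
  simp only [smul_eq_mul]
  ring

theorem LQ.Pot.point (hx : x ∈ L.U) (hb : b ≠ 0) (hμ : ContDiffOn ℝ ∞ μ L.U)
    (hj : Jet μ x b fun X => sp (L.a x X) b) {ξ η : E n → E n}
    (h : L.Pot (fun z => pt Complex.reCLM (μ z)) ξ)
    (h' : L.Pot (fun z => pt Complex.imCLM (μ z)) η) :
    ∃ c : ℝ, c ≠ 0 ∧ ∀ X, fderiv ℝ ξ x (fderiv ℝ ξ x X) = -c • X := by
  have h0 := LQ.Pot.zero hx hb hμ hj _ h
  have h0' := LQ.Pot.zero hx hb hμ hj _ h'
  obtain ⟨ν, hν0, hν⟩ := L.curv x hx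
  have hA := L.good.pos x hx
  have hq := L.quat hx
  have hs : ∀ k u v, ip (L.G x) (L.fr x k u) v = -ip (L.G x) u (L.fr x k v) :=
    fun k => L.I_skew k x hx
  obtain ⟨n1, -, n3⟩ := null_pt (zv_ne hb) (zv_null b)
  have hn : ∀ X, L.nabC μ x X = 0 := fun X => funext fun k => by
    apply Complex.ext
    · have := h.eq x hx X k
      rw [L.nab_pt _ (FP_da hx hμ), h0, P219.R.ip_zero_left] at this
      exact this
    · have := h'.eq x hx X k
      rw [L.nab_pt _ (FP_da hx hμ), h0', P219.R.ip_zero_left] at this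
      exact this
  have hm : ∀ l : ℂ →L[ℝ] ℝ, pt l (μ x) = (-1 / 2 : ℝ) • pt l (zv b) := fun l => by
    ext k
    rw [hj.val, pt, Pi.smul_apply, Pi.smul_apply, pt, ← map_smul, ← Complex.coe_smul]
    norm_num
  have s1 := h.sym hx hν
  have s2 := h'.sym hx hν
  rw [hm, hat_smul, smul_smul] at s1 s2
  set u := pt Complex.reCLM (zv b) with hu
  set w := pt Complex.imCLM (zv b) with hw
  set B := cv L.G ξ x + (ν / 2 * (-1 / 2)) • hat (L.fr x) u with hB
  set B' := cv L.G η x + (ν / 2 * (-1 / 2)) • hat (L.fr x) w with hB'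
  have hsq : ∀ q X, ip (L.G x) (hat (L.fr x) q X) (hat (L.fr x) q X) =
      (q ⬝ᵥ q) * ip (L.G x) X X := fun q X => by
    rw [hat_skew hs, hq.hat_sq, P219.R.ip_smul_right]
    ring
  have q0 : ∀ X, ip (L.G x) (B X) (hat (L.fr x) u X) = ip (L.G x) (B' X) (hat (L.fr x) w X) := by
    intro X
    have e := congrArg Complex.re (FP_w_dot hj (hn X))
    simp only [hB, hB', add_apply, smul_apply, P219.R.ip_add_left, P219.R.ip_smul_left, hsq, n1]
    rw [FP_hat, FP_hat, FP_cv hx hμ _ h h0, FP_cv hx hμ _ h h0, FP_cv hx hμ _ h h0,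
      FP_cv hx hμ _ h' h0', FP_cv hx hμ _ h' h0', FP_cv hx hμ _ h' h0']
    simp only [dotProduct, Fin.sum_univ_three, Complex.add_re, Complex.mul_re,
      Complex.zero_re] at e
    simp only [hu, hw, pt, Complex.reCLM_apply, Complex.imCLM_apply]
    linarith
  have q1 : ∀ X, hat (L.fr x) u (B X) = hat (L.fr x) w (B' X) := fun X =>
    P219.R.ip_ext hA fun Y => by
      have e := q0 (X + Y)
      have t1 : ip (L.G x) (B Y) (hat (L.fr x) u X) = ip (L.G x) (B X) (hat (L.fr x) u Y) := by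
        rw [FP_hat, FP_hat, s1 0 X Y, s1 1 X Y, s1 2 X Y]
      have t2 : ip (L.G x) (B' Y) (hat (L.fr x) w X) = ip (L.G x) (B' X) (hat (L.fr x) w Y) := by
        rw [FP_hat, FP_hat, s2 0 X Y, s2 1 X Y, s2 2 X Y]
      simp only [map_add, P219.R.ip_add_left, P219.R.ip_add_right] at e
      rw [hat_skew hs, hat_skew hs]
      linarith [q0 X, q0 Y]
  have hz : B = 0 := hq.eq_zero (zv_ne hb) (zv_null b) B B' (hq.skew_of hA hs B s1).2
    (hq.skew_of hA hs B' s2).2 q1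
  have hd : ∀ X, fderiv ℝ ξ x X = (ν / 4) • hat (L.fr x) u X := fun X => by
    have e := congrArg (fun A : E n →L[ℝ] E n => A X) hz
    simp only [hB, cv, h0, map_zero, add_zero, add_apply, smul_apply, zero_apply] at e
    linear_combination (norm := module) e
  refine ⟨(ν / 4) ^ 2 * (u ⬝ᵥ u), by positivity, fun X => ?_⟩
  rw [hd, hd, map_smul, hq.hat_sq]
  module

end Vale.Agent.P292
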