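import Vale.Agent.P292.FO
import Vale.Agent.P292.FQ

/-! The vector field of a solution of the twistor equation. -/

set_option maxSynthPendingDepth 3

open scoped ContDiff Topology
open Set Filter Asymptotics

noncomputable section

namespace Vale.Agent.P292

open Vale.Agent.P219 (E)
open Vale.Agent.P219.R (Bil ip chr Good PD)

variable {n : ℕ} (L : LQ n) {μ : E n → Fin 3 → ℝ} {ξ : E n → E n} {y : E n}

/-- the cross product as a continuous bilinear map -/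
def FX_cr : (Fin 3 → ℝ) →L[ℝ] (Fin 3 → ℝ) →L[ℝ] Fin 3 → ℝ :=
  (crossProduct : (Fin 3 → ℝ) →ₗ[ℝ] (Fin 3 → ℝ) →ₗ[ℝ] Fin 3 → ℝ).toContinuousBilinearMap

theorem FX_line {V W : Type} [NormedAddCommGroup V] [NormedSpace ℝ V] [NormedAddCommGroup W]
    [NormedSpace ℝ W] {F : V → W} {y : V} (hF : DifferentiableAt ℝ F y) (X : V) :
    HasDerivAt (fun t : ℝ => F (y + t • X)) (fderiv ℝ F y X) 0 := by
  have h1 : HasDerivAt (fun t : ℝ => y + t • X) X 0 := by
    simpa using ((hasDerivAt_id (0 : ℝ)).smul_const X).const_add y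
  have h2 : HasFDerivAt F (fderiv ℝ F y) (y + (0 : ℝ) • X) := by simpa using hF.hasFDerivAt
  exact h2.comp_hasDerivAt (0 : ℝ) h1

theorem FX_fd (hμ : ContDiffOn ℝ ∞ μ L.U) : ContDiffOn ℝ ∞ (fderiv ℝ μ) L.U :=
  hμ.fderiv_of_isOpen L.good.isOpen (by simp)

theorem FX_da {W : Type} [NormedAddCommGroup W] [NormedSpace ℝ W] {F : E n → W}
    (hF : ContDiffOn ℝ ∞ F L.U) (hy : y ∈ L.U) : DifferentiableAt ℝ F y :=
  (hF.contDiffAt (L.good.isOpen.mem_nhds hy)).differentiableAt (by simp)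

theorem FX_nab_smooth (hμ : ContDiffOn ℝ ∞ μ L.U) {Y : E n → E n} (hY : ContDiffOn ℝ ∞ Y L.U) :
    ContDiffOn ℝ ∞ (fun z => L.nab μ z (Y z)) L.U :=
  ((FX_fd L hμ).clm_apply hY).add
    ((FX_cr.contDiff.comp_contDiffOn (L.a_smooth.clm_apply hY)).clm_apply hμ)

/-- `nab` as a linear map -/
def FX_nabL (μ : E n → Fin 3 → ℝ) (y : E n) : E n →L[ℝ] Fin 3 → ℝ :=
  fderiv ℝ μ y + (FX_cr.flip (μ y)).comp (L.a y)

theorem FX_nabL_apply (μ : E n → Fin 3 → ℝ) (y X : E n) : FX_nabL L μ y X = L.nab μ y X := rfl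

theorem LQ.exists_pot (hμ : ContDiffOn ℝ ∞ μ L.U)
    (h : ∀ y ∈ L.U, ∀ Y, L.nab μ y (L.I 0 y Y) 0 = L.nab μ y (L.I 1 y Y) 1 ∧
      L.nab μ y (L.I 1 y Y) 1 = L.nab μ y (L.I 2 y Y) 2) : ∃ ξ, L.Pot μ ξ := by
  let σ : E n → E n →L[ℝ] ℝ := fun y =>
    -((ContinuousLinearMap.proj 0).comp ((FX_nabL L μ y).comp (L.I 0 y)))
  have hσ : ∀ y Y, σ y Y = -L.nab μ y (L.I 0 y Y) 0 := fun y Y => rfl
  have hs : ContDiffOn ℝ ∞ σ L.U := by
    refine contDiffOn_clm_apply.2 fun Y => ?_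
    simp only [hσ]
    exact (contDiffOn_pi.1 (FX_nab_smooth L hμ ((L.I_smooth 0).clm_apply contDiffOn_const)) 0).neg
  refine ⟨fun y => (L.G y).inverse (σ y), hμ, fun y hy => ?_, fun y hy Y k => ?_⟩
  · have h1 := ((P219.R.c0_inv (L.good.pos y hy)).contDiffAt_map_inverse (n := ∞)).comp y
      (L.good.smooth.contDiffAt (L.good.isOpen.mem_nhds hy))
    exact h1.contDiffWithinAt.clm_apply (hs y hy)
  · have h1 : L.G y ((L.G y).inverse (σ y)) = σ y :=
      (P219.R.c0_inv (L.good.pos y hy)).self_apply_inverse _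
    have h2 : ∀ k, L.nab μ y (L.I k y (L.I k y Y)) k = -L.nab μ y Y k := fun k => by
      rw [L.I_sq k y hy, ← FX_nabL_apply, map_neg, FX_nabL_apply, Pi.neg_apply]
    rw [ip, h1, hσ, neg_eq_iff_eq_neg.2 (h2 k) |>.symm, neg_inj]
    fin_cases k
    · rfl
    · exact (h y hy _).1.symm
    · exact ((h y hy _).1.trans (h y hy _).2).symm

/-- the derivative of `nab` in coordinates -/
theorem LQ.fderiv_nab (hμ : ContDiffOn ℝ ∞ μ L.U) (hy : y ∈ L.U) (X Y : E n) :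
    fderiv ℝ (fun z => L.nab μ z Y) y X = fderiv ℝ (fderiv ℝ μ) y X Y +
      crossProduct (fderiv ℝ L.a y X Y) (μ y) + crossProduct (L.a y Y) (fderiv ℝ μ y X) := by
  have h1 := (FX_line (FX_da L (FX_fd L hμ) hy) X).clm_apply (hasDerivAt_const (0 : ℝ) Y)
  have h2 := (FX_line (FX_da L L.a_smooth hy) X).clm_apply (hasDerivAt_const (0 : ℝ) Y)
  have h3 := (FX_cr.hasFDerivAt.comp_hasDerivAt (0 : ℝ) h2).clm_apply (FX_line (FX_da L hμ hy) X)
  have h4 := FX_line (FX_da L (FX_nab_smooth L hμ (contDiffOn_const (c := Y))) hy) X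
  have h5 := h4.unique (h1.add h3)
  rw [h5]
  simp [FX_cr, add_assoc]

/-- the derivative of `nab` in terms of the vector field -/
theorem LQ.Pot.fderiv_nab {L : LQ n} (h : L.Pot μ ξ) (hy : y ∈ L.U) (X Y : E n) (k : Fin 3) :
    fderiv ℝ (fun z => L.nab μ z Y) y X k + crossProduct (L.a y X) (L.nab μ y Y) k =
      ip (L.G y) (cv L.G ξ y X) (L.I k y Y) + L.nab μ y (chr L.G y X Y) k := by
  have h1 := hasDerivAt_pi.1
    (FX_line (FX_da L (FX_nab_smooth L h.μ_smooth (contDiffOn_const (c := Y))) hy) X) k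
  have h2 := (FX_line (FX_da L (L.I_smooth k) hy) X).clm_apply (hasDerivAt_const (0 : ℝ) Y)
  have h3 := L.good.hasDerivAt_ip (x := fun t : ℝ => y + t • X) (by simpa using hy)
    (P219.R.c1_line y X) (FX_line (FX_da L h.ξ_smooth hy) X) h2
  have h4 : ∀ᶠ t : ℝ in 𝓝 0, y + t • X ∈ L.U :=
    (P219.R.c1_line y X).continuousAt.eventually
      (L.good.isOpen.mem_nhds (by simpa using hy))
  have h5 := h1.unique (h3.congr_of_eventuallyEq (h4.mono fun t ht => h.eq _ ht Y k))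
  simp only [zero_smul, add_zero, map_zero] at h5
  rw [h5, cv_apply L.good hy, sub_eq_iff_eq_add.1 (L.par k y hy X Y), h.eq y hy (chr L.G y X Y),
    P219.R.ip_add_right, Fin.sum_univ_three, P219.R.ip_add_right, P219.R.ip_add_right,
    P219.R.ip_smul_right, P219.R.ip_smul_right, P219.R.ip_smul_right, ← h.eq y hy Y,
    ← h.eq y hy Y, ← h.eq y hy Y]
  fin_cases k <;> simp [cross_apply] <;> ring

end Vale.Agent.P292
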