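import Vale.Agent.P292.FDefs

/-! Algebra of spinors. -/

set_option maxSynthPendingDepth 3

open scoped ContDiff Topology
open Set Filter Asymptotics

noncomputable section

namespace Vale.Agent.P292

open Vale.Agent.P219 (E)
open Vale.Agent.P219.R (Bil ip chr Good PD)

theorem zv_add (b e : ℂ × ℂ) : zv (b + e) = zv b + zd b e + zv e := by
  ext k
  fin_cases k <;> simp [zv, zd] <;> ring

theorem zv_smul (c : ℂ) (e : ℂ × ℂ) : zv (c • e) = c ^ 2 • zv e := by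
  ext k
  fin_cases k <;> simp [zv] <;> ring

theorem zd_smul (c : ℂ) (b e : ℂ × ℂ) : zd b (c • e) = c • zd b e := by
  ext k
  fin_cases k <;> simp [zd] <;> ring

theorem zd_neg (b e : ℂ × ℂ) : zd b (-e) = -zd b e := by
  ext k
  fin_cases k <;> simp [zd] <;> ring

theorem zv_contDiff : ContDiff ℝ ∞ zv := by
  refine contDiff_pi.2 fun k => ?_
  fin_cases k
  · change ContDiff ℝ ∞ fun h : ℂ × ℂ => h.1 ^ 2 - h.2 ^ 2
    fun_prop
  · change ContDiff ℝ ∞ fun h : ℂ × ℂ => Complex.I * (h.1 ^ 2 + h.2 ^ 2)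
    fun_prop
  · change ContDiff ℝ ∞ fun h : ℂ × ℂ => -2 * h.1 * h.2
    fun_prop

theorem zv_fderiv (b e : ℂ × ℂ) : fderiv ℝ zv b e = zd b e := by
  have h1 : HasDerivAt (fun t : ℝ => b + t • e) e 0 := by
    simpa using ((hasDerivAt_id (0 : ℝ)).smul_const e).const_add b
  have h2 : HasFDerivAt zv (fderiv ℝ zv b) (b + (0 : ℝ) • e) := by
    simpa using (zv_contDiff.differentiable (by simp) b).hasFDerivAt
  have h3 := h2.comp_hasDerivAt (0 : ℝ) h1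
  have h4 : HasDerivAt (fun t : ℝ => zv b + t • zd b e + t ^ 2 • zv e) (zd b e) 0 := by
    have := (((hasDerivAt_id (0 : ℝ)).smul_const (zd b e)).const_add (zv b)).fun_add
      ((hasDerivAt_pow 2 (0 : ℝ)).smul_const (zv e))
    simpa using this
  have h5 : (zv ∘ fun t : ℝ => b + t • e) = fun t : ℝ => zv b + t • zd b e + t ^ 2 • zv e := by
    funext t
    rw [Function.comp_apply, zv_add, ← Complex.coe_smul, zd_smul, zv_smul, ← Complex.coe_smul,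
      ← Complex.coe_smul, Complex.ofReal_pow]
  rw [h5] at h3
  exact h3.unique h4

theorem zd_sp (a : Fin 3 → ℝ) (b : ℂ × ℂ) : zd b (sp a b) = crossProduct (cx a) (zv b) := by
  ext k
  fin_cases k <;> simp [zv, zd, sp, cx, cross_apply]
  · linear_combination (2 * a 1 * b.1 * b.2) * Complex.I_sq
  · linear_combination (-(a 2 * b.1 ^ 2) - 2 * a 0 * b.1 * b.2 + a 2 * b.2 ^ 2) * Complex.I_sq
  · linear_combination (a 1 * b.1 ^ 2 - a 1 * b.2 ^ 2) * Complex.I_sq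

theorem zv_dot (a b : ℂ × ℂ) : zv a ⬝ᵥ zv b = -2 * wg a b ^ 2 := by
  simp [zv, wg, dotProduct, Fin.sum_univ_three]
  linear_combination ((a.1 ^ 2 + a.2 ^ 2) * (b.1 ^ 2 + b.2 ^ 2)) * Complex.I_sq

theorem zv_null (b : ℂ × ℂ) : zv b ⬝ᵥ zv b = 0 := by
  rw [zv_dot]
  simp [wg, mul_comm]

theorem zd_dot (b e e' : ℂ × ℂ) : zd b e ⬝ᵥ zd b e' = 4 * wg b e * wg b e' := by
  simp [zd, wg, dotProduct, Fin.sum_univ_three]
  linear_combination (4 * (b.1 * e.1 + b.2 * e.2) * (b.1 * e'.1 + b.2 * e'.2)) * Complex.I_sq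

theorem zv_zd (b e : ℂ × ℂ) : zv b ⬝ᵥ zd b e = 0 := by
  simp [zv, zd, dotProduct, Fin.sum_univ_three]
  linear_combination (2 * (b.1 ^ 2 + b.2 ^ 2) * (b.1 * e.1 + b.2 * e.2)) * Complex.I_sq

theorem FZ_wg (b : ℂ × ℂ) :
    wg b (anti b) = ((Complex.normSq b.1 + Complex.normSq b.2 : ℝ) : ℂ) := by
  simp [wg, anti, Complex.mul_conj]

theorem FZ_wg_ne {b : ℂ × ℂ} (hb : b ≠ 0) : wg b (anti b) ≠ 0 := by
  rw [FZ_wg, Complex.ofReal_ne_zero]
  intro h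
  have h1 := Complex.normSq_nonneg b.1
  have h2 := Complex.normSq_nonneg b.2
  exact hb (Prod.ext (Complex.normSq_eq_zero.1 (by linarith))
    (Complex.normSq_eq_zero.1 (by linarith)))

theorem zv_ne {b : ℂ × ℂ} (hb : b ≠ 0) : zv b ≠ 0 := by
  intro h
  have h1 := zv_dot b (anti b)
  rw [h, zero_dotProduct] at h1
  exact FZ_wg_ne hb (by simpa using h1.symm)

theorem zv_anti (b : ℂ × ℂ) (k : Fin 3) : zv (anti b) k = -(starRingEnd ℂ (zv b k)) := by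
  fin_cases k <;> simp [zv, anti, map_ofNat] <;> ring

theorem wg_anti {b : ℂ × ℂ} (hb : b ≠ 0) : wg b (anti b) ≠ 0 := by
  exact FZ_wg_ne hb

theorem anti_ne {b : ℂ × ℂ} (hb : b ≠ 0) : anti b ≠ 0 := by
  intro h
  exact wg_anti hb (by simp [h, wg])

theorem comb_ne {b v : ℂ × ℂ} (hb : b ≠ 0) (hv : v ≠ 0) : v.1 • b + v.2 • anti b ≠ 0 := by
  intro h
  have h1 : wg b (v.1 • b + v.2 • anti b) = v.2 * wg b (anti b) := by simp [wg]; ring
  have h2 : wg (v.1 • b + v.2 • anti b) (anti b) = v.1 * wg b (anti b) := by simp [wg]; ring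
  rw [h] at h1 h2
  have h3 : wg b 0 = 0 := by simp [wg]
  have h4 : wg 0 (anti b) = 0 := by simp [wg]
  exact hv (Prod.ext ((mul_eq_zero.1 (h2.symm.trans h4)).resolve_right (wg_anti hb))
    ((mul_eq_zero.1 (h1.symm.trans h3)).resolve_right (wg_anti hb)))

/-- coordinates with respect to the basis `b`, `anti b` -/
theorem comb_coord {b : ℂ × ℂ} (hb : b ≠ 0) : ∃ φ : ℂ × ℂ →L[ℂ] ℂ × ℂ, φ b = (1, 0) ∧
    ∀ h, (φ h).1 • b + (φ h).2 • anti b = h := by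
  have hw := wg_anti hb
  refine ⟨(wg b (anti b))⁻¹ • (((anti b).2 • ContinuousLinearMap.fst ℂ ℂ ℂ -
      (anti b).1 • ContinuousLinearMap.snd ℂ ℂ ℂ).prod
    (b.1 • ContinuousLinearMap.snd ℂ ℂ ℂ - b.2 • ContinuousLinearMap.fst ℂ ℂ ℂ)), ?_, fun h => ?_⟩
  · ext
    · simp
      field_simp
      simp [wg]
      ring
    · simp
      right
      ring
  · ext
    · simp
      field_simp
      simp [wg]
      ring
    · simp
      field_simp
      simp [wg]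
      ring

theorem zd_anti {b : ℂ × ℂ} (hb : b ≠ 0) : ∃ r : Fin 3 → ℝ, r ≠ 0 ∧ zd b (anti b) = cx r := by
  have he : zd b (anti b) = cx fun k => (zd b (anti b) k).re := by
    ext k
    fin_cases k <;> apply Complex.ext <;> simp [zd, anti, cx] <;> ring
  refine ⟨_, fun h => ?_, he⟩
  have h1 := zd_dot b (anti b) (anti b)
  rw [he, h] at h1
  have h2 : cx 0 = 0 := by ext k; simp [cx]
  rw [h2, zero_dotProduct] at h1
  exact wg_anti hb (by simpa using h1.symm)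

theorem FZ_quad (p q : ℂ × ℂ) : ∃ m : Fin 3 → ℂ, ∀ h : ℂ × ℂ,
    m ⬝ᵥ zv h = (p.1 * h.1 + p.2 * h.2) * (q.1 * h.1 + q.2 * h.2) := by
  refine ⟨![(p.1 * q.1 - p.2 * q.2) / 2, -Complex.I * (p.1 * q.1 + p.2 * q.2) / 2,
    -(p.1 * q.2 + p.2 * q.1) / 2], fun h => ?_⟩
  simp [zv, dotProduct, Fin.sum_univ_three]
  linear_combination (-(p.1 * q.1 + p.2 * q.2) * (h.1 ^ 2 + h.2 ^ 2) / 2) * Complex.I_sq

theorem zv_quad {b : ℂ × ℂ} (hb : b ≠ 0) : ∃ m₀ m₁ m₂ : Fin 3 → ℂ, ∀ v : ℂ × ℂ,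
    m₀ ⬝ᵥ zv (v.1 • b + v.2 • anti b) = v.1 ^ 2 ∧
      m₁ ⬝ᵥ zv (v.1 • b + v.2 • anti b) = v.1 * v.2 ∧
      m₂ ⬝ᵥ zv (v.1 • b + v.2 • anti b) = v.2 ^ 2 := by
  have hw := wg_anti hb
  let p : ℂ × ℂ := ((anti b).2 / wg b (anti b), -(anti b).1 / wg b (anti b))
  let q : ℂ × ℂ := (-b.2 / wg b (anti b), b.1 / wg b (anti b))
  have hp : ∀ v : ℂ × ℂ, p.1 * (v.1 • b + v.2 • anti b).1 + p.2 * (v.1 • b + v.2 • anti b).2 =
      v.1 := fun v => by
    simp [p]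
    field_simp
    simp [wg]
    ring
  have hq : ∀ v : ℂ × ℂ, q.1 * (v.1 • b + v.2 • anti b).1 + q.2 * (v.1 • b + v.2 • anti b).2 =
      v.2 := fun v => by
    simp [q]
    field_simp
    simp [wg]
    ring
  obtain ⟨m₀, h₀⟩ := FZ_quad p p
  obtain ⟨m₁, h₁⟩ := FZ_quad p q
  obtain ⟨m₂, h₂⟩ := FZ_quad q q
  exact ⟨m₀, m₁, m₂, fun v => ⟨by rw [h₀, hp, sq], by rw [h₁, hp, hq], by rw [h₂, hq, sq]⟩⟩

theorem zv_span {μ ν : Fin 3 → ℂ} (h : ∀ e, μ ⬝ᵥ zv e = ν ⬝ᵥ zv e) : μ = ν := by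
  have h1 := h (1, 0)
  have h2 := h (0, 1)
  have h3 := h (1, 1)
  simp [zv, dotProduct, Fin.sum_univ_three] at h1 h2 h3
  have e0 : μ 0 = ν 0 := by linear_combination (h1 - h2) / 2
  have e1 : μ 1 = ν 1 := by
    have : Complex.I * (μ 1 - ν 1) = 0 := by linear_combination (h1 + h2) / 2
    exact sub_eq_zero.1 ((mul_eq_zero.1 this).resolve_left Complex.I_ne_zero)
  have e2 : μ 2 = ν 2 := by
    rw [e1] at h3
    linear_combination -h3 / 2
  ext k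
  fin_cases k
  exacts [e0, e1, e2]

theorem zv_quartic (S : Fin 3 → Fin 3 → ℂ) (b : ℂ × ℂ)
    (h : ∀ᶠ e in 𝓝 b, ∑ k, zv e k * (S k ⬝ᵥ zv e) = 0) : S 0 0 = S 1 1 ∧ S 1 1 = S 2 2 := by
  have ha : AnalyticOnNhd ℂ (fun e : ℂ × ℂ => ∑ k, zv e k * (S k ⬝ᵥ zv e)) univ := by
    intro e _
    simp only [zv, dotProduct, Fin.sum_univ_three, Matrix.cons_val_zero, Matrix.cons_val_one,
      Matrix.cons_val]
    refine ContDiffAt.analyticAt (ContDiff.contDiffAt ?_)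
    fun_prop
  have hz := ha.eqOn_zero_of_preconnected_of_eventuallyEq_zero isPreconnected_univ (mem_univ b) h
  have h1 := hz (mem_univ (1, 0))
  have h2 := hz (mem_univ (0, 1))
  have h3 := hz (mem_univ (1, 1))
  have h4 := hz (mem_univ (1, -1))
  simp only [zv, dotProduct, Fin.sum_univ_three, Matrix.cons_val_zero, Matrix.cons_val_one,
    Matrix.cons_val, Pi.zero_apply] at h1 h2 h3 h4
  exact ⟨by linear_combination (h1 + h2) / 2 - S 1 1 * Complex.I_sq,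
    by linear_combination -(h3 + h4) / 8 + S 1 1 * Complex.I_sq⟩

theorem sp_lin (h : ℂ × ℂ) : ∃ S : (Fin 3 → ℝ) →L[ℝ] ℂ × ℂ, ∀ a, S a = sp a h := by
  refine ⟨LinearMap.toContinuousLinearMap
    { toFun := fun a => sp a h, map_add' := fun a a' => ?_, map_smul' := fun c a => ?_ },
    fun a => rfl⟩
  · ext <;> simp [sp] <;> ring
  · ext <;> simp [sp] <;> ring

theorem wg_add (b e e' : ℂ × ℂ) : wg b (e + e') = wg b e + wg b e' := by
  simp [wg]
  ring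

end Vale.Agent.P292
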