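import Vale.Agent.P292.HAX1

/-! Stratification of analytic sets. Hints: `LocAn.holIm` by induction on the dimension for
`F = Fin d → ℂ` (then transport by a linear equivalence). Cover `Z` by countably many balls `N`
(Lindeloef). If all functions vanish on the ball, `Z ∩ N = N`. Otherwise some `f` does not vanish
identically, and at each point of the ball some iterated partial derivative `g` of `f` vanishes
while a first partial derivative of `g` does not (finite order of vanishing, identity theorem);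
near such a point the zero set of `g` is the image of an open subset of `Fin (d - 1) → ℂ` by an
analytic map (implicit function theorem); pull the equations back and use the induction
hypothesis; countably many such neighbourhoods suffice (group the points by the multi-index). -/

set_option maxSynthPendingDepth 3

open scoped ContDiff Topology
open Set Filter

noncomputable section

namespace Vale.Agent.P292

variable {F F' : Type} [NormedAddCommGroup F] [NormedSpace ℂ F] [NormedAddCommGroup F']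
  [NormedSpace ℂ F']

/-- `g` agrees on `S` near each point of `S` with a holomorphic function -/
def AnRel (S : Set F) (g : F → F') : Prop :=
  ∀ x ∈ S, ∃ g' : F → F', AnalyticAt ℂ g' x ∧ ∀ᶠ y in 𝓝 x, y ∈ S → g y = g' y

theorem AnRel.of_analytic {S : Set F} {g : F → F'} (h : ∀ x ∈ S, AnalyticAt ℂ g x) :
    AnRel S g := fun x hx => ⟨g, h x hx, Eventually.of_forall fun _ _ => rfl⟩

theorem AnRel.mono {S S' : Set F} {g : F → F'} (h : AnRel S g) (hS : S' ⊆ S) : AnRel S' g :=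
  fun x hx => let ⟨g', h1, h2⟩ := h x (hS hx); ⟨g', h1, h2.mono fun _ hy hy' => hy (hS hy')⟩

theorem AnRel.comp_analytic {F'' : Type} [NormedAddCommGroup F''] [NormedSpace ℂ F'']
    {S : Set F} {g : F → F'} (h : AnRel S g) {O : Set F''} (hO : IsOpen O) {φ : F'' → F}
    (hφ : AnalyticOnNhd ℂ φ O) (hS : MapsTo φ O S) : AnalyticOnNhd ℂ (g ∘ φ) O := by
  intro x hx
  obtain ⟨g', h1, h2⟩ := h _ (hS hx)
  refine (h1.comp (hφ x hx)).congr ?_
  filter_upwards [hO.mem_nhds hx, (hφ x hx).continuousAt.eventually h2] with y hy hy'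
  exact (hy' (hS hy)).symm

theorem holIm_empty : HolIm (∅ : Set F) := by
  exact ⟨fun _ => 0, fun _ => ∅, fun _ _ => 0, fun _ => ⟨isOpen_empty, fun _ h => h.elim⟩, by simp⟩

theorem holIm_of_isOpen [FiniteDimensional ℂ F] {O : Set F} (hO : IsOpen O) : HolIm O := by
  let e : (Fin (Module.finrank ℂ F) → ℂ) ≃L[ℂ] F := ContinuousLinearEquiv.ofFinrankEq (by simp)
  exact ⟨fun _ => _, fun _ => e ⁻¹' O, fun _ => e,
    fun _ => ⟨hO.preimage e.continuous, fun x _ => e.analyticAt x⟩,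
    by rw [iUnion_const, image_preimage_eq _ e.surjective]⟩

theorem HolIm.iUnion {ι : Type} [Countable ι] {S : ι → Set F} (h : ∀ i, HolIm (S i)) :
    HolIm (⋃ i, S i) := by
  rcases isEmpty_or_nonempty ι with _ | _
  · simpa using holIm_empty
  choose d O φ h1 h2 using h
  obtain ⟨e, he⟩ := exists_surjective_nat (ι × ℕ)
  refine ⟨fun n => d (e n).1 (e n).2, fun n => O _ _, fun n => φ _ _, fun n => h1 _ _, ?_⟩
  rw [he.iUnion_comp fun p : ι × ℕ => φ p.1 p.2 '' O p.1 p.2, iUnion_prod']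
  exact iUnion_congr h2

theorem HolIm.union {S S' : Set F} (h : HolIm S) (h' : HolIm S') : HolIm (S ∪ S') := by
  rw [union_eq_iUnion]
  exact HolIm.iUnion fun b => by cases b <;> assumption

theorem HolIm.image {S : Set F} (h : HolIm S) {g : F → F'} (hg : AnRel S g) : HolIm (g '' S) := by
  obtain ⟨d, O, φ, h1, rfl⟩ := h
  refine ⟨d, O, fun n => g ∘ φ n, fun n => ⟨(h1 n).1, hg.comp_analytic (h1 n).1 (h1 n).2
    fun x hx => mem_iUnion.2 ⟨n, x, hx, rfl⟩⟩, ?_⟩
  simp only [image_iUnion, image_comp]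

theorem HolIm.prod {S : Set F} {S' : Set F'} (h : HolIm S) (h' : HolIm S') : HolIm (S ×ˢ S') := by
  obtain ⟨d, O, φ, h1, rfl⟩ := h
  obtain ⟨d', O', φ', h2, rfl⟩ := h'
  rw [iUnion_prod_const]
  refine HolIm.iUnion fun n => ?_
  rw [prod_iUnion]
  refine HolIm.iUnion fun m => ?_
  rw [prod_image_image_eq]
  exact (holIm_of_isOpen ((h1 n).1.prod (h2 m).1)).image (AnRel.of_analytic fun x hx =>
    (((h1 n).2 _ hx.1).comp analyticAt_fst).prod (((h2 m).2 _ hx.2).comp analyticAt_snd))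

theorem locAn_of_isOpen {O : Set F} (hO : IsOpen O) : LocAn O := by
  exact fun x hx => ⟨O, ∅, hO, hx, fun _ h => h.elim, by simp⟩

theorem LocAn.inter {Z Z' : Set F} (h : LocAn Z) (h' : LocAn Z') : LocAn (Z ∩ Z') := by
  intro x hx
  obtain ⟨N, A, h1, h2, h3, h4⟩ := h x hx.1
  obtain ⟨N', A', h5, h6, h7, h8⟩ := h' x hx.2
  refine ⟨N ∩ N', A ∪ A', h1.inter h5, ⟨h2, h6⟩, fun f hf => hf.elim
    (fun hf => (h3 f hf).mono inter_subset_left) fun hf => (h7 f hf).mono inter_subset_right, ?_⟩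
  rw [inter_inter_inter_comm, h4, h8]
  ext y
  simp only [mem_inter_iff, mem_ofPred_eq, mem_union, or_imp, forall_and]
  tauto

theorem LocAn.preimage {Z : Set F'} (h : LocAn Z) {O : Set F} (hO : IsOpen O) {φ : F → F'}
    (hφ : AnalyticOnNhd ℂ φ O) : LocAn (O ∩ φ ⁻¹' Z) := by
  intro x hx
  obtain ⟨N, A, h1, h2, h3, h4⟩ := h _ hx.2
  refine ⟨O ∩ φ ⁻¹' N, (fun f => f ∘ φ) '' A, hφ.continuousOn.isOpen_inter_preimage hO h1,
    ⟨hx.1, h2⟩, ?_, ?_⟩
  · rintro _ ⟨f, hf, rfl⟩ y hy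
    exact (h3 f hf _ hy.2).comp (hφ y hy.1)
  · ext y
    have h5 := Set.ext_iff.1 h4 (φ y)
    simp only [mem_inter_iff, mem_ofPred_eq, mem_preimage, forall_mem_image,
      Function.comp_apply] at h5 ⊢
    tauto

theorem LocAn.holIm [FiniteDimensional ℂ F] {Z : Set F} (h : LocAn Z) : HolIm Z := by
  have key : ∀ (d : ℕ) (E : Type) [NormedAddCommGroup E] [NormedSpace ℂ E] [FiniteDimensional ℂ E],
      Module.finrank ℂ E = d → ∀ Z : Set E, LocAn Z → HolIm Z := by
    intro d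
    induction d using Nat.strong_induction_on with
    | _ d ih =>
    intro E _ _ _ hd Z h
    have := FiniteDimensional.proper_rclike ℂ E
    have h1 : ∀ x, ∃ B : Set E, x ∈ Z → B ∈ 𝓝 x ∧ HolIm (Z ∩ B) := by
      intro x
      by_cases hx : x ∈ Z
      swap
      · exact ⟨∅, fun h => (hx h).elim⟩
      obtain ⟨N, A, h1, h2, h3, h4⟩ := h x hx
      obtain ⟨r, hr, hB⟩ := Metric.isOpen_iff.1 h1 x h2
      refine ⟨Metric.ball x r, fun _ => ⟨Metric.ball_mem_nhds x hr, ?_⟩⟩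
      have h5 : ∀ y ∈ N, y ∈ Z ↔ ∀ f ∈ A, f y = 0 := fun y hy => by
        simpa [hy] using Set.ext_iff.1 h4 y
      by_cases h0 : ∀ y ∈ Metric.ball x r, ∀ f ∈ A, f y = 0
      · rw [inter_eq_right.2 fun y hy => (h5 y (hB hy)).2 (h0 y hy)]
        exact holIm_of_isOpen Metric.isOpen_ball
      push Not at h0
      obtain ⟨y, hy, f, hf, hfy⟩ := h0
      rcases d with _ | d
      · have := Module.finrank_zero_iff.1 hd
        exact (hfy (Subsingleton.elim x y ▸ (h5 x h2).1 hx f hf)).elim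
      obtain ⟨t, O, ψ, ht, h6, h7⟩ := HAX_cover hd Metric.isOpen_ball
        (convex_ball x r).isPreconnected ((h3 f hf).mono hB) hy hfy
      have e : Z ∩ Metric.ball x r = ⋃ z : t, ψ z '' (O z ∩ ψ z ⁻¹' Z) := by
        refine Subset.antisymm (fun w hw => ?_) (iUnion_subset fun z => ?_)
        · obtain ⟨z, hz, u, hu, rfl⟩ := mem_iUnion₂.1 (h7 ⟨hw.2, (h5 w (hB hw.2)).1 hw.1 f hf⟩)
          exact mem_iUnion.2 ⟨⟨z, hz⟩, u, ⟨hu, hw.1⟩, rfl⟩
        · rintro _ ⟨u, hu, rfl⟩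
          exact ⟨hu.2, (h6 z z.2).2.2 hu.1⟩
      have := ht.to_subtype
      rw [e]
      exact HolIm.iUnion fun z => (ih d d.lt_succ_self _ (by simp) _
        (h.preimage (h6 z z.2).1 (h6 z z.2).2.1)).image
          (AnRel.of_analytic fun u hu => (h6 z z.2).2.1 u hu.1)
    choose B hB using h1
    obtain ⟨t, ht, htc, hcov⟩ := TopologicalSpace.countable_cover_nhdsWithin
      fun x (hx : x ∈ Z) => mem_nhdsWithin_of_mem_nhds (hB x hx).1
    have := htc.to_subtype
    have e : Z = ⋃ x : t, Z ∩ B x := by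
      rw [← inter_iUnion, ← biUnion_eq_iUnion t fun x _ => B x, inter_eq_left.2 hcov]
    rw [e]
    exact HolIm.iUnion fun x => (hB x (ht x.2)).2
  exact key _ F rfl Z h

theorem HolIm.inter {S Z : Set F} (h : HolIm S) (hZ : LocAn Z) : HolIm (S ∩ Z) := by
  obtain ⟨d, O, φ, h1, rfl⟩ := h
  rw [iUnion_inter]
  refine HolIm.iUnion fun n => ?_
  rw [← image_inter_preimage]
  exact (hZ.preimage (h1 n).1 (h1 n).2).holIm.image
    (AnRel.of_analytic fun u hu => (h1 n).2 u hu.1)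

/-- a relatively open subset -/
theorem HolIm.sub_open {S S' : Set F} (h : HolIm S) (hS : S' ⊆ S) (ho : ∀ x ∈ S', S' ∈ 𝓝[S] x) :
    HolIm S' := by
  have h1 : IsOpen {x | S' ∈ 𝓝[S] x} :=
    isOpen_iff_mem_nhds.2 fun x hx => eventually_nhds_nhdsWithin.2 hx
  have e : S' = S ∩ {x | S' ∈ 𝓝[S] x} := Subset.antisymm (fun x hx => ⟨hS hx, ho x hx⟩)
    fun x hx => mem_of_mem_nhdsWithin hx.1 hx.2
  rw [e]
  exact h.inter (locAn_of_isOpen h1)

/-- common zeros of a family of functions with values in finite-dimensional spaces -/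
theorem HolIm.zeros [FiniteDimensional ℂ F'] {S : Set F} (h : HolIm S) {ι : Type}
    {g : ι → F → F'} (hg : ∀ x ∈ S, ∃ N ∈ 𝓝 x, ∀ i, ∃ g' : F → F', AnalyticOnNhd ℂ g' N ∧
      ∀ y ∈ N ∩ S, g i y = g' y) : HolIm {x ∈ S | ∀ i, g i x = 0} := by
  obtain ⟨d, O, φ, h1, rfl⟩ := h
  have e : {x ∈ ⋃ n, φ n '' O n | ∀ i, g i x = 0} =
      ⋃ n, φ n '' {u ∈ O n | ∀ i, g i (φ n u) = 0} := by
    ext x
    simp only [mem_ofPred_eq, mem_iUnion, mem_image]
    constructor
    · rintro ⟨⟨n, u, hu, rfl⟩, h⟩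
      exact ⟨n, u, ⟨hu, h⟩, rfl⟩
    · rintro ⟨n, u, ⟨hu, h⟩, rfl⟩
      exact ⟨⟨n, u, hu, rfl⟩, h⟩
  rw [e]
  refine HolIm.iUnion fun n => (LocAn.holIm fun u hu => ?_).image
    (AnRel.of_analytic fun u hu => (h1 n).2 u hu.1)
  obtain ⟨N, hN, h2⟩ := hg _ (mem_iUnion.2 ⟨n, u, hu.1, rfl⟩)
  have hO := (h1 n).2.continuousOn.isOpen_inter_preimage (h1 n).1 (isOpen_interior (s := N))
  refine ⟨_, {f | ∃ i, ∃ l : F' →L[ℂ] ℂ, f = l ∘ g i ∘ φ n}, hO,
    ⟨hu.1, mem_interior_iff_mem_nhds.2 hN⟩, ?_, ?_⟩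
  · rintro _ ⟨i, l, rfl⟩ y hy
    obtain ⟨g', h3, h4⟩ := h2 i
    refine (l.analyticAt _).comp (((h3 _ (interior_subset hy.2)).comp ((h1 n).2 y hy.1)).congr ?_)
    filter_upwards [hO.mem_nhds hy] with z hz
    exact (h4 _ ⟨interior_subset hz.2, mem_iUnion.2 ⟨n, z, hz.1, rfl⟩⟩).symm
  · refine Subset.antisymm (fun y hy => ⟨hy.2, ?_⟩) fun y hy => ⟨⟨hy.1.1, fun i => ?_⟩, hy.1⟩
    · rintro _ ⟨i, l, rfl⟩
      simp [hy.1.2 i]
    · exact SeparatingDual.eq_zero_of_forall_dual_eq_zero (R := ℂ) fun l => hy.2 _ ⟨i, l, rfl⟩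

theorem HolIm.zero [FiniteDimensional ℂ F'] {S : Set F} (h : HolIm S) {g : F → F'}
    (hg : AnRel S g) : HolIm {x ∈ S | g x = 0} := by
  have := FiniteDimensional.complete ℂ F'
  simpa using h.zeros (ι := Unit) (g := fun _ => g) fun x hx => by
    obtain ⟨g', h1, h2⟩ := hg x hx
    exact ⟨_, h1.eventually_analyticAt.and h2, fun _ =>
      ⟨g', fun y hy => hy.1, fun y hy => hy.1.2 hy.2⟩⟩

end Vale.Agent.P292
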