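import Vale.Agent.P292.Defs

/-! Straightening of submersions and covering of hypersurfaces. -/

open scoped Topology
open Set Filter Module

noncomputable section

namespace Vale.Agent.P292

variable {E R : Type} [NormedAddCommGroup E] [NormedSpace ℂ E] [FiniteDimensional ℂ E]
  [NormedAddCommGroup R] [NormedSpace ℂ R] [FiniteDimensional ℂ R]

theorem HAX_straight {g : E → R} {x : E} (hg : AnalyticAt ℂ g x)
    (hs : Function.Surjective (fderiv ℂ g x)) {k : ℕ} (hk : finrank ℂ E = finrank ℂ R + k) :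
    ∃ (q : E →L[ℂ] (Fin k → ℂ)) (Ψ : R × (Fin k → ℂ) → E), AnalyticAt ℂ Ψ (g x, q x) ∧
      (∀ᶠ y in 𝓝 x, Ψ (g y, q y) = y) ∧ ∀ᶠ w in 𝓝 (g x, q x), g (Ψ w) = w.1 := by
  have := FiniteDimensional.complete ℂ E
  have := FiniteDimensional.complete ℂ (R × (Fin k → ℂ))
  have h1 := (fderiv ℂ g x).toLinearMap.finrank_range_add_finrank_ker
  rw [LinearMap.range_eq_top.2 hs, finrank_top] at h1
  have h2 : finrank ℂ (fderiv ℂ g x).toLinearMap.ker = k := by omega
  obtain ⟨q, hq⟩ := (finBasisOfFinrankEq ℂ _ h2).equivFun.toLinearMap.exists_extend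
  set q' := LinearMap.toContinuousLinearMap q
  have hΦ : AnalyticAt ℂ (fun y => (g y, q' y)) x := hg.prod (q'.analyticAt x)
  have hd : fderiv ℂ (fun y => (g y, q' y)) x = (fderiv ℂ g x).prod q' :=
    (hg.differentiableAt.hasFDerivAt.prodMk q'.hasFDerivAt).fderiv
  have hinj : Function.Injective ((fderiv ℂ g x).prod q').toLinearMap := by
    refine (injective_iff_map_eq_zero _).2 fun v hv => ?_
    have h3 : v ∈ (fderiv ℂ g x).toLinearMap.ker := congrArg Prod.fst hv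
    have h4 : q v = 0 := congrArg Prod.snd hv
    have h5 := (LinearMap.congr_fun hq ⟨v, h3⟩).symm.trans h4
    exact congrArg Subtype.val ((finBasisOfFinrankEq ℂ _ h2).equivFun.map_eq_zero_iff.1 h5)
  let i : E ≃L[ℂ] R × (Fin k → ℂ) := (LinearMap.linearEquivOfInjective _ hinj
    (by simp [hk])).toContinuousLinearEquiv
  have hi : fderiv ℂ (fun y => (g y, q' y)) x = i := by
    rw [hd]
    ext v <;> rfl
  have hs : HasStrictFDerivAt (fun y => (g y, q' y)) (i : E →L[ℂ] R × (Fin k → ℂ)) x :=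
    hi ▸ hΦ.hasStrictFDerivAt
  exact ⟨q', hs.localInverse _ i x, (hs.toOpenPartialHomeomorph _).analyticAt_symm'
    hs.mem_toOpenPartialHomeomorph_source hΦ hi, hs.eventually_left_inverse,
    hs.eventually_right_inverse.mono fun w hw => congrArg Prod.fst hw⟩

theorem HAX_implicit {d : ℕ} (hd : finrank ℂ E = d + 1) {N : Set E} (hN : IsOpen N) {g : E → ℂ}
    {x : E} (hx : x ∈ N) (hg : AnalyticAt ℂ g x) (hs : fderiv ℂ g x ≠ 0) :
    ∃ (O : Set (Fin d → ℂ)) (ψ : (Fin d → ℂ) → E), IsOpen O ∧ AnalyticOnNhd ℂ ψ O ∧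
      MapsTo ψ O N ∧ ∀ᶠ y in 𝓝 x, g y = 0 → y ∈ ψ '' O := by
  have := FiniteDimensional.complete ℂ E
  have hs' : Function.Surjective (fderiv ℂ g x) := by
    obtain ⟨v, hv⟩ := DFunLike.ne_iff.1 hs
    intro c
    exact ⟨(c / fderiv ℂ g x v) • v, by rw [map_smul, smul_eq_mul, div_mul_cancel₀ _ hv]⟩
  obtain ⟨q, Ψ, h1, h2, -⟩ := HAX_straight hg hs' (k := d) (by simp [hd, add_comm])
  have h3 : ∀ᶠ w in 𝓝 (g x, q x), AnalyticAt ℂ Ψ w ∧ Ψ w ∈ N :=
    h1.eventually_analyticAt.and (h1.continuousAt.preimage_mem_nhds (by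
      rw [h2.self_of_nhds]
      exact hN.mem_nhds hx))
  obtain ⟨W, hW, hWo, hxW⟩ := _root_.mem_nhds_iff.1 h3
  refine ⟨(fun u => ((0 : ℂ), u)) ⁻¹' W, fun u => Ψ (0, u), hWo.preimage (by fun_prop),
    fun u hu => (hW hu).1.comp (f := fun u => ((0 : ℂ), u)) (by fun_prop), fun u hu => (hW hu).2, ?_⟩
  filter_upwards [h2, (hg.continuousAt.prodMk q.continuous.continuousAt).preimage_mem_nhds
    (hWo.mem_nhds hxW)] with y hy hy' hy0
  rw [mem_preimage, hy0] at hy'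
  rw [hy0] at hy
  exact ⟨q y, hy', hy⟩

/-- the zero set of a holomorphic function is covered by countably many hypersurfaces -/
theorem HAX_cover {d : ℕ} (hd : finrank ℂ E = d + 1) {N : Set E} (hN : IsOpen N)
    (hc : IsPreconnected N) {f : E → ℂ} (hf : AnalyticOnNhd ℂ f N) {x₀ : E} (hx₀ : x₀ ∈ N)
    (h0 : f x₀ ≠ 0) : ∃ (t : Set E) (O : E → Set (Fin d → ℂ)) (ψ : E → (Fin d → ℂ) → E),
      t.Countable ∧ (∀ x ∈ t, IsOpen (O x) ∧ AnalyticOnNhd ℂ (ψ x) (O x) ∧ MapsTo (ψ x) (O x) N) ∧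
      {x ∈ N | f x = 0} ⊆ ⋃ x ∈ t, ψ x '' O x := by
  classical
  have := FiniteDimensional.complete ℂ E
  have := FiniteDimensional.proper_rclike ℂ E
  let Z : ℕ → Set E := fun k =>
    {x ∈ N | (∀ j ≤ k, iteratedFDeriv ℂ j f x = 0) ∧ iteratedFDeriv ℂ (k + 1) f x ≠ 0}
  have h1 : ∀ x ∈ N, f x = 0 → ∃ k, x ∈ Z k := by
    intro x hx hfx
    have h2 : ∃ k, iteratedFDeriv ℂ k f x ≠ 0 := by
      by_contra! h
      obtain ⟨p, r, hp⟩ := hf x hx
      refine h0 (hf.eqOn_zero_of_preconnected_of_eventuallyEq_zero hc hx ?_ hx₀)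
      filter_upwards [Metric.eball_mem_nhds x hp.r_pos] with y hy
      have h3 := hp.hasSum_iteratedFDeriv (y := y - x) (by
        rwa [Metric.mem_eball, edist_zero_right, ← edist_eq_enorm_sub, ← Metric.mem_eball])
      simp only [h, zero_apply, smul_zero, add_sub_cancel] at h3
      exact h3.unique hasSum_zero
    have h3 : Nat.find h2 ≠ 0 := fun h => by
      have h4 := Nat.find_spec h2
      rw [h] at h4
      exact h4 (by ext; simp [hfx])
    obtain ⟨k, hk⟩ := Nat.exists_eq_succ_of_ne_zero h3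
    exact ⟨k, hx, fun j hj => not_not.1 (Nat.find_min h2 (by omega)),
      by have := Nat.find_spec h2; rwa [hk] at this⟩
  have h2 : ∀ x, ∃ (O : Set (Fin d → ℂ)) (ψ : (Fin d → ℂ) → E), ∀ k, x ∈ Z k →
      (IsOpen O ∧ AnalyticOnNhd ℂ ψ O ∧ MapsTo ψ O N) ∧ ψ '' O ∈ 𝓝[Z k] x := by
    intro x
    by_cases hx : ∃ k, x ∈ Z k
    swap
    · exact ⟨∅, fun _ => 0, fun k hk => (hx ⟨k, hk⟩).elim⟩
    obtain ⟨k, hk⟩ := hx
    obtain ⟨v, hv⟩ := DFunLike.ne_iff.1 hk.2.2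
    have ha := hf.iteratedFDeriv k x hk.1
    let A := ContinuousMultilinearMap.apply ℂ (fun _ : Fin k => E) ℂ (Fin.tail v)
    obtain ⟨O, ψ, h3, h4, h5, h6⟩ := HAX_implicit hd hN (g := fun y => A (iteratedFDeriv ℂ k f y))
      hk.1 ((A.analyticAt _).comp ha) (fun h => hv (by
        exact DFunLike.congr_fun
          ((A.hasFDerivAt.comp x ha.differentiableAt.hasFDerivAt).fderiv.symm.trans h) (v 0)))
    refine ⟨O, ψ, fun l hl => ⟨⟨h3, h4, h5⟩, ?_⟩⟩
    obtain rfl : l = k := by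
      by_contra hne
      rcases lt_or_gt_of_ne hne with h | h
      · exact hl.2.2 (hk.2.1 _ h)
      · exact hk.2.2 (hl.2.1 _ h)
    filter_upwards [mem_nhdsWithin_of_mem_nhds h6, self_mem_nhdsWithin] with y hy hy'
    exact hy (by rw [hy'.2.1 l le_rfl, map_zero])
  choose O ψ h2 using h2
  choose t ht htc hcov using fun k =>
    TopologicalSpace.countable_cover_nhdsWithin fun x (hx : x ∈ Z k) => (h2 x k hx).2
  refine ⟨⋃ k, t k, O, ψ, countable_iUnion htc, fun x hx => ?_, fun x hx => ?_⟩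
  · obtain ⟨k, hk⟩ := mem_iUnion.1 hx
    exact (h2 x k (ht k hk)).1
  · obtain ⟨k, hk⟩ := h1 x hx.1 hx.2
    obtain ⟨y, hy, hxy⟩ := mem_iUnion₂.1 (hcov k hk)
    exact mem_iUnion₂.2 ⟨y, mem_iUnion.2 ⟨k, hy⟩, hxy⟩

end Vale.Agent.P292
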