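import Vale.Agent.P292.HA

/-! Countable values. Hints: a holomorphic function on a ball is constant or open
(`AnalyticOnNhd.is_constant_or_isOpen`, or restrict to lines), so the points of `T` that are not
interior form a countable set `Z`, which is the relative boundary, hence relatively closed. The
complement of a countable set in a connected open subset of `ℂ` is connected (in a ball:
`Set.Countable.isPathConnected_ball_diff`-like lemmas or join by two segments), and the interior of
`T` is open and closed in it. Removable singularities: the set of points of `Z` near which `f` has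
no holomorphic extension is closed and countable, so it has an isolated point if it is not empty
(Baire); extensions are unique because the complement of `Z` is dense; Riemann. -/

set_option maxSynthPendingDepth 3

open scoped ContDiff Topology
open Set Filter

noncomputable section

namespace Vale.Agent.P292

theorem HB_ball (c : ℂ) {r : ℝ} (hr : 0 < r) {Z : Set ℂ} (hZ : Z.Countable) :
    IsPreconnected (Metric.ball c r \ Z) := by
  let e : OpenPartialHomeomorph ℂ ℂ := OpenPartialHomeomorph.univBall c r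
  have h1 : e.source = univ := OpenPartialHomeomorph.univBall_source c r
  have h2 : e.target = Metric.ball c r := OpenPartialHomeomorph.univBall_target c hr
  have h3 : (e ⁻¹' Z).Countable := hZ.preimage (injOn_univ.1 (h1 ▸ e.injOn))
  have h4 : Metric.ball c r \ Z = e '' (e ⁻¹' Z)ᶜ := by
    rw [← preimage_compl, image_preimage_eq_inter_range, ← image_univ, ← h1,
      e.image_source_eq_target, h2, inter_comm]
    rfl
  rw [h4]
  exact (h3.isConnected_compl_of_one_lt_rank (by simp)).isPreconnected.image _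
    (OpenPartialHomeomorph.continuous_univBall c r).continuousOn

theorem HB_neBot {Z : Set ℂ} (hZ : Z.Countable) (z : ℂ) : (𝓝[Zᶜ] z).NeBot :=
  mem_closure_iff_nhdsWithin_neBot.1 (hZ.dense_compl ℝ z)

theorem HB_bdry {T : Set ℂ} (hT : HolIm T) : (T \ interior T).Countable := by
  obtain ⟨d, O, φ, h1, h2⟩ := hT
  have h3 : ∀ n, (φ n '' {x ∈ O n | ∀ᶠ y in 𝓝 x, φ n y = φ n x}).Countable := fun n => by
    obtain ⟨t, -, htc, hcov⟩ := TopologicalSpace.countable_cover_nhdsWithin
      (f := fun x => {y | φ n y = φ n x}) (s := {x ∈ O n | ∀ᶠ y in 𝓝 x, φ n y = φ n x})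
      fun x hx => mem_nhdsWithin_of_mem_nhds hx.2
    refine (htc.image (φ n)).mono ?_
    rintro _ ⟨x, hx, rfl⟩
    obtain ⟨y, hy, hxy⟩ := mem_iUnion₂.1 (hcov hx)
    exact ⟨y, hy, hxy.symm⟩
  refine (countable_iUnion h3).mono fun z hz => ?_
  obtain ⟨n, x, hx, rfl⟩ := mem_iUnion.1 (h2 ▸ hz.1)
  refine mem_iUnion.2 ⟨n, x, ⟨hx, ((h1 n).2 x hx).eventually_constant_or_nhds_le_map_nhds.resolve_right
    fun h => hz.2 (mem_interior_iff_mem_nhds.2 (h ?_))⟩, rfl⟩
  filter_upwards [image_mem_map ((h1 n).1.mem_nhds hx)] with y hy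
  exact h2 ▸ mem_iUnion.2 ⟨n, hy⟩

theorem HB_isolated {B : Set ℂ} (hB : B.Countable) (hc : IsClosed B) (hne : B.Nonempty) :
    ∃ c ∈ B, ∀ᶠ y in 𝓝[≠] c, y ∉ B := by
  have := hc.completeSpace_coe
  have := hB.to_subtype
  have := hne.to_subtype
  obtain ⟨b, x, hx⟩ := nonempty_interior_of_iUnion_of_closed (f := fun b : B => {b})
    (fun _ => isClosed_singleton) (iUnion_of_singleton _)
  obtain rfl : x = b := mem_singleton_iff.1 (interior_subset hx)
  have h1 := mem_interior_iff_mem_nhds.1 hx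
  rw [nhds_subtype, mem_comap] at h1
  obtain ⟨U, hU, h2⟩ := h1
  refine ⟨x, x.2, ?_⟩
  filter_upwards [mem_nhdsWithin_of_mem_nhds hU, self_mem_nhdsWithin] with y hy hy' hyB
  exact hy' (congrArg Subtype.val (h2 (a := ⟨y, hyB⟩) hy))

theorem isPreconnected_diff_countable {O Z : Set ℂ} (hO : IsOpen O) (hc : IsPreconnected O)
    (hZ : Z.Countable) : IsPreconnected (O \ Z) := by
  refine isPreconnected_iff_subset_of_disjoint.2 fun u v hu hv huv h0 => ?_
  have h1 := isPreconnected_iff_subset_of_disjoint.1 hc {x | ∀ᶠ y in 𝓝 x, y ∈ O \ Z → y ∈ u}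
    {x | ∀ᶠ y in 𝓝 x, y ∈ O \ Z → y ∈ v} isOpen_setOfPred_eventually_nhds
    isOpen_setOfPred_eventually_nhds (fun x hx => ?_) (eq_empty_of_forall_notMem fun x hx => ?_)
  · exact h1.imp (fun h x hx => (h hx.1).self_of_nhds hx) fun h x hx => (h hx.1).self_of_nhds hx
  · obtain ⟨r, hr, hB⟩ := Metric.isOpen_iff.1 hO x hx
    have h2 : Metric.ball x r \ Z ⊆ O \ Z := sdiff_subset_sdiff_left hB
    exact (isPreconnected_iff_subset_of_disjoint.1 (HB_ball x hr hZ) u v hu hv (h2.trans huv)
      (subset_eq_empty (inter_subset_inter_left _ h2) h0)).imp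
      (fun h => mem_of_superset (Metric.ball_mem_nhds x hr) fun y hy hy' => h ⟨hy, hy'.2⟩)
      fun h => mem_of_superset (Metric.ball_mem_nhds x hr) fun y hy hy' => h ⟨hy, hy'.2⟩
  · have := HB_neBot hZ x
    obtain ⟨y, ⟨h1, h2, h3⟩, h4⟩ := (((Eventually.and (p := fun y => y ∈ O) (hO.mem_nhds hx.1)
      (hx.2.1.and hx.2.2)).filter_mono (nhdsWithin_le_nhds (s := Zᶜ))).and
        eventually_mem_nhdsWithin).exists
    exact (Set.ext_iff.1 h0 y).1 ⟨⟨h1, h4⟩, h2 ⟨h1, h4⟩, h3 ⟨h1, h4⟩⟩

theorem HolIm.countable_or {T O : Set ℂ} (hT : HolIm T) (hO : IsOpen O) (hc : IsPreconnected O)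
    (hcl : ∀ z ∈ O, z ∈ closure T → z ∈ T) : (T ∩ O).Countable ∨ O ⊆ T := by
  by_cases h : ((O \ (T \ interior T)) ∩ interior T).Nonempty
  · refine Or.inr fun z hz => by_contra fun hzT => hzT (interior_subset
      ((isPreconnected_diff_countable hO hc (HB_bdry hT)).subset_of_closure_inter_subset
        isOpen_interior h (fun y hy => by_contra fun hy' => ?_) ⟨hz, fun h => hzT h.1⟩))
    exact hy.2.2 ⟨hcl y hy.2.1 (closure_mono interior_subset hy.1), hy'⟩
  · exact Or.inl ((HB_bdry hT).mono fun z hz =>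
      And.intro hz.1 fun h' => h ⟨z, ⟨hz.2, fun h'' => h''.2 h'⟩, h'⟩)

theorem HolIm.countable_of_isCompact {T : Set ℂ} (hT : HolIm T) (hc : IsCompact T) :
    T.Countable := by
  rcases hT.countable_or isOpen_univ isPreconnected_univ
    (fun z _ hz => hc.isClosed.closure_subset hz) with h | h
  · simpa using h
  · exact (hc.ne_univ (univ_subset_iff.1 h)).elim

theorem HolIm.eq_univ {T : Set ℂ} (hT : HolIm T) (hc : IsClosed T) {z : ℂ} (hz : T ∈ 𝓝 z) :
    T = univ := by
  rcases hT.countable_or isOpen_univ isPreconnected_univ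
    (fun z _ hz => hc.closure_subset hz) with h | h
  · rw [inter_univ] at h
    obtain ⟨y, h1, h2⟩ := (h.dense_compl ℝ).inter_nhds_nonempty hz
    exact (h1 h2).elim
  · exact univ_subset_iff.1 h

theorem eq_of_countable_image {X : Type} [TopologicalSpace X] {S : Set X} (hS : IsPreconnected S)
    {f : X → ℂ} (hf : ContinuousOn f S) (hc : (f '' S).Countable) {x y : X} (hx : x ∈ S)
    (hy : y ∈ S) : f x = f y := by
  exact hc.isTotallyDisconnected _ Subset.rfl (hS.image f hf) ⟨x, hx, rfl⟩ ⟨y, hy, rfl⟩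

theorem removable_countable {Z : Set ℂ} (hZ : Z.Countable) (hc : IsClosed Z) {f : ℂ → ℂ}
    (hf : DifferentiableOn ℂ f Zᶜ) (hb : ∀ z, ∃ N ∈ 𝓝 z, ∃ B : ℝ, ∀ y ∈ N \ Z, ‖f y‖ ≤ B) :
    ∃ g : ℂ → ℂ, Differentiable ℂ g ∧ ∀ z, z ∉ Z → g z = f z := by
  set g : ℂ → ℂ := fun z => limUnder (𝓝[Zᶜ] z) f with hg
  have h1 : ∀ z, z ∉ Z → g z = f z := fun z hz =>
    have := HB_neBot hZ z
    (hf.continuousOn z hz).tendsto.limUnder_eq
  have h2 : ∀ z, z ∉ Z → ∀ᶠ y in 𝓝 z, DifferentiableAt ℂ g y := fun z hz => by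
    filter_upwards [hc.isOpen_compl.mem_nhds hz] with y hy
    exact (hf.differentiableAt (hc.isOpen_compl.mem_nhds hy)).congr_of_eventuallyEq
      (mem_of_superset (hc.isOpen_compl.mem_nhds hy) h1)
  refine ⟨g, fun z => by_contra fun hz => ?_, h1⟩
  obtain ⟨c, hcB, h3⟩ := HB_isolated (B := {z | ∀ᶠ y in 𝓝 z, DifferentiableAt ℂ g y}ᶜ)
    (hZ.mono fun y hy => by_contra fun h => hy (h2 y h)) isOpen_setOfPred_eventually_nhds.isClosed_compl
    ⟨z, fun h => hz h.self_of_nhds⟩
  have hcZ : c ∈ Z := by_contra fun h => hcB (h2 c h)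
  obtain ⟨N, hN, B, hB⟩ := hb c
  have h4 : {y | N ∈ 𝓝 y ∧ (y ≠ c → DifferentiableAt ℂ g y)} ∈ 𝓝 c :=
    (eventually_mem_nhds_iff.2 hN).and ((eventually_nhdsWithin_iff.1 h3).mono
      fun y hy hy' => (not_not.1 (hy hy')).self_of_nhds)
  have h5 := Complex.differentiableOn_update_limUnder_of_bddAbove (f := g) h4
    (fun y hy => (hy.1.2 hy.2).differentiableWithinAt) ⟨B, by
      rintro _ ⟨y, hy, rfl⟩
      have := HB_neBot hZ y
      refine le_of_tendsto (x := 𝓝[Zᶜ] y)
        ((hy.1.2 hy.2).continuousAt.continuousWithinAt.tendsto.norm) ?_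
      filter_upwards [mem_nhdsWithin_of_mem_nhds hy.1.1, self_mem_nhdsWithin] with w hw hw'
      rw [h1 w hw']
      exact hB w ⟨hw, hw'⟩⟩
  have h6 : g c = limUnder (𝓝[≠] c) g := by
    have := HB_neBot hZ c
    have h7 := (h5.differentiableAt h4).continuousAt.continuousWithinAt (s := Zᶜ).tendsto
    rw [Function.update_self] at h7
    refine (h7.congr' ?_).limUnder_eq
    filter_upwards [self_mem_nhdsWithin] with w hw
    rw [Function.update_of_ne (fun h : w = c => hw (h ▸ hcZ)), h1 w hw]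
  rw [← h6, Function.update_eq_self] at h5
  exact hcB ((eventually_mem_nhds_iff.2 h4).mono fun y hy => h5.differentiableAt hy)

end Vale.Agent.P292
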