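import Vale.Agent.P292.HA

/-! The theorem of Sard for holomorphic maps. Hints: `Small.null`: induction on the dimension `d` of the source for a map of rank `< D` everywhere on a
ball. If `d < D` the image is null (Hausdorff dimension, `ContDiffOn.dimH_image_le` or
`addHaar_image_eq_zero_of_det_fderiv_eq_zero` after adding variables). In general let `s` be the
maximal rank on the ball. Where the rank is `s` (an open set) the constant rank theorem shows that
the image is locally the image of an `s`-dimensional slice (choose coordinates `(π φ, x'')` by the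
inverse function theorem; the derivative in the `x''` directions vanishes). The rest lies in the
zero set of a minor which does not vanish identically, and this is covered by countably many
analytic images of open subsets of dimension `d - 1` (as in the proof of `LocAn.holIm`; a stratum
of dimension `d` with an interior point is excluded, or prove the covering lemma separately). -/

set_option maxSynthPendingDepth 3

open scoped ContDiff Topology
open Set Filter

noncomputable section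

namespace Vale.Agent.P292

section

open MeasureTheory Module

variable {E R : Type} [NormedAddCommGroup E] [NormedSpace ℂ E] [FiniteDimensional ℂ E]
  [NormedAddCommGroup R] [NormedSpace ℂ R] [FiniteDimensional ℂ R] {D : ℕ}

theorem HN_loc {φ : E → Fin D → ℂ} {S : Set E}
    (h : ∀ x ∈ S, ∃ U ∈ 𝓝 x, volume (φ '' U) = 0) : volume (φ '' S) = 0 := by
  have := FiniteDimensional.proper_rclike ℂ E
  choose! U hU h0 using h
  obtain ⟨t, ht, htc, hcov⟩ := TopologicalSpace.countable_cover_nhdsWithin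
    fun x (hx : x ∈ S) => mem_nhdsWithin_of_mem_nhds (hU x hx)
  refine measure_mono_null (image_mono hcov) ?_
  rw [image_iUnion₂]
  exact (measure_biUnion_null_iff htc).2 fun x hx => h0 x (ht hx)

/-- points of maximal rank -/
theorem HN_cr {φ : E → Fin D → ℂ} {O : Set E} (hO : IsOpen O) (hφ : AnalyticOnNhd ℂ φ O)
    (hr : ∀ y ∈ O, finrank ℂ (fderiv ℂ φ y).range ≤ finrank ℂ R) (hD : finrank ℂ R < D)
    (p : (Fin D → ℂ) →L[ℂ] R) {x : E} (hx : x ∈ O)
    (hs : Function.Surjective (p.comp (fderiv ℂ φ x))) : ∃ U ∈ 𝓝 x, volume (φ '' U) = 0 := by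
  have := FiniteDimensional.complete ℂ E
  have hg : AnalyticAt ℂ (p ∘ φ) x := (p.analyticAt _).comp (hφ x hx)
  have hd : fderiv ℂ (p ∘ φ) x = p.comp (fderiv ℂ φ x) :=
    (p.hasFDerivAt.comp x (hφ x hx).differentiableAt.hasFDerivAt).fderiv
  obtain ⟨k, hk⟩ := Nat.exists_eq_add_of_le
    (LinearMap.finrank_le_finrank_of_surjective (f := (p.comp (fderiv ℂ φ x)).toLinearMap) hs)
  obtain ⟨q, Ψ, h1, h2, h3⟩ := HAX_straight hg (hd ▸ hs) hk
  obtain ⟨ε, hε, hW⟩ := Metric.mem_nhds_iff.1 (h1.eventually_analyticAt.and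
    ((h1.continuousAt.eventually (p := fun y => y ∈ O) (by
      rw [h2.self_of_nhds]
      exact hO.mem_nhds hx)).and h3.eventually_nhds))
  have hh : ∀ w ∈ Metric.ball ((p ∘ φ) x, q x) ε, DifferentiableAt ℂ (φ ∘ Ψ) w := fun w hw =>
    ((hφ _ (hW hw).2.1).comp (hW hw).1).differentiableAt
  have h4 : ∀ w ∈ Metric.ball ((p ∘ φ) x, q x) ε, ∀ u, fderiv ℂ (φ ∘ Ψ) w (0, u) = 0 := by
    intro w hw u
    have h5 : p.comp (fderiv ℂ (φ ∘ Ψ) w) = ContinuousLinearMap.fst ℂ R (Fin k → ℂ) :=
      ((p.hasFDerivAt.comp w (hh w hw).hasFDerivAt).congr_of_eventuallyEq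
        (EventuallyEq.symm (hW hw).2.2)).unique hasFDerivAt_fst
    have h6 : finrank ℂ (fderiv ℂ (φ ∘ Ψ) w).range ≤ finrank ℂ R := by
      refine (Submodule.finrank_mono ?_).trans (hr _ (hW hw).2.1)
      rw [fderiv_comp w (hφ _ (hW hw).2.1).differentiableAt (hW hw).1.differentiableAt]
      exact LinearMap.range_comp_le_range _ _
    have h7 : Function.Surjective (p.toLinearMap ∘ₗ (fderiv ℂ (φ ∘ Ψ) w).range.subtype) :=
      fun a => ⟨⟨_, (a, 0), rfl⟩, DFunLike.congr_fun h5 (a, 0)⟩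
    have h8 := (LinearMap.injective_iff_surjective_of_finrank_eq_finrank
      (h6.antisymm (LinearMap.finrank_le_finrank_of_surjective h7))).2 h7
    exact congrArg Subtype.val ((injective_iff_map_eq_zero _).1 h8 ⟨_, (0, u), rfl⟩
      (DFunLike.congr_fun h5 (0, u)))
  rw [← ball_prod_same] at hh h4 hW
  have h5 : ∀ a ∈ Metric.ball ((p ∘ φ) x) ε, ∀ u ∈ Metric.ball (q x) ε,
      (φ ∘ Ψ) (a, u) = (φ ∘ Ψ) (a, q x) := by
    intro a ha u hu
    have h6 : ∀ v ∈ Metric.ball (q x) ε, HasFDerivAt (fun v => (φ ∘ Ψ) (a, v))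
        (0 : (Fin k → ℂ) →L[ℂ] Fin D → ℂ) v := fun v hv => by
      have h7 := (hh (a, v) ⟨ha, hv⟩).hasFDerivAt.comp v (hasFDerivAt_prodMk_right (𝕜 := ℂ) a v)
      rwa [show (fderiv ℂ (φ ∘ Ψ) (a, v)).comp (ContinuousLinearMap.inr ℂ R (Fin k → ℂ)) = 0 from
        ContinuousLinearMap.ext fun u => h4 (a, v) ⟨ha, hv⟩ u] at h7
    exact Metric.isOpen_ball.is_const_of_fderiv_eq_zero (convex_ball _ _).isPreconnected
      (fun v hv => (h6 v hv).differentiableAt.differentiableWithinAt)
      (fun v hv => (h6 v hv).fderiv) hu (Metric.mem_ball_self hε)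
  obtain ⟨v, hv, hv0⟩ := (Submodule.ne_bot_iff _).1
    (LinearMap.ker_ne_bot_of_finrank_lt (f := p.toLinearMap) (by simpa using hD))
  have h6 : volume ((fun y => (φ ∘ Ψ) (p y, q x)) '' (p ⁻¹' Metric.ball ((p ∘ φ) x) ε)) = 0 := by
    refine addHaar_image_eq_zero_of_det_fderivWithin_eq_zero volume
      (f' := fun y => ((fderiv ℂ (φ ∘ Ψ) (p y, q x)).comp (p.prod 0)).restrictScalars ℝ)
      (fun y hy => ?_) fun y _ => ?_
    · exact (((hh (p y, q x) ⟨hy, Metric.mem_ball_self hε⟩).hasFDerivAt.comp y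
        (p.hasFDerivAt.prodMk (hasFDerivAt_const (q x) y))).restrictScalars ℝ).hasFDerivWithinAt
    · refine LinearMap.det_eq_zero_iff_ker_ne_bot.2 ((Submodule.ne_bot_iff _).2 ⟨v, ?_, hv0⟩)
      have h7 : p v = 0 := hv
      simp [h7, Prod.mk_zero_zero]
  refine ⟨_, h2.and ((hg.continuousAt.prodMk q.continuous.continuousAt).eventually
    (p := fun w => w ∈ Metric.ball ((p ∘ φ) x) ε ×ˢ Metric.ball (q x) ε)
    (prod_mem_nhds (Metric.ball_mem_nhds _ hε) (Metric.ball_mem_nhds _ hε))),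
    measure_mono_null ?_ h6⟩
  rintro _ ⟨y, hy, rfl⟩
  exact ⟨φ y, hy.2.1, (h5 _ hy.2.1 _ hy.2.2).symm.trans (congrArg φ hy.1)⟩

theorem HN_sard (d : ℕ) : ∀ (O : Set (Fin d → ℂ)) (φ : (Fin d → ℂ) → Fin D → ℂ), IsOpen O →
    AnalyticOnNhd ℂ φ O → (∀ x ∈ O, finrank ℂ (fderiv ℂ φ x).range < D) →
    volume (φ '' O) = 0 := by
  induction d using Nat.strong_induction_on with
  | _ d ih =>
  intro O φ hO hφ hr
  refine HN_loc fun x hx => ?_
  obtain ⟨r, hr0, hB⟩ := Metric.isOpen_iff.1 hO x hx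
  refine ⟨_, Metric.ball_mem_nhds x hr0, ?_⟩
  obtain ⟨x₀, hx₀, hm⟩ := (measure fun y => D - finrank ℂ (fderiv ℂ φ y).range).wf.has_min _
    ⟨x, Metric.mem_ball_self hr0⟩
  have hm' : ∀ y ∈ Metric.ball x r,
      finrank ℂ (fderiv ℂ φ y).range ≤ finrank ℂ (fderiv ℂ φ x₀).range := fun y hy => by
    have h1 : ¬ D - finrank ℂ (fderiv ℂ φ y).range < D - finrank ℂ (fderiv ℂ φ x₀).range := hm y hy
    have h2 := hr y (hB hy)
    omega
  obtain ⟨p, hp⟩ := (fderiv ℂ φ x₀).range.subtype.exists_leftInverse_of_injective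
    (Submodule.ker_subtype _)
  obtain ⟨j, hj⟩ := (fderiv ℂ φ x₀).toLinearMap.rangeRestrict.exists_rightInverse_of_surjective
    (LinearMap.range_rangeRestrict _)
  set f : (Fin d → ℂ) → ℂ := fun y => LinearMap.det (p ∘ₗ (fderiv ℂ φ y).toLinearMap ∘ₗ j) with hf
  have h1 : f x₀ ≠ 0 := by
    have : p ∘ₗ (fderiv ℂ φ x₀).toLinearMap ∘ₗ j = LinearMap.id := LinearMap.ext fun a =>
      (LinearMap.congr_fun hp _).trans (LinearMap.congr_fun hj a)
    simp [hf, this]
  have h2 : AnalyticOnNhd ℂ f (Metric.ball x r) := fun y hy => by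
    let b := finBasis ℂ (fderiv ℂ φ x₀).range
    simp only [hf, ← LinearMap.det_toMatrix b, Matrix.det_apply', LinearMap.toMatrix_apply]
    exact Finset.analyticAt_fun_sum _ fun σ _ => analyticAt_const.mul
      (Finset.analyticAt_fun_prod _ fun i _ =>
        (((LinearMap.toContinuousLinearMap (b.coord (σ i) ∘ₗ p)).comp
          (ContinuousLinearMap.apply ℂ _ (j (b i)))).analyticAt _).comp (hφ y (hB hy)).fderiv)
  have h3 : volume (φ '' {y ∈ Metric.ball x r | f y ≠ 0}) = 0 := HN_loc fun y hy =>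
    HN_cr Metric.isOpen_ball (hφ.mono hB) hm' (hr x₀ (hB hx₀)) (LinearMap.toContinuousLinearMap p)
      hy.1 fun a => by
        obtain ⟨c, hc⟩ := LinearMap.injective_iff_surjective.1 (LinearMap.ker_eq_bot.1
          (by_contra fun h => hy.2 (LinearMap.det_eq_zero_iff_ker_ne_bot.2 h))) a
        exact ⟨j c, hc⟩
  have h4 : volume (φ '' {y ∈ Metric.ball x r | f y = 0}) = 0 := by
    rcases d with _ | d
    · rw [eq_empty_of_forall_notMem (s := {y ∈ Metric.ball x r | f y = 0})
        fun y hy => h1 (Subsingleton.elim y x₀ ▸ hy.2)]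
      simp
    obtain ⟨t, U, ψ, ht, h6, h7⟩ := HAX_cover (d := d) (by simp) Metric.isOpen_ball
      (convex_ball x r).isPreconnected h2 hx₀ h1
    refine measure_mono_null (image_mono h7) ?_
    rw [image_iUnion₂]
    refine (measure_biUnion_null_iff ht).2 fun z hz => ?_
    rw [← image_comp]
    obtain ⟨h8, h9, h10⟩ := h6 z hz
    refine ih d d.lt_succ_self _ _ h8 (fun u hu => (hφ _ (hB (h10 hu))).comp (h9 u hu))
      fun u hu => (Submodule.finrank_mono ?_).trans_lt (hr _ (hB (h10 hu)))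
    rw [fderiv_comp u (hφ _ (hB (h10 hu))).differentiableAt (h9 u hu).differentiableAt]
    exact LinearMap.range_comp_le_range _ _
  refine measure_mono_null ?_ (measure_union_null h3 h4)
  rintro _ ⟨y, hy, rfl⟩
  by_cases h : f y = 0
  · exact Or.inr ⟨y, ⟨hy, h⟩, rfl⟩
  · exact Or.inl ⟨y, ⟨hy, h⟩, rfl⟩

end

theorem Small.null {D r : ℕ} {S : Set (Fin D → ℂ)} (h : Small r S) (hr : r < D) :
    MeasureTheory.volume S = 0 := by
  obtain ⟨d, O, φ, h1, h2⟩ := h
  exact MeasureTheory.measure_mono_null h2 (MeasureTheory.measure_iUnion_null fun n =>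
    HN_sard _ _ _ (h1 n).1 (h1 n).2.1 fun x hx => ((h1 n).2.2 x hx).trans_lt hr)

end Vale.Agent.P292
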