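import Vale.Agent.P292.KMfd

/-! General free curves avoid invariant sets of codimension two. Hints: take `free_chart`; let
`φ n` on `O n` cover `S` with rank at most `ρ - 2`. For the two charts `γ t = (1, t)`, `(t, 1)` the set
`Z = {(z, t, x) | ev (ψ z) (γ t) = φ n x}` is locally analytic; its projection to `z` is small of
rank `k - 1` (`HolIm.small`): along a map into `Z` the values `ev (D ψ z h) (γ t)` lie in the sum
of the range of `D (φ n) x` and a line, which cannot contain `T` (dimension `ρ`), so the `h` lie in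
a proper subspace. `Small.dense_compl`; note `1 ≤ k` since `T` is not zero. -/

set_option maxSynthPendingDepth 3

open scoped Topology
open Set Filter Asymptotics

noncomputable section

namespace Vale.Agent.P292

variable {κ α : Type} [Fintype κ] [Fintype α] {P : Pre κ}

theorem KAvoid_small {d k m : ℕ} {ψ : (Fin k → ℂ) → Co P.w d} {B : Set (Fin k → ℂ)}
    (hB : IsOpen B) (hψ : AnalyticOnNhd ℂ ψ B) (hM : ∀ z ∈ B, ψ z ∈ P.M d)
    (hT : ∀ z ∈ B, ∀ v, v ≠ 0 → ∀ τ ∈ P.T (ev P.w d (ψ z) v),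
      ∃ h, ev P.w d (fderiv ℂ ψ z h) v = τ)
    {a e : ℂ × ℂ} (hae : ∀ t : ℂ, a + t • e ≠ 0) {O : Set (Fin m → ℂ)} (hO : IsOpen O)
    {φ : (Fin m → ℂ) → κ → ℂ} (hφ : AnalyticOnNhd ℂ φ O)
    (hr : ∀ x ∈ O, Module.finrank ℂ (fderiv ℂ φ x).range ≤ P.ρ - 2) :
    Small (k - 1) {z ∈ B | ∃ t : ℂ, ∃ x ∈ O, ev P.w d (ψ z) (a + t • e) = φ x} := by
  have hU : IsOpen (B ×ˢ (univ : Set ℂ) ×ˢ O) := hB.prod (isOpen_univ.prod hO)
  have hZ := (holIm_of_isOpen hU).zero (g := fun y : (Fin k → ℂ) × ℂ × (Fin m → ℂ) =>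
    ev P.w d (ψ y.1) (a + y.2.1 • e) - φ y.2.2) (AnRel.of_analytic fun y hy => by
      have h1 : AnalyticAt ℂ (fun y : (Fin k → ℂ) × ℂ × (Fin m → ℂ) =>
          (ψ y.1, a + y.2.1 • e)) y :=
        ((hψ _ hy.1).comp analyticAt_fst).prod (analyticAt_const.add
          ((analyticAt_fst.comp analyticAt_snd).smul analyticAt_const))
      have h2 : AnalyticAt ℂ (fun y : (Fin k → ℂ) × ℂ × (Fin m → ℂ) => y.2.2) y :=
        analyticAt_snd.comp analyticAt_snd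
      exact ((analytic_ev _).comp h1).sub
        (AnalyticAt.comp (f := fun y : (Fin k → ℂ) × ℂ × (Fin m → ℂ) => y.2.2) (hφ _ hy.2.2) h2))
  refine (hZ.small (g := Prod.fst) (AnRel.of_analytic fun y _ => analyticAt_fst)
    fun n Φ x hΦ hev => ?_).mono le_rfl ?_
  · have hx := hev.self_of_nhds
    have D := hΦ.differentiableAt.hasFDerivAt
    have d1 := ((hψ _ hx.1.1).differentiableAt.hasFDerivAt.comp x D.fst).prodMk
      ((D.snd.fst.smul_const e).const_add a)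
    have d2 := (analytic_ev (w := P.w) (d := d)
      (ψ (Φ x).1, a + (Φ x).2.1 • e)).differentiableAt.hasFDerivAt.comp x d1
    have d3 := (hφ _ hx.1.2.2).differentiableAt.hasFDerivAt.comp x D.snd.snd
    have e1 := (d2.congr_of_eventuallyEq (f₁ := φ ∘ fun y => (Φ y).2.2)
      (hev.mono fun y hy => (sub_eq_zero.1 hy.2).symm)).unique d3
    have e2 : ∀ h, ev P.w d (fderiv ℂ ψ (Φ x).1 (fderiv ℂ Φ x h).1) (a + (Φ x).2.1 • e) +
        (fderiv ℂ Φ x h).2.1 • fderiv ℂ (ev P.w d (ψ (Φ x).1)) (a + (Φ x).2.1 • e) e =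
          fderiv ℂ φ (Φ x).2.2 (fderiv ℂ Φ x h).2.2 := fun h => by
      rw [← map_smul, ← fderiv_ev_joint]
      exact DFunLike.congr_fun e1 h
    have hne : (fderiv ℂ (Prod.fst ∘ Φ) x).range ≠ ⊤ := by
      intro htop
      have hle : P.T (ev P.w d (ψ (Φ x).1) (a + (Φ x).2.1 • e)) ≤
          (fderiv ℂ φ (Φ x).2.2).range ⊔
            ℂ ∙ fderiv ℂ (ev P.w d (ψ (Φ x).1)) (a + (Φ x).2.1 • e) e := by
        intro τ hτ
        obtain ⟨h, rfl⟩ := hT _ hx.1.1 _ (hae _) τ hτ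
        obtain ⟨h', rfl⟩ : h ∈ (fderiv ℂ (Prod.fst ∘ Φ) x).range := htop ▸ Submodule.mem_top
        have e3 : fderiv ℂ (Prod.fst ∘ Φ) x = _ := D.fst.fderiv
        rw [e3]
        refine (eq_sub_of_add_eq (e2 h')).symm ▸ (?_ : _ - _ ∈ _)
        exact sub_mem (Submodule.mem_sup_left ⟨_, rfl⟩) (Submodule.mem_sup_right
          (Submodule.smul_mem _ _ (Submodule.mem_span_singleton_self _)))
      have f1 := Submodule.finrank_mono hle
      rw [P.finrank_T (hM _ hx.1.1 _ (hae _))] at f1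
      have f2 := f1.trans (Submodule.finrank_add_le_finrank_add_finrank _ _)
      have f3 := hr _ hx.1.2.2
      have f4 : Module.finrank ℂ
          (ℂ ∙ fderiv ℂ (ev P.w d (ψ (Φ x).1)) (a + (Φ x).2.1 • e) e) ≤ 1 := by
        simpa using finrank_span_le_card
          ({fderiv ℂ (ev P.w d (ψ (Φ x).1)) (a + (Φ x).2.1 • e) e} : Set (κ → ℂ))
      have := P.four
      omega
    have := Submodule.finrank_lt hne
    rw [Module.finrank_fin_fun] at this
    omega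
  · rintro z ⟨hz, t, x, hx, h⟩
    exact ⟨(z, t, x), ⟨⟨hz, mem_univ _, hx⟩, sub_eq_zero.2 h⟩, rfl⟩

theorem Pre.avoid (G : P.Eqs α) {d : ℕ} {c : Co P.w d} (hc : c ∈ P.M d) (hf : P.Free d c)
    {S : Set (κ → ℂ)} (hS : Small (P.ρ - 2) S) (hi : ∀ z ∈ S, ∀ l, l ≠ 0 → act P.w l z ∈ S) :
    ∀ N ∈ 𝓝 c, ∃ c' ∈ N ∩ P.M d, ∀ v, v ≠ 0 → ev P.w d c' v ∉ S := by
  obtain ⟨k, π, ψ, r, hch, hr, hψ, hz⟩ := Pre.free_chart G hc hf
  obtain ⟨m, O, φ, hφ, hcov⟩ := hS
  have hM : ∀ z ∈ Metric.ball (π c) r, ψ z ∈ P.M d := fun z h => (hz z h).1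
  have a1 : ∀ t : ℂ, ((1, 0) : ℂ × ℂ) + t • ((0, 1) : ℂ × ℂ) ≠ 0 := fun t h => by
    simpa using congrArg Prod.fst h
  have a2 : ∀ t : ℂ, ((0, 1) : ℂ × ℂ) + t • ((1, 0) : ℂ × ℂ) ≠ 0 := fun t h => by
    simpa using congrArg Prod.snd h
  have s1 := Small.iUnion fun n => KAvoid_small Metric.isOpen_ball hψ hM
    (fun z h => (hz z h).2.2) a1 (hφ n).1 (hφ n).2.1 (hφ n).2.2
  have s2 := Small.iUnion fun n => KAvoid_small Metric.isOpen_ball hψ hM
    (fun z h => (hz z h).2.2) a2 (hφ n).1 (hφ n).2.1 (hφ n).2.2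
  have hk : 0 < k := by
    have hb := Metric.mem_ball_self (x := π c) hr
    have h1 := P.finrank_T (hM _ hb _ (a1 0))
    have h4 := P.four
    obtain ⟨τ, hτ, h0⟩ := (Submodule.ne_bot_iff
      (P.T (ev P.w d (ψ (π c)) (((1, 0) : ℂ × ℂ) + (0 : ℂ) • ((0, 1) : ℂ × ℂ))))).1 fun h => by
        rw [h, finrank_bot] at h1
        omega
    obtain ⟨h, rfl⟩ := (hz _ hb).2.2 _ (a1 0) τ hτ
    refine Nat.pos_of_ne_zero fun hk => h0 ?_
    subst hk
    rw [Subsingleton.elim h 0, map_zero]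
    funext i
    simp [ev]
  have hd := (s1.union s2).dense_compl (by
    rw [Module.finrank_fin_fun]
    omega)
  intro N hN
  obtain ⟨z, z3, z1, z2⟩ := hd.inter_nhds_nonempty
    (inter_mem (hch.tendsto hN) (Metric.ball_mem_nhds _ hr))
  refine ⟨ψ z, ⟨z1, hM z z2⟩, fun v hv hS => z3 ?_⟩
  by_cases h1 : v.1 = 0
  · have h2 : v.2 ≠ 0 := fun h2 => hv (Prod.ext h1 h2)
    have := hi _ hS _ (pow_ne_zero d (inv_ne_zero h2))
    rw [← ev_hom] at this
    obtain ⟨n, x, hx, e⟩ := mem_iUnion.1 (hcov this)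
    refine Or.inr (mem_iUnion.2 ⟨n, z2, v.2⁻¹ * v.1, x, hx, ?_⟩)
    rw [e]
    refine congrArg _ (Prod.ext ?_ ?_) <;> simp [h2]
  · have := hi _ hS _ (pow_ne_zero d (inv_ne_zero h1))
    rw [← ev_hom] at this
    obtain ⟨n, x, hx, e⟩ := mem_iUnion.1 (hcov this)
    refine Or.inl (mem_iUnion.2 ⟨n, z2, v.1⁻¹ * v.2, x, hx, ?_⟩)
    rw [e]
    refine congrArg _ (Prod.ext ?_ ?_) <;> simp [h1]

end Vale.Agent.P292
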