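import Vale.Agent.P292.KOm0

/-! The forms along curves. Hints: use the local analytic form `ϑ` of `P.loc`. `exists_cc`: for a
conic without base points `g e v = θ (ev c v) (D (ev c) v e)` is homogeneous of degree one in `v`,
so linear (`hom_poly`), linear in `e`, and vanishes for `e = v` (`ev_euler`, `theta_eul`). With
a base point write `ev c v = act (l v) (ev h v)` (`fact`); then the differential is
`act (l v) (D (ev h) v e)` plus a multiple of the Euler field, and the form vanishes by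
`line_leg`. -/

set_option maxSynthPendingDepth 3

open scoped Topology
open Set Filter Asymptotics

noncomputable section

namespace Vale.Agent.P292

variable {κ : Type} [Fintype κ]

namespace Pre

variable {P : Pre κ} {d : ℕ} {c : Co P.w d}

theorem KOm_diff (hc : c ∈ P.M d) {k k' : ℤ} {ξ η : ℂ × ℂ → κ → ℂ} (hξ : P.Jr d k c ξ)
    (hη : P.Jr d k' c η) :
    DifferentiableOn ℂ (fun v => P.om (ev P.w d c v) (ξ v) (η v)) {0}ᶜ := by
  intro v hv
  have ho : IsOpen ({0}ᶜ : Set (ℂ × ℂ)) := isOpen_compl_singleton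
  refine (analytic_om (analytic_ev_right c v)
    (P278F.analyticOnNhd_of_differentiableOn ho hξ.diff v hv)
    (P278F.analyticOnNhd_of_differentiableOn ho hη.diff v hv) ?_).differentiableAt
    |>.differentiableWithinAt
  filter_upwards [ho.mem_nhds hv] with u hu using ⟨hc u hu, hξ.mem u hu, hη.mem u hu⟩

theorem KOm_hom (hc : c ∈ P.M d) {k k' : ℤ} {ξ η : ℂ × ℂ → κ → ℂ} (hξ : P.Jr d k c ξ)
    (hη : P.Jr d k' c η) (l : ℂ) (hl : l ≠ 0) (v : ℂ × ℂ) (hv : v ≠ 0) :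
    P.om (ev P.w d c (l • v)) (ξ (l • v)) (η (l • v)) =
      l ^ (d + k + k') * P.om (ev P.w d c v) (ξ v) (η v) := by
  rw [ev_hom, hξ.hom l hl v hv, hη.hom l hl v hv, map_smul, map_smul,
    ContinuousLinearMap.smul_apply,
    P.om_act _ (hc v hv) _ (pow_ne_zero _ hl) _ (hξ.mem v hv) _ (hη.mem v hv),
    zpow_add₀ hl, zpow_add₀ hl, zpow_natCast, smul_eq_mul, smul_eq_mul]
  ring

theorem om_jr_neg (hc : c ∈ P.M d) {k k' : ℤ} {ξ η : ℂ × ℂ → κ → ℂ} (hξ : P.Jr d k c ξ)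
    (hη : P.Jr d k' c η) (hk : d + k + k' < 0) :
    ∀ v, v ≠ 0 → P.om (ev P.w d c v) (ξ v) (η v) = 0 := by
  exact hom_neg hk (KOm_diff hc hξ hη) (KOm_hom hc hξ hη)

theorem om_jr_const (hc : c ∈ P.M d) {k k' : ℤ} {ξ η : ℂ × ℂ → κ → ℂ} (hξ : P.Jr d k c ξ)
    (hη : P.Jr d k' c η) (hk : d + k + k' = 0) :
    ∃ a : ℂ, ∀ v, v ≠ 0 → P.om (ev P.w d c v) (ξ v) (η v) = a := by
  obtain ⟨a, ha⟩ := hom_poly (k := 0) (KOm_diff hc hξ hη) fun l hl v hv => by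
    rw [KOm_hom hc hξ hη l hl v hv, hk, zpow_zero, pow_zero]
  exact ⟨a 0, fun v hv => by simpa using ha v hv⟩

theorem om_jr_lin (hc : c ∈ P.M d) {k k' : ℤ} {ξ η : ℂ × ℂ → κ → ℂ} (hξ : P.Jr d k c ξ)
    (hη : P.Jr d k' c η) (hk : d + k + k' = 1) :
    ∃ a b : ℂ, ∀ v, v ≠ 0 → P.om (ev P.w d c v) (ξ v) (η v) = a * v.1 + b * v.2 := by
  obtain ⟨a, ha⟩ := hom_poly (k := 1) (KOm_diff hc hξ hη) fun l hl v hv => by
    rw [KOm_hom hc hξ hη l hl v hv, hk, zpow_one, pow_one]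
  exact ⟨a 0, a 1, fun v hv => by simpa [Fin.sum_univ_two] using ha v hv⟩

theorem fderiv_ev_mem (hc : c ∈ P.M0 d) {v : ℂ × ℂ} (hv : ev P.w d c v ≠ 0) (e : ℂ × ℂ) :
    fderiv ℂ (ev P.w d c) v e ∈ P.T (ev P.w d c v) := by
  refine P.fderiv_mem (analytic_ev_right c v).differentiableAt ?_ e
  filter_upwards [(analytic_ev_right c v).continuousAt.eventually_ne hv] with u hu
  exact (hc u).resolve_left hu

theorem KOm_eul (hc : c ∈ P.M d) : P.Jr d 0 c fun v => eul P.w (ev P.w d c v) where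
  diff := fun v _ => ((eul P.w).differentiableAt.comp v
    (analytic_ev_right c v).differentiableAt).differentiableWithinAt
  hom := fun l _ v _ => by rw [ev_hom, zpow_zero, one_smul, act_eul]
  mem := fun v hv => P.eul_mem _ (hc v hv)

theorem KOm_self (hc : c ∈ P.M d) {v : ℂ × ℂ} (hv : v ≠ 0) :
    P.om (ev P.w d c v) (eul P.w (ev P.w d c v)) (fderiv ℂ (ev P.w d c) v v) = 0 := by
  rw [ev_euler, map_smul, P.om_eul _ (hc v hv) _ (P.eul_mem _ (hc v hv)), theta_eul (hc v hv),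
    smul_zero]

theorem KOm_ne {c : Co P.w (d + 1)} {v : ℂ × ℂ} (hv : ev P.w (d + 1) c v ≠ 0) : v ≠ 0 := by
  rintro rfl
  refine hv ?_
  have h := ev_hom c 0 0
  rwa [smul_zero, zero_pow d.succ_ne_zero, act_zero P.w_pos] at h

theorem KOm_deriv {w : κ → ℕ} {f : ℂ × ℂ → κ → ℂ} {v₀ v : ℂ × ℂ} (hf : DifferentiableAt ℂ f v)
    (hl : wg v₀ v ≠ 0) (e : ℂ × ℂ) : fderiv ℂ (fun u => act w (wg v₀ u) (f u)) v e =
      (wg v₀ e * (wg v₀ v)⁻¹) • eul w (act w (wg v₀ v) (f v)) +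
        act w (wg v₀ v) (fderiv ℂ f v e) := by
  have h1 : HasFDerivAt (fun u => wg v₀ u)
      (v₀.1 • ContinuousLinearMap.snd ℂ ℂ ℂ - v₀.2 • ContinuousLinearMap.fst ℂ ℂ ℂ) v :=
    (hasFDerivAt_snd.const_mul v₀.1).sub (hasFDerivAt_fst.const_mul v₀.2)
  have h2 := fun i => (h1.pow (w i)).mul (hasFDerivAt_pi'.1 hf.hasFDerivAt i)
  have h3 : HasFDerivAt (fun u => act w (wg v₀ u) (f u)) _ v := hasFDerivAt_pi.2 h2
  rw [h3.fderiv]
  funext i
  have e1 : v₀.1 * e.2 - v₀.2 * e.1 = wg v₀ e := rfl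
  simp only [ContinuousLinearMap.pi_apply, ContinuousLinearMap.add_apply,
    ContinuousLinearMap.smul_apply, ContinuousLinearMap.comp_apply,
    ContinuousLinearMap.proj_apply, ContinuousLinearMap.sub_apply, ContinuousLinearMap.coe_snd',
    ContinuousLinearMap.coe_fst', smul_eq_mul, Pi.add_apply, Pi.smul_apply, act_apply, eul_apply,
    e1, nsmul_eq_mul]
  rcases w i with _ | m
  · simp
  · simp only [Nat.add_sub_cancel, pow_succ]
    field_simp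
    ring

theorem line_leg {c : Co P.w 1} (hc : c ∈ P.M0 1) {v : ℂ × ℂ} (hv : ev P.w 1 c v ≠ 0)
    (e : ℂ × ℂ) : P.θ (ev P.w 1 c v) (fderiv ℂ (ev P.w 1 c) v e) = 0 := by
  have hv0 : v ≠ 0 := KOm_ne (d := 0) hv
  have hp : ev P.w 1 c v ∈ P.C := (hc v).resolve_left hv
  rcases m0_one hc with h | ⟨v₀, u, -, h⟩
  · by_cases he : e = 0
    · rw [he, map_zero, map_zero]
    obtain ⟨a, ha⟩ := om_jr_const h (KOm_eul h) (jr_fderiv h e) (by norm_num)
    rw [← P.om_eul _ hp _ (fderiv_ev_mem hc hv e), ha v hv0, ← ha e he]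
    exact KOm_self h he
  · have h1 : ev P.w 1 c = fun v => act P.w (wg v₀ v) ((fun _ => u) v) := funext h
    rw [h] at hv hp
    rw [h1, KOm_deriv (differentiableAt_const u) (KFact_ne hv).1]
    simp [theta_eul hp]

theorem exists_cc {c : Co P.w 2} (hc : c ∈ P.M0 2) : ∃ a : ℂ, ∀ v, ev P.w 2 c v ≠ 0 → ∀ e,
    P.θ (ev P.w 2 c v) (fderiv ℂ (ev P.w 2 c) v e) = a * wg v e := by
  by_cases h : c ∈ P.M 2
  · obtain ⟨a0, b0, h0⟩ := om_jr_lin h (KOm_eul h) (jr_fderiv h e0) (by norm_num)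
    obtain ⟨a1, b1, h1⟩ := om_jr_lin h (KOm_eul h) (jr_fderiv h e1) (by norm_num)
    have key : ∀ v, v ≠ 0 → ∀ e : ℂ × ℂ,
        P.om (ev P.w 2 c v) (eul P.w (ev P.w 2 c v)) (fderiv ℂ (ev P.w 2 c) v e) =
          e.1 * (a0 * v.1 + b0 * v.2) + e.2 * (a1 * v.1 + b1 * v.2) := by
      intro v hv e
      have e2 : e = e.1 • e0 + e.2 • e1 := by simp [e0, e1]
      rw [← h0 v hv, ← h1 v hv]
      conv_lhs => rw [e2]
      simp only [map_add, map_smul, smul_eq_mul]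
    have k0 := (key (1, 0) (by simp) _).symm.trans (KOm_self h (by simp))
    have k1 := (key (0, 1) (by simp) _).symm.trans (KOm_self h (by simp))
    have k2 := (key (1, 1) (by simp) _).symm.trans (KOm_self h (by simp))
    simp only [mul_one, mul_zero, one_mul, zero_mul, add_zero, zero_add] at k0 k1 k2
    refine ⟨a1, fun v hv e => ?_⟩
    rw [← P.om_eul _ ((hc v).resolve_left hv) _ (fderiv_ev_mem hc hv e),
      key v (KOm_ne (d := 1) hv) e, wg]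
    linear_combination (e.1 * v.1 - e.1 * v.2) * k0 + (e.2 * v.2 - e.1 * v.2) * k1 +
      e.1 * v.2 * k2
  obtain ⟨v₀, hv₀, h0⟩ := KFact_base hc h
  obtain ⟨g, hg, e2⟩ := fact (d := 1) hc hv₀ h0
  refine ⟨0, fun v hv e => ?_⟩
  have h1 : ev P.w 2 c = fun v => act P.w (wg v₀ v) (ev P.w 1 g v) := funext e2
  have hp : ev P.w 2 c v ∈ P.C := (hc v).resolve_left hv
  rw [h1] at hv hp ⊢
  obtain ⟨n1, n2⟩ := KFact_ne hv
  rw [KOm_deriv (analytic_ev_right g v).differentiableAt n1, map_add, map_smul, theta_eul hp,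
    P.θ_act _ ((hg v).resolve_left n2) _ n1 _ (fderiv_ev_mem hg n2 e), line_leg hg n2]
  simp

/-- deformations of a line which fix a point are isotropic -/
theorem iso_J {c : Co P.w 1} (hc : c ∈ P.M 1) {a : ℂ × ℂ} (ha : a ≠ 0) {ξ η : Co P.w 1}
    (hξ : ξ ∈ P.J 1 c) (hη : η ∈ P.J 1 c) (h1 : ev P.w 1 ξ a = 0) (h2 : ev P.w 1 η a = 0) :
    ∀ v, v ≠ 0 → P.om (ev P.w 1 c v) (ev P.w 1 ξ v) (ev P.w 1 η v) = 0 := by
  intro v hv
  obtain ⟨ξ', k1, e1⟩ := (jr_of_mem hξ).div hc ha h1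
  obtain ⟨η', k2, e2⟩ := (jr_of_mem hη).div hc ha h2
  rw [e1 v hv, e2 v hv, map_smul, map_smul, ContinuousLinearMap.smul_apply,
    om_jr_neg hc k1 k2 (by norm_num) v hv, smul_zero, smul_zero]

theorem KK_tangent {x : Co P.w 2 × ℂ} (hx : x ∈ P.KK) : yE P.w x.1 ∈ P.C ∧ zE P.w x.1 ∈ P.C ∧
    dE P.w x.1 ∈ P.T (zE P.w x.1) ∧ (x.2 = 0 → uE P.w x.1 ∈ P.C ∧
      aE P.w x.1 ∈ P.T (uE P.w x.1) ∧ bE P.w x.1 ∈ P.T (uE P.w x.1)) := by
  obtain ⟨h1, hy, hz, hu⟩ := id hx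
  refine ⟨(h1 (1, 0, 0) (by simp [Qc])).resolve_left hy,
    (h1 (0, 1, 0) (by simp [Qc])).resolve_left hz, ?_, fun h0 => ?_⟩
  · have k0 : ∀ σ, AnalyticAt ℂ (evQ P.w x.1) σ := fun σ =>
      AnalyticAt.comp (f := fun σ : ℂ × ℂ × ℂ => (x.1, σ)) (analytic_evQ (x.1, σ))
        (analyticAt_const.prod analyticAt_id)
    have k1 : HasDerivAt (fun t : ℂ => ((x.2 * t ^ 2, 1, t) : ℂ × ℂ × ℂ)) (0, 0, 1) 0 := by
      simpa using (((hasDerivAt_id (0 : ℂ)).pow 2).const_mul x.2).prodMk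
        ((hasDerivAt_const (0 : ℂ) (1 : ℂ)).prodMk (hasDerivAt_id (0 : ℂ)))
    have k2 : ((x.2 * 0 ^ 2, 1, 0) : ℂ × ℂ × ℂ) = (0, 1, 0) := by simp
    have k3 := (k0 _).differentiableAt.hasFDerivAt.comp_hasDerivAt (0 : ℂ) k1
    have k4 : evQ P.w x.1 (x.2 * 0 ^ 2, 1, 0) ≠ 0 := k2 ▸ hz
    have k5 := P.fderiv_mem k3.differentiableAt (by
      filter_upwards [k3.continuousAt.eventually_ne k4] with t ht
      exact (h1 _ (by simp [Qc])).resolve_left ht) 1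
    rw [k3.hasFDerivAt.fderiv, ContinuousLinearMap.toSpanSingleton_apply, one_smul,
      Function.comp_apply, k2] at k5
    exact k5
  · have hu' : uE P.w x.1 ≠ 0 := hu.resolve_left fun h => h h0
    obtain ⟨k1, k2⟩ := KK_M0_zero hx h0
    obtain ⟨-, a2, a3⟩ := l1_ends x.1
    obtain ⟨-, b2, b3, -⟩ := l2_ends x.1
    refine ⟨(h1 (0, 0, 1) (by simp [Qc, h0])).resolve_left hu', ?_, ?_⟩
    · rw [a3, a2]
      exact fderiv_ev_mem k1 (a2 ▸ hu') _
    · rw [b3, b2]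
      exact fderiv_ev_mem k2 (b2 ▸ hu') _

end Pre

end Vale.Agent.P292
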