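import Vale.Agent.P292.KMfd
import Vale.Agent.P292.KOm

/-! Lines through a point; general points lie on free curves only. Hints: `isotropic_dim`: the map
`T → dual S` is onto with kernel containing `S`. `exists_small_free`: `Pre.regular` for `M d` and
evaluation at `e0`, `tangent_J`, `free_of_freeAt`. `small_lam`: `HolIm.small` for the set of
lines with `ev c e0 = y` and evaluation at `e1`; the range of the differential is isotropic by
`iso_J`, and `ρ / 2 ≤ ρ - 2`; the orbit is the image of an open subset of `ℂ`. -/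

set_option maxSynthPendingDepth 3

open scoped Topology
open Set Filter Asymptotics

noncomputable section

namespace Vale.Agent.P292

variable {κ α : Type} [Fintype κ] [Fintype α] {P : Pre κ}

theorem isotropic_dim {V : Type} [NormedAddCommGroup V] [NormedSpace ℂ V] [FiniteDimensional ℂ V]
    {T S : Submodule ℂ V} (hS : S ≤ T) (B : V →L[ℂ] V →L[ℂ] ℂ)
    (hB : ∀ v ∈ T, (∀ u ∈ T, B v u = 0) → v = 0) (hi : ∀ u ∈ S, ∀ v ∈ S, B u v = 0) :
    2 * Module.finrank ℂ S ≤ Module.finrank ℂ T := by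
  let B' : T →ₗ[ℂ] Module.Dual ℂ T :=
    LinearMap.mk₂ ℂ (fun u v => B u v) (by simp) (by simp) (by simp) (by simp)
  have h1 : Function.Injective B' := by
    rw [injective_iff_map_eq_zero]
    intro v hv
    exact Subtype.ext (hB v v.2 fun u hu => LinearMap.congr_fun hv ⟨u, hu⟩)
  have h2 : Function.Surjective B' :=
    (LinearMap.injective_iff_surjective_of_finrank_eq_finrank Subspace.dual_finrank_eq.symm).1 h1
  have h3 : Function.Surjective ((Submodule.inclusion hS).dualMap.comp B') :=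
    (LinearMap.dualMap_surjective_of_injective (Submodule.inclusion_injective hS)).comp h2
  have h4 := ((Submodule.inclusion hS).dualMap.comp B').finrank_range_add_finrank_ker
  rw [LinearMap.range_eq_top.2 h3, finrank_top, Subspace.dual_finrank_eq] at h4
  have h5 : (Submodule.inclusion hS).range ≤ ((Submodule.inclusion hS).dualMap.comp B').ker := by
    rintro _ ⟨u, rfl⟩
    rw [LinearMap.mem_ker]
    ext v
    exact hi u u.2 v v.2
  have h6 := Submodule.finrank_mono h5
  rw [LinearMap.finrank_range_of_inj (Submodule.inclusion_injective hS)] at h6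
  omega

theorem rank_lemma {V U U' : Type} [AddCommGroup V] [Module ℂ V] [AddCommGroup U] [Module ℂ U]
    [AddCommGroup U'] [Module ℂ U'] [FiniteDimensional ℂ V] [FiniteDimensional ℂ U]
    (p : V →ₗ[ℂ] U) (q : V →ₗ[ℂ] U') {v₀ : V} (hp : p v₀ ≠ 0) (hq : q v₀ = 0) :
    Module.finrank ℂ (LinearMap.range q) + 1 ≤
      Module.finrank ℂ ((LinearMap.ker p).map q) + Module.finrank ℂ (LinearMap.range p) := by
  have h1 := p.finrank_range_add_finrank_ker
  have h2 := q.finrank_range_add_finrank_ker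
  have h3 := (q.domRestrict (LinearMap.ker p)).finrank_range_add_finrank_ker
  rw [LinearMap.range_domRestrict, LinearMap.ker_domRestrict,
    ← Submodule.finrank_map_subtype_eq, Submodule.map_comap_subtype] at h3
  have h4 : LinearMap.ker p ⊓ LinearMap.ker q < LinearMap.ker q :=
    lt_of_le_of_ne inf_le_right fun e => hp (e.ge hq).1
  have h5 := Submodule.finrank_lt_finrank_of_lt h4
  omega

theorem KGen1_e0 : e0 ≠ 0 := by simp [e0]

theorem KGen1_e1 : e1 ≠ 0 := by simp [e1]

theorem KGen1_fd {F : Type} [NormedAddCommGroup F] [NormedSpace ℂ F] {w : κ → ℕ} {d : ℕ}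
    {φ : F → Co w d} {x : F} (hφ : DifferentiableAt ℂ φ x) (v : ℂ × ℂ) (h : F) :
    fderiv ℂ (evL w d v ∘ φ) x h = ev w d (fderiv ℂ φ x h) v := by
  rw [((evL w d v).hasFDerivAt.comp x hφ.hasFDerivAt).fderiv]
  rfl

theorem Pre.exists_small_free (G : P.Eqs α) (d : ℕ) : ∃ 𝒩, Small (P.ρ - 1) 𝒩 ∧
    ∀ c ∈ P.M d, ev P.w d c e0 ∉ 𝒩 → P.Free d c := by
  obtain ⟨𝒩, k, O, φ, h1, h2, h3, h4⟩ := P.regular (locAn_M G d).holIm (g := evL P.w d e0)
    (AnRel.of_analytic fun x _ => (evL P.w d e0).analyticAt x) fun c hc => hc e0 KGen1_e0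
  refine ⟨𝒩, h1, fun c hc hn => free_of_freeAt G hc KGen1_e0 fun τ hτ => ?_⟩
  obtain ⟨n, x, hx, rfl⟩ := mem_iUnion.1 (h3 ▸ hc)
  obtain ⟨h, hh⟩ := h4 n x hx hn hτ
  have hd := ((h2 n).2 x hx).differentiableAt
  refine ⟨fderiv ℂ (φ n) x h, tangent_J hd ?_ h, (KGen1_fd hd e0 h).symm.trans hh⟩
  filter_upwards [(h2 n).1.mem_nhds hx] with z hz
  rw [h3]
  exact mem_iUnion.2 ⟨n, z, hz, rfl⟩

theorem Pre.small_lam (G : P.Eqs α) (y : κ → ℂ) : Small (P.ρ - 2) (P.Lam y) := by
  have h4 := P.four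
  refine Small.union ?_ ?_
  · have h1 : HolIm {c ∈ P.M 1 | evL P.w 1 e0 c - y = 0} := (locAn_M G 1).holIm.zero
      (AnRel.of_analytic fun x _ => ((evL P.w 1 e0).analyticAt x).sub analyticAt_const)
    refine (h1.small (g := evL P.w 1 e1) (r := P.ρ - 2)
      (AnRel.of_analytic fun x _ => (evL P.w 1 e1).analyticAt x) fun d φ x hφ hm => ?_).mono le_rfl
      fun z ⟨c, hc, h2, h3⟩ => ⟨c, ⟨hc, sub_eq_zero.2 h2⟩, h3⟩
    have hd := hφ.differentiableAt
    have hc : φ x ∈ P.M 1 := hm.self_of_nhds.1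
    have hJ := tangent_J hd (hm.mono fun z hz => hz.1)
    have h0 : ∀ h, ev P.w 1 (fderiv ℂ φ x h) e0 = 0 := by
      intro h
      have e : evL P.w 1 e0 ∘ φ =ᶠ[𝓝 x] fun _ => y := hm.mono fun z hz => sub_eq_zero.1 hz.2
      rw [← KGen1_fd hd, e.fderiv_eq, fderiv_const_apply, ContinuousLinearMap.zero_apply]
    have hp := hc e1 KGen1_e1
    have h5 := isotropic_dim (T := P.T (ev P.w 1 (φ x) e1))
      (S := (fderiv ℂ (evL P.w 1 e1 ∘ φ) x).range) (by
        rintro _ ⟨h, rfl⟩
        exact (KGen1_fd hd e1 h).symm ▸ hJ h e1 KGen1_e1) (P.om (ev P.w 1 (φ x) e1))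
      (P.nondeg _ hp) (by
        rintro _ ⟨h, rfl⟩ _ ⟨h', rfl⟩
        have e := iso_J hc KGen1_e0 (hJ h) (hJ h') (h0 h) (h0 h') e1 KGen1_e1
        rwa [← KGen1_fd hd, ← KGen1_fd hd] at e)
    rw [P.finrank_T hp] at h5
    omega
  · refine (small_crit (P.ρ - 2) (O := ({0}ᶜ : Set ℂ)) isOpen_compl_singleton
      (φ := fun l => act P.w l y) fun l _ =>
        (analytic_act (l, y)).comp_of_eq (analyticAt_id.prod analyticAt_const) rfl).mono le_rfl
      fun z ⟨l, hl, h⟩ => ⟨l, ⟨hl, ?_⟩, h⟩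
    have h1 := LinearMap.finrank_range_le (fderiv ℂ (fun l => act P.w l y) l).toLinearMap
    rw [Module.finrank_self] at h1
    omega

end Vale.Agent.P292
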