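import Vale.Agent.P292.KFact

/-! Compactness of the space of conics modulo scaling. -/

set_option maxSynthPendingDepth 3
set_option linter.unusedSectionVars false

open scoped Topology
open Set Filter Asymptotics

noncomputable section

namespace Vale.Agent.P292

variable {κ : Type} [Fintype κ]

variable {w : κ → ℕ}

theorem KCpt_rs (ρ : ℂ) (x : Co w 2 × ℂ) : rs w 0 (rs w ρ x) = rs w 0 x := by
  refine Prod.ext (funext fun i => funext fun j => ?_) (by simp [rs])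
  simp only [rs, ← mul_assoc, ← mul_pow, zero_mul]

theorem KCpt_grow (x : Co w 2 × ℂ) {ρ : ℝ} (hρ : 1 ≤ ρ) :
    ρ * ‖x - rs w 0 x‖ ≤ ‖rs w ρ x - rs w 0 x‖ := by
  have h0 : 0 ≤ ρ := zero_le_one.trans hρ
  have key : ∀ (m : ℕ) (c : ℂ), ρ * ‖c - 0 ^ m * c‖ ≤ ‖(ρ : ℂ) ^ m * c - 0 ^ m * c‖ := by
    intro m c
    rcases Nat.eq_zero_or_pos m with rfl | hm
    · simp
    · rw [zero_pow hm.ne', zero_mul, sub_zero, sub_zero, norm_mul, norm_pow, Complex.norm_real,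
        Real.norm_of_nonneg h0]
      exact mul_le_mul_of_nonneg_right (le_self_pow₀ hρ hm.ne') (norm_nonneg _)
  rw [← le_div_iff₀' (zero_lt_one.trans_le hρ)]
  have hn : 0 ≤ ‖rs w ρ x - rs w 0 x‖ / ρ := by positivity
  refine max_le ((pi_norm_le_iff_of_nonneg hn).2 fun i => (pi_norm_le_iff_of_nonneg hn).2 fun j =>
    ?_) ?_ <;> rw [le_div_iff₀' (zero_lt_one.trans_le hρ)]
  · exact (key _ _).trans (((norm_le_pi_norm ((rs w ρ x - rs w 0 x).1 i) j).trans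
      (norm_le_pi_norm _ i)).trans (norm_fst_le _))
  · refine le_trans ?_ (norm_snd_le _)
    have := key 2 x.2
    rwa [mul_comm _ x.2, mul_comm _ x.2] at this

theorem KCpt_bd (x : Co w 2 × ℂ) : ‖rs w 0 x‖ ≤ ‖yE w x.1‖ + ‖zE w x.1‖ := by
  have hn : 0 ≤ ‖yE w x.1‖ + ‖zE w x.1‖ := by positivity
  refine max_le ((pi_norm_le_iff_of_nonneg hn).2 fun i => (pi_norm_le_iff_of_nonneg hn).2 fun j =>
    ?_) (by simpa [rs] using hn)
  change ‖(0 : ℂ) ^ min (j : ℕ) (2 * w i - j) * x.1 i j‖ ≤ _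
  have hj := j.2
  rcases Nat.eq_zero_or_pos (min (j : ℕ) (2 * w i - j)) with h | h
  · rw [h, pow_zero, one_mul]
    rcases Nat.eq_zero_or_pos j with h' | h'
    · have e : yE w x.1 i = x.1 i j := by
        refine (Fintype.sum_eq_single j fun k hk => ?_).trans ?_
        · have : (k : ℕ) ≠ j := fun e => hk (Fin.ext e)
          rcases le_or_gt (k : ℕ) (w i) with h1 | h1
          · rw [zero_pow (n := min _ _) (by omega), mul_zero]
          · rw [zero_pow (n := _ - w i) (by omega), mul_zero, zero_mul]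
        · simp [h']
      exact e ▸ (norm_le_pi_norm _ i).trans (le_add_of_nonneg_right (norm_nonneg _))
    · have e : zE w x.1 i = x.1 i j := by
        refine (Fintype.sum_eq_single j fun k hk => ?_).trans ?_
        · have : (k : ℕ) ≠ j := fun e => hk (Fin.ext e)
          have hk := k.2
          rcases le_or_gt (w i) k with h1 | h1
          · rw [zero_pow (n := min _ _) (by omega), mul_zero]
          · rw [zero_pow (n := w i - _) (by omega), mul_zero, zero_mul, zero_mul]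
        · rw [h, show w i - j = 0 by omega]; simp
      exact e ▸ (norm_le_pi_norm _ i).trans (le_add_of_nonneg_left (norm_nonneg _))
  · rwa [zero_pow h.ne', zero_mul, norm_zero]

theorem KCpt_norm (hw : ∀ i, 0 < w i) {x : Co w 2 × ℂ} (h : x.2 ≠ 0 ∨ uE w x.1 ≠ 0) :
    ∃ ρ : ℂ, ρ ≠ 0 ∧ ‖rs w ρ x - rs w 0 x‖ = 1 := by
  have h0 : 0 < ‖x - rs w 0 x‖ := by
    refine norm_pos_iff.2 (sub_ne_zero.2 fun e => h.elim (fun h => h ?_) fun h => h ?_)
    · rw [e]; simp [rs]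
    · rw [e, uE, evQ_rs, ← act_zero hw (evQ w x.1 0), ← evQ_hom, zero_mul, zero_smul]
      rfl
  have hc : Continuous fun ρ : ℝ => ‖rs w ρ x - rs w 0 x‖ :=
    ((continuous_rs.comp (Complex.continuous_ofReal.prodMk continuous_const)).sub
      continuous_const).norm
  have h1 : 1 ≤ ‖rs w (max 1 ‖x - rs w 0 x‖⁻¹ : ℝ) x - rs w 0 x‖ :=
    le_trans (by rw [← inv_le_iff_one_le_mul₀ h0]; exact le_max_right _ _)
      (KCpt_grow x (le_max_left _ _))
  obtain ⟨ρ, hρ⟩ := intermediate_value_univ 0 _ hc ⟨by simp, h1⟩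
  refine ⟨ρ, fun e => ?_, hρ⟩
  simp [e] at hρ

theorem KCpt_line {P : Pre κ} {c : Co P.w 1} (hc : c ∈ P.M0 1) (h : ev P.w 1 c e1 = 0)
    (s r : ℂ) : ev P.w 1 c (s, r) = ev P.w 1 c (s, 0) := by
  obtain ⟨g, -, hg⟩ := Pre.fact (d := 0) hc (by simp [e1]) h
  refine (hg _).trans (Eq.trans ?_ (hg _).symm)
  rw [ev_const g (s, r) (s, 0)]
  simp [wg, e1]

theorem Pre.kk_subseq (P : Pre κ) {x : ℕ → Co P.w 2 × ℂ} (hx : ∀ n, x n ∈ P.KK) {y z : κ → ℂ}
    (hy : y ≠ 0) (hz : z ≠ 0) (h1 : Tendsto (fun n => yE P.w (x n).1) atTop (𝓝 y))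
    (h2 : Tendsto (fun n => zE P.w (x n).1) atTop (𝓝 z)) :
    ∃ (ρ : ℕ → ℂ) (φ : ℕ → ℕ) (x₀ : Co P.w 2 × ℂ), (∀ n, ρ n ≠ 0) ∧ StrictMono φ ∧ x₀ ∈ P.KK ∧
      Tendsto (fun n => rs P.w (ρ n) (x (φ n))) atTop (𝓝 x₀) := by
  choose ρ hρ hn using fun n => KCpt_norm P.w_pos (hx n).2.2.2
  obtain ⟨R, hR⟩ := (h1.norm.add h2.norm).bddAbove_range
  obtain ⟨x₀, -, φ, hφ, hl⟩ := tendsto_subseq_of_bounded
    (Metric.isBounded_closedBall (x := (0 : Co P.w 2 × ℂ)) (r := 1 + R))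
    (x := fun n => rs P.w (ρ n) (x n)) fun n => by
      rw [mem_closedBall_zero_iff]
      refine (norm_le_norm_sub_add _ (rs P.w 0 (x n))).trans ?_
      rw [hn]
      exact add_le_add le_rfl ((KCpt_bd _).trans (hR ⟨n, rfl⟩))
  have hf := (continuous_fst.tendsto _).comp hl
  have hm : ∀ σ ∈ Qc x₀.2, evQ P.w x₀.1 σ ∈ insert 0 P.C := fun σ₀ h₀ => by
    obtain ⟨σ, hσ, ht⟩ := Qc_approx ((continuous_snd.tendsto _).comp hl) h₀
    exact P.closed.mem_of_tendsto ((analytic_evQ (x₀.1, σ₀)).continuousAt.tendsto.comp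
      (hf.prodMk_nhds ht)) (Eventually.of_forall fun n => (Pre.rs_KK (hρ _) (hx _)).1 _ (hσ n))
  have ey : yE P.w x₀.1 = y := tendsto_nhds_unique
    (((evQL P.w (1, 0, 0)).continuous.tendsto _).comp hf)
    ((h1.comp hφ.tendsto_atTop).congr fun n => (rs_ends _ (hρ _)).1.symm)
  have ez : zE P.w x₀.1 = z := tendsto_nhds_unique
    (((evQL P.w (0, 1, 0)).continuous.tendsto _).comp hf)
    ((h2.comp hφ.tendsto_atTop).congr fun n => (rs_ends _ (hρ _)).2.1.symm)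
  have e1 : ‖x₀ - rs P.w 0 x₀‖ = 1 := tendsto_nhds_unique
    (hl.sub (((continuous_rs.comp (Continuous.prodMk_right 0)).tendsto _).comp hl)).norm
    (tendsto_const_nhds.congr fun n => by
      rw [← hn (φ n), ← KCpt_rs (ρ (φ n))]
      rfl)
  refine ⟨fun n => ρ (φ n), φ, x₀, fun n => hρ _, hφ, ⟨hm, ey ▸ hy, ez ▸ hz, ?_⟩, hl⟩
  by_contra h
  rw [not_or, not_not, not_not] at h
  have a1 := KCpt_line (c := l1 P.w x₀.1) (fun v => by
    rw [ev_l1 _ v.1 v.2]; exact hm _ (by simp [Qc, h.1])) ((l1_ends x₀.1).2.1.symm.trans h.2)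
  have a2 := KCpt_line (c := l2 P.w x₀.1) (fun v => by
    rw [ev_l2 _ v.1 v.2]; exact hm _ (by simp [Qc, h.1])) ((l2_ends x₀.1).2.1.symm.trans h.2)
  simp only [ev_l1, ev_l2] at a1 a2
  have : x₀ - rs P.w 0 x₀ = 0 := by
    refine Prod.ext (evQ_inj (ε := 0) fun ⟨s, t, r⟩ hσ _ => ?_) (by simp [rs, h.1])
    rw [← evQL_apply, Prod.fst_sub, map_sub, evQL_apply, evQL_apply, evQ_rs, zero_mul, sub_eq_zero]
    rcases mul_eq_zero.1 (hσ.trans (zero_mul _)) with rfl | rfl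
    · exact a2 _ _
    · exact a1 _ _
  rw [this, norm_zero] at e1
  exact zero_ne_one e1

end Vale.Agent.P292
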