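import Vale.Agent.P292.KMfd0

/-! The space of free curves is a manifold. Hints: `star_pt`: in a chart `π`, `χ` of the cone at `p`
the map `(q ↦ q - χ (π q))` vanishes on the cone; with `q' = χ (π q)` one has
`val q = val q - val q' = dG p (q - q') + o(‖q - q'‖)` (strict differentiability), `q - q'` lies in
the kernel of `π`, on which `dG p` is injective (`G.tan`), so `‖q - q'‖ ≤ C ‖val q‖`; the range
of `dG p` is closed. `mfd_M`: let `𝔾 c` be the coefficients of `val (ev c ·)` (`exists_co`;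
analytic because evaluation at finitely many points has a linear left inverse); apply `ift_star`
with `star_pt` at each `v` and `h1`; `M_nhds`. `free_open`: in a chart the values at `e0` of the
range of the differential of `ψ` stay spanning (`Pre.chart`), they lie in `J` by `tangent_J`;
`free_of_freeAt`. -/

set_option maxSynthPendingDepth 3

open scoped Topology
open Set Filter Asymptotics

noncomputable section

namespace Vale.Agent.P292

variable {κ α : Type} [Fintype κ] [Fintype α] {P : Pre κ}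

theorem KMfd_range {E B B' : Type} [NormedAddCommGroup E] [NormedSpace ℂ E]
    [FiniteDimensional ℂ E] [NormedAddCommGroup B] [NormedSpace ℂ B] [FiniteDimensional ℂ B]
    [NormedAddCommGroup B'] [NormedSpace ℂ B'] [FiniteDimensional ℂ B'] {Z : Set E} {e : E}
    {π : E →L[ℂ] B} {ψ : B → E} {π' : E →L[ℂ] B'} {ψ' : B' → E} (h : Chart Z e π ψ)
    (h' : Chart Z e π' ψ') (b : B') : ∃ a, fderiv ℂ ψ (π e) a = fderiv ℂ ψ' (π' e) b := by
  have h1 : (ψ ∘ π ∘ ψ') =ᶠ[𝓝 (π' e)] ψ' := by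
    filter_upwards [h'.right, h'.tendsto.eventually h.left] with z h1 h2 using h2 h1.1
  have h2 : HasFDerivAt ψ (fderiv ℂ ψ (π e)) ((π ∘ ψ') (π' e)) := by
    rw [Function.comp_apply, h'.self]
    exact h.an.differentiableAt.hasFDerivAt
  have h3 := (h2.comp _ (π.hasFDerivAt.comp _ h'.an.differentiableAt.hasFDerivAt)).fderiv
  rw [h1.fderiv_eq] at h3
  exact ⟨π (fderiv ℂ ψ' (π' e) b), (DFunLike.congr_fun h3 b).symm⟩

theorem KMfd_surj {X A B : Type} [TopologicalSpace X] [NormedAddCommGroup A] [NormedSpace ℂ A]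
    [NormedAddCommGroup B] [NormedSpace ℂ B] [FiniteDimensional ℂ B] {L : X → A →L[ℂ] B} {x : X}
    (h : ContinuousAt L x) (hs : Function.Surjective (L x)) :
    ∀ᶠ y in 𝓝 x, Function.Surjective (L y) := by
  have := FiniteDimensional.complete ℂ B
  obtain ⟨R, hR⟩ := (L x : A →ₗ[ℂ] B).exists_rightInverse_of_surjective
    (LinearMap.range_eq_top.2 hs)
  have h1 : ContinuousAt (fun y => (L y).comp R.toContinuousLinearMap) x :=
    h.clm_comp continuousAt_const
  have h2 := h1.preimage_mem_nhds ((ContinuousLinearEquiv.isOpen (𝕜 := ℂ) (E := B) (F := B)).mem_nhds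
    ⟨ContinuousLinearEquiv.refl ℂ B, by ext1 b; exact (LinearMap.congr_fun hR b).symm⟩)
  filter_upwards [h2] with y ⟨u, hu⟩ b
  obtain ⟨a, ha⟩ := u.surjective b
  exact ⟨R a, (DFunLike.congr_fun hu a).symm.trans ha⟩

theorem KMfd_congr {F : Type} [NormedAddCommGroup F] [NormedSpace ℂ F] {Z Z' : Set F}
    (h : LocAn Z) (hs : Z' ⊆ Z) (h' : ∀ x ∈ Z', ∀ᶠ y in 𝓝 x, y ∈ Z → y ∈ Z') : LocAn Z' := by
  have : Z' = Z ∩ interior {y | y ∈ Z → y ∈ Z'} :=
    Subset.antisymm (fun x hx => ⟨hs hx, mem_interior_iff_mem_nhds.2 (h' x hx)⟩)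
      fun x hx => interior_subset hx.2 hx.1
  rw [this]
  exact h.inter (locAn_of_isOpen isOpen_interior)

theorem KMfd_zero {F ι : Type} [NormedAddCommGroup F] [NormedSpace ℂ F] (G : P.Eqs α)
    {g : ι → F → κ → ℂ} (hg : ∀ i x, AnalyticAt ℂ (g i) x) :
    LocAn {x | ∀ i, g i x ∈ insert 0 P.C} := fun x _ => by
  refine ⟨univ, range fun p : ι × α => fun y => MvPolynomial.eval (g p.1 y) (G.G p.2), isOpen_univ,
    trivial, ?_, ?_⟩
  · rintro _ ⟨p, rfl⟩ y -
    exact (AnalyticOnNhd.eval_mvPolynomial (G.G p.2) _ trivial).comp (hg p.1 y)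
  · ext y
    simp only [← G.zero, inter_univ, mem_ofPred_eq, mem_univ, true_and, forall_mem_range,
      Prod.forall]

theorem KMfd_act {p : κ → ℂ} (h : p ∈ insert 0 P.C) {l : ℂ} (hl : l ≠ 0) :
    act P.w l p ∈ insert 0 P.C :=
  h.elim (fun e => Or.inl (by rw [e, map_zero])) fun h => Or.inr (P.act_mem p h l hl)

theorem KMfd_Q (G : P.Eqs α) :
    LocAn {x : Co P.w 2 × ℂ | ∀ σ ∈ Qc x.2, evQ P.w x.1 σ ∈ insert 0 P.C} := by
  have h0 : ∀ (f : Co P.w 2 × ℂ → ℂ × ℂ × ℂ) x, AnalyticAt ℂ f x →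
      AnalyticAt ℂ (fun x : Co P.w 2 × ℂ => evQ P.w x.1 (f x)) x := fun f x hf =>
    ((analytic_evQ (x.1, f x)).comp (f := fun x : Co P.w 2 × ℂ => (x.1, f x))
      (analyticAt_fst.prod hf) :)
  have h1 := KMfd_zero G (g := fun (t : ℂ) (x : Co P.w 2 × ℂ) => evQ P.w x.1 (1, x.2 * t ^ 2, t))
    fun t x => h0 _ x (analyticAt_const.prod
      ((analyticAt_snd.mul analyticAt_const).prod analyticAt_const))
  have h2 := KMfd_zero G (g := fun (t : ℂ) (x : Co P.w 2 × ℂ) => evQ P.w x.1 (x.2 * t ^ 2, 1, t))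
    fun t x => h0 _ x ((analyticAt_snd.mul analyticAt_const).prod analyticAt_const)
  convert h1.inter h2 using 1
  ext x
  refine ⟨fun h => ⟨fun t => h _ (one_mul _), fun t => h _ (mul_one _)⟩, fun ⟨a, b⟩ => ?_⟩
  have ha : ∀ s t r : ℂ, s * t = x.2 * r ^ 2 → s ≠ 0 → evQ P.w x.1 (s, t, r) ∈ insert 0 P.C :=
    fun s t r h hs => by
      have := KMfd_act (a (r / s)) hs
      rw [← evQ_hom] at this
      convert this using 2
      refine Prod.ext (mul_one _).symm (Prod.ext ?_ ?_)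
      · change t = s * (x.2 * (r / s) ^ 2)
        field_simp
        linear_combination h
      · change r = s * (r / s)
        field_simp
  rintro ⟨s, t, r⟩ (h : s * t = x.2 * r ^ 2)
  by_cases ht : t = 0
  · subst ht
    have h3 : ContinuousAt (fun s' : ℂ => evQ P.w x.1 (s', 0, r)) s :=
      ((analytic_evQ (x.1, s, 0, r)).continuousAt.comp (f := fun s' : ℂ => (x.1, s', (0 : ℂ), r))
        (by fun_prop) :)
    have := HB_neBot (countable_singleton 0) s
    refine P.closed.mem_of_tendsto (h3.tendsto.mono_left (nhdsWithin_le_nhds (s := {0}ᶜ))) ?_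
    filter_upwards [self_mem_nhdsWithin] with s' hs' using ha s' 0 r (by simpa using h) hs'
  · have := KMfd_act (b (r / t)) ht
    rw [← evQ_hom] at this
    convert this using 2
    refine Prod.ext ?_ (Prod.ext (mul_one _).symm ?_)
    · change s = t * (x.2 * (r / t) ^ 2)
      field_simp
      linear_combination h
    · change r = t * (r / t)
      field_simp

namespace Pre

variable (G : P.Eqs α) {d : ℕ} {c : Co P.w d}

include G

theorem free_open (hc : c ∈ P.M d) (hf : P.Free d c) :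
    ∀ᶠ c' in 𝓝 c, c' ∈ P.M d → P.Free d c' := by
  obtain ⟨k, π, ψ, hψ, hr⟩ := mfd_M G hc hf
  have he : e0 ≠ 0 := by simp [e0]
  obtain ⟨π₀, χ, -, hχ⟩ := P.chart (hc e0 he)
  have h1 : ContinuousAt (fun c' => (π₀.comp (evL P.w d e0)).comp (fderiv ℂ ψ (π c'))) c :=
    continuousAt_const.clm_comp (hψ.an.fderiv.continuousAt.comp π.continuous.continuousAt)
  have h2 := KMfd_surj h1 fun b => by
    obtain ⟨τ, hτ, rfl⟩ := (hχ.self_of_nhds (hc e0 he)).2.1 b
    obtain ⟨δ, hδ, rfl⟩ := hf e0 he τ hτ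
    rw [← hr] at hδ
    obtain ⟨a, rfl⟩ := hδ
    exact ⟨a, rfl⟩
  filter_upwards [h2, hψ.nearby, (evL P.w d e0).continuous.continuousAt.eventually hχ]
    with c' h2 h3 h4 hc'
  refine free_of_freeAt G hc' he fun τ hτ => ?_
  obtain ⟨a, ha⟩ := h2 (π₀ τ)
  have h5 := tangent_J (h3 hc').an.differentiableAt ((h3 hc').right.mono fun _ h => h.1) a
  rw [(h3 hc').self] at h5
  exact ⟨_, h5, sub_eq_zero.1 ((h4 (hc' e0 he)).2.2 _ (sub_mem (h5 e0 he) hτ)
    (by rw [map_sub, sub_eq_zero]; exact ha))⟩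

theorem locAn_M (d : ℕ) : LocAn (P.M d) := by
  refine KMfd_congr (KMfd_zero G (g := fun (v : {v : ℂ × ℂ // v ≠ 0}) c => ev P.w d c v)
    fun v c => (evL P.w d v).analyticAt c) (fun c hc v => Or.inr (hc v v.2)) fun c hc => ?_
  exact (M_nhds hc).mono fun c' h h' => h fun v hv => h' ⟨v, hv⟩

theorem locAn_MQ : LocAn P.MQ := by
  exact KMfd_congr (KMfd_Q G) (fun x hx => (MQ_sub hx).1) fun x hx => MQ_nhds hx

theorem locAn_KK : LocAn P.KK := by
  have h : ∀ σ, Continuous fun x : Co P.w 2 × ℂ => evQ P.w x.1 σ := fun σ =>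
    (evQL P.w σ).continuous.comp continuous_fst
  exact (KMfd_Q G).inter (locAn_of_isOpen ((isOpen_ne_fun (h _) continuous_const).inter
    ((isOpen_ne_fun (h _) continuous_const).inter ((isOpen_ne_fun continuous_snd
      continuous_const).union (isOpen_ne_fun (h _) continuous_const)))))

/-- a chart on a ball in which all curves are free -/
theorem free_chart (hc : c ∈ P.M d) (hf : P.Free d c) : ∃ (k : ℕ)
    (π : Co P.w d →L[ℂ] Fin k → ℂ) (ψ : (Fin k → ℂ) → Co P.w d) (r : ℝ), Chart (P.M d) c π ψ ∧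
      0 < r ∧ AnalyticOnNhd ℂ ψ (Metric.ball (π c) r) ∧ ∀ z ∈ Metric.ball (π c) r,
        ψ z ∈ P.M d ∧ π (ψ z) = z ∧ ∀ v, v ≠ 0 → ∀ τ ∈ P.T (ev P.w d (ψ z) v),
          ∃ h, ev P.w d (fderiv ℂ ψ z h) v = τ := by
  obtain ⟨k, π, ψ, hψ, -⟩ := mfd_M G hc hf
  obtain ⟨r, hr, h⟩ := Metric.eventually_nhds_iff_ball.1 (hψ.an.eventually_analyticAt.and
    (hψ.right.and (hψ.tendsto.eventually (hψ.nearby.and (free_open G hc hf)))))
  refine ⟨k, π, ψ, r, hψ, hr, fun z hz => (h z hz).1, fun z hz => ?_⟩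
  obtain ⟨-, ⟨h1, h2⟩, h3, h4⟩ := h z hz
  refine ⟨h1, h2, fun v hv τ hτ => ?_⟩
  obtain ⟨δ, hδ, rfl⟩ := h4 h1 v hv τ hτ
  obtain ⟨k', π', ψ', h5, h6⟩ := mfd_M G h1 (h4 h1)
  rw [← h6] at hδ
  obtain ⟨b, rfl⟩ := hδ
  obtain ⟨a, ha⟩ := KMfd_range (h3 h1) h5 b
  rw [h2] at ha
  exact ⟨a, congrArg (ev P.w d · v) ha⟩

end Pre

end Vale.Agent.P292
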