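import Vale.Agent.P292.KNeck
import Vale.Agent.P292.KCpt
import Vale.Agent.P292.KMfd

/-! The many-valued Hamiltonian field. Hints: split `KK` into `ε = 0` and `ε ≠ 0`; on each part
`cq` is relatively analytic (`anRel_theta`, `anRel_om`, `KK_tangent`). `cq • dE` is invariant
under `rs ρ` and equivariant under `ts l`. Compactness by sequences: `kk_subseq`,
`cq_continuousOn`. -/

set_option maxSynthPendingDepth 3

open scoped Topology
open Set Filter Asymptotics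

noncomputable section

namespace Vale.Agent.P292

variable {κ α : Type} [Fintype κ] [Fintype α] {P : Pre κ}

theorem KGam_comp {F F' F'' : Type} [NormedAddCommGroup F] [NormedSpace ℂ F]
    [NormedAddCommGroup F'] [NormedSpace ℂ F'] [NormedAddCommGroup F''] [NormedSpace ℂ F'']
    {T : Set F'} {g : F' → F''} (h : AnRel T g) {S : Set F} {φ : F → F'}
    (hφ : ∀ x, AnalyticAt ℂ φ x) (hS : MapsTo φ S T) : AnRel S fun x => g (φ x) := by
  intro x hx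
  obtain ⟨g', h1, h2⟩ := h _ (hS hx)
  exact ⟨fun x => g' (φ x), h1.comp (hφ x),
    ((hφ x).continuousAt.eventually h2).mono fun y hy hy' => hy (hS hy')⟩

theorem KGam_lin {w : κ → ℕ} {f : Co w 2 → κ → ℂ} (L : Co w 2 →L[ℂ] κ → ℂ) (h : ∀ c, L c = f c)
    (x : Co w 2 × ℂ) : AnalyticAt ℂ (fun x : Co w 2 × ℂ => f x.1) x := by
  have e : (fun x : Co w 2 × ℂ => f x.1) = L.comp (ContinuousLinearMap.fst ℂ (Co w 2) ℂ) :=
    funext fun x => (h x.1).symm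
  rw [e]
  exact ContinuousLinearMap.analyticAt _ x

theorem KGam_ev {w : κ → ℕ} (σ : ℂ × ℂ × ℂ) (x : Co w 2 × ℂ) :
    AnalyticAt ℂ (fun x : Co w 2 × ℂ => evQ w x.1 σ) x :=
  KGam_lin (f := fun c => evQ w c σ) (evQL w σ) (fun _ => rfl) x

theorem KGam_dev {w : κ → ℕ} (σ e : ℂ × ℂ × ℂ) (x : Co w 2 × ℂ) :
    AnalyticAt ℂ (fun x : Co w 2 × ℂ => fderiv ℂ (evQ w x.1) σ e) x := by
  obtain ⟨L, hL⟩ := exists_devQL (w := w) σ e
  exact KGam_lin (f := fun c => fderiv ℂ (evQ w c) σ e) L hL x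

/-- from the scalar function to the pair -/
theorem KGam_pair {w : κ → ℕ} {S : Set (Co w 2 × ℂ)} {q : Co w 2 × ℂ → ℂ} (h : AnRel S q) :
    AnRel S fun x => (zE w x.1, q x • dE w x.1) := by
  intro x hx
  obtain ⟨g', h1, h2⟩ := h x hx
  refine ⟨fun x => (zE w x.1, g' x • dE w x.1),
    (KGam_ev _ x).prod (h1.smul (KGam_dev _ _ x)), h2.mono fun y hy hy' => ?_⟩
  exact congrArg (fun t => (zE w y.1, t • dE w y.1)) (hy hy')

namespace Pre

theorem cq_rs {ρ : ℂ} (hρ : ρ ≠ 0) {x : Co P.w 2 × ℂ} (hx : x ∈ P.KK) :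
    P.cq (rs P.w ρ x) = ρ⁻¹ * P.cq x := by
  obtain ⟨h1, h2, h3, h4, h5, h6⟩ := rs_ends (w := P.w) x hρ
  obtain ⟨-, -, -, k4⟩ := KK_tangent hx
  by_cases h0 : x.2 = 0
  · obtain ⟨k1, k2, k3⟩ := k4 h0
    have e : (rs P.w ρ x).2 = 0 := by simp [rs, h0]
    rw [cq, cq, if_pos e, if_pos h0, h3, h5, h6]
    simp only [map_smul, smul_apply, smul_eq_mul]
    rw [P.om_act _ k1 ρ hρ _ k2 _ k3]
    field_simp
  · have e : (rs P.w ρ x).2 = x.2 * ρ ^ 2 := rfl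
    rw [cq, cq, if_neg h0, if_neg (by rw [e]; exact mul_ne_zero h0 (pow_ne_zero _ hρ)), ct, ct,
      h2, h4, e, map_smul, smul_eq_mul]
    field_simp

theorem ct_ts {l : ℂ} (hl : l ≠ 0) {x : Co P.w 2 × ℂ} (hx : x ∈ P.KK) :
    P.cq (ts P.w l x) = l * P.cq x := by
  obtain ⟨h1, h2, h3, h4, h5, h6⟩ := ts_ends (w := P.w) x hl
  obtain ⟨-, k2, k3, -⟩ := KK_tangent hx
  have e : (ts P.w l x).2 = x.2 / l := rfl
  by_cases h0 : x.2 = 0
  · rw [cq, cq, if_pos (by rw [e, h0, zero_div]), if_pos h0, h3, h5, h6, map_smul, smul_eq_mul]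
    ring
  · rw [cq, cq, if_neg h0, if_neg (by rw [e]; exact div_ne_zero h0 hl), ct, ct, h2, h4, e,
      map_smul, smul_eq_mul, P.θ_act _ k2 l hl _ k3]
    field_simp

theorem gam_T {y : κ → ℂ} {p : (κ → ℂ) × (κ → ℂ)} (h : p ∈ P.Gam y) :
    p.1 ∈ P.C ∧ p.2 ∈ P.T p.1 := by
  obtain ⟨x, hx, -, h2, h3⟩ := h
  obtain ⟨-, k2, k3, -⟩ := KK_tangent hx
  rw [← h2, ← h3]
  exact ⟨k2, Submodule.smul_mem _ _ k3⟩

theorem gam_act {y z V : κ → ℂ} (h : (z, V) ∈ P.Gam y) {l : ℂ} (hl : l ≠ 0) :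
    (act P.w l z, act P.w l V) ∈ P.Gam y := by
  obtain ⟨x, hx, g1, g2, g3⟩ := h
  obtain ⟨h1, h2, -, h4, -, -⟩ := ts_ends (w := P.w) x hl
  refine ⟨ts P.w l x, ts_KK hl hx, h1.trans g1, h2.trans (congrArg _ g2), ?_⟩
  change P.cq x • dE P.w x.1 = V at g3
  rw [ct_ts hl hx, h4, ← g3, map_smul, smul_smul, mul_right_comm, mul_inv_cancel₀ hl, one_mul]

theorem gam_holIm (G : P.Eqs α) (y : κ → ℂ) : HolIm (P.Gam y) := by
  have hK : HolIm P.KK := (locAn_KK G).holIm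
  have hy : HolIm {x ∈ P.KK | yE P.w x.1 - y = 0} :=
    hK.zero (AnRel.of_analytic fun x _ => (KGam_ev _ x).sub analyticAt_const)
  have h0 := hy.zero (g := fun x => x.2) (AnRel.of_analytic fun x _ => analyticAt_snd)
  have h1 := hy.inter (locAn_of_isOpen (O := {x : Co P.w 2 × ℂ | x.2 ≠ 0})
    (isOpen_ne_fun continuous_snd continuous_const))
  have a0 : AnRel {x ∈ {x ∈ P.KK | yE P.w x.1 - y = 0} | x.2 = 0} P.cq := by
    have := KGam_comp (anRel_om (P := P))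
      (S := {x ∈ {x ∈ P.KK | yE P.w x.1 - y = 0} | x.2 = 0})
      (φ := fun x => (uE P.w x.1, aE P.w x.1, bE P.w x.1))
      (fun x => (KGam_ev _ x).prod ((KGam_dev _ _ x).prod (KGam_dev _ _ x)))
      fun x hx => (KK_tangent hx.1.1).2.2.2 hx.2
    intro x hx
    obtain ⟨g', k1, k2⟩ := this x hx
    refine ⟨fun x => -g' x, k1.neg, k2.mono fun z hz hz' => ?_⟩
    rw [cq, if_pos hz'.2]
    exact congrArg Neg.neg (hz hz')
  have a1 : AnRel ({x ∈ P.KK | yE P.w x.1 - y = 0} ∩ {x : Co P.w 2 × ℂ | x.2 ≠ 0}) P.cq := by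
    have := KGam_comp (anRel_theta (P := P))
      (S := {x ∈ P.KK | yE P.w x.1 - y = 0} ∩ {x : Co P.w 2 × ℂ | x.2 ≠ 0})
      (φ := fun x => (zE P.w x.1, dE P.w x.1))
      (fun x => (KGam_ev _ x).prod (KGam_dev _ _ x))
      fun x hx => ⟨(KK_tangent hx.1.1).2.1, (KK_tangent hx.1.1).2.2.1⟩
    intro x hx
    obtain ⟨g', k1, k2⟩ := this x hx
    refine ⟨fun x => g' x / x.2, k1.div analyticAt_snd hx.2, k2.mono fun z hz hz' => ?_⟩
    rw [cq, if_neg hz'.2]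
    exact congrArg (· / z.2) (hz hz')
  have key := (h0.image (KGam_pair a0)).union (h1.image (KGam_pair a1))
  rw [← image_union] at key
  have e : P.Gam y = (fun x : Co P.w 2 × ℂ => (zE P.w x.1, P.cq x • dE P.w x.1)) ''
      ({x ∈ {x ∈ P.KK | yE P.w x.1 - y = 0} | x.2 = 0} ∪
        {x ∈ P.KK | yE P.w x.1 - y = 0} ∩ {x : Co P.w 2 × ℂ | x.2 ≠ 0}) := by
    ext p
    constructor
    · rintro ⟨x, hx, k1, k2, k3⟩
      refine ⟨x, ?_, Prod.ext k2 k3⟩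
      by_cases h : x.2 = 0
      · exact Or.inl ⟨⟨hx, sub_eq_zero.2 k1⟩, h⟩
      · exact Or.inr ⟨⟨hx, sub_eq_zero.2 k1⟩, h⟩
    · rintro ⟨x, hx, rfl⟩
      have hx' : x ∈ P.KK ∧ yE P.w x.1 - y = 0 := hx.elim (fun h => h.1) fun h => h.1
      exact ⟨x, hx'.1, sub_eq_zero.1 hx'.2, rfl, rfl⟩
  rw [e]
  exact key

theorem gam_subseq {y : κ → ℂ} (hy : y ≠ 0) {z V : ℕ → κ → ℂ} (h : ∀ n, (z n, V n) ∈ P.Gam y)
    {z₀ : κ → ℂ} (hz₀ : z₀ ≠ 0) (hz : Tendsto z atTop (𝓝 z₀)) :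
    ∃ (φ : ℕ → ℕ) (V₀ : κ → ℂ), StrictMono φ ∧ (z₀, V₀) ∈ P.Gam y ∧
      Tendsto (fun n => V (φ n)) atTop (𝓝 V₀) := by
  choose x hx g1 g2 g3 using h
  simp only at g2 g3
  obtain ⟨ρ, φ, x₀, hρ, hφ, hx₀, hl⟩ := P.kk_subseq hx hy hz₀
    (by simpa only [g1] using tendsto_const_nhds) (by simpa only [g2] using hz)
  have r := fun n => rs_ends (w := P.w) (x (φ n)) (hρ n)
  have t1 : Tendsto (fun n => yE P.w (rs P.w (ρ n) (x (φ n))).1) atTop (𝓝 (yE P.w x₀.1)) :=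
    (KGam_ev (w := P.w) (1, 0, 0) x₀).continuousAt.tendsto.comp hl
  have t2 : Tendsto (fun n => zE P.w (rs P.w (ρ n) (x (φ n))).1) atTop (𝓝 (zE P.w x₀.1)) :=
    (KGam_ev (w := P.w) (0, 1, 0) x₀).continuousAt.tendsto.comp hl
  have t3 : Tendsto (fun n => dE P.w (rs P.w (ρ n) (x (φ n))).1) atTop (𝓝 (dE P.w x₀.1)) :=
    (KGam_dev (w := P.w) (0, 1, 0) (0, 0, 1) x₀).continuousAt.tendsto.comp hl
  have t4 : Tendsto (fun n => P.cq (rs P.w (ρ n) (x (φ n)))) atTop (𝓝 (P.cq x₀)) :=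
    (P.cq_continuousOn x₀ hx₀).tendsto.comp (tendsto_nhdsWithin_iff.2
      ⟨hl, Eventually.of_forall fun n => rs_KK (hρ n) (hx _)⟩)
  refine ⟨φ, P.cq x₀ • dE P.w x₀.1, hφ, ⟨x₀, hx₀, ?_, ?_, rfl⟩, (t4.smul t3).congr fun n => ?_⟩
  · exact tendsto_nhds_unique t1 (tendsto_const_nhds.congr fun n => ((r n).1.trans (g1 _)).symm)
  · exact tendsto_nhds_unique t2 ((hz.comp hφ.tendsto_atTop).congr fun n =>
      ((r n).2.1.trans (g2 _)).symm)
  · rw [cq_rs (hρ n) (hx _), (r n).2.2.2.1, ← g3, smul_smul, mul_right_comm,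
      inv_mul_cancel₀ (hρ n), one_mul]

theorem Good.nearby {y x : κ → ℂ} {K : (κ → ℂ) → ℂ} (h : P.Good y K x) :
    ∀ᶠ q in 𝓝 x, P.Good y K q := by
  filter_upwards [h.1.eventually_analyticAt, h.2.eventually_nhds] with q h1 h2
  exact ⟨h1, h2⟩

theorem Good.hom {y x : κ → ℂ} {K : (κ → ℂ) → ℂ} (h : P.Good y K x) :
    ∀ᶠ p in 𝓝 ((1 : ℂ), x), p.2 ∈ P.C → K (act P.w p.1 p.2) = p.1 * K p.2 := by
  have h1 : ∀ᶠ q in 𝓝 (act P.w 1 x), AnalyticAt ℂ K q ∧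
      (q ∈ P.C → fderiv ℂ K q (eul P.w q) = K q) := by
    rw [act_one]
    filter_upwards [h.1.eventually_analyticAt, h.2] with q k1 k2
    exact ⟨k1, fun hq => (k2 hq).1⟩
  have h2 := (analytic_act (w := P.w) ((1 : ℂ), x)).continuousAt.eventually h1
  rw [nhds_prod_eq] at h2 ⊢
  obtain ⟨A, hA, B, hB, hAB⟩ := Filter.eventually_prod_iff.1 h2
  obtain ⟨r, hr, hrA⟩ := Metric.eventually_nhds_iff_ball.1 (hA.and (eventually_ne_nhds one_ne_zero))
  refine Filter.eventually_prod_iff.2 ⟨fun l => l ∈ Metric.ball (1 : ℂ) r,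
    Metric.ball_mem_nhds _ hr, B, hB, fun {l} hl {q} hq hC => ?_⟩
  have hd : ∀ m ∈ Metric.ball (1 : ℂ) r, HasDerivAt (fun m => K (act P.w m q) / m) 0 m := by
    intro m hm
    obtain ⟨k1, k0⟩ := hrA m hm
    obtain ⟨k2, k3⟩ := hAB k1 hq
    have k4 := k2.differentiableAt.hasFDerivAt.comp_hasDerivAt m (hasDerivAt_act (w := P.w) q k0)
    rw [map_smul, k3 (P.act_mem q hC m k0)] at k4
    have k5 := k4.div (hasDerivAt_id m) k0
    refine k5.congr_deriv ?_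
    simp only [Function.comp, id, smul_eq_mul]
    field_simp
    ring
  have := Metric.isOpen_ball.is_const_of_deriv_eq_zero (convex_ball (1 : ℂ) r).isPreconnected
    (fun m hm => (hd m hm).differentiableAt.differentiableWithinAt) (fun m hm => (hd m hm).deriv)
    hl (Metric.mem_ball_self hr)
  rw [act_one, div_one, div_eq_iff (hrA l hl).2] at this
  rw [this, mul_comm]

end Pre

end Vale.Agent.P292
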