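import Vale.Agent.P292.KFact0

/-! Base points have integral multiplicity. Hints for `fact`: after a change of parameter
`v₀ = (1, 0)` and `p t = ev c (1, t)` is a tuple of polynomials vanishing at `0`; if `p = 0` take
`h = 0`. Let `q` be the product of the weights and `a` the minimum of `ord (p i) * q / w i` over
the nonzero components, a positive integer. Then `h τ = act (τ ^ a)⁻¹ (p (τ ^ q))` is a tuple of
polynomials in `τ` with `h 0 ≠ 0`, `h τ ∈ C` for small `τ ≠ 0`, so `h 0 ∈ C` (closedness), and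
`h (ζ τ) = act (ζ ^ a)⁻¹ (h τ)` for `ζ ^ q = 1`. By `P.free` one gets `ζ ^ a = 1` for a primitive
root, so `q ∣ a` and `w i ≤ ord (p i)` for all `i`. Divide; the quotient has values in
`insert 0 C` off the line through `v₀`, hence everywhere. `deg_cases`: if `x.2 ≠ 0` and
`tw x.2 x.1` has a base point it is `act (wg v₀ v) (ev h v)` with `h` a line or a ghost
(`m0_one`); rescale with `rep`. If `x.2 = 0` one of the two components is a ghost. -/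

set_option maxSynthPendingDepth 3

open scoped Topology
open Set Filter Asymptotics

noncomputable section

namespace Vale.Agent.P292

variable {κ : Type} [Fintype κ]

namespace Pre

variable {P : Pre κ}

theorem KFact_free_rep {d : ℕ} {c : Co P.w d} (h : P.Free d c) {a b : ℂ × ℂ}
    (hab : wg a b ≠ 0) : P.Free d (rep P.w d a b c) := by
  intro v hv τ hτ
  rw [ev_rep] at hτ
  obtain ⟨δ, hδ, e⟩ := h _ (mk2_ne_zero hab hv) τ hτ
  refine ⟨rep P.w d a b δ, fun u hu => ?_, by rw [ev_rep, e]⟩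
  rw [ev_rep, ev_rep]
  exact hδ _ (mk2_ne_zero hab hu)

theorem KFact_base {d : ℕ} {c : Co P.w d} (hc : c ∈ P.M0 d) (h : c ∉ P.M d) :
    ∃ v, v ≠ 0 ∧ ev P.w d c v = 0 := by
  by_contra hn
  push Not at hn
  exact h fun v hv => (hc v).resolve_left (hn v hv)

theorem KFact_ne {l : ℂ} {u : κ → ℂ} (h : act P.w l u ≠ 0) : l ≠ 0 ∧ u ≠ 0 :=
  ⟨fun e => h (by rw [e, act_zero P.w_pos]), fun e => h (by rw [e, map_zero])⟩

theorem KFact_ghost {a b : ℂ} {u : κ → ℂ} (ha : act P.w a u ≠ 0) (hb : act P.w b u ≠ 0) :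
    ∃ l, l ≠ 0 ∧ act P.w l (act P.w a u) = act P.w b u :=
  ⟨b / a, div_ne_zero (KFact_ne hb).1 (KFact_ne ha).1, by
    rw [← act_mul, div_mul_cancel₀ _ (KFact_ne ha).1]⟩

theorem KFact_left {y z : κ → ℂ} {l : ℂ} (hl : l ≠ 0) (h : z ∈ P.Lam (act P.w l y)) :
    z ∈ P.Lam y := by
  rcases h with ⟨c, hc, h0, h1⟩ | ⟨m, hm, h⟩
  · refine Or.inl ⟨rep P.w 1 (l⁻¹ • e0) e1 c, rep_mem (by simp [wg, e0, e1, hl]) hc, ?_, ?_⟩
    · rw [ev_rep, mk2_e0, ev_hom, h0, pow_one, ← act_mul, inv_mul_cancel₀ hl, act_one]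
    · rw [ev_rep, mk2_e1, h1]
  · exact Or.inr ⟨m * l, mul_ne_zero hm hl, by rw [act_mul, h]⟩

theorem m0_one {c : Co P.w 1} (hc : c ∈ P.M0 1) : c ∈ P.M 1 ∨
    ∃ (v₀ : ℂ × ℂ) (u : κ → ℂ), u ∈ insert 0 P.C ∧ ∀ v, ev P.w 1 c v = act P.w (wg v₀ v) u := by
  by_cases h : c ∈ P.M 1
  · exact Or.inl h
  obtain ⟨v₀, hv, h0⟩ := KFact_base hc h
  obtain ⟨g, hg, e⟩ := fact (d := 0) hc hv h0
  exact Or.inr ⟨v₀, ev P.w 0 g 0, hg 0, fun v => (e v).trans (by rw [ev_const g v 0])⟩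

theorem KFact_line {c : Co P.w 1} (hc : c ∈ P.M0 1) {a b : ℂ × ℂ} (hab : wg a b ≠ 0)
    (ha : ev P.w 1 c a ≠ 0) (hb : ev P.w 1 c b ≠ 0) : ev P.w 1 c b ∈ P.Lam (ev P.w 1 c a) := by
  rcases m0_one hc with h | ⟨v₀, u, -, e⟩
  · exact Or.inl ⟨rep P.w 1 a b c, rep_mem hab h, by rw [ev_rep, mk2_e0], by rw [ev_rep, mk2_e1]⟩
  · rw [e] at ha hb ⊢
    rw [e]
    exact Or.inr (KFact_ghost ha hb)

theorem KFact_right {y z : κ → ℂ} (h : z ∈ P.Lam y) {l : ℂ} (hl : l ≠ 0) :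
    act P.w l z ∈ P.Lam y := by
  rcases h with ⟨c, hc, h0, h1⟩ | ⟨m, hm, h⟩
  · refine Or.inl ⟨rep P.w 1 e0 (l • e1) c, rep_mem (by simp [wg, e0, e1, hl]) hc, ?_, ?_⟩
    · rw [ev_rep, mk2_e0, h0]
    · rw [ev_rep, mk2_e1, ev_hom, h1, pow_one]
  · exact Or.inr ⟨l * m, mul_ne_zero hl hm, by rw [act_mul, h]⟩

theorem deg_cases {x : Co P.w 2 × ℂ} (hx : x ∈ P.KK) :
    x ∈ P.MQ ∨ zE P.w x.1 ∈ P.Lam (yE P.w x.1) := by
  obtain ⟨c, ε⟩ := x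
  have hy : yE P.w c ≠ 0 := hx.2.1
  have hz : zE P.w c ≠ 0 := hx.2.2.1
  have w01 : wg e0 e1 ≠ 0 := by simp [wg, e0, e1]
  have w10 : wg e1 e0 ≠ 0 := by simp [wg, e0, e1]
  show (c, ε) ∈ P.MQ ∨ zE P.w c ∈ P.Lam (yE P.w c)
  by_cases hε : ε = 0
  · subst hε
    have hu : uE P.w c ≠ 0 := hx.2.2.2.resolve_left fun h => h rfl
    obtain ⟨k1, k2⟩ := KK_M0_zero hx rfl
    obtain ⟨a1, a2, -⟩ := l1_ends c
    obtain ⟨b1, b2, -⟩ := l2_ends c
    rcases m0_one k1 with h1 | ⟨v₀, u, -, e⟩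
    · rcases m0_one k2 with h2 | ⟨v₀, u, -, e⟩
      · exact Or.inl (mem_MQ_zero.2 ⟨h1, h2⟩)
      · have h3 := KFact_line k1 w01 (a1 ▸ hy) (a2 ▸ hu)
        rw [← a1, ← a2] at h3
        rw [e] at b1 b2
        obtain ⟨l, hl, h4⟩ := KFact_ghost (b2 ▸ hu) (b1 ▸ hz)
        rw [← b1, ← b2] at h4
        exact Or.inr (h4 ▸ KFact_right h3 hl)
    · have h3 := KFact_line k2 w10 (b2 ▸ hu) (b1 ▸ hz)
      rw [← b1, ← b2] at h3
      rw [e] at a1 a2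
      obtain ⟨l, hl, h4⟩ := KFact_ghost (a1 ▸ hy) (a2 ▸ hu)
      rw [← a1, ← a2] at h4
      rw [← h4] at h3
      exact Or.inr (KFact_left hl h3)
  · by_cases hm : tw P.w ε c ∈ P.M 2
    · exact Or.inl ((mem_MQ_tw hε).2 hm)
    have k : tw P.w ε c ∈ P.M0 2 := KK_M0 (x := (c, ε)) hx
    obtain ⟨v₀, hv, h0⟩ := KFact_base k hm
    obtain ⟨g, hg, e⟩ := fact (d := 1) k hv h0
    obtain ⟨a1, a2⟩ := tw_ends P.w_pos c ε
    have b1 : act P.w (wg v₀ e0) (ev P.w 1 g e0) = yE P.w c := (e e0).symm.trans a1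
    have b2 : act P.w (wg v₀ e1) (ev P.w 1 g e1) = act P.w ε (zE P.w c) := (e e1).symm.trans a2
    obtain ⟨n1, n2⟩ := KFact_ne (b1 ▸ hy)
    obtain ⟨n3, n4⟩ := KFact_ne (b2 ▸ fun h => hz (act_eq_zero hε h))
    have h3 := KFact_right (KFact_right (KFact_line hg w01 n2 n4) n3) (inv_ne_zero hε)
    rw [b2, ← act_mul, inv_mul_cancel₀ hε, act_one] at h3
    refine Or.inr (KFact_left (inv_ne_zero n1) ?_)
    rwa [← b1, ← act_mul, inv_mul_cancel₀ n1, act_one]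

theorem lam_act {y z : κ → ℂ} (h : z ∈ P.Lam y) {l : ℂ} (hl : l ≠ 0) : act P.w l z ∈ P.Lam y := by
  exact KFact_right h hl

theorem bad_act {y z : κ → ℂ} (h : z ∈ P.Bad y) {l : ℂ} (hl : l ≠ 0) : act P.w l z ∈ P.Bad y := by
  obtain ⟨c, hc, h0, h1, h2⟩ := h
  obtain ⟨a1, a2, -⟩ := ts_ends (w := P.w) (c, 0) hl
  have h3 := ts_MQ hl hc
  have h4 : ts P.w l (c, 0) = ((ts P.w l (c, 0)).1, 0) := Prod.ext rfl (zero_div l)
  refine ⟨(ts P.w l (c, 0)).1, h4 ▸ h3, a1.trans h0, a2.trans (by rw [← h1]), fun h5 => h2 ?_⟩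
  have h6 : l2 P.w c = rep P.w 1 (l⁻¹ • e0) e1 (l2 P.w (ts P.w l (c, 0)).1) := by
    refine ev_inj (a := 0) (Eventually.of_forall fun v => ?_)
    have e : mk2 (l⁻¹ • e0) e1 v = (l⁻¹ * v.1, v.2) := by simp [mk2, e0, e1, mul_comm]
    rw [ev_rep, e, ev_l2 (ts P.w l (c, 0)).1, evQ_ts, ← mul_assoc, mul_inv_cancel₀ hl, one_mul]
    exact ev_l2 c v.1 v.2
  rw [h6]
  exact KFact_free_rep h5 (by simp [wg, e0, e1, hl])

theorem Free.rep {d : ℕ} {c : Co P.w d} (h : P.Free d c) {a b : ℂ × ℂ} (hab : wg a b ≠ 0) :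
    P.Free d (rep P.w d a b c) := by
  exact KFact_free_rep h hab

end Pre

end Vale.Agent.P292
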