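import Vale.Agent.P292.KHom0

/-! Homogeneous holomorphic functions on the punctured plane. Hints: `t ↦ g (1, t)` is entire and
equals `t ^ k g (t⁻¹, 1)` for `t ≠ 0`, so it grows at most like `‖t‖ ^ k`; generalized Liouville
theorem (induction with `dslope`, or Cauchy estimates and the Taylor series). On `v.1 = 0` use
continuity. `Jr.div`: each component is a binary form (or zero if the degree is negative) which
vanishes at `a`; divide by the linear form `wg a v` (change the parameter, or factor theorem);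
the tangency at the multiples of `a` follows by continuity since `P.T` is closed
(`Pre.mem_T_of_tendsto` is proved here from `P.loc`: near `p`, a vector `v` is tangent at `q` iff
`fderiv χ (π q) (π v) = v`). -/

set_option maxSynthPendingDepth 3

open scoped Topology
open Set Filter Asymptotics

noncomputable section

namespace Vale.Agent.P292

variable {κ : Type} [Fintype κ]

theorem KHom_b {a : ℂ × ℂ} (ha : a ≠ 0) : ∃ b, wg a b = 1 := by
  by_cases h : a.1 = 0
  · have h2 : a.2 ≠ 0 := fun h2 => ha (Prod.ext h h2)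
    exact ⟨(-a.2⁻¹, 0), by simp [wg, h2]⟩
  · exact ⟨(0, a.1⁻¹), by simp [wg, h]⟩

theorem KHom_div {n : ℤ} {g : ℂ × ℂ → ℂ} (hd : DifferentiableOn ℂ g {0}ᶜ)
    (hh : ∀ l : ℂ, l ≠ 0 → ∀ v, v ≠ 0 → g (l • v) = l ^ n * g v) {a : ℂ × ℂ} (ha : a ≠ 0)
    (h0 : g a = 0) : ∃ η : ℂ × ℂ → ℂ, Differentiable ℂ η ∧
      (∀ l : ℂ, l ≠ 0 → ∀ v, η (l • v) = l ^ (n - 1) * η v) ∧
      ∀ v, v ≠ 0 → g v = wg a v * η v := by
  rcases lt_or_ge n 0 with hn | hn
  · exact ⟨fun _ => 0, differentiable_const _, fun _ _ _ => (mul_zero _).symm,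
      fun v hv => (hom_neg hn hd hh v hv).trans (mul_zero _).symm⟩
  obtain ⟨n, rfl⟩ := Int.eq_ofNat_of_zero_le hn
  obtain ⟨b, hb⟩ := KHom_b ha
  have hb' : wg a b ≠ 0 := hb ▸ one_ne_zero
  have h1 : ∀ (l : ℂ) v, mk2 a b (l • v) = l • mk2 a b v := fun l v => by
    simp only [mk2, Prod.smul_fst, Prod.smul_snd, smul_add, smul_assoc]
  obtain ⟨c, hc⟩ := hom_poly (k := n) (g := fun u => g (mk2 a b u))
    (hd.comp (f := mk2 a b) (Differentiable.differentiableOn (by unfold mk2; fun_prop))
      fun v hv => mk2_ne_zero hb' hv)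
    fun l hl v hv => by rw [h1, hh l hl _ (mk2_ne_zero hb' hv), zpow_natCast]
  have h2 : c 0 = 0 := by
    have h3 := hc e0 fun h => one_ne_zero (congrArg Prod.fst h)
    rw [mk2_e0, h0, Fin.sum_univ_succ] at h3
    simpa [e0] using h3.symm
  refine ⟨fun v => ∑ j : Fin n, c j.succ * wg v b ^ (n - (j + 1)) * wg a v ^ (j : ℕ), ?_,
    fun l hl v => ?_, fun v hv => ?_⟩
  · unfold wg
    fun_prop
  · have h3 : wg (l • v) b = l * wg v b := by
      simp only [wg, Prod.smul_fst, Prod.smul_snd, smul_eq_mul]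
      ring
    have h4 : wg a (l • v) = l * wg a v := by
      simp only [wg, Prod.smul_fst, Prod.smul_snd, smul_eq_mul]
      ring
    simp only [h3, h4, Finset.mul_sum]
    refine Finset.sum_congr rfl fun j _ => ?_
    have h5 : (n : ℤ) - 1 = ((n - (j + 1) + j : ℕ) : ℤ) := by
      have := j.2
      omega
    rw [h5, zpow_natCast, pow_add, mul_pow, mul_pow]
    ring
  · have h3 : mk2 a b (wg v b, wg a v) = v := by
      unfold wg at hb
      ext
      · simp only [mk2, wg, Prod.fst_add, Prod.smul_fst, smul_eq_mul]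
        linear_combination v.1 * hb
      · simp only [mk2, wg, Prod.snd_add, Prod.smul_snd, smul_eq_mul]
        linear_combination v.2 * hb
    have h4 := hc (wg v b, wg a v) fun h => hv (by rw [← h3, h]; simp [mk2])
    rw [h3, Fin.sum_univ_succ, h2, zero_mul, zero_mul, zero_add] at h4
    rw [h4, Finset.mul_sum]
    refine Finset.sum_congr rfl fun j _ => ?_
    simp only [Fin.val_succ]
    ring

namespace Pre

variable {P : Pre κ} {d : ℕ} {c : Co P.w d}

theorem Jr.div (hc : c ∈ P.M d) {k : ℤ} {ξ : ℂ × ℂ → κ → ℂ} (h : P.Jr d k c ξ) {a : ℂ × ℂ}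
    (ha : a ≠ 0) (h0 : ξ a = 0) :
    ∃ η, P.Jr d (k - 1) c η ∧ ∀ v, v ≠ 0 → ξ v = wg a v • η v := by
  choose η h1 h2 h3 using fun i => KHom_div (n := k + (d * P.w i : ℕ)) (g := fun v => ξ v i)
    (differentiableOn_pi.1 h.diff i) (fun l hl v hv => by
      rw [h.hom l hl v hv, Pi.smul_apply, act_apply, zpow_add₀ hl, zpow_natCast, pow_mul,
        smul_eq_mul, mul_assoc]) ha (congrFun h0 i)
  have h4 : Differentiable ℂ fun v i => η i v := differentiable_pi.2 h1
  have h5 : ∀ v, v ≠ 0 → ξ v = wg a v • fun i => η i v := fun v hv => funext fun i => h3 i v hv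
  have h6 : ∀ v, wg a v ≠ 0 → v ≠ 0 := fun v hv h7 => hv (by simp [h7, wg])
  have h7 : ∀ v, wg a v ≠ 0 → (fun i => η i v) ∈ P.T (ev P.w d c v) := fun v hv => by
    have h8 := Submodule.smul_mem _ (wg a v)⁻¹ (h.mem v (h6 v hv))
    rwa [h5 v (h6 v hv), inv_smul_smul₀ hv] at h8
  refine ⟨fun v i => η i v, ⟨h4.differentiableOn, fun l hl v _ => funext fun i => ?_,
    fun v hv => ?_⟩, h5⟩
  · rw [h2 i l hl, Pi.smul_apply, act_apply, add_sub_right_comm, zpow_add₀ hl, zpow_natCast,
      pow_mul, smul_eq_mul, mul_assoc]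
  · by_cases h8 : wg a v = 0
    · obtain ⟨b, hb⟩ := KHom_b ha
      have h9 : Tendsto (fun s : ℂ => v + s • b) (𝓝[≠] 0) (𝓝 v) := by
        have h10 : Continuous fun s : ℂ => v + s • b := by fun_prop
        simpa using (h10.tendsto 0).mono_left nhdsWithin_le_nhds
      refine mem_T_of_tendsto (hc v hv) ((analytic_ev_right c v).continuousAt.tendsto.comp h9)
        ((h4.continuous.tendsto v).comp h9) ?_
      filter_upwards [self_mem_nhdsWithin] with s hs
      have h10 : wg a (v + s • b) = s := by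
        unfold wg at hb h8
        simp only [wg, Prod.fst_add, Prod.snd_add, Prod.smul_fst, Prod.smul_snd, smul_eq_mul]
        linear_combination h8 + s * hb
      have h11 : wg a (v + s • b) ≠ 0 := h10.symm ▸ hs
      exact ⟨hc _ (h6 _ h11), h7 _ h11⟩
    · exact h7 v h8

/-- the tangent vectors of the curve are values of deformations -/
theorem exists_J_fderiv (hc : c ∈ P.M d) (a e : ℂ × ℂ) :
    ∃ δ ∈ P.J d c, ∀ v, v ≠ 0 → ev P.w d δ v = wg a v • fderiv ℂ (ev P.w d c) v e := by
  have h := (jr_fderiv hc e).mul_lin a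
  rw [neg_add_cancel] at h
  obtain ⟨δ, h1, h2⟩ := h.exists_co
  exact ⟨δ, h1, fun v hv => (h2 v hv).symm⟩

end Pre

end Vale.Agent.P292
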