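import Vale.Agent.P292.KPid
import Vale.Agent.P292.KFact
import Vale.Agent.P292.KHom

/-! Vanishing of the first cohomology for curves which are free at one point. Hints: after a change
of parameter (`rep`, `Free.rep`) the curve is free at `e0`; choose `ξ_1, ..., ξ_ρ ∈ J` whose values
at `e0` are a basis of the tangent space; `Ξ(t) = (ev ξ_j (1, t))` spans `T` for small `t`
(`Pre.finrank_T`). The matrices `A₀(t) = dG (ev c (1, t))`, `A₁(s) = dG (ev c (s, 1))` are
polynomial of constant rank (kernel `T`). A homogeneous field is determined by its restriction to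
either chart: `ξ (1, t) = act (t ^ d) (ξ (t⁻¹, 1))`. `h1`: solve on both charts (`poly_solve`):
`δ₀(t)`, `δ₁(s)`; the difference `σ(t) = act (t ^ d) (δ₁ t⁻¹) - δ₀ t` is tangent and `t ^ N σ` is
polynomial; apply `poly_split` and define the global field as `δ₀ + A t^N σ + ∑ g_j ξ_j` on the
first chart and `δ₁ - ∑ h_j ξ_j` on the second; then `exists_co`. `free_of_freeAt`: to prescribe
the value at `v₁`, not a multiple of `e0`, arrange `v₁ = e1`, take `δ₁` from `poly_ker` and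
`δ₀ = 0`; the correction vanishes at `s = 0`. -/

set_option maxSynthPendingDepth 3

open scoped Topology
open Set Filter Asymptotics

noncomputable section

namespace Vale.Agent.P292

variable {κ α : Type} [Fintype κ] [Fintype α] {P : Pre κ}

section Poly

open Polynomial

theorem KFree_fderiv (g : MvPolynomial κ ℂ) (p : κ → ℂ) :
    HasFDerivAt (fun q => MvPolynomial.eval q g) (∑ i, MvPolynomial.eval p (MvPolynomial.pderiv i g) •
      (ContinuousLinearMap.proj i : (κ → ℂ) →L[ℂ] ℂ)) p := by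
  classical
  induction g using MvPolynomial.induction_on with
  | C a => simpa using hasFDerivAt_const a p
  | add f g hf hg =>
    simp only [map_add, add_smul, Finset.sum_add_distrib]
    exact hf.add hg
  | mul_X f j hf =>
    have h := hf.mul (hasFDerivAt_apply (𝕜 := ℂ) j p)
    simp only [map_mul, MvPolynomial.eval_X]
    refine h.congr_fderiv ?_
    ext v
    simp [MvPolynomial.pderiv_X, Pi.single_apply, apply_ite, add_mul, Finset.sum_add_distrib,
      Finset.mul_sum, mul_assoc]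

theorem KFree_eval_act (w : κ → ℕ) (l : ℂ) (q : κ → ℂ) {g : MvPolynomial κ ℂ} {k : ℕ}
    (hg : MvPolynomial.IsWeightedHomogeneous w g k) :
    MvPolynomial.eval (act w l q) g = l ^ k * MvPolynomial.eval q g := by
  rw [MvPolynomial.eval_eq', MvPolynomial.eval_eq', Finset.mul_sum]
  refine Finset.sum_congr rfl fun d hd => ?_
  have h1 : Finsupp.weight w d = k := hg (MvPolynomial.mem_support_iff.1 hd)
  have h2 : k = ∑ i, w i * d i := by
    rw [← h1, Finsupp.weight_apply, Finsupp.sum_fintype _ _ (by simp)]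
    exact Finset.sum_congr rfl fun i _ => by rw [smul_eq_mul, mul_comm]
  have h3 : ∀ i, act w l q i ^ d i = l ^ (w i * d i) * q i ^ d i := fun i => by
    simp [act, mul_pow, pow_mul]
  rw [h2, ← Finset.prod_pow_eq_pow_sum, Finset.prod_congr rfl fun i _ => h3 i,
    Finset.prod_mul_distrib]
  ring

/-- the differential of the equations as a linear map -/
def KFree_L (G : P.Eqs α) (p : κ → ℂ) : (κ → ℂ) →ₗ[ℂ] α → ℂ :=
  LinearMap.pi fun a => (fderiv ℂ (fun q => MvPolynomial.eval q (G.G a)) p).toLinearMap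

omit [Fintype α] in
theorem KFree_L_apply (G : P.Eqs α) (p v : κ → ℂ) : KFree_L G p v = G.dG p v := rfl

omit [Fintype α] in
theorem KFree_zero_iff (G : P.Eqs α) {p v : κ → ℂ} (hp : p ∈ P.C) :
    KFree_L G p v = 0 ↔ v ∈ P.T p := by
  rw [G.tan p hp, funext_iff]
  rfl

theorem KFree_act (G : P.Eqs α) (l : ℂ) (p v : κ → ℂ) :
    KFree_L G (act P.w l p) (act P.w l v) = act G.deg l (KFree_L G p v) := by
  funext a
  have h1 := (KFree_fderiv (G.G a) (act P.w l p)).differentiableAt.hasFDerivAt.comp p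
    (act P.w l).hasFDerivAt
  have h2 := (KFree_fderiv (G.G a) p).differentiableAt.hasFDerivAt.const_mul (l ^ G.deg a)
  have h3 : (fun q => MvPolynomial.eval q (G.G a)) ∘ act P.w l =
      fun q => l ^ G.deg a * MvPolynomial.eval q (G.G a) :=
    funext fun q => KFree_eval_act P.w l q (G.hom a)
  rw [h3] at h1
  exact congrArg (fun L : (κ → ℂ) →L[ℂ] ℂ => L v) (h1.unique h2)

theorem KFree_mat (G : P.Eqs α) (p : κ → ℂ[X]) (hp : ∀ t, (fun i => (p i).eval t) ∈ P.C) :
    ∃ A : Matrix α κ ℂ[X], (∀ t, (A.map (eval t)).rank = Fintype.card κ - P.ρ) ∧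
      ∀ t τ, (A.map (eval t)).mulVec τ = KFree_L G (fun i => (p i).eval t) τ := by
  have h : ∀ t τ, ((Matrix.of fun a i => MvPolynomial.aeval p
      (MvPolynomial.pderiv i (G.G a))).map (eval t)).mulVec τ =
      KFree_L G (fun i => (p i).eval t) τ := by
    intro t τ
    funext a
    have h1 : ∀ g : MvPolynomial κ ℂ, (MvPolynomial.aeval p g).eval t =
        MvPolynomial.eval (fun i => (p i).eval t) g := fun g => by
      induction g using MvPolynomial.induction_on with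
      | C a => simp
      | add f g hf hg => simp only [map_add, eval_add, hf, hg]
      | mul_X f j hf => simp only [map_mul, eval_mul, hf, MvPolynomial.aeval_X, MvPolynomial.eval_X]
    rw [KFree_L_apply, Pre.Eqs.dG, (KFree_fderiv _ _).fderiv]
    simp [Matrix.mulVec, dotProduct, h1]
  refine ⟨_, fun t => ?_, h⟩
  have h1 := LinearMap.finrank_range_add_finrank_ker (KFree_L G fun i => (p i).eval t)
  have h2 : (KFree_L G fun i => (p i).eval t).ker = P.T fun i => (p i).eval t :=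
    Submodule.ext fun v => KFree_zero_iff G (hp t)
  rw [h2, P.finrank_T (hp t), Module.finrank_fintype_fun_eq_card] at h1
  have h3 : Matrix.mulVecLin _ = KFree_L G fun i => (p i).eval t := LinearMap.ext (h t)
  rw [Matrix.rank, h3]
  omega

omit [Fintype α] in
theorem KFree_mulVec (A : Matrix α κ ℂ[X]) (δ : κ → ℂ[X]) (t : ℂ) :
    (A.map (eval t)).mulVec (fun i => (δ i).eval t) = fun a => (A.mulVec δ a).eval t := by
  funext a
  simp [Matrix.mulVec, dotProduct, eval_finsetSum]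

/-- the restriction to the first chart -/
def KFree_p0 {w : κ → ℕ} {d : ℕ} (c : Co w d) (i : κ) : ℂ[X] := ∑ j, C (c i j) * X ^ (j : ℕ)

/-- the restriction to the second chart -/
def KFree_p1 {w : κ → ℕ} {d : ℕ} (c : Co w d) (i : κ) : ℂ[X] :=
  ∑ j, C (c i j) * X ^ (d * w i - j)

omit [Fintype κ] in
theorem KFree_p0_eval {w : κ → ℕ} {d : ℕ} (c : Co w d) (t : ℂ) :
    (fun i => (KFree_p0 c i).eval t) = ev w d c (1, t) := by
  funext i
  simp [KFree_p0, ev, eval_finsetSum]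

omit [Fintype κ] in
theorem KFree_p1_eval {w : κ → ℕ} {d : ℕ} (c : Co w d) (t : ℂ) :
    (fun i => (KFree_p1 c i).eval t) = ev w d c (t, 1) := by
  funext i
  simp [KFree_p1, ev, eval_finsetSum]

theorem KFree_reflect {r : ℂ[X]} {m : ℕ} (h : r.natDegree ≤ m) {t : ℂ} (ht : t ≠ 0) :
    (reflect m r).eval t = t ^ m * r.eval t⁻¹ := by
  let _ := invertibleOfNonzero (inv_ne_zero ht)
  have h1 := eval₂_reflect_mul_pow (RingHom.id ℂ) t⁻¹ m r h
  rw [invOf_eq_inv, inv_inv, eval₂_id, eval₂_id] at h1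
  rw [← h1, mul_left_comm, ← mul_pow, mul_inv_cancel₀ ht, one_pow, mul_one]

theorem KFree_deg {p r : ℂ[X]} {n : ℕ} (h : ∀ t : ℂ, t ≠ 0 → p.eval t = t ^ n * r.eval t⁻¹) :
    p.natDegree ≤ n ∧ p.coeff n = r.eval 0 := by
  have h1 : p * X ^ r.natDegree = reflect r.natDegree r * X ^ n := by
    refine eq_of_infinite_eval_eq _ _ (((Set.finite_singleton (0 : ℂ)).infinite_compl).mono ?_)
    intro t ht
    simp only [mem_setOf_eq, eval_mul, eval_pow, eval_X, h t ht, KFree_reflect le_rfl ht]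
    ring
  have h2 : ∀ k, p.coeff (k + n) = (reflect r.natDegree r).coeff (k + r.natDegree) := fun k => by
    rw [← coeff_mul_X_pow p r.natDegree, h1, add_right_comm, coeff_mul_X_pow]
  constructor
  · rw [natDegree_le_iff_coeff_eq_zero]
    intro k hk
    obtain ⟨k, rfl⟩ := Nat.exists_eq_add_of_lt hk
    rw [show n + k + 1 = k + 1 + n by ring, h2]
    apply coeff_eq_zero_of_natDegree_lt
    have := natDegree_reflect_le (N := r.natDegree) (p := r)
    rw [max_self] at this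
    omega
  · have := h2 0
    rwa [zero_add, zero_add, coeff_reflect, revAt_le le_rfl, Nat.sub_self,
      coeff_zero_eq_eval_zero] at this

theorem KFree_co {w : κ → ℕ} {d : ℕ} {p r : κ → ℂ[X]}
    (h : ∀ t : ℂ, t ≠ 0 → (fun i => (p i).eval t) = act w (t ^ d) fun i => (r i).eval t⁻¹) :
    ∃ δ : Co w d, (∀ t, ev w d δ (1, t) = fun i => (p i).eval t) ∧
      ev w d δ e1 = fun i => (r i).eval 0 := by
  have h1 : ∀ i, (p i).natDegree ≤ d * w i ∧ (p i).coeff (d * w i) = (r i).eval 0 := fun i =>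
    KFree_deg fun t ht => by rw [congrFun (h t ht) i, act_apply, pow_mul]
  refine ⟨fun i j => (p i).coeff j, fun t => funext fun i => ?_, funext fun i => ?_⟩
  · rw [eval_eq_sum_range' (Nat.lt_succ_of_le (h1 i).1), Finset.sum_range]
    simp [ev]
  · rw [← (h1 i).2, ev, Finset.sum_eq_single (Fin.last _)]
    · simp [e1]
    · intro j _ hj
      have : d * w i - j ≠ 0 := by
        have h2 := Fin.val_lt_last hj
        omega
      simp [e1, this]
    · simp

theorem KFree_span {d : ℕ} {c : Co P.w d} (hc : c ∈ P.M d) (hf : P.FreeAt d c e0) :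
    ∃ ξ : Fin P.ρ → Co P.w d, (∀ j, ξ j ∈ P.J d c) ∧
      ∀ᶠ t in 𝓝 (0 : ℂ), LinearIndependent ℂ (fun j => ev P.w d (ξ j) (1, t)) ∧
        ∀ τ ∈ P.T (ev P.w d c (1, t)), ∃ g : Fin P.ρ → ℂ, ∑ j, g j • ev P.w d (ξ j) (1, t) = τ := by
  have hne : ∀ t : ℂ, ((1, t) : ℂ × ℂ) ≠ 0 := fun t h => one_ne_zero (congrArg Prod.fst h)
  let b := Module.finBasisOfFinrankEq ℂ _ (P.finrank_T (hc e0 (hne 0)))
  choose ξ hξ hb using fun j => hf (b j) (b j).2
  have h0 : LinearIndependent ℂ fun j => ev P.w d (ξ j) (1, 0) := by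
    have := b.linearIndependent.map' (P.T (ev P.w d c e0)).subtype (Submodule.ker_subtype _)
    rwa [show (fun j => ev P.w d (ξ j) (1, 0)) = (P.T (ev P.w d c e0)).subtype ∘ b from
      funext fun j => hb j]
  have hcont : ContinuousAt (fun (t : ℂ) j => ev P.w d (ξ j) (1, t)) 0 :=
    continuousAt_pi.2 fun j => (analytic_ev_right (ξ j) (1, 0)).continuousAt.comp_of_eq
      (f := fun t : ℂ => ((1 : ℂ), t)) (by fun_prop) rfl
  refine ⟨ξ, hξ, ?_⟩
  filter_upwards [hcont.eventually h0.eventually] with t ht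
  refine ⟨ht, fun τ hτ => ?_⟩
  have h1 : Submodule.span ℂ (range fun j => ev P.w d (ξ j) (1, t)) = P.T (ev P.w d c (1, t)) := by
    refine Submodule.eq_of_le_of_finrank_eq (Submodule.span_le.2 ?_) ?_
    · rintro _ ⟨j, rfl⟩
      exact hξ j _ (hne t)
    · rw [finrank_span_eq_card ht, P.finrank_T (hc _ (hne t)), Fintype.card_fin]
  rwa [← h1, Submodule.mem_span_range_iff_exists_fun] at hτ

/-- gluing of solutions on the two charts -/
theorem KFree_glue (G : P.Eqs α) {d : ℕ} {c : Co P.w d} (hc : c ∈ P.M d) (hf : P.FreeAt d c e0)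
    (q : Co G.deg d) (δ₀ δ₁ : κ → ℂ[X])
    (h₀ : ∀ t, KFree_L G (ev P.w d c (1, t)) (fun i => (δ₀ i).eval t) = ev G.deg d q (1, t))
    (h₁ : ∀ t, KFree_L G (ev P.w d c (t, 1)) (fun i => (δ₁ i).eval t) = ev G.deg d q (t, 1)) :
    ∃ δ : Co P.w d, (∀ v, v ≠ 0 → KFree_L G (ev P.w d c v) (ev P.w d δ v) = ev G.deg d q v) ∧
      ev P.w d δ e1 = fun i => (δ₁ i).eval 0 := by
  have hne : ∀ t : ℂ, ((1, t) : ℂ × ℂ) ≠ 0 := fun t h => one_ne_zero (congrArg Prod.fst h)
  have hinv : ∀ t : ℂ, t ≠ 0 → ((1, t) : ℂ × ℂ) = t • (t⁻¹, 1) := fun t ht => by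
    simp [mul_inv_cancel₀ ht]
  obtain ⟨ξ, hξ, hs⟩ := KFree_span hc hf
  let Ξ : Matrix κ (Fin P.ρ) ℂ[X] := Matrix.of fun i j => KFree_p0 (ξ j) i
  have hΞ : ∀ t i j, (Ξ i j).eval t = ev P.w d (ξ j) (1, t) i := fun t i j =>
    congrFun (KFree_p0_eval (ξ j) t) i
  have hΞ' : ∀ t g, (Ξ.map (eval t)).mulVec g = ∑ j, g j • ev P.w d (ξ j) (1, t) := fun t g => by
    funext i
    simp [Matrix.mulVec, dotProduct, hΞ, mul_comm]
  have hinj : Function.Injective (Ξ.map (eval 0)).mulVec := by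
    intro g g' h
    rw [hΞ', hΞ'] at h
    exact funext ((Fintype.linearIndependent_iffₛ.1 hs.self_of_nhds.1) g g' h)
  let N := ∑ i, (δ₁ i).natDegree
  have hN : ∀ i, (δ₁ i).natDegree ≤ N := fun i =>
    Finset.single_le_sum (f := fun i => (δ₁ i).natDegree) (fun _ _ => Nat.zero_le _)
      (Finset.mem_univ i)
  let σ : κ → ℂ[X] := fun i => X * (X ^ (d * P.w i) * reflect N (δ₁ i) - X ^ N * δ₀ i)
  have hσ : ∀ t : ℂ, t ≠ 0 → (fun i => (σ i).eval t) = t ^ (N + 1) •
      (act P.w (t ^ d) (fun i => (δ₁ i).eval t⁻¹) - fun i => (δ₀ i).eval t) := fun t ht => by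
    funext i
    simp only [σ, eval_mul, eval_sub, eval_pow, eval_X, KFree_reflect (hN i) ht, Pi.smul_apply,
      Pi.sub_apply, act_apply, smul_eq_mul]
    ring
  have hσ0 : ∀ t : ℂ, KFree_L G (ev P.w d c (1, t)) (fun i => (σ i).eval t) = 0 := fun t => by
    by_cases ht : t = 0
    · have : (fun i => (σ i).eval t) = 0 := by
        funext i
        simp [σ, ht]
      rw [this, map_zero]
    · rw [hσ t ht, map_smul, map_sub, h₀, hinv t ht, ev_hom, ev_hom, KFree_act, h₁, sub_self,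
        smul_zero]
  obtain ⟨A, g, h, hh, hsp⟩ := poly_split Ξ hinj (N + 1) σ (by
    filter_upwards [hs] with t ht
    simp only [hΞ']
    exact ht.2 _ ((KFree_zero_iff G (hc _ (hne t))).1 (hσ0 t)))
  obtain ⟨δ, hδ, hδ'⟩ := KFree_co (w := P.w) (d := d)
    (p := fun i => δ₀ i + A * σ i + ∑ j, g j * Ξ i j)
    (r := fun i => δ₁ i - ∑ j, h j * KFree_p1 (ξ j) i) fun t ht => by
      funext i
      have e1 := hsp t ht i
      have e2 := congrFun (hσ t ht) i
      have e3 : ∀ j, (Ξ i j).eval t = (t ^ d) ^ P.w i * (KFree_p1 (ξ j) i).eval t⁻¹ := fun j => by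
        rw [hΞ, hinv t ht, ev_hom, act_apply, congrFun (KFree_p1_eval (ξ j) t⁻¹) i]
      have e4 : t⁻¹ ^ (N + 1) * t ^ (N + 1) = 1 := by
        rw [← mul_pow, inv_mul_cancel₀ ht, one_pow]
      have e5 : ∑ j, (h j).eval t⁻¹ * (Ξ i j).eval t =
          (t ^ d) ^ P.w i * ∑ j, (h j).eval t⁻¹ * (KFree_p1 (ξ j) i).eval t⁻¹ := by
        rw [Finset.mul_sum]
        exact Finset.sum_congr rfl fun j _ => by rw [e3, mul_left_comm]
      simp only [Pi.smul_apply, Pi.sub_apply, act_apply, smul_eq_mul] at e2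
      simp only [add_mul, Finset.sum_add_distrib] at e1
      simp only [act_apply, eval_add, eval_sub, eval_mul, eval_finsetSum]
      linear_combination -e1 - e5 + t⁻¹ ^ (N + 1) * e2 +
        ((t ^ d) ^ P.w i * (δ₁ i).eval t⁻¹ - (δ₀ i).eval t) * e4
  have hδ1 : ev P.w d δ e1 = fun i => (δ₁ i).eval 0 := by
    rw [hδ']
    funext i
    simp [eval_finsetSum, hh]
  refine ⟨δ, fun v hv => ?_, hδ1⟩
  by_cases h1 : v.1 = 0
  · have hv' : v = v.2 • e1 := by
      ext <;> simp [e1, h1]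
    rw [hv', ev_hom, ev_hom, ev_hom, KFree_act, hδ1]
    exact congrArg _ (h₁ 0)
  · have hv' : v = v.1 • (1, v.1⁻¹ * v.2) := by
      ext <;> simp [h1]
    rw [hv', ev_hom, ev_hom, ev_hom, KFree_act, hδ]
    congr 1
    generalize v.1⁻¹ * v.2 = t
    have e : (fun i => (δ₀ i + A * σ i + ∑ j, g j * Ξ i j).eval t) = (fun i => (δ₀ i).eval t) +
        A.eval t • (fun i => (σ i).eval t) + ∑ j, (g j).eval t • ev P.w d (ξ j) (1, t) := by
      funext i
      simp [eval_finsetSum, hΞ]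
    rw [e, map_add, map_add, map_smul, map_sum, h₀, hσ0, smul_zero, add_zero,
      Finset.sum_eq_zero, add_zero]
    intro j _
    rw [map_smul, (KFree_zero_iff G (hc _ (hne t))).2 (hξ j _ (hne t)), smul_zero]

theorem KFree_core (G : P.Eqs α) {d : ℕ} {c : Co P.w d} (hc : c ∈ P.M d) (hf : P.FreeAt d c e0) :
    P.FreeAt d c e1 := by
  intro τ hτ
  have hne : ∀ t : ℂ, ((t, 1) : ℂ × ℂ) ≠ 0 := fun t h => one_ne_zero (congrArg Prod.snd h)
  have hz : ∀ v, ev G.deg d 0 v = 0 := fun v => (evL G.deg d v).map_zero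
  obtain ⟨A, hr, hA⟩ := KFree_mat G (KFree_p1 c) fun t => by
    rw [KFree_p1_eval]
    exact hc _ (hne t)
  simp only [KFree_p1_eval] at hA
  obtain ⟨σ, hσ, hσ0⟩ := poly_ker A hr 0 τ (by
    rw [hA]
    exact (KFree_zero_iff G (hc _ (hne 0))).2 hτ)
  obtain ⟨δ, hδ, hδ1⟩ := KFree_glue G hc hf 0 0 σ
    (fun t => by
      rw [hz]
      exact (congrArg _ (_root_.funext fun i => eval_zero)).trans (map_zero _))
    (fun t => by
      rw [hz, ← hA, KFree_mulVec, hσ]
      exact funext fun i => eval_zero)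
  exact ⟨δ, fun v hv => (KFree_zero_iff G (hc v hv)).1 ((hδ v hv).trans (hz v)), hδ1.trans hσ0⟩

theorem KFree_step (G : P.Eqs α) {d : ℕ} {c : Co P.w d} (hc : c ∈ P.M d) {a b : ℂ × ℂ}
    (hab : wg a b ≠ 0) (hf : P.FreeAt d c a) : P.FreeAt d c b := by
  have h0 : P.FreeAt d (rep P.w d a b c) e0 := by
    intro τ hτ
    rw [ev_rep, mk2_e0] at hτ
    obtain ⟨δ, hδ, rfl⟩ := hf τ hτ
    refine ⟨rep P.w d a b δ, fun v hv => ?_, by rw [ev_rep, mk2_e0]⟩
    rw [ev_rep, ev_rep]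
    exact hδ _ (mk2_ne_zero hab hv)
  have h1 := KFree_core G (Pre.rep_mem hab hc) h0
  intro τ hτ
  obtain ⟨δ, hδ, rfl⟩ := h1 τ (by rwa [ev_rep, mk2_e1])
  obtain ⟨a', ha⟩ := mk2_surj hab e0
  obtain ⟨b', hb⟩ := mk2_surj hab e1
  have hl : ∀ (x y : ℂ) (u v : ℂ × ℂ), mk2 a b (x • u + y • v) = x • mk2 a b u + y • mk2 a b v :=
    fun x y u v => by
      ext <;> simp [mk2] <;> ring
  have hi : ∀ v, mk2 a b (mk2 a' b' v) = v := fun v => by
    rw [mk2.eq_1 a' b', hl, ha, hb]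
    ext <;> simp [e0, e1]
  refine ⟨rep P.w d a' b' δ, fun v hv => ?_, ?_⟩
  · have := hδ (mk2 a' b' v) fun h => hv (by rw [← hi v, h]; simp [mk2])
    rwa [ev_rep a b c, hi, ← ev_rep] at this
  · rw [ev_rep]
    congr 1
    by_contra hne
    refine mk2_ne_zero hab (sub_ne_zero.2 hne) ?_
    have := hl 1 (-1) (mk2 a' b' b) e1
    rw [hi, mk2_e1] at this
    simpa [sub_eq_add_neg] using this

end Poly

namespace Pre

variable (G : P.Eqs α) {d : ℕ} {c : Co P.w d}
include G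

theorem free_of_freeAt (hc : c ∈ P.M d) {v₀ : ℂ × ℂ} (hv : v₀ ≠ 0) (h : P.FreeAt d c v₀) :
    P.Free d c := by
  intro v₁ hv₁
  by_cases h1 : wg v₀ v₁ = 0
  swap
  · exact KFree_step G hc h1 h
  have h2 : ∃ u, wg v₀ u ≠ 0 ∧ wg u v₁ ≠ 0 := by
    simp only [wg] at h1
    by_cases h3 : v₀.1 = 0
    · have h4 : v₀.2 ≠ 0 := fun h4 => hv (Prod.ext h3 h4)
      have h5 : v₁.1 = 0 := by simpa [h3, h4] using h1
      have h6 : v₁.2 ≠ 0 := fun h6 => hv₁ (Prod.ext h5 h6)
      exact ⟨(1, 0), by simpa [wg] using h4, by simpa [wg] using h6⟩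
    · have h5 : v₁.1 ≠ 0 := fun h5 => hv₁ (Prod.ext h5 (by simpa [h3, h5] using h1))
      exact ⟨(0, 1), by simpa [wg] using h3, by simpa [wg] using h5⟩
  obtain ⟨u, h3, h4⟩ := h2
  exact KFree_step G hc h4 (KFree_step G hc h3 h)

theorem h1 (hc : c ∈ P.M d) (hf : P.Free d c) (q : Co G.deg d)
    (hq : ∀ v, v ≠ 0 → ∃ τ, G.dG (ev P.w d c v) τ = ev G.deg d q v) :
    ∃ δ : Co P.w d, ∀ v, v ≠ 0 → G.dG (ev P.w d c v) (ev P.w d δ v) = ev G.deg d q v := by
  have hne₀ : ∀ t : ℂ, ((1, t) : ℂ × ℂ) ≠ 0 := fun t h => one_ne_zero (congrArg Prod.fst h)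
  have hne₁ : ∀ t : ℂ, ((t, 1) : ℂ × ℂ) ≠ 0 := fun t h => one_ne_zero (congrArg Prod.snd h)
  obtain ⟨A₀, hr₀, hA₀⟩ := KFree_mat G (KFree_p0 c) fun t => by
    rw [KFree_p0_eval]
    exact hc _ (hne₀ t)
  obtain ⟨A₁, hr₁, hA₁⟩ := KFree_mat G (KFree_p1 c) fun t => by
    rw [KFree_p1_eval]
    exact hc _ (hne₁ t)
  simp only [KFree_p0_eval] at hA₀
  simp only [KFree_p1_eval] at hA₁
  obtain ⟨δ₀, h₀⟩ := poly_solve A₀ hr₀ (KFree_p0 q) fun t => by
    simp only [hA₀, KFree_p0_eval]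
    exact hq _ (hne₀ t)
  obtain ⟨δ₁, h₁⟩ := poly_solve A₁ hr₁ (KFree_p1 q) fun t => by
    simp only [hA₁, KFree_p1_eval]
    exact hq _ (hne₁ t)
  obtain ⟨δ, hδ, -⟩ := KFree_glue G hc (hf e0 (hne₀ 0)) q δ₀ δ₁
    (fun t => by rw [← hA₀, KFree_mulVec, h₀, KFree_p0_eval])
    (fun t => by rw [← hA₁, KFree_mulVec, h₁, KFree_p1_eval])
  exact ⟨δ, hδ⟩

end Pre

end Vale.Agent.P292
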