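import Vale.Agent.P292.KOm
import Vale.Agent.P292.KFree

/-! Very free conics. Hints: `jr3`: a field of relative degree `≤ -3` pairs to zero with all of `J`
(`om_jr_neg`), which spans `T` at every point, so it vanishes. `jr2`: for `η` of degree `-2` the
pairing with `ξ ∈ J` is constant; with `ξ e1 = 0` and `ξ e0` arbitrary one gets `η e0 = 0`; divide.
`frame`: dividing the `ξ` with `ξ e1 = 0` shows that evaluation at `e0` of the fields of degree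
`-1` is onto `T`; evaluation at any `v` is injective (`Jr.div`, `jr2`); choose `ρ` fields giving a
basis at `e0`, they are independent at `v`, so a basis (`Pre.finrank_T`). `rep`: given values at
`a` and `b` use `wg b v • η + wg a v • η'`. -/

set_option maxSynthPendingDepth 3

open scoped Topology
open Set Filter Asymptotics

noncomputable section

namespace Vale.Agent.P292

variable {κ α : Type} [Fintype κ] [Fintype α] {P : Pre κ}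

theorem KVf_e0 : e0 ≠ 0 := fun h => one_ne_zero (congrArg Prod.fst h)

theorem KVf_e1 : e1 ≠ 0 := fun h => one_ne_zero (congrArg Prod.snd h)

theorem KVf_wg (a : ℂ × ℂ) : wg a a = 0 := by
  rw [wg, mul_comm, sub_self]

theorem KVf_zero {w : κ → ℕ} {d : ℕ} {δ : Co w d} (h : ∀ v, v ≠ 0 → ev w d δ v = 0) : δ = 0 := by
  refine ev_inj (a := e0) ((isOpen_compl_singleton.mem_nhds KVf_e0 : ({0}ᶜ : Set (ℂ × ℂ)) ∈ _) |>
    mem_of_superset <| fun v hv => ?_)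
  change ev w d δ v = ev w d 0 v
  rw [h v hv, ← evL_apply, map_zero]

namespace Pre

variable (G : P.Eqs α) {c : Co P.w 2}
include G

theorem VF.free (h : P.VF c) (hc : c ∈ P.M 2) : P.Free 2 c := by
  refine free_of_freeAt G hc KVf_e0 fun τ hτ => ?_
  obtain ⟨δ, h1, h2, -⟩ := h τ hτ 0 (zero_mem _)
  exact ⟨δ, h1, h2⟩

theorem VF.jr2 (h : P.VF c) (hc : c ∈ P.M 2) {η : ℂ × ℂ → κ → ℂ} (hη : P.Jr 2 (-2) c η) :
    ∀ v, v ≠ 0 → η v = 0 := by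
  have h0 : η e0 = 0 := by
    refine P.nondeg _ (hc e0 KVf_e0) _ (hη.mem e0 KVf_e0) fun u hu => ?_
    obtain ⟨δ, h1, h2, h3⟩ := h u hu 0 (zero_mem _)
    obtain ⟨a, ha⟩ := om_jr_const hc hη (jr_of_mem h1) (by norm_num)
    have h4 := ha e1 KVf_e1
    rw [h3, map_zero] at h4
    rw [← h2, ha e0 KVf_e0, h4]
  obtain ⟨η', h1, h2⟩ := Jr.div hc hη KVf_e0 h0
  intro v hv
  have h3 : η' v = 0 := by
    refine P.nondeg _ (hc v hv) _ (h1.mem v hv) fun u hu => ?_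
    obtain ⟨δ, h3, rfl⟩ := h.free G hc v hv u hu
    exact om_jr_neg hc h1 (jr_of_mem h3) (by norm_num) v hv
  rw [h2 v hv, h3, smul_zero]

theorem KVf_one (h : P.VF c) (hc : c ∈ P.M 2) {η : ℂ × ℂ → κ → ℂ} (hη : P.Jr 2 (0 - 1) c η)
    {a : ℂ × ℂ} (ha : a ≠ 0) (h0 : η a = 0) : ∀ v, v ≠ 0 → η v = 0 := by
  obtain ⟨η', h1, h2⟩ := Jr.div hc hη ha h0
  intro v hv
  rw [h2 v hv, h.jr2 G hc h1 v hv, smul_zero]

theorem KVf_two (h : P.VF c) (hc : c ∈ P.M 2) {δ : Co P.w 2} (hδ : δ ∈ P.J 2 c) {a b : ℂ × ℂ}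
    (ha : a ≠ 0) (hb : b ≠ 0) (hab : wg a b ≠ 0) (h0 : ev P.w 2 δ a = 0)
    (h1 : ev P.w 2 δ b = 0) : δ = 0 := by
  obtain ⟨η, h2, h3⟩ := Jr.div hc (jr_of_mem hδ) ha h0
  have h4 : η b = 0 := (smul_eq_zero.1 ((h3 b hb).symm.trans h1)).resolve_left hab
  refine KVf_zero fun v hv => ?_
  rw [h3 v hv, KVf_one G h hc h2 hb h4 v hv, smul_zero]

theorem KVf_frame (h : P.VF c) (hc : c ∈ P.M 2) {a b v : ℂ × ℂ} (ha : a ≠ 0) (hb : b ≠ 0)
    (hs : ∀ τ ∈ P.T (ev P.w 2 c b), ∃ δ ∈ P.J 2 c, ev P.w 2 δ a = 0 ∧ ev P.w 2 δ b = τ)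
    (hv : v ≠ 0) (hav : wg a v ≠ 0) {τ : κ → ℂ} (hτ : τ ∈ P.T (ev P.w 2 c v)) :
    ∃ η, P.Jr 2 (-1) c η ∧ η v = τ := by
  let A : Submodule ℂ (Co P.w 2) := P.J 2 c ⊓ (evL P.w 2 a).ker
  let f : ∀ u : ℂ × ℂ, u ≠ 0 → A →ₗ[ℂ] P.T (ev P.w 2 c u) := fun u hu =>
    ((evL P.w 2 u).toLinearMap.comp A.subtype).codRestrict _ fun δ => by
      change evL P.w 2 u δ ∈ _
      rw [evL_apply]
      exact δ.2.1 u hu
  have hf : ∀ u hu (δ : A), (f u hu δ : κ → ℂ) = ev P.w 2 δ u := fun u hu δ => evL_apply u _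
  have hA : ∀ δ : A, ev P.w 2 δ a = 0 := fun δ => (evL_apply a _).symm.trans δ.2.2
  have h1 : Function.Surjective (f b hb) := fun σ => by
    obtain ⟨δ, h1, h2, h3⟩ := hs σ σ.2
    exact ⟨⟨δ, h1, (evL_apply a δ).trans h2⟩, Subtype.ext ((hf b hb _).trans h3)⟩
  have h2 : Function.Injective (f v hv) := by
    rw [injective_iff_map_eq_zero]
    intro δ hδ
    exact Subtype.ext (KVf_two G h hc δ.2.1 ha hv hav (hA δ)
      ((hf v hv δ).symm.trans (congrArg Subtype.val hδ)))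
  have h3 := LinearMap.finrank_le_finrank_of_surjective h1
  have h4 := LinearMap.finrank_le_finrank_of_injective h2
  rw [P.finrank_T (hc b hb), ← P.finrank_T (hc v hv)] at h3
  obtain ⟨δ, hδ⟩ := (LinearMap.injective_iff_surjective_of_finrank_eq_finrank
    (le_antisymm h4 h3)).1 h2 ⟨wg a v • τ, Submodule.smul_mem _ _ hτ⟩
  obtain ⟨η, h5, h6⟩ := Jr.div hc (jr_of_mem δ.2.1) ha (hA δ)
  refine ⟨η, h5, smul_right_injective _ hav ?_⟩
  exact (h6 v hv).symm.trans ((hf v hv δ).symm.trans (congrArg Subtype.val hδ))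

theorem VF.inj (h : P.VF c) (hc : c ∈ P.M 2) {δ : Co P.w 2} (hδ : δ ∈ P.J 2 c)
    (h0 : ev P.w 2 δ e0 = 0) (h1 : ev P.w 2 δ e1 = 0) : δ = 0 := by
  exact KVf_two G h hc hδ KVf_e0 KVf_e1 (by simp [wg, e0, e1]) h0 h1

theorem VF.frame (h : P.VF c) (hc : c ∈ P.M 2) {v : ℂ × ℂ} (hv : v ≠ 0) {τ : κ → ℂ}
    (hτ : τ ∈ P.T (ev P.w 2 c v)) : ∃ η, P.Jr 2 (-1) c η ∧ η v = τ := by
  by_cases h1 : wg e0 v = 0
  · refine KVf_frame G h hc KVf_e1 KVf_e0 (fun σ hσ => ?_) hv (fun h2 => hv ?_) hτ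
    · obtain ⟨δ, h2, h3, h4⟩ := h σ hσ 0 (zero_mem _)
      exact ⟨δ, h2, h4, h3⟩
    · exact Prod.ext (by simpa [wg, e1] using h2) (by simpa [wg, e0] using h1)
  · exact KVf_frame G h hc KVf_e0 KVf_e1 (fun σ hσ => h 0 (zero_mem _) σ hσ) hv h1 hτ

theorem VF.rep (h : P.VF c) (hc : c ∈ P.M 2) {a b : ℂ × ℂ} (hab : wg a b ≠ 0) :
    P.VF (rep P.w 2 a b c) := by
  have ha : a ≠ 0 := by
    rintro rfl
    exact hab (by simp [wg])
  have hb : b ≠ 0 := by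
    rintro rfl
    exact hab (by simp [wg])
  have hba : wg b a ≠ 0 := fun h1 => hab (by
    rw [wg] at h1 ⊢
    linear_combination -h1)
  intro σ hσ τ hτ
  rw [ev_rep, mk2_e0] at hσ
  rw [ev_rep, mk2_e1] at hτ
  obtain ⟨η, h1, h2⟩ := h.frame G hc ha (Submodule.smul_mem _ (wg b a)⁻¹ hσ)
  obtain ⟨η', h3, h4⟩ := h.frame G hc hb (Submodule.smul_mem _ (wg a b)⁻¹ hτ)
  obtain ⟨δ, h5, h6⟩ := Jr.exists_co (h1.mul_lin b)
  obtain ⟨δ', h7, h8⟩ := Jr.exists_co (h3.mul_lin a)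
  have h9 : ∀ u, u ≠ 0 → ev P.w 2 (δ + δ') u = wg b u • η u + wg a u • η' u := fun u hu => by
    rw [h6 u hu, h8 u hu, ← evL_apply, map_add, evL_apply, evL_apply]
  refine ⟨Vale.Agent.P292.rep P.w 2 a b (δ + δ'), fun v hv => ?_, ?_, ?_⟩
  · rw [ev_rep, ev_rep]
    exact add_mem h5 h7 _ (mk2_ne_zero hab hv)
  · rw [ev_rep, mk2_e0, h9 a ha, h2, KVf_wg, zero_smul, add_zero, smul_inv_smul₀ hba]
  · rw [ev_rep, mk2_e1, h9 b hb, h4, KVf_wg, zero_smul, zero_add, smul_inv_smul₀ hab]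

theorem VF.deriv (h : P.VF c) (hc : c ∈ P.M 2) {τ : κ → ℂ} (hτ : τ ∈ P.T (ev P.w 2 c e0)) :
    ∃ δ ∈ P.J 2 c, ev P.w 2 δ e0 = 0 ∧ fderiv ℂ (ev P.w 2 δ) e0 e1 = τ := by
  obtain ⟨η, h1, h2⟩ := h.frame G hc KVf_e0 hτ
  obtain ⟨δ, h3, h4⟩ := Jr.exists_co (h1.mul_lin e0)
  have hn : ({0}ᶜ : Set (ℂ × ℂ)) ∈ 𝓝 e0 := isOpen_compl_singleton.mem_nhds KVf_e0
  refine ⟨δ, h3, by rw [← h4 e0 KVf_e0, KVf_wg, zero_smul], ?_⟩
  have h5 : ev P.w 2 δ =ᶠ[𝓝 e0] fun v => v.2 • η v := mem_of_superset hn fun v hv => by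
    change ev P.w 2 δ v = v.2 • η v
    rw [← h4 v hv]
    simp [wg, e0]
  have h6 := (hasFDerivAt_snd (𝕜 := ℂ) (p := e0)).fun_smul (h1.diff.differentiableAt hn).hasFDerivAt
  rw [h5.fderiv_eq, h6.fderiv, ← h2]
  simp [e0, e1]

end Pre

end Vale.Agent.P292
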