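import Vale.Agent.P292.KVar
import Vale.Agent.P292.KVf
import Vale.Agent.P292.KGam

/-! The local branch defined by the conics near a very free conic. Hints: charts `π₀`, `π₁` of the
cone at the two ends; `Λ = (π₀ ev e0, π₁ ev e1)` is bijective on `J` (`VF`, `VF.inj`);
`MfdAt.chart_of_bij`; `σ q = ψ (π₀ y, π₁ q)`, which lies in `M 2` with first end `y` for all `q`
near the second end; `k = ct ∘ σ`, `var_ct` at every nearby `q`; for `τ ∈ T q` one has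
`ev (D σ q τ) e1 = τ` since both are tangent with the same image under `π₁`. The image of a small
ball under `b ↦ (ψ (π₀ y, b), 1)` is a connected subset of `My y`. `LocK.good`:
`V = k q • dE (σ q)`, `om q (eul q) V = θ V = k q ^ 2`. -/

set_option maxSynthPendingDepth 3

open scoped Topology
open Set Filter Asymptotics

noncomputable section

namespace Vale.Agent.P292

variable {κ α : Type} [Fintype κ] [Fintype α] {P : Pre κ}

theorem Pre.exists_locK (G : P.Eqs α) {c : Co P.w 2} (hc : c ∈ P.M 2) (h : P.VF c) :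
    ∃ k σ, P.LocK (ev P.w 2 c e0) c k σ := by
  have n0 : e0 ≠ 0 := by simp [e0]
  have n1 : e1 ≠ 0 := by simp [e1]
  obtain ⟨π₀, χ₀, c0, t0⟩ := P.chart (hc e0 n0)
  obtain ⟨π₁, χ₁, c1, t1⟩ := P.chart (hc e1 n1)
  obtain ⟨-, s0, i0⟩ := t0.self_of_nhds (hc e0 n0)
  obtain ⟨-, s1, i1⟩ := t1.self_of_nhds (hc e1 n1)
  obtain ⟨ψ, ch, -⟩ := (mfd_M G hc (h.free G hc)).chart_of_bij
    ((π₀.comp (evL P.w 2 e0)).prod (π₁.comp (evL P.w 2 e1))) (fun b => by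
      obtain ⟨τ₀, h1, h2⟩ := s0 b.1
      obtain ⟨τ₁, h3, h4⟩ := s1 b.2
      obtain ⟨δ, h5, h6, h7⟩ := h τ₀ h1 τ₁ h3
      exact ⟨δ, h5, Prod.ext ((congrArg π₀ h6).trans h2) ((congrArg π₁ h7).trans h4)⟩)
    fun δ h1 h2 => h.inj G hc h1 (i0 _ (h1 e0 n0) (congrArg Prod.fst h2))
      (i1 _ (h1 e1 n1) (congrArg Prod.snd h2))
  let φ : (Fin P.ρ → ℂ) → Co P.w 2 := fun b => ψ (π₀ (ev P.w 2 c e0), b)
  have hg : Tendsto (fun b => (π₀ (ev P.w 2 c e0), b)) (𝓝 (π₁ (ev P.w 2 c e1)))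
      (𝓝 (π₀ (ev P.w 2 c e0), π₁ (ev P.w 2 c e1))) := tendsto_const_nhds.prodMk_nhds tendsto_id
  have hφ : Tendsto φ (𝓝 (π₁ (ev P.w 2 c e1))) (𝓝 c) := ch.tendsto.comp hg
  have H : ∀ᶠ b in 𝓝 (π₁ (ev P.w 2 c e1)), AnalyticAt ℂ φ b ∧ φ b ∈ P.M 2 ∧
      ev P.w 2 (φ b) e0 = ev P.w 2 c e0 ∧ π₁ (ev P.w 2 (φ b) e1) = b ∧
      ev P.w 2 (φ b) e1 = χ₁ b := by
    filter_upwards [hg.eventually ch.an.eventually_analyticAt, hg.eventually ch.right,
      (((evL P.w 2 e0).continuous.tendsto c).comp hφ).eventually c0.left,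
      (((evL P.w 2 e1).continuous.tendsto c).comp hφ).eventually c1.left] with b h1 h2 h3 h4
    have h5 : π₀ (ev P.w 2 (φ b) e0) = π₀ (ev P.w 2 c e0) := congrArg Prod.fst h2.2
    have h6 : π₁ (ev P.w 2 (φ b) e1) = b := congrArg Prod.snd h2.2
    exact ⟨h1.comp (analyticAt_const.prod analyticAt_id), h2.1,
      (h3 (h2.1 e0 n0)).symm.trans ((congrArg χ₀ h5).trans c0.self), h6,
      (h4 (h2.1 e1 n1)).symm.trans (congrArg χ₁ h6)⟩
  obtain ⟨r, hr, hb⟩ := Metric.eventually_nhds_iff_ball.1 H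
  have hself : φ (π₁ (ev P.w 2 c e1)) = c := ch.self
  have hcc : (fun b => (φ b, (1 : ℂ))) '' Metric.ball (π₁ (ev P.w 2 c e1)) r ⊆
      connectedComponentIn (P.My (ev P.w 2 c e0)) (c, 1) := by
    refine ((convex_ball _ _).isPreconnected.image _ fun b h1 =>
      ((hb b h1).1.continuousAt.prodMk continuousAt_const).continuousWithinAt)
      |>.subset_connectedComponentIn ⟨_, Metric.mem_ball_self hr, Prod.ext hself rfl⟩ ?_
    rintro _ ⟨b, h1, rfl⟩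
    exact ⟨mem_MQ_one.2 (hb b h1).2.1, one_ne_zero, (yE_eq P.w_pos _).trans (hb b h1).2.2.1⟩
  have hn : ∀ q, π₁ q ∈ Metric.ball (π₁ (ev P.w 2 c e1)) r →
      ∀ᶠ x in 𝓝 q, π₁ x ∈ Metric.ball (π₁ (ev P.w 2 c e1)) r := fun q hq =>
    π₁.continuous.continuousAt.eventually (Metric.isOpen_ball.mem_nhds hq)
  have ha : ∀ q, π₁ q ∈ Metric.ball (π₁ (ev P.w 2 c e1)) r →
      AnalyticAt ℂ (fun q => φ (π₁ q)) q := fun q hq => (hb _ hq).1.comp (π₁.analyticAt q)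
  have hv := fun q hq => P.var_ct (ha q hq)
    ((hn q hq).mono fun x hx => ⟨(hb _ hx).2.1, (hb _ hx).2.2.1⟩)
  have h0 := Metric.mem_ball_self (x := π₁ (ev P.w 2 c e1)) hr
  refine ⟨fun q => P.ct (φ (π₁ q)), fun q => φ (π₁ q), hc, rfl, (hv _ h0).1, ha _ h0, hself, ?_, ?_⟩
  · filter_upwards [hn _ h0, c1.left, t1] with q h1 h2 h3 hq
    obtain ⟨-, h4, h5, -, h6⟩ := hb _ h1
    replace h6 := h6.trans (h2 hq)
    refine ⟨h4, h5, h6, rfl, hcc ⟨_, h1, rfl⟩, fun τ hτ => ?_⟩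
    have h7 := tangent_J (ha q h1).differentiableAt ((hn q h1).mono fun x hx => (hb _ hx).2.1) τ
      e1 n1
    have h8 := ((π₁.comp (evL P.w 2 e1)).hasFDerivAt.comp q
      (ha q h1).differentiableAt.hasFDerivAt).unique (π₁.hasFDerivAt.congr_of_eventuallyEq
        ((hn q h1).mono fun x hx => (hb _ hx).2.2.2.1))
    rw [h6] at h7
    have h9 := (h3 hq).2.2 _ (sub_mem h7 hτ) (by
      rw [map_sub, sub_eq_zero]
      exact congrArg (· τ) h8)
    rw [(hv q h1).2, h6, sub_eq_zero.1 h9]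
  · filter_upwards [ch.left] with c' h1 h2 h3
    exact (congrArg (fun y => ψ (π₀ y, π₁ (ev P.w 2 c' e1))) h3.symm).trans (h1 h2)

theorem Pre.LocK.good {y : κ → ℂ} {c : Co P.w 2} {k : (κ → ℂ) → ℂ} {σ : (κ → ℂ) → Co P.w 2}
    (h : P.LocK y c k σ) : P.Good y (fun q => k q ^ 2) (ev P.w 2 c e1) := by
  refine ⟨h.an.pow 2, ?_⟩
  filter_upwards [h.an.eventually_analyticAt, h.fam] with q h1 h2 hq
  obtain ⟨h3, h4, h5, h6, -, h7⟩ := h2 hq
  have h8 : zE P.w (σ q) = q := (zE_eq P.w_pos _).trans h5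
  have h9 : (q, k q • dE P.w (σ q)) ∈ P.Gam y :=
    ⟨(σ q, 1), MQ_sub (mem_MQ_one.2 h3), (yE_eq P.w_pos _).trans h4, h8, by
      rw [cq, if_neg one_ne_zero, div_one, h6]⟩
  have h10 : ∀ τ ∈ P.T q, fderiv ℂ (fun q => k q ^ 2) q τ = P.om q τ (k q • dE P.w (σ q)) :=
    fun τ hτ => by
      rw [(h1.differentiableAt.hasFDerivAt.pow 2).fderiv, map_smul]
      simp only [smul_apply, smul_eq_mul, h7 τ hτ, nsmul_eq_mul]
      push_cast
      ring
  refine ⟨?_, _, h9, h10⟩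
  rw [h10 _ (P.eul_mem q hq), P.om_eul q hq _ (gam_T h9).2, map_smul, smul_eq_mul, sq]
  exact congrArg _ (by rw [h6, ct, h8])

end Vale.Agent.P292
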