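import Vale.Agent.P292.KKey2
import Vale.Agent.P292.KAvoid
import Vale.Agent.P292.KGen1
import Vale.Agent.P292.KLoc

/-! The first case. Hints: fix a ball `N` around `e1` and a neighbourhood `U` of `c` such that the
properties in `h.fam` hold at `ev m v` and `k` is analytic there for `m ∈ U`, `v ∈ N`, and all
`m ∈ U ∩ M 2` are free (`free_open`). If `m` avoids `Bad y ∪ Lam y`, then
`v ↦ D (k ∘ ev m) v e` is continuous on `N` with countably many values (`key2` with `x = (σ q, 1)`;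
square roots of a countable set), so constant, and `k (ev m v) = D (k ∘ ev m) v v` because
`D k q (eul q) = θ (dE) / 2 = k q / 2` and `ev_euler`; so `k ∘ ev m` is linear on `N`, equal to
`D (k ∘ ev m) e1`. This identity on `N` passes to limits of such `m` (`avoid`, `small_lam`,
`lam_act`, `bad_act`). -/

set_option maxSynthPendingDepth 3

open scoped Topology
open Set Filter Asymptotics

noncomputable section

namespace Vale.Agent.P292

variable {κ α : Type} [Fintype κ] [Fintype α] {P : Pre κ}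

theorem KA_sqrt {S : Set ℂ} (hS : S.Countable) : {t : ℂ | (2 * t) ^ 2 ∈ S}.Countable := by
  have h1 : {t : ℂ | (2 * t) ^ 2 ∈ S} ⊆ ⋃ s ∈ S, {t : ℂ | (2 * t) ^ 2 = s} := by
    intro t ht
    exact mem_biUnion ht rfl
  refine Countable.mono h1 (hS.biUnion fun s _ => ?_)
  obtain ⟨z, hz⟩ := IsAlgClosed.exists_eq_mul_self s
  have h2 : {t : ℂ | (2 * t) ^ 2 = s} ⊆ {z / 2, -z / 2} := by
    intro t ht
    have ht' : (2 * t) ^ 2 = z ^ 2 := by rw [ht, hz]; ring
    rcases sq_eq_sq_iff_eq_or_eq_neg.1 ht' with h | h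
    · left; rw [← h]; ring
    · right; show t = -z / 2; rw [← h]; ring
  exact (Set.toFinite _).countable.mono h2

theorem KA_ne {r : ℝ} (hr : r ≤ 1) {v : ℂ × ℂ} (hv : v ∈ Metric.ball e1 r) : v ≠ 0 := by
  rintro rfl
  rw [Metric.mem_ball, dist_zero_left] at hv
  have : ‖e1‖ = 1 := by simp [e1, Prod.norm_def]
  linarith

/-- the properties of the family at the point `q` -/
def KAW (P : Pre κ) (y : κ → ℂ) (c : Co P.w 2) (k : (κ → ℂ) → ℂ) (σ : (κ → ℂ) → Co P.w 2)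
    (q : κ → ℂ) : Prop :=
  AnalyticAt ℂ k q ∧ (q ∈ P.C → σ q ∈ P.M 2 ∧ ev P.w 2 (σ q) e0 = y ∧
    ev P.w 2 (σ q) e1 = q ∧ k q = P.ct (σ q) ∧
    (σ q, (1 : ℂ)) ∈ connectedComponentIn (P.My y) (c, 1) ∧
    ∀ τ ∈ P.T q, fderiv ℂ k q τ = P.om q τ (dE P.w (σ q)) / 2)

theorem KA_tan {d : ℕ} {m : Co P.w d} (hm : m ∈ P.M d) {v : ℂ × ℂ} (hv : v ≠ 0) (e : ℂ × ℂ) :
    fderiv ℂ (ev P.w d m) v e ∈ P.T (ev P.w d m v) := by
  refine P.fderiv_mem (analytic_ev_right m v).differentiableAt ?_ e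
  filter_upwards [isOpen_compl_singleton.mem_nhds hv] with u hu using hm u hu

theorem KA_eul {y : κ → ℂ} {c : Co P.w 2} {k : (κ → ℂ) → ℂ} {σ : (κ → ℂ) → Co P.w 2}
    {q : κ → ℂ} (hq : q ∈ P.C) (h : KAW P y c k σ q) :
    2 * fderiv ℂ k q (eul P.w q) = k q := by
  obtain ⟨h1, -, h3, h4, -, h6⟩ := h.2 hq
  have he : e1 ≠ 0 := by simp [e1]
  have hT : dE P.w (σ q) ∈ P.T q := by
    have := KA_tan h1 he e0
    rwa [h3, ← dE_eq P.w_pos] at this
  rw [h6 _ (P.eul_mem q hq), P.om_eul q hq _ hT, h4, Pre.ct, zE_eq P.w_pos, h3]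
  ring

theorem KA_lin (G : P.Eqs α) {y : κ → ℂ} (hy : P.Gen y) {c : Co P.w 2} {k : (κ → ℂ) → ℂ}
    {σ : (κ → ℂ) → Co P.w 2}
    (hn : ∀ n ∈ closure (connectedComponentIn (P.My y) (c, 1)), ¬ P.Nod n)
    {m : Co P.w 2} (hm : m ∈ P.M 2) (hav : ∀ v, v ≠ 0 → ev P.w 2 m v ∉ P.Bad y ∪ P.Lam y)
    {r : ℝ} (hr0 : 0 < r) (hr : r ≤ 1)
    (hW : ∀ v ∈ Metric.ball e1 r, KAW P y c k σ (ev P.w 2 m v)) :
    ∃ a b : ℂ, ∀ v ∈ Metric.ball e1 r, k (ev P.w 2 m v) = a * v.1 + b * v.2 := by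
  have han : AnalyticOnNhd ℂ (fun v => k (ev P.w 2 m v)) (Metric.ball e1 r) := fun v hv =>
    (hW v hv).1.comp (analytic_ev_right m v)
  have hd : ∀ v ∈ Metric.ball e1 r, ∀ e, fderiv ℂ (fun v => k (ev P.w 2 m v)) v e =
      fderiv ℂ k (ev P.w 2 m v) (fderiv ℂ (ev P.w 2 m) v e) := by
    intro v hv e
    have := ((hW v hv).1.differentiableAt.hasFDerivAt.comp v
      (analytic_ev_right m v).differentiableAt.hasFDerivAt).fderiv
    exact congrArg (fun L : ℂ × ℂ →L[ℂ] ℂ => L e) this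
  have hconst : ∀ v ∈ Metric.ball e1 r, ∀ e, fderiv ℂ (fun v => k (ev P.w 2 m v)) v e =
      fderiv ℂ (fun v => k (ev P.w 2 m v)) e1 e := by
    intro v hv e
    refine eq_of_countable_image (f := fun v => fderiv ℂ (fun v => k (ev P.w 2 m v)) v e)
      (convex_ball e1 r).isPreconnected ?_ ?_ hv (Metric.mem_ball_self hr0)
    · exact han.fderiv.continuousOn.clm_apply continuousOn_const
    · refine Countable.mono ?_ (KA_sqrt (P.key2 G hy hn hm hav e))
      rintro _ ⟨u, hu, rfl⟩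
      have hu0 := KA_ne hr hu
      obtain ⟨-, -, h3, -, h5, h6⟩ := (hW u hu).2 (hm u hu0)
      refine ⟨u, hu0, _, h5, by rw [zE_eq P.w_pos, h3], ?_⟩
      simp only
      rw [hd u hu, h6 _ (KA_tan hm hu0 e)]
      ring
  refine ⟨fderiv ℂ (fun v => k (ev P.w 2 m v)) e1 e0,
    fderiv ℂ (fun v => k (ev P.w 2 m v)) e1 e1, fun v hv => ?_⟩
  have hv0 := KA_ne hr hv
  have h1 : fderiv ℂ (fun v => k (ev P.w 2 m v)) v v = k (ev P.w 2 m v) := by
    rw [hd v hv, ev_euler, map_smul, ← KA_eul (hm v hv0) (hW v hv)]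
    simp
  have h2 : v = v.1 • e0 + v.2 • e1 := by
    ext <;> simp [e0, e1]
  rw [← h1, hconst v hv]
  conv_lhs => rw [h2]
  rw [map_add, map_smul, map_smul]
  simp only [smul_eq_mul]
  ring

theorem Pre.caseA (G : P.Eqs α) {y : κ → ℂ} (hy : P.Gen y) {c : Co P.w 2} {k : (κ → ℂ) → ℂ}
    {σ : (κ → ℂ) → Co P.w 2} (h : P.LocK y c k σ)
    (hn : ∀ n ∈ closure (connectedComponentIn (P.My y) (c, 1)), ¬ P.Nod n) :
    ∀ᶠ m in 𝓝 c, m ∈ P.M 2 → Qv P.w (fun q => k q ^ 2) m e1 := by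
  have hW : ∀ᶠ q in 𝓝 (ev P.w 2 c e1), KAW P y c k σ q := h.an.eventually_analyticAt.and h.fam
  have hW2 : ∀ᶠ x : Co P.w 2 × ℂ × ℂ in 𝓝 (c, e1), KAW P y c k σ (ev P.w 2 x.1 x.2) :=
    (analytic_ev (c, e1)).continuousAt.eventually hW
  rw [nhds_prod_eq, eventually_prod_iff] at hW2
  obtain ⟨pa, hpa, pb, hpb, hab⟩ := hW2
  obtain ⟨r', hr', hb⟩ := Metric.eventually_nhds_iff_ball.1 hpb
  have hr0 : 0 < min r' 1 := lt_min hr' one_pos
  have hr1 : min r' 1 ≤ 1 := min_le_right _ _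
  have hb' : ∀ v ∈ Metric.ball e1 (min r' 1), pb v := fun v hv =>
    hb v (Metric.ball_subset_ball (min_le_left _ _) hv)
  generalize min r' 1 = r at hr0 hr1 hb'
  have hfree := Pre.free_open G h.mem (hy.conic c h.mem h.base)
  filter_upwards [hpa.eventually_nhds, hfree] with m hU hf hm
  have hs : ((r / 2 : ℝ) : ℂ) ≠ 0 := by
    rw [Complex.ofReal_ne_zero]; positivity
  have hs1 : (((r / 2 : ℝ) : ℂ), (1 : ℂ)) ∈ Metric.ball e1 r := by
    rw [Metric.mem_ball, e1, Prod.dist_eq, dist_self, dist_zero_right, Complex.norm_real,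
      Real.norm_of_nonneg (by positivity)]
    exact max_lt (by linarith) hr0
  generalize ((r / 2 : ℝ) : ℂ) = s at hs hs1
  have he1 : e1 ∈ Metric.ball e1 r := Metric.mem_ball_self hr0
  have hcont : ∀ v ∈ Metric.ball e1 r, ContinuousAt (fun m' => k (ev P.w 2 m' v)) m := by
    intro v hv
    have h1 : ContinuousAt (fun m' : Co P.w 2 => ev P.w 2 m' v) m :=
      (analytic_ev (m, v)).continuousAt.comp₂ continuousAt_id continuousAt_const
    exact ContinuousAt.comp (g := k) (hab hU.self_of_nhds (hb' v hv)).1.continuousAt h1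
  have key : ∀ v ∈ Metric.ball e1 r, k (ev P.w 2 m v) =
      (k (ev P.w 2 m (s, 1)) - k (ev P.w 2 m e1)) / s * v.1 + k (ev P.w 2 m e1) * v.2 := by
    intro v hv
    by_contra hne
    have hc2 : ContinuousAt (fun m' => (k (ev P.w 2 m' (s, 1)) - k (ev P.w 2 m' e1)) / s * v.1 +
        k (ev P.w 2 m' e1) * v.2) m :=
      ((((hcont _ hs1).sub (hcont _ he1)).div_const s).mul continuousAt_const).add
        ((hcont _ he1).mul continuousAt_const)
    have hne' := ((hcont v hv).sub hc2).eventually_ne (sub_ne_zero.2 hne)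
    obtain ⟨m', ⟨hm1, hm2⟩, hav⟩ := P.avoid G hm (hf hm) (hy.bad.union (P.small_lam G y))
      (fun z hz l hl => hz.elim (fun h => Or.inl (Pre.bad_act h hl))
        fun h => Or.inr (Pre.lam_act h hl)) _ (hU.and hne')
    obtain ⟨a, b, hl⟩ := KA_lin G hy hn hm2 hav hr0 hr1 fun u hu => hab hm1.1 (hb' u hu)
    apply hm1.2
    simp only [Pi.sub_apply]
    rw [hl v hv, hl _ hs1, hl _ he1]
    simp only [e1]
    field_simp
    ring
  generalize (k (ev P.w 2 m (s, 1)) - k (ev P.w 2 m e1)) / s = a at key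
  generalize k (ev P.w 2 m e1) = b at key
  refine ⟨a ^ 2, 2 * a * b, b ^ 2, ?_⟩
  filter_upwards [Metric.ball_mem_nhds e1 hr0] with v hv
  rw [key v hv]
  ring

end Vale.Agent.P292
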