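import Vale.Agent.P292.KComp
import Vale.Agent.P292.KLoc

/-! The second case. Hints: let `𝒪` be the neighbourhood of `(c, 1)` of `comp_quad`. For small
`η ≠ 0` and `a = (1, η)` the point `(rep a e1 c, 1)` is in the interior of `𝒪` (`continuous_rep`,
`rep_id`). Take `exists_locK` for `rep e0 a c` (`VF.rep`), `K = k ^ 2` is good near `ev c a`. For `m`
near `c`, `Qd K (rep a e1 m, 1)` says that `t ↦ K (ev m (1, η + t))` is a quadratic polynomial near
`0`; by `Good.hom` and `ev_hom`, `K (ev m v) = v.1 ^ 2 K (ev m (1, v.2 / v.1))` near `a`. -/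

set_option maxSynthPendingDepth 3

open scoped Topology
open Set Filter Asymptotics

noncomputable section

namespace Vale.Agent.P292

variable {κ α : Type} [Fintype κ] [Fintype α] {P : Pre κ}

theorem KB_qv {y : κ → ℂ} {K : (κ → ℂ) → ℂ} {m : Co P.w 2} (hm : m ∈ P.M 2) {η : ℂ}
    (hK : P.Good y K (ev P.w 2 m (1, η))) (hQ : Qd P.w K (rep P.w 2 (1, η) e1 m, 1)) :
    Qv P.w K m (1, η) := by
  obtain ⟨α, β, γ, h⟩ := hQ
  refine ⟨α - β * η + γ * η ^ 2, β - 2 * γ * η, γ, ?_⟩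
  have h1 : ContinuousAt (fun v : ℂ × ℂ => v.2 / v.1) (1, η) :=
    continuousAt_snd.div continuousAt_fst one_ne_zero
  have h2 : Tendsto (fun v : ℂ × ℂ => v.2 / v.1 - η) (𝓝 (1, η)) (𝓝 0) := by
    simpa using h1.tendsto.sub_const η
  have h3 : Tendsto (fun v : ℂ × ℂ => (v.1 ^ 2, ev P.w 2 m (1, v.2 / v.1))) (𝓝 (1, η))
      (𝓝 (1, ev P.w 2 m (1, η))) := by
    have h4 : ContinuousAt (fun v : ℂ × ℂ => (v.1 ^ 2, ev P.w 2 m (1, v.2 / v.1))) (1, η) :=
      (continuousAt_fst.pow 2).prodMk ((analytic_ev_right m _).continuousAt.comp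
        (f := fun v : ℂ × ℂ => ((1 : ℂ), v.2 / v.1)) (continuousAt_const.prodMk h1))
    simpa using h4.tendsto
  filter_upwards [h2.eventually h, h3.eventually hK.hom,
    (continuousAt_fst (p := ((1 : ℂ), η))).eventually_ne one_ne_zero] with v k1 k2 k3
  have e1' : mk2 (1, η) e1 (1, v.2 / v.1 - η) = (1, v.2 / v.1) := by simp [mk2, e1]
  have e2 : v = v.1 • ((1 : ℂ), v.2 / v.1) := Prod.ext (by simp) (by simp [mul_div_cancel₀, k3])
  rw [evQ_chart, tw_one, ev_rep, e1'] at k1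
  have k4 := k2 (hm _ fun e => one_ne_zero (congrArg Prod.fst e))
  rw [← ev_hom, ← e2, k1] at k4
  rw [k4]
  field_simp
  ring

theorem Pre.caseB (G : P.Eqs α) {y : κ → ℂ} (hy : P.Gen y) {c : Co P.w 2} (hc : c ∈ P.M 2)
    (h0 : ev P.w 2 c e0 = y) (hv : P.VF c) {n : Co P.w 2 × ℂ} (hn : P.Nod n)
    (hcl : n ∈ closure (connectedComponentIn (P.My y) (c, 1))) :
    ∃ a k σ, wg e0 a ≠ 0 ∧ P.LocK y (rep P.w 2 e0 a c) k σ ∧
      ∀ᶠ m in 𝓝 c, m ∈ P.M 2 → Qv P.w (fun q => k q ^ 2) m a := by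
  have hO := Pre.comp_quad G hy (x₀ := (c, 1))
    ⟨Pre.mem_MQ_one.2 hc, one_ne_zero, (yE_eq P.w_pos c).trans h0⟩ hn hcl
  have hΦ : Continuous fun p : ℂ × Co P.w 2 => (rep P.w 2 (1, p.1) e1 p.2, (1 : ℂ)) :=
    (continuous_rep.comp (f := fun p : ℂ × Co P.w 2 => (((1 : ℂ), p.1), e1, p.2))
      (by fun_prop)).prodMk continuous_const
  have h1 := ((hΦ.tendsto' (0, c) (c, 1) (congrArg (·, (1 : ℂ)) (rep_id c))).eventually
    hO).curry_nhds
  obtain ⟨η, h2, hη⟩ := ((h1.filter_mono (nhdsWithin_le_nhds (s := {0}ᶜ))).and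
    self_mem_nhdsWithin).exists
  have ha : wg e0 (1, η) ≠ 0 := by simpa [wg, e0] using hη
  obtain ⟨k, σ, h⟩ := Pre.exists_locK G (Pre.rep_mem ha hc) (hv.rep G hc ha)
  rw [ev_rep, mk2_e0, h0] at h
  refine ⟨(1, η), k, σ, ha, h, ?_⟩
  have h3 := h.good
  rw [ev_rep, mk2_e1] at h3
  filter_upwards [h2, (evL P.w 2 (1, η)).continuous.continuousAt.eventually h3.nearby]
    with m k1 k2 hm
  refine KB_qv hm k2 (k1 (Pre.mem_MQ_one.2 (Pre.rep_mem (by simp [wg, e1]) hm)) _ ?_)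
  rwa [yE_eq P.w_pos, ev_rep, mk2_e0]

end Vale.Agent.P292
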