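import Vale.Agent.P292.KBas0

/-! Tuples of binary forms: change of the parameter. -/

set_option maxSynthPendingDepth 3
set_option linter.unusedSectionVars false

open scoped Topology
open Set Filter Asymptotics

noncomputable section

namespace Vale.Agent.P292

variable {κ : Type} [Fintype κ] {w : κ → ℕ} {d : ℕ}

/-- binary forms of degree `n` as functions -/
def KBasS (n : ℕ) : Submodule ℂ (ℂ × ℂ → ℂ) :=
  Submodule.span ℂ (range fun (j : Fin (n + 1)) (v : ℂ × ℂ) => v.1 ^ (n - j) * v.2 ^ (j : ℕ))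

theorem KBas_mul {n : ℕ} (α β : ℂ) {f : ℂ × ℂ → ℂ} (hf : f ∈ KBasS n) :
    (fun v => (v.1 * α + v.2 * β) * f v) ∈ KBasS (n + 1) := by
  induction hf using Submodule.span_induction with
  | mem f hf =>
    obtain ⟨j, rfl⟩ := hf
    have h1 : (fun v : ℂ × ℂ => v.1 ^ (n + 1 - j) * v.2 ^ (j : ℕ)) ∈ KBasS (n + 1) :=
      Submodule.subset_span ⟨j.castSucc, rfl⟩
    have h2 : (fun v : ℂ × ℂ => v.1 ^ (n + 1 - (j + 1)) * v.2 ^ ((j : ℕ) + 1)) ∈ KBasS (n + 1) :=
      Submodule.subset_span ⟨j.succ, rfl⟩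
    have := add_mem (Submodule.smul_mem _ α h1) (Submodule.smul_mem _ β h2)
    refine (congrArg (· ∈ KBasS (n + 1)) (funext fun v => ?_)).mp this
    rw [Nat.add_sub_add_right, Nat.succ_sub (Nat.lt_succ_iff.1 j.2)]
    simp only [Pi.add_apply, Pi.smul_apply, smul_eq_mul, pow_succ]
    ring
  | zero => simp only [Pi.zero_apply, mul_zero]; exact zero_mem _
  | add f g _ _ hf hg => simp only [Pi.add_apply, mul_add]; exact add_mem hf hg
  | smul r f _ hf =>
    simp only [Pi.smul_apply, smul_eq_mul, mul_left_comm _ r]; exact Submodule.smul_mem _ r hf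

theorem KBas_pow (α β α' β' : ℂ) (p q : ℕ) :
    (fun v : ℂ × ℂ => (v.1 * α + v.2 * β) ^ p * (v.1 * α' + v.2 * β') ^ q) ∈ KBasS (q + p) := by
  induction p with
  | zero =>
    induction q with
    | zero => exact Submodule.subset_span ⟨0, by funext v; simp⟩
    | succ q ih =>
      have := KBas_mul α' β' ih
      simp only [pow_zero, one_mul, ← pow_succ'] at this ⊢
      exact this
  | succ p ih =>
    have := KBas_mul α β ih
    simp only [← mul_assoc, ← pow_succ'] at this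
    exact this

theorem ev_rep (a b : ℂ × ℂ) (c : Co w d) (v : ℂ × ℂ) :
    ev w d (rep w d a b c) v = ev w d c (mk2 a b v) := by
  have h : ∃ c' : Co w d, ∀ v, ev w d c' v = ev w d c (mk2 a b v) := by
    have hi : ∀ i, ∃ c' : Fin (d * w i + 1) → ℂ, ∀ v : ℂ × ℂ,
        ∑ j, c' j * v.1 ^ (d * w i - j) * v.2 ^ (j : ℕ) = ev w d c (mk2 a b v) i := fun i => by
      have h1 : (∑ j : Fin (d * w i + 1), c i j • fun v : ℂ × ℂ =>
          (v.1 * a.1 + v.2 * b.1) ^ (d * w i - j) * (v.1 * a.2 + v.2 * b.2) ^ (j : ℕ)) ∈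
          KBasS (d * w i) := Submodule.sum_mem _ fun j _ => Submodule.smul_mem _ _ (by
        have := KBas_pow a.1 b.1 a.2 b.2 (d * w i - j) j
        rwa [Nat.add_sub_cancel' (Nat.lt_succ_iff.1 j.2)] at this)
      obtain ⟨c', hc⟩ := (Submodule.mem_span_range_iff_exists_fun ℂ).1 h1
      refine ⟨c', fun v => ?_⟩
      have := congrFun hc v
      simpa [ev, mk2, mul_assoc] using this
    choose c' hc using hi
    exact ⟨c', fun v => funext fun i => hc i v⟩
  rw [rep, dif_pos h]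
  exact h.choose_spec v

theorem KBas_mk2 (a b v : ℂ × ℂ) : HasFDerivAt (mk2 a b)
    ((ContinuousLinearMap.fst ℂ ℂ ℂ).smulRight a + (ContinuousLinearMap.snd ℂ ℂ ℂ).smulRight b) v :=
  ((ContinuousLinearMap.fst ℂ ℂ ℂ).smulRight a +
    (ContinuousLinearMap.snd ℂ ℂ ℂ).smulRight b).hasFDerivAt

theorem fderiv_ev_rep (a b : ℂ × ℂ) (c : Co w d) (v e : ℂ × ℂ) :
    fderiv ℂ (ev w d (rep w d a b c)) v e = fderiv ℂ (ev w d c) (mk2 a b v) (mk2 a b e) := by
  rw [show ev w d (rep w d a b c) = ev w d c ∘ mk2 a b from funext (ev_rep a b c),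
    ((analytic_ev_right c _).differentiableAt.hasFDerivAt.comp v (KBas_mk2 a b v)).fderiv]
  rfl

theorem rep_id (c : Co w d) : rep w d e0 e1 c = c :=
  ev_inj (a := 0) (Eventually.of_forall fun v => by rw [ev_rep]; simp [mk2, e0, e1])

theorem KBas_cont : Continuous fun x : Co w d × ℂ × ℂ => ev w d x.1 x.2 :=
  continuous_iff_continuousAt.2 fun x => (analytic_ev x).continuousAt

theorem continuous_rep :
    Continuous fun x : (ℂ × ℂ) × (ℂ × ℂ) × Co w d => rep w d x.1 x.2.1 x.2.2 := by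
  obtain ⟨B, hB, h⟩ := norm_le_sup w d
  refine continuous_iff_continuousAt.2 fun x => Metric.tendsto_nhds.2 fun ε hε => ?_
  have hc : Continuous fun p : ((ℂ × ℂ) × (ℂ × ℂ) × Co w d) × ℂ × ℂ =>
      ‖ev w d p.1.2.2 (mk2 p.1.1 p.1.2.1 p.2) - ev w d x.2.2 (mk2 x.1 x.2.1 p.2)‖ := by
    refine Continuous.norm (Continuous.sub (KBas_cont.comp (f := fun p :
      ((ℂ × ℂ) × (ℂ × ℂ) × Co w d) × ℂ × ℂ => (p.1.2.2, mk2 p.1.1 p.1.2.1 p.2)) ?_)
      (KBas_cont.comp (f := fun p : ((ℂ × ℂ) × (ℂ × ℂ) × Co w d) × ℂ × ℂ =>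
        (x.2.2, mk2 x.1 x.2.1 p.2)) ?_)) <;> unfold mk2 <;> fun_prop
  have hr : 0 < ε / (2 * B) := by positivity
  have := (isCompact_sphere (0 : ℂ × ℂ) 1).eventually_forall_of_forall_eventually (x₀ := x)
    (P := fun y v => ‖ev w d y.2.2 (mk2 y.1 y.2.1 v) - ev w d x.2.2 (mk2 x.1 x.2.1 v)‖ <
      ε / (2 * B)) fun v _ => (isOpen_lt hc continuous_const).mem_nhds (by simpa using hr)
  refine this.mono fun y hy => ?_
  rw [dist_eq_norm]
  refine (h _ _ hr.le fun v hv => ?_).trans_lt ?_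
  · rw [← evL_apply, map_sub, evL_apply, evL_apply, ev_rep, ev_rep]
    exact (hy v (by simpa using hv)).le
  · rw [mul_div_assoc', mul_comm B, mul_div_mul_right _ _ hB.ne']
    exact half_lt_self hε

theorem mk2_e0 (a b : ℂ × ℂ) : mk2 a b e0 = a := by simp [mk2, e0]

theorem mk2_e1 (a b : ℂ × ℂ) : mk2 a b e1 = b := by simp [mk2, e1]

theorem mk2_ne_zero {a b v : ℂ × ℂ} (h : wg a b ≠ 0) (hv : v ≠ 0) : mk2 a b v ≠ 0 := fun e => by
  have h1 : v.1 * a.1 + v.2 * b.1 = 0 := congrArg Prod.fst e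
  have h2 : v.1 * a.2 + v.2 * b.2 = 0 := congrArg Prod.snd e
  refine hv (Prod.ext (mul_right_cancel₀ h ?_) (mul_right_cancel₀ h ?_))
  · rw [Prod.fst_zero, wg]; linear_combination b.2 * h1 - b.1 * h2
  · rw [Prod.snd_zero, wg]; linear_combination a.1 * h2 - a.2 * h1

theorem mk2_surj {a b : ℂ × ℂ} (h : wg a b ≠ 0) (u : ℂ × ℂ) : ∃ v, mk2 a b v = u := by
  refine ⟨(wg u b / wg a b, wg a u / wg a b), Prod.ext ?_ ?_⟩
  · change wg u b / wg a b * a.1 + wg a u / wg a b * b.1 = u.1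
    field_simp
    simp only [wg]; ring
  · change wg u b / wg a b * a.2 + wg a u / wg a b * b.2 = u.2
    field_simp
    simp only [wg]; ring

theorem Pre.rep_mem {P : Pre κ} {a b : ℂ × ℂ} (h : wg a b ≠ 0) {c : Co P.w d} (hc : c ∈ P.M d) :
    rep P.w d a b c ∈ P.M d := fun v hv => by
  rw [ev_rep]; exact hc _ (mk2_ne_zero h hv)

/-- the curves without base points are open among all curves -/
theorem Pre.M_nhds {P : Pre κ} {c : Co P.w d} (hc : c ∈ P.M d) :
    ∀ᶠ c' in 𝓝 c, (∀ v, v ≠ 0 → ev P.w d c' v ∈ insert 0 P.C) → c' ∈ P.M d := by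
  have := (isCompact_sphere (0 : ℂ × ℂ) 1).eventually_forall_of_forall_eventually (x₀ := c)
    (P := fun c' v => ev P.w d c' v ≠ 0) fun v hv =>
      KBas_cont.continuousAt.eventually_ne fun e =>
        P.zero_not (e ▸ hc v (Metric.ne_of_mem_sphere hv one_ne_zero))
  refine this.mono fun c' h h' v hv => (h' v hv).resolve_left fun e => ?_
  have hn : ‖v‖ ≠ 0 := norm_ne_zero_iff.2 hv
  refine h (((‖v‖⁻¹ : ℝ) : ℂ) • v) ?_ (by rw [ev_hom, e, map_zero])
  rw [mem_sphere_zero_iff_norm, norm_smul, Complex.norm_real, norm_inv, norm_norm,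
    inv_mul_cancel₀ hn]

end Vale.Agent.P292
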