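import Vale.Agent.P292.KDefs

/-! Tuples of binary forms. Hints: `ev_inj`: a polynomial in one variable which vanishes near a
point is zero (restrict to `v = (a.1 + s, ...)` or use analyticity and the identity theorem, then
`v = (1, t)`). `norm_le_sup`: the supremum over the unit sphere is a norm on a finite-dimensional
space (or: evaluation at the points `(1, t_j)` is an injective linear map). `ev_rep`: the space of
functions `ev c` is spanned by monomials and is stable under linear substitutions (homogeneous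
polynomials, `MvPolynomial.IsHomogeneous`, or induction: products of linear forms). -/

set_option maxSynthPendingDepth 3

open scoped Topology
open Set Filter Asymptotics

noncomputable section

namespace Vale.Agent.P292

variable {κ : Type} [Fintype κ] {w : κ → ℕ} {d : ℕ}

/-- evaluation as a linear map -/
def evL (w : κ → ℕ) (d : ℕ) (v : ℂ × ℂ) : Co w d →L[ℂ] κ → ℂ :=
  LinearMap.toContinuousLinearMap
    { toFun := fun c => ev w d c v
      map_add' := fun a b => by funext i; simp [ev, add_mul, Finset.sum_add_distrib]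
      map_smul' := fun r a => by funext i; simp [ev, Finset.mul_sum, mul_assoc] }

@[simp] theorem evL_apply (v : ℂ × ℂ) (c : Co w d) : evL w d v c = ev w d c v := rfl

theorem act_apply (l : ℂ) (p : κ → ℂ) (i : κ) : act w l p i = l ^ w i * p i := rfl

theorem eul_apply (p : κ → ℂ) (i : κ) : eul w p i = w i * p i := rfl

theorem act_one (p : κ → ℂ) : act w 1 p = p := by
  funext i
  simp [act_apply]

theorem act_mul (l l' : ℂ) (p : κ → ℂ) : act w (l * l') p = act w l (act w l' p) := by
  funext i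
  simp [act_apply, mul_pow, mul_assoc]

theorem act_zero (hw : ∀ i, 0 < w i) (p : κ → ℂ) : act w 0 p = 0 := by
  funext i
  simp [act_apply, (hw i).ne']

theorem act_eq_zero {l : ℂ} (hl : l ≠ 0) {p : κ → ℂ} (h : act w l p = 0) : p = 0 := by
  funext i
  exact (mul_eq_zero.1 (congrFun h i)).resolve_left (pow_ne_zero _ hl)

theorem act_eul (l : ℂ) (p : κ → ℂ) : act w l (eul w p) = eul w (act w l p) := by
  funext i
  simp only [act_apply, eul_apply]
  ring

theorem eul_ne_zero (hw : ∀ i, 0 < w i) {p : κ → ℂ} (h : p ≠ 0) : eul w p ≠ 0 := by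
  refine fun h0 => h (funext fun i => ?_)
  exact (mul_eq_zero.1 (congrFun h0 i)).resolve_left (Nat.cast_ne_zero.2 (hw i).ne')

theorem analytic_act (x : ℂ × (κ → ℂ)) : AnalyticAt ℂ (fun x : ℂ × (κ → ℂ) => act w x.1 x.2) x := by
  have : ContDiff ℂ ⊤ fun x : ℂ × (κ → ℂ) => fun i => x.1 ^ w i * x.2 i := by fun_prop
  exact this.contDiffAt.analyticAt

theorem hasDerivAt_act (p : κ → ℂ) {l : ℂ} (hl : l ≠ 0) :
    HasDerivAt (fun l => act w l p) (l⁻¹ • eul w (act w l p)) l := by
  refine hasDerivAt_pi.2 fun i => ?_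
  refine ((hasDerivAt_pow (w i) l).mul_const (p i)).congr_deriv ?_
  simp only [Pi.smul_apply, act_apply, eul_apply, smul_eq_mul]
  rcases w i with _ | n
  · simp
  · rw [Nat.add_sub_cancel, pow_succ]
    field_simp

theorem analytic_ev (x : Co w d × ℂ × ℂ) :
    AnalyticAt ℂ (fun x : Co w d × ℂ × ℂ => ev w d x.1 x.2) x := by
  have : ContDiff ℂ ⊤ fun x : Co w d × ℂ × ℂ => ev w d x.1 x.2 := by
    refine contDiff_pi.2 fun i => ContDiff.sum fun j _ => ?_
    have : ContDiff ℂ ⊤ fun x : Co w d × ℂ × ℂ => x.1 i j :=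
      contDiff_pi.1 (contDiff_pi.1 contDiff_fst i) j
    exact (this.mul (contDiff_snd.fst.pow _)).mul (contDiff_snd.snd.pow _)
  exact this.contDiffAt.analyticAt

theorem analytic_ev_right (c : Co w d) (v : ℂ × ℂ) : AnalyticAt ℂ (ev w d c) v := by
  exact (analytic_ev (c, v)).comp (f := fun v => (c, v)) (analyticAt_const.prod analyticAt_id)

theorem KBas0_right (c : Co w d) (v e : ℂ × ℂ) :
    fderiv ℂ (fun x : Co w d × ℂ × ℂ => ev w d x.1 x.2) (c, v) (0, e) =
      fderiv ℂ (ev w d c) v e := by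
  have h1 := ((analytic_ev (c, v)).differentiableAt.hasFDerivAt.comp v
    (hasFDerivAt_prodMk_right c v)).unique (analytic_ev_right c v).differentiableAt.hasFDerivAt
  exact DFunLike.congr_fun h1 e

/-- the differential in the parameter, jointly -/
theorem analytic_dev (e : ℂ × ℂ) (x : Co w d × ℂ × ℂ) :
    AnalyticAt ℂ (fun x : Co w d × ℂ × ℂ => fderiv ℂ (ev w d x.1) x.2 e) x := by
  have h := ((ContinuousLinearMap.apply ℂ (κ → ℂ) ((0 : Co w d), e)).analyticAt _).comp
    (analytic_ev x).fderiv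
  refine h.congr (Eventually.of_forall fun y => ?_)
  exact KBas0_right y.1 y.2 e

theorem fderiv_ev_joint (c δ : Co w d) (v e : ℂ × ℂ) :
    fderiv ℂ (fun x : Co w d × ℂ × ℂ => ev w d x.1 x.2) (c, v) (δ, e) =
      ev w d δ v + fderiv ℂ (ev w d c) v e := by
  have h1 := (HasFDerivAt.comp (f := fun c => (c, v)) c
    (analytic_ev (c, v)).differentiableAt.hasFDerivAt
    (hasFDerivAt_prodMk_left c v)).unique (evL w d v).hasFDerivAt
  have h2 := DFunLike.congr_fun h1 δ
  rw [← KBas0_right, ← evL_apply, ← h2, ContinuousLinearMap.comp_apply, ← map_add]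
  simp

theorem exists_devL (v e : ℂ × ℂ) :
    ∃ L : Co w d →L[ℂ] κ → ℂ, ∀ c, L c = fderiv ℂ (ev w d c) v e := by
  refine ⟨LinearMap.toContinuousLinearMap
    { toFun := fun c => fderiv ℂ (ev w d c) v e
      map_add' := fun a b => ?_
      map_smul' := fun r a => ?_ }, fun _ => rfl⟩
  · rw [show ev w d (a + b) = ev w d a + ev w d b from funext fun v => (evL w d v).map_add a b,
      fderiv_add (analytic_ev_right a v).differentiableAt (analytic_ev_right b v).differentiableAt]
    rfl
  · rw [show ev w d (r • a) = r • ev w d a from funext fun v => (evL w d v).map_smul r a,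
      fderiv_const_smul (analytic_ev_right a v).differentiableAt]
    rfl

theorem ev_hom (c : Co w d) (l : ℂ) (v : ℂ × ℂ) :
    ev w d c (l • v) = act w (l ^ d) (ev w d c v) := by
  funext i
  simp only [ev, act_apply, Prod.smul_fst, Prod.smul_snd, smul_eq_mul, Finset.mul_sum, mul_pow]
  refine Finset.sum_congr rfl fun j _ => ?_
  have : l ^ (d * w i) = l ^ (d * w i - j) * l ^ (j : ℕ) := by
    rw [← pow_add, Nat.sub_add_cancel (Nat.lt_succ_iff.1 j.2)]
  rw [← pow_mul, this]
  ring

theorem fderiv_ev_hom (c : Co w d) {l : ℂ} (hl : l ≠ 0) (v e : ℂ × ℂ) :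
    fderiv ℂ (ev w d c) (l • v) e = l⁻¹ • act w (l ^ d) (fderiv ℂ (ev w d c) v e) := by
  have h1 := (analytic_ev_right c (l • v)).differentiableAt.hasFDerivAt.comp v
    ((hasFDerivAt_id v).const_smul l)
  have h2 := (act w (l ^ d)).hasFDerivAt.comp v (analytic_ev_right c v).differentiableAt.hasFDerivAt
  have h3 := DFunLike.congr_fun (h1.unique (h2.congr_of_eventuallyEq
    (Eventually.of_forall fun u => ev_hom c l u))) e
  rw [eq_inv_smul_iff₀ hl, ← map_smul]
  exact h3

theorem ev_euler (c : Co w d) (v : ℂ × ℂ) :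
    fderiv ℂ (ev w d c) v v = (d : ℂ) • eul w (ev w d c v) := by
  have h0 : HasDerivAt (fun l : ℂ => l • v) v 1 := by
    simpa using (hasDerivAt_id (1 : ℂ)).smul_const v
  have h1 : HasDerivAt (fun l : ℂ => ev w d c (l • v)) (fderiv ℂ (ev w d c) ((1 : ℂ) • v) v) 1 :=
    HasFDerivAt.comp_hasDerivAt (l := ev w d c) (f := fun l : ℂ => l • v) (1 : ℂ)
      (analytic_ev_right c _).differentiableAt.hasFDerivAt h0
  have h2 := (hasDerivAt_act (w := w) (ev w d c v) (pow_ne_zero d (one_ne_zero' ℂ))).scomp (1 : ℂ)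
    (hasDerivAt_pow d (1 : ℂ))
  have h3 := h1.unique (h2.congr_of_eventuallyEq (Eventually.of_forall fun l => ev_hom c l v))
  simpa [act_one] using h3

theorem ev_const (c : Co w 0) (v v' : ℂ × ℂ) : ev w 0 c v = ev w 0 c v' := by
  funext i
  refine Finset.sum_congr rfl fun j _ => ?_
  have : (j : ℕ) = 0 := by have := j.2; omega
  simp [this]

omit [Fintype κ] in
theorem KBas0_inj {c : Co w d}
    (h : ∀ i (m : Fin (d * w i + 1)), ev w d c (1, ((m : ℕ) + 1 : ℂ)⁻¹) i = 0) : c = 0 := by
  funext i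
  refine Matrix.eq_zero_of_forall_index_sum_mul_pow_eq_zero
    (f := fun m : Fin (d * w i + 1) => ((m : ℕ) + 1 : ℂ)⁻¹) (fun m n e => ?_) fun m => ?_
  · exact Fin.ext (by exact_mod_cast add_right_cancel (inv_injective e))
  · simpa [ev] using h i m

theorem ev_inj {c c' : Co w d} {a : ℂ × ℂ} (h : ∀ᶠ v in 𝓝 a, ev w d c v = ev w d c' v) :
    c = c' := by
  have h1 : ev w d c = ev w d c' := AnalyticOnNhd.eq_of_eventuallyEq
    (fun v _ => analytic_ev_right c v) (fun v _ => analytic_ev_right c' v) h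
  refine sub_eq_zero.1 (KBas0_inj fun i m => ?_)
  rw [← evL_apply, map_sub, evL_apply, evL_apply, h1, sub_self]
  rfl

theorem norm_le_sup (w : κ → ℕ) (d : ℕ) : ∃ B : ℝ, 0 < B ∧ ∀ (c : Co w d) (r : ℝ), 0 ≤ r →
    (∀ v, ‖v‖ = 1 → ‖ev w d c v‖ ≤ r) → ‖c‖ ≤ B * r := by
  let Φ : Co w d →ₗ[ℂ] Co w d :=
    { toFun := fun c i m => ev w d c (1, ((m : ℕ) + 1 : ℂ)⁻¹) i
      map_add' := fun a b => funext fun i => funext fun m =>
        congrFun ((evL w d _).map_add a b) i
      map_smul' := fun r a => funext fun i => funext fun m =>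
        congrFun ((evL w d _).map_smul r a) i }
  obtain ⟨K, hK, hΦ⟩ := Φ.exists_antilipschitzWith
    (LinearMap.ker_eq_bot'.2 fun c hc => KBas0_inj fun i m => congrFun (congrFun hc i) m)
  refine ⟨K, hK, fun c r hr h => (hΦ.le_mul_norm (map_zero Φ) c).trans ?_⟩
  refine mul_le_mul_of_nonneg_left ((pi_norm_le_iff_of_nonneg hr).2 fun i =>
    (pi_norm_le_iff_of_nonneg hr).2 fun m => (norm_le_pi_norm _ i).trans (h _ ?_)) K.2
  rw [Prod.norm_def, norm_one, max_eq_left]
  rw [norm_inv, ← Nat.cast_succ, Complex.norm_natCast]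
  exact inv_le_one_of_one_le₀ (by exact_mod_cast Nat.succ_pos _)

end Vale.Agent.P292
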