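import Vale.Agent.P292.KBq0

/-! Conics and pairs of lines. Hints: termwise computations, separating `j ≤ w i` and
`w i ≤ j`. Every point of `Qc ε` with `ε ≠ 0` is `(a ^ 2, ε b ^ 2, a b)`. `evQ_inj`: for `ε ≠ 0`
use `ev_tw` and `ev_inj`, for `ε = 0` use `ev_l1`, `ev_l2`. `exists_nf`: reduce a monomial
`s^i t^j r^k` to `ε^m s^(i-m) t^(j-m) r^(k+2m)`; a weighted homogeneous polynomial of forms is a
homogeneous polynomial in three variables (`MvPolynomial.aeval`, or induction on the class of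
functions on `Qc ε` of the form `evQ`, which is stable under products). -/

set_option maxSynthPendingDepth 3

open scoped Topology
open Set Filter Asymptotics

noncomputable section

namespace Vale.Agent.P292

variable {κ : Type} [Fintype κ] {w : κ → ℕ} {d : ℕ}

theorem KBq_curve {E F : Type} [NormedAddCommGroup E] [NormedSpace ℂ E] [NormedAddCommGroup F]
    [NormedSpace ℂ F] {f : E → F} {γ : ℂ → E} {σ e : E} (hf : DifferentiableAt ℂ f σ)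
    (hγ : HasDerivAt γ e 0) (h0 : γ 0 = σ) : HasDerivAt (fun t => f (γ t)) (fderiv ℂ f σ e) 0 :=
  hf.hasFDerivAt.comp_hasDerivAt_of_eq 0 hγ h0.symm

theorem KBq_line {E F : Type} [NormedAddCommGroup E] [NormedSpace ℂ E] [NormedAddCommGroup F]
    [NormedSpace ℂ F] {f : E → F} {σ : E} (hf : DifferentiableAt ℂ f σ) (m : ℂ) (e : E) :
    HasDerivAt (fun t : ℂ => f (σ + (m * t) • e)) (m • fderiv ℂ f σ e) 0 := by
  have h : HasDerivAt (fun t : ℂ => σ + (m * t) • e) (m • e) 0 := by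
    simpa using ((((hasDerivAt_id' (0 : ℂ)).const_mul m).smul_const e).const_add σ)
  rw [← map_smul]
  exact KBq_curve hf h (by simp)

theorem KBq_diff (c : Co w 2) (σ : ℂ × ℂ × ℂ) : DifferentiableAt ℂ (evQ w c) σ :=
  ((analytic_evQ (c, σ)).comp_of_eq (analyticAt_const.prod analyticAt_id) rfl).differentiableAt

theorem KBq_ev {c : Co w 2} {c' : Co w d} {σ e : ℂ × ℂ × ℂ} {v e' : ℂ × ℂ}
    (h : ∀ t : ℂ, evQ w c (σ + (1 * t) • e) = ev w d c' (v + (1 * t) • e')) :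
    fderiv ℂ (evQ w c) σ e = fderiv ℂ (ev w d c') v e' := by
  have h1 := KBq_line (KBq_diff c σ) 1 e
  have h2 := KBq_line (analytic_ev_right c' v).differentiableAt 1 e'
  simp only [h] at h1
  simpa using h1.unique h2

theorem KBq_der {c c' : Co w 2} {σ e : ℂ × ℂ × ℂ} (l m : ℂ)
    (h : ∀ t : ℂ, evQ w c' (σ + (1 * t) • e) = act w l (evQ w c (σ + (m * t) • e))) :
    fderiv ℂ (evQ w c') σ e = m • act w l (fderiv ℂ (evQ w c) σ e) := by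
  have h1 := KBq_line (KBq_diff c' σ) 1 e
  have h2 := (act w l).hasFDerivAt.comp_hasDerivAt (0 : ℂ) (KBq_line (KBq_diff c σ) m e)
  simp only [h] at h1
  simpa using h1.unique h2

theorem KBq_hom (c : Co w 2) (l s t r : ℂ) :
    act w l (evQ w c (s, t, r)) = evQ w c (l * s, l * t, l * r) := (evQ_hom c l (s, t, r)).symm

variable (hw : ∀ i, 0 < w i) (c : Co w 2) (x : Co w 2 × ℂ)
include hw

theorem yE_eq : yE w c = ev w 2 c e0 := by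
  have _ := hw
  have h := ev_tw 1 c 1 0
  rw [tw_one] at h
  simpa [yE, e0] using h.symm

theorem zE_eq : zE w c = ev w 2 c e1 := by
  have _ := hw
  have h := ev_tw 1 c 0 1
  rw [tw_one] at h
  simpa [zE, e1] using h.symm

theorem dE_eq : dE w c = fderiv ℂ (ev w 2 c) e1 e0 := by
  have _ := hw
  have h : HasDerivAt (fun t : ℂ => ((t ^ 2, 1, t) : ℂ × ℂ × ℂ)) (0, 0, 1) 0 := by
    simpa using (hasDerivAt_pow 2 (0 : ℂ)).prodMk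
      ((hasDerivAt_const (0 : ℂ) (1 : ℂ)).prodMk (hasDerivAt_id' (0 : ℂ)))
  have h1 := KBq_curve (KBq_diff c (0, 1, 0)) h (by simp)
  have h2 := KBq_line (analytic_ev_right c e1).differentiableAt 1 e0
  have e : ∀ t : ℂ, ev w 2 c (e1 + (1 * t) • e0) = evQ w c (t ^ 2, 1, t) := fun t => by
    have h3 := ev_tw 1 c t 1
    rw [tw_one] at h3
    simpa [e0, e1] using h3
  simp only [e] at h2
  simpa [dE] using h1.unique h2

omit hw in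
theorem l1_ends : yE w c = ev w 1 (l1 w c) e0 ∧ uE w c = ev w 1 (l1 w c) e1 ∧
    aE w c = fderiv ℂ (ev w 1 (l1 w c)) e1 e0 :=
  ⟨(ev_l1 c 1 0).symm, (ev_l1 c 0 1).symm, KBq_ev fun t => by
    simpa [e0, e1] using (ev_l1 c t 1).symm⟩

omit hw in
theorem l2_ends : zE w c = ev w 1 (l2 w c) e0 ∧ uE w c = ev w 1 (l2 w c) e1 ∧
    bE w c = fderiv ℂ (ev w 1 (l2 w c)) e1 e0 ∧ dE w c = fderiv ℂ (ev w 1 (l2 w c)) e0 e1 :=
  ⟨(ev_l2 c 1 0).symm, (ev_l2 c 0 1).symm, KBq_ev fun t => by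
    simpa [e0, e1] using (ev_l2 c t 1).symm, KBq_ev fun t => by
    simpa [e0, e1] using (ev_l2 c 1 t).symm⟩

theorem tw_ends (ε : ℂ) : ev w 2 (tw w ε c) e0 = yE w c ∧ ev w 2 (tw w ε c) e1 = act w ε (zE w c) := by
  have _ := hw
  constructor
  · simpa [yE, e0] using ev_tw ε c 1 0
  · rw [zE, KBq_hom]
    simpa [e1] using ev_tw ε c 0 1

omit hw in
theorem rs_ends {ρ : ℂ} (hρ : ρ ≠ 0) : yE w (rs w ρ x).1 = yE w x.1 ∧ zE w (rs w ρ x).1 = zE w x.1 ∧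
    uE w (rs w ρ x).1 = act w ρ (uE w x.1) ∧ dE w (rs w ρ x).1 = ρ • dE w x.1 ∧
    aE w (rs w ρ x).1 = ρ⁻¹ • act w ρ (aE w x.1) ∧ bE w (rs w ρ x).1 = ρ⁻¹ • act w ρ (bE w x.1) := by
  refine ⟨by simp [yE, evQ_rs], by simp [zE, evQ_rs], by simp [uE, evQ_rs, KBq_hom], ?_,
    KBq_der ρ ρ⁻¹ fun t => by simp [evQ_rs, KBq_hom, hρ],
    KBq_der ρ ρ⁻¹ fun t => by simp [evQ_rs, KBq_hom, hρ]⟩
  rw [← act_one (w := w) (dE w x.1)]
  exact KBq_der 1 ρ fun t => by simp [evQ_rs, KBq_hom]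

omit hw in
theorem ts_ends {l : ℂ} (hl : l ≠ 0) : yE w (ts w l x).1 = yE w x.1 ∧
    zE w (ts w l x).1 = act w l (zE w x.1) ∧ uE w (ts w l x).1 = uE w x.1 ∧
    dE w (ts w l x).1 = l⁻¹ • act w l (dE w x.1) ∧ aE w (ts w l x).1 = aE w x.1 ∧
    bE w (ts w l x).1 = l • bE w x.1 := by
  refine ⟨by simp [yE, evQ_ts], by simp [zE, evQ_ts, KBq_hom], by simp [uE, evQ_ts],
    KBq_der l l⁻¹ fun t => by simp [evQ_ts, KBq_hom, hl], ?_, ?_⟩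
  · rw [← act_one (w := w) (aE w x.1), ← one_smul ℂ (act w 1 (aE w x.1))]
    exact KBq_der 1 1 fun t => by simp [evQ_ts, KBq_hom]
  · rw [← act_one (w := w) (bE w x.1)]
    exact KBq_der 1 l fun t => by simp [evQ_ts, KBq_hom]

omit hw

namespace Pre

variable {P : Pre κ}

theorem KBq_Qc (ε a b : ℂ) : ((a ^ 2, ε * b ^ 2, a * b) : ℂ × ℂ × ℂ) ∈ Qc ε := by
  show a ^ 2 * (ε * b ^ 2) = ε * (a * b) ^ 2
  ring

theorem KBq_ne {p : κ → ℂ} (h : p ∈ P.C) : p ≠ 0 := fun h0 => P.zero_not (h0 ▸ h)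

theorem KBq_rs {ρ ε s t r : ℂ} (h : ((s, t, r) : ℂ × ℂ × ℂ) ∈ Qc (ε * ρ ^ 2)) :
    ((s, t, ρ * r) : ℂ × ℂ × ℂ) ∈ Qc ε := by
  have h' : s * t = ε * ρ ^ 2 * r ^ 2 := h
  show s * t = ε * (ρ * r) ^ 2
  rw [h']
  ring

theorem KBq_ts {l ε s t r : ℂ} (hl : l ≠ 0) (h : ((s, t, r) : ℂ × ℂ × ℂ) ∈ Qc (ε / l)) :
    ((s, l * t, r) : ℂ × ℂ × ℂ) ∈ Qc ε := by
  have h' : s * t = ε / l * r ^ 2 := h
  show s * (l * t) = ε * r ^ 2
  rw [mul_left_comm, h']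
  field_simp

theorem mem_MQ_tw {c : Co P.w 2} {ε : ℂ} (hε : ε ≠ 0) : (c, ε) ∈ P.MQ ↔ tw P.w ε c ∈ P.M 2 := by
  constructor
  · rintro h ⟨a, b⟩ hv
    rw [ev_tw]
    refine h _ (KBq_Qc ε a b) fun h0 => hv ?_
    simp only [Prod.mk_eq_zero, pow_eq_zero_iff two_ne_zero, mul_eq_zero, hε, false_or] at h0
    simp [h0.1, h0.2.1]
  · intro h σ hσ h0
    obtain ⟨a, b, rfl⟩ := mem_Qc_param hε hσ
    rw [← ev_tw]
    refine h _ fun h1 => h0 ?_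
    simp only [Prod.mk_eq_zero] at h1
    simp [h1.1, h1.2]

theorem mem_MQ_one {c : Co P.w 2} : (c, (1 : ℂ)) ∈ P.MQ ↔ c ∈ P.M 2 := by
  rw [mem_MQ_tw one_ne_zero, tw_one]

theorem mem_MQ_zero {c : Co P.w 2} :
    (c, (0 : ℂ)) ∈ P.MQ ↔ l1 P.w c ∈ P.M 1 ∧ l2 P.w c ∈ P.M 1 := by
  constructor
  · intro h
    constructor
    · rintro ⟨a, b⟩ hv
      rw [ev_l1]
      exact h _ (by simp [Qc]) (by simpa using hv)
    · rintro ⟨a, b⟩ hv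
      rw [ev_l2]
      exact h _ (by simp [Qc]) (by simpa using hv)
  · rintro ⟨h1, h2⟩ ⟨s, t, r⟩ hσ h0
    have h : s = 0 ∨ t = 0 := by simpa [Qc] using hσ
    rcases h with rfl | rfl
    · rw [← ev_l2]
      exact h2 _ (by simpa using h0)
    · rw [← ev_l1]
      exact h1 _ (by simpa using h0)

theorem MQ_sub : P.MQ ⊆ P.KK := by
  intro x h
  refine ⟨fun σ hσ => ?_, KBq_ne (h _ (by simp [Qc]) (by simp)),
    KBq_ne (h _ (by simp [Qc]) (by simp)), ?_⟩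
  · by_cases h0 : σ = 0
    · left
      rw [h0, ← zero_smul ℂ (0 : ℂ × ℂ × ℂ), evQ_hom, act_zero P.w_pos]
    · exact Or.inr (h σ hσ h0)
  · by_cases h0 : x.2 = 0
    · exact Or.inr (KBq_ne (h _ (by simp [Qc, h0]) (by simp)))
    · exact Or.inl h0

theorem rs_MQ {ρ : ℂ} (hρ : ρ ≠ 0) {x : Co P.w 2 × ℂ} (h : x ∈ P.MQ) : rs P.w ρ x ∈ P.MQ := by
  rintro ⟨s, t, r⟩ hσ h0
  rw [evQ_rs]
  exact h _ (KBq_rs hσ) (by simpa [hρ] using h0)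

theorem ts_MQ {l : ℂ} (hl : l ≠ 0) {x : Co P.w 2 × ℂ} (h : x ∈ P.MQ) : ts P.w l x ∈ P.MQ := by
  rintro ⟨s, t, r⟩ hσ h0
  rw [evQ_ts]
  exact h _ (KBq_ts hl hσ) (by simpa [hl] using h0)

theorem rs_KK {ρ : ℂ} (hρ : ρ ≠ 0) {x : Co P.w 2 × ℂ} (h : x ∈ P.KK) : rs P.w ρ x ∈ P.KK := by
  obtain ⟨e1, e2, e3, -⟩ := rs_ends x hρ
  refine ⟨?_, e1 ▸ h.2.1, e2 ▸ h.2.2.1, h.2.2.2.imp
    (fun h0 => mul_ne_zero h0 (pow_ne_zero 2 hρ)) fun h0 h1 => h0 (act_eq_zero hρ (e3 ▸ h1))⟩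
  rintro ⟨s, t, r⟩ hσ
  rw [evQ_rs]
  exact h.1 _ (KBq_rs hσ)

theorem ts_KK {l : ℂ} (hl : l ≠ 0) {x : Co P.w 2 × ℂ} (h : x ∈ P.KK) : ts P.w l x ∈ P.KK := by
  obtain ⟨e1, e2, e3, -⟩ := ts_ends x hl
  refine ⟨?_, e1 ▸ h.2.1, fun h1 => h.2.2.1 (act_eq_zero hl (e2 ▸ h1)), h.2.2.2.imp
    (fun h0 => div_ne_zero h0 hl) fun h0 => e3 ▸ h0⟩
  rintro ⟨s, t, r⟩ hσ
  rw [evQ_ts]
  exact h.1 _ (KBq_ts hl hσ)

theorem MQ_nhds {x : Co P.w 2 × ℂ} (hx : x ∈ P.MQ) :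
    ∀ᶠ x' in 𝓝 x, (∀ σ ∈ Qc x'.2, evQ P.w x'.1 σ ∈ insert 0 P.C) → x' ∈ P.MQ := by
  have key := (isCompact_sphere (0 : ℂ × ℂ × ℂ) 1).eventually_forall_of_forall_eventually
    (x₀ := x) (P := fun x' σ => σ ∈ Qc x'.2 → evQ P.w x'.1 σ ≠ 0) fun σ hσ => by
      by_cases h : σ ∈ Qc x.2
      · have h0 : σ ≠ 0 := Metric.ne_of_mem_sphere hσ one_ne_zero
        have hc : ContinuousAt (fun z : (Co P.w 2 × ℂ) × ℂ × ℂ × ℂ => evQ P.w z.1.1 z.2) (x, σ) :=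
          (analytic_evQ (x.1, σ)).continuousAt.comp_of_eq
            (f := fun z : (Co P.w 2 × ℂ) × ℂ × ℂ × ℂ => (z.1.1, z.2)) (by fun_prop) rfl
        exact (hc.eventually_ne (KBq_ne (hx σ h h0))).mono fun z hz _ => hz
      · have hc : ContinuousAt (fun z : (Co P.w 2 × ℂ) × ℂ × ℂ × ℂ =>
            z.2.1 * z.2.2.1 - z.1.2 * z.2.2.2 ^ 2) (x, σ) := by fun_prop
        exact (hc.eventually_ne (sub_ne_zero.2 h)).mono fun z hz h1 =>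
          absurd (sub_eq_zero.2 h1) hz
  filter_upwards [key] with x' h1 h2 σ hσ h0
  refine (h2 σ hσ).resolve_left fun h3 => ?_
  have hn : ((‖σ‖ : ℝ) : ℂ) ≠ 0 := by exact_mod_cast norm_ne_zero_iff.2 h0
  refine h1 (((‖σ‖ : ℝ) : ℂ)⁻¹ • σ) ?_ ?_ (by rw [evQ_hom, h3, map_zero])
  · rw [mem_sphere_zero_iff_norm, norm_smul, norm_inv, Complex.norm_real, norm_norm,
      inv_mul_cancel₀ (norm_ne_zero_iff.2 h0)]
  · have h4 : σ.1 * σ.2.1 = x'.2 * σ.2.2 ^ 2 := hσ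
    show ((‖σ‖ : ℝ) : ℂ)⁻¹ * σ.1 * (((‖σ‖ : ℝ) : ℂ)⁻¹ * σ.2.1) =
      x'.2 * (((‖σ‖ : ℝ) : ℂ)⁻¹ * σ.2.2) ^ 2
    linear_combination ((‖σ‖ : ℝ) : ℂ)⁻¹ ^ 2 * h4

theorem KK_M0 {x : Co P.w 2 × ℂ} (h : x ∈ P.KK) : tw P.w x.2 x.1 ∈ P.M0 2 := by
  rintro ⟨a, b⟩
  rw [ev_tw]
  exact h.1 _ (KBq_Qc _ a b)

theorem KK_M0_zero {x : Co P.w 2 × ℂ} (h : x ∈ P.KK) (h0 : x.2 = 0) :
    l1 P.w x.1 ∈ P.M0 1 ∧ l2 P.w x.1 ∈ P.M0 1 := by
  constructor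
  · rintro ⟨a, b⟩
    rw [ev_l1]
    exact h.1 _ (by simp [Qc, h0])
  · rintro ⟨a, b⟩
    rw [ev_l2]
    exact h.1 _ (by simp [Qc, h0])

end Pre

end Vale.Agent.P292
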