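import Vale.Agent.P292.KBas

/-! Conics and pairs of lines. Hints: termwise computations, separating `j ≤ w i` and
`w i ≤ j`. Every point of `Qc ε` with `ε ≠ 0` is `(a ^ 2, ε b ^ 2, a b)`. `evQ_inj`: for `ε ≠ 0`
use `ev_tw` and `ev_inj`, for `ε = 0` use `ev_l1`, `ev_l2`. `exists_nf`: reduce a monomial
`s^i t^j r^k` to `ε^m s^(i-m) t^(j-m) r^(k+2m)`; a weighted homogeneous polynomial of forms is a
homogeneous polynomial in three variables (`MvPolynomial.aeval`, or induction on the class of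
functions on `Qc ε` of the form `evQ`, which is stable under products). -/

set_option maxSynthPendingDepth 3

open scoped Topology
open Set Filter Asymptotics

noncomputable section

namespace Vale.Agent.P292

variable {κ : Type} [Fintype κ] {w : κ → ℕ} {d : ℕ}

/-- evaluation as a linear map -/
def evQL (w : κ → ℕ) (σ : ℂ × ℂ × ℂ) : Co w 2 →L[ℂ] κ → ℂ :=
  LinearMap.toContinuousLinearMap
    { toFun := fun c => evQ w c σ
      map_add' := fun a b => by funext i; simp [evQ, add_mul, Finset.sum_add_distrib]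
      map_smul' := fun r a => by funext i; simp [evQ, Finset.mul_sum, mul_assoc] }

@[simp] theorem evQL_apply (σ : ℂ × ℂ × ℂ) (c : Co w 2) : evQL w σ c = evQ w c σ := rfl

theorem KBq0_proj {F : Type} [NormedAddCommGroup F] [NormedSpace ℂ F] (i : κ)
    (j : Fin (2 * w i + 1)) (x : Co w 2 × F) : AnalyticAt ℂ (fun x : Co w 2 × F => x.1 i j) x :=
  (LinearMap.toContinuousLinearMap
    { toFun := fun c : Co w 2 => c i j
      map_add' := fun _ _ => rfl
      map_smul' := fun _ _ => rfl }).analyticAt _ |>.comp analyticAt_fst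

theorem analytic_evQ (x : Co w 2 × ℂ × ℂ × ℂ) :
    AnalyticAt ℂ (fun x : Co w 2 × ℂ × ℂ × ℂ => evQ w x.1 x.2) x :=
  analyticAt_pi_iff.2 fun i => Finset.analyticAt_fun_sum _ fun j _ =>
    (((KBq0_proj i j x).mul ((analyticAt_fst.comp analyticAt_snd).pow _)).mul
      ((analyticAt_fst.comp (analyticAt_snd.comp analyticAt_snd)).pow _)).mul
      ((analyticAt_snd.comp (analyticAt_snd.comp analyticAt_snd)).pow _)

theorem exists_devQL (σ e : ℂ × ℂ × ℂ) :
    ∃ L : Co w 2 →L[ℂ] κ → ℂ, ∀ c, L c = fderiv ℂ (evQ w c) σ e := by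
  have h : ∀ c : Co w 2, DifferentiableAt ℂ (evQ w c) σ := fun c =>
    ((analytic_evQ (c, σ)).comp (analyticAt_const.prod analyticAt_id)).differentiableAt
  refine ⟨LinearMap.toContinuousLinearMap
    { toFun := fun c => fderiv ℂ (evQ w c) σ e
      map_add' := fun a b => ?_
      map_smul' := fun r a => ?_ }, fun _ => rfl⟩
  · rw [show evQ w (a + b) = evQ w a + evQ w b from funext fun τ => map_add (evQL w τ) a b,
      fderiv_add (h a) (h b)]
    rfl
  · rw [show evQ w (r • a) = r • evQ w a from funext fun τ => map_smul (evQL w τ) r a,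
      fderiv_const_smul (h a)]
    rfl

theorem evQ_hom (c : Co w 2) (l : ℂ) (σ : ℂ × ℂ × ℂ) : evQ w c (l • σ) = act w l (evQ w c σ) := by
  funext i
  rw [act_apply, evQ, evQ, Finset.mul_sum]
  refine Finset.sum_congr rfl fun j _ => ?_
  have e : l ^ w i = l ^ (w i - j) * l ^ (j - w i) * l ^ min (j : ℕ) (2 * w i - j) := by
    rw [← pow_add, ← pow_add]
    congr 1
    have := j.2
    omega
  simp only [e, Prod.smul_fst, Prod.smul_snd, smul_eq_mul, mul_pow]
  ring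

theorem ev_tw (ε : ℂ) (c : Co w 2) (a b : ℂ) :
    ev w 2 (tw w ε c) (a, b) = evQ w c (a ^ 2, ε * b ^ 2, a * b) := by
  funext i
  refine Finset.sum_congr rfl fun j _ => ?_
  have := j.2
  have e1 : a ^ (2 * w i - j) = (a ^ 2) ^ (w i - j) * a ^ min (j : ℕ) (2 * w i - j) := by
    rw [← pow_mul, ← pow_add]
    congr 1
    omega
  have e2 : b ^ (j : ℕ) = (b ^ 2) ^ (j - w i) * b ^ min (j : ℕ) (2 * w i - j) := by
    rw [← pow_mul, ← pow_add]
    congr 1
    omega
  simp only [tw, mul_pow]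
  rw [e1, e2]
  ring

theorem tw_one (c : Co w 2) : tw w 1 c = c := by
  funext i j
  simp [tw]

theorem tw_tw (ε ε' : ℂ) (c : Co w 2) : tw w ε (tw w ε' c) = tw w (ε * ε') c := by
  funext i j
  simp [tw, mul_pow, mul_assoc]

theorem analytic_tw (x : Co w 2 × ℂ) : AnalyticAt ℂ (fun x : Co w 2 × ℂ => tw w x.2 x.1) x :=
  analyticAt_pi_iff.2 fun i => analyticAt_pi_iff.2 fun j =>
    (analyticAt_snd.pow _).mul (KBq0_proj i j x)

theorem evQ_chart (c : Co w 2) (ε t : ℂ) : evQ w c (1, ε * t ^ 2, t) = ev w 2 (tw w ε c) (1, t) := by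
  rw [ev_tw, one_pow, one_mul]

theorem ev_l1 (c : Co w 2) (s r : ℂ) : ev w 1 (l1 w c) (s, r) = evQ w c (s, 0, r) := by
  funext i
  refine Fintype.sum_of_injective
    (fun j : Fin (1 * w i + 1) => (⟨j, by have := j.2; omega⟩ : Fin (2 * w i + 1)))
    (fun a b h => Fin.ext (congrArg Fin.val h :)) _ _ (fun j hj => ?_) fun j => ?_
  · have h : (j : ℕ) - w i ≠ 0 := fun h => hj ⟨⟨j, by omega⟩, rfl⟩
    simp [h]
  · have := j.2
    simp only [l1]
    rw [show (j : ℕ) - w i = 0 by omega, pow_zero, mul_one, min_eq_left (by omega),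
      show 1 * w i - j = w i - j by omega]

theorem ev_l2 (c : Co w 2) (t r : ℂ) : ev w 1 (l2 w c) (t, r) = evQ w c (0, t, r) := by
  funext i
  refine Fintype.sum_of_injective
    (fun j : Fin (1 * w i + 1) => (⟨2 * w i - j, by omega⟩ : Fin (2 * w i + 1)))
    (fun a b h => Fin.ext ?_) _ _ (fun j hj => ?_) fun j => ?_
  · have := a.2
    have := b.2
    have : 2 * w i - a = 2 * w i - b := congrArg Fin.val h
    omega
  · have := j.2
    have h : w i - (j : ℕ) ≠ 0 := fun h =>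
      hj ⟨⟨2 * w i - j, by omega⟩, Fin.ext (by show 2 * w i - (2 * w i - j) = j; omega)⟩
    simp [h]
  · have := j.2
    simp only [l2]
    rw [show w i - (2 * w i - j) = 0 by omega, pow_zero, mul_one,
      show 2 * w i - j - w i = 1 * w i - j by omega,
      show min (2 * w i - j) (2 * w i - (2 * w i - j)) = j by omega]

theorem exists_l1L : ∃ L : Co w 2 →L[ℂ] Co w 1, ∀ c, L c = l1 w c :=
  ⟨LinearMap.toContinuousLinearMap
    { toFun := l1 w, map_add' := fun _ _ => rfl, map_smul' := fun _ _ => rfl }, fun _ => rfl⟩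

theorem exists_l2L : ∃ L : Co w 2 →L[ℂ] Co w 1, ∀ c, L c = l2 w c :=
  ⟨LinearMap.toContinuousLinearMap
    { toFun := l2 w, map_add' := fun _ _ => rfl, map_smul' := fun _ _ => rfl }, fun _ => rfl⟩

theorem exists_glue {a b : Co w 1} (h : ev w 1 a e1 = ev w 1 b e1) :
    ∃ c : Co w 2, l1 w c = a ∧ l2 w c = b := by
  have h1 : ∀ (c : Co w 1) i, ev w 1 c e1 i = c i (Fin.last _) := fun c i => by
    rw [ev, Finset.sum_eq_single (Fin.last _) (fun j _ hj => ?_) (by simp)]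
    · simp [e1]
    · have := Fin.val_lt_last hj
      have h : 1 * w i - (j : ℕ) ≠ 0 := by omega
      rw [e1, zero_pow h, mul_zero, zero_mul]
  refine ⟨fun i j => if h : (j : ℕ) ≤ w i then a i ⟨j, by omega⟩ else b i ⟨2 * w i - j, by omega⟩,
    funext fun i => funext fun j => ?_, funext fun i => funext fun j => ?_⟩
  · have := j.2
    exact dif_pos (show (j : ℕ) ≤ w i by omega)
  · have := j.2
    by_cases hj : 2 * w i - (j : ℕ) ≤ w i
    · refine (dif_pos hj).trans ?_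
      have h2 := congrFun h i
      rw [h1, h1] at h2
      exact (congrArg _ (Fin.ext (by show 2 * w i - j = 1 * w i; omega))).trans
        (h2.trans (congrArg _ (Fin.ext (by show 1 * w i = j; omega))))
    · exact (dif_neg hj).trans
        (congrArg _ (Fin.ext (by show 2 * w i - (2 * w i - j) = j; omega)))

theorem evQ_rs (ρ : ℂ) (x : Co w 2 × ℂ) (s t r : ℂ) :
    evQ w (rs w ρ x).1 (s, t, r) = evQ w x.1 (s, t, ρ * r) := by
  funext i
  refine Finset.sum_congr rfl fun j _ => ?_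
  simp only [rs, mul_pow]
  ring

theorem evQ_ts (l : ℂ) (x : Co w 2 × ℂ) (s t r : ℂ) :
    evQ w (ts w l x).1 (s, t, r) = evQ w x.1 (s, l * t, r) := by
  funext i
  refine Finset.sum_congr rfl fun j _ => ?_
  simp only [ts, mul_pow]
  ring

theorem continuous_rs : Continuous fun p : ℂ × Co w 2 × ℂ => rs w p.1 p.2 := by
  unfold rs
  fun_prop

theorem continuousOn_ts : ContinuousOn (fun p : ℂ × Co w 2 × ℂ => ts w p.1 p.2) {p | p.1 ≠ 0} :=
  ContinuousOn.prodMk (Continuous.continuousOn (by fun_prop))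
    (ContinuousOn.div (by fun_prop) (by fun_prop) fun _ h => h)

theorem rs_one (x : Co w 2 × ℂ) : rs w 1 x = x := by
  simp [rs]

theorem ts_one (x : Co w 2 × ℂ) : ts w 1 x = x := by
  simp [ts]

theorem mem_Qc_param {ε : ℂ} (hε : ε ≠ 0) {σ : ℂ × ℂ × ℂ} (h : σ ∈ Qc ε) :
    ∃ a b : ℂ, σ = (a ^ 2, ε * b ^ 2, a * b) := by
  obtain ⟨s, t, r⟩ := σ
  have h1 : s * t = ε * r ^ 2 := h
  rcases eq_or_ne s 0 with rfl | hs
  · obtain ⟨b, hb⟩ := IsAlgClosed.exists_pow_nat_eq (t / ε) two_pos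
    have hr : r = 0 := by simpa [hε] using h1
    exact ⟨0, b, by rw [hb, hr, mul_div_cancel₀ _ hε]; simp⟩
  · obtain ⟨a, rfl⟩ := IsAlgClosed.exists_pow_nat_eq s two_pos
    have ha : a ≠ 0 := fun e => hs (by simp [e])
    refine ⟨a, r / a, ?_⟩
    rw [mul_div_cancel₀ _ ha, div_pow, ← mul_div_assoc, ← h1, mul_div_cancel_left₀ _ hs]

theorem Qc_approx {ε : ℕ → ℂ} {ε₀ : ℂ} (h : Tendsto ε atTop (𝓝 ε₀)) {σ₀ : ℂ × ℂ × ℂ}
    (h₀ : σ₀ ∈ Qc ε₀) : ∃ σ : ℕ → ℂ × ℂ × ℂ, (∀ n, σ n ∈ Qc (ε n)) ∧ Tendsto σ atTop (𝓝 σ₀) := by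
  obtain ⟨s, t, r⟩ := σ₀
  have h1 : s * t = ε₀ * r ^ 2 := h₀
  have h2 := h.mul_const (r ^ 2)
  rw [← h1] at h2
  by_cases hs : s = 0
  · by_cases ht : t = 0
    · choose a ha using fun n => IsAlgClosed.exists_pow_nat_eq (ε n * r ^ 2) two_pos
      have h3 : Tendsto a atTop (𝓝 0) := by
        have h4 := h2.norm.sqrt
        simp only [← ha, hs, zero_mul, norm_zero, Real.sqrt_zero, norm_pow,
          Real.sqrt_sq (norm_nonneg _)] at h4
        exact tendsto_zero_iff_norm_tendsto_zero.2 h4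
      rw [hs, ht]
      exact ⟨fun n => (a n, a n, r), fun n => (sq _).symm.trans (ha n),
        h3.prodMk_nhds (h3.prodMk_nhds tendsto_const_nhds)⟩
    · have h3 := h2.div_const t
      rw [mul_div_cancel_right₀ _ ht] at h3
      exact ⟨fun n => (ε n * r ^ 2 / t, t, r), fun n => div_mul_cancel₀ _ ht,
        h3.prodMk_nhds tendsto_const_nhds⟩
  · have h3 := h2.div_const s
    rw [mul_div_cancel_left₀ _ hs] at h3
    exact ⟨fun n => (s, ε n * r ^ 2 / s, r), fun n => mul_div_cancel₀ _ hs,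
      tendsto_const_nhds.prodMk_nhds (h3.prodMk_nhds tendsto_const_nhds)⟩

theorem KBq0_zero {c : Co w d} (h : ∀ v : ℂ × ℂ, v.1 ≠ 0 → ev w d c v = 0) : c = 0 :=
  ev_inj (a := (1, 0)) ((continuous_fst.continuousAt.eventually_ne one_ne_zero).mono fun v hv => by
    rw [h v hv]
    funext i
    simp [ev])

theorem evQ_inj {ε : ℂ} {c : Co w 2} (h : ∀ σ ∈ Qc ε, σ ≠ 0 → evQ w c σ = 0) : c = 0 := by
  rcases eq_or_ne ε 0 with rfl | hε
  · have h1 : l1 w c = 0 := KBq0_zero fun v hv =>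
      (ev_l1 c v.1 v.2).trans (h _ (by simp [Qc]) fun e => hv (congrArg Prod.fst e))
    have h2 : l2 w c = 0 := KBq0_zero fun v hv =>
      (ev_l2 c v.1 v.2).trans (h _ (by simp [Qc]) fun e => hv (congrArg (fun σ => σ.2.1) e))
    funext i j
    have := j.2
    by_cases hj : (j : ℕ) ≤ w i
    · exact congrFun (congrFun h1 i) ⟨j, by omega⟩
    · exact (congrArg (c i) (Fin.ext (by show (j : ℕ) = 2 * w i - (2 * w i - j); omega))).trans
        (congrFun (congrFun h2 i) ⟨2 * w i - j, by omega⟩)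
  · have h1 : tw w ε c = 0 := KBq0_zero fun v hv => (ev_tw ε c v.1 v.2).trans
      (h _ (by show _ * _ = _ * _; ring) fun e => pow_ne_zero 2 hv (congrArg Prod.fst e))
    rw [← tw_one c, ← inv_mul_cancel₀ hε, ← tw_tw, h1]
    funext i j
    simp [tw]

/-- functions in normal form on the conic -/
def KBq0_S (ε : ℂ) (n : ℕ) : Submodule ℂ (ℂ × ℂ × ℂ → ℂ) where
  carrier := {f | ∃ q : Fin (2 * n + 1) → ℂ, ∀ σ ∈ Qc ε,
    ∑ j, q j * σ.1 ^ (n - j) * σ.2.1 ^ (j - n) * σ.2.2 ^ min (j : ℕ) (2 * n - j) = f σ}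
  add_mem' := fun ⟨q, hq⟩ ⟨q', hq'⟩ => ⟨q + q', fun σ hσ => by
    simp only [Pi.add_apply, add_mul, Finset.sum_add_distrib, hq σ hσ, hq' σ hσ]⟩
  zero_mem' := ⟨0, fun σ _ => by simp⟩
  smul_mem' := fun r f ⟨q, hq⟩ => ⟨r • q, fun σ hσ => by
    simp only [Pi.smul_apply, smul_eq_mul, ← hq σ hσ, Finset.mul_sum, mul_assoc]⟩

theorem KBq0_mono (ε : ℂ) {n a b k : ℕ} (h : a + b + k = n) :
    (fun σ : ℂ × ℂ × ℂ => σ.1 ^ a * σ.2.1 ^ b * σ.2.2 ^ k) ∈ KBq0_S ε n := by
  refine ⟨Pi.single ⟨n + b - a, by omega⟩ (ε ^ min a b), fun σ hσ => ?_⟩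
  have h1 : σ.1 * σ.2.1 = ε * σ.2.2 ^ 2 := hσ
  have h2 := congrArg (· ^ min a b) h1
  simp only [mul_pow, ← pow_mul] at h2
  rw [Finset.sum_eq_single ⟨n + b - a, by omega⟩ (fun j _ hj => by simp [hj]) (by simp),
    Pi.single_eq_same]
  have e1 : σ.1 ^ a = σ.1 ^ (n - (n + b - a)) * σ.1 ^ min a b := by
    rw [← pow_add]
    congr 1
    omega
  have e2 : σ.2.1 ^ b = σ.2.1 ^ (n + b - a - n) * σ.2.1 ^ min a b := by
    rw [← pow_add]
    congr 1
    omega
  have e3 : σ.2.2 ^ min (n + b - a) (2 * n - (n + b - a)) = σ.2.2 ^ (2 * min a b) * σ.2.2 ^ k := by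
    rw [← pow_add]
    congr 1
    omega
  simp only
  rw [e1, e2, e3]
  linear_combination (-(σ.1 ^ (n - (n + b - a)) * σ.2.1 ^ (n + b - a - n) * σ.2.2 ^ k)) * h2

theorem KBq0_mul {ε : ℂ} {n m : ℕ} {f g : ℂ × ℂ × ℂ → ℂ} (hf : f ∈ KBq0_S ε n)
    (hg : g ∈ KBq0_S ε m) : f * g ∈ KBq0_S ε (n + m) := by
  obtain ⟨q, hq⟩ := hf
  obtain ⟨q', hq'⟩ := hg
  obtain ⟨p, hp⟩ := Submodule.sum_mem (KBq0_S ε (n + m)) (t := Finset.univ)
    fun (j : Fin (2 * n + 1)) _ => Submodule.sum_mem _ (t := Finset.univ)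
      fun (k : Fin (2 * m + 1)) _ => Submodule.smul_mem _ (q j * q' k)
        (KBq0_mono ε (a := n - j + (m - k)) (b := j - n + (k - m))
          (k := min (j : ℕ) (2 * n - j) + min (k : ℕ) (2 * m - k))
          (by have := j.2; have := k.2; omega))
  refine ⟨p, fun σ hσ => (hp σ hσ).trans ?_⟩
  rw [Pi.mul_apply, ← hq σ hσ, ← hq' σ hσ, Finset.sum_mul_sum, Finset.sum_apply]
  refine Finset.sum_congr rfl fun j _ => ?_
  rw [Finset.sum_apply]
  refine Finset.sum_congr rfl fun k _ => ?_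
  simp only [Pi.smul_apply, smul_eq_mul, pow_add]
  ring

theorem KBq0_one (ε : ℂ) : (1 : ℂ × ℂ × ℂ → ℂ) ∈ KBq0_S ε 0 := ⟨1, fun σ _ => by simp⟩

theorem KBq0_pow {ε : ℂ} {n : ℕ} {f : ℂ × ℂ × ℂ → ℂ} (hf : f ∈ KBq0_S ε n) (k : ℕ) :
    f ^ k ∈ KBq0_S ε (k • n) := by
  induction k with
  | zero =>
    rw [pow_zero, zero_smul]
    exact KBq0_one ε
  | succ k ih =>
    rw [pow_succ, succ_nsmul]
    exact KBq0_mul ih hf

theorem KBq0_prod {ε : ℂ} {ι : Type} {n : ι → ℕ} {f : ι → ℂ × ℂ × ℂ → ℂ}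
    (hf : ∀ i, f i ∈ KBq0_S ε (n i)) (s : Finset ι) : ∏ i ∈ s, f i ∈ KBq0_S ε (∑ i ∈ s, n i) := by
  classical
  induction s using Finset.induction_on with
  | empty => exact KBq0_one ε
  | insert a s ha ih =>
    rw [Finset.prod_insert ha, Finset.sum_insert ha]
    exact KBq0_mul (hf a) ih

theorem exists_nf {α : Type} [Fintype α] {deg : α → ℕ} {G : α → MvPolynomial κ ℂ}
    (hG : ∀ a, MvPolynomial.IsWeightedHomogeneous w (G a) (deg a)) (c : Co w 2) (ε : ℂ) :
    ∃ q : Co deg 2, ∀ σ ∈ Qc ε, ∀ a, evQ deg q σ a = MvPolynomial.eval (evQ w c σ) (G a) := by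
  have h : ∀ a, (fun σ => MvPolynomial.eval (evQ w c σ) (G a)) ∈ KBq0_S ε (deg a) := fun a => by
    obtain ⟨p, hp⟩ := Submodule.sum_mem (KBq0_S ε (deg a)) (t := (G a).support)
      (f := fun m => (G a).coeff m • ∏ i ∈ m.support, (fun σ => evQ w c σ i) ^ m i) fun m hm => by
        rw [← hG a (MvPolynomial.mem_support_iff.1 hm), Finsupp.weight_apply]
        exact Submodule.smul_mem _ _ (KBq0_prod
          (fun i => KBq0_pow (f := fun σ => evQ w c σ i) ⟨c i, fun _ _ => rfl⟩ (m i)) _)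
    refine ⟨p, fun σ hσ => (hp σ hσ).trans ?_⟩
    simp only [MvPolynomial.eval_eq, Finset.sum_apply, Pi.smul_apply, smul_eq_mul,
      Finset.prod_apply, Pi.pow_apply]
  choose q hq using h
  exact ⟨q, fun σ hσ a => hq a σ hσ⟩

end Vale.Agent.P292
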