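import Vale.Agent.P292.KComp0

/-! Propagation along the component. Hints: `qd_ext`: the set of `τ` near which `Qd` holds is open;
at a point `τ₁` of its closure `u (τ, t) = K (evQ (ψ τ).1 (1, (ψ τ).2 t ^ 2, t))` is analytic on a
product of balls, and the third difference
`u (τ, t + 3 h) - 3 u (τ, t + 2 h) + 3 u (τ, t + h) - u (τ, t)` (or `u` minus its Lagrange
interpolation at three fixed points) vanishes on an open subset, so identically. `comp_quad`: let
`S` be the set of `g ∈ My y` near which the conclusion holds. It is relatively open. Closed: use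
`chart_smooth` at `g` (free by `hy.conic`, `tw_ends`) on a product of balls `B₁ × B₂`, a point of `S`
in the chart has first coordinate `(π g).1` and the conclusion holds on `B₁' × B₂'`; `qd_ext` on
`{b} × B₂`. Nonempty on the component: `chart_node`, `nod_open`, `node_quad` at `ψ (b, 0, τ)`, and
`qd_ext` on `{b} × (disc \ 0) × B₂`. Conclude with `IsPreconnected` of the component. -/

set_option maxSynthPendingDepth 3

open scoped Topology
open Set Filter Asymptotics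

noncomputable section

namespace Vale.Agent.P292

variable {κ α : Type} [Fintype κ] [Fintype α] {P : Pre κ}

theorem Pre.KComp_closed (G : P.Eqs α) {y : κ → ℂ} (hy : P.Gen y) {g : Co P.w 2 × ℂ}
    (hg : g ∈ P.My y) (hcl : ∃ᶠ g' in 𝓝 g, g' ∈ P.My y ∧
      ∀ᶠ x in 𝓝 g', x ∈ P.MQ → ∀ K, P.Good y K (yE P.w x.1) → Qd P.w K x) :
    ∀ᶠ x in 𝓝 g, x ∈ P.MQ → ∀ K, P.Good y K (yE P.w x.1) → Qd P.w K x := by
  obtain ⟨k, π, ψ, χ, hch, hχ, hπ⟩ := Pre.chart_smooth G hg.1 hg.2.1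
    (hy.conic _ ((Pre.mem_MQ_tw hg.2.1).1 hg.1) ((tw_ends P.w_pos g.1 g.2).1.trans hg.2.2))
  obtain ⟨r, hr, hb⟩ := Metric.eventually_nhds_iff_ball.1
    (hch.an.eventually_analyticAt.and (hch.right.and hχ))
  have ht : Tendsto π (𝓝 g) (𝓝 (π g)) := π.continuous.tendsto g
  have hball : ∀ᶠ x in 𝓝 g, π x ∈ Metric.ball (π g) r := ht (Metric.ball_mem_nhds _ hr)
  have hmem : ∀ {z z' : (Fin P.ρ → ℂ) × (Fin k → ℂ)}, z ∈ Metric.ball (π g) r →
      z'.2 ∈ Metric.ball (π g).2 r → z'.1 = z.1 → z' ∈ Metric.ball (π g) r := by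
    intro z z' h1 h2 h3
    rw [← Prod.mk.eta (p := π g), ← ball_prod_same] at h1 ⊢
    exact ⟨h3 ▸ h1.1, h2⟩
  have hsnd : ∀ {z : (Fin P.ρ → ℂ) × (Fin k → ℂ)}, z ∈ Metric.ball (π g) r →
      z.2 ∈ Metric.ball (π g).2 r := by
    intro z h1
    rw [← Prod.mk.eta (p := π g), ← ball_prod_same] at h1
    exact h1.2
  obtain ⟨g', ⟨hg', hS⟩, h1, h2⟩ := (hcl.and_eventually (hball.and hch.left)).exists
  have h3 : Tendsto ψ (𝓝 ((π g).1, (π g').2)) (𝓝 g') := by
    have := (hb _ h1).1.continuousAt.tendsto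
    rwa [h2 hg'.1, ← Prod.mk.eta (p := π g'), hπ g' (hg'.2.2.trans hg.2.2.symm)] at this
  have h4 := ((continuous_fst.tendsto _).comp ht).eventually (h3.eventually hS).curry_nhds
  filter_upwards [hball, hch.left, h4] with x hx1 hx2 hx3 hxQ K hK
  have h5 : ∀ τ ∈ Metric.ball (π g).2 r, ((π x).1, τ) ∈ Metric.ball (π g) r :=
    fun τ hτ => hmem hx1 hτ rfl
  have h6 : yE P.w x.1 = χ (π x).1 := by rw [← (hb _ hx1).2.2, hx2 hxQ]
  rw [h6] at hK
  have h7 := qd_ext (ψ := fun τ => ψ ((π x).1, τ)) Metric.isOpen_ball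
    (convex_ball (π g).2 r).isPreconnected
    (fun τ hτ => (hb _ (h5 τ hτ)).1.comp_of_eq (analyticAt_const.prod analyticAt_id) rfl)
    (fun τ hτ => (hb _ (h5 τ hτ)).2.2) hK.1 (hsnd h1) (by
      filter_upwards [hx3, Metric.isOpen_ball.mem_nhds (hsnd h1)] with τ a1 a2
      exact a1 (hb _ (h5 τ a2)).2.1.1 K ((hb _ (h5 τ a2)).2.2.symm ▸ hK)) _ (hsnd hx1)
  rwa [Prod.mk.eta, hx2 hxQ] at h7

theorem Pre.comp_quad (G : P.Eqs α) {y : κ → ℂ} (hy : P.Gen y) {x₀ n : Co P.w 2 × ℂ}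
    (hx : x₀ ∈ P.My y) (hn : P.Nod n) (hcl : n ∈ closure (connectedComponentIn (P.My y) x₀)) :
    ∀ᶠ x in 𝓝 x₀, x ∈ P.MQ → ∀ K, P.Good y K (yE P.w x.1) → Qd P.w K x := by
  by_contra h0
  have hsub := connectedComponentIn_subset (P.My y) x₀
  let S := {g | ∀ᶠ x in 𝓝 g, x ∈ P.MQ → ∀ K, P.Good y K (yE P.w x.1) → Qd P.w K x}
  have hcov : connectedComponentIn (P.My y) x₀ ⊆ S ∪ (closure (P.My y ∩ S))ᶜ := fun g hg => by
    by_cases h : g ∈ closure (P.My y ∩ S)
    · exact Or.inl (Pre.KComp_closed G hy (hsub hg) (mem_closure_iff_frequently.1 h))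
    · exact Or.inr h
  have hne : (connectedComponentIn (P.My y) x₀ ∩ S).Nonempty := by
    have h1 := Pre.near_node G (y := y) (fun h => P.zero_not (h ▸ hy.mem)) hn
    obtain ⟨g, hg, h2⟩ := ((mem_closure_iff_frequently.1 hcl).and_eventually
      h1.eventually_nhds).exists
    refine ⟨g, hg, ?_⟩
    filter_upwards [h2, (continuous_snd.tendsto g).eventually_ne (hsub hg).2.1] with x a1 a2 a3
    exact a1 a3 a2
  have hx₀ := mem_connectedComponentIn hx
  obtain ⟨g, hg, h1, h2⟩ := isPreconnected_connectedComponentIn S _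
    isOpen_setOfPred_eventually_nhds isClosed_closure.isOpen_compl hcov hne
    ⟨x₀, hx₀, (hcov hx₀).resolve_left h0⟩
  exact h2 (subset_closure ⟨hsub hg, h1⟩)

end Vale.Agent.P292
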