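import Vale.Agent.P292.KMfdQ0

/-! Smoothing of pairs of free lines. Hints: `chart_smooth`: the map `(c, ε) ↦ (tw ε c, ε)` is a
biholomorphism on `ε ≠ 0` which carries `MQ` to `M 2 × ℂ` and preserves `yE`; so `MQ` is a manifold
at `x` (parametrize by `(z, ε) ↦ (tw ε⁻¹ (ψ z), ε)` and choose a linear left inverse of the
differential, or repeat the proof of the nodal case), then `MfdAt.prod_chart`.
`mfd_node`: choose finitely many points `σ_j(ε) = (s_j, ε / s_j, 1)`, `(ε / t_j, t_j, 1)` on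
`Qc ε` such that evaluation `E_0` at the `σ_j(0)` is injective on `Co G.deg 2` (`evQ_inj`,
polynomials in one variable), hence also `E_ε` for small `ε` with a uniform lower bound; put
`𝔾 (c, ε) = (val (evQ c (σ_j ε)))_j = E_ε (nf)` (`exists_nf`). For `ift_star`: if `s_n 𝔾 (x_n)`
converges then `s_n nf_n` converges to some `q`; by `Qc_approx` and `star_pt` the values of `q` are
in the range of `dG`; solve on both lines by `h1` (`l1 q`, `l2 q`), correct the values at the node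
by freeness, `exists_glue`. So the limit is in the image `I₀` of the directions `(δ, 0)`. The
derivative in the direction `(0, 1)` is such a limit, so some `(δ, 1)` is in the kernel. -/

set_option maxSynthPendingDepth 3

open scoped Topology
open Set Filter Asymptotics

noncomputable section

namespace Vale.Agent.P292

theorem kMfdQ_param {E H : Type} [NormedAddCommGroup E] [NormedSpace ℂ E] [FiniteDimensional ℂ E]
    [NormedAddCommGroup H] [NormedSpace ℂ H] [FiniteDimensional ℂ H] {Z : Set E} {e : E}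
    {Φ : H → E} {R : E → H} (he : e ∈ Z) (hΦ : AnalyticAt ℂ Φ (R e)) (hR : AnalyticAt ℂ R e)
    (h1 : ∀ᶠ h in 𝓝 (R e), Φ h ∈ Z ∧ R (Φ h) = h) (h2 : ∀ᶠ x in 𝓝 e, x ∈ Z → Φ (R x) = x) :
    MfdAt Z e (fderiv ℂ Φ (R e)).range := by
  haveI : CompleteSpace H := FiniteDimensional.complete ℂ H
  haveI : CompleteSpace E := FiniteDimensional.complete ℂ E
  obtain ⟨i⟩ : Nonempty (H ≃L[ℂ] (Fin (Module.finrank ℂ H) → ℂ)) :=
    ⟨ContinuousLinearEquiv.ofFinrankEq (by simp)⟩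
  have e0 : Φ (R e) = e := h2.self_of_nhds he
  have d1 : HasFDerivAt (fun h => R (Φ h)) ((fderiv ℂ R e).comp (fderiv ℂ Φ (R e))) (R e) := by
    refine HasFDerivAt.comp (R e) ?_ hΦ.differentiableAt.hasFDerivAt
    rw [e0]
    exact hR.differentiableAt.hasFDerivAt
  have d2 : (fderiv ℂ R e).comp (fderiv ℂ Φ (R e)) = ContinuousLinearMap.id ℂ H :=
    d1.unique ((hasFDerivAt_id (R e)).congr_of_eventuallyEq (h1.mono fun _ h => h.2))
  set π : E →L[ℂ] (Fin (Module.finrank ℂ H) → ℂ) :=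
    (i : H →L[ℂ] (Fin (Module.finrank ℂ H) → ℂ)).comp (fderiv ℂ R e) with hπ
  have ga : AnalyticAt ℂ (fun h => π (Φ h)) (R e) := (π.analyticAt _).comp hΦ
  have gd : HasFDerivAt (fun h => π (Φ h)) (i : H →L[ℂ] (Fin (Module.finrank ℂ H) → ℂ)) (R e) := by
    have d3 := π.hasFDerivAt.comp (R e) hΦ.differentiableAt.hasFDerivAt
    rwa [hπ, ContinuousLinearMap.comp_assoc, d2, ContinuousLinearMap.comp_id] at d3
  have gc : ContDiffAt ℂ ⊤ (fun h => π (Φ h)) (R e) := ga.contDiffAt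
  have gs := gc.hasStrictFDerivAt' gd (by simp)
  have ia : AnalyticAt ℂ (gs.localInverse _ _ _) (π (Φ (R e))) :=
    (gc.to_localInverse gd (by simp)).analyticAt
  have it := gs.localInverse_tendsto
  have ir := gs.eventually_right_inverse
  have il := gs.eventually_left_inverse
  have i0 := gs.localInverse_apply_image
  have id := gs.to_localInverse.hasFDerivAt
  set g := gs.localInverse _ _ _
  rw [e0] at ia it ir i0 id
  have hΦ' : AnalyticAt ℂ Φ (g (π e)) := by rwa [i0]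
  refine ⟨_, π, fun z => Φ (g z), ⟨he, hΦ'.comp ia, ?_, ?_⟩, ?_⟩
  · filter_upwards [it.eventually h1, ir] with z a b
    exact ⟨a.1, b⟩
  · filter_upwards [h2, hR.continuousAt.tendsto.eventually il] with x a b hx
    rw [a hx] at b
    rw [b, a hx]
  · have d4 := (hΦ'.differentiableAt.hasFDerivAt.comp (π e) id).fderiv
    rw [i0] at d4
    rw [show (fun z => Φ (g z)) = Φ ∘ g from rfl, d4]
    ext x
    constructor
    · rintro ⟨z, rfl⟩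
      exact ⟨i.symm z, rfl⟩
    · rintro ⟨z, rfl⟩
      exact ⟨i z, by simp⟩

variable {κ α : Type} [Fintype κ] [Fintype α] {P : Pre κ}

/-- the first end as a linear map -/
def kMfdQY (w : κ → ℕ) : Co w 2 × ℂ →L[ℂ] κ → ℂ :=
  (evQL w (1, 0, 0)).comp (ContinuousLinearMap.fst ℂ _ _)

theorem kMfdQ_mem {x : Co P.w 2 × ℂ} (hx : x ∈ P.MQ) : yE P.w x.1 ∈ P.C :=
  hx (1, 0, 0) (by simp [Qc]) (by simp)

theorem kMfdQ_end {B : Type} [NormedAddCommGroup B] [NormedSpace ℂ B] {x : Co P.w 2 × ℂ}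
    {π : Co P.w 2 × ℂ →L[ℂ] B} {ψ : B → Co P.w 2 × ℂ} (h : Chart P.MQ x π ψ)
    {π0 : (κ → ℂ) →L[ℂ] Fin P.ρ → ℂ} {χ : (Fin P.ρ → ℂ) → κ → ℂ}
    (h0 : Chart P.C (yE P.w x.1) π0 χ) :
    ∀ᶠ z in 𝓝 (π x), π (ψ z) = z ∧ yE P.w (ψ z).1 = χ (π0 (yE P.w (ψ z).1)) := by
  have h1 : Tendsto (fun z => yE P.w (ψ z).1) (𝓝 (π x)) (𝓝 (yE P.w x.1)) :=
    ((kMfdQY P.w).continuous.tendsto x).comp h.tendsto
  filter_upwards [h.right, h1.eventually h0.left] with z a b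
  exact ⟨a.2, (b (kMfdQ_mem a.1)).symm⟩

theorem kMfdQ_glue {x : Co P.w 2 × ℂ} (hx : P.Nod x) {τ : κ → ℂ} (hτ : τ ∈ P.T (yE P.w x.1)) :
    ∃ δ ∈ P.JQ x, yE P.w δ = τ := by
  obtain ⟨-, h0, f1, f2⟩ := hx
  rw [(l1_ends x.1).1] at hτ
  obtain ⟨a, ha, ea⟩ := f1 e0 (by simp [e0]) τ hτ
  have hu := ha e1 (by simp [e1])
  rw [← (l1_ends x.1).2.1, (l2_ends x.1).2.1] at hu
  obtain ⟨b, hb, eb⟩ := f2 e1 (by simp [e1]) _ hu
  obtain ⟨δ, rfl, rfl⟩ := exists_glue eb.symm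
  refine ⟨δ, ?_, (l1_ends δ).1.trans ea⟩
  rintro ⟨s, t, r⟩ hσ hn
  have h1 : s * t = 0 := by simpa [Qc, h0] using hσ
  rcases mul_eq_zero.1 h1 with rfl | rfl
  · rw [← ev_l2, ← ev_l2]
    exact hb _ fun e => hn (by rw [(Prod.mk.inj e).1, (Prod.mk.inj e).2]; rfl)
  · rw [← ev_l1, ← ev_l1]
    exact ha _ fun e => hn (by rw [(Prod.mk.inj e).1, (Prod.mk.inj e).2]; rfl)

namespace Pre

variable (G : P.Eqs α)
include G

theorem kMfdQ_smooth {x : Co P.w 2 × ℂ} (hx : x ∈ P.MQ) (h0 : x.2 ≠ 0)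
    (hf : P.Free 2 (tw P.w x.2 x.1)) :
    ∃ T, MfdAt P.MQ x T ∧ ∀ τ ∈ P.T (yE P.w x.1), ∃ t ∈ T, yE P.w t.1 = τ := by
  obtain ⟨k, π, ψ, hc, hT⟩ := mfd_M G ((mem_MQ_tw h0).1 hx) hf
  have back : ∀ {ε : ℂ} (_ : ε ≠ 0) (c : Co P.w 2), tw P.w ε (tw P.w ε⁻¹ c) = c := fun h c => by
    rw [tw_tw, mul_inv_cancel₀ h, tw_one]
  have back' : ∀ {ε : ℂ} (_ : ε ≠ 0) (c : Co P.w 2), tw P.w ε⁻¹ (tw P.w ε c) = c := fun h c => by
    rw [tw_tw, inv_mul_cancel₀ h, tw_one]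
  have a1 : AnalyticAt ℂ (fun z : (Fin k → ℂ) × ℂ => ψ z.1) (π (tw P.w x.2 x.1), x.2) :=
    AnalyticAt.comp (f := Prod.fst) (x := (π (tw P.w x.2 x.1), x.2)) hc.an analyticAt_fst
  have a2 : AnalyticAt ℂ (fun z : (Fin k → ℂ) × ℂ => (tw P.w z.2⁻¹ (ψ z.1), z.2))
      (π (tw P.w x.2 x.1), x.2) :=
    (AnalyticAt.comp (f := fun z : (Fin k → ℂ) × ℂ => (ψ z.1, z.2⁻¹))
      (analytic_tw _) (a1.prod (analyticAt_snd.inv h0))).prod analyticAt_snd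
  refine ⟨_, kMfdQ_param (Φ := fun z : (Fin k → ℂ) × ℂ => (tw P.w z.2⁻¹ (ψ z.1), z.2))
    (R := fun x => (π (tw P.w x.2 x.1), x.2)) hx a2
    (((π.analyticAt _).comp (analytic_tw x)).prod analyticAt_snd) ?_ ?_, fun τ hτ => ?_⟩
  · filter_upwards [(continuous_fst.tendsto (π (tw P.w x.2 x.1), x.2)).eventually hc.right,
      (continuous_snd.tendsto (π (tw P.w x.2 x.1), x.2)).eventually_ne h0] with z a b
    refine ⟨(mem_MQ_tw b).2 ?_, ?_⟩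
    · rw [back b]
      exact a.1
    · simp only [back b, a.2]
  · filter_upwards [(analytic_tw x).continuousAt.tendsto.eventually hc.left,
      (continuous_snd.tendsto x).eventually_ne h0] with y a b hy
    simp only [a ((mem_MQ_tw b).1 hy), back' b]
  · rw [← (tw_ends P.w_pos x.1 x.2).1] at hτ
    obtain ⟨δ, hδ, e⟩ := hf e0 (by simp [e0]) τ hτ
    rw [← hT] at hδ
    obtain ⟨h, rfl⟩ := hδ
    refine ⟨_, ⟨(h, 0), rfl⟩, ?_⟩
    have d1 := (kMfdQY P.w).hasFDerivAt.comp _ a2.differentiableAt.hasFDerivAt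
    have d2 := (evL P.w 2 e0).hasFDerivAt.comp (π (tw P.w x.2 x.1), x.2)
      (hc.an.differentiableAt.hasFDerivAt.comp (π (tw P.w x.2 x.1), x.2) hasFDerivAt_fst)
    have d3 := d1.unique (d2.congr_of_eventuallyEq (Eventually.of_forall fun z =>
      (yE_eq P.w_pos _).trans ((tw_ends P.w_pos _ _).1.trans (yE_eq P.w_pos _))))
    exact (congrArg (fun L => L (h, 0)) d3).trans e

/-- coordinates `(b, τ)` on `MQ` in which the first end depends only on `b` -/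
theorem chart_smooth {x : Co P.w 2 × ℂ} (hx : x ∈ P.MQ) (h0 : x.2 ≠ 0)
    (hf : P.Free 2 (tw P.w x.2 x.1)) : ∃ (k : ℕ)
      (π : Co P.w 2 × ℂ →L[ℂ] (Fin P.ρ → ℂ) × (Fin k → ℂ))
      (ψ : (Fin P.ρ → ℂ) × (Fin k → ℂ) → Co P.w 2 × ℂ) (χ : (Fin P.ρ → ℂ) → κ → ℂ),
      Chart P.MQ x π ψ ∧ (∀ᶠ z in 𝓝 (π x), yE P.w (ψ z).1 = χ z.1) ∧
        ∀ x', yE P.w x'.1 = yE P.w x.1 → (π x').1 = (π x).1 := by
  obtain ⟨T, hT, hs⟩ := kMfdQ_smooth G hx h0 hf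
  obtain ⟨π0, χ, hc, h1⟩ := P.chart (kMfdQ_mem hx)
  obtain ⟨-, h2, -⟩ := h1.self_of_nhds (kMfdQ_mem hx)
  obtain ⟨k, Λ, ψ, h3, -⟩ := hT.prod_chart (π0.comp (kMfdQY P.w)) fun b => by
    obtain ⟨τ, hτ, rfl⟩ := h2 b
    obtain ⟨t, ht, rfl⟩ := hs τ hτ
    exact ⟨t, ht, rfl⟩
  refine ⟨k, _, ψ, χ, h3, (kMfdQ_end h3 hc).mono fun z a => a.2.trans (congrArg χ ?_),
    fun x' e => congrArg π0 e⟩
  exact congrArg Prod.fst a.1

/-- coordinates `(b, ε, τ)` near a pair of free lines -/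
theorem chart_node {x : Co P.w 2 × ℂ} (hx : P.Nod x) : ∃ (k : ℕ)
      (π : Co P.w 2 × ℂ →L[ℂ] ((Fin P.ρ → ℂ) × ℂ) × (Fin k → ℂ))
      (ψ : ((Fin P.ρ → ℂ) × ℂ) × (Fin k → ℂ) → Co P.w 2 × ℂ) (χ : (Fin P.ρ → ℂ) → κ → ℂ),
      Chart P.MQ x π ψ ∧ (∀ x', (π x').1.2 = x'.2) ∧
        ∀ᶠ z in 𝓝 (π x), yE P.w (ψ z).1 = χ z.1.1 := by
  obtain ⟨T, hT, hJ, δ1, h1⟩ := mfd_node G hx
  obtain ⟨π0, χ, hc, h2⟩ := P.chart (kMfdQ_mem hx.1)
  obtain ⟨-, h3, -⟩ := h2.self_of_nhds (kMfdQ_mem hx.1)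
  obtain ⟨k, Λ, ψ, h4, -⟩ := hT.prod_chart
    ((π0.comp (kMfdQY P.w)).prod (ContinuousLinearMap.snd ℂ _ _)) fun b => by
    obtain ⟨τ, hτ, e⟩ := h3 (b.1 - b.2 • π0 (yE P.w δ1))
    obtain ⟨δ, hδ, rfl⟩ := kMfdQ_glue hx hτ
    refine ⟨(δ, 0) + b.2 • (δ1, 1), T.add_mem (hJ δ hδ) (T.smul_mem _ h1), ?_⟩
    rw [map_add, map_smul]
    refine Prod.ext ?_ (by simp)
    change π0 (yE P.w δ) + b.2 • π0 (yE P.w δ1) = b.1
    rw [e, sub_add_cancel]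
  refine ⟨k, _, ψ, χ, h4, fun _ => rfl,
    (kMfdQ_end h4 hc).mono fun z a => a.2.trans (congrArg χ ?_)⟩
  exact congrArg (fun z => z.1.1) a.1

end Pre

end Vale.Agent.P292
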