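import Vale.Agent.P292.KNode
import Vale.Agent.P292.KMfdQ

/-! Propagation along the component. Hints: `qd_ext`: the set of `τ` near which `Qd` holds is open;
at a point `τ₁` of its closure `u (τ, t) = K (evQ (ψ τ).1 (1, (ψ τ).2 t ^ 2, t))` is analytic on a
product of balls, and the third difference
`u (τ, t + 3 h) - 3 u (τ, t + 2 h) + 3 u (τ, t + h) - u (τ, t)` (or `u` minus its Lagrange
interpolation at three fixed points) vanishes on an open subset, so identically. `comp_quad`: let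
`S` be the set of `g ∈ My y` near which the conclusion holds. It is relatively open. Closed: use
`chart_smooth` at `g` (free by `hy.conic`, `tw_ends`) on a product of balls `B₁ × B₂`, a point of `S`
in the chart has first coordinate `(π g).1` and the conclusion holds on `B₁' × B₂'`; `qd_ext` on
`{b} × B₂`. Nonempty on the component: `chart_node`, `nod_open`, `node_quad` at `ψ (b, 0, τ)`, and
`qd_ext` on `{b} × (disc \ 0) × B₂`. Conclude with `IsPreconnected` of the component. -/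

set_option maxSynthPendingDepth 3

open scoped Topology
open Set Filter Asymptotics

noncomputable section

namespace Vale.Agent.P292

variable {κ α : Type} [Fintype κ] [Fintype α] {P : Pre κ}

theorem kcomp0_iter {H : Type} [NormedAddCommGroup H] [NormedSpace ℂ H] {u : H × ℂ → ℂ}
    {x : H × ℂ} (hu : AnalyticAt ℂ u x) (n : ℕ) :
    AnalyticAt ℂ (fun y : H × ℂ => iteratedDeriv n (fun t => u (y.1, t)) y.2) x := by
  induction n with
  | zero => simpa only [iteratedDeriv_zero] using hu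
  | succ n ih =>
    refine (((ContinuousLinearMap.apply ℂ ℂ ((0 : H), (1 : ℂ))).analyticAt _).comp
      ih.fderiv).congr ?_
    filter_upwards [ih.eventually_analyticAt] with y hy
    rw [iteratedDeriv_succ]
    exact (hy.differentiableAt.hasFDerivAt.comp_hasDerivAt_of_eq y.2
      ((hasDerivAt_const y.2 y.1).prodMk (hasDerivAt_id y.2)) rfl).deriv.symm

theorem kcomp0_quad {f : ℂ → ℂ} (hf : AnalyticAt ℂ f 0) :
    (∃ a b c : ℂ, ∀ᶠ t in 𝓝 (0 : ℂ), f t = a + b * t + c * t ^ 2) ↔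
      ∀ n, iteratedDeriv (n + 3) f 0 = 0 := by
  constructor
  · rintro ⟨a, b, c, h⟩ n
    have h1 : deriv (fun t : ℂ => a + b * t + c * t ^ 2) = fun t => b + 2 * c * t :=
      funext fun t => ((((hasDerivAt_id t).const_mul b).const_add a).add
        ((hasDerivAt_pow 2 t).const_mul c)).deriv.trans (by push_cast; ring)
    have h2 : deriv (fun t : ℂ => b + 2 * c * t) = fun _ => 2 * c :=
      funext fun t => (((hasDerivAt_id t).const_mul (2 * c)).const_add b).deriv.trans (mul_one _)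
    rw [Filter.EventuallyEq.iteratedDeriv_eq _ h, iteratedDeriv_succ', iteratedDeriv_succ',
      iteratedDeriv_succ', h1, h2, deriv_const']
    simp
  · intro h
    refine ⟨iteratedDeriv 0 f 0, iteratedDeriv 1 f 0, iteratedDeriv 2 f 0 / 2, ?_⟩
    filter_upwards [hf.hasFPowerSeriesAt.eventually_hasSum] with t ht
    rw [zero_add] at ht
    rw [ht.unique (hasSum_sum_of_ne_finset_zero (s := Finset.range 3) fun n hn => ?_)]
    · simp [Finset.sum_range_succ, mul_comm]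
    · obtain ⟨m, rfl⟩ := Nat.exists_eq_add_of_le' (not_lt.1 (mt Finset.mem_range.2 hn))
      simp [h m]

theorem kcomp0_ext {H : Type} [NormedAddCommGroup H] [NormedSpace ℂ H] {O : Set H}
    (hO : IsOpen O) (hc : IsPreconnected O) {u : H × ℂ → ℂ} (hu : ∀ τ ∈ O, AnalyticAt ℂ u (τ, 0))
    {τ₀ : H} (h₀ : τ₀ ∈ O)
    (h : ∀ᶠ τ in 𝓝 τ₀, ∃ a b c : ℂ, ∀ᶠ t in 𝓝 (0 : ℂ), u (τ, t) = a + b * t + c * t ^ 2) :
    ∀ τ ∈ O, ∃ a b c : ℂ, ∀ᶠ t in 𝓝 (0 : ℂ), u (τ, t) = a + b * t + c * t ^ 2 := by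
  have hq := fun τ hτ => kcomp0_quad (f := fun t => u (τ, t))
    (AnalyticAt.fun_comp_of_eq (f := fun t : ℂ => (τ, t)) (hu τ hτ)
      (analyticAt_const.prod analyticAt_id) rfl)
  refine fun τ hτ => (hq τ hτ).2 fun n => ?_
  have h1 : AnalyticOnNhd ℂ (fun τ => iteratedDeriv (n + 3) (fun t => u (τ, t)) 0) O := fun s hs =>
    AnalyticAt.fun_comp_of_eq (f := fun s : H => (s, (0 : ℂ))) (kcomp0_iter (hu s hs) (n + 3))
      (analyticAt_id.prod analyticAt_const) rfl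
  refine h1.eqOn_zero_of_preconnected_of_eventuallyEq_zero hc h₀ ?_ hτ
  filter_upwards [h, hO.mem_nhds h₀] with s a b
  exact (hq s b).1 a n

theorem qd_ext {w : κ → ℕ} {H : Type} [NormedAddCommGroup H] [NormedSpace ℂ H] {O : Set H}
    (hO : IsOpen O) (hc : IsPreconnected O) {ψ : H → Co w 2 × ℂ} (hψ : AnalyticOnNhd ℂ ψ O)
    {p : κ → ℂ} (hp : ∀ τ ∈ O, yE w (ψ τ).1 = p) {K : (κ → ℂ) → ℂ} (hK : AnalyticAt ℂ K p)
    {τ₀ : H} (h₀ : τ₀ ∈ O) (h : ∀ᶠ τ in 𝓝 τ₀, Qd w K (ψ τ)) : ∀ τ ∈ O, Qd w K (ψ τ) := by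
  have hu : ∀ τ ∈ O, AnalyticAt ℂ
      (fun y : H × ℂ => K (evQ w (ψ y.1).1 (1, (ψ y.1).2 * y.2 ^ 2, y.2))) (τ, 0) := fun τ hτ => by
    have h1 : AnalyticAt ℂ (fun y : H × ℂ => ψ y.1) (τ, 0) :=
      (hψ τ hτ).fun_comp_of_eq analyticAt_fst rfl
    have h2 : AnalyticAt ℂ (fun y : H × ℂ =>
        (((ψ y.1).1, 1, (ψ y.1).2 * y.2 ^ 2, y.2) : Co w 2 × ℂ × ℂ × ℂ)) (τ, 0) :=
      (analyticAt_fst.fun_comp_of_eq h1 rfl).prod (analyticAt_const.prod (((analyticAt_snd.fun_comp_of_eq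
        h1 rfl).fun_mul (analyticAt_snd.fun_pow 2)).prod analyticAt_snd))
    have h3 := (analytic_evQ _).fun_comp_of_eq h2 rfl
    refine hK.fun_comp_of_eq h3 ?_
    rw [← hp τ hτ, yE, zero_pow two_ne_zero, mul_zero]
  have h4 := kcomp0_ext hO hc hu h₀
  exact h4 h

theorem Pre.near_node (G : P.Eqs α) {y : κ → ℂ} (hy : y ≠ 0) {n : Co P.w 2 × ℂ} (hn : P.Nod n) :
    ∀ᶠ x in 𝓝 n, x ∈ P.MQ → x.2 ≠ 0 → ∀ K, P.Good y K (yE P.w x.1) → Qd P.w K x := by
  obtain ⟨k, π, ψ, χ, hch, h2, hχ⟩ := Pre.chart_node G hn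
  have h1 : Tendsto ψ (𝓝 (π n)) (𝓝 n) := by
    have := hch.an.continuousAt.tendsto
    rwa [hch.left.self_of_nhds hch.mem] at this
  obtain ⟨r, hr, hb⟩ := Metric.eventually_nhds_iff_ball.1 ((hch.an.eventually_analyticAt.and
    hch.right).and (hχ.and (h1.eventually (Pre.nod_open G hn))))
  filter_upwards [hch.left, π.continuous.continuousAt.eventually (Metric.ball_mem_nhds (π n) hr)]
    with x hl hx hM h0 K hK
  have hm : ∀ s ∈ Metric.ball (0 : ℂ) r, (((π x).1.1, s), (π x).2) ∈ Metric.ball (π n) r := by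
    intro s hs
    simp only [Metric.mem_ball, Prod.dist_eq, max_lt_iff] at hx hs ⊢
    exact ⟨⟨hx.1.1, by rwa [h2, hn.2.1]⟩, hx.2⟩
  have hε : x.2 ∈ Metric.ball (0 : ℂ) r := by
    simp only [Metric.mem_ball, Prod.dist_eq, max_lt_iff] at hx ⊢
    have := hx.1.2
    rwa [h2, h2, hn.2.1] at this
  have e1 : ψ (((π x).1.1, x.2), (π x).2) = x := by rw [← h2 x]; exact hl hM
  have e2 : ∀ s ∈ Metric.ball (0 : ℂ) r, (ψ (((π x).1.1, s), (π x).2)).2 = s := fun s hs => by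
    rw [← h2, (hb _ (hm s hs)).1.2.2]
  have e3 : ∀ s ∈ Metric.ball (0 : ℂ) r,
      yE P.w (ψ (((π x).1.1, s), (π x).2)).1 = yE P.w x.1 := fun s hs => by
    rw [(hb _ (hm s hs)).2.1, ← congrArg (fun z => yE P.w z.1) e1, (hb _ (hm _ hε)).2.1]
  have han : AnalyticOnNhd ℂ (fun s : ℂ => ψ (((π x).1.1, s), (π x).2)) (Metric.ball 0 r) :=
    fun s hs => (hb _ (hm s hs)).1.1.comp_of_eq
      ((analyticAt_const.prod analyticAt_id).prod analyticAt_const) rfl
  have hz := Metric.mem_ball_self (x := (0 : ℂ)) hr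
  have h3 := (han 0 hz).continuousAt.eventually (Pre.node_quad G hy
    ((hb _ (hm 0 hz)).2.2 (hb _ (hm 0 hz)).1.2.1 (e2 0 hz)) (K := K) ((e3 0 hz).symm ▸ hK))
  have h4 : ∀ᶠ s in 𝓝 (0 : ℂ), s ≠ 0 → Qd P.w K (ψ (((π x).1.1, s), (π x).2)) := by
    filter_upwards [h3, Metric.ball_mem_nhds 0 hr] with s a hs h5
    exact a (hb _ (hm s hs)).1.2.1 (by rwa [e2 s hs])
  obtain ⟨s₀, ⟨a, b⟩, c⟩ := (((h4.eventually_nhds.and (Metric.ball_mem_nhds 0 hr)).filter_mono
    (nhdsWithin_le_nhds (s := {0}ᶜ))).and self_mem_nhdsWithin).exists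
  rw [← e1]
  exact qd_ext Metric.isOpen_ball (convex_ball 0 r).isPreconnected han e3 hK.1 b
    ((a.and (eventually_ne_nhds c)).mono fun _ e => e.1 e.2) _ hε

end Vale.Agent.P292
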