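import Vale.Agent.P292.HB
import Vale.Agent.P292.HC

/-! Definitions for the core theorem: rational curves as tuples of binary forms. -/

set_option maxSynthPendingDepth 3

open scoped Topology
open Set Filter

noncomputable section

namespace Vale.Agent.P292

/-! ### submanifolds -/

section Mfd

variable {E H : Type} [NormedAddCommGroup E] [NormedSpace ℂ E] [NormedAddCommGroup H]
  [NormedSpace ℂ H]

/-- near `e` the set `Z` is a graph over the linear map `π` -/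
structure Chart (Z : Set E) (e : E) (π : E →L[ℂ] H) (ψ : H → E) : Prop where
  mem : e ∈ Z
  an : AnalyticAt ℂ ψ (π e)
  right : ∀ᶠ z in 𝓝 (π e), ψ z ∈ Z ∧ π (ψ z) = z
  left : ∀ᶠ x in 𝓝 e, x ∈ Z → ψ (π x) = x

/-- near `e` the set `Z` is a submanifold with tangent space `T` at `e` -/
def MfdAt (Z : Set E) (e : E) (T : Submodule ℂ E) : Prop :=
  ∃ (k : ℕ) (π : E →L[ℂ] Fin k → ℂ) (ψ : (Fin k → ℂ) → E), Chart Z e π ψ ∧
    (fderiv ℂ ψ (π e)).range = T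

end Mfd

def e0 : ℂ × ℂ := (1, 0)
def e1 : ℂ × ℂ := (0, 1)

/-- the linear map of the plane with columns `a` and `b` -/
def mk2 (a b : ℂ × ℂ) (v : ℂ × ℂ) : ℂ × ℂ := v.1 • a + v.2 • b

variable {κ : Type} [Fintype κ]

/-- coefficients of tuples of binary forms of degrees `d * w i` -/
abbrev Co (w : κ → ℕ) (d : ℕ) : Type := ∀ i : κ, Fin (d * w i + 1) → ℂ

/-- the tuple of binary forms -/
def ev (w : κ → ℕ) (d : ℕ) (c : Co w d) (v : ℂ × ℂ) : κ → ℂ :=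
  fun i => ∑ j, c i j * v.1 ^ (d * w i - j) * v.2 ^ (j : ℕ)

/-- the tuple of forms in `(s, t, r)`, to be restricted to the conic `s t = ε r ^ 2` -/
def evQ (w : κ → ℕ) (c : Co w 2) (σ : ℂ × ℂ × ℂ) : κ → ℂ :=
  fun i => ∑ j, c i j * σ.1 ^ (w i - j) * σ.2.1 ^ (j - w i) * σ.2.2 ^ min (j : ℕ) (2 * w i - j)

/-- the cone over the conic -/
def Qc (ε : ℂ) : Set (ℂ × ℂ × ℂ) := {σ | σ.1 * σ.2.1 = ε * σ.2.2 ^ 2}

/-- `ev (tw ε c) (a, b) = evQ c (a ^ 2, ε b ^ 2, a b)` -/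
def tw (w : κ → ℕ) (ε : ℂ) (c : Co w 2) : Co w 2 := fun i j => ε ^ (j - w i) * c i j

/-- `ev (l1 c) (s, r) = evQ c (s, 0, r)` -/
def l1 (w : κ → ℕ) (c : Co w 2) : Co w 1 := fun i j => c i ⟨j, by have := j.2; omega⟩

/-- `ev (l2 c) (t, r) = evQ c (0, t, r)` -/
def l2 (w : κ → ℕ) (c : Co w 2) : Co w 1 := fun i j => c i ⟨2 * w i - j, by omega⟩

/-- `evQ (rs ρ x).1 (s, t, r) = evQ x.1 (s, t, ρ r)` -/
def rs (w : κ → ℕ) (ρ : ℂ) (x : Co w 2 × ℂ) : Co w 2 × ℂ :=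
  (fun i j => ρ ^ min (j : ℕ) (2 * w i - j) * x.1 i j, x.2 * ρ ^ 2)

/-- `evQ (ts l x).1 (s, t, r) = evQ x.1 (s, l t, r)` -/
def ts (w : κ → ℕ) (l : ℂ) (x : Co w 2 × ℂ) : Co w 2 × ℂ :=
  (fun i j => l ^ (j - w i) * x.1 i j, x.2 / l)

def yE (w : κ → ℕ) (c : Co w 2) : κ → ℂ := evQ w c (1, 0, 0)
def zE (w : κ → ℕ) (c : Co w 2) : κ → ℂ := evQ w c (0, 1, 0)
def uE (w : κ → ℕ) (c : Co w 2) : κ → ℂ := evQ w c (0, 0, 1)
def dE (w : κ → ℕ) (c : Co w 2) : κ → ℂ := fderiv ℂ (evQ w c) (0, 1, 0) (0, 0, 1)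
def aE (w : κ → ℕ) (c : Co w 2) : κ → ℂ := fderiv ℂ (evQ w c) (0, 0, 1) (1, 0, 0)
def bE (w : κ → ℕ) (c : Co w 2) : κ → ℂ := fderiv ℂ (evQ w c) (0, 0, 1) (0, 1, 0)

open Classical in
/-- change of the parameter -/
def rep (w : κ → ℕ) (d : ℕ) (a b : ℂ × ℂ) (c : Co w d) : Co w d :=
  if h : ∃ c' : Co w d, ∀ v, ev w d c' v = ev w d c (mk2 a b v) then h.choose else 0

/-- `K` is a quadratic form along the conic `c` near the parameter `a` -/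
def Qv (w : κ → ℕ) (K : (κ → ℂ) → ℂ) (c : Co w 2) (a : ℂ × ℂ) : Prop :=
  ∃ α β γ : ℂ, ∀ᶠ v in 𝓝 a, K (ev w 2 c v) = α * v.1 ^ 2 + β * v.1 * v.2 + γ * v.2 ^ 2

/-- `K` is a quadratic polynomial along the conic `x` near the first end -/
def Qd (w : κ → ℕ) (K : (κ → ℂ) → ℂ) (x : Co w 2 × ℂ) : Prop :=
  ∃ α β γ : ℂ, ∀ᶠ t in 𝓝 (0 : ℂ), K (evQ w x.1 (1, x.2 * t ^ 2, t)) = α + β * t + γ * t ^ 2

namespace Pre

variable (P : Pre κ)

/-- curves of degree `d` -/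
def M (d : ℕ) : Set (Co P.w d) := {c | ∀ v, v ≠ 0 → ev P.w d c v ∈ P.C}

/-- curves of degree `d`, possibly with base points -/
def M0 (d : ℕ) : Set (Co P.w d) := {c | ∀ v, ev P.w d c v ∈ insert 0 P.C}

/-- infinitesimal deformations -/
def J (d : ℕ) (c : Co P.w d) : Submodule ℂ (Co P.w d) where
  carrier := {δ | ∀ v, v ≠ 0 → ev P.w d δ v ∈ P.T (ev P.w d c v)}
  add_mem' := fun {a b} ha hb v hv => by
    have : ev P.w d (a + b) v = ev P.w d a v + ev P.w d b v := by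
      funext i; simp [ev, add_mul, Finset.sum_add_distrib]
    rw [this]; exact add_mem (ha v hv) (hb v hv)
  zero_mem' := fun v _ => by
    have : ev P.w d 0 v = 0 := by funext i; simp [ev]
    rw [this]; exact zero_mem _
  smul_mem' := fun r a ha v hv => by
    have : ev P.w d (r • a) v = r • ev P.w d a v := by
      funext i; simp [ev, Finset.mul_sum, mul_assoc]
    rw [this]; exact Submodule.smul_mem _ _ (ha v hv)

/-- the deformations span the tangent space at the parameter `v` -/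
def FreeAt (d : ℕ) (c : Co P.w d) (v : ℂ × ℂ) : Prop :=
  ∀ τ ∈ P.T (ev P.w d c v), ∃ δ ∈ P.J d c, ev P.w d δ v = τ

def Free (d : ℕ) (c : Co P.w d) : Prop := ∀ v, v ≠ 0 → P.FreeAt d c v

/-- values at the two ends can be prescribed -/
def VF (c : Co P.w 2) : Prop :=
  ∀ a ∈ P.T (ev P.w 2 c e0), ∀ b ∈ P.T (ev P.w 2 c e1), ∃ δ ∈ P.J 2 c,
    ev P.w 2 δ e0 = a ∧ ev P.w 2 δ e1 = b

/-- a holomorphic vector field of relative degree `k` along the curve `c` -/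
structure Jr (d : ℕ) (k : ℤ) (c : Co P.w d) (ξ : ℂ × ℂ → κ → ℂ) : Prop where
  diff : DifferentiableOn ℂ ξ {0}ᶜ
  hom : ∀ l : ℂ, l ≠ 0 → ∀ v, v ≠ 0 → ξ (l • v) = l ^ k • act P.w (l ^ d) (ξ v)
  mem : ∀ v, v ≠ 0 → ξ v ∈ P.T (ev P.w d c v)

/-- conics and pairs of lines -/
def MQ : Set (Co P.w 2 × ℂ) := {x | ∀ σ ∈ Qc x.2, σ ≠ 0 → evQ P.w x.1 σ ∈ P.C}

/-- deformations with fixed domain -/
def JQ (x : Co P.w 2 × ℂ) : Set (Co P.w 2) :=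
  {δ | ∀ σ ∈ Qc x.2, σ ≠ 0 → evQ P.w δ σ ∈ P.T (evQ P.w x.1 σ)}

/-- a pair of free lines -/
def Nod (x : Co P.w 2 × ℂ) : Prop :=
  x ∈ P.MQ ∧ x.2 = 0 ∧ P.Free 1 (l1 P.w x.1) ∧ P.Free 1 (l2 P.w x.1)

/-- conics with all degenerations and two marked ends -/
def KK : Set (Co P.w 2 × ℂ) :=
  {x | (∀ σ ∈ Qc x.2, evQ P.w x.1 σ ∈ insert 0 P.C) ∧ yE P.w x.1 ≠ 0 ∧ zE P.w x.1 ≠ 0 ∧
    (x.2 ≠ 0 ∨ uE P.w x.1 ≠ 0)}

/-- the contact form on the tangent vector at the second end -/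
def ct (c : Co P.w 2) : ℂ := P.θ (zE P.w c) (dE P.w c)

open Classical in
def cq (x : Co P.w 2 × ℂ) : ℂ :=
  if x.2 = 0 then -P.om (uE P.w x.1) (aE P.w x.1) (bE P.w x.1) else P.ct x.1 / x.2

/-- the many-valued Hamiltonian vector field -/
def Gam (y : κ → ℂ) : Set ((κ → ℂ) × (κ → ℂ)) :=
  {p | ∃ x ∈ P.KK, yE P.w x.1 = y ∧ zE P.w x.1 = p.1 ∧ P.cq x • dE P.w x.1 = p.2}

/-- a local branch of the Hamiltonian -/
def Good (y : κ → ℂ) (K : (κ → ℂ) → ℂ) (x : κ → ℂ) : Prop :=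
  AnalyticAt ℂ K x ∧ ∀ᶠ q in 𝓝 x, q ∈ P.C → fderiv ℂ K q (eul P.w q) = K q ∧
    ∃ V, (q, V) ∈ P.Gam y ∧ ∀ τ ∈ P.T q, fderiv ℂ K q τ = P.om q τ V

/-- the lines through `y` and the orbit of `y` -/
def Lam (y : κ → ℂ) : Set (κ → ℂ) :=
  {z | ∃ c ∈ P.M 1, ev P.w 1 c e0 = y ∧ ev P.w 1 c e1 = z} ∪ {z | ∃ l, l ≠ 0 ∧ act P.w l y = z}

/-- pairs of lines from `y` whose second line is not free -/
def Bad (y : κ → ℂ) : Set (κ → ℂ) :=
  {z | ∃ c, (c, (0 : ℂ)) ∈ P.MQ ∧ yE P.w c = y ∧ zE P.w c = z ∧ ¬ P.Free 1 (l2 P.w c)}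

/-- a general point -/
structure Gen (y : κ → ℂ) : Prop where
  mem : y ∈ P.C
  line : ∀ c ∈ P.M 1, ev P.w 1 c e0 = y → P.Free 1 c
  conic : ∀ c ∈ P.M 2, ev P.w 2 c e0 = y → P.Free 2 c
  bad : Small (P.ρ - 2) (P.Bad y)

/-- smooth conics through `y` -/
def My (y : κ → ℂ) : Set (Co P.w 2 × ℂ) := {x ∈ P.MQ | x.2 ≠ 0 ∧ yE P.w x.1 = y}

/-- the family of the conics through `y` near `c`, with the square root of the Hamiltonian -/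
structure LocK (y : κ → ℂ) (c : Co P.w 2) (k : (κ → ℂ) → ℂ) (σ : (κ → ℂ) → Co P.w 2) : Prop where
  mem : c ∈ P.M 2
  base : ev P.w 2 c e0 = y
  an : AnalyticAt ℂ k (ev P.w 2 c e1)
  anσ : AnalyticAt ℂ σ (ev P.w 2 c e1)
  self : σ (ev P.w 2 c e1) = c
  fam : ∀ᶠ q in 𝓝 (ev P.w 2 c e1), q ∈ P.C → σ q ∈ P.M 2 ∧ ev P.w 2 (σ q) e0 = y ∧
    ev P.w 2 (σ q) e1 = q ∧ k q = P.ct (σ q) ∧
    (σ q, (1 : ℂ)) ∈ connectedComponentIn (P.My y) (c, 1) ∧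
    ∀ τ ∈ P.T q, fderiv ℂ k q τ = P.om q τ (dE P.w (σ q)) / 2
  uniq : ∀ᶠ c' in 𝓝 c, c' ∈ P.M 2 → ev P.w 2 c' e0 = y → σ (ev P.w 2 c' e1) = c'

/-- the differential of the equations -/
def Eqs.dG {P : Pre κ} {α : Type} (G : P.Eqs α) (p v : κ → ℂ) : α → ℂ :=
  fun a => fderiv ℂ (fun q => MvPolynomial.eval q (G.G a)) p v

/-- the values of the equations -/
def Eqs.val {P : Pre κ} {α : Type} (G : P.Eqs α) (p : κ → ℂ) : α → ℂ :=
  fun a => MvPolynomial.eval p (G.G a)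

end Pre

end Vale.Agent.P292
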