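import Vale.Agent.P292.KIft

/-! Descent along a submersion. Hints: the set of points near which `Φ` factors is open. Let `u` be
in its closure, `π`, `χ` a chart of the cone at `g u`. Since `π ∘ g` is a submersion there is a
linear `Λ` such that the pair of `π ∘ g` and `Λ` is a local biholomorphism at `u` with inverse `Ψ` on a product
of balls. The function `Φ ∘ Ψ (b, τ)` has zero derivative in `τ` on a nonempty open set, hence
everywhere (identity theorem), so `Φ (Ψ (b, τ)) = Φ (Ψ (b, Λ u))`; put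
`K' q = Φ (Ψ (π q, Λ u))`. -/

set_option maxSynthPendingDepth 3

open scoped Topology
open Set Filter Asymptotics

noncomputable section

namespace Vale.Agent.P292

variable {κ : Type} [Fintype κ]

/-- a submersion is a projection in suitable coordinates -/
theorem KDesc_ift {H B : Type} [NormedAddCommGroup H] [NormedSpace ℂ H] [FiniteDimensional ℂ H]
    [NormedAddCommGroup B] [NormedSpace ℂ B] [FiniteDimensional ℂ B] {f : H → B} {u : H}
    (hf : AnalyticAt ℂ f u) (hs : (fderiv ℂ f u).range = ⊤) :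
    ∃ h : OpenPartialHomeomorph H (B × (fderiv ℂ f u).ker), u ∈ h.source ∧
      (∀ x, (h x).1 = f x) ∧ AnalyticAt ℂ h.symm (h u) := by
  have := FiniteDimensional.complete ℂ H
  have := FiniteDimensional.complete ℂ B
  have := FiniteDimensional.complete ℂ (fderiv ℂ f u).ker
  obtain ⟨r, hr⟩ := ContinuousLinearMap.exists_rightInverse_of_surjective _ hs
  have hr' : Function.RightInverse r (fderiv ℂ f u) := fun b => DFunLike.congr_fun hr b
  let Λ := (fderiv ℂ f u).projKerOfRightInverse r hr'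
  let i := ContinuousLinearEquiv.equivOfRightInverse _ r hr'
  have h1 : HasStrictFDerivAt (fun x => (f x, Λ x)) (i : H →L[ℂ] B × (fderiv ℂ f u).ker) u :=
    hf.hasStrictFDerivAt.prodMk Λ.hasStrictFDerivAt
  refine ⟨h1.toOpenPartialHomeomorph _, h1.mem_toOpenPartialHomeomorph_source, fun _ => rfl,
    OpenPartialHomeomorph.analyticAt_symm' _ (i := i) h1.mem_toOpenPartialHomeomorph_source
      (hf.prod (Λ.analyticAt u)) h1.hasFDerivAt.fderiv⟩

theorem KDesc_loc {H B : Type} [NormedAddCommGroup H] [NormedSpace ℂ H] [FiniteDimensional ℂ H]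
    [NormedAddCommGroup B] [NormedSpace ℂ B] [FiniteDimensional ℂ B] {f : H → B} {u : H}
    (hf : AnalyticAt ℂ f u) (hs : (fderiv ℂ f u).range = ⊤) {Φ : H → ℂ} (hΦ : AnalyticAt ℂ Φ u)
    (h0 : ∃ᶠ y in 𝓝 u, ∃ K : B → ℂ, ∀ᶠ x in 𝓝 y, Φ x = K (f x)) :
    ∃ K : B → ℂ, AnalyticAt ℂ K (f u) ∧ ∀ᶠ x in 𝓝 u, Φ x = K (f x) := by
  obtain ⟨h, hu, h1, h2⟩ := KDesc_ift hf hs
  generalize (fderiv ℂ f u).ker = W at h hu h1 h2
  have := FiniteDimensional.complete ℂ B
  have := FiniteDimensional.complete ℂ W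
  have hF : AnalyticAt ℂ (Φ ∘ h.symm) (h u) := hΦ.comp_of_eq h2 (h.left_inv hu)
  have hsw : ∀ p : (B × W) × W, AnalyticAt ℂ (fun p : (B × W) × W => (p.1.1, p.2)) p :=
    fun p => (analyticAt_fst.comp analyticAt_fst).prod analyticAt_snd
  have hD : AnalyticAt ℂ (fun p : (B × W) × W => Φ (h.symm p.1) - Φ (h.symm (p.1.1, p.2)))
      (h u, (h u).2) :=
    (hF.comp_of_eq analyticAt_fst rfl).sub (hF.comp_of_eq (hsw _) rfl)
  obtain ⟨ε, hε, hb⟩ := Metric.eventually_nhds_iff_ball.1 hD.eventually_analyticAt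
  have hc := h.continuousAt hu
  have h3 : ∀ᶠ y in 𝓝 u, y ∈ h.source ∧ (h y, (h y).2) ∈ Metric.ball (h u, (h u).2) ε :=
    (h.open_source.eventually_mem hu).and
      ((hc.prodMk hc.snd).eventually_mem (Metric.ball_mem_nhds _ hε))
  obtain ⟨y, ⟨K, hK⟩, hy, hy'⟩ := (h0.and_eventually h3).exists
  have h4 : ∀ᶠ q in 𝓝 (h y), Φ (h.symm q) = K q.1 := by
    filter_upwards [(h.tendsto_symm hy).eventually hK,
      h.open_target.eventually_mem (h.map_source hy)] with q hq hq'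
    rw [hq, ← h1, h.right_inv hq']
  have h5 : EqOn (fun p : (B × W) × W => Φ (h.symm p.1) - Φ (h.symm (p.1.1, p.2))) 0
      (Metric.ball (h u, (h u).2) ε) := by
    refine AnalyticOnNhd.eqOn_zero_of_preconnected_of_eventuallyEq_zero hb
      (convex_ball _ _).isPreconnected hy' ?_
    filter_upwards [(continuousAt_fst (p := (h y, (h y).2))).eventually h4,
      (hsw (h y, (h y).2)).continuousAt.eventually h4] with p hp hp'
    rw [hp, hp', sub_self, Pi.zero_apply]
  refine ⟨fun b => Φ (h.symm (b, (h u).2)), hF.comp_of_eq (analyticAt_id.prod analyticAt_const)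
    (by rw [← h1]), ?_⟩
  filter_upwards [h.open_source.eventually_mem hu, (hc.prodMk (continuousAt_const
    (y := (h u).2))).eventually_mem (Metric.ball_mem_nhds _ hε)] with x hx hx'
  have h6 := sub_eq_zero.1 (h5 hx')
  rwa [h.left_inv hx, h1] at h6

theorem Pre.descent (P : Pre κ) {H : Type} [NormedAddCommGroup H] [NormedSpace ℂ H]
    [FiniteDimensional ℂ H] {U : Set H} (hU : IsOpen U) (hc : IsPreconnected U) {g : H → κ → ℂ}
    {Φ : H → ℂ} (hg : AnalyticOnNhd ℂ g U) (hΦ : AnalyticOnNhd ℂ Φ U) (hC : MapsTo g U P.C)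
    (hs : ∀ u ∈ U, P.T (g u) ≤ (fderiv ℂ g u).range) {u₀ : H} (hu₀ : u₀ ∈ U)
    {K : (κ → ℂ) → ℂ} (hK : AnalyticAt ℂ K (g u₀)) (h0 : ∀ᶠ u in 𝓝 u₀, Φ u = K (g u)) :
    ∀ u ∈ U, ∃ K' : (κ → ℂ) → ℂ, AnalyticAt ℂ K' (g u) ∧ ∀ᶠ x in 𝓝 u, Φ x = K' (g x) := by
  let S : Set H := {x | x ∈ U ∧ ∃ K' : (κ → ℂ) → ℂ, AnalyticAt ℂ K' (g x) ∧
    ∀ᶠ y in 𝓝 x, Φ y = K' (g y)}
  have hS : IsOpen S := by
    refine isOpen_iff_eventually.2 ?_
    rintro x ⟨hx, K', h1, h2⟩
    filter_upwards [hU.eventually_mem hx, h2.eventually_nhds,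
      (hg x hx).continuousAt.eventually h1.eventually_analyticAt] with y h3 h4 h5
    exact ⟨h3, K', h5, h4⟩
  refine fun u hu => (hc.subset_of_closure_inter_subset hS ⟨u₀, hu₀, hu₀, K, hK, h0⟩ ?_ hu).2
  rintro u ⟨hu', hu⟩
  obtain ⟨π, χ, h1, h2⟩ := P.chart (hC hu)
  have h3 : AnalyticAt ℂ (π ∘ g) u := (π.analyticAt _).comp (hg u hu)
  have h4 : (fderiv ℂ (π ∘ g) u).range = ⊤ := by
    rw [(π.hasFDerivAt.comp u (hg u hu).differentiableAt.hasFDerivAt).fderiv, eq_top_iff]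
    intro b _
    obtain ⟨τ, hτ, rfl⟩ := (h2.self_of_nhds (hC hu)).2.1 b
    obtain ⟨v, rfl⟩ := hs u hu hτ
    exact ⟨v, rfl⟩
  have h5 : ∀ᶠ x in 𝓝 u, χ (π (g x)) = g x := by
    filter_upwards [hU.eventually_mem hu, (hg u hu).continuousAt.eventually h1.left] with x hx hx'
    exact hx' (hC hx)
  obtain ⟨K', h6, h7⟩ := KDesc_loc h3 h4 (hΦ u hu) (by
    refine ((mem_closure_iff_frequently.1 hu').and_eventually h5.eventually_nhds).mono ?_
    rintro y ⟨⟨-, K', -, h6⟩, h7⟩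
    refine ⟨K' ∘ χ, ?_⟩
    filter_upwards [h6, h7] with x hx hx'
    rw [hx, Function.comp_apply, Function.comp_apply, hx'])
  exact ⟨hu, K' ∘ π, h6.comp_of_eq (π.analyticAt (g u)) rfl, h7⟩

theorem isPreconnected_prod_compl_zero {H : Type} [TopologicalSpace H] {U : Set H}
    (hc : IsPreconnected U) : IsPreconnected (U ×ˢ ({0}ᶜ : Set (ℂ × ℂ))) := by
  refine hc.prod (isConnected_compl_singleton_of_one_lt_rank ?_ 0).isPreconnected
  rw [rank_prod', Complex.rank_real_complex]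
  norm_num

end Vale.Agent.P292
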