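import Vale.Agent.P292.KBq

/-! Base points have integral multiplicity. Hints for `fact`: after a change of parameter
`v₀ = (1, 0)` and `p t = ev c (1, t)` is a tuple of polynomials vanishing at `0`; if `p = 0` take
`h = 0`. Let `q` be the product of the weights and `a` the minimum of `ord (p i) * q / w i` over
the nonzero components, a positive integer. Then `h τ = act (τ ^ a)⁻¹ (p (τ ^ q))` is a tuple of
polynomials in `τ` with `h 0 ≠ 0`, `h τ ∈ C` for small `τ ≠ 0`, so `h 0 ∈ C` (closedness), and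
`h (ζ τ) = act (ζ ^ a)⁻¹ (h τ)` for `ζ ^ q = 1`. By `P.free` one gets `ζ ^ a = 1` for a primitive
root, so `q ∣ a` and `w i ≤ ord (p i)` for all `i`. Divide; the quotient has values in
`insert 0 C` off the line through `v₀`, hence everywhere. `deg_cases`: if `x.2 ≠ 0` and
`tw x.2 x.1` has a base point it is `act (wg v₀ v) (ev h v)` with `h` a line or a ghost
(`m0_one`); rescale with `rep`. If `x.2 = 0` one of the two components is a ghost. -/

set_option maxSynthPendingDepth 3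

open scoped Topology
open Set Filter Asymptotics

noncomputable section

namespace Vale.Agent.P292

variable {κ : Type} [Fintype κ]

theorem KFact0_b {a : ℂ × ℂ} (ha : a ≠ 0) : ∃ b, wg a b = 1 := by
  by_cases h : a.1 = 0
  · have h2 : a.2 ≠ 0 := fun h2 => ha (Prod.ext h h2)
    exact ⟨(-a.2⁻¹, 0), by simp [wg, h2]⟩
  · exact ⟨(0, a.1⁻¹), by simp [wg, h]⟩

namespace Pre

variable {P : Pre κ}

theorem KFact0_act {l : ℂ} (hl : l ≠ 0) {p : κ → ℂ} (h : act P.w l p ∈ insert 0 P.C) :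
    p ∈ insert 0 P.C := by
  rcases h with h | h
  · exact Or.inl (act_eq_zero hl h)
  · have h1 := P.act_mem _ h l⁻¹ (inv_ne_zero hl)
    rw [← act_mul, inv_mul_cancel₀ hl, act_one] at h1
    exact Or.inr h1

theorem KFact0_lim {f : ℂ → κ → ℂ} (hf : Continuous f) (h : ∀ τ, τ ≠ 0 → f τ ∈ insert 0 P.C) :
    f 0 ∈ insert 0 P.C :=
  P.closed.mem_of_tendsto ((hf.tendsto 0).mono_left (nhdsWithin_le_nhds (s := {0}ᶜ)))
    (eventually_nhdsWithin_of_forall h)

theorem KFact0_ord {n : κ → ℕ} (c : ∀ i, Fin (n i) → ℂ)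
    (hc : ∀ t : ℂ, (fun i => ∑ j, c i j * t ^ (j : ℕ)) ∈ insert 0 P.C)
    (h0 : ∀ i j, c i j ≠ 0 → 0 < j.val) {i₁ : κ} {j₁ : Fin (n i₁)} (h1 : c i₁ j₁ ≠ 0) :
    P.w i₁ ≤ j₁ := by
  classical
  obtain ⟨q, hq, hr⟩ : ∃ q : ℕ, 0 < q ∧ ∀ i, ∃ r, 0 < r ∧ P.w i * r = q :=
    ⟨∏ i, P.w i, Finset.prod_pos fun i _ => P.w_pos i, fun i => ⟨_,
      Finset.prod_pos fun i _ => P.w_pos i, Finset.mul_prod_erase _ _ (Finset.mem_univ i)⟩⟩
  choose r hr0 hr using hr
  obtain ⟨⟨i₀, j₀⟩, h2, h3⟩ := Set.exists_min_image {x : Σ i, Fin (n i) | c x.1 x.2 ≠ 0}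
    (fun x => x.2.val * r x.1) (Set.toFinite _) ⟨⟨i₁, j₁⟩, h1⟩
  obtain ⟨a, ha⟩ : ∃ a, a = j₀.val * r i₀ := ⟨_, rfl⟩
  have h4 : ∀ i j, c i j ≠ 0 → a * P.w i ≤ j.val * q := fun i j h => by
    rw [← hr i, mul_comm (P.w i), ← mul_assoc, ha]
    exact Nat.mul_le_mul_right _ (h3 ⟨i, j⟩ h)
  have h5 : a * P.w i₀ = j₀.val * q := by rw [← hr i₀, mul_comm (P.w i₀), ← mul_assoc, ha]
  have h6 := KFact0_lim (P := P) (f := fun τ i => ∑ j, c i j * τ ^ (j.val * q - a * P.w i))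
    (by fun_prop) fun τ hτ => KFact0_act (pow_ne_zero a hτ) (by
      refine Set.mem_of_eq_of_mem (funext fun i => ?_) (hc (τ ^ q))
      rw [act_apply, Finset.mul_sum]
      refine Finset.sum_congr rfl fun j _ => ?_
      by_cases h : c i j = 0
      · simp [h]
      · rw [mul_left_comm, ← pow_mul, ← pow_add, Nat.add_sub_cancel' (h4 i j h), ← pow_mul,
          mul_comm q])
  have h7 : (∑ j, c i₀ j * (0 : ℂ) ^ (j.val * q - a * P.w i₀)) = c i₀ j₀ := by
    rw [Finset.sum_eq_single j₀ (fun j _ hj => ?_) (fun h => absurd (Finset.mem_univ _) h), h5,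
      Nat.sub_self, pow_zero, mul_one]
    by_cases h : c i₀ j = 0
    · rw [h, zero_mul]
    · have h8 := h4 i₀ j h
      have h9 : j.val * q ≠ j₀.val * q := fun h9 =>
        hj (Fin.ext (Nat.eq_of_mul_eq_mul_right hq h9))
      rw [zero_pow (by omega), mul_zero]
  have h8 := h6.resolve_left fun h => h2 (h7.symm.trans (congrFun h i₀))
  have hζ := Complex.isPrimitiveRoot_exp q hq.ne'
  have h9 := P.free _ h8 _ (pow_ne_zero a (hζ.ne_zero hq.ne')) (funext fun i => by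
    rw [act_apply, Finset.mul_sum]
    refine Finset.sum_congr rfl fun j _ => ?_
    by_cases h : c i j = 0
    · simp [h]
    · rcases (h4 i j h).eq_or_lt with h10 | h10
      · rw [← pow_mul, h10, mul_comm j.val, pow_mul, hζ.pow_eq_one, one_pow, one_mul]
      · rw [zero_pow (by omega), mul_zero, mul_zero])
  have h10 : q ≤ a := Nat.le_of_dvd (ha ▸ Nat.mul_pos (h0 _ _ h2) (hr0 _))
    (hζ.dvd_of_pow_eq_one a h9)
  have h11 := (Nat.mul_le_mul_right (P.w i₁) h10).trans (h4 _ _ h1)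
  rw [mul_comm] at h11
  exact Nat.le_of_mul_le_mul_right h11 hq

theorem KFact0_e0 {d : ℕ} {c : Co P.w (d + 1)} (hc : c ∈ P.M0 (d + 1))
    (h0 : ev P.w (d + 1) c e0 = 0) :
    ∃ h ∈ P.M0 d, ∀ v, ev P.w (d + 1) c v = act P.w v.2 (ev P.w d h v) := by
  have h1 : ∀ i j, c i j ≠ 0 → P.w i ≤ j := fun i j h => KFact0_ord c
    (fun t => Set.mem_of_eq_of_mem (funext fun i => by simp [ev]) (hc (1, t)))
    (fun i j h => Nat.pos_of_ne_zero fun h2 => h (by
      have h3 := congrFun h0 i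
      rw [ev, Fin.sum_univ_succ] at h3
      rw [show j = 0 from Fin.ext h2]
      simpa [e0] using h3)) h
  have h2 : ∀ i (j : Fin (d * P.w i + 1)), j.val + P.w i < (d + 1) * P.w i + 1 := fun i j => by
    have := j.2
    rw [Nat.succ_mul]
    omega
  have h3 : ∀ v, ev P.w (d + 1) c v =
      act P.w v.2 (ev P.w d (fun i j => c i ⟨j.val + P.w i, h2 i j⟩) v) := fun v => by
    funext i
    rw [act_apply, ev, ev, Finset.mul_sum]
    refine (Fintype.sum_of_injective (fun j => ⟨j.val + P.w i, h2 i j⟩)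
      (fun j j' h => Fin.ext (Nat.add_right_cancel (congrArg Fin.val h))) _ _ (fun j hj => ?_)
      fun j => ?_).symm
    · by_cases h : c i j = 0
      · rw [h, zero_mul, zero_mul]
      · have h4 := h1 i j h
        have h5 := j.2.trans_eq (congrArg (· + 1) (Nat.succ_mul d (P.w i)))
        exact absurd ⟨⟨j.val - P.w i, by omega⟩, Fin.ext (Nat.sub_add_cancel h4)⟩ hj
    · simp only [Nat.succ_mul, Nat.add_sub_add_right, pow_add]
      ring
  have h4 : ∀ v : ℂ × ℂ, v.2 ≠ 0 →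
      ev P.w d (fun i j => c i ⟨j.val + P.w i, h2 i j⟩) v ∈ insert 0 P.C := fun v hv =>
    KFact0_act hv (h3 v ▸ hc v)
  refine ⟨_, fun v => ?_, h3⟩
  by_cases hv : v.2 = 0
  · rw [show v = (v.1, 0) from Prod.ext rfl hv]
    exact KFact0_lim (f := fun s => ev P.w d _ (v.1, s)) ((continuous_iff_continuousAt.2 fun u =>
      (analytic_ev_right _ u).continuousAt).comp (Continuous.prodMk_right v.1))
      fun s hs => h4 (v.1, s) hs
  · exact h4 v hv

theorem fact {d : ℕ} {c : Co P.w (d + 1)} (hc : c ∈ P.M0 (d + 1)) {v₀ : ℂ × ℂ} (hv : v₀ ≠ 0)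
    (h0 : ev P.w (d + 1) c v₀ = 0) :
    ∃ h ∈ P.M0 d, ∀ v, ev P.w (d + 1) c v = act P.w (wg v₀ v) (ev P.w d h v) := by
  obtain ⟨b, hb⟩ := KFact0_b hv
  obtain ⟨h, h1, h2⟩ := KFact0_e0 (c := rep P.w (d + 1) v₀ b c)
    (fun v => by rw [ev_rep]; exact hc _) (by rw [ev_rep, mk2_e0, h0])
  refine ⟨rep P.w d (b.2, -v₀.2) (-b.1, v₀.1) h, fun v => by rw [ev_rep]; exact h1 _, fun v => ?_⟩
  have h3 : (mk2 (b.2, -v₀.2) (-b.1, v₀.1) v).2 = wg v₀ v := by
    simp only [mk2, wg, Prod.snd_add, Prod.smul_snd, smul_eq_mul]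
    ring
  have h4 : mk2 v₀ b (mk2 (b.2, -v₀.2) (-b.1, v₀.1) v) = v := by
    unfold wg at hb
    ext
    · simp only [mk2, Prod.fst_add, Prod.snd_add, Prod.smul_fst, Prod.smul_snd, smul_eq_mul]
      linear_combination v.1 * hb
    · simp only [mk2, Prod.fst_add, Prod.snd_add, Prod.smul_fst, Prod.smul_snd, smul_eq_mul]
      linear_combination v.2 * hb
  rw [ev_rep, ← h3, ← h2, ev_rep, h4]

end Pre

end Vale.Agent.P292
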