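import Vale.Agent.P292.KLoc
import Vale.Agent.P292.KDesc

/-! Continuation of the branch to the base point. Hints: take `free_chart`, shrink the ball; put
`Φ (z, v) = (1/2) D² (K₀ ∘ ev (ψ z)) a (v, v)` with `K₀ = k ^ 2` (or interpolate at three fixed points
near `a`), analytic on `ball ×ˢ univ`, a quadratic form in `v`, equal to `K₀ (ev (ψ z) v)` near
`(π c, a)` (identity theorem on a fixed ball around `a`). `Pre.descent` at `(π c, e0)`. If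
`ev m e0 = y` and `v` is near `a`, then `rep e0 v m` is near `rep e0 a c`, so by `uniq` and `fam`
`k (ev m v) = ct (rep e0 v m) = θ (D (ev m) v e0) = -cc v.2` (`exists_cc`), hence
`Φ = (cc v.2) ^ 2`, and `cc = θ y (D (ev m) e0 e1)`. -/

set_option maxSynthPendingDepth 3

open scoped Topology
open Set Filter Asymptotics

noncomputable section

namespace Vale.Agent.P292

variable {κ α : Type} [Fintype κ] [Fintype α] {P : Pre κ}

/-- interpolation of a quadratic form from three values -/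
def KFinI (a : ℂ × ℂ) (t : ℂ) (f : ℂ × ℂ → ℂ) (v : ℂ × ℂ) : ℂ :=
  (v.2 * a.2⁻¹) ^ 2 * f a +
    v.2 * a.2⁻¹ * (v.1 - v.2 * a.2⁻¹ * a.1) * (f (a + t • e0) - f (a - t • e0)) * (2 * t)⁻¹ +
      (v.1 - v.2 * a.2⁻¹ * a.1) ^ 2 * (f (a + t • e0) + f (a - t • e0) - 2 * f a) * (2 * t ^ 2)⁻¹

theorem KFin_mem (a : ℂ × ℂ) {s : ℝ} (hs : 0 < s) : a + ((s / 2 : ℝ) : ℂ) • e0 ∈ Metric.ball a s ∧
    a - ((s / 2 : ℝ) : ℂ) • e0 ∈ Metric.ball a s := by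
  have h : ‖((s / 2 : ℝ) : ℂ) • e0‖ < s := by
    rw [norm_smul, Complex.norm_real, Real.norm_of_nonneg (by positivity)]
    simp only [e0, Prod.norm_mk, norm_one, norm_zero, max_eq_left zero_le_one]
    linarith
  simpa [mem_ball_iff_norm] using h

theorem KFin_alg {a : ℂ × ℂ} (ha : a.2 ≠ 0) {s : ℝ} (hs : 0 < s) {f : ℂ × ℂ → ℂ} {α β γ : ℂ}
    (h : ∀ v ∈ Metric.ball a s, f v = α * v.1 ^ 2 + β * v.1 * v.2 + γ * v.2 ^ 2) (v : ℂ × ℂ) :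
    KFinI a ((s / 2 : ℝ) : ℂ) f v = α * v.1 ^ 2 + β * v.1 * v.2 + γ * v.2 ^ 2 := by
  have ht : ((s / 2 : ℝ) : ℂ) ≠ 0 := Complex.ofReal_ne_zero.2 (half_pos hs).ne'
  rw [KFinI, h _ (KFin_mem a hs).1, h _ (KFin_mem a hs).2, h _ (Metric.mem_ball_self hs)]
  generalize ((s / 2 : ℝ) : ℂ) = t at ht
  simp only [e0, Prod.fst_add, Prod.snd_add, Prod.fst_sub, Prod.snd_sub, Prod.smul_mk, smul_eq_mul,
    mul_one, mul_zero, add_zero, sub_zero]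
  field_simp
  ring

theorem KFin_an {H : Type} [NormedAddCommGroup H] [NormedSpace ℂ H] {F : H × ℂ × ℂ → ℂ} {z : H}
    {a : ℂ × ℂ} {s : ℝ} (hs : 0 < s) (h : ∀ v ∈ Metric.ball a s, AnalyticAt ℂ F (z, v))
    (v : ℂ × ℂ) :
    AnalyticAt ℂ (fun u : H × ℂ × ℂ => KFinI a ((s / 2 : ℝ) : ℂ) (fun v' => F (u.1, v')) u.2)
      (z, v) := by
  have h1 : ∀ p ∈ Metric.ball a s, AnalyticAt ℂ (fun u : H × ℂ × ℂ => F (u.1, p)) (z, v) :=
    fun p hp => AnalyticAt.comp (f := fun u : H × ℂ × ℂ => (u.1, p)) (h p hp)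
      (analyticAt_fst.prod analyticAt_const)
  have h2 := h1 _ (KFin_mem a hs).1
  have h3 := h1 _ (KFin_mem a hs).2
  have h4 := h1 _ (Metric.mem_ball_self hs)
  have h5 : AnalyticAt ℂ (fun u : H × ℂ × ℂ => u.2.1) (z, v) := analyticAt_fst.comp analyticAt_snd
  have h6 : AnalyticAt ℂ (fun u : H × ℂ × ℂ => u.2.2 * a.2⁻¹) (z, v) :=
    (analyticAt_snd.comp analyticAt_snd).mul analyticAt_const
  have h7 : AnalyticAt ℂ (fun u : H × ℂ × ℂ => u.2.1 - u.2.2 * a.2⁻¹ * a.1) (z, v) :=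
    h5.sub (h6.mul analyticAt_const)
  exact (((h6.pow 2).mul h4).add (((h6.mul h7).mul (h2.sub h3)).mul analyticAt_const)).add
    (((h7.pow 2).mul ((h2.add h3).sub (analyticAt_const.mul h4))).mul analyticAt_const)

theorem KFin_id {a : ℂ × ℂ} {s : ℝ} (hs : 0 < s) {f : ℂ × ℂ → ℂ} {α β γ : ℂ}
    (hf : AnalyticOnNhd ℂ f (Metric.ball a s))
    (h : ∀ᶠ v in 𝓝 a, f v = α * v.1 ^ 2 + β * v.1 * v.2 + γ * v.2 ^ 2) :
    ∀ v ∈ Metric.ball a s, f v = α * v.1 ^ 2 + β * v.1 * v.2 + γ * v.2 ^ 2 :=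
  hf.eqOn_of_preconnected_of_eventuallyEq
    (g := fun v : ℂ × ℂ => α * v.1 ^ 2 + β * v.1 * v.2 + γ * v.2 ^ 2)
    (fun _ _ => ((analyticAt_const.mul (analyticAt_fst.pow 2)).add
      ((analyticAt_const.mul analyticAt_fst).mul analyticAt_snd)).add
        (analyticAt_const.mul (analyticAt_snd.pow 2)))
    (convex_ball a s).isPreconnected (Metric.mem_ball_self hs) h

theorem KFin_val {c : Co P.w 2} {y : κ → ℂ} {a : ℂ × ℂ} (ha : wg e0 a ≠ 0) {k : (κ → ℂ) → ℂ}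
    {σ : (κ → ℂ) → Co P.w 2} (h : P.LocK y (rep P.w 2 e0 a c) k σ) :
    ∀ᶠ x : Co P.w 2 × ℂ × ℂ in 𝓝 (c, a), x.1 ∈ P.M 2 → ev P.w 2 x.1 e0 = y →
      k (ev P.w 2 x.1 x.2) = -(P.θ y (fderiv ℂ (ev P.w 2 x.1) e0 e1) * x.2.2) := by
  have t1 : Tendsto (fun x : Co P.w 2 × ℂ × ℂ => rep P.w 2 e0 x.2 x.1) (𝓝 (c, a))
      (𝓝 (rep P.w 2 e0 a c)) :=
    (continuous_rep.comp (f := fun x : Co P.w 2 × ℂ × ℂ => (e0, x.2, x.1))
      (by fun_prop)).continuousAt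
  have t2 : Tendsto (fun x : Co P.w 2 × ℂ × ℂ => ev P.w 2 x.1 x.2) (𝓝 (c, a))
      (𝓝 (ev P.w 2 (rep P.w 2 e0 a c) e1)) := by
    rw [ev_rep, mk2_e1]
    exact KBas_cont.continuousAt
  have t3 : ∀ᶠ x : Co P.w 2 × ℂ × ℂ in 𝓝 (c, a), wg e0 x.2 ≠ 0 :=
    ContinuousAt.eventually_ne (g := fun x : Co P.w 2 × ℂ × ℂ => wg e0 x.2)
      (by unfold wg; fun_prop) ha
  filter_upwards [t1.eventually h.uniq, t2.eventually h.fam, t3] with x h1 h2 h3 hm hy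
  have hv : x.2 ≠ 0 := fun e => h3 (by simp [e, wg])
  have he : e0 ≠ 0 := fun e => one_ne_zero (congrArg Prod.fst e)
  have h4 := h1 (Pre.rep_mem h3 hm) (by rw [ev_rep, mk2_e0, hy])
  rw [ev_rep, mk2_e1] at h4
  have hM : x.1 ∈ P.M0 2 := fun v => by
    by_cases h0 : v = 0
    · left
      rw [h0, ← zero_smul ℂ (0 : ℂ × ℂ), ev_hom, zero_pow two_ne_zero, act_zero P.w_pos]
    · exact Or.inr (hm v h0)
  obtain ⟨b, hb⟩ := Pre.exists_cc hM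
  have n0 : ∀ v, v ≠ 0 → ev P.w 2 x.1 v ≠ 0 := fun v h0 e => P.zero_not (e ▸ hm v h0)
  rw [(h2 (hm _ hv)).2.2.2.1, h4, Pre.ct, zE_eq P.w_pos, dE_eq P.w_pos, fderiv_ev_rep, ev_rep,
    mk2_e1, mk2_e0, hb _ (n0 _ hv), ← hy, hb _ (n0 _ he)]
  simp [wg, e0, e1]

theorem Pre.final (G : P.Eqs α) {c : Co P.w 2} (hc : c ∈ P.M 2) (hf : P.Free 2 c) {y : κ → ℂ}
    (hy : ev P.w 2 c e0 = y) {a : ℂ × ℂ} (ha : wg e0 a ≠ 0) {k : (κ → ℂ) → ℂ}
    {σ : (κ → ℂ) → Co P.w 2} (h : P.LocK y (rep P.w 2 e0 a c) k σ)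
    (hQ : ∀ᶠ m in 𝓝 c, m ∈ P.M 2 → Qv P.w (fun q => k q ^ 2) m a) :
    ∃ (K : (κ → ℂ) → ℂ) (δ : ℝ), AnalyticAt ℂ K y ∧ 0 < δ ∧
      (∀ m ∈ P.M 2, ‖m - c‖ < δ → ∃ α β γ : ℂ, ∀ v : ℂ × ℂ, ‖v - e0‖ < δ →
        K (ev P.w 2 m v) = α * v.1 ^ 2 + β * v.1 * v.2 + γ * v.2 ^ 2) ∧
      ∀ᶠ m in 𝓝 c, m ∈ P.M 2 → ev P.w 2 m e0 = y → ∀ᶠ t in 𝓝 (0 : ℂ),
        K (ev P.w 2 m (1, t)) = t ^ 2 * P.θ y (fderiv ℂ (ev P.w 2 m) e0 e1) ^ 2 := by
  obtain ⟨n, π, ψ, r, hch, hr, hψ, H⟩ := Pre.free_chart G hc hf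
  have ha2 : a.2 ≠ 0 := by simpa [wg, e0] using ha
  have he : e0 ≠ 0 := fun e => one_ne_zero (congrArg Prod.fst e)
  set g : (Fin n → ℂ) × ℂ × ℂ → κ → ℂ := fun u => ev P.w 2 (ψ u.1) u.2 with hg
  have pa : ∀ u : (Fin n → ℂ) × ℂ × ℂ, u.1 ∈ Metric.ball (π c) r →
      AnalyticAt ℂ (fun u : (Fin n → ℂ) × ℂ × ℂ => (ψ u.1, u.2)) u := fun u hu =>
    ((hψ _ hu).comp analyticAt_fst).prod analyticAt_snd
  have ga : ∀ u : (Fin n → ℂ) × ℂ × ℂ, u.1 ∈ Metric.ball (π c) r → AnalyticAt ℂ g u := fun u hu =>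
    AnalyticAt.comp (f := fun u : (Fin n → ℂ) × ℂ × ℂ => (ψ u.1, u.2)) (analytic_ev _) (pa u hu)
  have k0 : AnalyticAt ℂ (fun q => k q ^ 2) (g (π c, a)) := by
    have := h.an
    rw [ev_rep, mk2_e1] at this
    simp only [hg, hch.self]
    exact this.pow 2
  have F0 : AnalyticAt ℂ (fun u => k (g u) ^ 2) (π c, a) :=
    AnalyticAt.comp (g := fun q => k q ^ 2) k0 (ga _ (Metric.mem_ball_self hr))
  have t1 : Tendsto (fun u : (Fin n → ℂ) × ℂ × ℂ => (ψ u.1, u.2)) (𝓝 (π c, a)) (𝓝 (c, a)) := by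
    have := (pa (π c, a) (Metric.mem_ball_self hr)).continuousAt
    rwa [ContinuousAt, hch.self] at this
  have t2 : Tendsto (fun u : (Fin n → ℂ) × ℂ × ℂ => u.1) (𝓝 (π c, a)) (𝓝 (π c)) :=
    continuous_fst.continuousAt
  obtain ⟨s, hs, S⟩ := Metric.eventually_nhds_iff_ball.1 (F0.eventually_analyticAt.and
    ((t2.eventually (Metric.ball_mem_nhds _ hr)).and (((hch.tendsto.comp t2).eventually hQ).and
      (t1.eventually (KFin_val ha h)))))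
  replace S := fun z (hz : z ∈ Metric.ball (π c) s) v (hv : v ∈ Metric.ball a s) =>
    S (z, v) (by rw [← ball_prod_same]; exact ⟨hz, hv⟩)
  have hb : ∀ z ∈ Metric.ball (π c) s, z ∈ Metric.ball (π c) r := fun z hz =>
    (S z hz a (Metric.mem_ball_self hs)).2.1
  set Φ : (Fin n → ℂ) × ℂ × ℂ → ℂ := fun u =>
    KFinI a ((s / 2 : ℝ) : ℂ) (fun v => k (g (u.1, v)) ^ 2) u.2 with hΦ
  have hq : ∀ z ∈ Metric.ball (π c) s, ∃ α β γ : ℂ,
      (∀ v, Φ (z, v) = α * v.1 ^ 2 + β * v.1 * v.2 + γ * v.2 ^ 2) ∧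
        ∀ v ∈ Metric.ball a s, Φ (z, v) = k (g (z, v)) ^ 2 := fun z hz => by
    obtain ⟨α, β, γ, e⟩ := (S z hz a (Metric.mem_ball_self hs)).2.2.1 (H z (hb z hz)).1
    have e' := KFin_id (f := fun v => k (g (z, v)) ^ 2) hs (fun v hv =>
      AnalyticAt.comp (f := fun v => (z, v)) (g := fun u => k (g u) ^ 2) (S z hz v hv).1
        (analyticAt_const.prod analyticAt_id)) e
    exact ⟨α, β, γ, KFin_alg ha2 hs e', fun v hv => (KFin_alg ha2 hs e' v).trans (e' v hv).symm⟩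
  obtain ⟨K, hK, E⟩ := P.descent (U := Metric.ball (π c) s ×ˢ {0}ᶜ) (g := g) (Φ := Φ)
    (Metric.isOpen_ball.prod isOpen_compl_singleton)
    (isPreconnected_prod_compl_zero (convex_ball _ _).isPreconnected)
    (fun u hu => ga u (hb _ hu.1))
    (fun u hu => KFin_an (F := fun u => k (g u) ^ 2) hs (fun v hv => (S _ hu.1 v hv).1) u.2)
    (fun u hu => (H _ (hb _ hu.1)).1 _ hu.2)
    (fun u hu τ hτ => by
      obtain ⟨δ, hδ⟩ := (H _ (hb _ hu.1)).2.2 _ hu.2 τ hτ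
      refine ⟨(δ, 0), ?_⟩
      have d1 : HasFDerivAt (fun u : (Fin n → ℂ) × ℂ × ℂ => (ψ u.1, u.2)) _ u :=
        ((hψ _ (hb _ hu.1)).differentiableAt.hasFDerivAt.comp u hasFDerivAt_fst).prodMk
          hasFDerivAt_snd
      have d2 := ((analytic_ev (w := P.w) (d := 2) (ψ u.1, u.2)).differentiableAt.hasFDerivAt.comp
        u d1).fderiv
      change fderiv ℂ g u (δ, 0) = τ
      rw [show fderiv ℂ g u = _ from d2]
      simpa [fderiv_ev_joint] using hδ)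
    (u₀ := (π c, a)) ⟨Metric.mem_ball_self hs, fun e => ha2 (congrArg Prod.snd e)⟩ k0
    (by
      filter_upwards [Metric.ball_mem_nhds (π c, a) hs] with u hu
      rw [← ball_prod_same] at hu
      obtain ⟨α, β, γ, -, e⟩ := hq _ hu.1
      exact e _ hu.2) (π c, e0) ⟨Metric.mem_ball_self hs, he⟩
  have t3 : Tendsto (fun x : Co P.w 2 × ℂ × ℂ => (π x.1, x.2)) (𝓝 (c, e0)) (𝓝 (π c, e0)) :=
    Continuous.continuousAt (f := fun x : Co P.w 2 × ℂ × ℂ => (π x.1, x.2)) (by fun_prop)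
  have t4 : ∀ᶠ m in 𝓝 c, π m ∈ Metric.ball (π c) s :=
    π.continuous.continuousAt.eventually (Metric.ball_mem_nhds _ hs)
  have t5 : Tendsto (fun x : Co P.w 2 × ℂ × ℂ => x.1) (𝓝 (c, e0)) (𝓝 c) :=
    continuous_fst.continuousAt
  obtain ⟨δ, hδ, D⟩ := Metric.eventually_nhds_iff_ball.1
    ((t3.eventually E).and (t5.eventually (hch.left.and t4)))
  replace D := fun m (hm : m ∈ Metric.ball c δ) v (hv : v ∈ Metric.ball e0 δ) =>
    D (m, v) (by rw [← ball_prod_same]; exact ⟨hm, hv⟩)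
  have D' : ∀ m ∈ Metric.ball c δ, m ∈ P.M 2 → ∀ v ∈ Metric.ball e0 δ,
      K (ev P.w 2 m v) = Φ (π m, v) := fun m hm hM v hv => by
    rw [(D m hm v hv).1]
    simp only [hg, (D m hm v hv).2.1 hM]
  refine ⟨K, δ, by simpa only [hg, hch.self, hy] using hK, hδ, fun m hM hm => ?_, ?_⟩
  · rw [← mem_ball_iff_norm] at hm
    obtain ⟨α, β, γ, e, -⟩ := hq _ (D m hm e0 (Metric.mem_ball_self hδ)).2.2
    exact ⟨α, β, γ, fun v hv => (D' m hm hM v (mem_ball_iff_norm.2 hv)).trans (e v)⟩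
  · filter_upwards [Metric.ball_mem_nhds c hδ] with m hm hM hy'
    obtain ⟨-, e1', e2⟩ := D m hm e0 (Metric.mem_ball_self hδ)
    have e3 := e1' hM
    have e4 := KFin_alg (f := fun v => k (g (π m, v)) ^ 2) (α := 0) (β := 0)
      (γ := P.θ y (fderiv ℂ (ev P.w 2 m) e0 e1) ^ 2) ha2 hs fun v hv => by
        have := (S _ e2 v hv).2.2.2
        simp only [e3] at this
        simp only [hg, e3, this hM hy']
        ring
    have t6 : ∀ᶠ t in 𝓝 (0 : ℂ), ((1 : ℂ), t) ∈ Metric.ball e0 δ :=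
      (Continuous.continuousAt (f := fun t : ℂ => ((1 : ℂ), t)) (by fun_prop)).eventually
        (Metric.ball_mem_nhds _ hδ)
    filter_upwards [t6] with t ht
    rw [D' m hm hM _ ht]
    refine (e4 (1, t)).trans ?_
    ring

end Vale.Agent.P292
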