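import Vale.Agent.P292.KGen20

/-! Pairs of lines with a second line which is not free sweep out a set of codimension two.
Hints for `bad_rank`: let `u` be the node, `A₁` the values at `e1` of the elements of `J 1 (l1 c)`
vanishing at `e0` (isotropic by `iso_J`, so `2 dim A₁ ≤ ρ`), `A` the span of `eul u` and of the
`uE δ`, `δ ∈ D`, `yE δ = 0`. Then `A ≤ A₁` (`exists_J_fderiv`, `ev_euler`). If `A = A₁`: for
`τ ∈ T u` take `ξ ∈ J 1 (l1 c)` with value `τ` at `e1`, `δ ∈ D` with `yE δ = ev ξ e0`; then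
`uE δ - τ ∈ A₁ = A`, so `τ` is a value at `e1` of an element of `J 1 (l2 c)`, and `l2 c` is free
(`free_of_freeAt`), a contradiction. So `dim A < dim A₁`. Apply `rank_lemma` to the space of all
`ξ ∈ J 1 (l2 c)` with value at `e1` in `A`, `p` and `q` the evaluations at `e1` and `e0`, and `v₀` the
field with value `eul u` at `e1` and `0` at `e0`. `exists_gen`: `Pre.regular` for
`S = {c | (c, 0) ∈ MQ}` and `yE`; for `y` regular stratify each fibre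
`{x ∈ O n | yE (φ n x) = y}` (`LocAn.holIm`) and use `small_crit` on each stratum with
`D` the range of the differential of `φ n`. -/

set_option maxSynthPendingDepth 3

open scoped Topology
open Set Filter Asymptotics

noncomputable section

namespace Vale.Agent.P292

variable {κ α : Type} [Fintype κ] [Fintype α] {P : Pre κ}

theorem KGen2_e0 : e0 ≠ 0 := fun h => one_ne_zero (congrArg Prod.fst h)

theorem KGen2_rank (G : P.Eqs α) {F F' : Type} [NormedAddCommGroup F] [NormedSpace ℂ F]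
    [NormedAddCommGroup F'] [NormedSpace ℂ F'] {φ : F → Co P.w 2} {ψ : F' → F} {x : F'}
    (hφ : DifferentiableAt ℂ φ (ψ x)) (hψ : DifferentiableAt ℂ ψ x)
    (hm : ∀ᶠ z in 𝓝 (ψ x), (φ z, (0 : ℂ)) ∈ P.MQ)
    (hy : ∀ᶠ z in 𝓝 x, evL P.w 2 e0 (φ (ψ z)) = evL P.w 2 e0 (φ (ψ x)))
    (h1 : P.Free 1 (l1 P.w (φ (ψ x)))) (h2 : ¬ P.Free 1 (l2 P.w (φ (ψ x))))
    (hs : P.T (evL P.w 2 e0 (φ (ψ x))) ≤ (fderiv ℂ (evL P.w 2 e0 ∘ φ) (ψ x)).range) :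
    Module.finrank ℂ (fderiv ℂ (evL P.w 2 e1 ∘ φ ∘ ψ) x).range ≤ P.ρ - 2 := by
  have key : ∀ {H : Type} [NormedAddCommGroup H] [NormedSpace ℂ H] (L : Co P.w 2 →L[ℂ] H) (h : F),
      fderiv ℂ (L ∘ φ) (ψ x) h = L (fderiv ℂ φ (ψ x) h) := fun L h => by
    rw [(L.hasFDerivAt.comp _ hφ.hasFDerivAt).fderiv]
    rfl
  have key' : ∀ (L : Co P.w 2 →L[ℂ] κ → ℂ) (k : F'), fderiv ℂ (L ∘ φ ∘ ψ) x k =
      L (fderiv ℂ φ (ψ x) (fderiv ℂ ψ x k)) := fun L k => by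
    rw [(L.hasFDerivAt.comp _ (hφ.hasFDerivAt.comp _ hψ.hasFDerivAt)).fderiv]
    rfl
  refine Pre.bad_rank G hm.self_of_nhds h1 h2 (fderiv ℂ φ (ψ x)).range ?_ ?_ _ ?_
  · rintro _ ⟨h, rfl⟩
    obtain ⟨L₁, hL₁⟩ := exists_l1L (w := P.w)
    obtain ⟨L₂, hL₂⟩ := exists_l2L (w := P.w)
    have a1 := Pre.tangent_J (φ := L₁ ∘ φ) (L₁.differentiableAt.comp _ hφ)
      (hm.mono fun z hz => by rw [Function.comp_apply, hL₁]; exact (Pre.mem_MQ_zero.1 hz).1) h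
    have a2 := Pre.tangent_J (φ := L₂ ∘ φ) (L₂.differentiableAt.comp _ hφ)
      (hm.mono fun z hz => by rw [Function.comp_apply, hL₂]; exact (Pre.mem_MQ_zero.1 hz).2) h
    rw [key, Function.comp_apply, hL₁, hL₁] at a1
    rw [key, Function.comp_apply, hL₂, hL₂] at a2
    exact ⟨a1, a2⟩
  · intro τ hτ
    rw [(yE_eq P.w_pos _)] at hτ
    obtain ⟨h, rfl⟩ := hs hτ
    exact ⟨_, ⟨h, rfl⟩, (yE_eq P.w_pos _).trans (key (evL P.w 2 e0) h).symm⟩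
  · rintro _ ⟨k, rfl⟩
    refine ⟨_, ⟨fderiv ℂ ψ x k, rfl⟩, (yE_eq P.w_pos _).trans ?_, (zE_eq P.w_pos _).trans (key' (evL P.w 2 e1) k).symm⟩
    refine (key' (evL P.w 2 e0) k).symm.trans ?_
    rw [EventuallyEq.fderiv_eq (f₁ := evL P.w 2 e0 ∘ φ ∘ ψ)
      (f := fun _ => evL P.w 2 e0 (φ (ψ x))) hy, fderiv_fun_const]
    rfl

theorem Pre.exists_gen (G : P.Eqs α) :
    ∃ 𝒩, Small (P.ρ - 1) 𝒩 ∧ ∀ y ∈ P.C, y ∉ 𝒩 → P.Gen y := by
  obtain ⟨N₁, s₁, f₁⟩ := Pre.exists_small_free G 1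
  obtain ⟨N₂, s₂, f₂⟩ := Pre.exists_small_free G 2
  have hS : HolIm (univ ∩ (fun c : Co P.w 2 => (c, (0 : ℂ))) ⁻¹' P.MQ) :=
    ((Pre.locAn_MQ G).preimage isOpen_univ fun c _ => analyticAt_id.prod analyticAt_const).holIm
  obtain ⟨N₃, d, O, φ, s₃, hO, hU, hT⟩ := P.regular hS (g := evL P.w 2 e0)
    (AnRel.of_analytic fun c _ => (evL P.w 2 e0).analyticAt c) fun c hc => by
      rw [evL_apply, ← (yE_eq P.w_pos _), (l1_ends _).1]
      exact (Pre.mem_MQ_zero.1 hc.2).1 e0 KGen2_e0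
  refine ⟨N₁ ∪ N₂ ∪ N₃, (s₁.union s₂).union s₃, fun y hy hn => ⟨hy,
    fun c hc e => f₁ c hc fun h => hn (Or.inl (Or.inl (e ▸ h))),
    fun c hc e => f₂ c hc fun h => hn (Or.inl (Or.inr (e ▸ h))), ?_⟩⟩
  have hm : ∀ n, ∀ x ∈ O n, (φ n x, (0 : ℂ)) ∈ P.MQ := fun n x hx =>
    (hU.ge (mem_iUnion.2 ⟨n, x, hx, rfl⟩)).2
  have hF : ∀ n, HolIm {x ∈ O n | evL P.w 2 e0 (φ n x) - y = 0} := fun n =>
    (holIm_of_isOpen (hO n).1).zero (AnRel.of_analytic fun x hx =>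
      (((evL P.w 2 e0).analyticAt _).comp ((hO n).2 x hx)).sub analyticAt_const)
  choose d' O' ψ hO' hU' using hF
  have hp : ∀ n m, ∀ x ∈ O' n m, ψ n m x ∈ O n ∧ evL P.w 2 e0 (φ n (ψ n m x)) = y :=
    fun n m x hx => by
      have := (hU' n).ge (mem_iUnion.2 ⟨m, x, hx, rfl⟩)
      exact ⟨this.1, sub_eq_zero.1 this.2⟩
  refine (Small.iUnion fun n => Small.iUnion fun m => small_crit (P.ρ - 2) (hO' n m).1
    (φ := evL P.w 2 e1 ∘ φ n ∘ ψ n m) fun x hx => ((evL P.w 2 e1).analyticAt _).comp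
      (((hO n).2 _ (hp n m x hx).1).comp ((hO' n m).2 x hx))).mono le_rfl ?_
  rintro z ⟨c, hc, q1, q2, hf⟩
  obtain ⟨n, x, hx, rfl⟩ := mem_iUnion.1 (hU.le ⟨mem_univ c, hc⟩)
  obtain ⟨m, x', hx', rfl⟩ := mem_iUnion.1 ((hU' n).le ⟨hx, sub_eq_zero.2 ((yE_eq P.w_pos _).symm.trans q1)⟩)
  refine mem_iUnion₂.2 ⟨n, m, x', ⟨hx', ?_⟩, (zE_eq P.w_pos _).symm.trans q2⟩
  refine KGen2_rank G ((hO n).2 _ hx).differentiableAt ((hO' n m).2 _ hx').differentiableAt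
    (mem_of_superset ((hO n).1.mem_nhds hx) (hm n))
    (mem_of_superset ((hO' n m).1.mem_nhds hx') fun z hz =>
      (hp n m z hz).2.trans (hp n m x' hx').2.symm)
    (f₁ _ (Pre.mem_MQ_zero.1 hc).1 fun h => hn (Or.inl (Or.inl ?_))) hf
    (hT n _ hx fun h => hn (Or.inr ((hp n m x' hx').2 ▸ h)))
  rwa [← (l1_ends _).1, q1] at h

end Vale.Agent.P292
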