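import Vale.Agent.P292.KGen1

/-! Pairs of lines with a second line which is not free sweep out a set of codimension two.
Hints for `bad_rank`: let `u` be the node, `A₁` the values at `e1` of the elements of `J 1 (l1 c)`
vanishing at `e0` (isotropic by `iso_J`, so `2 dim A₁ ≤ ρ`), `A` the span of `eul u` and of the
`uE δ`, `δ ∈ D`, `yE δ = 0`. Then `A ≤ A₁` (`exists_J_fderiv`, `ev_euler`). If `A = A₁`: for
`τ ∈ T u` take `ξ ∈ J 1 (l1 c)` with value `τ` at `e1`, `δ ∈ D` with `yE δ = ev ξ e0`; then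
`uE δ - τ ∈ A₁ = A`, so `τ` is a value at `e1` of an element of `J 1 (l2 c)`, and `l2 c` is free
(`free_of_freeAt`), a contradiction. So `dim A < dim A₁`. Apply `rank_lemma` to the space of all
`ξ ∈ J 1 (l2 c)` with value at `e1` in `A`, `p` and `q` the evaluations at `e1` and `e0`, and `v₀` the
field with value `eul u` at `e1` and `0` at `e0`. `exists_gen`: `Pre.regular` for
`S = {c | (c, 0) ∈ MQ}` and `yE`; for `y` regular stratify each fibre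
`{x ∈ O n | yE (φ n x) = y}` (`LocAn.holIm`) and use `small_crit` on each stratum with
`D` the range of the differential of `φ n`. -/

set_option maxSynthPendingDepth 3

open scoped Topology
open Set Filter Asymptotics

noncomputable section

namespace Vale.Agent.P292

variable {κ α : Type} [Fintype κ] [Fintype α] {P : Pre κ}

theorem KGen20_abs {W U X : Type} [AddCommGroup W] [Module ℂ W] [AddCommGroup U] [Module ℂ U]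
    [AddCommGroup X] [Module ℂ X] [FiniteDimensional ℂ W] [FiniteDimensional ℂ U]
    {J1 J2 : Submodule ℂ W} {T : Submodule ℂ U} {E0 E1 : W →ₗ[ℂ] U} {L1 L2 : X →ₗ[ℂ] W}
    {D : Submodule ℂ X} {R : Submodule ℂ U} {ρ : ℕ} (hL : ∀ δ, E1 (L1 δ) = E1 (L2 δ))
    (hD : ∀ δ ∈ D, L1 δ ∈ J1 ∧ L2 δ ∈ J2)
    (i1 : 2 * Module.finrank ℂ ((J1 ⊓ LinearMap.ker E0).map E1) ≤ ρ)
    (i2 : 2 * Module.finrank ℂ ((J2 ⊓ LinearMap.ker E1).map E0) ≤ ρ)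
    (f1 : ∀ τ ∈ T, ∃ ξ ∈ J1, E1 ξ = τ) (f2 : ¬ ∀ τ ∈ T, ∃ ξ ∈ J2, E1 ξ = τ)
    (hs : ∀ ξ ∈ J1, ∃ δ ∈ D, E0 (L1 δ) = E0 ξ) {v1 v2 : W} (a1 : v1 ∈ J1) (a2 : v2 ∈ J2)
    (b1 : E0 v1 = 0) (b2 : E0 v2 = 0) (c1 : E1 v1 = E1 v2) (c2 : E1 v2 ≠ 0)
    (hR : ∀ τ ∈ R, ∃ δ ∈ D, E0 (L1 δ) = 0 ∧ E0 (L2 δ) = τ) : Module.finrank ℂ R ≤ ρ - 2 := by
  set A1 := (J1 ⊓ LinearMap.ker E0).map E1 with hA1
  set A := A1 ⊓ J2.map E1 with hA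
  have hne : A ≠ A1 := by
    intro h
    apply f2
    intro τ hτ
    obtain ⟨ξ, hξ, rfl⟩ := f1 τ hτ
    obtain ⟨δ, hδ, e⟩ := hs ξ hξ
    have h1 : E1 (L1 δ - ξ) ∈ A1 :=
      ⟨_, ⟨sub_mem (hD δ hδ).1 hξ, by simp [LinearMap.mem_ker, e]⟩, rfl⟩
    rw [← h] at h1
    obtain ⟨η, hη, e'⟩ := h1.2
    refine ⟨L2 δ - η, sub_mem (hD δ hδ).2 hη, ?_⟩
    rw [map_sub, e', map_sub, hL]
    abel
  have hlt : Module.finrank ℂ A < Module.finrank ℂ A1 :=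
    Submodule.finrank_lt_finrank_of_lt (lt_of_le_of_ne inf_le_left hne)
  set V := J2 ⊓ A.comap E1 with hV
  have hv : v2 ∈ V := ⟨a2, ⟨v1, ⟨a1, b1⟩, c1⟩, v2, a2, rfl⟩
  have key := rank_lemma (E1.domRestrict V) (E0.domRestrict V) (v₀ := ⟨v2, hv⟩) c2 b2
  have k1 : Module.finrank ℂ R ≤ Module.finrank ℂ (LinearMap.range (E0.domRestrict V)) := by
    refine Submodule.finrank_mono fun τ hτ => ?_
    obtain ⟨δ, hδ, e, rfl⟩ := hR τ hτ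
    exact ⟨⟨L2 δ, (hD δ hδ).2, ⟨L1 δ, ⟨(hD δ hδ).1, e⟩, hL δ⟩, L2 δ, (hD δ hδ).2, rfl⟩, rfl⟩
  have k2 : Module.finrank ℂ (LinearMap.range (E1.domRestrict V)) ≤ Module.finrank ℂ A := by
    refine Submodule.finrank_mono ?_
    rintro _ ⟨x, rfl⟩
    exact x.2.2
  have k3 : Module.finrank ℂ ((LinearMap.ker (E1.domRestrict V)).map (E0.domRestrict V)) ≤
      Module.finrank ℂ ((J2 ⊓ LinearMap.ker E1).map E0) := by
    refine Submodule.finrank_mono ?_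
    rintro _ ⟨x, hx, rfl⟩
    exact ⟨x, ⟨x.2.1, hx⟩, rfl⟩
  omega

theorem KGen20_iso {c : Co P.w 1} (hc : c ∈ P.M 1) {a b : ℂ × ℂ} (ha : a ≠ 0) (hb : b ≠ 0) :
    2 * Module.finrank ℂ ((P.J 1 c ⊓ LinearMap.ker (evL P.w 1 a).toLinearMap).map
      (evL P.w 1 b).toLinearMap) ≤ P.ρ := by
  rw [← P.finrank_T (hc b hb)]
  refine isotropic_dim ?_ (P.om (ev P.w 1 c b)) (P.nondeg _ (hc b hb)) ?_
  · rintro _ ⟨x, hx, rfl⟩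
    exact hx.1 b hb
  · rintro _ ⟨x, hx, rfl⟩ _ ⟨y, hy, rfl⟩
    exact Pre.iso_J hc ha hx.1 hy.1 hx.2 hy.2 b hb

theorem KGen20_eul {c : Co P.w 1} (hc : c ∈ P.M 1) : ∃ v ∈ P.J 1 c, ev P.w 1 v e0 = 0 ∧
    ev P.w 1 v e1 = eul P.w (ev P.w 1 c e1) := by
  obtain ⟨δ, h, e⟩ := Pre.exists_J_fderiv hc e0 e1
  refine ⟨δ, h, ?_, ?_⟩
  · rw [e e0 (by simp [e0])]; simp [wg, e0]
  · rw [e e1 (by simp [e1]), ev_euler]; simp [wg, e0, e1]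

theorem Pre.bad_rank (G : P.Eqs α) {c : Co P.w 2} (hc : (c, (0 : ℂ)) ∈ P.MQ)
    (h1 : P.Free 1 (l1 P.w c)) (h2 : ¬ P.Free 1 (l2 P.w c)) (D : Submodule ℂ (Co P.w 2))
    (hD : ∀ δ ∈ D, l1 P.w δ ∈ P.J 1 (l1 P.w c) ∧ l2 P.w δ ∈ P.J 1 (l2 P.w c))
    (hs : ∀ τ ∈ P.T (yE P.w c), ∃ δ ∈ D, yE P.w δ = τ) (R : Submodule ℂ (κ → ℂ))
    (hR : ∀ τ ∈ R, ∃ δ ∈ D, yE P.w δ = 0 ∧ zE P.w δ = τ) : Module.finrank ℂ R ≤ P.ρ - 2 := by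
  have n0 : e0 ≠ 0 := by simp [e0]
  have n1 : e1 ≠ 0 := by simp [e1]
  obtain ⟨m1, m2⟩ := mem_MQ_zero.1 hc
  obtain ⟨L1, q1⟩ := exists_l1L (w := P.w)
  obtain ⟨L2, q2⟩ := exists_l2L (w := P.w)
  obtain ⟨v1, a1, b1, c1⟩ := KGen20_eul m1
  obtain ⟨v2, a2, b2, c2⟩ := KGen20_eul m2
  have s1 := fun δ => l1_ends (w := P.w) δ
  have s2 := fun δ => l2_ends (w := P.w) δ
  have hu : ev P.w 1 (l1 P.w c) e1 = ev P.w 1 (l2 P.w c) e1 := (s1 c).2.1.symm.trans (s2 c).2.1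
  refine KGen20_abs (J1 := P.J 1 (l1 P.w c)) (J2 := P.J 1 (l2 P.w c))
    (T := P.T (ev P.w 1 (l2 P.w c) e1)) (E0 := (evL P.w 1 e0).toLinearMap)
    (E1 := (evL P.w 1 e1).toLinearMap) (L1 := L1.toLinearMap) (L2 := L2.toLinearMap) (D := D)
    (v1 := v1) (v2 := v2) (fun δ => ?_) (fun δ hδ => ?_) (KGen20_iso m1 n0 n1)
    (KGen20_iso m2 n1 n0) (fun τ hτ => h1 e1 n1 τ (hu ▸ hτ))
    (fun h => h2 (Pre.free_of_freeAt G m2 n1 h)) (fun ξ hξ => ?_) a1 a2 b1 b2 ?_ ?_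
    (fun τ hτ => ?_)
  · show ev P.w 1 (L1 δ) e1 = ev P.w 1 (L2 δ) e1
    rw [q1, q2, ← (s1 δ).2.1, ← (s2 δ).2.1]
  · show L1 δ ∈ _ ∧ L2 δ ∈ _
    rw [q1, q2]
    exact hD δ hδ
  · obtain ⟨δ, hδ, e⟩ := hs (ev P.w 1 ξ e0) (by rw [(s1 c).1]; exact hξ e0 n0)
    refine ⟨δ, hδ, ?_⟩
    show ev P.w 1 (L1 δ) e0 = ev P.w 1 ξ e0
    rw [q1, ← (s1 δ).1, e]
  · show ev P.w 1 v1 e1 = ev P.w 1 v2 e1
    rw [c1, c2, hu]
  · show ev P.w 1 v2 e1 ≠ 0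
    rw [c2]
    exact eul_ne_zero P.w_pos fun h => P.zero_not (h ▸ m2 e1 n1)
  · obtain ⟨δ, hδ, e, e'⟩ := hR τ hτ
    refine ⟨δ, hδ, ?_, ?_⟩
    · show ev P.w 1 (L1 δ) e0 = 0
      rw [q1, ← (s1 δ).1, e]
    · show ev P.w 1 (L2 δ) e0 = τ
      rw [q2, ← (s2 δ).1, e']

end Vale.Agent.P292
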