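import Vale.Agent.P292.KBas
import Vale.Agent.P278F.Osg

/-! Homogeneous holomorphic functions on the punctured plane. Hints: `t ↦ g (1, t)` is entire and
equals `t ^ k g (t⁻¹, 1)` for `t ≠ 0`, so it grows at most like `‖t‖ ^ k`; generalized Liouville
theorem (induction with `dslope`, or Cauchy estimates and the Taylor series). On `v.1 = 0` use
continuity. `Jr.div`: each component is a binary form (or zero if the degree is negative) which
vanishes at `a`; divide by the linear form `wg a v` (change the parameter, or factor theorem);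
the tangency at the multiples of `a` follows by continuity since `P.T` is closed
(`Pre.mem_T_of_tendsto` is proved here from `P.loc`: near `p`, a vector `v` is tangent at `q` iff
`fderiv χ (π q) (π v) = v`). -/

set_option maxSynthPendingDepth 3

open scoped Topology
open Set Filter Asymptotics

noncomputable section

namespace Vale.Agent.P292

variable {κ : Type} [Fintype κ]

theorem KHom0_inv : Tendsto (fun t : ℂ => t⁻¹) (cocompact ℂ) (𝓝 0) := by
  rw [← Metric.cobounded_eq_cocompact]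
  exact tendsto_inv₀_cobounded

theorem KHom0_ne : ∀ᶠ t in cocompact ℂ, t ≠ 0 :=
  (isCompact_singleton (x := (0 : ℂ))).compl_mem_cocompact

theorem KHom0_liou (k : ℕ) : ∀ φ : ℂ → ℂ, Differentiable ℂ φ →
    Tendsto (fun t => φ t * t⁻¹ ^ k) (cocompact ℂ) (𝓝 0) →
      ∃ a : Fin k → ℂ, ∀ t, φ t = ∑ j, a j * t ^ (j : ℕ) := by
  induction k with
  | zero =>
    intro φ hφ h
    simp only [pow_zero, mul_one] at h
    exact ⟨Fin.elim0, fun t => by simpa using hφ.apply_eq_of_tendsto_cocompact t h⟩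
  | succ k ih =>
    intro φ hφ h
    have h1 : Differentiable ℂ (dslope φ 0) := differentiableOn_univ.1
      ((Complex.differentiableOn_dslope univ_mem).2 hφ.differentiableOn)
    have h2 := h.sub ((KHom0_inv.pow (k + 1)).const_mul (φ 0))
    rw [zero_pow k.succ_ne_zero, mul_zero, sub_zero] at h2
    obtain ⟨a, ha⟩ := ih _ h1 (h2.congr' (KHom0_ne.mono fun t ht => by
      simp only [dslope_of_ne φ ht, slope_def_field, sub_zero, div_eq_mul_inv]
      ring))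
    refine ⟨Fin.cons (φ 0) a, fun t => ?_⟩
    have h3 := sub_smul_dslope φ 0 t
    rw [sub_zero, ha, smul_eq_mul, Finset.mul_sum] at h3
    rw [Fin.sum_univ_succ, ← sub_eq_iff_eq_add', ← sub_eq_zero]
    simp only [Fin.cons_zero, Fin.val_zero, pow_zero, mul_one, Fin.cons_succ, Fin.val_succ, ← h3]
    rw [sub_eq_zero]
    exact Finset.sum_congr rfl fun j _ => by ring

theorem KHom0_at {F : Type} [NormedAddCommGroup F] [NormedSpace ℂ F] {g : ℂ × ℂ → F}
    (hd : DifferentiableOn ℂ g {0}ᶜ) {v : ℂ × ℂ} (hv : v ≠ 0) : DifferentiableAt ℂ g v :=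
  hd.differentiableAt (isOpen_compl_singleton.mem_nhds hv)

theorem KHom0_ent {g : ℂ × ℂ → ℂ} (hd : DifferentiableOn ℂ g {0}ᶜ) :
    Differentiable ℂ fun t : ℂ => g (1, t) := fun t =>
  (KHom0_at hd (v := (1, t)) fun h => one_ne_zero (congrArg Prod.fst h)).comp t
    (f := fun t : ℂ => ((1 : ℂ), t)) (by fun_prop)

theorem KHom0_lim {g : ℂ × ℂ → ℂ} (hd : DifferentiableOn ℂ g {0}ᶜ) :
    Tendsto (fun t : ℂ => g (t⁻¹, 1)) (cocompact ℂ) (𝓝 (g (0, 1))) :=
  (KHom0_at hd (v := (0, 1)) fun h => one_ne_zero (congrArg Prod.snd h)).continuousAt.tendsto.comp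
    (KHom0_inv.prodMk_nhds tendsto_const_nhds)

theorem KHom0_ext {g h : ℂ × ℂ → ℂ} (hg : DifferentiableOn ℂ g {0}ᶜ) (hh : Continuous h)
    (he : ∀ v : ℂ × ℂ, v.1 ≠ 0 → g v = h v) (v : ℂ × ℂ) (hv : v ≠ 0) : g v = h v := by
  by_cases h1 : v.1 = 0
  · have h2 : Tendsto (fun s : ℂ => (s, v.2)) (𝓝[≠] 0) (𝓝 v) := by
      rw [show v = (0, v.2) from Prod.ext h1 rfl]
      exact (tendsto_id.mono_left nhdsWithin_le_nhds).prodMk_nhds tendsto_const_nhds
    refine tendsto_nhds_unique_of_eventuallyEq ((KHom0_at hg hv).continuousAt.tendsto.comp h2)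
      ((hh.tendsto v).comp h2) ?_
    filter_upwards [self_mem_nhdsWithin] with s hs using he _ hs
  · exact he v h1

theorem KHom0_wg (a : ℂ × ℂ) : Differentiable ℂ (wg a) := by
  unfold wg
  fun_prop

theorem KHom0_one {t : ℂ} (ht : t ≠ 0) : ((1 : ℂ), t) = t • (t⁻¹, (1 : ℂ)) := by
  simp [ht]

theorem KHom0_two {v : ℂ × ℂ} (hv : v.1 ≠ 0) : v = v.1 • ((1 : ℂ), v.2 / v.1) := by
  ext
  · simp
  · simp [mul_div_cancel₀ _ hv]

theorem hom_poly {k : ℕ} {g : ℂ × ℂ → ℂ} (hd : DifferentiableOn ℂ g {0}ᶜ)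
    (hh : ∀ l : ℂ, l ≠ 0 → ∀ v, v ≠ 0 → g (l • v) = l ^ k * g v) :
    ∃ a : Fin (k + 1) → ℂ, ∀ v, v ≠ 0 → g v = ∑ j, a j * v.1 ^ (k - j) * v.2 ^ (j : ℕ) := by
  have h1 := (KHom0_lim hd).mul KHom0_inv
  rw [mul_zero] at h1
  obtain ⟨a, ha⟩ := KHom0_liou (k + 1) _ (KHom0_ent hd) (h1.congr' (KHom0_ne.mono fun t ht => by
    simp only [KHom0_one ht, hh t ht (t⁻¹, 1) fun h => one_ne_zero (congrArg Prod.snd h)]
    rw [pow_succ, inv_pow]
    field_simp))
  refine ⟨a, KHom0_ext hd (by fun_prop) fun v hv => ?_⟩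
  have h2 := hh v.1 hv (1, v.2 / v.1) fun h => one_ne_zero (congrArg Prod.fst h)
  rw [← KHom0_two hv, ha, Finset.mul_sum] at h2
  rw [h2]
  refine Finset.sum_congr rfl fun j _ => ?_
  rw [pow_sub₀ _ hv (Nat.lt_succ_iff.1 j.2), div_pow, div_eq_mul_inv]
  ring

theorem hom_neg {k : ℤ} (hk : k < 0) {g : ℂ × ℂ → ℂ} (hd : DifferentiableOn ℂ g {0}ᶜ)
    (hh : ∀ l : ℂ, l ≠ 0 → ∀ v, v ≠ 0 → g (l • v) = l ^ k * g v) : ∀ v, v ≠ 0 → g v = 0 := by
  obtain ⟨n, rfl⟩ : ∃ n : ℕ, k = -((n + 1 : ℕ) : ℤ) := ⟨(-k - 1).toNat, by omega⟩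
  have h1 := (KHom0_inv.pow (n + 1)).mul (KHom0_lim hd)
  rw [zero_pow n.succ_ne_zero, zero_mul] at h1
  have h2 := fun t => (KHom0_ent hd).apply_eq_of_tendsto_cocompact t
    (h1.congr' (KHom0_ne.mono fun t ht => by
      simp only [KHom0_one ht, hh t ht (t⁻¹, 1) fun h => one_ne_zero (congrArg Prod.snd h)]
      rw [zpow_neg, zpow_natCast, inv_pow]))
  refine KHom0_ext (h := fun _ => 0) hd continuous_const fun v hv => ?_
  have h3 := hh v.1 hv (1, v.2 / v.1) fun h => one_ne_zero (congrArg Prod.fst h)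
  rwa [← KHom0_two hv, h2, mul_zero] at h3

theorem exists_co {w : κ → ℕ} {d : ℕ} {f : ℂ × ℂ → κ → ℂ} (hd : DifferentiableOn ℂ f {0}ᶜ)
    (hh : ∀ l : ℂ, l ≠ 0 → ∀ v, v ≠ 0 → f (l • v) = act w (l ^ d) (f v)) :
    ∃ c : Co w d, ∀ v, v ≠ 0 → f v = ev w d c v := by
  choose c hc using fun i => hom_poly (k := d * w i) (g := fun v => f v i)
    (differentiableOn_pi.1 hd i) fun l hl v hv => by rw [hh l hl v hv, act_apply, pow_mul]
  exact ⟨c, fun v hv => funext fun i => hc i v hv⟩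

namespace Pre

variable {P : Pre κ} {d : ℕ} {c : Co P.w d}

theorem mem_T_of_tendsto {ι : Type} {l : Filter ι} [l.NeBot] {p v : ι → κ → ℂ} {p₀ v₀ : κ → ℂ}
    (hp₀ : p₀ ∈ P.C) (hp : Tendsto p l (𝓝 p₀)) (hv : Tendsto v l (𝓝 v₀))
    (hm : ∀ᶠ i in l, p i ∈ P.C ∧ v i ∈ P.T (p i)) : v₀ ∈ P.T p₀ := by
  obtain ⟨π, χ, ϑ, hχ, -, h1, h2⟩ := P.loc p₀ hp₀
  have h3 : Tendsto (fun i => π (p i)) l (𝓝 (π p₀)) := (π.continuous.tendsto p₀).comp hp
  have h4 : Tendsto (fun i => fderiv ℂ χ (π (p i)) (π (v i))) l (𝓝 (fderiv ℂ χ (π p₀) (π v₀))) :=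
    (isBoundedBilinearMap_apply.continuous.tendsto (fderiv ℂ χ (π p₀), π v₀)).comp
      ((hχ.fderiv.continuousAt.tendsto.comp h3).prodMk_nhds ((π.continuous.tendsto v₀).comp hv))
  have h5 : fderiv ℂ χ (π p₀) (π v₀) = v₀ := by
    refine tendsto_nhds_unique_of_eventuallyEq h4 hv ?_
    filter_upwards [hm, hp.eventually h2, h3.eventually h1.eventually_nhds,
      h3.eventually hχ.eventually_analyticAt] with i hi h6 h7 h8
    have h9 := h7.self_of_nhds.2.2
    rw [(h6 hi.1).1] at h9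
    obtain ⟨u, hu⟩ := h9 ▸ hi.2
    have h10 : π ∘ χ =ᶠ[𝓝 (π (p i))] id := h7.mono fun z hz => hz.2.1
    have h11 := (π.hasFDerivAt.comp _ h8.differentiableAt.hasFDerivAt).unique
      ((hasFDerivAt_id _).congr_of_eventuallyEq h10)
    have h12 : π (fderiv ℂ χ (π (p i)) u) = u := congrArg (fun L => L u) h11
    have h13 : fderiv ℂ χ (π (p i)) u = v i := hu
    rw [← h13, h12]
  have h6 := h1.self_of_nhds.2.2
  rw [(h2.self_of_nhds hp₀).1] at h6
  rw [h6]
  exact ⟨_, h5⟩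

theorem curve_ev (hc : c ∈ P.M d) : P.Curve d (ev P.w d c) :=
  ⟨fun v _ => (analytic_ev_right c v).differentiableAt.differentiableWithinAt,
    fun l _ v _ => ev_hom c l v, hc⟩

theorem Curve.exists_co {f : ℂ × ℂ → κ → ℂ} (h : P.Curve d f) :
    ∃ c ∈ P.M d, ∀ v, v ≠ 0 → f v = ev P.w d c v := by
  obtain ⟨c, hc⟩ := P292.exists_co h.diff h.hom
  exact ⟨c, fun v hv => hc v hv ▸ h.mem v hv, hc⟩

theorem Jr.exists_co {ξ : ℂ × ℂ → κ → ℂ} (h : P.Jr d 0 c ξ) :
    ∃ δ ∈ P.J d c, ∀ v, v ≠ 0 → ξ v = ev P.w d δ v := by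
  obtain ⟨δ, hδ⟩ := P292.exists_co h.diff fun l hl v hv => by
    rw [h.hom l hl v hv, zpow_zero, one_smul]
  exact ⟨δ, fun v hv => hδ v hv ▸ h.mem v hv, hδ⟩

theorem jr_of_mem {δ : Co P.w d} (h : δ ∈ P.J d c) : P.Jr d 0 c (ev P.w d δ) :=
  ⟨fun v _ => (analytic_ev_right δ v).differentiableAt.differentiableWithinAt,
    fun l _ v _ => by rw [ev_hom, zpow_zero, one_smul], h⟩

theorem jr_fderiv (hc : c ∈ P.M d) (e : ℂ × ℂ) :
    P.Jr d (-1) c fun v => fderiv ℂ (ev P.w d c) v e := by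
  refine ⟨fun v _ => ?_, fun l hl v _ => ?_, fun v hv => ?_⟩
  · exact ((analytic_dev e (c, v)).comp (f := fun v => (c, v))
      (analyticAt_const.prod analyticAt_id)).differentiableAt.differentiableWithinAt
  · rw [fderiv_ev_hom c hl, zpow_neg_one]
  · exact P.fderiv_mem (analytic_ev_right c v).differentiableAt
      ((eventually_ne_nhds hv).mono hc) e

theorem Jr.mul_lin {k : ℤ} {ξ : ℂ × ℂ → κ → ℂ} (h : P.Jr d k c ξ) (a : ℂ × ℂ) :
    P.Jr d (k + 1) c fun v => wg a v • ξ v := by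
  refine ⟨(KHom0_wg a).differentiableOn.smul h.diff, fun l hl v hv => ?_,
    fun v hv => Submodule.smul_mem _ _ (h.mem v hv)⟩
  rw [h.hom l hl v hv, map_smul, smul_smul, smul_smul, zpow_add_one₀ hl]
  congr 1
  simp only [wg, Prod.smul_fst, Prod.smul_snd, smul_eq_mul]
  ring

end Pre

end Vale.Agent.P292
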