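import Vale.Agent.P292.KIft0

/-! Submanifolds. Hints for `ift_star`: let `I` be the range of the differential, `pr` a projection
onto `I` and `π` a projection onto the kernel (identified with `Fin k → ℂ`). The map
`(pr 𝔾, π)` has invertible differential; inverse function theorem
(`HasStrictFDerivAt.toOpenPartialHomeomorph`, analytic inverse: `AnalyticAt.analyticAt_localInverse`
or `OpenPartialHomeomorph.contDiffAt_symm` with `ω`). Near `e`, `pr 𝔾 = 0` implies `𝔾 = 0`: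
otherwise normalize `𝔾 (x n)`, extract a limit `q` of norm one, in `I` by hypothesis, with
`pr q = 0`. `chart_of_bij`: invert `Λ ∘ ψ`. -/

set_option maxSynthPendingDepth 3

open scoped Topology
open Set Filter Asymptotics

noncomputable section

namespace Vale.Agent.P292

variable {E F B : Type} [NormedAddCommGroup E] [NormedSpace ℂ E] [FiniteDimensional ℂ E]
  [NormedAddCommGroup F] [NormedSpace ℂ F] [FiniteDimensional ℂ F]
  [NormedAddCommGroup B] [NormedSpace ℂ B] [FiniteDimensional ℂ B]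
  {Z Z' : Set E} {e : E} {T : Submodule ℂ E}

theorem kift_inv {f : E → B} (hf : AnalyticAt ℂ f e) (hs : ∀ b, ∃ t, fderiv ℂ f e t = b)
    (hi : ∀ t, fderiv ℂ f e t = 0 → t = 0) :
    ∃ g : B → E, AnalyticAt ℂ g (f e) ∧ (∀ᶠ x in 𝓝 e, g (f x) = x) ∧
      ∀ᶠ y in 𝓝 (f e), f (g y) = y := by
  have : CompleteSpace E := FiniteDimensional.complete ℂ E
  have : CompleteSpace B := FiniteDimensional.complete ℂ B
  let i : E ≃L[ℂ] B := ContinuousLinearEquiv.ofBijective (fderiv ℂ f e)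
    (LinearMap.ker_eq_bot'.2 hi) (LinearMap.range_eq_top.2 hs)
  have hfd : HasStrictFDerivAt f (i : E →L[ℂ] B) e := hf.hasStrictFDerivAt
  refine ⟨hfd.localInverse f i e, ?_, hfd.eventually_left_inverse, hfd.eventually_right_inverse⟩
  exact (hfd.toOpenPartialHomeomorph f).analyticAt_symm' hfd.mem_toOpenPartialHomeomorph_source
    hf (i := i) rfl

omit [FiniteDimensional ℂ B] in
theorem kift_compl (T : Submodule ℂ E) (Λ : E →L[ℂ] B) (hs : ∀ b, ∃ t ∈ T, Λ t = b) :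
    ∃ (k : ℕ) (Λ' : E →L[ℂ] Fin k → ℂ), (∀ b, ∃ t ∈ T, Λ.prod Λ' t = b) ∧
      ∀ t ∈ T, Λ.prod Λ' t = 0 → t = 0 := by
  set K : Submodule ℂ E := T ⊓ Λ.ker with hK
  let φ : K ≃ₗ[ℂ] Fin (Module.finrank ℂ K) → ℂ := (Module.finBasis ℂ K).equivFun
  obtain ⟨g, hg⟩ := LinearMap.exists_extend φ.toLinearMap
  have hg' : ∀ x : K, g x = φ x := fun x => LinearMap.congr_fun hg x
  refine ⟨_, LinearMap.toContinuousLinearMap g, fun b => ?_, fun t ht h0 => ?_⟩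
  · obtain ⟨t, ht, h1⟩ := hs b.1
    obtain ⟨x, hx⟩ := φ.surjective (b.2 - g t)
    refine ⟨t + x, add_mem ht x.2.1, Prod.ext ?_ ?_⟩
    · have h2 : Λ x = 0 := x.2.2
      show Λ (t + x) = b.1
      rw [map_add, h1, h2, add_zero]
    · show g (t + x) = b.2
      rw [map_add, hg', hx, add_sub_cancel]
  · have h1 : Λ t = 0 := congrArg Prod.fst h0
    have h2 : g t = 0 := congrArg Prod.snd h0
    have h3 := hg' ⟨t, ht, h1⟩
    have h4 : φ ⟨t, ht, h1⟩ = 0 := h3.symm.trans h2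
    exact congrArg Subtype.val (φ.map_eq_zero_iff.1 h4)

theorem MfdAt.chart_of_bij (h : MfdAt Z e T) (Λ : E →L[ℂ] B) (hs : ∀ b, ∃ t ∈ T, Λ t = b)
    (hi : ∀ t ∈ T, Λ t = 0 → t = 0) :
    ∃ ψ : B → E, Chart Z e Λ ψ ∧ (fderiv ℂ ψ (Λ e)).range = T := by
  obtain ⟨k, π, ψ0, hc, hT⟩ := h
  have hf : AnalyticAt ℂ (Λ ∘ ψ0) (π e) := (Λ.analyticAt _).comp hc.an
  have hd : fderiv ℂ (Λ ∘ ψ0) (π e) = Λ.comp (fderiv ℂ ψ0 (π e)) :=
    (Λ.hasFDerivAt.comp _ hc.an.differentiableAt.hasFDerivAt).fderiv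
  have he : (Λ ∘ ψ0) (π e) = Λ e := by rw [Function.comp_apply, hc.self]
  obtain ⟨g, hg, h1, h2⟩ := kift_inv hf (fun b => by
    obtain ⟨t, ht, hb⟩ := hs b
    rw [← hT] at ht
    obtain ⟨u, rfl⟩ := ht
    exact ⟨u, by rw [hd]; exact hb⟩) (fun u hu => by
    rw [hd] at hu
    have h3 := hi _ (hT ▸ ⟨u, rfl⟩) hu
    rw [← hc.comp_fderiv u]
    exact (congrArg π h3).trans (map_zero π))
  have hge : g (Λ e) = π e := by rw [← he]; exact h1.self_of_nhds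
  have hg' : AnalyticAt ℂ g (Λ e) := he ▸ hg
  have ha : AnalyticAt ℂ ψ0 (g (Λ e)) := hge ▸ hc.an
  have ht : Tendsto g (𝓝 (Λ e)) (𝓝 (π e)) := hge ▸ hg'.continuousAt
  refine ⟨ψ0 ∘ g, ⟨hc.mem, ha.comp hg', ?_, ?_⟩, ?_⟩
  · rw [he] at h2
    filter_upwards [ht.eventually hc.right, h2] with z hz hz'
    exact ⟨hz.1, hz'⟩
  · filter_upwards [hc.left, π.continuous.continuousAt.eventually h1] with x hx hx' hxZ
    have h3 := hx hxZ
    rw [Function.comp_apply, h3] at hx'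
    rw [Function.comp_apply, hx', h3]
  · have h3 : fderiv ℂ (ψ0 ∘ g) (Λ e) = (fderiv ℂ ψ0 (π e)).comp (fderiv ℂ g (Λ e)) := by
      rw [fderiv_comp _ ha.differentiableAt hg'.differentiableAt, hge]
    have h4 : (fderiv ℂ g (Λ e)).comp (fderiv ℂ (Λ ∘ ψ0) (π e)) = ContinuousLinearMap.id ℂ _ := by
      rw [← he, ← fderiv_comp _ hg.differentiableAt hf.differentiableAt, ← fderiv_id (x := π e)]
      exact Filter.EventuallyEq.fderiv_eq h1
    rw [h3, ← hT]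
    refine le_antisymm ?_ ?_
    · rintro _ ⟨b, rfl⟩
      exact ⟨_, rfl⟩
    · rintro _ ⟨u, rfl⟩
      refine ⟨fderiv ℂ (Λ ∘ ψ0) (π e) u, ?_⟩
      exact congrArg (fderiv ℂ ψ0 (π e)) (congrArg (fun A => A u) h4)

theorem MfdAt.prod_chart (h : MfdAt Z e T) (Λ : E →L[ℂ] B) (hs : ∀ b, ∃ t ∈ T, Λ t = b) :
    ∃ (k : ℕ) (Λ' : E →L[ℂ] Fin k → ℂ) (ψ : B × (Fin k → ℂ) → E), Chart Z e (Λ.prod Λ') ψ ∧
      (fderiv ℂ ψ (Λ e, Λ' e)).range = T := by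
  obtain ⟨k, Λ', h1, h2⟩ := kift_compl T Λ hs
  obtain ⟨ψ, h3, h4⟩ := h.chart_of_bij (Λ.prod Λ') h1 h2
  exact ⟨k, Λ', ψ, h3, h4⟩

variable {κ : Type} [Fintype κ]

theorem Pre.chart (P : Pre κ) {p : κ → ℂ} (hp : p ∈ P.C) :
    ∃ (π : (κ → ℂ) →L[ℂ] Fin P.ρ → ℂ) (χ : (Fin P.ρ → ℂ) → κ → ℂ), Chart P.C p π χ ∧
      ∀ᶠ q in 𝓝 p, q ∈ P.C → P.T q = (fderiv ℂ χ (π q)).range ∧
        (∀ b, ∃ τ ∈ P.T q, π τ = b) ∧ ∀ τ ∈ P.T q, π τ = 0 → τ = 0 := by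
  obtain ⟨π, χ, ϑ, h1, -, h2, h3⟩ := P.loc p hp
  have hc : Chart P.C p π χ :=
    ⟨hp, h1, h2.mono fun u hu => ⟨hu.1, hu.2.1⟩, h3.mono fun q hq hqC => (hq hqC).1⟩
  refine ⟨π, χ, hc, ?_⟩
  filter_upwards [hc.nearby, hc.left, π.continuous.continuousAt.eventually h2] with q h4 h5 h6 hq
  have h7 : P.T q = (fderiv ℂ χ (π q)).range := by
    have h8 := h6.2.2
    rwa [h5 hq] at h8
  refine ⟨h7, fun b => ⟨_, h7 ▸ ⟨b, rfl⟩, (h4 hq).comp_fderiv b⟩, fun τ hτ h0 => ?_⟩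
  rw [h7] at hτ
  obtain ⟨u, rfl⟩ := hτ
  have h8 : u = 0 := ((h4 hq).comp_fderiv u).symm.trans h0
  rw [h8, map_zero]

theorem Pre.exists_section (P : Pre κ) {g : E → κ → ℂ} (hg : AnalyticAt ℂ g e)
    (hC : ∀ᶠ x in 𝓝 e, g x ∈ P.C) (hs : P.T (g e) ≤ (fderiv ℂ g e).range) :
    ∃ σ : (κ → ℂ) → E, AnalyticAt ℂ σ (g e) ∧ σ (g e) = e ∧
      ∀ᶠ q in 𝓝 (g e), q ∈ P.C → g (σ q) = q := by
  obtain ⟨π, χ, hc, h1⟩ := P.chart hC.self_of_nhds
  obtain ⟨-, h2, -⟩ := h1.self_of_nhds hc.mem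
  obtain ⟨k, Λ', h3, h4⟩ := kift_compl (⊤ : Submodule ℂ E) (π.comp (fderiv ℂ g e)) fun b => by
    obtain ⟨τ, hτ, hb⟩ := h2 b
    obtain ⟨v, rfl⟩ := hs hτ
    exact ⟨v, trivial, hb⟩
  have hf : AnalyticAt ℂ (fun x => (π (g x), Λ' x)) e :=
    ((π.analyticAt _).comp hg).prod (Λ'.analyticAt e)
  have hd : fderiv ℂ (fun x => (π (g x), Λ' x)) e = (π.comp (fderiv ℂ g e)).prod Λ' :=
    ((π.hasFDerivAt.comp e hg.differentiableAt.hasFDerivAt).prodMk Λ'.hasFDerivAt).fderiv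
  obtain ⟨G, hG, h5, h6⟩ := kift_inv hf
    (fun b => (h3 b).imp fun t ht => by rw [hd]; exact ht.2)
    (fun t ht => h4 t trivial (by rw [← hd]; exact ht))
  have ha : AnalyticAt ℂ (fun q => (π q, Λ' e)) (g e) := (π.analyticAt _).prod analyticAt_const
  have hσ : AnalyticAt ℂ (fun q => G (π q, Λ' e)) (g e) :=
    AnalyticAt.comp (g := G) (f := fun q => (π q, Λ' e)) hG ha
  have he : G (π (g e), Λ' e) = e := h5.self_of_nhds
  have ht : Tendsto (fun q => G (π q, Λ' e)) (𝓝 (g e)) (𝓝 e) := by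
    have h7 := hσ.continuousAt
    rwa [ContinuousAt, he] at h7
  refine ⟨fun q => G (π q, Λ' e), hσ, he, ?_⟩
  filter_upwards [hc.left, ht.eventually hC, ht.eventually (hg.continuousAt.eventually hc.left),
    ha.continuousAt.eventually h6] with q h7 h8 h9 h10 hq
  have h11 : π (g (G (π q, Λ' e))) = π q := congrArg Prod.fst h10
  rw [← h9 h8, h11, h7 hq]

end Vale.Agent.P292
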