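import Vale.Agent.P292.KDefs

/-! Submanifolds. Hints for `ift_star`: let `I` be the range of the differential, `pr` a projection
onto `I` and `π` a projection onto the kernel (identified with `Fin k → ℂ`). The map
`(pr 𝔾, π)` has invertible differential; inverse function theorem
(`HasStrictFDerivAt.toOpenPartialHomeomorph`, analytic inverse: `AnalyticAt.analyticAt_localInverse`
or `OpenPartialHomeomorph.contDiffAt_symm` with `ω`). Near `e`, `pr 𝔾 = 0` implies `𝔾 = 0`: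
otherwise normalize `𝔾 (x n)`, extract a limit `q` of norm one, in `I` by hypothesis, with
`pr q = 0`. `chart_of_bij`: invert `Λ ∘ ψ`. -/

set_option maxSynthPendingDepth 3

open scoped Topology
open Set Filter Asymptotics

noncomputable section

namespace Vale.Agent.P292

variable {E F B : Type} [NormedAddCommGroup E] [NormedSpace ℂ E] [FiniteDimensional ℂ E]
  [NormedAddCommGroup F] [NormedSpace ℂ F] [FiniteDimensional ℂ F]
  [NormedAddCommGroup B] [NormedSpace ℂ B] [FiniteDimensional ℂ B]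
  {Z Z' : Set E} {e : E} {T : Submodule ℂ E}

theorem KIft0_inv {Φ : E → B} {L : E ≃L[ℂ] B} (h : AnalyticAt ℂ Φ e)
    (hL : HasFDerivAt Φ (L : E →L[ℂ] B) e) : ∃ g : B → E, AnalyticAt ℂ g (Φ e) ∧ g (Φ e) = e ∧
      HasFDerivAt g (L.symm : B →L[ℂ] E) (Φ e) ∧ (∀ᶠ x in 𝓝 e, g (Φ x) = x) ∧
      ∀ᶠ y in 𝓝 (Φ e), Φ (g y) = y := by
  have := FiniteDimensional.complete ℂ E
  have hc : ContDiffAt ℂ ⊤ Φ e := h.contDiffAt
  have hs := hc.hasStrictFDerivAt' hL (by simp)
  exact ⟨hc.localInverse hL (by simp), (hc.to_localInverse hL (by simp)).analyticAt,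
    hs.localInverse_apply_image, hs.to_localInverse.hasFDerivAt, hs.eventually_left_inverse,
    hs.eventually_right_inverse⟩

omit [FiniteDimensional ℂ E] [NormedSpace ℂ E] in
theorem KIft0_key {𝔾 : E → F} {I : Submodule ℂ F} {pr : F →L[ℂ] I} (hpr : ∀ q : I, pr q = q)
    (hs : ∀ (x : ℕ → E) (c : ℕ → ℂ) (q : F), Tendsto x atTop (𝓝 e) →
      Tendsto (fun n => c n • 𝔾 (x n)) atTop (𝓝 q) → q ∈ I) :
    ∀ᶠ x in 𝓝 e, pr (𝔾 x) = 0 → 𝔾 x = 0 := by
  have := FiniteDimensional.proper ℂ F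
  by_contra hcon
  rw [not_eventually] at hcon
  obtain ⟨x, hx, hx'⟩ := exists_seq_forall_of_frequently hcon
  have h1 : ∀ n, pr (𝔾 (x n)) = 0 := fun n => (Classical.not_imp.1 (hx' n)).1
  have h2 : ∀ n, 𝔾 (x n) ≠ 0 := fun n => (Classical.not_imp.1 (hx' n)).2
  obtain ⟨q, hq, φ, hφ, hlim⟩ := (isCompact_sphere (0 : F) 1).tendsto_subseq
    (x := fun n => ((‖𝔾 (x n)‖⁻¹ : ℝ) : ℂ) • 𝔾 (x n)) (fun n => by
      rw [mem_sphere_zero_iff_norm, norm_smul, Complex.norm_real, norm_inv, norm_norm,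
        inv_mul_cancel₀ (norm_ne_zero_iff.2 (h2 n))])
  have hqI := hs (fun n => x (φ n)) _ q (hx.comp hφ.tendsto_atTop) hlim
  have h3 := (pr.continuous.tendsto q).comp hlim
  have h4 : (pr ∘ (fun n => ((‖𝔾 (x n)‖⁻¹ : ℝ) : ℂ) • 𝔾 (x n)) ∘ φ) = fun _ => 0 := by
    funext n
    simp only [Function.comp, map_smul, h1, smul_zero]
  rw [h4] at h3
  have h5 : pr q = 0 := tendsto_nhds_unique h3 tendsto_const_nhds
  have h6 : q = 0 := congrArg Subtype.val ((hpr ⟨q, hqI⟩).symm.trans h5)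
  rw [h6, mem_sphere_zero_iff_norm, norm_zero] at hq
  exact zero_ne_one hq

theorem ift_star {𝔾 : E → F} (h : AnalyticAt ℂ 𝔾 e) (h0 : 𝔾 e = 0)
    (hs : ∀ (x : ℕ → E) (c : ℕ → ℂ) (q : F), Tendsto x atTop (𝓝 e) →
      Tendsto (fun n => c n • 𝔾 (x n)) atTop (𝓝 q) → q ∈ (fderiv ℂ 𝔾 e).range) :
    MfdAt {x | 𝔾 x = 0} e (fderiv ℂ 𝔾 e).ker := by
  set D := fderiv ℂ 𝔾 e with hD
  obtain ⟨pr0, hpr0⟩ := D.range.subtype.exists_leftInverse_of_injective (Submodule.ker_subtype _)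
  obtain ⟨π0, hπ0⟩ := D.ker.subtype.exists_leftInverse_of_injective (Submodule.ker_subtype _)
  have hpr : ∀ q : D.range, pr0 q = q := fun q => LinearMap.congr_fun hpr0 q
  have hπ : ∀ q : D.ker, π0 q = q := fun q => LinearMap.congr_fun hπ0 q
  let b := (Module.finBasis ℂ D.ker).equivFun
  let pr : F →L[ℂ] D.range := LinearMap.toContinuousLinearMap pr0
  let π : E →L[ℂ] Fin (Module.finrank ℂ D.ker) → ℂ :=
    LinearMap.toContinuousLinearMap (b.toLinearMap.comp π0)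
  have hker : ∀ v, pr0 (D v) = 0 → v ∈ D.ker := fun v hv =>
    congrArg Subtype.val ((hpr ⟨D v, v, rfl⟩).symm.trans hv)
  let L0 : E →L[ℂ] D.range × (Fin (Module.finrank ℂ D.ker) → ℂ) := (pr.comp D).prod π
  have hinj : Function.Injective L0 := by
    refine (injective_iff_map_eq_zero L0).2 fun v hv => ?_
    have h1 : pr0 (D v) = 0 := congrArg Prod.fst hv
    have h2 : b (π0 v) = 0 := congrArg Prod.snd hv
    have h3 : π0 v = 0 := b.map_eq_zero_iff.1 h2
    exact congrArg Subtype.val ((hπ ⟨v, hker v h1⟩).symm.trans h3)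
  have hsurj : Function.Surjective L0 := by
    rintro ⟨⟨_, v, rfl⟩, z⟩
    refine ⟨v + (b.symm z - π0 v : D.ker), Prod.ext ?_ ?_⟩
    · show pr0 (D (v + (b.symm z - π0 v : D.ker))) = _
      have h1 : D (b.symm z - π0 v : D.ker) = 0 := (b.symm z - π0 v).2
      rw [map_add, h1, add_zero]
      exact hpr ⟨D v, v, rfl⟩
    · show b (π0 (v + (b.symm z - π0 v : D.ker))) = z
      rw [map_add, hπ, add_sub_cancel, b.apply_symm_apply]
  let L := (LinearEquiv.ofBijective L0.toLinearMap ⟨hinj, hsurj⟩).toContinuousLinearEquiv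
  have hΦ : AnalyticAt ℂ (fun x => (pr (𝔾 x), π x)) e :=
    ((pr.analyticAt _).comp h).prod (π.analyticAt e)
  have hL : HasFDerivAt (fun x => (pr (𝔾 x), π x)) (L : E →L[ℂ] _) e :=
    (pr.hasFDerivAt.comp e h.differentiableAt.hasFDerivAt).prodMk π.hasFDerivAt
  obtain ⟨g, g1, g2, g3, g4, g5⟩ := KIft0_inv hΦ hL
  rw [h0, map_zero] at g1 g2 g3 g5
  have hkey := KIft0_key (pr := pr) hpr hs
  have hi : AnalyticAt ℂ (fun z : Fin (Module.finrank ℂ D.ker) → ℂ => ((0 : D.range), z)) (π e) :=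
    analyticAt_const.prod analyticAt_id
  have hψ : AnalyticAt ℂ (fun z => g (0, z)) (π e) := g1.comp_of_eq hi rfl
  refine ⟨_, π, fun z => g (0, z), ⟨h0, hψ, ?_, ?_⟩, ?_⟩
  · have ht : Tendsto (fun z => g (0, z)) (𝓝 (π e)) (𝓝 e) := by
      have := hψ.continuousAt.tendsto
      rwa [g2] at this
    filter_upwards [hi.continuousAt.tendsto.eventually g5, ht.eventually hkey] with z h1 h2
    exact ⟨h2 (congrArg Prod.fst h1), congrArg Prod.snd h1⟩
  · filter_upwards [g4] with x hx hx0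
    have h1 : 𝔾 x = 0 := hx0
    rwa [h1, map_zero] at hx
  · have h1 := g3.comp (π e) (hasFDerivAt_prodMk_right (0 : D.range) (π e))
    have h2 : fderiv ℂ (fun z => g (0, z)) (π e) = _ := h1.fderiv
    rw [h2]
    ext v
    constructor
    · rintro ⟨z, rfl⟩
      exact hker _ (congrArg Prod.fst (L.apply_symm_apply (0, z)))
    · intro hv
      refine ⟨π v, L.symm_apply_eq.2 (Prod.ext ?_ rfl)⟩
      have h3 : D v = 0 := hv
      show 0 = pr0 (D v)
      rw [h3, map_zero]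

omit [FiniteDimensional ℂ E] [FiniteDimensional ℂ B] in
theorem Chart.self {π : E →L[ℂ] B} {ψ : B → E} (h : Chart Z e π ψ) : ψ (π e) = e :=
  h.left.self_of_nhds h.mem

omit [FiniteDimensional ℂ E] [FiniteDimensional ℂ B] in
theorem Chart.tendsto {π : E →L[ℂ] B} {ψ : B → E} (h : Chart Z e π ψ) :
    Tendsto ψ (𝓝 (π e)) (𝓝 e) := by
  have := h.an.continuousAt.tendsto
  rwa [h.self] at this

omit [FiniteDimensional ℂ E] in
theorem MfdAt.congr (h : MfdAt Z e T) (hZ : ∀ᶠ x in 𝓝 e, x ∈ Z ↔ x ∈ Z') : MfdAt Z' e T := by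
  obtain ⟨k, π, ψ, hc, hT⟩ := h
  refine ⟨k, π, ψ, ⟨hZ.self_of_nhds.1 hc.mem, hc.an, ?_, ?_⟩, hT⟩
  · filter_upwards [hc.right, hc.tendsto.eventually hZ] with z h1 h2
    exact ⟨h2.1 h1.1, h1.2⟩
  · filter_upwards [hc.left, hZ] with x h1 h2 hx
    exact h1 (h2.2 hx)

theorem Chart.nearby {π : E →L[ℂ] B} {ψ : B → E} (h : Chart Z e π ψ) :
    ∀ᶠ x in 𝓝 e, x ∈ Z → Chart Z x π ψ := by
  have := FiniteDimensional.complete ℂ E
  have ht := π.continuous.tendsto e
  filter_upwards [ht.eventually h.an.eventually_analyticAt, ht.eventually h.right.eventually_nhds,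
    h.left.eventually_nhds] with x h1 h2 h3 hx
  exact ⟨hx, h1, h2, h3⟩

omit [FiniteDimensional ℂ E] [FiniteDimensional ℂ B] in
theorem Chart.comp_fderiv {π : E →L[ℂ] B} {ψ : B → E} (h : Chart Z e π ψ) (b : B) :
    π (fderiv ℂ ψ (π e) b) = b := by
  have h1 := π.hasFDerivAt.comp (π e) h.an.differentiableAt.hasFDerivAt
  have h2 : (π ∘ ψ) =ᶠ[𝓝 (π e)] id := h.right.mono fun z hz => hz.2
  have h3 := h1.unique ((hasFDerivAt_id (π e)).congr_of_eventuallyEq h2)
  exact congrArg (fun L : B →L[ℂ] B => L b) h3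

end Vale.Agent.P292
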