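import Vale.Agent.P292.KVf
import Vale.Agent.P292.KMfd

/-! The two-jet at the base point. Hints: chart `π`, `χ` of the cone at `y`, `k = K ∘ χ`. Product chart
`ψ (b, τ)` of `M 2` over `Λ = π ∘ ev e0`; the map `τ ↦ π (D (ev (ψ (π y, τ))) e0 e1)` is a
submersion at the base point (`VF.deriv`), so its image is a neighbourhood `N`
(`HasStrictFDerivAt.map_nhds_eq_of_surj`). For `m = ψ (π y, τ)` differentiate
`k (π (ev m (1, t))) = t ^ 2 θ ^ 2` twice: `k (π y) = 0`, `D k (π y) = 0` on `N`, so everywhere, and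
`D² k (n, n) = 2 θ (D χ n) ^ 2` on `N`, so everywhere (identity theorem). Then Taylor's formula
for `k` and `π (γ t) - π y = t π τ + o(t)`, `τ = D χ (π τ)`. -/

set_option maxSynthPendingDepth 3

open scoped Topology
open Set Filter Asymptotics

noncomputable section

namespace Vale.Agent.P292

section

variable {E H : Type} [NormedAddCommGroup E] [NormedSpace ℂ E] [NormedAddCommGroup H]
  [NormedSpace ℂ H]

/-- Taylor's formula along a curve -/
theorem KJet_taylor {k : E → ℂ} {b n : E} {p : FormalMultilinearSeries ℂ E ℂ}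
    (hp : HasFPowerSeriesAt k p b) (h0 : k b = 0) (h1 : fderiv ℂ k b = 0) {g : ℝ → E}
    (hb : g 0 = b) (hg : HasDerivAt g n 0) :
    (fun t : ℝ => k (g t) - (t : ℂ) ^ 2 * p 2 fun _ => n) =o[𝓝 0] fun t : ℝ => t ^ 2 := by
  have hu : Tendsto (dslope g 0) (𝓝 0) (𝓝 n) := by
    have := continuousAt_dslope_same.2 hg.differentiableAt
    rwa [ContinuousAt, dslope_same, hg.deriv] at this
  have e : ∀ t : ℝ, g t = b + t • dslope g 0 t := fun t => by
    have := sub_smul_dslope g 0 t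
    rw [sub_zero] at this
    rw [this, hb, add_sub_cancel]
  have h2 : Tendsto (fun t : ℝ => t • dslope g 0 t) (𝓝 0) (𝓝 0) := by
    simpa using (tendsto_id (x := 𝓝 (0 : ℝ))).smul hu
  have h3 : (fun t : ℝ => t • dslope g 0 t) =O[𝓝 0] fun t : ℝ => t := by
    simpa using (isBigO_refl (fun t : ℝ => t) (𝓝 0)).smul (hu.isBigO_one ℝ)
  have h4 := (((hp.isBigO_sub_partialSum_pow 3).comp_tendsto h2).trans
    (h3.norm_left.pow 3)).trans_isLittleO (isLittleO_pow_pow (𝕜 := ℝ) (show 2 < 3 by norm_num))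
  have h5 : Tendsto (fun t => p 2 (fun _ => dslope g 0 t) - p 2 fun _ => n) (𝓝 0) (𝓝 0) :=
    tendsto_sub_nhds_zero_iff.2 (((p 2).cont.tendsto _).comp (tendsto_pi_nhds.2 fun _ => hu))
  have h6 := (isBigO_refl (fun t : ℝ => t ^ 2) (𝓝 0)).smul_isLittleO
    ((isLittleO_one_iff ℝ).2 h5)
  refine (h4.add (h6.congr_right fun t => mul_one _)).congr_left fun t => ?_
  have e1 : p 1 (fun _ => t • dslope g 0 t) = 0 := by
    have := DFunLike.congr_fun (hp.fderiv_eq.symm.trans h1) (t • dslope g 0 t)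
    rwa [continuousMultilinearCurryFin1_apply, Fin.snoc_zero] at this
  have e2 : p 2 (fun _ => t • dslope g 0 t) = (t : ℂ) ^ 2 * p 2 fun _ => dslope g 0 t := by
    rw [← Complex.coe_smul, (p 2).map_smul_univ fun _ => (t : ℂ)]
    simp
  simp only [Function.comp_apply, FormalMultilinearSeries.partialSum, Finset.sum_range_succ,
    Finset.sum_range_zero, hp.coeff_zero, h0, e1, e2, ← e, Complex.real_smul]
  push_cast
  ring

theorem KJet_main {k : E → ℂ} {b n₀ n : E} (hk : AnalyticAt ℂ k b) (A : E →L[ℂ] ℂ)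
    (h : ∀ᶠ n in 𝓝 n₀, ∃ g : ℝ → E, g 0 = b ∧ HasDerivAt g n 0 ∧
      ∀ᶠ t : ℝ in 𝓝 0, k (g t) = (t : ℂ) ^ 2 * A n ^ 2) {g : ℝ → E}
    (hb : g 0 = b) (hg : HasDerivAt g n 0) :
    (fun t : ℝ => k (g t) - (t : ℂ) ^ 2 * A n ^ 2) =o[𝓝 0] fun t : ℝ => t ^ 2 := by
  have h0 : k b = 0 := by
    obtain ⟨g, h1, -, h2⟩ := h.self_of_nhds
    simpa [h1] using h2.self_of_nhds
  have h1 : fderiv ℂ k b = 0 := by
    refine DFunLike.coe_injective (AnalyticOnNhd.eq_of_eventuallyEq (z₀ := n₀)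
      (fun x _ => (fderiv ℂ k b).analyticAt x) (fun x _ => (0 : E →L[ℂ] ℂ).analyticAt x) ?_)
    filter_upwards [h] with n ⟨g, h1, h2, h3⟩
    have h4 := (hk.differentiableAt.hasFDerivAt.restrictScalars ℝ).comp_hasDerivAt_of_eq 0 h2
      h1.symm
    have h5 : HasDerivAt (fun t : ℝ => (t : ℂ) ^ 2 * A n ^ 2) 0 0 := by
      simpa using (((hasDerivAt_id (0 : ℝ)).ofReal_comp).fun_pow 2).mul_const (A n ^ 2)
    exact h4.unique (h5.congr_of_eventuallyEq h3)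
  obtain ⟨p, hp⟩ := hk
  have h2 : (fun n => p 2 fun _ => n) = fun n => A n ^ 2 := by
    refine AnalyticOnNhd.eq_of_eventuallyEq (z₀ := n₀) (fun x _ => (p 2).analyticAt.comp
      (AnalyticAt.pi fun _ => analyticAt_id)) (fun x _ => (A.analyticAt x).pow 2) ?_
    filter_upwards [h] with n ⟨g, h2, h3, h4⟩
    have h5 := ((KJet_taylor hp h0 h1 h2 h3).congr'
      (f₂ := fun t : ℝ => (t : ℂ) ^ 2 * (A n ^ 2 - p 2 fun _ => n)) (h4.mono fun t ht => by
      simp only [ht, mul_sub]) EventuallyEq.rfl).mono (nhdsWithin_le_nhds (s := {0}ᶜ))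
    by_contra hne
    have h6 := norm_pos_iff.2 (sub_ne_zero.2 (Ne.symm hne))
    obtain ⟨t, h7, h8⟩ := ((h5.def (half_pos h6)).and self_mem_nhdsWithin).exists
    have h9 : 0 < |t| ^ 2 := pow_pos (abs_pos.2 h8) 2
    rw [norm_mul, norm_pow, norm_pow, Complex.norm_real, Real.norm_eq_abs] at h7
    nlinarith
  rw [← congrFun h2 n]
  exact KJet_taylor hp h0 h1 hb hg

theorem KJet_curve {Z : Set E} {y τ : E} {π : E →L[ℂ] H} {χ : H → E} (h : Chart Z y π χ)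
    {γ : ℝ → E} (h0 : γ 0 = y) (hC : ∀ᶠ t in 𝓝 (0 : ℝ), γ t ∈ Z) (hγ : HasDerivAt γ τ 0) :
    (∀ᶠ t in 𝓝 (0 : ℝ), χ (π (γ t)) = γ t) ∧ HasDerivAt (fun t => π (γ t)) (π τ) 0 ∧
      fderiv ℂ χ (π y) (π τ) = τ := by
  subst h0
  have h1 : ∀ᶠ t in 𝓝 (0 : ℝ), χ (π (γ t)) = γ t := by
    filter_upwards [hγ.continuousAt.eventually h.left, hC] with t h1 h2 using h1 h2
  have h2 : HasDerivAt (fun t => π (γ t)) (π τ) 0 :=
    (π.hasFDerivAt.restrictScalars ℝ).comp_hasDerivAt 0 hγ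
  exact ⟨h1, h2, ((h.an.differentiableAt.hasFDerivAt.restrictScalars ℝ).comp_hasDerivAt 0
    h2).unique (hγ.congr_of_eventuallyEq h1)⟩

end

variable {κ α : Type} [Fintype κ] [Fintype α] {P : Pre κ}

theorem Pre.two_jet (G : P.Eqs α) {c : Co P.w 2} (hc : c ∈ P.M 2) (hv : P.VF c) {y : κ → ℂ}
    (hy : ev P.w 2 c e0 = y) {K : (κ → ℂ) → ℂ} (hK : AnalyticAt ℂ K y)
    (h : ∀ᶠ m in 𝓝 c, m ∈ P.M 2 → ev P.w 2 m e0 = y → ∀ᶠ t in 𝓝 (0 : ℂ),
      K (ev P.w 2 m (1, t)) = t ^ 2 * P.θ y (fderiv ℂ (ev P.w 2 m) e0 e1) ^ 2)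
    (γ : ℝ → κ → ℂ) (τ : κ → ℂ) (h0 : γ 0 = y) (hC : ∀ᶠ t in 𝓝 (0 : ℝ), γ t ∈ P.C)
    (hγ : HasDerivAt γ τ 0) :
    (fun t : ℝ => K (γ t) - (t : ℂ) ^ 2 * P.θ y τ ^ 2) =o[𝓝 0] fun t : ℝ => t ^ 2 := by
  have he : (e0 : ℂ × ℂ) ≠ 0 := by simp [e0]
  obtain ⟨π, χ, hch, hT⟩ := P.chart (hy ▸ hc e0 he : y ∈ P.C)
  obtain ⟨-, hs, -⟩ := hT.self_of_nhds hch.mem
  obtain ⟨L, hL⟩ := exists_devL (w := P.w) (d := 2) e0 e1
  obtain ⟨r, Λ, ψ, hψ, hJ⟩ := (mfd_M G hc (hv.free G hc)).prod_chart (π.comp (evL P.w 2 e0))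
    fun b => by
      obtain ⟨a, h1, h2⟩ := hs b
      obtain ⟨δ, h3, h4, -⟩ := hv a (hy ▸ h1) 0 (zero_mem _)
      exact ⟨δ, h3, (congrArg π h4).trans h2⟩
  have e : ((π.comp (evL P.w 2 e0)).prod Λ) c = (π y, Λ c) := by rw [← hy]; rfl
  have e' : (π.comp (evL P.w 2 e0)) c = π y := congrArg Prod.fst e
  have a1 := hψ.an
  have a2 := hψ.right
  have a3 := hψ.tendsto
  have a4 := hψ.comp_fderiv
  rw [e] at a1 a2 a3 a4
  rw [e'] at hJ
  have hφ := (π.comp L).hasStrictFDerivAt.comp (Λ c)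
    (a1.hasStrictFDerivAt.comp (Λ c) ((hasStrictFDerivAt_const (π y) (Λ c)).prodMk
      (hasStrictFDerivAt_id (Λ c))))
  have hm := hφ.map_nhds_eq_of_surj (LinearMap.range_eq_top.2 fun b => by
    obtain ⟨a, h1, h2⟩ := hs b
    obtain ⟨δ, h3, h4, h5⟩ := hv.deriv G hc (hy ▸ h1)
    obtain ⟨u, rfl⟩ := hJ ▸ h3
    have h6 : u.1 = 0 := by
      rw [← a4 u]
      exact (congrArg π h4).trans (map_zero π)
    refine ⟨u.2, ?_⟩
    rw [← h2, ← h5, ← hL]
    exact congrArg (fun v => π (L (fderiv ℂ ψ (π y, Λ c) v))) (Prod.ext h6.symm rfl))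
  obtain ⟨b1, b2, b3⟩ := KJet_curve hch h0 hC hγ
  have hk : AnalyticAt ℂ (fun b => K (χ b)) (π y) := hK.comp_of_eq hch.an hch.self
  refine (KJet_main hk ((P.θ y).comp (fderiv ℂ χ (π y))) (hm ▸ eventually_map.2 ?_)
    (congrArg π h0) b2).congr' (b1.mono fun t ht => ?_) EventuallyEq.rfl
  · simp only [ht, ContinuousLinearMap.comp_apply, b3]
  · have t1 : Tendsto (fun s => (π y, s)) (𝓝 (Λ c)) (𝓝 (π y, Λ c)) :=
      tendsto_const_nhds.prodMk_nhds tendsto_id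
    have t2 : Tendsto (evL P.w 2 e0) (𝓝 c) (𝓝 y) := (evL P.w 2 e0).continuous.tendsto' c y hy
    filter_upwards [t1.eventually a2, (a3.comp t1).eventually h,
      (t2.comp (a3.comp t1)).eventually hch.left] with s ⟨k1, k2⟩ k3 k4
    have k5 : ev P.w 2 (ψ (π y, s)) e0 = y := by
      refine (k4 (k1 e0 he)).symm.trans (Eq.trans (congrArg χ ?_) hch.self)
      exact congrArg Prod.fst k2
    have k6 : HasDerivAt (fun t : ℝ => ev P.w 2 (ψ (π y, s)) (1, t)) (L (ψ (π y, s))) 0 := by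
      rw [hL]
      exact ((analytic_ev_right _ e0).differentiableAt.hasFDerivAt.restrictScalars
        ℝ).comp_hasDerivAt_of_eq 0
        ((hasDerivAt_const (0 : ℝ) (1 : ℂ)).prodMk (hasDerivAt_id (0 : ℝ)).ofReal_comp) rfl
    obtain ⟨c1, c2, c3⟩ := KJet_curve hch k5
      (Eventually.of_forall fun t => k1 _ (by simp)) k6
    refine ⟨_, congrArg π k5, c2, ?_⟩
    filter_upwards [c1, (Complex.continuous_ofReal.tendsto' 0 0 rfl).eventually (k3 k1 k5)]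
      with t d1 d2
    rw [d1]
    simp only [ContinuousLinearMap.comp_apply, c3]
    rw [hL]
    exact d2

end Vale.Agent.P292
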