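import Vale.Agent.P292.KGam

/-! Every branch of the Hamiltonian is linear on every line. Hints: for fixed `e` the set `T` of all
values `om (ev c v) (D (ev c) v e) V` with `v ≠ 0`, `(ev c v, V) ∈ Gam y` is a holomorphic image
(`gam_holIm`, `HolIm.prod`, `HolIm.zero`, `anRel_om`); it does not change if `v` is restricted to
the unit sphere (`gam_act`, `fderiv_ev_hom`, `om_act`), so it is compact (`gam_subseq`,
`tendsto_om`), hence countable. The continuous function `v ↦ D (K ∘ ev c) v e` has values in `T` on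
a ball, so it is constant. Finally `K (ev c v) = D (K ∘ ev c) v v` by `ev_euler`. -/

set_option maxSynthPendingDepth 3

open scoped Topology
open Set Filter Asymptotics

noncomputable section

namespace Vale.Agent.P292

variable {κ α : Type} [Fintype κ] [Fintype α] {P : Pre κ}

theorem KKey1_comp {F F' F'' : Type} [NormedAddCommGroup F] [NormedSpace ℂ F]
    [NormedAddCommGroup F'] [NormedSpace ℂ F'] [NormedAddCommGroup F''] [NormedSpace ℂ F'']
    {S : Set F} {S' : Set F'} {g : F' → F''} (h : AnRel S' g) {φ : F → F'}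
    (hφ : ∀ x ∈ S, AnalyticAt ℂ φ x ∧ φ x ∈ S') : AnRel S fun x => g (φ x) := by
  intro x hx
  obtain ⟨g', h1, h2⟩ := h _ (hφ x hx).2
  exact ⟨g' ∘ φ, h1.comp (hφ x hx).1, ((hφ x hx).1.continuousAt.eventually h2).mono
    fun y hy hyS => hy (hφ y hyS).2⟩

theorem KKey1_count (G : P.Eqs α) {y : κ → ℂ} (hy : y ≠ 0) {c : Co P.w 1} (hc : c ∈ P.M 1)
    (e : ℂ × ℂ) : {a | ∃ v V, v ≠ 0 ∧ (ev P.w 1 c v, V) ∈ P.Gam y ∧
      a = P.om (ev P.w 1 c v) (fderiv ℂ (ev P.w 1 c) v e) V}.Countable := by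
  have hD : ∀ v, AnalyticAt ℂ (fun v => fderiv ℂ (ev P.w 1 c) v e) v := fun v =>
    (analytic_dev e (c, v)).comp (f := fun v => (c, v)) (analyticAt_const.prod analyticAt_id)
  have hT : ∀ v, v ≠ 0 → fderiv ℂ (ev P.w 1 c) v e ∈ P.T (ev P.w 1 c v) :=
    (Pre.jr_fderiv hc e).mem
  refine HolIm.countable_of_isCompact ?_ (IsSeqCompact.isCompact fun a ha => ?_)
  · have h1 := ((holIm_of_isOpen (isOpen_compl_singleton (x := (0 : ℂ × ℂ)))).prod
      (Pre.gam_holIm G y)).zero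
      (g := fun x : (ℂ × ℂ) × (κ → ℂ) × (κ → ℂ) => x.2.1 - ev P.w 1 c x.1)
      (AnRel.of_analytic fun x _ => (analyticAt_fst.comp analyticAt_snd).sub
        ((analytic_ev_right c _).comp analyticAt_fst))
    have h2 := h1.image (KKey1_comp (Pre.anRel_om (P := P))
      (φ := fun x : (ℂ × ℂ) × (κ → ℂ) × (κ → ℂ) =>
        (ev P.w 1 c x.1, fderiv ℂ (ev P.w 1 c) x.1 e, x.2.2))
      fun x hx => ⟨((analytic_ev_right c _).comp analyticAt_fst).prod
        (((hD _).comp analyticAt_fst).prod (analyticAt_snd.comp analyticAt_snd)),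
        hc _ hx.1.1, hT _ hx.1.1, by
          have := (Pre.gam_T hx.1.2).2
          rwa [sub_eq_zero.1 hx.2] at this⟩)
    refine Eq.mp (congrArg HolIm (Set.ext fun t => ⟨?_, ?_⟩)) h2
    · rintro ⟨⟨v, z, V⟩, ⟨⟨k0, k1⟩, k2⟩, rfl⟩
      obtain rfl : z = ev P.w 1 c v := sub_eq_zero.1 k2
      exact ⟨v, V, k0, k1, rfl⟩
    · rintro ⟨v, V, k0, k1, rfl⟩
      exact ⟨(v, ev P.w 1 c v, V), ⟨⟨k0, k1⟩, sub_self _⟩, rfl⟩
  · have hn : ∀ n, ∃ v V, v ∈ Metric.sphere (0 : ℂ × ℂ) 1 ∧ (ev P.w 1 c v, V) ∈ P.Gam y ∧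
        a n = P.om (ev P.w 1 c v) (fderiv ℂ (ev P.w 1 c) v e) V := by
      intro n
      obtain ⟨v, V, k0, k1, k2⟩ := ha n
      have hl : ((‖v‖ : ℂ))⁻¹ ≠ 0 := inv_ne_zero (Complex.ofReal_ne_zero.2 (norm_ne_zero_iff.2 k0))
      refine ⟨(‖v‖ : ℂ)⁻¹ • v, act P.w (‖v‖ : ℂ)⁻¹ V, ?_, ?_, ?_⟩
      · rw [mem_sphere_zero_iff_norm, norm_smul, norm_inv, Complex.norm_real, norm_norm,
          inv_mul_cancel₀ (norm_ne_zero_iff.2 k0)]
      · rw [ev_hom, pow_one]
        exact Pre.gam_act k1 hl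
      · rw [ev_hom, fderiv_ev_hom c hl, pow_one, map_smul, ContinuousLinearMap.smul_apply,
          P.om_act _ (hc v k0) _ hl _ (hT v k0) _ (Pre.gam_T k1).2, smul_eq_mul,
          inv_mul_cancel_left₀ hl, k2]
    choose v V k0 k1 k2 using hn
    have hne : ∀ u ∈ Metric.sphere (0 : ℂ × ℂ) 1, u ≠ 0 := fun u hu =>
      Metric.ne_of_mem_sphere hu one_ne_zero
    obtain ⟨u, hu, φ, hφ, hl⟩ := (isCompact_sphere (0 : ℂ × ℂ) 1).tendsto_subseq k0
    have he := (analytic_ev_right c u).continuousAt.tendsto.comp hl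
    obtain ⟨φ', V₀, hφ', k3, k4⟩ := Pre.gam_subseq hy (fun n => k1 (φ n))
      (fun h => P.zero_not (h ▸ hc u (hne u hu))) he
    refine ⟨_, ⟨u, V₀, hne u hu, k3, rfl⟩, φ ∘ φ', hφ.comp hφ', ?_⟩
    exact (Pre.tendsto_om (hc u (hne u hu)) (hT u (hne u hu)) (Pre.gam_T k3).2
      (he.comp hφ'.tendsto_atTop) (((hD u).continuousAt.tendsto.comp hl).comp hφ'.tendsto_atTop) k4
      (Eventually.of_forall fun n => ⟨hc _ (hne _ (k0 _)), hT _ (hne _ (k0 _)),
        (Pre.gam_T (k1 _)).2⟩)).congr fun n => (k2 (φ (φ' n))).symm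

theorem Pre.key1 (G : P.Eqs α) {y : κ → ℂ} (hy : y ≠ 0) {K : (κ → ℂ) → ℂ} {c : Co P.w 1}
    (hc : c ∈ P.M 1) {v₀ : ℂ × ℂ} (hv : v₀ ≠ 0) (hK : P.Good y K (ev P.w 1 c v₀)) :
    ∀ᶠ v in 𝓝 v₀, K (ev P.w 1 c v) = fderiv ℂ (fun v => K (ev P.w 1 c v)) v₀ v := by
  have ht := (analytic_ev_right c v₀).continuousAt.tendsto
  obtain ⟨r, hr, hb⟩ := Metric.eventually_nhds_iff_ball.1
    ((eventually_ne_nhds hv).and ((ht.eventually hK.1.eventually_analyticAt).and
      (ht.eventually hK.2)))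
  have hd : ∀ v ∈ Metric.ball v₀ r, ∀ e, fderiv ℂ (fun v => K (ev P.w 1 c v)) v e =
      fderiv ℂ K (ev P.w 1 c v) (fderiv ℂ (ev P.w 1 c) v e) := fun v hv e =>
    congrArg (· e) ((hb v hv).2.1.differentiableAt.hasFDerivAt.comp v
      (analytic_ev_right c v).differentiableAt.hasFDerivAt).fderiv
  filter_upwards [Metric.ball_mem_nhds v₀ hr] with v h
  have h1 := eq_of_countable_image (convex_ball v₀ r).isPreconnected
    (f := fun u => fderiv ℂ (fun v => K (ev P.w 1 c v)) u v) (fun u hu =>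
      (((hb u hu).2.1.comp (analytic_ev_right c u)).fderiv.continuousAt.clm_apply
        continuousAt_const).continuousWithinAt) ((KKey1_count G hy hc v).mono (by
      rintro _ ⟨u, hu, rfl⟩
      obtain ⟨-, V, k1, k2⟩ := (hb u hu).2.2 (hc u (hb u hu).1)
      exact ⟨u, V, (hb u hu).1, k1, (hd u hu v).trans
        (k2 _ ((Pre.jr_fderiv hc v).mem u (hb u hu).1))⟩)) h (Metric.mem_ball_self hr)
  rw [← h1, hd v h, ev_euler, Nat.cast_one, one_smul, ((hb v h).2.2 (hc v (hb v h).1)).1]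

end Vale.Agent.P292
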