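import Vale.Agent.P292.KKey20

/-! The case without free pairs of lines in the closure. Hints: let `𝒞` be the component; it is
relatively open in `My y` (which is locally connected: `chart_smooth`, all its points are free by
`hy.conic`; the fibre over `(π x).1` is the image of a ball), so a holomorphic image
(`HolIm.sub_open`), relatively closed in `My y`, and invariant under `rs ρ`, `ts l` (the punctured
plane is connected). The value is invariant under `rs ρ` and under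
`(v, x) ↦ (l • v, ts (l ^ 2) x)`. Compactness of the set of values: take `‖v n‖ = 1`, `kk_subseq`;
the limit `x₀` has `zE x₀ = ev m v ∉ Lam y`, so it is in `MQ` (`deg_cases`); if `x₀.2 = 0` then
`l1` is free (`hy.line`), `l2` is free since the end is not in `Bad y`, so `Nod x₀`, excluded. -/

set_option maxSynthPendingDepth 3

open scoped Topology
open Set Filter Asymptotics

noncomputable section

namespace Vale.Agent.P292

variable {κ α : Type} [Fintype κ] [Fintype α] {P : Pre κ}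

theorem KKey2_orbit {y : κ → ℂ} {x₀ x : Co P.w 2 × ℂ}
    (hx : x ∈ connectedComponentIn (P.My y) x₀) {f : ℂ → Co P.w 2 × ℂ}
    (hf : ContinuousOn f {0}ᶜ) (h1 : f 1 = x) (hm : ∀ l, l ≠ 0 → f l ∈ P.My y) {l : ℂ}
    (hl : l ≠ 0) : f l ∈ connectedComponentIn (P.My y) x₀ := by
  have hc : IsPreconnected ({0}ᶜ : Set ℂ) :=
    (isConnected_compl_singleton_of_one_lt_rank (by simp) 0).isPreconnected
  rw [connectedComponentIn_eq hx]
  exact (hc.image f hf).subset_connectedComponentIn ⟨1, one_ne_zero, h1⟩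
    (by rintro _ ⟨a, ha, rfl⟩; exact hm a ha) ⟨l, hl, rfl⟩

theorem KKey2_rs {y : κ → ℂ} {x₀ x : Co P.w 2 × ℂ}
    (hx : x ∈ connectedComponentIn (P.My y) x₀) {ρ : ℂ} (hρ : ρ ≠ 0) :
    rs P.w ρ x ∈ connectedComponentIn (P.My y) x₀ := by
  obtain ⟨h1, h2, h3⟩ := connectedComponentIn_subset _ _ hx
  exact KKey2_orbit hx (f := fun l => rs P.w l x)
    (continuous_rs.comp (continuous_id.prodMk continuous_const)).continuousOn (rs_one x)
    (fun l hl => ⟨Pre.rs_MQ hl h1, mul_ne_zero h2 (pow_ne_zero _ hl),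
      (rs_ends x hl).1.trans h3⟩) hρ

theorem KKey2_ts {y : κ → ℂ} {x₀ x : Co P.w 2 × ℂ}
    (hx : x ∈ connectedComponentIn (P.My y) x₀) {ρ : ℂ} (hρ : ρ ≠ 0) :
    ts P.w ρ x ∈ connectedComponentIn (P.My y) x₀ := by
  obtain ⟨h1, h2, h3⟩ := connectedComponentIn_subset _ _ hx
  exact KKey2_orbit hx (f := fun l => ts P.w l x)
    (continuousOn_ts.comp (continuous_id.prodMk continuous_const).continuousOn fun _ hl => hl)
    (ts_one x) (fun l hl => ⟨Pre.ts_MQ hl h1, div_ne_zero h2 hl,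
      (ts_ends x hl).1.trans h3⟩) hρ

theorem KKey2_dE (w : κ → ℕ) (x : Co w 2) : AnalyticAt ℂ (dE w) x := by
  obtain ⟨L, hL⟩ := exists_devQL (w := w) (0, 1, 0) (0, 0, 1)
  have : dE w = L := funext fun c => (hL c).symm
  rw [this]
  exact L.analyticAt x

theorem KKey2_zE (w : κ → ℕ) (x : Co w 2) : AnalyticAt ℂ (zE w) x := (evQL w _).analyticAt x

theorem KKey2_yE (w : κ → ℕ) (x : Co w 2) : AnalyticAt ℂ (yE w) x := (evQL w _).analyticAt x

theorem KKey2_dev {w : κ → ℕ} (m : Co w 2) (e v : ℂ × ℂ) :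
    AnalyticAt ℂ (fun v => fderiv ℂ (ev w 2 m) v e) v :=
  (analytic_dev e (m, v)).comp (analyticAt_const.prod analyticAt_id)

theorem KKey2_My (G : P.Eqs α) (y : κ → ℂ) : HolIm (P.My y) := by
  have h1 := ((Pre.locAn_MQ G).holIm.inter (locAn_of_isOpen
    (isOpen_ne_fun continuous_snd continuous_const : IsOpen {x : Co P.w 2 × ℂ | x.2 ≠ 0}))).zero
    (g := fun x => yE P.w x.1 - y) (AnRel.of_analytic fun x _ =>
      ((KKey2_yE P.w x.1).comp analyticAt_fst).sub analyticAt_const)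
  convert h1 using 1
  ext x
  simp only [Pre.My, mem_ofPred_eq, mem_inter_iff, sub_eq_zero, and_assoc]

theorem KKey2_tan {m : Co P.w 2} (hm : m ∈ P.M 2) {v : ℂ × ℂ} (hv : v ≠ 0) (e : ℂ × ℂ)
    {x : Co P.w 2 × ℂ} (hx : x ∈ P.KK) (hz : zE P.w x.1 = ev P.w 2 m v) :
    ev P.w 2 m v ∈ P.C ∧ fderiv ℂ (ev P.w 2 m) v e ∈ P.T (ev P.w 2 m v) ∧
      dE P.w x.1 ∈ P.T (ev P.w 2 m v) :=
  ⟨hm v hv, (Pre.jr_fderiv hm e).mem v hv, hz ▸ (Pre.KK_tangent hx).2.2.1⟩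

theorem Pre.key2 (G : P.Eqs α) {y : κ → ℂ} (hy : P.Gen y) {x₀ : Co P.w 2 × ℂ}
    (hn : ∀ n ∈ closure (connectedComponentIn (P.My y) x₀), ¬ P.Nod n) {m : Co P.w 2}
    (hm : m ∈ P.M 2) (hav : ∀ v, v ≠ 0 → ev P.w 2 m v ∉ P.Bad y ∪ P.Lam y) (e : ℂ × ℂ) :
    {t : ℂ | ∃ v, v ≠ 0 ∧ ∃ x ∈ connectedComponentIn (P.My y) x₀, zE P.w x.1 = ev P.w 2 m v ∧
      t = P.om (ev P.w 2 m v) (fderiv ℂ (ev P.w 2 m) v e) (dE P.w x.1) ^ 2 / x.2}.Countable := by
  set 𝒞 := connectedComponentIn (P.My y) x₀ with h𝒞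
  have hsub : 𝒞 ⊆ P.My y := connectedComponentIn_subset _ _
  have hne : ∀ p ∈ P.C, p ≠ 0 := fun p hp h => P.zero_not (h ▸ hp)
  set val : (ℂ × ℂ) × Co P.w 2 × ℂ → ℂ := fun p =>
    P.om (ev P.w 2 m p.1) (fderiv ℂ (ev P.w 2 m) p.1 e) (dE P.w p.2.1) ^ 2 / p.2.2 with hval
  set S : Set ((ℂ × ℂ) × Co P.w 2 × ℂ) :=
    {p ∈ {0}ᶜ ×ˢ 𝒞 | zE P.w p.2.1 - ev P.w 2 m p.1 = 0} with hS
  have hSm : ∀ p, p ∈ S ↔ p.1 ≠ 0 ∧ p.2 ∈ 𝒞 ∧ zE P.w p.2.1 = ev P.w 2 m p.1 := fun p => by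
    simp only [hS, mem_ofPred_eq, mem_prod, mem_compl_iff, mem_singleton_iff, sub_eq_zero,
      and_assoc, ne_eq]
  have htan : ∀ p ∈ S, ev P.w 2 m p.1 ∈ P.C ∧
      fderiv ℂ (ev P.w 2 m) p.1 e ∈ P.T (ev P.w 2 m p.1) ∧
      dE P.w p.2.1 ∈ P.T (ev P.w 2 m p.1) := fun p hp =>
    KKey2_tan hm ((hSm p).1 hp).1 e (Pre.MQ_sub (hsub ((hSm p).1 hp).2.1).1) ((hSm p).1 hp).2.2
  have a21 : ∀ {g : Co P.w 2 → κ → ℂ}, (∀ c, AnalyticAt ℂ g c) → ∀ p : (ℂ × ℂ) × Co P.w 2 × ℂ,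
      AnalyticAt ℂ (fun p : (ℂ × ℂ) × Co P.w 2 × ℂ => g p.2.1) p := fun hg p =>
    (hg _).comp (f := fun p : (ℂ × ℂ) × Co P.w 2 × ℂ => p.2.1)
      (analyticAt_fst.comp (f := Prod.snd) analyticAt_snd)
  have hS1 : HolIm S := ((holIm_of_isOpen isOpen_compl_singleton).prod
    ((KKey2_My G y).sub_open hsub (Pre.comp_open G hy x₀))).zero (AnRel.of_analytic fun p _ =>
      (a21 (KKey2_zE P.w) p).sub
        ((analytic_ev_right m p.1).comp analyticAt_fst))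
  have hS2 : AnRel S val := by
    intro p hp
    obtain ⟨g, hg, hg'⟩ := Pre.anRel_om (P := P)
      (ev P.w 2 m p.1, fderiv ℂ (ev P.w 2 m) p.1 e, dE P.w p.2.1) (htan p hp)
    have hφ : AnalyticAt ℂ (fun p : (ℂ × ℂ) × Co P.w 2 × ℂ =>
        (ev P.w 2 m p.1, fderiv ℂ (ev P.w 2 m) p.1 e, dE P.w p.2.1)) p :=
      ((analytic_ev_right m p.1).comp analyticAt_fst).prod
        (((KKey2_dev m e p.1).comp analyticAt_fst).prod
          (a21 (KKey2_dE P.w) p))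
    refine ⟨fun q => g (ev P.w 2 m q.1, fderiv ℂ (ev P.w 2 m) q.1 e, dE P.w q.2.1) ^ 2 / q.2.2,
      ((hg.comp_of_eq hφ rfl).pow 2).div (analyticAt_snd.comp (f := Prod.snd) analyticAt_snd)
        (hsub ((hSm p).1 hp).2.1).2.1, ?_⟩
    filter_upwards [hφ.continuousAt.eventually hg'] with q hq hqS
    rw [← hq (htan q hqS)]
  have hnorm : ∀ p ∈ S, ∃ q ∈ S, ‖q.1‖ = 1 ∧ val q = val p := by
    rintro ⟨v, x⟩ hp
    obtain ⟨hv, hx, hz⟩ := (hSm _).1 hp
    obtain ⟨t1, t2, t3⟩ := htan _ hp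
    have hl : ((‖v‖ : ℂ))⁻¹ ≠ 0 := inv_ne_zero (by exact_mod_cast norm_ne_zero_iff.2 hv)
    generalize hl' : ((‖v‖ : ℂ))⁻¹ = l at hl
    have hl2 : l ^ 2 ≠ 0 := pow_ne_zero _ hl
    obtain ⟨-, e2, -, e4, -⟩ := ts_ends x hl2
    refine ⟨(l • v, ts P.w (l ^ 2) x), (hSm _).2 ⟨smul_ne_zero hl hv, KKey2_ts hx hl2, ?_⟩, ?_, ?_⟩
    · rw [e2, ev_hom, hz]
    · rw [norm_smul, ← hl', norm_inv, Complex.norm_real, norm_norm,
        inv_mul_cancel₀ (norm_ne_zero_iff.2 hv)]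
    · simp only [hval]
      rw [e4, ev_hom, fderiv_ev_hom m hl, map_smul, map_smul, smul_apply,
        P.om_act _ t1 _ hl2 _ t2 _ t3]
      simp only [ts, smul_eq_mul]
      field_simp
  have hT : IsCompact (val '' S) := by
    refine IsSeqCompact.isCompact fun t ht => ?_
    choose p hp hpt using ht
    choose q hq hq1 hqv using fun n => hnorm (p n) (hp n)
    obtain ⟨v₀, hv₀, φ, hφ, hv⟩ := (isCompact_sphere (0 : ℂ × ℂ) 1).tendsto_subseq
      (x := fun n => (q n).1) fun n => mem_sphere_zero_iff_norm.2 (hq1 n)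
    have hv0 : v₀ ≠ 0 := norm_ne_zero_iff.1 (by rw [mem_sphere_zero_iff_norm.1 hv₀]; norm_num)
    have hq' := fun n => (hSm _).1 (hq n)
    obtain ⟨ρ, ψ, x, hρ, hψ, hxK, hx⟩ := P.kk_subseq (x := fun n => (q (φ n)).2)
      (fun n => Pre.MQ_sub (hsub (hq' _).2.1).1) (hne y hy.mem) (hne _ (hm v₀ hv0))
      (tendsto_const_nhds.congr fun n => (hsub (hq' _).2.1).2.2.symm)
      ((((analytic_ev_right m v₀).continuousAt.tendsto).comp hv).congr fun n => (hq' _).2.2.symm)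
    have hv' : Tendsto (fun n => (q (φ (ψ n))).1) atTop (𝓝 v₀) := hv.comp hψ.tendsto_atTop
    have hmem : ∀ n, rs P.w (ρ n) (q (φ (ψ n))).2 ∈ 𝒞 := fun n => KKey2_rs (hq' _).2.1 (hρ n)
    have hcl : x ∈ closure 𝒞 := mem_closure_of_tendsto hx (Eventually.of_forall hmem)
    have hx1 := (continuous_fst.tendsto x).comp hx
    have hxy : yE P.w x.1 = y := tendsto_nhds_unique
      ((KKey2_yE P.w x.1).continuousAt.tendsto.comp hx1)
      (tendsto_const_nhds.congr fun n => (hsub (hmem n)).2.2.symm)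
    have hxz : zE P.w x.1 = ev P.w 2 m v₀ := tendsto_nhds_unique
      ((KKey2_zE P.w x.1).continuousAt.tendsto.comp hx1)
      ((((analytic_ev_right m v₀).continuousAt.tendsto).comp hv').congr fun n =>
        ((rs_ends _ (hρ n)).2.1.trans (hq' _).2.2).symm)
    have hxQ : x ∈ P.MQ := (Pre.deg_cases hxK).resolve_right fun h =>
      hav v₀ hv0 (Or.inr (by rwa [hxy, hxz] at h))
    have hx0 : x.2 ≠ 0 := by
      intro h0
      have hxQ' : (x.1, (0 : ℂ)) ∈ P.MQ := h0 ▸ hxQ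
      refine hn x hcl ⟨hxQ, h0, hy.line _ (Pre.mem_MQ_zero.1 hxQ').1
        ((l1_ends x.1).1.symm.trans hxy), by_contra fun hf => ?_⟩
      exact hav v₀ hv0 (Or.inl ⟨x.1, hxQ', hxy, hxz, hf⟩)
    have hx𝒞 : x ∈ 𝒞 := by
      have h1 : IsPreconnected (insert x 𝒞) := isPreconnected_connectedComponentIn.subset_closure
        (subset_insert _ _) (insert_subset hcl subset_closure)
      rw [h𝒞, connectedComponentIn_eq (hmem 0)]
      exact h1.subset_connectedComponentIn (Or.inr (hmem 0))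
        (insert_subset (show x ∈ P.My y from ⟨hxQ, hx0, hxy⟩) hsub) (mem_insert _ _)
    have hS0 : (v₀, x) ∈ S := (hSm _).2 ⟨hv0, hx𝒞, hxz⟩
    have hSn : ∀ n, ((q (φ (ψ n))).1, rs P.w (ρ n) (q (φ (ψ n))).2) ∈ S := fun n => (hSm _).2
      ⟨(hq' _).1, hmem n, (rs_ends _ (hρ n)).2.1.trans (hq' _).2.2⟩
    refine ⟨val (v₀, x), ⟨_, hS0, rfl⟩, φ ∘ ψ, hφ.comp hψ, ?_⟩
    obtain ⟨t1, t2, t3⟩ := htan _ hS0
    have h1 := Pre.tendsto_om t1 t2 t3 ((analytic_ev_right m v₀).continuousAt.tendsto.comp hv')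
      ((KKey2_dev m e v₀).continuousAt.tendsto.comp hv')
      ((KKey2_dE P.w x.1).continuousAt.tendsto.comp hx1)
      (Eventually.of_forall fun n => htan _ (hSn n))
    refine ((h1.pow 2).div ((continuous_snd.tendsto x).comp hx) hx0).congr fun n => ?_
    have h2 := hρ n
    rw [Function.comp_apply, Function.comp_apply, ← hpt, ← hqv]
    simp only [Function.comp_apply, Pi.div_apply, hval]
    rw [(rs_ends _ h2).2.2.2.1, map_smul]
    simp only [rs, smul_eq_mul]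
    field_simp
  refine ((hS1.image hS2).countable_of_isCompact hT).mono ?_
  rintro t ⟨v, hv, x, hx, hz, rfl⟩
  exact ⟨(v, x), (hSm _).2 ⟨hv, hx, hz⟩, rfl⟩

end Vale.Agent.P292
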