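import Vale.Agent.P292.KGam
import Vale.Agent.P292.KMfdQ

/-! The case without free pairs of lines in the closure. Hints: let `𝒞` be the component; it is
relatively open in `My y` (which is locally connected: `chart_smooth`, all its points are free by
`hy.conic`; the fibre over `(π x).1` is the image of a ball), so a holomorphic image
(`HolIm.sub_open`), relatively closed in `My y`, and invariant under `rs ρ`, `ts l` (the punctured
plane is connected). The value is invariant under `rs ρ` and under
`(v, x) ↦ (l • v, ts (l ^ 2) x)`. Compactness of the set of values: take `‖v n‖ = 1`, `kk_subseq`;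
the limit `x₀` has `zE x₀ = ev m v ∉ Lam y`, so it is in `MQ` (`deg_cases`); if `x₀.2 = 0` then
`l1` is free (`hy.line`), `l2` is free since the end is not in `Bad y`, so `Nod x₀`, excluded. -/

set_option maxSynthPendingDepth 3

open scoped Topology
open Set Filter Asymptotics

noncomputable section

namespace Vale.Agent.P292

variable {κ α : Type} [Fintype κ] [Fintype α] {P : Pre κ}

theorem Pre.comp_open (G : P.Eqs α) {y : κ → ℂ} (hy : P.Gen y) (x₀ : Co P.w 2 × ℂ) :
    ∀ x ∈ connectedComponentIn (P.My y) x₀, connectedComponentIn (P.My y) x₀ ∈ 𝓝[P.My y] x := by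
  intro x hx
  have hm : x ∈ P.My y := connectedComponentIn_subset _ _ hx
  rw [connectedComponentIn_eq hx]
  obtain ⟨hQ, h0, hE⟩ := hm
  have hf : P.Free 2 (tw P.w x.2 x.1) :=
    hy.conic _ ((Pre.mem_MQ_tw h0).1 hQ) ((tw_ends P.w_pos x.1 x.2).1.trans hE)
  obtain ⟨k, π, ψ, χ, hc, h1, h2⟩ := Pre.chart_smooth G hQ h0 hf
  have hs : ψ (π x) = x := hc.left.self_of_nhds hQ
  have h3 : ∀ᶠ z in 𝓝 (π x), (ψ z).2 ≠ 0 :=
    (continuous_snd.continuousAt.comp hc.an.continuousAt).eventually_ne (by
      simpa only [Function.comp, hs] using h0)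
  obtain ⟨r, hr, H⟩ := Metric.eventually_nhds_iff_ball.1
    (hc.an.eventually_analyticAt.and (hc.right.and (h1.and h3)))
  have hb : ∀ t ∈ Metric.ball (π x).2 r, ((π x).1, t) ∈ Metric.ball (π x) r := fun t ht => by
    rw [← ball_prod_same]
    exact ⟨Metric.mem_ball_self hr, ht⟩
  have hy0 : χ (π x).1 = y := by
    rw [← hE, ← h1.self_of_nhds, hs]
  have hS : IsPreconnected ((fun t => ψ ((π x).1, t)) '' Metric.ball (π x).2 r) :=
    (convex_ball _ _).isPreconnected.image _ fun t ht =>
      (ContinuousAt.comp (f := fun t => ((π x).1, t)) (H _ (hb t ht)).1.continuousAt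
        (by fun_prop)).continuousWithinAt
  have hsub := hS.subset_connectedComponentIn (x := x) (F := P.My y)
    ⟨(π x).2, Metric.mem_ball_self hr, hs⟩ (by
      rintro _ ⟨t, ht, rfl⟩
      obtain ⟨-, a1, a2, a3⟩ := H _ (hb t ht)
      exact ⟨a1.1, a3, a2.trans hy0⟩)
  have h4 : ∀ᶠ x' in 𝓝 x, (π x').2 ∈ Metric.ball (π x).2 r :=
    (continuous_snd.comp π.continuous).continuousAt.eventually (Metric.ball_mem_nhds _ hr)
  refine mem_of_superset (inter_mem (mem_nhdsWithin_of_mem_nhds (hc.left.and h4))
    self_mem_nhdsWithin) fun x' hx' => hsub ⟨(π x').2, hx'.1.2, ?_⟩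
  have e := h2 x' (hx'.2.2.2.trans hE.symm)
  change ψ ((π x).1, (π x').2) = x'
  rw [← e]
  exact hx'.1.1 hx'.2.1

end Vale.Agent.P292
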