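import Vale.Agent.P292.KLine1

/-! A homogeneous function on a neighbourhood of the graph of a free line. Hints: by compactness of
the unit sphere and the tube lemma there is a neighbourhood `B` of `z₀` such that
`ev (ψ z) v = ev (ψ z') v` implies `lam z v = lam z' v` for `z, z' ∈ B` and `‖v‖ = 1`, so for all
`v ≠ 0` by homogeneity. Define `Fn v q = lam z v` if `q = ev (ψ z) v` for some `z ∈ B` and `v ≠ 0`,
and zero otherwise. For `(v', q)` near `(v, ev c v)` with `q` in the cone there is `z` near `z₀`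
with `q = ev (ψ z) v'`: apply the inverse function theorem (`map_nhds_eq_of_surj`) to
`(z, v') ↦ (v', π (ev (ψ z) v'))` with a chart `π` of the cone. -/

set_option maxSynthPendingDepth 3

open scoped Topology
open Set Filter Asymptotics

noncomputable section

namespace Vale.Agent.P292

variable {κ α : Type} [Fintype κ] [Fintype α] {P : Pre κ}

theorem KLine_surj {k : ℕ} {z₀ : Fin k → ℂ} {ψ : (Fin k → ℂ) → Co P.w 1} (hψ : AnalyticAt ℂ ψ z₀)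
    (hM : ∀ᶠ z in 𝓝 z₀, ψ z ∈ P.M 1) {v : ℂ × ℂ} (hv : v ≠ 0)
    (hs : ∀ τ ∈ P.T (ev P.w 1 (ψ z₀) v), ∃ h, ev P.w 1 (fderiv ℂ ψ z₀ h) v = τ)
    {N : (Fin k → ℂ) × ℂ × ℂ → Prop} (hN : ∀ᶠ p in 𝓝 (z₀, v), N p) :
    ∀ᶠ p in 𝓝 (v, ev P.w 1 (ψ z₀) v), p.2 ∈ P.C →
      ∃ z, N (z, p.1) ∧ ev P.w 1 (ψ z) p.1 = p.2 := by
  have hq := hM.self_of_nhds v hv
  obtain ⟨π, χ, hch, hT⟩ := P.chart hq
  have h0 : HasStrictFDerivAt (fun p : (Fin k → ℂ) × ℂ × ℂ => (ψ p.1, p.2)) _ (z₀, v) :=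
    (HasStrictFDerivAt.comp (f := Prod.fst) (z₀, v) hψ.hasStrictFDerivAt
      hasStrictFDerivAt_fst).prodMk hasStrictFDerivAt_snd
  have h1 := HasStrictFDerivAt.comp (f := fun p : (Fin k → ℂ) × ℂ × ℂ => (ψ p.1, p.2)) (z₀, v)
    (analytic_ev (ψ z₀, v)).hasStrictFDerivAt h0
  have h2 := (hasStrictFDerivAt_snd.prodMk (π.hasStrictFDerivAt.comp (z₀, v) h1)).map_nhds_eq_of_surj
    (LinearMap.range_eq_top.2 fun b => by
      obtain ⟨τ, hτ, k1⟩ := (hT.self_of_nhds hq).2.1 (b.2 - π (fderiv ℂ (ev P.w 1 (ψ z₀)) v b.1))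
      obtain ⟨h, k2⟩ := hs τ hτ
      refine ⟨(h, b.1), Prod.ext rfl ?_⟩
      change π (fderiv ℂ (fun x : Co P.w 1 × ℂ × ℂ => ev P.w 1 x.1 x.2) (ψ z₀, v)
        (fderiv ℂ ψ z₀ h, b.1)) = b.2
      rw [fderiv_ev_joint, k2, map_add, k1, sub_add_cancel])
  have h3 : ∀ᶠ p : (Fin k → ℂ) × ℂ × ℂ in 𝓝 (z₀, v), N p ∧
      χ (π (ev P.w 1 (ψ p.1) p.2)) = ev P.w 1 (ψ p.1) p.2 := by
    filter_upwards [hN, h1.continuousAt.eventually hch.left,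
      continuous_fst.continuousAt.eventually hM, continuous_snd.continuousAt.eventually_ne hv]
      with p k1 k2 k3 k4
    exact ⟨k1, k2 (k3 _ k4)⟩
  have h4 := image_mem_map (m := fun p : (Fin k → ℂ) × ℂ × ℂ =>
    (p.2, π (ev P.w 1 (ψ p.1) p.2))) h3
  rw [h2] at h4
  have h5 : ContinuousAt (fun p : (ℂ × ℂ) × (κ → ℂ) => (p.1, π p.2)) (v, ev P.w 1 (ψ z₀) v) := by
    fun_prop
  filter_upwards [h5.preimage_mem_nhds h4, continuous_snd.continuousAt.eventually hch.left]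
    with p k1 k2 k3
  obtain ⟨⟨z, u⟩, k4, k5⟩ := k1
  obtain rfl : u = p.1 := congrArg Prod.fst k5
  refine ⟨z, k4.1, ?_⟩
  rw [← k2 k3, ← show π (ev P.w 1 (ψ z) p.1) = π p.2 from congrArg Prod.snd k5]
  exact k4.2.symm

theorem KLine_inj {w : κ → ℕ} {l : ℂ} (hl : l ≠ 0) {p q : κ → ℂ} (h : act w l p = act w l q) :
    p = q :=
  sub_eq_zero.1 (act_eq_zero hl (by rw [map_sub, h, sub_self]))

theorem Pre.line_ext (G : P.Eqs α) {y : κ → ℂ} (hy : y ≠ 0) {K : (κ → ℂ) → ℂ} {c : Co P.w 1}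
    (hc : c ∈ P.M 1) (hf : P.Free 1 c) {v₀ : ℂ × ℂ} (hv : v₀ ≠ 0)
    (hK : P.Good y K (ev P.w 1 c v₀)) : ∃ Fn : ℂ × ℂ → (κ → ℂ) → ℂ,
      (∀ l : ℂ, l ≠ 0 → ∀ v q, Fn (l • v) (act P.w l q) = l * Fn v q) ∧
      (∀ᶠ p in 𝓝 (v₀, ev P.w 1 c v₀), p.2 ∈ P.C → Fn p.1 p.2 = K p.2) ∧
      ∀ v, v ≠ 0 → ∃ K', P.Good y K' (ev P.w 1 c v) ∧
        ∀ᶠ p in 𝓝 (v, ev P.w 1 c v), p.2 ∈ P.C → Fn p.1 p.2 = K' p.2 := by
  classical
  obtain ⟨k, z₀, ψ, lam, rfl, hψ, hM, hs, h0, h1⟩ := Pre.line_germs G hy hc hf hv hK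
  have h2 : ∀ᶠ p : (Fin k → ℂ) × (Fin k → ℂ) in 𝓝 (z₀, z₀), ∀ v ∈ Metric.sphere (0 : ℂ × ℂ) 1,
      ev P.w 1 (ψ p.1) v = ev P.w 1 (ψ p.2) v → lam p.1 v = lam p.2 v := by
    refine (isCompact_sphere (0 : ℂ × ℂ) 1).eventually_forall_of_forall_eventually fun v hv => ?_
    obtain ⟨K', -, k1⟩ := h1 v (Metric.ne_of_mem_sphere hv one_ne_zero)
    have t1 : ContinuousAt (fun p : ((Fin k → ℂ) × (Fin k → ℂ)) × ℂ × ℂ => (p.1.1, p.2))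
      ((z₀, z₀), v) := by fun_prop
    have t2 : ContinuousAt (fun p : ((Fin k → ℂ) × (Fin k → ℂ)) × ℂ × ℂ => (p.1.2, p.2))
      ((z₀, z₀), v) := by fun_prop
    filter_upwards [t1.eventually k1, t2.eventually k1] with p k2 k3 k4
    rw [k2, k3, k4]
  rw [nhds_prod_eq] at h2
  obtain ⟨B, hB, h3⟩ := (eventually_prod_self_iff (r := fun z z' =>
    ∀ v ∈ Metric.sphere (0 : ℂ × ℂ) 1,
      ev P.w 1 (ψ z) v = ev P.w 1 (ψ z') v → lam z v = lam z' v)).1 h2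
  have h4 : ∀ v, v ≠ 0 → ∀ z ∈ B, ∀ z' ∈ B, ev P.w 1 (ψ z) v = ev P.w 1 (ψ z') v →
      lam z v = lam z' v := by
    intro v hv z hz z' hz' h
    have hl : ((‖v‖ : ℂ))⁻¹ ≠ 0 := inv_ne_zero (Complex.ofReal_ne_zero.2 (norm_ne_zero_iff.2 hv))
    have k1 := h3 z hz z' hz' ((‖v‖ : ℂ)⁻¹ • v) (by
      rw [mem_sphere_zero_iff_norm, norm_smul, norm_inv, Complex.norm_real, norm_norm,
        inv_mul_cancel₀ (norm_ne_zero_iff.2 hv)]) (by rw [ev_hom, ev_hom, h])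
    rw [map_smul, map_smul] at k1
    exact smul_right_injective ℂ hl k1
  obtain ⟨Fn, hF, hF0⟩ : ∃ Fn : ℂ × ℂ → (κ → ℂ) → ℂ,
      (∀ v, v ≠ 0 → ∀ z ∈ B, Fn v (ev P.w 1 (ψ z) v) = lam z v) ∧
      ∀ v q, ¬(v ≠ 0 ∧ ∃ z ∈ B, ev P.w 1 (ψ z) v = q) → Fn v q = 0 := by
    refine ⟨fun v q => if h : v ≠ 0 ∧ ∃ z ∈ B, ev P.w 1 (ψ z) v = q then lam h.2.choose v else 0,
      fun v hv z hz => ?_, fun v q h => dif_neg h⟩
    have h : v ≠ 0 ∧ ∃ z' ∈ B, ev P.w 1 (ψ z') v = ev P.w 1 (ψ z) v := ⟨hv, z, hz, rfl⟩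
    exact (dif_pos h).trans (h4 v hv _ h.2.choose_spec.1 z hz h.2.choose_spec.2)
  have key : ∀ v, v ≠ 0 → ∀ K' : (κ → ℂ) → ℂ,
      (∀ᶠ p in 𝓝 (z₀, v), lam p.1 p.2 = K' (ev P.w 1 (ψ p.1) p.2)) →
      ∀ᶠ p in 𝓝 (v, ev P.w 1 (ψ z₀) v), p.2 ∈ P.C → Fn p.1 p.2 = K' p.2 := by
    intro v hv K' h
    filter_upwards [KLine_surj hψ hM hv (hs v hv)
      (h.and (continuous_fst.continuousAt.preimage_mem_nhds hB)),
      continuous_fst.continuousAt.eventually_ne hv] with p k1 k2 k3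
    obtain ⟨z, ⟨k4, k5⟩, k6⟩ := k1 k3
    rw [← k6, hF _ k2 z k5]
    exact k4
  refine ⟨Fn, fun l hl v q => ?_, key v₀ hv K h0, fun v hv => ?_⟩
  · by_cases h : v ≠ 0 ∧ ∃ z ∈ B, ev P.w 1 (ψ z) v = q
    · obtain ⟨hv, z, hz, rfl⟩ := h
      have k1 := hF (l • v) (smul_ne_zero hl hv) z hz
      rw [ev_hom, pow_one, map_smul, smul_eq_mul] at k1
      rw [k1, hF v hv z hz]
    · rw [hF0 v q h, mul_zero]
      refine hF0 _ _ fun ⟨k1, z, hz, k2⟩ => h ⟨right_ne_zero_of_smul k1, z, hz, ?_⟩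
      rw [ev_hom, pow_one] at k2
      exact KLine_inj hl k2
  · obtain ⟨K', k1, k2⟩ := h1 v hv
    exact ⟨K', k1, key v hv K' k2⟩

end Vale.Agent.P292
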