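import Vale.Agent.P292.KGam

/-! Persistence under analytic continuation along a curve. Hints: the set `T` of all `t` for which
the conclusion holds is closed (`gam_subseq`, `tendsto_om`) and is the projection of the set of
`(t, z, V)` in `univ ×ˢ Gam y` with `z = f t` and the finitely many equations
(`HolIm.zero` for the map to `ι → ℂ`, `anRel_om`); `HolIm.eq_univ`. -/

set_option maxSynthPendingDepth 3

open scoped Topology
open Set Filter Asymptotics

noncomputable section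

namespace Vale.Agent.P292

variable {κ α : Type} [Fintype κ] [Fintype α] {P : Pre κ}

theorem KRl_comp {F F' F'' : Type} [NormedAddCommGroup F] [NormedSpace ℂ F] [NormedAddCommGroup F']
    [NormedSpace ℂ F'] [NormedAddCommGroup F''] [NormedSpace ℂ F''] {S : Set F} {S' : Set F'}
    {g : F' → F''} (h : AnRel S' g) {φ : F → F'} (hφ : ∀ x ∈ S, AnalyticAt ℂ φ x ∧ φ x ∈ S') :
    AnRel S fun x => g (φ x) := by
  intro x hx
  obtain ⟨g', h1, h2⟩ := h _ (hφ x hx).2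
  exact ⟨g' ∘ φ, h1.comp (hφ x hx).1, ((hφ x hx).1.continuousAt.eventually h2).mono
    fun y hy hyS => hy (hφ y hyS).2⟩

theorem Pre.persist (G : P.Eqs α) {y : κ → ℂ} (hy : y ≠ 0) {ι : Type} [Fintype ι]
    {f : ℂ → κ → ℂ} {ξ : ι → ℂ → κ → ℂ} {g : ι → ℂ → ℂ} (hf : Differentiable ℂ f)
    (hξ : ∀ i, Differentiable ℂ (ξ i)) (hg : ∀ i, Differentiable ℂ (g i)) (hC : ∀ t, f t ∈ P.C)
    (hT : ∀ i t, ξ i t ∈ P.T (f t)) {t₀ : ℂ}
    (h0 : ∀ᶠ t in 𝓝 t₀, ∃ V, (f t, V) ∈ P.Gam y ∧ ∀ i, g i t = P.om (f t) (ξ i t) V) :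
    ∀ t, ∃ V, (f t, V) ∈ P.Gam y ∧ ∀ i, g i t = P.om (f t) (ξ i t) V := by
  have h1 := ((holIm_of_isOpen (isOpen_univ (X := ℂ))).prod (Pre.gam_holIm G y)).zero
    (g := fun x : ℂ × (κ → ℂ) × (κ → ℂ) => x.2.1 - f x.1) (AnRel.of_analytic fun x _ =>
      (analyticAt_fst.comp analyticAt_snd).sub ((hf.analyticAt _).comp analyticAt_fst))
  have h2 := h1.zero (g := fun (x : ℂ × (κ → ℂ) × (κ → ℂ)) (i : ι) =>
      g i x.1 - P.om (f x.1) (ξ i x.1) x.2.2) (by
    intro x hx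
    have k : ∀ i, ∃ g' : ℂ × (κ → ℂ) × (κ → ℂ) → ℂ, AnalyticAt ℂ g' x ∧ _ := fun i =>
      KRl_comp (Pre.anRel_om (P := P)) (φ := fun x : ℂ × (κ → ℂ) × (κ → ℂ) => (f x.1, ξ i x.1, x.2.2))
        (fun x hx => ⟨((hf.analyticAt _).comp analyticAt_fst).prod
          ((((hξ i).analyticAt _).comp analyticAt_fst).prod (analyticAt_snd.comp analyticAt_snd)),
          hC _, hT _ _, by
            have := (Pre.gam_T hx.1.2).2
            rwa [sub_eq_zero.1 hx.2] at this⟩) x hx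
    choose g' k1 k2 using k
    refine ⟨fun x i => g i x.1 - g' i x, AnalyticAt.pi fun i =>
      (((hg i).analyticAt _).comp analyticAt_fst).sub (k1 i), ?_⟩
    filter_upwards [eventually_all.2 k2] with z hz hzS
    exact funext fun i => congrArg (g i z.1 - ·) (hz i hzS))
  have h3 := h2.image (g := Prod.fst) (AnRel.of_analytic fun x _ => analyticAt_fst)
  have h4 : HolIm {t | ∃ V, (f t, V) ∈ P.Gam y ∧ ∀ i, g i t = P.om (f t) (ξ i t) V} := by
    refine Eq.mp (congrArg HolIm (Set.ext fun t => ⟨?_, ?_⟩)) h3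
    · rintro ⟨⟨t, z, V⟩, ⟨⟨⟨-, k1⟩, k2⟩, k3⟩, rfl⟩
      obtain rfl : z = f t := sub_eq_zero.1 k2
      exact ⟨V, k1, fun i => sub_eq_zero.1 (congrFun k3 i)⟩
    · rintro ⟨V, k1, k2⟩
      exact ⟨(t, f t, V), ⟨⟨⟨mem_univ _, k1⟩, sub_self _⟩, funext fun i => sub_eq_zero.2 (k2 i)⟩, rfl⟩
  have h5 : IsClosed {t | ∃ V, (f t, V) ∈ P.Gam y ∧ ∀ i, g i t = P.om (f t) (ξ i t) V} := by
    refine IsSeqClosed.isClosed fun s t hs ht => ?_
    choose V k1 k2 using hs
    obtain ⟨φ, V₀, hφ, k3, k4⟩ := Pre.gam_subseq hy k1 (z₀ := f t)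
      (fun h => P.zero_not (h ▸ hC t)) ((hf.continuous.tendsto t).comp ht)
    have ht' := ht.comp hφ.tendsto_atTop
    refine ⟨V₀, k3, fun i => tendsto_nhds_unique (((hg i).continuous.tendsto t).comp ht') ?_⟩
    refine (Pre.tendsto_om (hC t) (hT i t) (Pre.gam_T k3).2 ((hf.continuous.tendsto t).comp ht')
      (((hξ i).continuous.tendsto t).comp ht') k4 (Eventually.of_forall fun n =>
        ⟨hC _, hT _ _, (Pre.gam_T (k1 (φ n))).2⟩)).congr fun n => (k2 (φ n) i).symm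
  exact fun t => (h4.eq_univ h5 h0).ge (mem_univ t)

end Vale.Agent.P292
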