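import Vale.Agent.P292.KKey1
import Vale.Agent.P292.KRl
import Vale.Agent.P292.KDesc

/-! Continuation of a branch along a free line. -/

set_option maxSynthPendingDepth 3

open scoped Topology
open Set Filter Asymptotics

noncomputable section

namespace Vale.Agent.P292

variable {κ α : Type} [Fintype κ] [Fintype α] {P : Pre κ}

section

variable {H : Type} [NormedAddCommGroup H] [NormedSpace ℂ H] {w : κ → ℕ} {ψ : H → Co w 1}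
  {lam : H → ℂ × ℂ →L[ℂ] ℂ} {x : H × ℂ × ℂ}

theorem KLine1_an (hψ : AnalyticAt ℂ ψ x.1) :
    AnalyticAt ℂ (fun x : H × ℂ × ℂ => ev w 1 (ψ x.1) x.2) x :=
  (analytic_ev (ψ x.1, x.2)).comp_of_eq ((hψ.comp analyticAt_fst).prod analyticAt_snd) rfl

theorem KLine1_dg (hψ : AnalyticAt ℂ ψ x.1) (h : H) (e : ℂ × ℂ) :
    fderiv ℂ (fun x : H × ℂ × ℂ => ev w 1 (ψ x.1) x.2) x (h, e) =
      ev w 1 (fderiv ℂ ψ x.1 h) x.2 + fderiv ℂ (ev w 1 (ψ x.1)) x.2 e := by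
  have h1 := ((analytic_ev (ψ x.1, x.2)).differentiableAt.hasFDerivAt.comp x
    ((hψ.differentiableAt.hasFDerivAt.comp x hasFDerivAt_fst).prodMk hasFDerivAt_snd)).fderiv
  rw [← fderiv_ev_joint]
  exact congrArg (fun L : H × ℂ × ℂ →L[ℂ] κ → ℂ => L (h, e)) h1

theorem KLine1_chain (hψ : AnalyticAt ℂ ψ x.1) (hl : AnalyticAt ℂ lam x.1) {K : (κ → ℂ) → ℂ}
    (hK : AnalyticAt ℂ K (ev w 1 (ψ x.1) x.2))
    (h0 : ∀ᶠ p in 𝓝 x, lam p.1 p.2 = K (ev w 1 (ψ p.1) p.2)) (h : H) (e : ℂ × ℂ) :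
    lam x.1 e + fderiv ℂ lam x.1 h x.2 = fderiv ℂ K (ev w 1 (ψ x.1) x.2)
      (ev w 1 (fderiv ℂ ψ x.1 h) x.2 + fderiv ℂ (ev w 1 (ψ x.1)) x.2 e) := by
  have h1 := (hl.differentiableAt.hasFDerivAt.comp x hasFDerivAt_fst).clm_apply hasFDerivAt_snd
  have h2 := (hK.differentiableAt.hasFDerivAt.comp x
    (KLine1_an hψ).differentiableAt.hasFDerivAt).congr_of_eventuallyEq h0
  rw [← KLine1_dg hψ]
  simpa using congrArg (fun L : H × ℂ × ℂ →L[ℂ] ℂ => L (h, e)) (h1.unique h2)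

theorem KLine1_lam {K : (κ → ℂ) → ℂ} {z : H} {v : ℂ × ℂ} (hψ : AnalyticAt ℂ ψ z)
    [CompleteSpace H] (hK : AnalyticAt ℂ K (ev w 1 (ψ z) v)) :
    AnalyticAt ℂ (fun z => fderiv ℂ (fun v => K (ev w 1 (ψ z) v)) v) z := by
  have h1 : AnalyticAt ℂ (fun x : H × ℂ × ℂ => K (ev w 1 (ψ x.1) x.2)) (z, v) :=
    hK.comp_of_eq (KLine1_an (x := (z, v)) hψ) rfl
  have h2 : AnalyticAt ℂ (fun z : H => (z, v)) z := analyticAt_id.prod analyticAt_const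
  have h3 := ((ContinuousLinearMap.compL ℂ (ℂ × ℂ) (H × ℂ × ℂ) ℂ).flip
    (ContinuousLinearMap.inr ℂ H (ℂ × ℂ))).analyticAt _ |>.comp (h1.fderiv.comp_of_eq h2 rfl)
  refine h3.congr ((h2.continuousAt.eventually h1.eventually_analyticAt).mono fun z' hz => ?_)
  have h4 := (hz.differentiableAt.hasFDerivAt.comp v (hasFDerivAt_prodMk_right z' v)).fderiv
  exact h4.symm

end

theorem KLine1_wg {D : Set (ℂ × ℂ)} (hD : IsOpen D) {v₀ v : ℂ × ℂ} (h0 : v₀ ∈ D) (hv : v ≠ 0) :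
    ∃ a ∈ D, wg a v ≠ 0 := by
  by_contra hc
  push Not at hc
  have key : ∀ e, wg e v = 0 := fun e => by
    have h1 : Tendsto (fun t : ℂ => v₀ + t • e) (𝓝[≠] 0) (𝓝 v₀) := by
      simpa using ((by fun_prop : Continuous fun t : ℂ => v₀ + t • e).tendsto 0).mono_left
        (nhdsWithin_le_nhds (s := {0}ᶜ))
    obtain ⟨t, h2, h3⟩ := ((h1.eventually (hD.mem_nhds h0)).and self_mem_nhdsWithin).exists
    have h4 := hc _ h2
    have h5 := hc _ h0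
    simp only [wg, Prod.fst_add, Prod.snd_add, Prod.smul_fst, Prod.smul_snd, smul_eq_mul] at h4 h5 ⊢
    exact (mul_eq_zero.1 (by linear_combination h4 - h5)).resolve_left h3
  exact hv (Prod.ext (by simpa [wg] using key (0, 1)) (by simpa [wg] using key (1, 0)))

theorem KLine1_per (G : P.Eqs α) {y : κ → ℂ} (hy : y ≠ 0) {K : (κ → ℂ) → ℂ} {k : ℕ}
    {ψ : (Fin k → ℂ) → Co P.w 1} {lam : (Fin k → ℂ) → ℂ × ℂ →L[ℂ] ℂ} {z : Fin k → ℂ}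
    (hψ : AnalyticAt ℂ ψ z) (hl : AnalyticAt ℂ lam z) (hM : ∀ᶠ z' in 𝓝 z, ψ z' ∈ P.M 1)
    {a v : ℂ × ℂ} (hw : wg a v ≠ 0) (hK : P.Good y K (ev P.w 1 (ψ z) a))
    (h0 : ∀ᶠ p in 𝓝 (z, a), lam p.1 p.2 = K (ev P.w 1 (ψ p.1) p.2)) :
    ∃ V, (ev P.w 1 (ψ z) v, V) ∈ P.Gam y ∧
      ∀ h, fderiv ℂ lam z h v = P.om (ev P.w 1 (ψ z) v) (ev P.w 1 (fderiv ℂ ψ z h) v) V := by
  have hγ : Differentiable ℂ fun t : ℂ => a + t • (v - a) := by fun_prop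
  have hne : ∀ t : ℂ, a + t • (v - a) ≠ 0 := fun t h => by
    have h1 := congrArg Prod.fst h
    have h2 := congrArg Prod.snd h
    simp only [wg, Prod.fst_add, Prod.snd_add, Prod.smul_fst, Prod.smul_snd, smul_eq_mul,
      Prod.fst_sub, Prod.snd_sub, Prod.fst_zero, Prod.snd_zero] at h1 h2 hw
    exact hw (by linear_combination (v.2 - a.2) * h1 - (v.1 - a.1) * h2)
  have hd : ∀ c : Co P.w 1, Differentiable ℂ fun t : ℂ => ev P.w 1 c (a + t • (v - a)) :=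
    fun c t => (analytic_ev_right c _).differentiableAt.comp t (hγ t)
  have hT := fun h t => Pre.tangent_J hψ.differentiableAt hM h _ (hne t)
  have h1 : Tendsto (fun t : ℂ => a + t • (v - a)) (𝓝 0) (𝓝 a) := by
    simpa using hγ.continuous.tendsto 0
  obtain ⟨V, h2, h3⟩ := P.persist G hy (ι := Fin k) (hd (ψ z))
    (fun i => hd (fderiv ℂ ψ z (Pi.single i 1)))
    (fun i => (fderiv ℂ lam z (Pi.single i 1)).differentiable.comp hγ)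
    (fun t => hM.self_of_nhds _ (hne t)) (fun i => hT _) (t₀ := 0) (by
      filter_upwards [((analytic_ev_right (ψ z) a).continuousAt.tendsto.comp h1).eventually
        hK.nearby, (tendsto_const_nhds.prodMk_nhds h1).eventually h0.eventually_nhds] with t h2 h3
      obtain ⟨-, V, h4, h5⟩ := h2.2.self_of_nhds (hM.self_of_nhds _ (hne t))
      refine ⟨V, h4, fun i => Eq.trans ?_ (h5 _ (hT _ t))⟩
      simpa using KLine1_chain (x := (z, a + t • (v - a))) hψ hl h2.1 h3 (Pi.single i 1) 0) 1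
  simp only [one_smul, add_sub_cancel, Function.comp_def] at h2 h3
  refine ⟨V, h2, fun h => ?_⟩
  have h4 : ((ContinuousLinearMap.apply ℂ ℂ v).comp (fderiv ℂ lam z)).toLinearMap =
      (((P.om (ev P.w 1 (ψ z) v)).flip V).comp ((evL P.w 1 v).comp (fderiv ℂ ψ z))).toLinearMap :=
    (Pi.basisFun ℂ (Fin k)).ext fun i => by simpa using h3 i
  exact LinearMap.congr_fun h4 h

theorem Pre.line_germs (G : P.Eqs α) {y : κ → ℂ} (hy : y ≠ 0) {K : (κ → ℂ) → ℂ} {c : Co P.w 1}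
    (hc : c ∈ P.M 1) (hf : P.Free 1 c) {v₀ : ℂ × ℂ} (hv : v₀ ≠ 0)
    (hK : P.Good y K (ev P.w 1 c v₀)) : ∃ (k : ℕ) (z₀ : Fin k → ℂ) (ψ : (Fin k → ℂ) → Co P.w 1)
      (lam : (Fin k → ℂ) → ℂ × ℂ →L[ℂ] ℂ), ψ z₀ = c ∧ AnalyticAt ℂ ψ z₀ ∧
      (∀ᶠ z in 𝓝 z₀, ψ z ∈ P.M 1) ∧
      (∀ v, v ≠ 0 → ∀ τ ∈ P.T (ev P.w 1 c v), ∃ h, ev P.w 1 (fderiv ℂ ψ z₀ h) v = τ) ∧
      (∀ᶠ p in 𝓝 (z₀, v₀), lam p.1 p.2 = K (ev P.w 1 (ψ p.1) p.2)) ∧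
      ∀ v, v ≠ 0 → ∃ K', P.Good y K' (ev P.w 1 c v) ∧
        ∀ᶠ p in 𝓝 (z₀, v), lam p.1 p.2 = K' (ev P.w 1 (ψ p.1) p.2) := by
  obtain ⟨k, π, ψ, r, hch, hr, hψ, hb⟩ := Pre.free_chart G hc hf
  have h0 : ψ (π c) = c := hch.self
  have h1 : ∀ᶠ p in 𝓝 (π c, v₀), (p.1 ∈ Metric.ball (π c) r ∧ p.2 ≠ 0) ∧
      P.Good y K (ev P.w 1 (ψ p.1) p.2) :=
    (((continuous_fst.tendsto _).eventually (Metric.ball_mem_nhds _ hr)).and
      ((continuous_snd.tendsto _).eventually_ne hv)).and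
        ((KLine1_an (x := (π c, v₀)) hch.an).continuousAt.eventually (by
          simpa only [h0] using hK.nearby))
  obtain ⟨δ, hδ, h2⟩ := Metric.eventually_nhds_iff_ball.1 h1
  rw [← ball_prod_same] at h2
  generalize π c = z₀ at *
  have hz := Metric.mem_ball_self (x := z₀) hδ
  have hv₀ := Metric.mem_ball_self (x := v₀) hδ
  have hB : ∀ z ∈ Metric.ball z₀ δ, z ∈ Metric.ball z₀ r := fun z h => (h2 (z, v₀) ⟨h, hv₀⟩).1.1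
  have hM : ∀ z ∈ Metric.ball z₀ δ, ∀ᶠ z' in 𝓝 z, ψ z' ∈ P.M 1 := fun z h =>
    eventually_of_mem (Metric.isOpen_ball.mem_nhds h) fun z' h' => (hb z' (hB z' h')).1
  obtain ⟨lam, hlam⟩ : ∃ lam : (Fin k → ℂ) → ℂ × ℂ →L[ℂ] ℂ,
      lam = fun z => fderiv ℂ (fun v => K (ev P.w 1 (ψ z) v)) v₀ := ⟨_, rfl⟩
  have hl : ∀ z ∈ Metric.ball z₀ δ, AnalyticAt ℂ lam z := fun z h =>
    hlam ▸ KLine1_lam (hψ z (hB z h)) (h2 (z, v₀) ⟨h, hv₀⟩).2.1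
  have h3 : ∀ p ∈ Metric.ball z₀ δ ×ˢ Metric.ball v₀ δ,
      ∀ᶠ p in 𝓝 p, lam p.1 p.2 = K (ev P.w 1 (ψ p.1) p.2) := fun p hp =>
    eventually_of_mem ((Metric.isOpen_ball.prod Metric.isOpen_ball).mem_nhds hp) fun p hp => by
      have h4 : AnalyticOnNhd ℂ (fun v => K (ev P.w 1 (ψ p.1) v)) (Metric.ball v₀ δ) := fun v h =>
        (h2 (p.1, v) ⟨hp.1, h⟩).2.1.comp_of_eq (analytic_ev_right _ v) rfl
      refine (h4.eqOn_of_preconnected_of_eventuallyEq ((lam p.1).analyticOnNhd _)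
        (convex_ball v₀ δ).isPreconnected hv₀ ?_ hp.2).symm
      rw [hlam]
      exact P.key1 G hy (hb _ (hB _ hp.1)).1 hv (h2 (p.1, v₀) ⟨hp.1, hv₀⟩).2
  have hU : IsOpen (Metric.ball z₀ δ ×ˢ ({0}ᶜ : Set (ℂ × ℂ))) :=
    Metric.isOpen_ball.prod isOpen_compl_singleton
  have hs : ∀ u ∈ Metric.ball z₀ δ ×ˢ ({0}ᶜ : Set (ℂ × ℂ)), P.T (ev P.w 1 (ψ u.1) u.2) ≤
      (fderiv ℂ (fun x : (Fin k → ℂ) × ℂ × ℂ => ev P.w 1 (ψ x.1) x.2) u).range := fun u hu τ hτ => by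
    obtain ⟨h, h4⟩ := (hb _ (hB _ hu.1)).2.2 _ hu.2 τ hτ
    exact ⟨(h, 0), (KLine1_dg (hψ _ (hB _ hu.1)) h 0).trans (by rw [map_zero, add_zero, h4])⟩
  have hC : ∀ u ∈ Metric.ball z₀ δ ×ˢ ({0}ᶜ : Set (ℂ × ℂ)), ev P.w 1 (ψ u.1) u.2 ∈ P.C :=
    fun u hu => (hb _ (hB _ hu.1)).1 _ hu.2
  have hd := P.descent hU (isPreconnected_prod_compl_zero (convex_ball z₀ δ).isPreconnected)
    (Φ := fun p => lam p.1 p.2) (fun u hu => KLine1_an (hψ _ (hB _ hu.1)))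
    (fun u hu => ((ContinuousLinearMap.id ℂ (ℂ × ℂ →L[ℂ] ℂ)).analyticAt_bilinear _).comp₂
      ((hl _ hu.1).comp analyticAt_fst) analyticAt_snd) hC hs (u₀ := (z₀, v₀)) ⟨hz, hv⟩
    (h2 _ ⟨hz, hv₀⟩).2.1 (h3 _ ⟨hz, hv₀⟩)
  refine ⟨k, z₀, ψ, lam, h0, hψ _ (hB _ hz), hM _ hz, fun v h => h0 ▸ (hb _ (hB _ hz)).2.2 v h,
    h3 _ ⟨hz, hv₀⟩, fun v h => ?_⟩
  obtain ⟨K', h4, h5⟩ := hd (z₀, v) ⟨hz, h⟩
  obtain ⟨σ, h6, h7, h8⟩ := P.exists_section (KLine1_an (x := (z₀, v)) (hψ _ (hB _ hz)))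
    (eventually_of_mem (hU.mem_nhds ⟨hz, h⟩) hC) (hs _ ⟨hz, h⟩)
  simp only [h0] at h4 h6 h7 h8
  have h9 := h6.continuousAt.tendsto
  rw [h7] at h9
  refine ⟨K', ⟨h4, ?_⟩, h5⟩
  filter_upwards [h8, h4.eventually_analyticAt, h9.eventually h5.eventually_nhds,
    h9.eventually (hU.mem_nhds ⟨hz, h⟩)] with q q1 q2 q3 q4 hq
  have q5 := q1 hq
  generalize σ q = x at q3 q4 q5
  subst q5
  have q6 := KLine1_chain (hψ _ (hB _ q4.1)) (hl _ q4.1) q2 q3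
  obtain ⟨a, ha, hw⟩ := KLine1_wg Metric.isOpen_ball hv₀ q4.2
  obtain ⟨V, q7, q8⟩ := KLine1_per G hy (hψ _ (hB _ q4.1)) (hl _ q4.1) (hM _ q4.1) hw
    (h2 (x.1, a) ⟨q4.1, ha⟩).2 (h3 (x.1, a) ⟨q4.1, ha⟩)
  refine ⟨?_, V, q7, fun τ hτ => ?_⟩
  · have q9 := q6 0 x.2
    rw [map_zero, map_zero, ← evL_apply x.2 0, map_zero, ev_euler, q3.self_of_nhds] at q9
    simpa using q9.symm
  · obtain ⟨e, rfl⟩ := (hb _ (hB _ q4.1)).2.2 _ q4.2 τ hτ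
    simpa [q8] using (q6 e 0).symm

end Vale.Agent.P292
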