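import Vale.Agent.P292.KIft
import Vale.Agent.P292.KFree
import Vale.Agent.P292.KBq

/-! The space of free curves is a manifold. Hints: `star_pt`: in a chart `π`, `χ` of the cone at `p`
the map `(q ↦ q - χ (π q))` vanishes on the cone; with `q' = χ (π q)` one has
`val q = val q - val q' = dG p (q - q') + o(‖q - q'‖)` (strict differentiability), `q - q'` lies in
the kernel of `π`, on which `dG p` is injective (`G.tan`), so `‖q - q'‖ ≤ C ‖val q‖`; the range
of `dG p` is closed. `mfd_M`: let `𝔾 c` be the coefficients of `val (ev c ·)` (`exists_co`;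
analytic because evaluation at finitely many points has a linear left inverse); apply `ift_star`
with `star_pt` at each `v` and `h1`; `M_nhds`. `free_open`: in a chart the values at `e0` of the
range of the differential of `ψ` stay spanning (`Pre.chart`), they lie in `J` by `tangent_J`;
`free_of_freeAt`. -/

set_option maxSynthPendingDepth 3

open scoped Topology
open Set Filter Asymptotics

noncomputable section

namespace Vale.Agent.P292

variable {κ α : Type} [Fintype κ] [Fintype α] {P : Pre κ}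

namespace Pre

variable (G : P.Eqs α) {d : ℕ} {c : Co P.w d}

theorem kmfd0_tan {F : Type} [NormedAddCommGroup F] [NormedSpace ℂ F] {g : F → κ → ℂ} {x : F}
    (hg : DifferentiableAt ℂ g x) (hm : ∀ᶠ y in 𝓝 x, g y ∈ P.C) (h : F) :
    fderiv ℂ g x h ∈ P.T (g x) := by
  have hp := hm.self_of_nhds
  obtain ⟨π, χ, hc, hT⟩ := P.chart hp
  have h1 : g =ᶠ[𝓝 x] fun y => χ (π (g y)) := by
    filter_upwards [hm, hg.continuousAt.eventually hc.left] with y h1 h2
    exact (h2 h1).symm
  have h2 := (hc.an.differentiableAt.hasFDerivAt.comp x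
    (π.hasFDerivAt.comp x hg.hasFDerivAt)).congr_of_eventuallyEq h1
  rw [(hT.self_of_nhds hp).1]
  refine ⟨π (fderiv ℂ g x h), ?_⟩
  conv_rhs => rw [h2.fderiv]
  rfl

theorem tangent_J {F : Type} [NormedAddCommGroup F] [NormedSpace ℂ F] {φ : F → Co P.w d} {x : F}
    (hφ : DifferentiableAt ℂ φ x) (hm : ∀ᶠ y in 𝓝 x, φ y ∈ P.M d) (h : F) :
    fderiv ℂ φ x h ∈ P.J d (φ x) := by
  intro v hv
  have h1 := (evL P.w d v).hasFDerivAt.comp x hφ.hasFDerivAt
  have h2 := kmfd0_tan (P := P) h1.differentiableAt (hm.mono fun y hy => hy v hv) h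
  rw [h1.fderiv] at h2
  exact h2

theorem Eqs.dG_zero_iff {p v : κ → ℂ} (hp : p ∈ P.C) : G.dG p v = 0 ↔ v ∈ P.T p := by
  rw [G.tan p hp, funext_iff]
  rfl

theorem Eqs.val_act (l : ℂ) (p : κ → ℂ) : G.val (act P.w l p) = act G.deg l (G.val p) := by
  funext a
  rw [act_apply]
  simp only [Eqs.val]
  rw [MvPolynomial.eval_eq', MvPolynomial.eval_eq', Finset.mul_sum]
  refine Finset.sum_congr rfl fun m hm => ?_
  have h1 := G.hom a (MvPolynomial.mem_support_iff.1 hm)
  rw [Finsupp.weight_apply, Finsupp.sum_fintype _ _ (by simp)] at h1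
  simp only [act_apply, mul_pow, Finset.prod_mul_distrib, ← pow_mul, Finset.prod_pow_eq_pow_sum]
  rw [← h1]
  simp only [smul_eq_mul, mul_comm (P.w _)]
  ring

theorem Eqs.kmfd0_an (p : κ → ℂ) : AnalyticAt ℂ G.val p :=
  analyticAt_pi_iff.2 fun a =>
    AnalyticOnNhd.eval_continuousLinearMap (ContinuousLinearMap.id ℂ (κ → ℂ)) (G.G a) p
      (mem_univ _)

theorem Eqs.kmfd0_fd (p v : κ → ℂ) : fderiv ℂ G.val p v = G.dG p v := by
  funext a
  have h := fderiv_pi (𝕜 := ℂ) (φ := fun a q => G.val q a) (x := p) fun a =>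
    (analyticAt_pi_iff.1 (G.kmfd0_an p) a).differentiableAt
  rw [show fderiv ℂ G.val p = _ from h]
  rfl

theorem Eqs.kmfd0_zero {p : κ → ℂ} : G.val p = 0 ↔ p ∈ insert 0 P.C := by
  rw [← G.zero p, funext_iff]
  rfl

theorem Eqs.star_pt {p : κ → ℂ} (hp : p ∈ P.C) {x : ℕ → κ → ℂ} {s : ℕ → ℂ} {q : α → ℂ}
    (hx : Tendsto x atTop (𝓝 p)) (hq : Tendsto (fun n => s n • G.val (x n)) atTop (𝓝 q)) :
    ∃ τ, G.dG p τ = q := by
  obtain ⟨π, χ, hc, hT⟩ := P.chart hp
  set D := fderiv ℂ G.val p with hD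
  have hπ : Tendsto (fun n => π (x n)) atTop (𝓝 (π p)) := (π.continuous.tendsto p).comp hx
  have hx' : Tendsto (fun n => χ (π (x n))) atTop (𝓝 p) := hc.tendsto.comp hπ
  have hr := hπ.eventually hc.right
  have h1 := (G.kmfd0_an p).hasStrictFDerivAt.isLittleO.comp_tendsto (hx.prodMk_nhds hx')
  set y : ℕ → κ → ℂ := fun n => x n - χ (π (x n)) with hy
  have h2 : (fun n => G.val (x n) - D (y n)) =o[atTop] y := by
    refine h1.congr' ?_ EventuallyEq.rfl
    filter_upwards [hr] with n hn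
    simp only [Function.comp, G.kmfd0_zero.2 (mem_insert_of_mem _ hn.1), sub_zero, hy, hD]
  have hker : LinearMap.ker (D.prod π).toLinearMap = ⊥ := by
    rw [LinearMap.ker_eq_bot']
    intro t ht
    have h3 : D t = 0 := congrArg Prod.fst ht
    rw [hD, G.kmfd0_fd, G.dG_zero_iff hp] at h3
    exact (hT.self_of_nhds hp).2.2 t h3 (congrArg Prod.snd ht)
  obtain ⟨K, -, hK⟩ := (D.prod π).toLinearMap.exists_antilipschitzWith hker
  have h3 : y =O[atTop] fun n => D (y n) := by
    refine IsBigO.of_bound K ?_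
    filter_upwards [hr] with n hn
    have h4 := hK.le_mul_norm (map_zero _) (y n)
    have h5 : π (y n) = 0 := by simp only [hy, map_sub, hn.2, sub_self]
    have h6 : (D.prod π).toLinearMap (y n) = (D (y n), 0) := by rw [← h5]; rfl
    rwa [h6, Prod.norm_mk, norm_zero, max_eq_left (norm_nonneg _)] at h4
  have h4 := h2.trans_isBigO h3
  have h5 : (fun n => G.val (x n) - D (y n)) =o[atTop] fun n => G.val (x n) := by
    refine h4.trans_isBigO (h4.right_isBigO_add.congr_right fun n => ?_)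
    simp
  have h6 := ((isBigO_refl s atTop).smul_isLittleO h5).trans_isBigO (hq.isBigO_one ℝ)
  have h7 := hq.sub ((isLittleO_one_iff ℝ).1 h6)
  rw [sub_zero] at h7
  have h8 : q ∈ (D.range : Set (α → ℂ)) := by
    refine D.range.closed_of_finiteDimensional.mem_of_tendsto h7 (Eventually.of_forall fun n => ?_)
    refine ⟨s n • y n, ?_⟩
    simp [smul_sub]
  obtain ⟨τ, hτ⟩ := h8
  exact ⟨τ, (G.kmfd0_fd p τ).symm.trans hτ⟩

theorem kmfd0_ext {w : α → ℕ} {a b : Co w d} (h : ∀ v, v ≠ 0 → ev w d a v = ev w d b v) :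
    a = b := by
  have h0 : (e0 : ℂ × ℂ) ≠ 0 := by simp [e0]
  exact ev_inj (a := e0) ((eventually_ne_nhds h0).mono h)

theorem kmfd0_analytic {F : Type} [NormedAddCommGroup F] [NormedSpace ℂ F] {w : α → ℕ}
    {g : F → Co w d} {x : F} (h : ∀ v, v ≠ 0 → AnalyticAt ℂ (fun y => ev w d (g y) v) x) :
    AnalyticAt ℂ g x := by
  let L : {v : ℂ × ℂ // v ≠ 0} × α → Co w d →ₗ[ℂ] ℂ := fun i =>
    (LinearMap.proj i.2).comp (evL w d i.1).toLinearMap
  have key : ∀ K : Co w d →ₗ[ℂ] ℂ, AnalyticAt ℂ (fun y => K (g y)) x := by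
    intro K
    have hK : K ∈ Submodule.span ℂ (range L) := by
      refine FiniteDimensional.mem_span_of_iInf_ker_le_ker fun t ht => ?_
      have h1 : t = 0 := kmfd0_ext fun v hv => by
        rw [show ev w d 0 v = 0 from map_zero (evL w d v)]
        funext a
        exact (Submodule.mem_iInf _).1 ht (⟨v, hv⟩, a)
      rw [h1]
      exact zero_mem _
    induction hK using Submodule.span_induction with
    | mem K hK =>
      obtain ⟨i, rfl⟩ := hK
      exact analyticAt_pi_iff.1 (h i.1 i.1.2) i.2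
    | zero => exact analyticAt_const
    | add K K' _ _ h1 h2 => exact h1.add h2
    | smul a K _ h1 => exact h1.const_smul (c := a)
  exact analyticAt_pi_iff.2 fun i => analyticAt_pi_iff.2 fun j =>
    key ⟨⟨fun t => t i j, fun _ _ => rfl⟩, fun _ _ => rfl⟩

include G

theorem mfd_M (hc : c ∈ P.M d) (hf : P.Free d c) : MfdAt (P.M d) c (P.J d c) := by
  have hex : ∀ x : Co P.w d, ∃ q : Co G.deg d, ∀ v, v ≠ 0 →
      G.val (ev P.w d x v) = ev G.deg d q v := fun x =>
    exists_co (fun v _ => ((G.kmfd0_an _).comp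
      (analytic_ev_right x v)).differentiableAt.differentiableWithinAt)
      fun l _ v _ => by rw [ev_hom, G.val_act]
  choose 𝔾 h𝔾 using hex
  have han : AnalyticAt ℂ 𝔾 c := kmfd0_analytic fun v hv => by
    simp only [← h𝔾 _ v hv]
    exact (G.kmfd0_an _).comp ((evL P.w d v).analyticAt c)
  have hz : ∀ x, 𝔾 x = 0 ↔ ∀ v, v ≠ 0 → ev P.w d x v ∈ insert 0 P.C := by
    intro x
    have h0 : ∀ v, ev G.deg d 0 v = 0 := fun v => map_zero (evL G.deg d v)
    refine ⟨fun h v hv => ?_, fun h => kmfd0_ext fun v hv => ?_⟩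
    · rw [← G.kmfd0_zero, h𝔾 x v hv, h, h0]
    · rw [← h𝔾 x v hv, h0, G.kmfd0_zero]
      exact h v hv
  have hfd : ∀ δ v, v ≠ 0 → ev G.deg d (fderiv ℂ 𝔾 c δ) v =
      G.dG (ev P.w d c v) (ev P.w d δ v) := by
    intro δ v hv
    have h1 := (evL G.deg d v).hasFDerivAt.comp c han.differentiableAt.hasFDerivAt
    have h2 := (G.kmfd0_an (evL P.w d v c)).differentiableAt.hasFDerivAt.comp c
      (evL P.w d v).hasFDerivAt
    have h3 : evL G.deg d v ∘ 𝔾 = G.val ∘ evL P.w d v := funext fun x => (h𝔾 x v hv).symm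
    rw [h3] at h1
    rw [← G.kmfd0_fd]
    exact congrArg (fun T => T δ) (h1.unique h2)
  have h1 := ift_star han ((hz c).2 fun v hv => mem_insert_of_mem _ (hc v hv)) fun x s q hx hq => by
    obtain ⟨δ, hδ⟩ := h1 G hc hf q fun v hv => by
      refine G.star_pt (hc v hv) (x := fun n => ev P.w d (x n) v) (s := s)
        (((evL P.w d v).continuous.tendsto c).comp hx) ?_
      refine (((evL G.deg d v).continuous.tendsto q).comp hq).congr fun n => ?_
      simp only [Function.comp, map_smul, evL_apply, h𝔾 _ v hv]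
    exact ⟨δ, kmfd0_ext fun v hv => (hfd δ v hv).trans (hδ v hv)⟩
  have h2 : (fderiv ℂ 𝔾 c).ker = P.J d c := by
    ext δ
    have h0 : ∀ v, ev G.deg d 0 v = 0 := fun v => map_zero (evL G.deg d v)
    refine ⟨fun h v hv => ?_, fun h => kmfd0_ext fun v hv => ?_⟩
    · rw [← G.dG_zero_iff (hc v hv), ← hfd δ v hv, show fderiv ℂ 𝔾 c δ = 0 from h, h0]
    · rw [h0]
      exact (hfd δ v hv).trans ((G.dG_zero_iff (hc v hv)).2 (h v hv))
  rw [← h2]
  refine h1.congr ?_
  filter_upwards [M_nhds hc] with x hx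
  exact ⟨fun h => hx ((hz x).1 h), fun h => (hz x).2 fun v hv => mem_insert_of_mem _ (h v hv)⟩

end Pre

end Vale.Agent.P292
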