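import Vale.Agent.P292.KMfd

/-! Smoothing of pairs of free lines. Hints: `chart_smooth`: the map `(c, ε) ↦ (tw ε c, ε)` is a
biholomorphism on `ε ≠ 0` which carries `MQ` to `M 2 × ℂ` and preserves `yE`; so `MQ` is a manifold
at `x` (parametrize by `(z, ε) ↦ (tw ε⁻¹ (ψ z), ε)` and choose a linear left inverse of the
differential, or repeat the proof of the nodal case), then `MfdAt.prod_chart`.
`mfd_node`: choose finitely many points `σ_j(ε) = (s_j, ε / s_j, 1)`, `(ε / t_j, t_j, 1)` on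
`Qc ε` such that evaluation `E_0` at the `σ_j(0)` is injective on `Co G.deg 2` (`evQ_inj`,
polynomials in one variable), hence also `E_ε` for small `ε` with a uniform lower bound; put
`𝔾 (c, ε) = (val (evQ c (σ_j ε)))_j = E_ε (nf)` (`exists_nf`). For `ift_star`: if `s_n 𝔾 (x_n)`
converges then `s_n nf_n` converges to some `q`; by `Qc_approx` and `star_pt` the values of `q` are
in the range of `dG`; solve on both lines by `h1` (`l1 q`, `l2 q`), correct the values at the node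
by freeness, `exists_glue`. So the limit is in the image `I₀` of the directions `(δ, 0)`. The
derivative in the direction `(0, 1)` is such a limit, so some `(δ, 1)` is in the kernel. -/

set_option maxSynthPendingDepth 3

open scoped Topology
open Set Filter Asymptotics

noncomputable section

namespace Vale.Agent.P292

theorem KMfdQ0_finset {V W ι : Type} [AddCommGroup V] [Module ℂ V] [FiniteDimensional ℂ V]
    [AddCommGroup W] [Module ℂ W] (L : ι → V →ₗ[ℂ] W) (h : ∀ v, (∀ i, L i v = 0) → v = 0) :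
    ∃ S : Finset ι, ∀ v, (∀ i ∈ S, L i v = 0) → v = 0 := by
  classical
  obtain ⟨M, ⟨S, rfl⟩, hM⟩ := IsArtinian.set_has_minimal
    (range fun S : Finset ι => ⨅ i ∈ S, LinearMap.ker (L i)) (range_nonempty _)
  refine ⟨S, fun v hv => h v fun i => ?_⟩
  have h1 : (⨅ j ∈ insert i S, LinearMap.ker (L j)) ≤ ⨅ j ∈ S, LinearMap.ker (L j) :=
    biInf_mono fun j hj => Finset.mem_insert_of_mem hj
  have h2 := h1.eq_of_not_lt (hM _ ⟨insert i S, rfl⟩)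
  have h3 : v ∈ ⨅ j ∈ insert i S, LinearMap.ker (L j) := by
    rw [h2]
    simpa only [Submodule.mem_iInf, LinearMap.mem_ker] using hv
  simp only [Submodule.mem_iInf, LinearMap.mem_ker] at h3
  exact h3 i (Finset.mem_insert_self i S)

/-- limits through a family of injective maps -/
theorem KMfdQ0_lim {V F : Type} [NormedAddCommGroup V] [NormedSpace ℂ V] [FiniteDimensional ℂ V]
    [NormedAddCommGroup F] [NormedSpace ℂ F] [FiniteDimensional ℂ F] {E : ℂ → V →L[ℂ] F}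
    (hE : Continuous E) (hi : ∀ v, E 0 v = 0 → v = 0) :
    (∀ᶠ ε in 𝓝 (0 : ℂ), ∀ v, E ε v = 0 → v = 0) ∧ ∀ (ε : ℕ → ℂ) (q : ℕ → V) (Q : F),
      Tendsto ε atTop (𝓝 0) → Tendsto (fun n => E (ε n) (q n)) atTop (𝓝 Q) →
        ∃ q₀, Tendsto q atTop (𝓝 q₀) ∧ E 0 q₀ = Q := by
  have := FiniteDimensional.complete ℂ V
  obtain ⟨R₀, hR₀⟩ := (E 0 : V →ₗ[ℂ] F).exists_leftInverse_of_injective
    (LinearMap.ker_eq_bot'.2 hi)
  let R : F →L[ℂ] V := LinearMap.toContinuousLinearMap R₀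
  have hR : R.comp (E 0) = 1 := by
    ext v
    exact LinearMap.congr_fun hR₀ v
  have hc : Continuous fun ε => R.comp (E ε) := continuous_const.clm_comp hE
  have ht : Tendsto (fun ε => R.comp (E ε)) (𝓝 0) (𝓝 ((1 : (V →L[ℂ] V)ˣ) : V →L[ℂ] V)) := by
    simpa [hR] using hc.tendsto 0
  have hu : ∀ᶠ ε in 𝓝 (0 : ℂ), IsUnit (R.comp (E ε)) :=
    ht.eventually (Units.isOpen.mem_nhds (Units.isUnit 1))
  have hq : ∀ ε v, IsUnit (R.comp (E ε)) → Ring.inverse (R.comp (E ε)) (R (E ε v)) = v :=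
    fun ε v h => DFunLike.congr_fun (Ring.inverse_mul_cancel _ h) v
  refine ⟨hu.mono fun ε h v hv => ?_, fun ε q Q hε hQ => ?_⟩
  · rw [← hq ε v h, hv, map_zero, map_zero]
  have h1 : Tendsto (fun n => Ring.inverse (R.comp (E (ε n)))) atTop (𝓝 1) := by
    simpa [Function.comp_def] using
      ((NormedRing.inverse_continuousAt (1 : (V →L[ℂ] V)ˣ)).tendsto.comp ht).comp hε
  have h2 : Tendsto q atTop (𝓝 (R Q)) := by
    have := (isBoundedBilinearMap_apply.continuous.tendsto ((1 : V →L[ℂ] V), R Q)).comp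
      (h1.prodMk_nhds ((R.continuous.tendsto Q).comp hQ))
    refine this.congr' ((hε.eventually hu).mono fun n hn => hq _ _ hn)
  refine ⟨R Q, h2, tendsto_nhds_unique ?_ hQ⟩
  exact (isBoundedBilinearMap_apply.continuous.tendsto (E 0, R Q)).comp
    (((hE.tendsto 0).comp hε).prodMk_nhds h2)

/-- the test points -/
def KMfdQ0_pt : ℂ ⊕ ℂ → ℂ → ℂ × ℂ × ℂ
  | .inl t, ε => (1, ε * t ^ 2, t)
  | .inr s, ε => (ε * s ^ 2, 1, s)

theorem KMfdQ0_pt_mem (j : ℂ ⊕ ℂ) (ε : ℂ) : KMfdQ0_pt j ε ∈ Qc ε := by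
  cases j <;> simp [KMfdQ0_pt, Qc]

theorem KMfdQ0_pt_ne (j : ℂ ⊕ ℂ) (ε : ℂ) : KMfdQ0_pt j ε ≠ 0 := by
  cases j <;> simp [KMfdQ0_pt]

theorem KMfdQ0_pt_an (j : ℂ ⊕ ℂ) (ε : ℂ) : AnalyticAt ℂ (KMfdQ0_pt j) ε := by
  cases j with
  | inl t =>
    exact analyticAt_const.prod ((analyticAt_id.mul analyticAt_const).prod analyticAt_const)
  | inr s =>
    exact (analyticAt_id.mul analyticAt_const).prod (analyticAt_const.prod analyticAt_const)

variable {κ α : Type} [Fintype κ] [Fintype α] {P : Pre κ}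

theorem KMfdQ0_line {w : κ → ℕ} {a : Co w 1} (h : ∀ t, ev w 1 a (1, t) = 0) (v : ℂ × ℂ) :
    ev w 1 a v = 0 := by
  have h0 : ∀ v, ev w 1 0 v = 0 := fun v => (evL w 1 v).map_zero
  have h1 : a = 0 := by
    refine ev_inj (a := (1, 0)) ?_
    have : ∀ᶠ v : ℂ × ℂ in 𝓝 (1, 0), v.1 ≠ 0 :=
      continuous_fst.continuousAt.eventually_ne one_ne_zero
    filter_upwards [this] with v hv
    have e : v = v.1 • ((1 : ℂ), v.2 / v.1) := by
      ext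
      · simp
      · simp only [Prod.smul_mk, smul_eq_mul]; field_simp
    rw [h0, e, ev_hom, h, map_zero]
  rw [h1, h0]

theorem KMfdQ0_inj (w : κ → ℕ) : ∃ S : Finset (ℂ ⊕ ℂ), ∀ q : Co w 2,
    (∀ j ∈ S, evQ w q (KMfdQ0_pt j 0) = 0) → q = 0 := by
  refine KMfdQ0_finset (fun j => (evQL w (KMfdQ0_pt j 0) : Co w 2 →ₗ[ℂ] κ → ℂ)) fun q h => ?_
  refine evQ_inj (ε := 0) ?_
  rintro ⟨s, t, r⟩ hσ -
  have h0 : s * t = 0 := by simpa [Qc] using hσ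
  rcases mul_eq_zero.1 h0 with rfl | rfl
  · rw [← ev_l2]
    refine KMfdQ0_line (fun t => ?_) _
    rw [ev_l2]
    simpa [KMfdQ0_pt] using h (.inr t)
  · rw [← ev_l1]
    refine KMfdQ0_line (fun t => ?_) _
    rw [ev_l1]
    simpa [KMfdQ0_pt] using h (.inl t)

theorem KMfdQ0_tend {w : κ → ℕ} {c : ℕ → Co w 2} {σ : ℕ → ℂ × ℂ × ℂ} {c₀ : Co w 2}
    {σ₀ : ℂ × ℂ × ℂ} (hc : Tendsto c atTop (𝓝 c₀)) (hσ : Tendsto σ atTop (𝓝 σ₀)) :
    Tendsto (fun n => evQ w (c n) (σ n)) atTop (𝓝 (evQ w c₀ σ₀)) :=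
  by simpa only [Function.comp_def] using
    (analytic_evQ (c₀, σ₀)).continuousAt.tendsto.comp (hc.prodMk_nhds hσ)

theorem KMfdQ0_an {w : κ → ℕ} (j : ℂ ⊕ ℂ) (x : Co w 2 × ℂ) :
    AnalyticAt ℂ (fun x : Co w 2 × ℂ => evQ w x.1 (KMfdQ0_pt j x.2)) x := by
  have h1 : AnalyticAt ℂ (fun x : Co w 2 × ℂ => (x.1, KMfdQ0_pt j x.2)) x :=
    analyticAt_fst.prod ((KMfdQ0_pt_an j x.2).comp (f := Prod.snd) analyticAt_snd)
  simpa only [Function.comp_def] using (analytic_evQ (x.1, KMfdQ0_pt j x.2)).comp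
    (f := fun x : Co w 2 × ℂ => (x.1, KMfdQ0_pt j x.2)) h1

namespace Pre

variable (G : P.Eqs α)

theorem KMfdQ0_val_an (p : κ → ℂ) : AnalyticAt ℂ G.val p :=
  analyticAt_pi_iff.2 fun a => AnalyticOnNhd.eval_mvPolynomial (G.G a) p (mem_univ p)

omit [Fintype α] in
theorem KMfdQ0_dG (p v : κ → ℂ) : fderiv ℂ G.val p v = G.dG p v := by
  have h : ∀ a, DifferentiableAt ℂ (fun q : κ → ℂ => MvPolynomial.eval q (G.G a)) p := fun a =>
    (AnalyticOnNhd.eval_mvPolynomial (G.G a) p (mem_univ p)).differentiableAt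
  rw [show G.val = fun q a => MvPolynomial.eval q (G.G a) from rfl, fderiv_pi h]
  rfl

/-- solving the linearized equations on a pair of free lines -/
theorem KMfdQ0_solve {c : Co P.w 2} (hx : P.Nod (c, 0)) (q : Co G.deg 2)
    (hq : ∀ σ ∈ Qc 0, σ ≠ 0 → ∃ τ, G.dG (evQ P.w c σ) τ = evQ G.deg q σ) :
    ∃ δ : Co P.w 2, ∀ j, G.dG (evQ P.w c (KMfdQ0_pt j 0)) (evQ P.w δ (KMfdQ0_pt j 0)) =
      evQ G.deg q (KMfdQ0_pt j 0) := by
  obtain ⟨m1, m2⟩ := mem_MQ_zero.1 hx.1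
  obtain ⟨δ1, h1'⟩ := h1 G m1 hx.2.2.1 (l1 G.deg q) fun v hv => by
    obtain ⟨s, r⟩ := v
    rw [ev_l1, ev_l1]
    exact hq _ (by simp [Qc]) fun h => hv (by simpa using h)
  obtain ⟨δ2, h2'⟩ := h1 G m2 hx.2.2.2 (l2 G.deg q) fun v hv => by
    obtain ⟨s, r⟩ := v
    rw [ev_l2, ev_l2]
    exact hq _ (by simp [Qc]) fun h => hv (by simpa using h)
  have he : e1 ≠ 0 := by simp [e1]
  have hu : ev P.w 1 (l1 P.w c) e1 = ev P.w 1 (l2 P.w c) e1 := by rw [e1, ev_l1, ev_l2]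
  have hu' : ev G.deg 1 (l1 G.deg q) e1 = ev G.deg 1 (l2 G.deg q) e1 := by rw [e1, ev_l1, ev_l2]
  have hT : ev P.w 1 δ1 e1 - ev P.w 1 δ2 e1 ∈ P.T (ev P.w 1 (l2 P.w c) e1) := by
    rw [← G.dG_zero_iff (m2 e1 he), ← KMfdQ0_dG, map_sub, KMfdQ0_dG, KMfdQ0_dG, h2' e1 he, ← hu,
      h1' e1 he, hu', sub_self]
  obtain ⟨η, hη, hη1⟩ := hx.2.2.2 e1 he _ hT
  have hadd : ∀ v, ev P.w 1 (δ2 + η) v = ev P.w 1 δ2 v + ev P.w 1 η v := fun v =>
    (evL P.w 1 v).map_add _ _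
  obtain ⟨δ, d1, d2⟩ := exists_glue (a := δ1) (b := δ2 + η) (by rw [hadd, hη1, add_sub_cancel])
  refine ⟨δ, fun j => ?_⟩
  cases j with
  | inl t =>
    simp only [KMfdQ0_pt, zero_mul, ← ev_l1, d1]
    exact h1' _ (by simp)
  | inr s =>
    simp only [KMfdQ0_pt, zero_mul, ← ev_l2, d2]
    have hv : ((1 : ℂ), s) ≠ 0 := by simp
    rw [hadd, ← KMfdQ0_dG, map_add, KMfdQ0_dG, KMfdQ0_dG, h2' _ hv,
      (G.dG_zero_iff (m2 _ hv)).2 (hη _ hv), add_zero]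

include G

theorem mfd_node {x : Co P.w 2 × ℂ} (hx : P.Nod x) : ∃ T, MfdAt P.MQ x T ∧
    (∀ δ ∈ P.JQ x, (δ, (0 : ℂ)) ∈ T) ∧ ∃ δ, (δ, (1 : ℂ)) ∈ T := by
  obtain ⟨c, ε₀⟩ := x
  obtain rfl : ε₀ = 0 := hx.2.1
  obtain ⟨S, hS⟩ := KMfdQ0_inj G.deg
  let E : ℂ → Co G.deg 2 →L[ℂ] S → α → ℂ := fun ε =>
    ContinuousLinearMap.pi fun j => evQL G.deg (KMfdQ0_pt j ε)
  have hE : Continuous E := continuous_clm_apply.2 fun q => continuous_pi fun j =>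
    continuous_iff_continuousAt.2 fun ε => (analytic_evQ (q, KMfdQ0_pt j ε)).continuousAt.comp
      (f := fun ε => (q, KMfdQ0_pt j ε))
      (continuousAt_const.prodMk (KMfdQ0_pt_an j ε).continuousAt)
  obtain ⟨hi, hl⟩ := KMfdQ0_lim hE fun q h => hS q fun j hj => congrFun h ⟨j, hj⟩
  let 𝔾 : Co P.w 2 × ℂ → S → α → ℂ := fun x j => G.val (evQ P.w x.1 (KMfdQ0_pt j x.2))
  have han : AnalyticAt ℂ 𝔾 (c, 0) := analyticAt_pi_iff.2 fun j =>
    (KMfdQ0_val_an G _).comp (f := fun x : Co P.w 2 × ℂ => evQ P.w x.1 (KMfdQ0_pt j x.2))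
      (KMfdQ0_an j _)
  have hz : ∀ x ∈ P.MQ, 𝔾 x = 0 := fun x hx => funext fun j => funext fun a =>
    (G.zero _).2 (Or.inr (hx _ (KMfdQ0_pt_mem j _) (KMfdQ0_pt_ne j _))) a
  have hnf : ∀ x : Co P.w 2 × ℂ, ∃ q : Co G.deg 2, (∀ σ ∈ Qc x.2, evQ G.deg q σ =
      G.val (evQ P.w x.1 σ)) ∧ E x.2 q = 𝔾 x := fun x => by
    obtain ⟨q, hq⟩ := exists_nf G.hom x.1 x.2
    exact ⟨q, fun σ hσ => funext (hq σ hσ), funext fun j => funext (hq _ (KMfdQ0_pt_mem j _))⟩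
  have hd : ∀ δ (j : S), fderiv ℂ 𝔾 (c, 0) (δ, 0) j =
      G.dG (evQ P.w c (KMfdQ0_pt j 0)) (evQ P.w δ (KMfdQ0_pt j 0)) := fun δ j => by
    have a1 : HasFDerivAt (fun c' : Co P.w 2 => 𝔾 (c', 0) j)
        ((ContinuousLinearMap.proj j).comp ((fderiv ℂ 𝔾 (c, 0)).comp
          (ContinuousLinearMap.inl ℂ (Co P.w 2) ℂ))) c :=
      (ContinuousLinearMap.proj (R := ℂ) (φ := fun _ : S => α → ℂ) j).hasFDerivAt.comp c
        (han.differentiableAt.hasFDerivAt.comp (f := fun c' : Co P.w 2 => (c', (0 : ℂ))) c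
          (hasFDerivAt_prodMk_left c (0 : ℂ)))
    have a2 : HasFDerivAt (fun c' : Co P.w 2 => 𝔾 (c', 0) j)
        ((fderiv ℂ G.val (evQ P.w c (KMfdQ0_pt j 0))).comp (evQL P.w (KMfdQ0_pt j 0))) c :=
      (KMfdQ0_val_an G _).differentiableAt.hasFDerivAt.comp c
        (evQL P.w (KMfdQ0_pt j 0)).hasFDerivAt
    rw [← KMfdQ0_dG]
    exact DFunLike.congr_fun (a1.unique a2) δ
  have key : ∀ (x : ℕ → Co P.w 2 × ℂ) (s : ℕ → ℂ) (Q : S → α → ℂ), Tendsto x atTop (𝓝 (c, 0)) →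
      Tendsto (fun n => s n • 𝔾 (x n)) atTop (𝓝 Q) → ∃ δ, fderiv ℂ 𝔾 (c, 0) (δ, 0) = Q := by
    intro x s Q hx' hQ
    choose q hq hq' using fun n => hnf (x n)
    have t1 : Tendsto (fun n => (x n).1) atTop (𝓝 c) := (continuous_fst.tendsto _).comp hx'
    have t2 : Tendsto (fun n => (x n).2) atTop (𝓝 0) := (continuous_snd.tendsto _).comp hx'
    obtain ⟨q₀, t3, e3⟩ := hl _ (fun n => s n • q n) Q t2 (by simpa only [map_smul, hq'] using hQ)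
    obtain ⟨δ, hδ⟩ := KMfdQ0_solve G hx q₀ fun σ₀ h₀ hne => by
      obtain ⟨σ, m, t4⟩ := Qc_approx t2 h₀
      refine G.star_pt (hx.1 σ₀ h₀ hne) (KMfdQ0_tend t1 t4) (s := s) ?_
      refine (KMfdQ0_tend t3 t4).congr fun n => ?_
      rw [← hq n _ (m n)]
      exact (evQL G.deg (σ n)).map_smul _ _
    exact ⟨δ, funext fun j => by rw [hd, hδ, ← e3]; rfl⟩
  refine ⟨(fderiv ℂ 𝔾 (c, 0)).ker, (ift_star han (hz _ hx.1) fun x s Q h h' => ?_).congr ?_,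
    fun δ hδ => ?_, ?_⟩
  · obtain ⟨δ, hδ⟩ := key x s Q h h'
    exact ⟨_, hδ⟩
  · filter_upwards [(continuous_snd.tendsto ((c, 0) : Co P.w 2 × ℂ)).eventually hi,
      MQ_nhds hx.1] with x h1 h2
    refine ⟨fun h => h2 fun σ hσ => (G.zero _).1 fun a => ?_, hz x⟩
    obtain ⟨q, hq, hq'⟩ := hnf x
    have h3 := hq σ hσ
    rw [h1 q (hq'.trans h), ← evQL_apply, map_zero] at h3
    exact (congrFun h3 a).symm
  · refine funext fun j => ?_
    exact (hd δ j).trans ((G.dG_zero_iff (hx.1 _ (KMfdQ0_pt_mem j _) (KMfdQ0_pt_ne j _))).2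
      (hδ _ (KMfdQ0_pt_mem j _) (KMfdQ0_pt_ne j _)))
  · have hc : Tendsto (fun n : ℕ => ‖(n : ℂ)‖) atTop atTop := by
      simpa using tendsto_natCast_atTop_atTop (R := ℝ)
    have h1 := han.differentiableAt.hasFDerivAt.lim ((0 : Co P.w 2), (1 : ℂ)) hc
    simp only [hz _ hx.1, sub_zero] at h1
    have h2 : Tendsto (fun n : ℕ => ((c, 0) : Co P.w 2 × ℂ) + (n : ℂ)⁻¹ • ((0 : Co P.w 2), (1 : ℂ)))
        atTop (𝓝 (c, 0)) := by
      simpa using (tendsto_const_nhds (x := ((c, 0) : Co P.w 2 × ℂ))).add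
        ((tendsto_inv_atTop_nhds_zero_nat (𝕜 := ℂ)).smul_const ((0 : Co P.w 2), (1 : ℂ)))
    obtain ⟨δ, hδ⟩ := key _ _ _ h2 h1
    refine ⟨-δ, ?_⟩
    change fderiv ℂ 𝔾 (c, 0) (-δ, 1) = 0
    rw [show ((-δ, 1) : Co P.w 2 × ℂ) = (0, 1) - (δ, 0) by simp, map_sub, hδ, sub_self]

theorem nod_open {x : Co P.w 2 × ℂ} (hx : P.Nod x) :
    ∀ᶠ x' in 𝓝 x, x' ∈ P.MQ → x'.2 = 0 → P.Nod x' := by
  obtain ⟨c, ε₀⟩ := x
  obtain rfl : ε₀ = 0 := hx.2.1
  obtain ⟨m1, m2⟩ := mem_MQ_zero.1 hx.1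
  obtain ⟨L1, h1⟩ := exists_l1L (w := P.w)
  obtain ⟨L2, h2⟩ := exists_l2L (w := P.w)
  have t1 : Tendsto (fun x : Co P.w 2 × ℂ => l1 P.w x.1) (𝓝 (c, 0)) (𝓝 (l1 P.w c)) := by
    simpa only [← h1, Function.comp_def] using
      (L1.continuous.comp continuous_fst).tendsto ((c, 0) : Co P.w 2 × ℂ)
  have t2 : Tendsto (fun x : Co P.w 2 × ℂ => l2 P.w x.1) (𝓝 (c, 0)) (𝓝 (l2 P.w c)) := by
    simpa only [← h2, Function.comp_def] using
      (L2.continuous.comp continuous_fst).tendsto ((c, 0) : Co P.w 2 × ℂ)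
  filter_upwards [t1.eventually (free_open G m1 hx.2.2.1), t2.eventually (free_open G m2 hx.2.2.2)]
    with x f1 f2 hm h0
  obtain ⟨c', ε⟩ := x
  obtain rfl : ε = 0 := h0
  obtain ⟨n1, n2⟩ := mem_MQ_zero.1 hm
  exact ⟨hm, rfl, f1 n1, f2 n2⟩

end Pre

end Vale.Agent.P292
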