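import Vale.Agent.P292.KOm

/-! The neck estimate. -/

set_option maxSynthPendingDepth 3

open scoped Topology
open Set Filter Asymptotics

noncomputable section

namespace Vale.Agent.P292

variable {κ : Type} [Fintype κ]

theorem KNeck_an {w : κ → ℕ} (c : Co w 2) (σ : ℂ × ℂ × ℂ) : AnalyticAt ℂ (evQ w c) σ :=
  (analytic_evQ (c, σ)).comp (analyticAt_const.prod analyticAt_id)

theorem KNeck_chain {w : κ → ℕ} (c : Co w 2) (ε a b e₁ e₂ : ℂ) :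
    fderiv ℂ (ev w 2 (tw w ε c)) (a, b) (e₁, e₂) = fderiv ℂ (evQ w c) (a ^ 2, ε * b ^ 2, a * b)
      (2 * a * e₁, ε * (2 * b * e₂), a * e₂ + b * e₁) := by
  have h1 := (KNeck_an c (a ^ 2, ε * b ^ 2, a * b)).differentiableAt.hasFDerivAt.comp (a, b)
    (((hasFDerivAt_fst (𝕜 := ℂ) (p := (a, b))).pow 2).prodMk
      ((((hasFDerivAt_snd (𝕜 := ℂ) (p := (a, b))).pow 2).const_mul ε).prodMk
        ((hasFDerivAt_fst (𝕜 := ℂ) (p := (a, b))).mul (hasFDerivAt_snd (𝕜 := ℂ) (p := (a, b))))))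
  rw [show ev w 2 (tw w ε c) = evQ w c ∘ fun v : ℂ × ℂ => (v.1 ^ 2, ε * v.2 ^ 2, v.1 * v.2) from
    funext fun v => ev_tw ε c v.1 v.2]
  refine (congrArg (fun L : ℂ × ℂ →L[ℂ] κ → ℂ => L (e₁, e₂)) h1.fderiv).trans ?_
  simp

theorem KNeck_d {w : κ → ℕ} (e : ℂ × ℂ × ℂ) (x : Co w 2 × ℂ × ℂ × ℂ) :
    AnalyticAt ℂ (fun x : Co w 2 × ℂ × ℂ × ℂ => fderiv ℂ (evQ w x.1) x.2 e) x := by
  have h : (fun x : Co w 2 × ℂ × ℂ × ℂ => fderiv ℂ (evQ w x.1) x.2 e) = fun x =>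
      fderiv ℂ (fun x : Co w 2 × ℂ × ℂ × ℂ => evQ w x.1 x.2) x (0, e) := funext fun x => by
    have h1 := ((analytic_evQ (x.1, x.2)).differentiableAt.hasFDerivAt.comp x.2
      (hasFDerivAt_prodMk_right x.1 x.2)).fderiv
    exact congrArg (fun L : ℂ × ℂ × ℂ →L[ℂ] κ → ℂ => L e) h1
  rw [h]
  exact (ContinuousLinearMap.apply ℂ (κ → ℂ) (0, e)).analyticAt _ |>.comp (analytic_evQ x).fderiv

theorem KNeck_slope {X E F : Type} [NormedAddCommGroup E] [NormedSpace ℂ E] [NormedAddCommGroup F]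
    [NormedSpace ℂ F] {l : Filter X} {A : E × F → ℂ} {A' : E × F →L[ℂ] ℂ} {c₀ : E} {p₀ : F}
    (hA : HasStrictFDerivAt A A' (c₀, p₀)) {c : X → E} {s : X → ℂ} (hc : Tendsto c l (𝓝 c₀))
    (hs : Tendsto s l (𝓝 0)) (h0 : ∀ᶠ x in l, s x ≠ 0) (e : F) :
    Tendsto (fun x => (A (c x, p₀ + s x • e) - A (c x, p₀)) / s x) l (𝓝 (A' (0, e))) := by
  have h1 : Tendsto (fun x => p₀ + s x • e) l (𝓝 p₀) := by
    simpa using (hs.smul_const e).const_add p₀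
  have h2 := hA.isLittleO.comp_tendsto
    ((hc.prodMk_nhds h1).prodMk_nhds (hc.prodMk_nhds tendsto_const_nhds))
  have h3 : ∀ x, ((c x, p₀ + s x • e) - (c x, p₀) : E × F) = s x • ((0, e) : E × F) := fun x => by
    simp
  simp only [Function.comp_def, h3] at h2
  have h4 : (fun x => s x • ((0, e) : E × F)) =O[l] s :=
    IsBigO.of_bound ‖((0, e) : E × F)‖ (Eventually.of_forall fun x => by rw [norm_smul, mul_comm])
  have h5 := (h2.trans_isBigO h4).tendsto_div_nhds_zero.add_const (A' (0, e))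
  rw [zero_add] at h5
  refine h5.congr' (h0.mono fun x hx => ?_)
  rw [map_smul, smul_eq_mul]
  field_simp
  ring

theorem KNeck_two {X E F : Type} [NormedAddCommGroup E] [NormedSpace ℂ E] [NormedAddCommGroup F]
    [NormedSpace ℂ F] {l : Filter X} {A : E × F → ℂ} {A' : E × F →L[ℂ] ℂ} {c₀ : E} {p₀ : F}
    (hA : HasStrictFDerivAt A A' (c₀, p₀)) {c : X → E} {s k : X → ℂ} (hc : Tendsto c l (𝓝 c₀))
    (hs : Tendsto s l (𝓝 0)) (h0 : ∀ᶠ x in l, s x ≠ 0) (e : F)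
    (h1 : ∀ᶠ x in l, k x = s x * A (c x, p₀ + s x • e))
    (h2 : ∀ᶠ x in l, k x = -s x * A (c x, p₀ + -s x • e)) :
    Tendsto (fun x => k x / s x ^ 2) l (𝓝 (A' (0, e))) := by
  have h3 := ((KNeck_slope hA hc hs h0 e).add (KNeck_slope hA hc (s := fun x => -s x)
    (by simpa using hs.neg) (h0.mono fun x hx => neg_ne_zero.2 hx) e)).div_const 2
  rw [add_self_div_two] at h3
  refine h3.congr' ?_
  filter_upwards [h0, h1, h2] with x hx h4 h5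
  field_simp
  linear_combination (-1 : ℂ) * h4 - h5

theorem KNeck_W {w : κ → ℕ} {ϑ : (κ → ℂ) → (κ → ℂ) →L[ℂ] ℂ} {c₀ : Co w 2} {p₀ : ℂ × ℂ × ℂ}
    (hϑ : AnalyticAt ℂ ϑ (evQ w c₀ p₀)) (a : ℂ × ℂ × ℂ) : ∃ A' : Co w 2 × ℂ × ℂ × ℂ →L[ℂ] ℂ,
      HasStrictFDerivAt (fun x : Co w 2 × ℂ × ℂ × ℂ => ϑ (evQ w x.1 x.2)
        (fderiv ℂ (evQ w x.1) x.2 a)) A' (c₀, p₀) ∧ ∀ e, A' (0, e) =
      fderiv ℂ ϑ (evQ w c₀ p₀) (fderiv ℂ (evQ w c₀) p₀ e) (fderiv ℂ (evQ w c₀) p₀ a) +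
        ϑ (evQ w c₀ p₀) (fderiv ℂ (fderiv ℂ (evQ w c₀)) p₀ e a) := by
  have h1 : AnalyticAt ℂ (fun x : Co w 2 × ℂ × ℂ × ℂ => ϑ (evQ w x.1 x.2)
      (fderiv ℂ (evQ w x.1) x.2 a)) (c₀, p₀) :=
    ((ContinuousLinearMap.id ℂ ((κ → ℂ) →L[ℂ] ℂ)).analyticAt_bilinear _).comp₂
      (hϑ.comp_of_eq (analytic_evQ (c₀, p₀)) rfl) (KNeck_d a _)
  refine ⟨_, h1.hasStrictFDerivAt, fun e => ?_⟩
  have h2 := h1.differentiableAt.hasFDerivAt.comp p₀ (hasFDerivAt_prodMk_right c₀ p₀)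
  have h3 := (hϑ.differentiableAt.hasFDerivAt.comp p₀
    (KNeck_an c₀ p₀).differentiableAt.hasFDerivAt).clm_apply
      ((KNeck_an c₀ p₀).fderiv.differentiableAt.hasFDerivAt.clm_apply (hasFDerivAt_const a p₀))
  simpa [add_comm] using congrArg (fun L : ℂ × ℂ × ℂ →L[ℂ] ℂ => L e) (h2.unique h3)

namespace Pre

variable {P : Pre κ}

theorem neck_const {x : Co P.w 2 × ℂ} (hx : x ∈ P.KK) (h0 : x.2 ≠ 0) {s t : ℂ} (hst : s * t = x.2)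
    (hq : evQ P.w x.1 (s, t, 1) ≠ 0) :
    fderiv ℂ (evQ P.w x.1) (s, t, 1) (s, -t, 0) ∈ P.T (evQ P.w x.1 (s, t, 1)) ∧
    P.θ (evQ P.w x.1 (s, t, 1)) (fderiv ℂ (evQ P.w x.1) (s, t, 1) (s, -t, 0)) = P.ct x.1 := by
  obtain ⟨k, hk⟩ := exists_cc (KK_M0 hx)
  have hs : s ≠ 0 := left_ne_zero_of_mul (hst ▸ h0)
  obtain ⟨a, ha⟩ := IsAlgClosed.exists_pow_nat_eq s two_pos
  obtain ⟨b, hb⟩ := IsAlgClosed.exists_pow_nat_eq x.2⁻¹ two_pos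
  have ha0 : a ≠ 0 := fun h => hs (by rw [← ha, h]; ring)
  have hb0 : b ≠ 0 := fun h => inv_ne_zero h0 (by rw [← hb, h]; ring)
  have p1 : (a ^ 2, x.2 * a⁻¹ ^ 2, a * a⁻¹) = (s, t, 1) := by
    rw [← hst, ← ha]
    refine Prod.ext rfl (Prod.ext ?_ ?_) <;> field_simp
  have p2 : (2 * a * (a / 2), x.2 * (2 * a⁻¹ * (-a⁻¹ / 2)), a * (-a⁻¹ / 2) + a⁻¹ * (a / 2)) =
      (s, -t, 0) := by
    rw [← hst, ← ha]
    refine Prod.ext ?_ (Prod.ext ?_ ?_) <;> field_simp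
    ring
  have p3 : ((0 : ℂ) ^ 2, x.2 * b ^ 2, 0 * b) = (0, 1, 0) := by
    rw [hb, mul_inv_cancel₀ h0]
    simp
  have p4 : (2 * 0 * b⁻¹, x.2 * (2 * b * 0), 0 * 0 + b * b⁻¹) = ((0, 0, 1) : ℂ × ℂ × ℂ) := by
    simp [hb0]
  have q1 := ev_tw x.2 x.1 a a⁻¹
  have q2 := KNeck_chain x.1 x.2 a a⁻¹ (a / 2) (-a⁻¹ / 2)
  have q3 := ev_tw x.2 x.1 0 b
  have q4 := KNeck_chain x.1 x.2 0 b b⁻¹ 0
  rw [p1] at q1
  rw [p1, p2] at q2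
  rw [p3] at q3
  rw [p3, p4] at q4
  have h1 := hk (a, a⁻¹) (q1 ▸ hq) (a / 2, -a⁻¹ / 2)
  have h2 := hk (0, b) (q3 ▸ hx.2.2.1) (b⁻¹, 0)
  have h3 := fderiv_ev_mem (KK_M0 hx) (q1 ▸ hq) (a / 2, -a⁻¹ / 2)
  rw [q1, q2] at h1 h3
  rw [q3, q4] at h2
  refine ⟨h3, h1.trans (Eq.trans ?_ h2.symm)⟩
  simp only [wg]
  field_simp
  ring

theorem KNeck_pt {x₀ : Co P.w 2 × ℂ} (hx₀ : x₀ ∈ P.KK) (h0 : x₀.2 = 0)
    {ϑ : (κ → ℂ) → (κ → ℂ) →L[ℂ] ℂ}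
    (hϑ : ∀ᶠ q in 𝓝 (uE P.w x₀.1), q ∈ P.C → ∀ v ∈ P.T q, P.θ q v = ϑ q v)
    {r : Co P.w 2 × ℂ → ℂ} (hr : Tendsto r (𝓝[{x ∈ P.KK | x.2 ≠ 0}] x₀) (𝓝 0)) {η : ℂ}
    (hη : ∀ x, r x * (r x * η) = x.2) : ∀ᶠ x in 𝓝[{x ∈ P.KK | x.2 ≠ 0}] x₀, P.ct x.1 =
      r x * ϑ (evQ P.w x.1 ((0, 0, 1) + r x • (1, η, 0)))
        (fderiv ℂ (evQ P.w x.1) ((0, 0, 1) + r x • (1, η, 0)) (1, -η, 0)) := by
  have h1 : Tendsto (fun x => ((0, 0, 1) + r x • (1, η, 0) : ℂ × ℂ × ℂ))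
      (𝓝[{x ∈ P.KK | x.2 ≠ 0}] x₀) (𝓝 (0, 0, 1)) := by
    simpa only [zero_smul, add_zero] using (hr.smul_const ((1, η, 0) : ℂ × ℂ × ℂ)).const_add (0, 0, 1)
  have h2 := (analytic_evQ (x₀.1, 0, 0, 1)).continuousAt.tendsto.comp
    (((continuous_fst.tendsto x₀).mono_left nhdsWithin_le_nhds).prodMk_nhds h1)
  have hu : uE P.w x₀.1 ≠ 0 := hx₀.2.2.2.resolve_left (not_not.2 h0)
  filter_upwards [h2.eventually hϑ, h2.eventually_ne hu, self_mem_nhdsWithin] with x h3 h4 h5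
  have h6 : ((0, 0, 1) + r x • (1, η, 0) : ℂ × ℂ × ℂ) = (r x, r x * η, 1) := by simp
  simp only [Function.comp_def, h6] at h3 h4 ⊢
  obtain ⟨h7, h8⟩ := neck_const h5.1 h5.2 (hη x) h4
  rw [← h8, h3 ((h5.1.1 _ (by simpa [Qc] using hη x)).resolve_left h4) _ h7,
    show ((r x, -(r x * η), 0) : ℂ × ℂ × ℂ) = r x • (1, -η, 0) by simp, map_smul, map_smul,
    smul_eq_mul]

theorem KNeck_lim {x₀ : Co P.w 2 × ℂ} (hx₀ : x₀ ∈ P.KK) (h0 : x₀.2 = 0) :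
    Tendsto (fun x => P.ct x.1 / x.2) (𝓝[{x ∈ P.KK | x.2 ≠ 0}] x₀)
      (𝓝 (-P.om (uE P.w x₀.1) (aE P.w x₀.1) (bE P.w x₀.1))) := by
  obtain ⟨hu, ha, hb⟩ := (KK_tangent hx₀).2.2.2 h0
  obtain ⟨π, χ, ϑ, -, hϑ, -, h1⟩ := P.loc _ hu
  have h2 := h1.mono fun q hq hC v hv => ((hq hC).2 v hv).1
  choose s hs using fun x : Co P.w 2 × ℂ => IsAlgClosed.exists_pow_nat_eq x.2 two_pos
  have hs0 : Tendsto s (𝓝[{x ∈ P.KK | x.2 ≠ 0}] x₀) (𝓝 0) := by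
    have h3 : Tendsto (fun x : Co P.w 2 × ℂ => √‖x.2‖) (𝓝 x₀) (𝓝 0) := by
      simpa [h0] using continuous_snd.norm.sqrt.tendsto x₀
    refine tendsto_zero_iff_norm_tendsto_zero.2 ((h3.mono_left nhdsWithin_le_nhds).congr fun x => ?_)
    rw [← hs x, norm_pow, Real.sqrt_sq (norm_nonneg _)]
  have hi0 : Tendsto (fun x => Complex.I * s x) (𝓝[{x ∈ P.KK | x.2 ≠ 0}] x₀) (𝓝 0) := by
    simpa using hs0.const_mul Complex.I
  have hne : ∀ᶠ x in 𝓝[{x ∈ P.KK | x.2 ≠ 0}] x₀, s x ≠ 0 :=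
    eventually_of_mem self_mem_nhdsWithin fun x hx h => hx.2 (by rw [← hs x, h]; ring)
  have hc := (continuous_fst.tendsto x₀).mono_left
    (nhdsWithin_le_nhds (s := {x ∈ P.KK | x.2 ≠ 0}))
  obtain ⟨A, hA, hA'⟩ := KNeck_W (p₀ := (0, 0, 1)) hϑ (1, -1, 0)
  obtain ⟨B, hB, hB'⟩ := KNeck_W (p₀ := (0, 0, 1)) hϑ (1, - -1, 0)
  have h3 := KNeck_two hA hc hs0 hne (1, 1, 0)
    (KNeck_pt hx₀ h0 h2 hs0 fun x => by rw [← hs x]; ring)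
    (KNeck_pt hx₀ h0 h2 (r := fun x => -s x) (by simpa using hs0.neg) fun x => by rw [← hs x]; ring)
  have h4 := KNeck_two hB hc hi0 (hne.mono fun x hx => mul_ne_zero Complex.I_ne_zero hx) (1, -1, 0)
    (KNeck_pt hx₀ h0 h2 hi0 fun x => by
      rw [← hs x]; linear_combination (-s x ^ 2) * Complex.I_sq)
    (KNeck_pt hx₀ h0 h2 (r := fun x => -(Complex.I * s x)) (by simpa using hi0.neg) fun x => by
      rw [← hs x]; linear_combination (-s x ^ 2) * Complex.I_sq)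
  have h5 := (h3.sub h4).div_const 2
  have h6 : (A (0, 1, 1, 0) - B (0, 1, -1, 0)) / 2 =
      -P.om (uE P.w x₀.1) (aE P.w x₀.1) (bE P.w x₀.1) := by
    rw [hA', hB', neg_neg, ((KNeck_an x₀.1 (0, 0, 1)).contDiffAt.isSymmSndFDerivAt_of_omega).eq,
      ((h1.self_of_nhds hu).2 _ ha).2 _ hb,
      show ((1, 1, 0) : ℂ × ℂ × ℂ) = (1, 0, 0) + (0, 1, 0) by simp,
      show ((1, -1, 0) : ℂ × ℂ × ℂ) = (1, 0, 0) - (0, 1, 0) by simp]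
    simp only [map_add, map_sub, add_apply, sub_apply, uE, aE, bE]
    ring
  rw [h6] at h5
  refine h5.congr fun x => ?_
  rw [mul_pow, Complex.I_sq, hs x]
  ring

theorem KNeck_ev {l : Filter (Co P.w 2 × ℂ)} {x₀ : Co P.w 2 × ℂ} (hl : l ≤ 𝓝 x₀) (σ : ℂ × ℂ × ℂ) :
    Tendsto (fun x : Co P.w 2 × ℂ => evQ P.w x.1 σ) l (𝓝 (evQ P.w x₀.1 σ)) :=
  (((evQL P.w σ).continuous.comp continuous_fst).tendsto x₀).mono_left hl

theorem KNeck_dev {l : Filter (Co P.w 2 × ℂ)} {x₀ : Co P.w 2 × ℂ} (hl : l ≤ 𝓝 x₀)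
    (σ e : ℂ × ℂ × ℂ) : Tendsto (fun x : Co P.w 2 × ℂ => fderiv ℂ (evQ P.w x.1) σ e) l
      (𝓝 (fderiv ℂ (evQ P.w x₀.1) σ e)) := by
  obtain ⟨L, hL⟩ := exists_devQL (w := P.w) σ e
  simp only [← hL]
  exact ((L.continuous.comp continuous_fst).tendsto x₀).mono_left hl

theorem cq_continuousOn (P : Pre κ) : ContinuousOn P.cq P.KK := by
  intro x₀ hx₀
  by_cases h0 : x₀.2 = 0
  · obtain ⟨hu, ha, hb⟩ := (KK_tangent hx₀).2.2.2 h0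
    have h1 : Tendsto (fun x : Co P.w 2 × ℂ => P.om (uE P.w x.1) (aE P.w x.1) (bE P.w x.1))
        (𝓝[{x ∈ P.KK | x.2 = 0}] x₀) _ :=
      tendsto_om hu ha hb (KNeck_ev nhdsWithin_le_nhds _) (KNeck_dev nhdsWithin_le_nhds _ _)
        (KNeck_dev nhdsWithin_le_nhds _ _)
        (eventually_of_mem self_mem_nhdsWithin fun x hx => (KK_tangent hx.1).2.2.2 hx.2)
    rw [ContinuousWithinAt, show P.KK = {x ∈ P.KK | x.2 = 0} ∪ {x ∈ P.KK | x.2 ≠ 0} by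
      ext x; by_cases h : x.2 = 0 <;> simp [h], nhdsWithin_union, tendsto_sup, cq, if_pos h0]
    refine ⟨h1.neg.congr' (eventually_of_mem self_mem_nhdsWithin fun x hx => ?_),
      (KNeck_lim hx₀ h0).congr' (eventually_of_mem self_mem_nhdsWithin fun x hx => ?_)⟩
    · rw [cq, if_pos hx.2]
    · rw [cq, if_neg hx.2]
  · obtain ⟨-, hz, hd, -⟩ := KK_tangent hx₀
    have h1 : Tendsto (fun x : Co P.w 2 × ℂ => P.θ (zE P.w x.1) (dE P.w x.1)) (𝓝[P.KK] x₀) _ :=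
      tendsto_theta hz hd (KNeck_ev nhdsWithin_le_nhds _) (KNeck_dev nhdsWithin_le_nhds _ _)
        (eventually_of_mem self_mem_nhdsWithin fun x hx =>
          ⟨(KK_tangent hx).2.1, (KK_tangent hx).2.2.1⟩)
    rw [ContinuousWithinAt, cq, if_neg h0]
    refine (h1.div ((continuous_snd.tendsto x₀).mono_left nhdsWithin_le_nhds) h0).congr'
      ((((continuous_snd.tendsto x₀).eventually_ne h0).filter_mono
        nhdsWithin_le_nhds).mono fun x hx => ?_)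
    rw [cq, if_neg hx]
    rfl

end Pre

end Vale.Agent.P292
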