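import Vale.Agent.P292.KLine

/-! Conics near a pair of free lines. -/

set_option maxSynthPendingDepth 3

open scoped Topology
open Set Filter Asymptotics

noncomputable section

namespace Vale.Agent.P292

variable {κ α : Type} [Fintype κ] [Fintype α] {P : Pre κ}

theorem poly_of_growth {g : ℂ → ℂ} (hg : Differentiable ℂ g) {B R : ℝ}
    (hb : ∀ t, R ≤ ‖t‖ → ‖g t‖ ≤ B * ‖t‖ ^ 2) : ∃ a b c : ℂ, ∀ t, g t = a + b * t + c * t ^ 2 := by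
  have h1 : ∀ {f : ℂ → ℂ}, Differentiable ℂ f → Differentiable ℂ (dslope f 0) := fun hf =>
    differentiableOn_univ.1 ((Complex.differentiableOn_dslope univ_mem).2 hf.differentiableOn)
  have h2 := h1 (h1 hg)
  have h3 : ∀ t, g t = g 0 + dslope g 0 0 * t + dslope (dslope g 0) 0 t * t ^ 2 := fun t => by
    have h4 := sub_smul_dslope g 0 t
    have h5 := sub_smul_dslope (dslope g 0) 0 t
    rw [sub_zero, smul_eq_mul] at h4 h5
    linear_combination (-1 : ℂ) * h4 - t * h5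
  generalize dslope (dslope g 0) 0 = f at h2 h3
  generalize dslope g 0 0 = b at h3
  obtain ⟨D, hD⟩ := (isCompact_closedBall (0 : ℂ) (max R 1)).exists_bound_of_continuousOn
    h2.continuous.continuousOn
  obtain ⟨c, hc⟩ := h2.exists_const_forall_eq_of_bounded (isBounded_iff_forall_norm_le.2
    ⟨max D (B + ‖g 0‖ + ‖b‖), by
      rintro _ ⟨t, rfl⟩
      rcases le_total ‖t‖ (max R 1) with h | h
      · exact (hD t (mem_closedBall_zero_iff.2 h)).trans (le_max_left _ _)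
      refine le_trans ?_ (le_max_right _ _)
      have h4 := hb t ((le_max_left _ _).trans h)
      have h5 : 1 ≤ ‖t‖ := (le_max_right _ _).trans h
      have h6 : ‖f t‖ * ‖t‖ ^ 2 ≤ ‖g t‖ + ‖g 0‖ + ‖b‖ * ‖t‖ := by
        rw [← norm_pow, ← norm_mul, ← norm_mul,
          show f t * t ^ 2 = g t - g 0 - b * t by linear_combination -h3 t]
        exact (norm_sub_le _ _).trans (add_le_add (norm_sub_le _ _) le_rfl)
      have h7 : ‖t‖ ≤ ‖t‖ ^ 2 := by nlinarith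
      have h8 := mul_le_mul_of_nonneg_left h7 (norm_nonneg b)
      have h9 := mul_le_mul_of_nonneg_left (h5.trans h7) (norm_nonneg (g 0))
      exact le_of_mul_le_mul_right (by linarith) (show 0 < ‖t‖ ^ 2 by positivity)⟩)
  exact ⟨g 0, b, c, fun t => by rw [← hc t]; exact h3 t⟩

theorem KNode_glue {g h : ℂ → ℂ} {ε : ℂ} {ρ : ℝ} (hε : ε ≠ 0) (hρ : 0 < ρ) (hερ : ‖ε‖ < ρ ^ 2)
    (hg : ∀ t, ‖ε * t‖ < ρ → DifferentiableAt ℂ g t) (hh : ∀ t, ‖ε * t‖ < ρ → DifferentiableAt ℂ h t)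
    (he : ∀ t, t ≠ 0 → ‖ε * t‖ < ρ → ‖t⁻¹‖ < ρ → g t = ε * t ^ 2 * h (ε * t)⁻¹) :
    ∃ a b c : ℂ, ∀ᶠ t in 𝓝 (0 : ℂ), g t = a + b * t + c * t ^ 2 := by
  classical
  have ho : IsOpen {t : ℂ | ‖ε * t‖ < ρ} := isOpen_lt (by fun_prop) continuous_const
  have h1 : ∀ t, ‖ε * t‖ < ρ →
      (fun t => if ‖ε * t‖ < ρ then g t else ε * t ^ 2 * h (ε * t)⁻¹) =ᶠ[𝓝 t] g := fun t ht =>
    eventually_of_mem (ho.mem_nhds ht) fun s hs => if_pos hs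
  have h2 : Differentiable ℂ fun t => if ‖ε * t‖ < ρ then g t else ε * t ^ 2 * h (ε * t)⁻¹ := by
    intro t
    by_cases ht : ‖ε * t‖ < ρ
    · exact (hg t ht).congr_of_eventuallyEq (h1 t ht)
    have h3 : t ≠ 0 := by
      rintro rfl
      exact ht (by simpa using hρ)
    have h4 : ‖t⁻¹‖ < ρ := by
      rw [norm_inv, inv_lt_iff_one_lt_mul₀ (norm_pos_iff.2 h3)]
      rw [norm_mul, not_lt] at ht
      have h5 := mul_lt_mul_of_pos_right hερ (norm_pos_iff.2 h3)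
      exact lt_of_mul_lt_mul_left (by linarith) hρ.le
    have h5 : DifferentiableAt ℂ (fun t => h (ε * t)⁻¹) t :=
      (hh _ (by rwa [mul_inv, mul_inv_cancel_left₀ hε])).comp t
        ((differentiableAt_id.const_mul ε).inv (mul_ne_zero hε h3))
    refine (((differentiableAt_id.pow 2).const_mul ε).mul h5).congr_of_eventuallyEq ?_
    filter_upwards [eventually_ne_nhds h3, (continuousAt_inv₀ h3).norm.eventually_lt_const h4]
      with s h6 h7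
    split_ifs with h8
    · exact he s h6 h8 h7
    · rfl
  obtain ⟨δ, hδ, h3⟩ := Metric.eventually_nhds_iff.1
    ((hh 0 (by simpa using hρ)).continuousAt.norm.eventually_lt_const (lt_add_one _))
  have h4 := norm_pos_iff.2 hε
  obtain ⟨a, b, c, h5⟩ := poly_of_growth h2 (B := ‖ε‖ * (‖h 0‖ + 1)) (R := (ρ + δ⁻¹) / ‖ε‖)
    fun t ht => by
      rw [div_le_iff₀' h4, ← norm_mul] at ht
      have h6 := inv_pos.2 hδ
      have h7 := h3 (y := (ε * t)⁻¹) (by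
        rw [dist_zero_right, norm_inv]
        exact inv_lt_of_inv_lt₀ hδ (by linarith))
      rw [if_neg (by linarith), norm_mul, norm_mul, norm_pow, mul_right_comm]
      gcongr
  exact ⟨a, b, c, (h1 0 (by simpa using hρ)).mono fun t ht => ht.symm.trans (h5 t)⟩

theorem KNode_rho {X N : Type} [TopologicalSpace X] [NormedAddCommGroup N] {x₀ : X}
    {Q : X × N → Prop} (h : ∀ᶠ p in 𝓝 (x₀, (0 : N)), Q p) :
    ∃ ρ > 0, ∀ᶠ x in 𝓝 x₀, ∀ τ, ‖τ‖ < ρ → Q (x, τ) := by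
  rw [nhds_prod_eq, eventually_prod_iff] at h
  obtain ⟨pa, ha, pb, hb, h⟩ := h
  obtain ⟨ρ, hρ, h1⟩ := Metric.eventually_nhds_iff.1 hb
  exact ⟨ρ, hρ, ha.mono fun x hx τ hτ => h hx (h1 (by rwa [dist_zero_right]))⟩

theorem KNode_side {X : Type} [TopologicalSpace X] {E : X → ℂ × ℂ × ℂ → κ → ℂ} {x₀ : X}
    (hE : Continuous fun p : X × ℂ × ℂ × ℂ => E p.1 p.2) (hd : ∀ x, Differentiable ℂ (E x))
    (hh : ∀ x (l : ℂ) σ, E x (l • σ) = act P.w l (E x σ)) {Fn : ℂ × ℂ → (κ → ℂ) → ℂ}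
    (hF : ∀ l : ℂ, l ≠ 0 → ∀ v q, Fn (l • v) (act P.w l q) = l * Fn v q)
    (hl : ∀ v : ℂ × ℂ, v ≠ 0 → ∃ K' : (κ → ℂ) → ℂ, AnalyticAt ℂ K' (E x₀ (v.1, 0, v.2)) ∧
      ∀ᶠ p in 𝓝 (v, E x₀ (v.1, 0, v.2)), p.2 ∈ P.C → Fn p.1 p.2 = K' p.2) :
    ∃ ρ > 0, ∀ᶠ x in 𝓝 x₀, ∀ ε : ℂ, (∀ t, E x (1, ε * t ^ 2, t) ∈ P.C) → ∀ t, ‖ε * t‖ < ρ →
      DifferentiableAt ℂ (fun t => Fn (1, t) (E x (1, ε * t ^ 2, t))) t := by
  obtain ⟨ρ, hρ, h1⟩ := KNode_rho ((isCompact_sphere (0 : ℂ × ℂ) 1).eventually_forall_of_forall_eventually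
    (x₀ := (x₀, (0 : ℂ))) (P := fun a v => ∃ K' : (κ → ℂ) → ℂ, AnalyticAt ℂ K' (E a.1 (v.1, a.2, v.2)) ∧
      ∀ᶠ p in 𝓝 (v, E a.1 (v.1, a.2, v.2)), p.2 ∈ P.C → Fn p.1 p.2 = K' p.2) fun v hv => by
      obtain ⟨K', h1, h2⟩ := hl v (ne_zero_of_mem_unit_sphere ⟨v, hv⟩)
      have h3 : Continuous fun z : (X × ℂ) × ℂ × ℂ => E z.1.1 (z.2.1, z.1.2, z.2.2) :=
        hE.comp (f := fun z : (X × ℂ) × ℂ × ℂ => (z.1.1, z.2.1, z.1.2, z.2.2)) (by fun_prop)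
      filter_upwards [(h3.tendsto ((x₀, 0), v)).eventually h1.eventually_analyticAt,
        ((continuous_snd.prodMk h3).tendsto ((x₀, 0), v)).eventually h2.eventually_nhds] with z h4 h5
      exact ⟨K', h4, h5⟩)
  refine ⟨ρ, hρ, h1.mono fun x hx ε hC t ht => ?_⟩
  have h2 : ((1, t) : ℂ × ℂ) ≠ 0 := fun h => one_ne_zero (congrArg Prod.fst h)
  obtain ⟨m, hm, h3, h4⟩ : ∃ m : ℂ, m ≠ 0 ∧ ‖m • ((1, t) : ℂ × ℂ)‖ = 1 ∧ ‖m * t‖ ≤ 1 := by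
    have h3 := norm_smul_inv_norm (𝕜 := ℂ) h2
    exact ⟨_, inv_ne_zero (Complex.ofReal_ne_zero.2 (norm_ne_zero_iff.2 h2)), h3,
      (norm_snd_le _).trans h3.le⟩
  obtain ⟨K', h5, h6⟩ := hx (m * (ε * t ^ 2)) (by
    rw [show m * (ε * t ^ 2) = m * t * (ε * t) by ring, norm_mul]
    exact (mul_le_of_le_one_left (norm_nonneg _) h4).trans_lt ht) _ (mem_sphere_zero_iff_norm.2 h3)
  have h7 : Differentiable ℂ fun s : ℂ => E x (m • (1, ε * s ^ 2, s)) := (hd x).comp (by fun_prop)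
  have h8 : Continuous fun s : ℂ => (m • ((1, s) : ℂ × ℂ), E x (m • (1, ε * s ^ 2, s))) :=
    Continuous.prodMk (by fun_prop) h7.continuous
  refine ((h5.differentiableAt.comp t (h7 t)).const_mul m⁻¹).congr_of_eventuallyEq
    (((h8.tendsto t).eventually h6).mono fun s hs => ?_)
  simp only [hh] at hs
  simp only [Function.comp_def, hh]
  rw [← hs (P.act_mem _ (hC s) m hm), hF m hm, inv_mul_cancel_left₀ hm]

theorem Pre.node_quad (G : P.Eqs α) {y : κ → ℂ} (hy : y ≠ 0) {x : Co P.w 2 × ℂ} (hx : P.Nod x)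
    {K : (κ → ℂ) → ℂ} (hK : P.Good y K (yE P.w x.1)) :
    ∀ᶠ x' in 𝓝 x, x' ∈ P.MQ → x'.2 ≠ 0 → Qd P.w K x' := by
  obtain ⟨c₀, ε₀⟩ := x
  obtain ⟨h1, h0, hf₁, hf₂⟩ := hx
  obtain rfl : ε₀ = 0 := h0
  obtain ⟨hm₁, hm₂⟩ := Pre.mem_MQ_zero.1 h1
  have n0 : e0 ≠ 0 := fun h => one_ne_zero (congrArg Prod.fst h)
  have n1 : e1 ≠ 0 := fun h => one_ne_zero (congrArg Prod.snd h)
  obtain ⟨F₁, a1, a2, a3⟩ := P.line_ext G hy hm₁ hf₁ n0 (K := K) ((l1_ends c₀).1 ▸ hK)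
  obtain ⟨Ku, a4, a5⟩ := a3 e1 n1
  rw [← (l1_ends c₀).2.1] at a4 a5
  obtain ⟨F₂, b1, b2, b3⟩ := P.line_ext G hy hm₂ hf₂ n1 (K := Ku) ((l2_ends c₀).2.1 ▸ a4)
  rw [← (l2_ends c₀).2.1] at b2
  rw [← (l1_ends c₀).1] at a2
  have hE : Continuous fun p : Co P.w 2 × ℂ × ℂ × ℂ => evQ P.w p.1 p.2 :=
    continuous_iff_continuousAt.2 fun p => (analytic_evQ p).continuousAt
  have hd : ∀ c : Co P.w 2, Differentiable ℂ (evQ P.w c) := fun c σ =>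
    ((analytic_evQ (c, σ)).comp (analyticAt_const.prod analyticAt_id)).differentiableAt
  obtain ⟨ρ₁, r1, s1⟩ := KNode_side (x₀ := c₀) hE hd evQ_hom a1 fun v hv => by
    obtain ⟨K', h2, h3⟩ := a3 v hv
    rw [← ev_l1]
    exact ⟨K', h2.1, h3⟩
  obtain ⟨ρ₂, r2, s2⟩ := KNode_side (x₀ := c₀) (E := fun c σ => evQ P.w c (σ.2.1, σ.1, σ.2.2))
    (hE.comp (f := fun p : Co P.w 2 × ℂ × ℂ × ℂ => (p.1, p.2.2.1, p.2.1, p.2.2.2)) (by fun_prop))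
    (fun c => (hd c).comp (by fun_prop)) (fun c l σ => evQ_hom c l (σ.2.1, σ.1, σ.2.2)) b1
    fun v hv => by
      obtain ⟨K', h2, h3⟩ := b3 v hv
      rw [← ev_l2]
      exact ⟨K', h2.1, h3⟩
  have h2 : Continuous fun p : Co P.w 2 × ℂ × ℂ => evQ P.w p.1 (p.2.1, p.2.2, 1) :=
    hE.comp (f := fun p : Co P.w 2 × ℂ × ℂ => (p.1, p.2.1, p.2.2, 1)) (by fun_prop)
  obtain ⟨ρ₃, r3, s3⟩ := KNode_rho
    (((((by fun_prop : Continuous fun p : Co P.w 2 × ℂ × ℂ => (p.2.1, (1 : ℂ))).prodMk h2).tendsto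
      (c₀, 0)).eventually a5).and
    ((((by fun_prop : Continuous fun p : Co P.w 2 × ℂ × ℂ => (p.2.2, (1 : ℂ))).prodMk h2).tendsto
      (c₀, 0)).eventually b2))
  have h3 : Continuous fun p : (Co P.w 2 × ℂ) × ℂ => evQ P.w p.1.1 (1, p.1.2 * p.2 ^ 2, p.2) :=
    hE.comp (f := fun p : (Co P.w 2 × ℂ) × ℂ => (p.1.1, 1, p.1.2 * p.2 ^ 2, p.2)) (by fun_prop)
  have h4 := ((by fun_prop : Continuous fun p : (Co P.w 2 × ℂ) × ℂ => ((1 : ℂ), p.2)).prodMk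
    h3).tendsto ((c₀, 0), 0)
  simp only [zero_mul] at h4
  have hρ : 0 < min ρ₁ (min ρ₂ ρ₃) := lt_min r1 (lt_min r2 r3)
  have h5 := continuous_fst.tendsto (c₀, (0 : ℂ))
  filter_upwards [h5.eventually s1, h5.eventually s2, h5.eventually s3,
    (h4.eventually a2).curry_nhds, (continuous_snd.norm.tendsto (c₀, (0 : ℂ))).eventually_lt_const
      (show ‖(0 : ℂ)‖ < min ρ₁ (min ρ₂ ρ₃) ^ 2 by simpa using pow_pos hρ 2)]
    with x t1 t2 t3 t4 t5 hx hε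
  have u1 : ∀ t, evQ P.w x.1 (1, x.2 * t ^ 2, t) ∈ P.C := fun t =>
    hx _ (one_mul _) fun h => one_ne_zero (congrArg Prod.fst h)
  have u2 : ∀ t, evQ P.w x.1 (x.2 * t ^ 2, 1, t) ∈ P.C := fun t =>
    hx _ (mul_one _) fun h => one_ne_zero (congrArg (fun σ : ℂ × ℂ × ℂ => σ.2.1) h)
  obtain ⟨a, b, c, h6⟩ := KNode_glue hε hρ t5
    (fun t ht => t1 x.2 u1 t (ht.trans_le (min_le_left _ _)))
    (fun t ht => t2 x.2 u2 t (ht.trans_le ((min_le_right _ _).trans (min_le_left _ _))))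
    fun t ht v1 v2 => by
      have v3 : min ρ₁ (min ρ₂ ρ₃) ≤ ρ₃ := (min_le_right _ _).trans (min_le_right _ _)
      obtain ⟨v4, v5⟩ := t3 (t⁻¹, x.2 * t) (max_lt (v2.trans_le v3) (v1.trans_le v3))
      have v6 : evQ P.w x.1 (t⁻¹, x.2 * t, 1) ∈ P.C :=
        hx _ (show t⁻¹ * (x.2 * t) = x.2 * 1 ^ 2 by field_simp)
          fun h => one_ne_zero (congrArg (fun σ : ℂ × ℂ × ℂ => σ.2.2) h)
      have v7 := a1 t ht (t⁻¹, 1) (evQ P.w x.1 (t⁻¹, x.2 * t, 1))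
      have v8 := b1 (x.2 * t)⁻¹ (inv_ne_zero (mul_ne_zero hε ht)) (x.2 * t, 1)
        (evQ P.w x.1 (t⁻¹, x.2 * t, 1))
      rw [← evQ_hom] at v7 v8
      simp only [Prod.smul_mk, smul_eq_mul, mul_one, mul_inv_cancel₀ ht,
        inv_mul_cancel₀ (mul_ne_zero hε ht)] at v7 v8
      rw [show x.2 * t ^ 2 = t * (x.2 * t) by ring, v7,
        show x.2 * (x.2 * t)⁻¹ ^ 2 = (x.2 * t)⁻¹ * t⁻¹ by field_simp, v8, v4 v6, v5 v6]
      field_simp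
  refine ⟨a, b, c, ?_⟩
  filter_upwards [h6, t4] with t v1 v2
  exact (v2 (u1 t)).symm.trans v1

end Vale.Agent.P292
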