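import Vale.Agent.P292.KFact
import Vale.Agent.P292.KHom

/-! The forms along curves. Hints: use the local analytic form `ϑ` of `P.loc`. `exists_cc`: for a
conic without base points `g e v = θ (ev c v) (D (ev c) v e)` is homogeneous of degree one in `v`,
so linear (`hom_poly`), linear in `e`, and vanishes for `e = v` (`ev_euler`, `theta_eul`). With
a base point write `ev c v = act (l v) (ev h v)` (`fact`); then the differential is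
`act (l v) (D (ev h) v e)` plus a multiple of the Euler field, and the form vanishes by
`line_leg`. -/

set_option maxSynthPendingDepth 3

open scoped Topology
open Set Filter Asymptotics

noncomputable section

namespace Vale.Agent.P292

variable {κ : Type} [Fintype κ]

namespace Pre

variable {P : Pre κ} {d : ℕ} {c : Co P.w d}

theorem om_skew {p u v : κ → ℂ} (hp : p ∈ P.C) (hu : u ∈ P.T p) (hv : v ∈ P.T p) :
    P.om p u v = -P.om p v u := by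
  obtain ⟨π, χ, ϑ, -, -, -, h⟩ := P.loc p hp
  obtain ⟨-, h⟩ := h.self_of_nhds hp
  rw [(h u hu).2 v hv, (h v hv).2 u hu, neg_sub]

theorem theta_eul {p : κ → ℂ} (hp : p ∈ P.C) : P.θ p (eul P.w p) = 0 := by
  have h := om_skew hp (P.eul_mem p hp) (P.eul_mem p hp)
  rw [P.om_eul p hp _ (P.eul_mem p hp)] at h
  linear_combination h / 2

theorem KOm0_app {F : Type} [NormedAddCommGroup F] [NormedSpace ℂ F] {G : Type}
    [NormedAddCommGroup G] [NormedSpace ℂ G] {L : F → (κ → ℂ) →L[ℂ] G} {ξ : F → κ → ℂ} {x : F}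
    (hL : AnalyticAt ℂ L x) (hξ : AnalyticAt ℂ ξ x) : AnalyticAt ℂ (fun y => L y (ξ y)) x :=
  ((ContinuousLinearMap.apply ℂ G).flip.analyticAt_bilinear _).comp₂ hL hξ

theorem KOm0_theta : AnRel {x : (κ → ℂ) × (κ → ℂ) | x.1 ∈ P.C ∧ x.2 ∈ P.T x.1}
    fun x => P.θ x.1 x.2 := by
  intro x hx
  obtain ⟨π, χ, ϑ, -, h1, -, h⟩ := P.loc x.1 hx.1
  refine ⟨fun y => ϑ y.1 y.2, KOm0_app (h1.comp analyticAt_fst) analyticAt_snd, ?_⟩
  filter_upwards [continuousAt_fst.eventually h] with y hy hm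
  exact ((hy hm.1).2 _ hm.2).1

theorem KOm0_om : AnRel {x : (κ → ℂ) × (κ → ℂ) × (κ → ℂ) |
    x.1 ∈ P.C ∧ x.2.1 ∈ P.T x.1 ∧ x.2.2 ∈ P.T x.1} fun x => P.om x.1 x.2.1 x.2.2 := by
  intro x hx
  obtain ⟨π, χ, ϑ, -, h1, -, h⟩ := P.loc x.1 hx.1
  have h2 : AnalyticAt ℂ (fun y : (κ → ℂ) × (κ → ℂ) × (κ → ℂ) => fderiv ℂ ϑ y.1) x :=
    h1.fderiv.comp analyticAt_fst
  have h3 : AnalyticAt ℂ (fun y : (κ → ℂ) × (κ → ℂ) × (κ → ℂ) => y.2.1) x :=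
    analyticAt_fst.comp analyticAt_snd
  have h4 : AnalyticAt ℂ (fun y : (κ → ℂ) × (κ → ℂ) × (κ → ℂ) => y.2.2) x :=
    analyticAt_snd.comp analyticAt_snd
  refine ⟨fun y => fderiv ℂ ϑ y.1 y.2.1 y.2.2 - fderiv ℂ ϑ y.1 y.2.2 y.2.1,
    (KOm0_app (KOm0_app h2 h3) h4).sub (KOm0_app (KOm0_app h2 h4) h3), ?_⟩
  filter_upwards [continuousAt_fst.eventually h] with y hy hm
  exact ((hy hm.1).2 _ hm.2.1).2 _ hm.2.2

theorem KOm0_comp {F G : Type} [NormedAddCommGroup F] [NormedSpace ℂ F] [NormedAddCommGroup G]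
    [NormedSpace ℂ G] {S : Set G} {g : G → ℂ} (h : AnRel S g) {φ : F → G} {x : F}
    (hφ : AnalyticAt ℂ φ x) (hm : ∀ᶠ y in 𝓝 x, φ y ∈ S) : AnalyticAt ℂ (fun y => g (φ y)) x := by
  obtain ⟨g', h1, h2⟩ := h _ hm.self_of_nhds
  refine (h1.comp hφ).congr ?_
  filter_upwards [hm, hφ.continuousAt.eventually h2] with y hy hy'
  exact (hy' hy).symm

theorem KOm0_tendsto {ι G : Type} [NormedAddCommGroup G] [NormedSpace ℂ G] {S : Set G}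
    {g : G → ℂ} (h : AnRel S g) {l : Filter ι} {φ : ι → G} {x : G} (hx : x ∈ S)
    (hφ : Tendsto φ l (𝓝 x)) (hm : ∀ᶠ i in l, φ i ∈ S) :
    Tendsto (fun i => g (φ i)) l (𝓝 (g x)) := by
  obtain ⟨g', h1, h2⟩ := h _ hx
  rw [h2.self_of_nhds hx]
  refine (h1.continuousAt.tendsto.comp hφ).congr' ?_
  filter_upwards [hm, hφ.eventually h2] with y hy hy'
  exact (hy' hy).symm

theorem analytic_theta {F : Type} [NormedAddCommGroup F] [NormedSpace ℂ F] {f ξ : F → κ → ℂ}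
    {x : F} (hf : AnalyticAt ℂ f x) (hξ : AnalyticAt ℂ ξ x)
    (hm : ∀ᶠ y in 𝓝 x, f y ∈ P.C ∧ ξ y ∈ P.T (f y)) :
    AnalyticAt ℂ (fun y => P.θ (f y) (ξ y)) x := by
  exact KOm0_comp KOm0_theta (hf.prod hξ) hm

theorem analytic_om {F : Type} [NormedAddCommGroup F] [NormedSpace ℂ F] {f ξ η : F → κ → ℂ}
    {x : F} (hf : AnalyticAt ℂ f x) (hξ : AnalyticAt ℂ ξ x) (hη : AnalyticAt ℂ η x)
    (hm : ∀ᶠ y in 𝓝 x, f y ∈ P.C ∧ ξ y ∈ P.T (f y) ∧ η y ∈ P.T (f y)) :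
    AnalyticAt ℂ (fun y => P.om (f y) (ξ y) (η y)) x := by
  exact KOm0_comp KOm0_om (hf.prod (hξ.prod hη)) hm

theorem anRel_theta : AnRel {x : (κ → ℂ) × (κ → ℂ) | x.1 ∈ P.C ∧ x.2 ∈ P.T x.1}
    fun x => P.θ x.1 x.2 := by
  exact KOm0_theta

theorem anRel_om : AnRel {x : (κ → ℂ) × (κ → ℂ) × (κ → ℂ) |
    x.1 ∈ P.C ∧ x.2.1 ∈ P.T x.1 ∧ x.2.2 ∈ P.T x.1} fun x => P.om x.1 x.2.1 x.2.2 := by
  exact KOm0_om

theorem tendsto_theta {ι : Type} {l : Filter ι} {p v : ι → κ → ℂ} {p₀ v₀ : κ → ℂ}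
    (hp₀ : p₀ ∈ P.C) (hv₀ : v₀ ∈ P.T p₀) (hp : Tendsto p l (𝓝 p₀)) (hv : Tendsto v l (𝓝 v₀))
    (hm : ∀ᶠ i in l, p i ∈ P.C ∧ v i ∈ P.T (p i)) :
    Tendsto (fun i => P.θ (p i) (v i)) l (𝓝 (P.θ p₀ v₀)) := by
  exact KOm0_tendsto KOm0_theta (x := (p₀, v₀)) ⟨hp₀, hv₀⟩ (hp.prodMk_nhds hv) hm

theorem tendsto_om {ι : Type} {l : Filter ι} {p u v : ι → κ → ℂ} {p₀ u₀ v₀ : κ → ℂ}
    (hp₀ : p₀ ∈ P.C) (hu₀ : u₀ ∈ P.T p₀) (hv₀ : v₀ ∈ P.T p₀) (hp : Tendsto p l (𝓝 p₀))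
    (hu : Tendsto u l (𝓝 u₀)) (hv : Tendsto v l (𝓝 v₀))
    (hm : ∀ᶠ i in l, p i ∈ P.C ∧ u i ∈ P.T (p i) ∧ v i ∈ P.T (p i)) :
    Tendsto (fun i => P.om (p i) (u i) (v i)) l (𝓝 (P.om p₀ u₀ v₀)) := by
  exact KOm0_tendsto (KOm0_om (P := P)) (x := (p₀, u₀, v₀)) (φ := fun i => (p i, u i, v i))
    ⟨hp₀, hu₀, hv₀⟩ (hp.prodMk_nhds (hu.prodMk_nhds hv)) hm

end Pre

end Vale.Agent.P292
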