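import Vale.Agent.P292.KDefs

/-! Linear systems of constant rank over the ring of polynomials. Hints: at a point `t₀` choose
constant matrices `R`, `S` with `R A(t₀) S` invertible of size the rank `r`; put `B = R A S`,
`Δ = det B`. Where `Δ ≠ 0` the range of `A` is the range of `A S` and `R` is injective on it.
`poly_solve`: `Δ q = A S adj(B) R q` where `Δ ≠ 0`, so as polynomials; the ideal of all `g` with
`g q` in the range of `A` has no common zero, so it is the unit ideal (principal ideal, a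
polynomial without roots is a unit). `poly_ker`: `σ = Δ τ - S adj(B) R A τ`, divided by `Δ(t₀)`. -/

set_option maxSynthPendingDepth 3

open scoped Topology
open Set Filter Asymptotics

noncomputable section

namespace Vale.Agent.P292

open Polynomial

variable {κ α : Type} [Fintype κ] [Fintype α]

theorem kpid_RS (M : Matrix α κ ℂ) {r : ℕ} (hr : M.rank = r) :
    ∃ (R : Matrix (Fin r) α ℂ) (S : Matrix κ (Fin r) ℂ), R * M * S = 1 := by
  classical
  have hd : Module.finrank ℂ (LinearMap.range M.mulVecLin) = Module.finrank ℂ (Fin r → ℂ) := by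
    rw [Module.finrank_fin_fun]
    exact hr
  let e := LinearEquiv.ofFinrankEq _ _ hd
  obtain ⟨s, hs⟩ := (e.toLinearMap ∘ₗ M.mulVecLin.rangeRestrict).exists_rightInverse_of_surjective
    (LinearMap.range_eq_top.2 (e.surjective.comp M.mulVecLin.surjective_rangeRestrict))
  obtain ⟨p, hp⟩ := LinearMap.exists_extend e.toLinearMap
  refine ⟨LinearMap.toMatrix' p, LinearMap.toMatrix' s, Matrix.toLin'.injective ?_⟩
  rw [Matrix.toLin'_mul, Matrix.toLin'_mul, Matrix.toLin'_toMatrix', Matrix.toLin'_toMatrix',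
    Matrix.toLin'_one, ← hs, ← hp]
  rfl

theorem kpid_gen {r : ℕ} (M : Matrix α κ ℂ) (hr : M.rank ≤ r) (R : Matrix (Fin r) α ℂ)
    (S : Matrix κ (Fin r) ℂ) (hB : (R * M * S).det ≠ 0) (v : κ → ℂ) :
    M.mulVec ((S * (R * M * S).adjugate * R).mulVec (M.mulVec v)) =
      (R * M * S).det • M.mulVec v := by
  have h1 : r ≤ (M * S).rank := by
    have h2 := Matrix.rank_of_isUnit (R * M * S)
      ((Matrix.isUnit_iff_isUnit_det _).2 (isUnit_iff_ne_zero.2 hB))
    rw [Fintype.card_fin, Matrix.mul_assoc] at h2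
    exact h2.ge.trans (Matrix.rank_mul_le_right R (M * S))
  have h3 : LinearMap.range (M * S).mulVecLin = LinearMap.range M.mulVecLin := by
    refine Submodule.eq_of_le_of_finrank_le ?_ (hr.trans h1)
    rw [Matrix.mulVecLin_mul]
    exact LinearMap.range_comp_le_range _ _
  obtain ⟨w, hw⟩ : M.mulVec v ∈ LinearMap.range (M * S).mulVecLin := h3 ▸ ⟨v, rfl⟩
  rw [← hw, Matrix.mulVecLin_apply, Matrix.mulVec_mulVec, Matrix.mulVec_mulVec,
    ← Matrix.smul_mulVec]
  congr 1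
  calc M * (S * (R * M * S).adjugate * R) * (M * S)
      = M * S * ((R * M * S).adjugate * (R * M * S)) := by simp only [Matrix.mul_assoc]
    _ = _ := by rw [Matrix.adjugate_mul, Matrix.mul_smul, Matrix.mul_one]

omit [Fintype α] in
theorem kpid_ev (A : Matrix α κ ℂ[X]) (v : κ → ℂ[X]) (t : ℂ) :
    (fun a => (A.mulVec v a).eval t) = (A.map (eval t)).mulVec fun i => (v i).eval t :=
  funext fun a => (evalRingHom t).map_mulVec A v a

theorem kpid_main (A : Matrix α κ ℂ[X]) {r : ℕ} (t₀ : ℂ) (h0 : (A.map (eval t₀)).rank = r) :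
    ∃ (Δ : ℂ[X]) (T : Matrix κ α ℂ[X]), Δ.eval t₀ = 1 ∧ ∀ t, Δ.eval t ≠ 0 →
      (A.map (eval t)).rank ≤ r → ∀ (q : α → ℂ[X]) (τ : κ → ℂ),
        ((A.map (eval t)).mulVec τ = fun a => (q a).eval t) → ∀ a,
          (A.mulVec (T.mulVec q) a).eval t = ((Δ • q) a).eval t := by
  obtain ⟨R, S, hRS⟩ := kpid_RS _ h0
  have hB : ∀ t, (R.map C * A * S.map C).map (eval t) = R * A.map (eval t) * S := by
    intro t
    have h1 : ∀ {m n : Type} (Q : Matrix m n ℂ), (Q.map C).map (evalRingHom t) = Q :=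
      fun Q => by ext; simp
    change (R.map C * A * S.map C).map (evalRingHom t) = _
    rw [Matrix.map_mul, Matrix.map_mul, h1, h1]
    rfl
  have hd : ∀ t, (R.map C * A * S.map C).det.eval t = (R * A.map (eval t) * S).det := by
    intro t
    rw [← hB]
    exact (evalRingHom t).map_det _
  have hT : ∀ t, (S.map C * (R.map C * A * S.map C).adjugate * R.map C).map (eval t) =
      S * (R * A.map (eval t) * S).adjugate * R := by
    intro t
    have h1 : ∀ {m n : Type} (Q : Matrix m n ℂ), (Q.map C).map (evalRingHom t) = Q :=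
      fun Q => by ext; simp
    have h2 := (evalRingHom t).map_adjugate (R.map C * A * S.map C)
    rw [← hB]
    change (S.map C * (R.map C * A * S.map C).adjugate * R.map C).map (evalRingHom t) = _
    rw [Matrix.map_mul, Matrix.map_mul, h1, h1]
    exact congrArg (fun Q => S * Q * R) h2
  refine ⟨(R.map C * A * S.map C).det, S.map C * (R.map C * A * S.map C).adjugate * R.map C,
    by rw [hd, hRS, Matrix.det_one], fun t ht hr q τ hq a => ?_⟩
  rw [hd] at ht
  have h1 := congrFun (kpid_gen _ hr R S ht τ) a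
  rw [congrFun (kpid_ev A _ t) a, kpid_ev, hT, ← hq, h1, hq, Pi.smul_apply, Pi.smul_apply,
    smul_eq_mul, smul_eq_mul, eval_mul, hd]

theorem kpid_eq {Δ p q : ℂ[X]} {t₀ : ℂ} (hΔ : Δ.eval t₀ = 1)
    (h : ∀ᶠ t in 𝓝 t₀, Δ.eval t ≠ 0 → p.eval t = q.eval t) : p = q := by
  have h1 : ∀ᶠ t in 𝓝 t₀, Δ.eval t ≠ 0 :=
    Δ.continuous.continuousAt.eventually_ne (by rw [hΔ]; exact one_ne_zero)
  exact eq_of_infinite_eval_eq p q
    (infinite_of_mem_nhds t₀ ((h.and h1).mono fun t ht => ht.1 ht.2))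

theorem poly_solve (A : Matrix α κ ℂ[X]) {r : ℕ} (hr : ∀ t : ℂ, (A.map (eval t)).rank = r)
    (q : α → ℂ[X]) (hq : ∀ t : ℂ, ∃ τ, (A.map (eval t)).mulVec τ = fun a => (q a).eval t) :
    ∃ δ : κ → ℂ[X], A.mulVec δ = q := by
  let J : Ideal ℂ[X] :=
    (LinearMap.range A.mulVecLin).comap (LinearMap.toSpanSingleton ℂ[X] (α → ℂ[X]) q)
  have hJ : ∀ g, g ∈ J ↔ ∃ δ, A.mulVec δ = g • q := fun g => Iff.rfl
  have h1 : ∀ t, (Submodule.IsPrincipal.generator J).eval t ≠ 0 := by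
    intro t₀ h
    obtain ⟨Δ, T, hΔ, hT⟩ := kpid_main A t₀ (hr t₀)
    have h2 : Δ ∈ J := (hJ Δ).2 ⟨T.mulVec q, funext fun a => kpid_eq hΔ
      (Eventually.of_forall fun t ht => (hq t).elim fun τ hτ => hT t ht (hr t).le q τ hτ a)⟩
    obtain ⟨c, hc⟩ := (Submodule.IsPrincipal.mem_iff_generator_dvd J).1 h2
    rw [hc, eval_mul, h, zero_mul] at hΔ
    exact zero_ne_one hΔ
  have h2 : IsUnit (Submodule.IsPrincipal.generator J) := by
    rw [isUnit_iff_degree_eq_zero]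
    by_contra h
    obtain ⟨t, ht⟩ := IsAlgClosed.exists_root _ h
    exact h1 t ht
  have h3 : (1 : ℂ[X]) ∈ J := (Submodule.IsPrincipal.mem_iff_generator_dvd J).2 h2.dvd
  simpa only [one_smul] using (hJ 1).1 h3

theorem poly_ker (A : Matrix α κ ℂ[X]) {r : ℕ} (hr : ∀ t : ℂ, (A.map (eval t)).rank = r)
    (t₀ : ℂ) (τ : κ → ℂ) (hτ : (A.map (eval t₀)).mulVec τ = 0) :
    ∃ σ : κ → ℂ[X], A.mulVec σ = 0 ∧ (fun i => (σ i).eval t₀) = τ := by
  obtain ⟨Δ, T, hΔ, hT⟩ := kpid_main A t₀ (hr t₀)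
  have h0 : ∀ t, (A.map (eval t)).mulVec τ = fun a => (A.mulVec (fun i => C (τ i)) a).eval t := by
    intro t
    rw [kpid_ev]
    simp only [eval_C]
  have h1 : A.mulVec (T.mulVec (A.mulVec fun i => C (τ i))) = Δ • A.mulVec fun i => C (τ i) :=
    funext fun a => kpid_eq hΔ (Eventually.of_forall fun t ht => hT t ht (hr t).le _ τ (h0 t) a)
  refine ⟨Δ • (fun i => C (τ i)) - T.mulVec (A.mulVec fun i => C (τ i)), ?_, funext fun i => ?_⟩
  · rw [Matrix.mulVec_sub, Matrix.mulVec_smul, h1, sub_self]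
  · rw [Pi.sub_apply, eval_sub, congrFun (kpid_ev T _ t₀) i, ← h0, hτ]
    simp [hΔ]

/-- Cramer: a polynomial vector in the span of the columns near `0` -/
theorem poly_cramer {ρ : ℕ} (Ξ : Matrix κ (Fin ρ) ℂ[X])
    (hΞ : Function.Injective (Ξ.map (eval 0)).mulVec) : ∃ Δ : ℂ[X], Δ.eval 0 ≠ 0 ∧
      ∀ σ : κ → ℂ[X], (∀ᶠ t in 𝓝 (0 : ℂ), ∃ g, (Ξ.map (eval t)).mulVec g = fun i => (σ i).eval t) →
        ∃ g : Fin ρ → ℂ[X], Ξ.mulVec g = Δ • σ := by
  have h0 : (Ξ.map (eval 0)).rank = ρ := by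
    rw [Matrix.rank, LinearMap.finrank_range_of_inj (f := (Ξ.map (eval 0)).mulVecLin) hΞ,
      Module.finrank_fin_fun]
  obtain ⟨Δ, T, hΔ, hT⟩ := kpid_main Ξ 0 h0
  refine ⟨Δ, by rw [hΔ]; exact one_ne_zero, fun σ hσ => ⟨T.mulVec σ, funext fun a => ?_⟩⟩
  exact kpid_eq hΔ (hσ.mono fun t ⟨g, hg⟩ ht =>
    hT t ht ((Matrix.rank_le_card_width _).trans_eq (Fintype.card_fin ρ)) σ g hg a)

theorem kpid_laurent (N : ℕ) (p : ℂ[X]) : ∃ g h : ℂ[X], h.eval 0 = 0 ∧
    ∀ t : ℂ, t ≠ 0 → t⁻¹ ^ N * p.eval t = g.eval t + h.eval t⁻¹ := by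
  induction N with
  | zero => exact ⟨p, 0, eval_zero, fun t _ => by simp⟩
  | succ N ih =>
    obtain ⟨g, h, -, hh⟩ := ih
    refine ⟨g.divX, X * (C (g.coeff 0) + h), by simp, fun t ht => ?_⟩
    have h1 := congrArg (eval t) (X_mul_divX_add g)
    simp only [eval_add, eval_mul, eval_X, eval_C] at h1 ⊢
    rw [pow_succ', mul_assoc, hh t ht, ← h1]
    field_simp
    ring

/-- splitting of a Laurent combination: modulo polynomial vectors, `t⁻¹ ^ N σ` is a combination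
of the columns with coefficients which are polynomials in `t⁻¹` without constant term -/
theorem poly_split {ρ : ℕ} (Ξ : Matrix κ (Fin ρ) ℂ[X])
    (hΞ : Function.Injective (Ξ.map (eval 0)).mulVec) (N : ℕ) (σ : κ → ℂ[X])
    (hσ : ∀ᶠ t in 𝓝 (0 : ℂ), ∃ g, (Ξ.map (eval t)).mulVec g = fun i => (σ i).eval t) :
    ∃ (A : ℂ[X]) (g h : Fin ρ → ℂ[X]), (∀ j, (h j).eval 0 = 0) ∧ ∀ t : ℂ, t ≠ 0 → ∀ i,
      t⁻¹ ^ N * (σ i).eval t = A.eval t * (σ i).eval t +
        ∑ j, ((g j).eval t + (h j).eval t⁻¹) * (Ξ i j).eval t := by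
  obtain ⟨Δ, hΔ, hc⟩ := poly_cramer Ξ hΞ
  obtain ⟨k, hk⟩ := hc σ hσ
  have h1 : IsCoprime (X : ℂ[X]) Δ := irreducible_X.coprime_iff_not_dvd.2 fun h =>
    hΔ (by rw [← coeff_zero_eq_eval_zero]; exact X_dvd_iff.1 h)
  obtain ⟨a, b, hab⟩ := h1.pow_left (m := N)
  choose g h h0 hh using fun j => kpid_laurent N (b * k j)
  refine ⟨a, g, h, h0, fun t ht i => ?_⟩
  have h2 := congrArg (eval t) hab
  have h3 := congrArg (eval t) (congrFun hk i)
  simp only [eval_add, eval_mul, eval_pow, eval_X, eval_one, Matrix.mulVec, dotProduct,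
    eval_finsetSum, Pi.smul_apply, smul_eq_mul] at h2 h3
  have h4 : ∑ j, ((g j).eval t + (h j).eval t⁻¹) * (Ξ i j).eval t =
      t⁻¹ ^ N * b.eval t * (Δ.eval t * (σ i).eval t) := by
    rw [← h3, Finset.mul_sum]
    refine Finset.sum_congr rfl fun j _ => ?_
    rw [← hh j t ht, eval_mul]
    ring
  have h5 : t⁻¹ ^ N * t ^ N = 1 := by rw [← mul_pow, inv_mul_cancel₀ ht, one_pow]
  rw [h4]
  linear_combination (-(t⁻¹ ^ N * (σ i).eval t)) * h2 + (a.eval t * (σ i).eval t) * h5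

end Vale.Agent.P292
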