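import Vale.Agent.P292.KOm
import Vale.Agent.P292.KMfd

/-! The variation formula. Hints: put `f (x, v) = ev (φ x) v`, `ξ v = ev (D φ x₀ h) v`, and let `a x` be
the constant of `exists_cc`, so `ct (φ x) = -a x`. At a fixed `v ≠ 0` use the local form `ϑ` at
`f (x₀, v)` and the symmetry of second derivatives:
`∂_h [θ (∂_e f)] = ∂_e [θ ξ] + om ξ (∂_e f)`. The function `om ξ (∂_e f)` is linear in `v`
(`om_jr_lin`), vanishes at `e0`, so it is `m e * v.2` with `m` linear; `θ ξ = om eul ξ =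
-(1/2) m v * v.2` (`ev_euler`). At `v = e1`, `e = e0`:
`∂_h ct = -(1/2) m e0 + m e0 = (1/2) om (ξ e1) (dE)`. -/

set_option maxSynthPendingDepth 3

open scoped Topology
open Set Filter Asymptotics

noncomputable section

namespace Vale.Agent.P292

variable {κ : Type} [Fintype κ]

theorem kvar_d (P : Pre κ) {W : Type} [NormedAddCommGroup W] [NormedSpace ℂ W] {f : W → κ → ℂ}
    {w₀ A B : W} (hf : AnalyticAt ℂ f w₀) (hm : ∀ᶠ w in 𝓝 w₀, f w ∈ P.C ∧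
      fderiv ℂ f w A ∈ P.T (f w) ∧ fderiv ℂ f w B ∈ P.T (f w)) :
    fderiv ℂ (fun w => P.θ (f w) (fderiv ℂ f w B)) w₀ A =
      fderiv ℂ (fun w => P.θ (f w) (fderiv ℂ f w A)) w₀ B +
        P.om (f w₀) (fderiv ℂ f w₀ A) (fderiv ℂ f w₀ B) := by
  have h0 := hm.self_of_nhds
  obtain ⟨π, χ, ϑ, -, hϑ, -, hq⟩ := P.loc (f w₀) h0.1
  have key : ∀ A B : W, (∀ᶠ w in 𝓝 w₀, f w ∈ P.C ∧ fderiv ℂ f w B ∈ P.T (f w)) →
      fderiv ℂ (fun w => P.θ (f w) (fderiv ℂ f w B)) w₀ A =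
        fderiv ℂ ϑ (f w₀) (fderiv ℂ f w₀ A) (fderiv ℂ f w₀ B) +
          ϑ (f w₀) (fderiv ℂ (fderiv ℂ f) w₀ A B) := by
    intro A B h
    have e : (fun w => P.θ (f w) (fderiv ℂ f w B)) =ᶠ[𝓝 w₀] fun w => ϑ (f w) (fderiv ℂ f w B) := by
      filter_upwards [h, hf.continuousAt.tendsto.eventually hq] with w h1 h2
      exact ((h2 h1.1).2 _ h1.2).1
    have h1 := (hϑ.differentiableAt.hasFDerivAt.comp w₀ hf.differentiableAt.hasFDerivAt).clm_apply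
      (hf.fderiv.differentiableAt.hasFDerivAt.clm_apply (hasFDerivAt_const B w₀))
    simp only [Function.comp_def] at h1
    rw [e.fderiv_eq, h1.fderiv]
    simp [add_comm]
  have hs := (hf.contDiffAt (n := ⊤)).isSymmSndFDerivAt le_top
  rw [key A B (hm.mono fun w h => ⟨h.1, h.2.2⟩), key B A (hm.mono fun w h => ⟨h.1, h.2.1⟩),
    ((hq.self_of_nhds h0.1).2 _ h0.2.1).2 _ h0.2.2, hs.eq B A]
  ring

theorem kvar_ne : e0 ≠ 0 ∧ e1 ≠ 0 := by simp [e0, e1]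

theorem kvar_theta (P : Pre κ) {c δ : Co P.w 2} (hc : c ∈ P.M 2) (hδ : δ ∈ P.J 2 c)
    (h0 : ev P.w 2 δ e0 = 0) :
    fderiv ℂ (fun v => P.θ (ev P.w 2 c v) (ev P.w 2 δ v)) e1 e0 =
      -(P.om (ev P.w 2 c e1) (ev P.w 2 δ e1) (fderiv ℂ (ev P.w 2 c) e1 e0) / 2) := by
  have h1 : ∀ e, ∃ b : ℂ, ∀ v, v ≠ 0 →
      P.om (ev P.w 2 c v) (ev P.w 2 δ v) (fderiv ℂ (ev P.w 2 c) v e) = b * v.2 := by
    intro e
    obtain ⟨a, b, h⟩ := Pre.om_jr_lin hc (Pre.jr_of_mem hδ) (Pre.jr_fderiv hc e) (by norm_num)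
    have h2 := h e0 kvar_ne.1
    rw [h0] at h2
    simp only [map_zero, _root_.zero_apply, e0, mul_one, mul_zero, add_zero] at h2
    exact ⟨b, fun v hv => by rw [h v hv, ← h2, zero_mul, zero_add]⟩
  obtain ⟨b₀, h₀⟩ := h1 e0
  obtain ⟨b₁, h₁⟩ := h1 e1
  have e : (fun v => P.θ (ev P.w 2 c v) (ev P.w 2 δ v)) =ᶠ[𝓝 e1]
      fun v => -((b₀ * (v.1 * v.2) + b₁ * (v.2 * v.2)) / 2) := by
    filter_upwards [isOpen_ne.mem_nhds kvar_ne.2] with v hv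
    have h2 := ev_euler c v
    have h3 : fderiv ℂ (ev P.w 2 c) v v =
        v.1 • fderiv ℂ (ev P.w 2 c) v e0 + v.2 • fderiv ℂ (ev P.w 2 c) v e1 := by
      rw [← map_smul, ← map_smul, ← map_add]
      congr 1
      simp [e0, e1]
    have h4 := congrArg (P.om (ev P.w 2 c v) (ev P.w 2 δ v)) (h3.symm.trans h2)
    simp only [map_add, map_smul, smul_eq_mul, h₀ v hv, h₁ v hv] at h4
    rw [← P.om_eul _ (hc v hv) _ (hδ v hv),
      Pre.om_skew (hc v hv) (P.eul_mem _ (hc v hv)) (hδ v hv)]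
    push_cast at h4
    linear_combination (1 / 2 : ℂ) * h4
  have f1 : HasFDerivAt (fun v : ℂ × ℂ => v.1) (ContinuousLinearMap.fst ℂ ℂ ℂ) e1 := hasFDerivAt_fst
  have f2 : HasFDerivAt (fun v : ℂ × ℂ => v.2) (ContinuousLinearMap.snd ℂ ℂ ℂ) e1 := hasFDerivAt_snd
  have f3 := ((((f1.mul f2).const_mul b₀).add ((f2.mul f2).const_mul b₁)).mul_const (2 : ℂ)⁻¹).neg
  have f4 : fderiv ℂ (fun v : ℂ × ℂ => -((b₀ * (v.1 * v.2) + b₁ * (v.2 * v.2)) / 2)) e1 = _ :=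
    f3.fderiv
  rw [e.fderiv_eq, f4, h₀ e1 kvar_ne.2]
  simp [e0, e1]
  ring

theorem Pre.var_ct (P : Pre κ) {F : Type} [NormedAddCommGroup F] [NormedSpace ℂ F]
    {φ : F → Co P.w 2} {x₀ : F} {y : κ → ℂ} (hφ : AnalyticAt ℂ φ x₀)
    (hm : ∀ᶠ x in 𝓝 x₀, φ x ∈ P.M 2 ∧ ev P.w 2 (φ x) e0 = y) :
    AnalyticAt ℂ (fun x => P.ct (φ x)) x₀ ∧ ∀ h, fderiv ℂ (fun x => P.ct (φ x)) x₀ h =
      P.om (ev P.w 2 (φ x₀) e1) (ev P.w 2 (fderiv ℂ φ x₀ h) e1) (dE P.w (φ x₀)) / 2 := by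
  set f : F × ℂ × ℂ → κ → ℂ := fun w => ev P.w 2 (φ w.1) w.2 with hf
  have hfa : AnalyticAt ℂ f (x₀, e1) := (analytic_ev (φ x₀, e1)).comp_of_eq
    ((hφ.comp_of_eq analyticAt_fst rfl).prod analyticAt_snd) rfl
  have hd : ∀ x, AnalyticAt ℂ φ x → ∀ v h e, fderiv ℂ f (x, v) (h, e) =
      ev P.w 2 (fderiv ℂ φ x h) v + fderiv ℂ (ev P.w 2 (φ x)) v e := by
    intro x hx v h e
    have h1 : HasFDerivAt (fun w : F × ℂ × ℂ => (φ w.1, w.2)) _ (x, v) :=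
      (hx.differentiableAt.hasFDerivAt.comp (x, v) hasFDerivAt_fst).prodMk hasFDerivAt_snd
    have h2 := ((analytic_ev (φ x, v)).differentiableAt.hasFDerivAt.comp (x, v) h1).fderiv
    rw [← fderiv_ev_joint]
    exact congrArg (fun L => L (h, e)) h2
  have hz : ∀ v, ev P.w 2 0 v = 0 := fun v => (evL P.w 2 v).map_zero
  have hdB : ∀ x, AnalyticAt ℂ φ x → ∀ v, fderiv ℂ f (x, v) (0, e0) =
      fderiv ℂ (ev P.w 2 (φ x)) v e0 := fun x hx v => by rw [hd x hx, map_zero, hz, zero_add]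
  have hdA : ∀ x, AnalyticAt ℂ φ x → ∀ v h, fderiv ℂ f (x, v) (h, 0) =
      ev P.w 2 (fderiv ℂ φ x h) v := fun x hx v h => by rw [hd x hx, map_zero, add_zero]
  have hT : ∀ h, ∀ᶠ w in 𝓝 (x₀, e1), f w ∈ P.C ∧ fderiv ℂ f w (h, 0) ∈ P.T (f w) ∧
      fderiv ℂ f w (0, e0) ∈ P.T (f w) := by
    intro h
    filter_upwards [(continuous_fst.tendsto (x₀, e1)).eventually
      (hφ.eventually_analyticAt.and hm.eventually_nhds),
      (continuous_snd.tendsto (x₀, e1)).eventually (isOpen_ne.mem_nhds kvar_ne.2)] with w h1 h2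
    obtain ⟨x, v⟩ := w
    have h3 := h1.2.self_of_nhds.1
    rw [hdA x h1.1, hdB x h1.1]
    exact ⟨h3 v h2, Pre.tangent_J h1.1.differentiableAt (h1.2.mono fun _ h => h.1) h v h2,
      (Pre.jr_fderiv h3 e0).mem v h2⟩
  have hg : ∀ A : F × ℂ × ℂ, (∀ᶠ w in 𝓝 (x₀, e1), f w ∈ P.C ∧ fderiv ℂ f w A ∈ P.T (f w)) →
      AnalyticAt ℂ (fun w => P.θ (f w) (fderiv ℂ f w A)) (x₀, e1) := fun A h =>
    Pre.analytic_theta hfa ((ContinuousLinearMap.apply ℂ (κ → ℂ) A).analyticAt _ |>.comp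
      hfa.fderiv) h
  have hB := hg (0, e0) ((hT 0).mono fun w h => ⟨h.1, h.2.2⟩)
  have e : (fun x => P.ct (φ x)) =ᶠ[𝓝 x₀]
      (fun w => P.θ (f w) (fderiv ℂ f w (0, e0))) ∘ fun x => (x, e1) := by
    filter_upwards [hφ.eventually_analyticAt] with x hx
    simp only [Function.comp_apply, hdB x hx, Pre.ct, zE_eq P.w_pos, dE_eq P.w_pos]
    rfl
  refine ⟨(hB.comp_of_eq (analyticAt_id.prod analyticAt_const) rfl).congr e.symm, fun h => ?_⟩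
  have hA := hg (h, 0) ((hT h).mono fun w h => ⟨h.1, h.2.1⟩)
  have h1 := kvar_d P hfa (hT h)
  have h2 := (HasFDerivAt.comp (f := fun x : F => (x, e1)) x₀ hB.differentiableAt.hasFDerivAt
    (hasFDerivAt_prodMk_left x₀ e1)).fderiv
  have h3 := (HasFDerivAt.comp (f := fun v : ℂ × ℂ => (x₀, v)) e1 hA.differentiableAt.hasFDerivAt
    (hasFDerivAt_prodMk_right x₀ e1)).fderiv
  have h4 : (fun w => P.θ (f w) (fderiv ℂ f w (h, 0))) ∘ (fun v : ℂ × ℂ => (x₀, v)) =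
      fun v => P.θ (ev P.w 2 (φ x₀) v) (ev P.w 2 (fderiv ℂ φ x₀ h) v) := by
    funext v
    simp only [Function.comp_apply, hdA x₀ hφ]
    rfl
  have h5 : ev P.w 2 (fderiv ℂ φ x₀ h) e0 = 0 := by
    have h6 := ((evL P.w 2 e0).hasFDerivAt.comp x₀ hφ.differentiableAt.hasFDerivAt).fderiv
    have h7 : (evL P.w 2 e0) ∘ φ =ᶠ[𝓝 x₀] fun _ => y := hm.mono fun x hx => hx.2
    rw [h7.fderiv_eq, fderiv_fun_const] at h6
    exact (congrArg (fun L => L h) h6).symm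
  have h6 := kvar_theta P hm.self_of_nhds.1
    (Pre.tangent_J hφ.differentiableAt (hm.mono fun _ h => h.1) h) h5
  rw [← h4, h3] at h6
  rw [hdA x₀ hφ, hdB x₀ hφ] at h1
  rw [e.fderiv_eq, h2, dE_eq P.w_pos]
  simp only [ContinuousLinearMap.comp_apply, ContinuousLinearMap.inl_apply,
    ContinuousLinearMap.inr_apply] at h6 ⊢
  rw [h1, h6]
  ring

end Vale.Agent.P292
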