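import Vale.Agent.P292.BTw
import Vale.Agent.P292.BTop3
import Vale.Agent.P292.BDbl

/-! The twistor cone. -/

set_option maxSynthPendingDepth 3

open scoped ContDiff Topology Manifold Bundle
open Set Filter

noncomputable section

namespace Vale.Agent.P292

open Vale.Agent.P219 (E)

theorem partB {m : ℕ} (hm : 1 ≤ m) {M : Type} [TopologicalSpace M] [T2Space M] [CompactSpace M]
    (Q : QK m M) : ∃ (C : Type) (_ : TopologicalSpace C) (_ : T2Space C)
      (A : Cone (E (4 * m) × ℂ) C), ∀ (κ : Type) [Fintype κ] (ε : A.Emb κ) (P : Pre κ),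
        Lnk ε P → Nonempty (Tw Q P) := by
  obtain ⟨Q', hc, h⟩ := B.exists_dbl Q
  obtain ⟨C, t, h2, ⟨N⟩⟩ := B.exists_NB Q' hm hc
  exact ⟨C, t, h2, N.cone hm, fun κ _ ε P L => h κ P (N.tw hm hc ε P L)⟩

end Vale.Agent.P292
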