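import Vale.Agent.P292.PartJ
import Vale.Agent.P292E.Ell
import Vale.Agent.P292E.Reg
import Vale.Agent.P292E.Sys
import Vale.Agent.P292E.CProj
import Vale.Agent.P292E.PkSec
import Vale.Agent.P292E.EFin
import Vale.Agent.P292E.Tran

/-! The embedding of the cone. -/

set_option maxSynthPendingDepth 3

noncomputable section

namespace Vale.Agent.P292

open Vale.Agent.P292E

variable {V : Type} [NormedAddCommGroup V] [NormedSpace ℝ V] [FiniteDimensional ℝ V]
  {C : Type} [TopologicalSpace C] [T2Space C]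

theorem partCE (A : Cone V C) : ∃ (κ : Type) (_ : Fintype κ), Nonempty (A.Emb κ) := by
  have L : V ≃L[ℝ] P292E.V (Module.finrank ℝ V) := ContinuousLinearEquiv.ofFinrankEq (by simp)
  obtain ⟨A', h⟩ := tran L A
  have hJ := partJ A'
  have hN : 0 < Module.finrank ℝ V := by
    have := A.three
    rw [A.dim]
    omega
  have hP : PeakS A' := by
    intro j j' x₀ hx
    have : Nonempty C := ⟨sg A' j x₀⟩
    exact peakS (sysS hN (ellS _)) hJ (projS (regS (ellS _)) hJ) j j' x₀ hx
  obtain ⟨κ, _, hκ⟩ := exists_emb hJ hP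
  exact ⟨κ, inferInstance, h κ hκ⟩

end Vale.Agent.P292
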