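import Vale.Agent.P292.D8

/-! The theorem of Chow for weighted cones. -/

set_option maxSynthPendingDepth 3

open scoped ContDiff Topology Manifold Bundle
open Set Filter

noncomputable section

namespace Vale.Agent.P292

open MvPolynomial

variable {κ : Type} [Fintype κ]

theorem partD_eval_act (w : κ → ℕ) (l : ℂ) (q : κ → ℂ) {g : MvPolynomial κ ℂ} {k : ℕ}
    (hg : IsWeightedHomogeneous w g k) : eval (act w l q) g = l ^ k * eval q g := by
  rw [eval_eq', eval_eq', Finset.mul_sum]
  refine Finset.sum_congr rfl fun d hd => ?_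
  have h1 : Finsupp.weight w d = k := hg (mem_support_iff.1 hd)
  have h2 : k = ∑ i, w i * d i := by
    rw [← h1, Finsupp.weight_apply, Finsupp.sum_fintype _ _ (by simp)]
    exact Finset.sum_congr rfl fun i _ => by rw [smul_eq_mul, mul_comm]
  have h3 : ∀ i, act w l q i ^ d i = l ^ (w i * d i) * q i ^ d i := fun i => by
    simp [act, mul_pow, pow_mul]
  rw [h2, ← Finset.prod_pow_eq_pow_sum, Finset.prod_congr rfl fun i _ => h3 i,
    Finset.prod_mul_distrib]
  ring

omit [Fintype κ] in
theorem partD_sum (w : κ → ℕ) (g : MvPolynomial κ ℂ) :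
    ∑ k ∈ Finset.range (weightedTotalDegree w g + 1), weightedHomogeneousComponent w k g = g := by
  conv_rhs => rw [← sum_weightedHomogeneousComponent w g]
  refine (finsum_eq_sum_of_support_subset _ fun k hk => ?_).symm
  by_contra h
  refine hk (weightedHomogeneousComponent_eq_zero k g ?_)
  simpa [Nat.lt_succ_iff] using h

theorem partD_comp (P : Pre κ) {g : MvPolynomial κ ℂ} (hg : P.Van g) (k : ℕ) :
    P.Van (weightedHomogeneousComponent P.w k g) := by
  intro q hq
  set n := weightedTotalDegree P.w g + 1
  by_cases hk : k < n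
  swap
  · rw [weightedHomogeneousComponent_eq_zero k g (by omega), map_zero]
  set R : Polynomial ℂ := ∑ j ∈ Finset.range n,
    Polynomial.monomial j (eval q (weightedHomogeneousComponent P.w j g)) with hR
  have h1 : ∀ l : ℂ, l ≠ 0 → R.eval l = 0 := by
    intro l hl
    have hq' : act P.w l q ∈ insert 0 P.C := by
      rcases hq with rfl | hq
      · rw [map_zero]; exact mem_insert _ _
      · exact mem_insert_of_mem _ (P.act_mem q hq l hl)
    have h2 := hg _ hq'
    rw [← partD_sum P.w g, map_sum] at h2
    rw [hR, Polynomial.eval_finsetSum, ← h2]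
    refine Finset.sum_congr rfl fun j _ => ?_
    rw [Polynomial.eval_monomial, partD_eval_act P.w l q
      (weightedHomogeneousComponent_isWeightedHomogeneous j g), mul_comm]
  have h3 : R = 0 := by
    refine Polynomial.eq_zero_of_infinite_isRoot R ?_
    exact ((finite_singleton (0 : ℂ)).infinite_compl).mono fun l hl => h1 l hl
  have h4 := congrArg (fun S : Polynomial ℂ => S.coeff k) h3
  simp only [hR, Polynomial.finsetSum_coeff, Polynomial.coeff_monomial, Finset.sum_ite_eq',
    Finset.mem_range, hk, if_true, Polynomial.coeff_zero] at h4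
  exact h4

/-- the ideal of the closed cone -/
def partD_ideal (P : Pre κ) : Ideal (MvPolynomial κ ℂ) where
  carrier := {g | P.Van g}
  add_mem' := fun {a b} ha hb w hw => by rw [map_add, ha w hw, hb w hw, add_zero]
  zero_mem' := fun w _ => map_zero _
  smul_mem' := fun c {a} ha w hw => by rw [smul_eq_mul, map_mul, ha w hw, mul_zero]

theorem partD_fderiv_add (a b : MvPolynomial κ ℂ) (p v : κ → ℂ) :
    fderiv ℂ (fun q => eval q (a + b)) p v =
      fderiv ℂ (fun q => eval q a) p v + fderiv ℂ (fun q => eval q b) p v := by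
  simp only [map_add]
  rw [fderiv_fun_add (ev_analytic a p).differentiableAt (ev_analytic b p).differentiableAt]
  rfl

theorem partD_fderiv_mul (a b : MvPolynomial κ ℂ) (p v : κ → ℂ) :
    fderiv ℂ (fun q => eval q (a * b)) p v = eval p a * fderiv ℂ (fun q => eval q b) p v +
      eval p b * fderiv ℂ (fun q => eval q a) p v := by
  simp only [map_mul]
  rw [fderiv_fun_mul (ev_analytic a p).differentiableAt (ev_analytic b p).differentiableAt]
  simp

theorem partD_fderiv_sum {ι : Type} (s : Finset ι) (a : ι → MvPolynomial κ ℂ) (p v : κ → ℂ)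
    (h : ∀ i ∈ s, fderiv ℂ (fun q => eval q (a i)) p v = 0) :
    fderiv ℂ (fun q => eval q (∑ i ∈ s, a i)) p v = 0 := by
  classical
  induction s using Finset.induction_on with
  | empty => simp
  | insert i s hi ih =>
    rw [Finset.sum_insert hi, partD_fderiv_add, h i (Finset.mem_insert_self _ _),
      ih fun j hj => h j (Finset.mem_insert_of_mem hj), add_zero]

theorem partD {κ : Type} [Fintype κ] (P : Pre κ) :
    ∃ (α : Type) (_ : Fintype α), Nonempty (P.Eqs α) := by
  obtain ⟨S, hS⟩ := (isNoetherianRing_iff_ideal_fg _).1 inferInstance (partD_ideal P)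
  have hSV : ∀ g ∈ S, P.Van g := fun g hg => by
    have : g ∈ partD_ideal P := hS ▸ Ideal.subset_span hg
    exact this
  have hind : ∀ (J : MvPolynomial κ ℂ → Prop), (∀ g ∈ S, J g) → J 0 →
      (∀ a b, P.Van a → P.Van b → J a → J b → J (a + b)) →
      (∀ c a, P.Van a → J a → J (c * a)) → ∀ g, P.Van g → J g := by
    intro J h1 h2 h3 h4 g hg
    have hg' : g ∈ Ideal.span (S : Set (MvPolynomial κ ℂ)) := hS ▸ hg
    have hV : ∀ a, a ∈ Ideal.span (S : Set (MvPolynomial κ ℂ)) → P.Van a := fun a ha => by
      rw [hS] at ha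
      exact ha
    induction hg' using Submodule.span_induction with
    | mem x hx => exact h1 x hx
    | zero => exact h2
    | add x y hx hy ix iy => exact h3 x y (hV x hx) (hV y hy) (ix (hV x hx)) (iy (hV y hy))
    | smul c x hx ix => exact h4 c x (hV x hx) (ix (hV x hx))
  refine ⟨Σ g : S, Fin (weightedTotalDegree P.w g.1 + 1), inferInstance,
    ⟨{ G := fun a => weightedHomogeneousComponent P.w a.2 a.1.1
       deg := fun a => a.2
       hom := fun a => weightedHomogeneousComponent_isWeightedHomogeneous _ _
       zero := fun p => ⟨fun h => ?_, fun hp a => partD_comp P (hSV _ a.1.2) _ p hp⟩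
       tan := fun p hp v => ⟨fun hv a => P.d8_tan hp hv (partD_comp P (hSV _ a.1.2) _),
         fun h => ?_⟩ }⟩⟩
  · by_contra hp
    obtain ⟨g, hg, hne⟩ := P.van_sep hp
    refine hne (hind (fun g => eval p g = 0) (fun g hg => ?_) (map_zero _)
      (fun a b _ _ ha hb => by rw [map_add, ha, hb, add_zero])
      (fun c a _ ha => by rw [map_mul, ha, mul_zero]) g hg)
    rw [← partD_sum P.w g, map_sum]
    exact Finset.sum_eq_zero fun k hk => h ⟨⟨g, hg⟩, ⟨k, Finset.mem_range.1 hk⟩⟩
  · refine (P.van_tan hp v).2 (hind (fun g => fderiv ℂ (fun q => eval q g) p v = 0)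
      (fun g hg => ?_) (by simp) (fun a b _ _ ha hb => by rw [partD_fderiv_add, ha, hb, add_zero])
      fun c a hV ha => ?_)
    · have := partD_fderiv_sum (Finset.range (weightedTotalDegree P.w g + 1))
        (fun k => weightedHomogeneousComponent P.w k g) p v
        fun k hk => h ⟨⟨g, hg⟩, ⟨k, Finset.mem_range.1 hk⟩⟩
      rwa [partD_sum] at this
    · rw [partD_fderiv_mul, ha, hV p (mem_insert_of_mem _ hp), mul_zero, zero_mul, add_zero]

end Vale.Agent.P292
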