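import Vale.Agent.P292.FM
import Vale.Agent.P292.FJ
import Vale.Agent.P292.FP
import Vale.Agent.P292.FL1
import Vale.Agent.P292.FL2
import Vale.Agent.P292.FL3

/-! Killing fields and the covariant derivative of the curvature. -/

set_option maxSynthPendingDepth 3

open scoped ContDiff Topology Manifold Bundle
open Set Filter

noncomputable section

namespace Vale.Agent.P292

open Vale.Agent.P219 (E)

theorem LT.good_zero {κ : Type} [Fintype κ] {n : ℕ} {L : LQ n} {P : Pre κ} (T : LT L P)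
    {x : E n} {b : ℂ × ℂ} (hx : x ∈ L.U) (hb : b ≠ 0) (hg : P.GoodPt (T.Θ (x, b)))
    (a u v w : E n) : covT (om L.G) (curvOm (om L.G)) x a u v w = 0 := by
  obtain ⟨K, W, μ, hK, hW, hxW, hWU, hμ, he, hj⟩ := T.exists_mu hx hb hg
  have h1 := T.twistor_eq hx hb hK (hW.mem_nhds hxW) hμ he
  obtain ⟨W', hW'1, hW', hxW'⟩ := eventually_nhds_iff.1 (h1.and (hW.mem_nhds hxW))
  have hsub : W' ⊆ W := fun y hy => (hW'1 y hy).2
  let L' := L.res W' hW' (hsub.trans hWU)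
  have hμ' : ContDiffOn ℝ ∞ μ L'.U := hμ.mono hsub
  have hd : ∀ y ∈ W', DifferentiableAt ℝ μ y := fun y hy =>
    (hμ'.contDiffAt (hW'.mem_nhds hy)).differentiableAt (by simp)
  have hp : ∀ l : ℂ →L[ℝ] ℝ, ∃ ξ, L'.Pot (fun z => pt l (μ z)) ξ := fun l =>
    L'.exists_pot (pt_smooth l hμ') fun y hy Y => by
      simp only [L'.nab_pt l (hd y hy)]
      exact ⟨congrArg l ((hW'1 y hy).1 Y).1, congrArg l ((hW'1 y hy).1 Y).2⟩
  obtain ⟨ξ, hξ⟩ := hp Complex.reCLM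
  obtain ⟨η, hη⟩ := hp Complex.imCLM
  have hJ : Jet μ x b fun X => sp (L.a x X) b :=
    jet_of_littleO (hμ'.contDiffAt (hW'.mem_nhds hxW')) b (by simp [sp]) hj
  have h0 : ξ x = 0 := LQ.Pot.zero (L := L') hxW' hb hμ' hJ _ hξ
  obtain ⟨c, hc, hA⟩ := LQ.Pot.point (L := L') hxW' hb hμ' hJ hξ hη
  have hO : ∀ y ∈ W', LieOm (om L.G) ξ y :=
    killing_lie L'.good hξ.ξ_smooth fun y hy X Y => hξ.killing hy X Y
  have hs : ContDiffOn ℝ ∞ (om L.G) W' := om_smooth L'.good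
  have hR := curvOm_smooth hW' hs
  have hL := lieR_of_lieOm hW' hs hξ.ξ_smooth hR hO
  refine four_zero (fderiv ℝ ξ x).toLinearMap hc hA (covT (om L.G) (curvOm (om L.G)) x)
    ?_ ?_ ?_ ?_ (lie_covT hW' hξ.ξ_smooth hR hL hxW' h0 (hO x hxW')) a u v w <;>
  · intro r a u v w
    simp only [covT, map_smul, smul_apply, smul_add, smul_sub]

theorem partF {m : ℕ} (_hm : 1 ≤ m) {M : Type} [TopologicalSpace M] (Q : QK m M) {κ : Type}
    [Fintype κ] (P : Pre κ) (T : Tw Q P) (hP : P.Core) : Q.Sym := by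
  intro j y hy a u v w
  rw [covRiem_om (Q.good j) hy]
  by_contra hne
  have hU := (Q.good j).isOpen
  have hc := (covT_cont hU (om_smooth (Q.good j)) a u v w).continuousAt (hU.mem_nhds hy)
  have h1 : ∀ᶠ z in 𝓝 y, z ∈ Q.U j ∧
      covT (om (Q.G j)) (curvOm (om (Q.G j))) z a u v w ≠ 0 :=
    Filter.Eventually.and (hU.mem_nhds hy) (hc.eventually_ne hne)
  have h10 : ((1, 0) : ℂ × ℂ) ∈ ({0}ᶜ : Set (ℂ × ℂ)) := by simp
  have hp : (y, ((1, 0) : ℂ × ℂ)) ∈ Q.U j ×ˢ ({0}ᶜ : Set (ℂ × ℂ)) := ⟨hy, h10⟩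
  have h2 := T.nhds j _ hp _ (prod_mem_nhds h1 (isOpen_compl_singleton.mem_nhds h10))
  obtain ⟨N, hN, hsub⟩ := mem_nhdsWithin_iff_exists_mem_nhds_inter.1 h2
  obtain ⟨q, hq, hg⟩ := hP _ (T.mem j _ hp) N hN
  obtain ⟨⟨x, b⟩, ⟨⟨hx, hne'⟩, hb⟩, rfl⟩ := hsub hq
  exact hne' ((T.loc j).good_zero hx hb hg a u v w)

end Vale.Agent.P292
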