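import Vale.Agent.P292.Defs

/-! The complex structure of a complex symplectic form. -/

set_option maxSynthPendingDepth 3

open scoped ContDiff Topology Manifold Bundle
open Set Filter

noncomputable section

namespace Vale.Agent.P292

variable {V : Type} [NormedAddCommGroup V] [NormedSpace ℝ V] [FiniteDimensional ℝ V]
  {C : Type} [TopologicalSpace C] [T2Space C]

section General

variable {W : Type} [NormedAddCommGroup W] [NormedSpace ℝ W]

/-- the exterior derivative of a one-form -/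
def PartJ_d (θ : W → W →L[ℝ] ℂ) (q : W) : W →L[ℝ] W →L[ℝ] ℂ :=
  fderiv ℝ θ q - (fderiv ℝ θ q).flip

theorem PartJ_d_apply (θ : W → W →L[ℝ] ℂ) (q v w : W) :
    PartJ_d θ q v w = fderiv ℝ θ q v w - fderiv ℝ θ q w v := by
  simp [PartJ_d]

theorem PartJ_symm {F : Type} [NormedAddCommGroup F] [NormedSpace ℝ F] {f : W → F} {p : W}
    (hf : ContDiffAt ℝ ∞ f p) (u v : W) :
    fderiv ℝ (fderiv ℝ f) p u v = fderiv ℝ (fderiv ℝ f) p v u := by
  have h : IsSymmSndFDerivAt ℝ f p := by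
    apply hf.isSymmSndFDerivAt
    simp only [minSmoothness_of_isRCLikeNormedField]
    exact WithTop.coe_le_coe.2 (le_top : ((2 : ℕ) : ℕ∞) ≤ ⊤)
  exact h u v

theorem PartJ_diff2 {F : Type} [NormedAddCommGroup F] [NormedSpace ℝ F] {f : W → F} {p : W}
    (hf : ContDiffAt ℝ ∞ f p) : DifferentiableAt ℝ (fderiv ℝ f) p := by
  have h : ContDiffAt ℝ 1 (fderiv ℝ f) p := by
    apply hf.fderiv_right
    exact WithTop.coe_le_coe.2 (le_top : (1 + 1 : ℕ∞) ≤ ⊤)
  exact h.differentiableAt one_ne_zero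

theorem PartJ_d_hasFDerivAt {θ : W → W →L[ℝ] ℂ} {p : W} (hθ : ContDiffAt ℝ ∞ θ p) :
    HasFDerivAt (PartJ_d θ) (fderiv ℝ (fderiv ℝ θ) p -
      ((ContinuousLinearMap.flipₗᵢ ℝ W W ℂ).toContinuousLinearEquiv.toContinuousLinearMap).comp
        (fderiv ℝ (fderiv ℝ θ) p)) p := by
  have h1 := (PartJ_diff2 hθ).hasFDerivAt
  have h2 := ((ContinuousLinearMap.flipₗᵢ ℝ W W ℂ).toContinuousLinearEquiv.toContinuousLinearMap
    ).hasFDerivAt.comp p h1
  exact h1.sub h2

theorem PartJ_d_fderiv {θ : W → W →L[ℝ] ℂ} {p : W} (hθ : ContDiffAt ℝ ∞ θ p) (u v w : W) :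
    fderiv ℝ (PartJ_d θ) p u v w =
      fderiv ℝ (fderiv ℝ θ) p u v w - fderiv ℝ (fderiv ℝ θ) p u w v := by
  rw [(PartJ_d_hasFDerivAt hθ).fderiv]
  simp

/-- pull-back commutes with the exterior derivative -/
theorem PartJ_pull {θ θ' : W → W →L[ℝ] ℂ} {φ : W → W} {p : W} (hφ : ContDiffAt ℝ ∞ φ p)
    (hθ' : DifferentiableAt ℝ θ' (φ p))
    (h : ∀ᶠ q in 𝓝 p, θ q = (θ' (φ q)).comp (fderiv ℝ φ q)) (v w : W) :
    PartJ_d θ p v w = PartJ_d θ' (φ p) (fderiv ℝ φ p v) (fderiv ℝ φ p w) := by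
  have h0 : DifferentiableAt ℝ φ p := hφ.differentiableAt (by simp)
  have h1 : HasFDerivAt (fun q => θ' (φ q)) ((fderiv ℝ θ' (φ p)).comp (fderiv ℝ φ p)) p :=
    hθ'.hasFDerivAt.comp p h0.hasFDerivAt
  have h2 := h1.clm_comp (PartJ_diff2 hφ).hasFDerivAt
  have h3 := (h2.congr_of_eventuallyEq h).fderiv
  rw [PartJ_d_apply, PartJ_d_apply, h3]
  simp only [add_apply, ContinuousLinearMap.comp_apply,
    ContinuousLinearMap.compL_apply, ContinuousLinearMap.flip_apply]
  rw [PartJ_symm hφ v w]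
  ring

/-- a complex structure defined by a closed nondegenerate form is integrable -/
theorem PartJ_nij {θ : W → W →L[ℝ] ℂ} {J : W → W →L[ℝ] W} {p : W} (hθ : ContDiffAt ℝ ∞ θ p)
    (hJ : DifferentiableAt ℝ J p)
    (h : ∀ᶠ q in 𝓝 p, ∀ v w, PartJ_d θ q (J q v) w = Complex.I * PartJ_d θ q v w) (v w z : W) :
    PartJ_d θ p (fderiv ℝ J p (J p v) w - fderiv ℝ J p (J p w) v +
      J p (fderiv ℝ J p w v) - J p (fderiv ℝ J p v w)) z = 0 := by
  have hd : DifferentiableAt ℝ (PartJ_d θ) p := (PartJ_d_hasFDerivAt hθ).differentiableAt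
  have h0 := h.self_of_nhds
  have key : ∀ a b c, PartJ_d θ p (fderiv ℝ J p a b) c =
      Complex.I * fderiv ℝ (PartJ_d θ) p a b c - fderiv ℝ (PartJ_d θ) p a (J p b) c := by
    intro a b c
    have e1 : HasFDerivAt (fun q => PartJ_d θ q (J q b) c) _ p :=
      (hd.hasFDerivAt.clm_apply (hJ.hasFDerivAt.clm_apply (hasFDerivAt_const b p))).clm_apply
        (hasFDerivAt_const c p)
    have e2 : HasFDerivAt (fun q => Complex.I * PartJ_d θ q b c) _ p :=
      ((hd.hasFDerivAt.clm_apply (hasFDerivAt_const b p)).clm_apply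
        (hasFDerivAt_const c p)).const_mul Complex.I
    have e3 : (fun q => PartJ_d θ q (J q b) c) =ᶠ[𝓝 p] fun q => Complex.I * PartJ_d θ q b c :=
      h.mono fun q hq => hq b c
    have e4 := (e2.congr_of_eventuallyEq e3).unique e1
    have e5 := congrArg (fun L : W →L[ℝ] ℂ => L a) e4
    simp at e5
    linear_combination -e5
  have hskew : ∀ a b, PartJ_d θ p a b = -PartJ_d θ p b a := by
    intro a b
    simp [PartJ_d_apply]
  have hright : ∀ a b, PartJ_d θ p a (J p b) = Complex.I * PartJ_d θ p a b := by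
    intro a b
    rw [hskew a, h0, hskew b]
    ring
  have hcl : ∀ a b c, fderiv ℝ (PartJ_d θ) p a b c - fderiv ℝ (PartJ_d θ) p b a c =
      -fderiv ℝ (PartJ_d θ) p c a b := by
    intro a b c
    simp only [PartJ_d_fderiv hθ]
    rw [PartJ_symm hθ a b, PartJ_symm hθ a c, PartJ_symm hθ b c]
    ring
  have k1 := key z v w
  have k2 := key z v (J p w)
  rw [hright] at k2
  simp only [map_sub, map_add, sub_apply, add_apply]
  rw [h0, h0, key, key, key, key]
  have c1 := hcl (J p v) w z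
  have c2 := hcl (J p v) (J p w) z
  have c3 := hcl v (J p w) z
  have c4 := hcl v w z
  have hI : Complex.I * Complex.I = -1 := Complex.I_mul_I
  linear_combination Complex.I * c1 - c2 + Complex.I * c3 + c4 - Complex.I * k1 + k2 +
    (fderiv ℝ (PartJ_d θ) p w v z - fderiv ℝ (PartJ_d θ) p v w z -
      fderiv ℝ (PartJ_d θ) p z v w) * hI

end General

/-- the one-form `thC` as a field of linear forms -/
def PartJ_th (ϑ : V → V →L[ℝ] ℂ) (p : V × ℂ) : V × ℂ →L[ℝ] ℂ :=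
  p.2 • (ϑ p.1).comp (ContinuousLinearMap.fst ℝ V ℂ)

omit [FiniteDimensional ℝ V] in
theorem PartJ_th_apply (ϑ : V → V →L[ℝ] ℂ) (p v : V × ℂ) : PartJ_th ϑ p v = thC ϑ p v := by
  simp [PartJ_th, thC]

omit [FiniteDimensional ℝ V] in
theorem PartJ_th_contDiffAt {ϑ : V → V →L[ℝ] ℂ} {p : V × ℂ} (h : ContDiffAt ℝ ∞ ϑ p.1) :
    ContDiffAt ℝ ∞ (PartJ_th ϑ) p := by
  have h1 : ContDiffAt ℝ ∞ (fun q : V × ℂ => ϑ q.1) p := h.comp p contDiffAt_fst
  exact contDiffAt_snd.smul (h1.clm_comp contDiffAt_const)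

omit [FiniteDimensional ℝ V] in
theorem PartJ_d_th {ϑ : V → V →L[ℝ] ℂ} {p : V × ℂ} (h : ContDiffAt ℝ ∞ ϑ p.1) (v w : V × ℂ) :
    PartJ_d (PartJ_th ϑ) p v w = omC ϑ p v w := by
  have h0 : DifferentiableAt ℝ ϑ p.1 := h.differentiableAt (by simp)
  have h1 : HasFDerivAt (fun q : V × ℂ => ϑ q.1) _ p :=
    h0.hasFDerivAt.comp p (hasFDerivAt_fst (𝕜 := ℝ))
  have h2 := h1.clm_comp (hasFDerivAt_const (ContinuousLinearMap.fst ℝ V ℂ) p)
  have h3 : HasFDerivAt (PartJ_th ϑ) _ p := (hasFDerivAt_snd (𝕜 := ℝ)).smul h2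
  rw [PartJ_d_apply, h3.fderiv]
  simp [omC]
  ring

omit [FiniteDimensional ℝ V] [T2Space C] in
theorem PartJ_smooth (A : Cone V C) {j : A.ι} {p : V × ℂ} (hp : p ∈ (A.τ j).target) :
    ContDiffAt ℝ ∞ (A.ϑ j) p.1 := by
  have h : p.1 ∈ A.base j := by
    rw [A.target j] at hp
    exact hp.1
  exact (A.ϑ_smooth j).contDiffAt ((A.base_open j).mem_nhds h)

omit [FiniteDimensional ℝ V] [T2Space C] in
theorem PartJ_uniq (A : Cone V C) {j : A.ι} {p : V × ℂ} (hp : p ∈ (A.τ j).target) {v v' : V × ℂ}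
    (h : ∀ w, omC (A.ϑ j) p v' w = Complex.I * omC (A.ϑ j) p v w) : A.J j p v = v' := by
  rw [← sub_eq_zero]
  apply A.nondeg j p hp
  intro w
  have h1 := A.J_om j p hp v w
  have h2 := h w
  rw [← PartJ_d_th (PartJ_smooth A hp)] at h1 h2 ⊢
  rw [map_sub, sub_apply, h1, h2, sub_self]

omit [FiniteDimensional ℝ V] [T2Space C] in
theorem PartJ_om_compat (A : Cone V C) (i j : A.ι) {p : V × ℂ} (hp : p ∈ (A.τ j).target)
    (hi : (A.τ j).symm p ∈ (A.τ i).source) (v w : V × ℂ) :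
    omC (A.ϑ j) p v w = omC (A.ϑ i) (A.τ i ((A.τ j).symm p))
      (fderiv ℝ (A.τ i ∘ (A.τ j).symm) p v) (fderiv ℝ (A.τ i ∘ (A.τ j).symm) p w) := by
  have hS : (A.τ j).target ∩ (A.τ j).symm ⁻¹' (A.τ i).source ∈ 𝓝 p :=
    ((A.τ j).isOpen_inter_preimage_symm (A.τ i).open_source).mem_nhds ⟨hp, hi⟩
  have hq : A.τ i ((A.τ j).symm p) ∈ (A.τ i).target := (A.τ i).map_source hi
  rw [← PartJ_d_th (PartJ_smooth A hp), ← PartJ_d_th (PartJ_smooth A hq)]
  refine PartJ_pull (φ := A.τ i ∘ (A.τ j).symm) ((A.smooth i j).contDiffAt hS)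
    ((PartJ_th_contDiffAt (PartJ_smooth A hq)).differentiableAt (by simp)) ?_ v w
  filter_upwards [hS] with q hq
  refine ContinuousLinearMap.ext fun u => ?_
  rw [ContinuousLinearMap.comp_apply, PartJ_th_apply, PartJ_th_apply]
  exact A.compat i j q hq.1 hq.2 u

omit [T2Space C] in
theorem PartJ_surj (A : Cone V C) (i j : A.ι) {p : V × ℂ} (hp : p ∈ (A.τ j).target)
    (hi : (A.τ j).symm p ∈ (A.τ i).source) :
    Function.Surjective (fderiv ℝ (A.τ i ∘ (A.τ j).symm) p) := by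
  have hinj : Function.Injective (fderiv ℝ (A.τ i ∘ (A.τ j).symm) p).toLinearMap := by
    rw [injective_iff_map_eq_zero]
    intro v hv
    apply A.nondeg j p hp
    intro w
    have hv' : fderiv ℝ (A.τ i ∘ (A.τ j).symm) p v = 0 := hv
    rw [PartJ_om_compat A i j hp hi, hv']
    simp [omC]
  exact LinearMap.injective_iff_surjective.mp hinj

theorem partJ (A : Cone V C) : A.JFacts where
  vert j p hp μ := by
    apply PartJ_uniq A hp
    intro w
    simp [omC]
    ring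
  scale j p hp l hl v := by
    have hp' : (p.1, l * p.2) ∈ (A.τ j).target := by
      rw [A.target j] at hp ⊢
      exact ⟨hp.1, mul_ne_zero hl hp.2⟩
    apply PartJ_uniq A hp'
    intro w
    have h := A.J_om j p hp v (w.1, l⁻¹ * w.2)
    have hl' : l * l⁻¹ = 1 := mul_inv_cancel₀ hl
    simp only [omC] at h ⊢
    linear_combination l * h + (w.2 * A.ϑ j p.1 (A.J j p v).1 -
      Complex.I * w.2 * A.ϑ j p.1 v.1) * hl'
  compat i j p hp hi v := by
    symm
    apply PartJ_uniq A ((A.τ i).map_source hi)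
    intro w
    obtain ⟨u, rfl⟩ := PartJ_surj A i j hp hi w
    rw [← PartJ_om_compat A i j hp hi, ← PartJ_om_compat A i j hp hi]
    exact A.J_om j p hp v u
  om_compat i j p hp hi v w := PartJ_om_compat A i j hp hi v w
  th_J j p hp v := by
    have h := A.J_om j p hp v (0, p.2)
    simp [omC] at h
    simp only [thC]
    linear_combination h
  nij j p hp v w := by
    have hT : (A.τ j).target ∈ 𝓝 p := (A.τ j).open_target.mem_nhds hp
    apply A.nondeg j p hp
    intro z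
    rw [← PartJ_d_th (PartJ_smooth A hp)]
    refine PartJ_nij (PartJ_th_contDiffAt (PartJ_smooth A hp))
      (((A.J_smooth j).contDiffAt hT).differentiableAt (by simp)) ?_ v w z
    filter_upwards [hT] with q hq a b
    rw [PartJ_d_th (PartJ_smooth A hq), PartJ_d_th (PartJ_smooth A hq)]
    exact A.J_om j q hq a b

end Vale.Agent.P292
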