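import Vale.Agent.P292.KA
import Vale.Agent.P292.KB
import Vale.Agent.P292.KJet
import Vale.Agent.P292.KFin
import Vale.Agent.P292.KGen2

/-! The core theorem. -/

set_option maxSynthPendingDepth 3

open scoped ContDiff Topology Manifold Bundle
open Set Filter Asymptotics

noncomputable section

namespace Vale.Agent.P292

variable {κ α : Type} [Fintype κ] [Fintype α] {P : Pre κ}

theorem partK_e0 : (e0 : ℂ × ℂ) ≠ 0 := by simp [e0]

theorem partK_e1 : (e1 : ℂ × ℂ) ≠ 0 := by simp [e1]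

theorem partK_quad (G : P.Eqs α) {y : κ → ℂ} (hy : P.Gen y) {c : Co P.w 2} (hc : c ∈ P.M 2)
    (h0 : ev P.w 2 c e0 = y) (hv : P.VF c) :
    ∃ a k σ, wg e0 a ≠ 0 ∧ P.LocK y (rep P.w 2 e0 a c) k σ ∧
      ∀ᶠ m in 𝓝 c, m ∈ P.M 2 → Qv P.w (fun q => k q ^ 2) m a := by
  by_cases h : ∃ n ∈ closure (connectedComponentIn (P.My y) (c, 1)), P.Nod n
  · obtain ⟨n, h1, h2⟩ := h
    exact Pre.caseB G hy hc h0 hv h2 h1
  · push Not at h
    obtain ⟨k, σ, hk⟩ := Pre.exists_locK G hc hv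
    rw [h0] at hk
    refine ⟨e1, k, σ, by simp [wg, e0, e1], by rwa [rep_id], Pre.caseA G hy hk h⟩

theorem partK_vf {f : ℂ × ℂ → κ → ℂ} {c : Co P.w 2} (hfc : ∀ v, v ≠ 0 → f v = ev P.w 2 c v)
    (h : P.VeryFree f) : P.VF c := by
  intro a ha b hb
  obtain ⟨ξ, h1, h2, h3⟩ := h a (by rwa [show ((1, 0) : ℂ × ℂ) = e0 from rfl, hfc _ partK_e0]) b
    (by rwa [show ((0, 1) : ℂ × ℂ) = e1 from rfl, hfc _ partK_e1])
  have hj : P.Jr 2 0 c ξ := ⟨h1.diff, fun l hl v hv => by rw [h1.hom l hl v hv]; simp,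
    fun v hv => by rw [← hfc v hv]; exact h1.mem v hv⟩
  obtain ⟨δ, h4, h5⟩ := hj.exists_co
  exact ⟨δ, h4, by rw [← h5 _ partK_e0]; exact h2, by rw [← h5 _ partK_e1]; exact h3⟩

theorem partK_good (G : P.Eqs α) {y : κ → ℂ} (hy : P.Gen y) : P.GoodPt y := by
  intro f hf hf0 _ hvf
  obtain ⟨c, hc, hfc⟩ := hf.exists_co
  have h0 : ev P.w 2 c e0 = y := by rw [← hfc _ partK_e0]; exact hf0
  have hv := partK_vf hfc hvf
  obtain ⟨a, k, σ, ha, hk, hQ⟩ := partK_quad G hy hc h0 hv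
  obtain ⟨K, δ, hK, hδ, h1, h2⟩ := Pre.final G hc (hv.free G hc) h0 ha hk hQ
  obtain ⟨B, hB, hn⟩ := norm_le_sup P.w 2
  refine ⟨K, min (min δ 1) (δ / (2 * B)), hK, by positivity, fun g hg hgf => ?_,
    fun γ τ g0 gC gd => Pre.two_jet G hc hv h0 hK h2 γ τ g0 gC gd⟩
  obtain ⟨m, hm, hgm⟩ := hg.exists_co
  have hmc : ‖m - c‖ < δ := by
    have h3 := hn (m - c) (δ / (2 * B)) (by positivity) fun v hv1 => by
      have hv0 : v ≠ 0 := by rintro rfl; simp at hv1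
      have h4 := hgf v hv1
      rw [hgm v hv0, hfc v hv0] at h4
      rw [← evL_apply, map_sub, evL_apply, evL_apply]
      exact (h4.trans_le (min_le_right _ _)).le
    have h5 : B * (δ / (2 * B)) = δ / 2 := by field_simp
    linarith
  obtain ⟨a', b', c', h6⟩ := h1 m hm hmc
  refine ⟨a', b', c', fun v hv1 => ?_⟩
  have h7 : ‖v - e0‖ < min δ 1 := hv1.trans_le (min_le_left _ _)
  have hv0 : v ≠ 0 := by
    rintro rfl
    have := h7.trans_le (min_le_right _ _)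
    simp [e0] at this
  rw [hgm v hv0]
  exact h6 v (h7.trans_le (min_le_left _ _))

theorem partK {κ α : Type} [Fintype κ] [Fintype α] (P : Pre κ) (G : P.Eqs α) : P.Core := by
  intro p hp N hN
  obtain ⟨𝒩, h1, h2⟩ := Pre.exists_gen G
  obtain ⟨y, h3, h4⟩ := P.dense_compl h1 p hp N hN
  exact ⟨y, h3, partK_good G (h2 y h3.2 h4)⟩

end Vale.Agent.P292
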