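import Vale.Agent.P292.PC

/-! The image of the embedding. -/

set_option maxSynthPendingDepth 3

open scoped ContDiff Topology Manifold Bundle
open Set Filter

noncomputable section

namespace Vale.Agent.P292

variable {V : Type} [NormedAddCommGroup V] [NormedSpace ℝ V] [FiniteDimensional ℝ V]
  {C : Type} [TopologicalSpace C] [T2Space C]

theorem partP (A : Cone V C) (hJ : A.JFacts) {κ : Type} [Fintype κ] (ε : A.Emb κ) :
    ∃ P : Pre κ, Lnk ε P := by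
  choose T θ om H using pc_data ε hJ
  have hc : ∀ q ∈ range ε.Φ, ∃ j, ∃ p ∈ (A.τ j).target, ε.Φ ((A.τ j).symm p) = q := by
    rintro _ ⟨c, rfl⟩
    obtain ⟨j, hj⟩ := A.cover c
    exact ⟨j, _, (A.τ j).map_source hj, congrArg ε.Φ ((A.τ j).left_inv hj)⟩
  have hd : ∀ j, ∀ p ∈ (A.τ j).target, DifferentiableAt ℝ (A.ϑ j) p.1 := fun j p hp =>
    ((A.ϑ_smooth j).contDiffAt ((A.base_open j).mem_nhds (A.target j ▸ hp).1)).differentiableAt
      (by simp)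
  refine ⟨⟨ε.w, ε.w_pos, range ε.Φ, A.D + 1, Nat.succ_le_succ A.three, T, θ, om,
    fun ⟨c, hc⟩ => ε.ne c hc, pb_closed ε, ?_, ?_, ?_, ?_, ?_, ?_, ?_, ?_, ?_⟩, rfl, rfl, pb_ind ε,
    fun j p hp => (H _ j p hp rfl).1, fun j p hp v => ((H _ j p hp rfl).2 v).1⟩
  · rintro _ ⟨c, rfl⟩ l hl
    exact ⟨_, pb_hom ε hl c⟩
  · rintro _ ⟨c, rfl⟩ l hl
    exact pb_free ε hl c
  · intro q hq l hl v hv
    obtain ⟨j, p, hp, rfl⟩ := hc q hq
    obtain ⟨v, rfl⟩ := ((H _ j p hp rfl).1 v).1 hv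
    exact ((H _ j _ (pc_S ε hp hl).1 (pc_S ε hp hl).2).1 _).2 ⟨_, pc_DS ε hp hl v⟩
  · intro q hq l hl v hv
    obtain ⟨j, p, hp, rfl⟩ := hc q hq
    obtain ⟨v, rfl⟩ := ((H _ j p hp rfl).1 v).1 hv
    rw [← pc_DS ε hp hl, ((H _ j _ (pc_S ε hp hl).1 (pc_S ε hp hl).2).2 _).1,
      ((H _ j p hp rfl).2 v).1, pc_thS]
  · intro q hq l hl v hv u hu
    obtain ⟨j, p, hp, rfl⟩ := hc q hq
    obtain ⟨v, rfl⟩ := ((H _ j p hp rfl).1 v).1 hv
    obtain ⟨u, rfl⟩ := ((H _ j p hp rfl).1 u).1 hu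
    rw [← pc_DS ε hp hl, ← pc_DS ε hp hl, ((H _ j _ (pc_S ε hp hl).1 (pc_S ε hp hl).2).2 _).2,
      ((H _ j p hp rfl).2 v).2, pc_omS]
  · intro q hq
    obtain ⟨j, p, hp, rfl⟩ := hc q hq
    exact ((H _ j p hp rfl).1 _).2 ⟨_, pc_eul ε hp⟩
  · intro q hq v hv
    obtain ⟨j, p, hp, rfl⟩ := hc q hq
    obtain ⟨v, rfl⟩ := ((H _ j p hp rfl).1 v).1 hv
    rw [← pc_eul ε hp, ((H _ j p hp rfl).2 _).2, ((H _ j p hp rfl).2 v).1, pc_omE]
  · intro q hq v hv h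
    obtain ⟨j, p, hp, rfl⟩ := hc q hq
    obtain ⟨v, rfl⟩ := ((H _ j p hp rfl).1 v).1 hv
    rw [A.nondeg j p hp v fun w => (((H _ j p hp rfl).2 v).2 w).symm.trans
      (h _ (((H _ j p hp rfl).1 _).2 ⟨w, rfl⟩)), map_zero]
  · intro q hq
    obtain ⟨j, p, hp, rfl⟩ := hc q hq
    obtain ⟨ϖ, χ, ϑ, h1, h2, h3, h4⟩ := pa_loc (ρ := A.D + 1) (by
      rw [Module.finrank_prod, A.dim, Complex.finrank_real_complex]
      ring) (A.τ j).open_target hp (pc_sm ε j) (fun p hp => pc_hol ε hp) (ε.imm j p hp)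
      (fun p hp => (pc_th (hd j p hp)).1) (hJ.th_J j) fun p hp v w => by
        rw [(pc_th (hd j p hp)).2, (pc_th (hd j p hp)).2, A.J_om j p hp]
    refine ⟨ϖ, χ, ϑ, h1, h2, h3.mono ?_, ?_⟩
    · rintro u ⟨x, hx, a1, a2, a3⟩
      exact ⟨⟨_, a1.symm⟩, a2, Submodule.ext fun y =>
        ((H _ j x hx a1.symm).1 y).trans (a3 y).symm⟩
    · have h5 := (A.τ j).map_target hp
      have h6 := ((A.τ j).continuousAt h5).eventually
        (((A.τ j).right_inv hp).symm ▸ h4)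
      have h7 := h6.and ((A.τ j).open_source.mem_nhds h5)
      rw [(pb_ind ε).nhds_eq_comap, eventually_comap] at h7
      filter_upwards [h7] with q a hq
      obtain ⟨c, rfl⟩ := hq
      obtain ⟨⟨a1, a2⟩, a3⟩ := a c rfl
      have a4 := (A.τ j).map_source a3
      have a5 : (ε.Φ ∘ (A.τ j).symm) (A.τ j c) = ε.Φ c := congrArg ε.Φ ((A.τ j).left_inv a3)
      rw [a5] at a1 a2
      refine ⟨a1, fun v hv => ?_⟩
      obtain ⟨v, rfl⟩ := ((H _ j _ a4 a5).1 v).1 hv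
      refine ⟨((H _ j _ a4 a5).2 v).1.trans (a2 v).1.symm, fun u hu => ?_⟩
      obtain ⟨u, rfl⟩ := ((H _ j _ a4 a5).1 u).1 hu
      rw [((H _ j _ a4 a5).2 v).2, (a2 v).2, (pc_th (hd j _ a4)).2]

end Vale.Agent.P292
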