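import Vale.Agent.P292.PartA
import Vale.Agent.P292.PartB
import Vale.Agent.P292.PartJ
import Vale.Agent.P292.PartCE
import Vale.Agent.P292.PartP
import Vale.Agent.P292.PartD
import Vale.Agent.P292.PartK
import Vale.Agent.P292.PartF

/-! Assembly. -/

set_option maxSynthPendingDepth 3

open scoped ContDiff Topology Manifold Bundle
open Set Filter

noncomputable section

namespace Vale.Agent.P292

open Vale.Agent.P219 (E)

theorem qk_sym {m : ℕ} (hm : 1 ≤ m) {M : Type} [TopologicalSpace M] [T2Space M] [CompactSpace M]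
    (Q : QK m M) : Q.Sym := by
  obtain ⟨C, _, _, A, hA⟩ := partB hm Q
  have hJ := partJ A
  obtain ⟨κ, _, ⟨ε⟩⟩ := partCE A
  obtain ⟨P, hP⟩ := partP A hJ ε
  obtain ⟨T⟩ := hA κ ε P hP
  obtain ⟨α, _, ⟨G⟩⟩ := partD P
  exact partF hm Q P T (partK P G)

theorem main (m : ℕ) (hm : 2 ≤ m) (M : Type) [TopologicalSpace M] [T2Space M] [CompactSpace M]
    [ConnectedSpace M] [ChartedSpace (E (4 * m)) M] [IsManifold 𝓘(ℝ, E (4 * m)) ∞ M]
    [Bundle.RiemannianBundle fun x : M => TangentSpace 𝓘(ℝ, E (4 * m)) x]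
    [IsContMDiffRiemannianBundle 𝓘(ℝ, E (4 * m)) ∞ (E (4 * m))
      fun x : M => TangentSpace 𝓘(ℝ, E (4 * m)) x]
    (hol : St.HolonomySpSp m M) (pos : St.PosScal (4 * m) M) :
    St.LocallySymmetric (4 * m) M := by
  intro e he y hy a u v w
  obtain ⟨Q, j, hj, hG⟩ := partA m hm M hol pos e he y hy
  rw [← hG]
  exact qk_sym (by omega) Q j y hj a u v w

end Vale.Agent.P292
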