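import Vale.Agent.P292.Defs
import Vale.Agent.P278F.Osg

/-! Pseudo-holomorphic immersions: linear algebra and local holomorphic parametrizations. -/

set_option maxSynthPendingDepth 3

open scoped ContDiff Topology
open Set Filter Complex

noncomputable section

namespace Vale.Agent.P292

variable {X W Y : Type} [NormedAddCommGroup X] [NormedSpace ℝ X]
  [NormedAddCommGroup W] [NormedSpace ℝ W] [NormedSpace ℂ W] [IsScalarTower ℝ ℂ W]
  [NormedAddCommGroup Y] [NormedSpace ℝ Y] [NormedSpace ℂ Y] [IsScalarTower ℝ ℂ Y]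

theorem pa_smul (c : ℂ) (u : W) : c • u = c.re • u + c.im • (I • u) := by
  rw [← algebraMap_smul ℂ c.re u, ← algebraMap_smul ℂ c.im (I • u), ← mul_smul, ← add_smul]
  exact congrArg (· • u) (re_add_im c).symm

/-- a real linear map which commutes with `I` is complex linear -/
def paCpx (f : W →L[ℝ] Y) (h : ∀ u, f (I • u) = I • f u) : W →L[ℂ] Y where
  toFun := f
  map_add' := f.map_add
  map_smul' c u := by
    rw [pa_smul c u, map_add, map_smul, map_smul, h, RingHom.id_apply, pa_smul c (f u)]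
  cont := f.continuous

theorem pa_diff {g : W → Y} {x : W} (hg : DifferentiableAt ℝ g x)
    (h : ∀ u, fderiv ℝ g x (I • u) = I • fderiv ℝ g x u) : DifferentiableAt ℂ g x :=
  (hasFDerivAt_of_restrictScalars ℝ (f' := paCpx _ h) hg.hasFDerivAt rfl).differentiableAt

theorem pa_fderiv {g : W → Y} {x : W} (hg : DifferentiableAt ℂ g x) (v : W) :
    fderiv ℂ g x v = fderiv ℝ g x v := by
  rw [(hg.hasFDerivAt.restrictScalars ℝ).fderiv]
  rfl

/-- the range of a pseudo-complex linear map -/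
def paRng (D : X →L[ℝ] W) (J : X →L[ℝ] X) (h : ∀ v, D (J v) = I • D v) : Submodule ℂ W where
  carrier := {u | ∃ v, D v = u}
  zero_mem' := ⟨0, D.map_zero⟩
  add_mem' := by
    rintro _ _ ⟨a, rfl⟩ ⟨b, rfl⟩
    exact ⟨a + b, D.map_add a b⟩
  smul_mem' := by
    rintro c _ ⟨a, rfl⟩
    exact ⟨c.re • a + c.im • J a, by rw [map_add, map_smul, map_smul, h, ← pa_smul]⟩

theorem pa_ret [FiniteDimensional ℂ W] {D : X →L[ℝ] W} {J : X →L[ℝ] X}
    (h : ∀ v, D (J v) = I • D v) (hD : Function.Injective D) :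
    ∃ R : W →L[ℝ] X, (∀ v, R (D v) = v) ∧ ∀ u, R (I • u) = J (R u) := by
  have : FiniteDimensional ℝ W := Module.Finite.trans ℂ W
  obtain ⟨L, hL⟩ := LinearMap.exists_leftInverse_of_injective (D : X →ₗ[ℝ] W)
    (LinearMap.ker_eq_bot.2 hD)
  have hL' : ∀ v, L (D v) = v := fun v => LinearMap.congr_fun hL v
  have hI : ∀ u : W, I • I • u = -u := fun u => by rw [← mul_smul, I_mul_I, neg_one_smul]
  have hJ : ∀ v, J (J v) = -v := fun v => hD (by rw [h, h, hI, map_neg])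
  let M : W →L[ℝ] W := (I • ContinuousLinearMap.id ℂ W).restrictScalars ℝ
  let L' : W →L[ℝ] X := LinearMap.toContinuousLinearMap L
  have e : ∀ u, ((1 / 2 : ℝ) • (L' - J.comp (L'.comp M))) u =
      (1 / 2 : ℝ) • (L u - J (L (I • u))) := fun u => rfl
  refine ⟨(1 / 2 : ℝ) • (L' - J.comp (L'.comp M)), fun v => ?_, fun u => ?_⟩
  · rw [e, ← h, hL', hL', hJ, sub_neg_eq_add, ← two_smul ℝ, ← mul_smul]
    norm_num
  · rw [e, e, hI, J.map_smul, J.map_sub, hJ, L.map_neg, J.map_neg, sub_neg_eq_add, sub_neg_eq_add,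
      add_comm]

theorem pa_pi [FiniteDimensional ℂ W] [FiniteDimensional ℝ X] {ρ : ℕ}
    (hX : Module.finrank ℝ X = 2 * ρ) {D : X →L[ℝ] W} {J : X →L[ℝ] X}
    (h : ∀ v, D (J v) = I • D v) (hD : Function.Injective D) :
    ∃ (π : W →L[ℂ] Fin ρ → ℂ) (e : X ≃L[ℝ] Fin ρ → ℂ), ∀ v, e v = π (D v) := by
  let f : X →ₗ[ℝ] paRng D J h :=
    { toFun := fun v => ⟨D v, v, rfl⟩
      map_add' := fun a b => Subtype.ext (D.map_add a b)
      map_smul' := fun c a => Subtype.ext (D.map_smul c a) }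
  have hf : Function.Bijective f :=
    ⟨fun a b e => hD (congrArg Subtype.val e), fun ⟨_, v, hv⟩ => ⟨v, Subtype.ext hv⟩⟩
  have h1 := (LinearEquiv.ofBijective f hf).finrank_eq
  have h2 := Module.finrank_mul_finrank ℝ ℂ (paRng D J h)
  rw [finrank_real_complex, ← h1, hX] at h2
  have h3 : Module.finrank ℂ (paRng D J h) = Module.finrank ℂ (Fin ρ → ℂ) := by
    rw [Module.finrank_fin_fun]
    omega
  have g := LinearEquiv.ofFinrankEq _ _ h3
  obtain ⟨π, hπ⟩ := LinearMap.exists_extend (g : paRng D J h →ₗ[ℂ] Fin ρ → ℂ)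
  refine ⟨LinearMap.toContinuousLinearMap π,
    ((LinearEquiv.ofBijective f hf).trans (g.restrictScalars ℝ)).toContinuousLinearEquiv,
    fun v => ?_⟩
  exact (LinearMap.congr_fun hπ (f v)).symm

theorem pa_inv [FiniteDimensional ℝ X] {ρ : ℕ} (hX : Module.finrank ℝ X = 2 * ρ)
    {A : X →L[ℝ] Fin ρ → ℂ} {B : (Fin ρ → ℂ) →L[ℝ] X} (h : ∀ e, A (B e) = e) (v : X) :
    B (A v) = v := by
  have h1 : Module.finrank ℝ X = Module.finrank ℝ (Fin ρ → ℂ) := by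
    rw [hX, ← Module.finrank_mul_finrank ℝ ℂ (Fin ρ → ℂ), finrank_real_complex,
      Module.finrank_fin_fun]
  have h2 : Function.Injective (A : X →ₗ[ℝ] Fin ρ → ℂ) :=
    (LinearMap.injective_iff_surjective_of_finrank_eq_finrank h1).2 fun e => ⟨B e, h e⟩
  exact h2 (h (A v))

/-- the exterior derivative of a pulled back one-form -/
theorem pa_pull {Θ : X → X →L[ℝ] ℂ} {ψ : Y → X} {u : Y} (hΘ : DifferentiableAt ℝ Θ (ψ u))
    (hψ : ContDiffAt ℝ 2 ψ u) :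
    (∀ e, DifferentiableAt ℝ (fun y => Θ (ψ y) (fderiv ℝ ψ y e)) u) ∧ ∀ v e,
      fderiv ℝ (fun y => Θ (ψ y) (fderiv ℝ ψ y e)) u v -
        fderiv ℝ (fun y => Θ (ψ y) (fderiv ℝ ψ y v)) u e =
      fderiv ℝ Θ (ψ u) (fderiv ℝ ψ u v) (fderiv ℝ ψ u e) -
        fderiv ℝ Θ (ψ u) (fderiv ℝ ψ u e) (fderiv ℝ ψ u v) := by
  have h1 : DifferentiableAt ℝ ψ u := hψ.differentiableAt (by norm_num)
  have h2 : DifferentiableAt ℝ (fderiv ℝ ψ) u :=
    (hψ.fderiv_right (m := 1) (by norm_num)).differentiableAt (by norm_num)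
  have h3 := fun e => (hΘ.hasFDerivAt.comp u h1.hasFDerivAt).clm_apply
    (h2.hasFDerivAt.clm_apply (hasFDerivAt_const e u))
  refine ⟨fun e => (h3 e).differentiableAt, fun v e => ?_⟩
  have h4 := (h3 e).fderiv
  have h5 := (h3 v).fderiv
  simp only [Function.comp_apply] at h4 h5
  rw [h4, h5]
  have h6 := hψ.isSymmSndFDerivAt (by simp) v e
  simp only [ContinuousLinearMap.add_apply, ContinuousLinearMap.comp_apply,
    ContinuousLinearMap.flip_apply, ContinuousLinearMap.zero_apply, map_zero, zero_add, h6]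
  ring

theorem pa_loc [FiniteDimensional ℂ W] [FiniteDimensional ℝ X] {ρ : ℕ}
    (hX : Module.finrank ℝ X = 2 * ρ) {U : Set X} (hU : IsOpen U) {p₀ : X} (hp : p₀ ∈ U)
    {F : X → W} (hF : ContDiffOn ℝ ∞ F U) {J : X → X →L[ℝ] X}
    (hJ : ∀ p ∈ U, ∀ v, fderiv ℝ F p (J p v) = I • fderiv ℝ F p v)
    (hi : Function.Injective (fderiv ℝ F p₀)) {Θ : X → X →L[ℝ] ℂ}
    (hΘ : ∀ p ∈ U, DifferentiableAt ℝ Θ p) (hΘJ : ∀ p ∈ U, ∀ v, Θ p (J p v) = I * Θ p v)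
    (hω : ∀ p ∈ U, ∀ v w, fderiv ℝ Θ p (J p v) w - fderiv ℝ Θ p w (J p v) =
      I * (fderiv ℝ Θ p v w - fderiv ℝ Θ p w v)) :
    ∃ (π : W →L[ℂ] Fin ρ → ℂ) (χ : (Fin ρ → ℂ) → W) (ϑ : W → W →L[ℂ] ℂ),
      AnalyticAt ℂ χ (π (F p₀)) ∧ AnalyticAt ℂ ϑ (F p₀) ∧
      (∀ᶠ u in 𝓝 (π (F p₀)), ∃ p ∈ U, χ u = F p ∧ π (χ u) = u ∧
        ∀ y, y ∈ (fderiv ℂ χ u).range ↔ ∃ v, fderiv ℝ F p v = y) ∧
      ∀ᶠ p in 𝓝 p₀, χ (π (F p)) = F p ∧ ∀ v, ϑ (F p) (fderiv ℝ F p v) = Θ p v ∧ ∀ w,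
        fderiv ℂ ϑ (F p) (fderiv ℝ F p v) (fderiv ℝ F p w) -
          fderiv ℂ ϑ (F p) (fderiv ℝ F p w) (fderiv ℝ F p v) =
        fderiv ℝ Θ p v w - fderiv ℝ Θ p w v := by
  have : CompleteSpace X := FiniteDimensional.complete ℝ X
  have : CompleteSpace W := FiniteDimensional.complete ℂ W
  obtain ⟨π, e, he⟩ := pa_pi hX (hJ p₀ hp) hi
  have hFd : ∀ p ∈ U, DifferentiableAt ℝ F p := fun p hp =>
    (hF.contDiffAt (hU.mem_nhds hp)).differentiableAt (by simp)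
  have hGd : ∀ p ∈ U, HasFDerivAt (fun p => π (F p))
      ((π.restrictScalars ℝ).comp (fderiv ℝ F p)) p := fun p hp =>
    (π.restrictScalars ℝ).hasFDerivAt.comp p (hFd p hp).hasFDerivAt
  have hG : ContDiffAt ℝ 2 (fun p => π (F p)) p₀ :=
    (π.restrictScalars ℝ).contDiff.contDiffAt.comp p₀
      ((hF.contDiffAt (hU.mem_nhds hp)).of_le (WithTop.coe_le_coe.2 le_top : ((2 : ℕ∞) : WithTop ℕ∞) ≤ ∞))
  have hG' : HasFDerivAt (fun p => π (F p)) (e : X →L[ℝ] Fin ρ → ℂ) p₀ :=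
    (hGd p₀ hp).congr_fderiv (ContinuousLinearMap.ext fun v => (he v).symm)
  obtain ⟨ψ, h1, h2, h3⟩ : ∃ ψ : (Fin ρ → ℂ) → X, ContDiffAt ℝ 2 ψ (π (F p₀)) ∧
      (∀ᶠ p in 𝓝 p₀, ψ (π (F p)) = p) ∧ ∀ᶠ u in 𝓝 (π (F p₀)), π (F (ψ u)) = u :=
    ⟨_, hG.to_localInverse hG' two_ne_zero,
      (hG.hasStrictFDerivAt' hG' two_ne_zero).eventually_left_inverse,
      (hG.hasStrictFDerivAt' hG' two_ne_zero).eventually_right_inverse⟩
  have h4 : ∀ᶠ u in 𝓝 (π (F p₀)), ψ u ∈ U :=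
    h1.continuousAt (by rw [h2.self_of_nhds]; exact hU.mem_nhds hp)
  have h5 : ∀ᶠ u in 𝓝 (π (F p₀)), ψ u ∈ U ∧ ContDiffAt ℝ 2 ψ u ∧ π (F (ψ u)) = u ∧
      (∀ v, fderiv ℝ ψ u (π (fderiv ℝ F (ψ u) v)) = v) ∧
      ∀ y, fderiv ℝ ψ u (I • y) = J (ψ u) (fderiv ℝ ψ u y) := by
    filter_upwards [h4, h1.eventually (by simp), h3.eventually_nhds] with u a1 a2 a3
    have a4 := ((hGd _ a1).comp u (a2.differentiableAt (by norm_num)).hasFDerivAt).unique
      ((hasFDerivAt_id u).congr_of_eventuallyEq a3)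
    have a5 : ∀ y, π (fderiv ℝ F (ψ u) (fderiv ℝ ψ u y)) = y := fun y =>
      ContinuousLinearMap.ext_iff.1 a4 y
    have a6 := pa_inv hX (A := (π.restrictScalars ℝ).comp (fderiv ℝ F (ψ u))) a5
    refine ⟨a1, a2, a3.self_of_nhds, a6, fun y => ?_⟩
    refine Eq.trans ?_ (a6 _)
    change _ = fderiv ℝ ψ u (π (fderiv ℝ F (ψ u) _))
    rw [hJ _ a1, π.map_smul, a5]
  have h6 : ∀ᶠ u in 𝓝 (π (F p₀)), DifferentiableAt ℂ (F ∘ ψ) u ∧
      ∀ y, fderiv ℂ (F ∘ ψ) u y = fderiv ℝ F (ψ u) (fderiv ℝ ψ u y) := by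
    filter_upwards [h5] with u ⟨a1, a2, _, _, a5⟩
    have b1 := (hFd _ a1).hasFDerivAt.comp u (a2.differentiableAt (by norm_num)).hasFDerivAt
    have b2 : DifferentiableAt ℂ (F ∘ ψ) u := pa_diff b1.differentiableAt fun y => by
      rw [b1.fderiv]
      exact (congrArg (fderiv ℝ F (ψ u)) (a5 y)).trans (hJ _ a1 _)
    exact ⟨b2, fun y => by rw [pa_fderiv b2, b1.fderiv]; rfl⟩
  have h7 : ∀ᶠ u in 𝓝 (π (F p₀)), ∀ y,
      DifferentiableAt ℂ (fun z => Θ (ψ z) (fderiv ℝ ψ z y)) u := by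
    filter_upwards [h5.eventually_nhds] with u a y
    obtain ⟨a1, a2, -, -, a5⟩ := a.self_of_nhds
    obtain ⟨b1, b2⟩ := pa_pull (hΘ _ a1) a2
    refine pa_diff (b1 y) fun v => ?_
    have b3 : (fun z => Θ (ψ z) (fderiv ℝ ψ z (I • v))) =ᶠ[𝓝 u]
        fun z => I • Θ (ψ z) (fderiv ℝ ψ z v) := by
      filter_upwards [a] with z hz
      rw [hz.2.2.2.2, hΘJ _ hz.1, smul_eq_mul]
    have b4 := b2 (I • v) y
    rw [b3.fderiv_eq, fderiv_fun_const_smul (b1 v), a5, hω _ a1, ← b2 v y] at b4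
    simp only [ContinuousLinearMap.smul_apply, smul_eq_mul] at b4 ⊢
    linear_combination b4
  obtain ⟨ϑ, hϑ⟩ : ∃ ϑ : W → W →L[ℂ] ℂ, ϑ = fun q => ∑ i,
      Θ (ψ (π q)) (fderiv ℝ ψ (π q) (Pi.single i 1)) • (ContinuousLinearMap.proj i).comp π :=
    ⟨_, rfl⟩
  have h8 : ∀ᶠ q in 𝓝 (F p₀), DifferentiableAt ℂ ϑ q ∧
      ∀ y, ϑ q y = Θ (ψ (π q)) (fderiv ℝ ψ (π q) (π y)) := by
    filter_upwards [(π.continuous.continuousAt (x := F p₀)).eventually (h5.and h7)] with q a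
    obtain ⟨⟨a1, -, -, -, a5⟩, a7⟩ := a
    refine ⟨?_, fun y => ?_⟩
    · rw [hϑ]
      exact DifferentiableAt.fun_sum fun i _ =>
        ((a7 _).comp q π.differentiableAt).smul_const _
    · let β := paCpx ((Θ (ψ (π q))).comp (fderiv ℝ ψ (π q))) fun y => by
        change Θ _ (fderiv ℝ ψ (π q) (I • y)) = I • Θ _ (fderiv ℝ ψ (π q) y)
        rw [a5, hΘJ _ a1, smul_eq_mul]
      have b1 : β (π y) = ∑ i, π y i • β (Pi.single i 1) := by
        conv_lhs => rw [pi_eq_sum_univ' (π y), map_sum]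
        exact Finset.sum_congr rfl fun i _ => map_smul _ _ _
      rw [hϑ]
      refine Eq.trans ?_ b1.symm
      simp only [ContinuousLinearMap.sum_apply, ContinuousLinearMap.smul_apply, smul_eq_mul]
      exact Finset.sum_congr rfl fun i _ => mul_comm _ _
  refine ⟨π, F ∘ ψ, ϑ, P278F.analyticAt_of_eventually (h6.mono fun _ h => h.1),
    P278F.analyticAt_of_eventually (h8.mono fun _ h => h.1), ?_, ?_⟩
  · filter_upwards [h5, h6] with u a b
    refine ⟨ψ u, a.1, rfl, a.2.2.1, fun y => ⟨?_, ?_⟩⟩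
    · rintro ⟨z, rfl⟩
      exact ⟨_, (b.2 z).symm⟩
    · rintro ⟨v, rfl⟩
      exact ⟨π (fderiv ℝ F (ψ u) v), (b.2 _).trans (by rw [a.2.2.2.1])⟩
  · filter_upwards [h2, hG.continuousAt.eventually (h5.and h7),
      (hFd p₀ hp).continuousAt.eventually h8.eventually_nhds] with p a ⟨⟨b1, b2, _, b4, _⟩, b7⟩ c
    rw [a] at b1 b4
    refine ⟨congrArg F a, fun v => ⟨?_, fun w => ?_⟩⟩
    · rw [c.self_of_nhds.2, a, b4]
    · have d1 : ∀ y z, fderiv ℂ ϑ (F p) y z =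
          fderiv ℝ (fun u => Θ (ψ u) (fderiv ℝ ψ u (π z))) (π (F p)) (π y) := by
        intro y z
        have d2 := c.self_of_nhds.1.hasFDerivAt.clm_apply (hasFDerivAt_const z (F p))
        have d3 := ((b7 (π z)).hasFDerivAt.comp (F p) π.hasFDerivAt).congr_of_eventuallyEq
          (c.mono fun q hq => hq.2 z)
        have d4 := ContinuousLinearMap.ext_iff.1 (d2.unique d3) y
        rw [← pa_fderiv (b7 (π z))]
        simpa using d4
      rw [d1, d1, (pa_pull (a.symm ▸ hΘ p b1) b2).2, a, b4, b4]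

end Vale.Agent.P292
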