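import Vale.Agent.P292.Defs

/-! The embedding is proper onto its image. -/

set_option maxSynthPendingDepth 3

open scoped ContDiff Topology
open Set Filter

noncomputable section

namespace Vale.Agent.P292

variable {V : Type} [NormedAddCommGroup V] [NormedSpace ℝ V] {C : Type} [TopologicalSpace C]
  {A : Cone V C} {κ : Type} [Fintype κ] (ε : A.Emb κ)

omit [Fintype κ] in
theorem pb_act (w : κ → ℕ) (l : ℂ) (y : κ → ℂ) (i : κ) : act w l y i = l ^ w i * y i := rfl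

omit [Fintype κ] in
theorem pb_cont : Continuous ε.Φ := by
  refine continuous_iff_continuousAt.2 fun c => ?_
  obtain ⟨j, hj⟩ := A.cover c
  have h1 : ContinuousOn (ε.Φ ∘ (A.τ j).symm) (A.τ j).target :=
    continuousOn_pi.2 fun i => (ε.sm i j).continuousOn
  have h2 := (h1.continuousAt ((A.τ j).open_target.mem_nhds ((A.τ j).map_source hj))).comp
    ((A.τ j).continuousAt hj)
  refine h2.congr ?_
  filter_upwards [(A.τ j).open_source.mem_nhds hj] with x hx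
  exact congrArg ε.Φ ((A.τ j).left_inv hx)

omit [Fintype κ] in
theorem pb_hom {l : ℂ} (hl : l ≠ 0) (c : C) : ε.Φ (A.act l c) = act ε.w l (ε.Φ c) :=
  funext fun i => ε.hom i l c hl

omit [Fintype κ] in
theorem pb_free {l : ℂ} (hl : l ≠ 0) (c : C) (h : act ε.w l (ε.Φ c) = ε.Φ c) : l = 1 := by
  obtain ⟨j, hj⟩ := A.cover c
  have h1 := A.act_eq j c hj l hl
  rw [ε.inj ((pb_hom ε hl c).trans h)] at h1
  have h2 := (A.τ j).map_source hj
  rw [A.target] at h2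
  exact mul_right_cancel₀ h2.2 ((congrArg Prod.snd h1).symm.trans (one_mul _).symm)

theorem pb_le {w : κ → ℕ} (hw : ∀ i, 0 < w i) {t : ℝ} (h0 : 0 ≤ t) (h1 : t ≤ 1) (y : κ → ℂ) :
    ‖act w t y‖ ≤ t * ‖y‖ := by
  refine (pi_norm_le_iff_of_nonneg (by positivity)).2 fun i => ?_
  rw [pb_act, norm_mul, norm_pow, Complex.norm_of_nonneg h0]
  exact mul_le_mul (pow_le_of_le_one h0 h1 (hw i).ne') (norm_le_pi_norm y i) (norm_nonneg _) h0

theorem pb_proper {a : ℝ} (ha : 0 < a) (b : ℝ) :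
    ∃ K, IsCompact K ∧ ∀ c, a ≤ ‖ε.Φ c‖ → ‖ε.Φ c‖ ≤ b → c ∈ K := by
  have hc := (pb_cont ε).norm.continuousOn (s := {c | A.r c = 1})
  obtain ⟨m, hm, h1⟩ := A.compact.exists_forall_le' hc (a := 0) fun c _ => norm_pos_iff.2 (ε.ne c)
  obtain ⟨M, hM, h2⟩ : ∃ M, 0 < M ∧ ∀ c, A.r c = 1 → ‖ε.Φ c‖ ≤ M := by
    obtain ⟨M, h⟩ := A.compact.exists_bound_of_continuousOn (pb_cont ε).continuousOn
    exact ⟨max M 1, by positivity, fun c hc => (h c hc).trans (le_max_left _ _)⟩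
  have hs : 0 < min 1 (a / M) := by positivity
  refine ⟨(fun p : ℝ × C => A.act p.1 p.2) '' (Icc (min 1 (a / M)) (max 1 (b / m)) ×ˢ
    {c | A.r c = 1}), (isCompact_Icc.prod A.compact).image_of_continuousOn ?_, fun c h3 h4 => ?_⟩
  · refine A.act_cont.comp (f := fun p : ℝ × C => ((p.1 : ℂ), p.2)) (by fun_prop) fun p hp => ?_
    exact Complex.ofReal_ne_zero.2 (hs.trans_le hp.1.1).ne'
  · have ht := A.r_pos c
    have h5 : ((A.r c)⁻¹ : ℝ) ≠ (0 : ℂ) := Complex.ofReal_ne_zero.2 (inv_pos.2 ht).ne'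
    have h6 : (A.r c : ℂ) ≠ 0 := Complex.ofReal_ne_zero.2 ht.ne'
    have h7 : A.r (A.act ((A.r c)⁻¹ : ℝ) c) = 1 := by
      rw [A.r_act _ _ h5, Complex.norm_of_nonneg (inv_pos.2 ht).le, inv_mul_cancel₀ ht.ne']
    have h8 : A.act (A.r c) (A.act ((A.r c)⁻¹ : ℝ) c) = c := ε.inj (funext fun i => by
      rw [pb_hom ε h6, pb_hom ε h5, pb_act, pb_act, ← mul_assoc, ← mul_pow, Complex.ofReal_inv,
        mul_inv_cancel₀ h6, one_pow, one_mul])
    refine ⟨(A.r c, A.act ((A.r c)⁻¹ : ℝ) c), ⟨⟨?_, ?_⟩, h7⟩, h8⟩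
    · by_contra! h
      have h9 := pb_le ε.w_pos ht.le (h.trans_le (min_le_left _ _)).le
        (ε.Φ (A.act ((A.r c)⁻¹ : ℝ) c))
      rw [← pb_hom ε h6, h8] at h9
      have := (lt_div_iff₀ hM).1 (h.trans_le (min_le_right _ _))
      nlinarith [h2 _ h7]
    · by_contra! h
      have h9 := pb_le ε.w_pos (inv_pos.2 ht).le
        (inv_le_one_of_one_le₀ ((le_max_left _ _).trans_lt h).le) (ε.Φ c)
      rw [← pb_hom ε h5, ← div_eq_inv_mul, le_div_iff₀ ht] at h9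
      have := (div_lt_iff₀ hm).1 ((le_max_right _ _).trans_lt h)
      nlinarith [h1 _ h7]

theorem pb_nhds {q : κ → ℂ} (hq : q ≠ 0) : ∃ K, IsCompact K ∧ ∀ᶠ y in 𝓝 q, ∀ c, ε.Φ c = y → c ∈ K := by
  have h := norm_pos_iff.2 hq
  obtain ⟨K, h1, h2⟩ := pb_proper ε (half_pos h) (‖q‖ + 1)
  refine ⟨K, h1, ?_⟩
  filter_upwards [continuous_norm.continuousAt.eventually
    (Icc_mem_nhds (half_lt_self h) (lt_add_one ‖q‖))] with y hy c hc
  exact h2 c (hc ▸ hy.1) (hc ▸ hy.2)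

theorem pb_closed : IsClosed (insert 0 (range ε.Φ)) := by
  refine isClosed_of_closure_subset fun q hq => ?_
  by_cases h : q = 0
  · exact Or.inl h
  obtain ⟨K, h1, h2⟩ := pb_nhds ε h
  have h3 : q ∈ closure (ε.Φ '' K) := by
    rw [mem_closure_iff_frequently] at hq ⊢
    refine (hq.and_eventually (h2.and (eventually_ne_nhds h))).mono fun y hy => ?_
    obtain ⟨c, hc⟩ := hy.1.resolve_left hy.2.2
    exact ⟨c, hy.2.1 c hc, hc⟩
  rw [(h1.image (pb_cont ε)).isClosed.closure_eq] at h3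
  exact Or.inr (image_subset_range _ _ h3)

theorem pb_ind : Topology.IsInducing ε.Φ := by
  refine Topology.isInducing_iff_nhds.2 fun c => le_antisymm
    ((pb_cont ε).tendsto c).le_comap ?_
  obtain ⟨K, h1, h2⟩ := pb_nhds ε (ε.ne c)
  refine h1.le_nhds_of_unique_clusterPt (eventually_comap.2 h2) fun x _ hx => ε.inj ?_
  exact eq_of_nhds_neBot (hx.map (pb_cont ε).continuousAt tendsto_comap)

end Vale.Agent.P292
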