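import Vale.Agent.P292.PA
import Vale.Agent.P292.PB

/-! The embedding in charts. -/

set_option maxSynthPendingDepth 3

open scoped ContDiff Topology
open Set Filter Complex

noncomputable section

namespace Vale.Agent.P292

theorem pc_bil {W : Type} [NormedAddCommGroup W] [NormedSpace ℝ W] [NormedSpace ℂ W]
    [IsScalarTower ℝ ℂ W] [FiniteDimensional ℂ W] (B : W →L[ℝ] W →L[ℝ] ℂ)
    (h1 : ∀ u v, B (I • u) v = I • B u v) (h2 : ∀ u v, B u (I • v) = I • B u v) :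
    ∃ om : W →L[ℂ] W →L[ℂ] ℂ, ∀ u v, om u v = B u v :=
  ⟨LinearMap.toContinuousLinearMap
    { toFun := fun u => paCpx (B u) (h2 u)
      map_add' := fun a b => ContinuousLinearMap.ext fun v => (B.flip v).map_add a b
      map_smul' := fun c a => ContinuousLinearMap.ext fun v =>
        (paCpx (B.flip v) fun u => h1 u v).map_smul c a }, fun _ _ => rfl⟩

variable {V : Type} [NormedAddCommGroup V] [NormedSpace ℝ V]

/-- the one-form `thC` as a field of linear maps -/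
def pcTh (ϑ : V → V →L[ℝ] ℂ) (p : V × ℂ) : V × ℂ →L[ℝ] ℂ :=
  p.2 • (ϑ p.1).comp (ContinuousLinearMap.fst ℝ V ℂ)

theorem pc_th {ϑ : V → V →L[ℝ] ℂ} {p : V × ℂ} (h : DifferentiableAt ℝ ϑ p.1) :
    DifferentiableAt ℝ (pcTh ϑ) p ∧ ∀ v w,
      fderiv ℝ (pcTh ϑ) p v w - fderiv ℝ (pcTh ϑ) p w v = omC ϑ p v w := by
  have h1 : DifferentiableAt ℝ (pcTh ϑ) p :=
    differentiableAt_snd.smul ((h.comp p differentiableAt_fst).clm_comp (differentiableAt_const _))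
  have h2 : ∀ v w, fderiv ℝ (pcTh ϑ) p v w =
      p.2 * fderiv ℝ ϑ p.1 v.1 w.1 + ϑ p.1 w.1 * v.2 := by
    intro v w
    have h3 := h1.hasFDerivAt.clm_apply (hasFDerivAt_const w p)
    have h4 := hasFDerivAt_snd.mul ((h.hasFDerivAt.comp p hasFDerivAt_fst).clm_apply
      (hasFDerivAt_const w.1 p))
    simpa using ContinuousLinearMap.ext_iff.1 (h3.unique h4) v
  refine ⟨h1, fun v w => ?_⟩
  rw [h2, h2, omC]
  ring

/-- multiplication in the fibre -/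
def pcS (l : ℂ) : V × ℂ →L[ℝ] V × ℂ :=
  (ContinuousLinearMap.fst ℝ V ℂ).prod (l • ContinuousLinearMap.snd ℝ V ℂ)

theorem pc_thS (ϑ : V → V →L[ℝ] ℂ) (l : ℂ) (p v : V × ℂ) :
    thC ϑ (pcS l p) (pcS l v) = l * thC ϑ p v := mul_assoc _ _ _

theorem pc_omS (ϑ : V → V →L[ℝ] ℂ) (l : ℂ) (p v w : V × ℂ) :
    omC ϑ (pcS l p) (pcS l v) (pcS l w) = l * omC ϑ p v w := by
  change l * v.2 * ϑ p.1 w.1 - l * w.2 * ϑ p.1 v.1 +
    l * p.2 * (fderiv ℝ ϑ p.1 v.1 w.1 - fderiv ℝ ϑ p.1 w.1 v.1) = _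
  rw [omC]
  ring

theorem pc_omE (ϑ : V → V →L[ℝ] ℂ) (p w : V × ℂ) : omC ϑ p (0, p.2) w = thC ϑ p w := by
  simp [omC, thC]

theorem pc_anti (ϑ : V → V →L[ℝ] ℂ) (p v w : V × ℂ) : omC ϑ p v w = -omC ϑ p w v := by
  rw [omC, omC]
  ring

variable {C : Type} [TopologicalSpace C] {A : Cone V C} {κ : Type} [Fintype κ] (ε : A.Emb κ)
  {i j : A.ι} {p p' : V × ℂ}

theorem pc_sm (j : A.ι) : ContDiffOn ℝ ∞ (ε.Φ ∘ (A.τ j).symm) (A.τ j).target :=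
  contDiffOn_pi.2 fun i => ε.sm i j

theorem pc_diff (hp : p ∈ (A.τ j).target) : DifferentiableAt ℝ (ε.Φ ∘ (A.τ j).symm) p :=
  ((pc_sm ε j).contDiffAt ((A.τ j).open_target.mem_nhds hp)).differentiableAt (by simp)

theorem pc_hol (hp : p ∈ (A.τ j).target) (v : V × ℂ) :
    fderiv ℝ (ε.Φ ∘ (A.τ j).symm) p (A.J j p v) = I • fderiv ℝ (ε.Φ ∘ (A.τ j).symm) p v := by
  funext i
  have h1 := (hasFDerivAt_pi'.1 (pc_diff ε hp).hasFDerivAt i).fderiv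
  have h2 := ContinuousLinearMap.ext_iff.1 (ε.hol i j p hp) v
  rw [Cone.dbar, show (fun c => ε.Φ c i) ∘ (A.τ j).symm =
    fun x => (ε.Φ ∘ (A.τ j).symm) x i from rfl, h1] at h2
  change fderiv ℝ (ε.Φ ∘ (A.τ j).symm) p v i +
    I * fderiv ℝ (ε.Φ ∘ (A.τ j).symm) p (A.J j p v) i = 0 at h2
  change _ = I * fderiv ℝ (ε.Φ ∘ (A.τ j).symm) p v i
  linear_combination (-I) * h2 + fderiv ℝ (ε.Φ ∘ (A.τ j).symm) p (A.J j p v) i * I_mul_I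

theorem pc_chg (hJ : A.JFacts) (hp : p ∈ (A.τ j).target) (hp' : p' ∈ (A.τ i).target)
    (h : ε.Φ ((A.τ i).symm p') = ε.Φ ((A.τ j).symm p)) : ∃ T : V × ℂ → V × ℂ,
    ∀ v, fderiv ℝ (ε.Φ ∘ (A.τ j).symm) p v = fderiv ℝ (ε.Φ ∘ (A.τ i).symm) p' (T v) ∧
      thC (A.ϑ j) p v = thC (A.ϑ i) p' (T v) ∧
      ∀ w, omC (A.ϑ j) p v w = omC (A.ϑ i) p' (T v) (T w) := by
  have h1 : (A.τ j).symm p ∈ (A.τ i).source := ε.inj h ▸ (A.τ i).map_target hp'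
  obtain rfl : A.τ i ((A.τ j).symm p) = p' := ε.inj h ▸ (A.τ i).right_inv hp'
  have h2 : (A.τ j).target ∩ (A.τ j).symm ⁻¹' (A.τ i).source ∈ 𝓝 p :=
    ((A.τ j).isOpen_inter_preimage_symm (A.τ i).open_source).mem_nhds ⟨hp, h1⟩
  have h3 := ((pc_diff ε hp').hasFDerivAt.comp p (((A.smooth i j).contDiffAt h2).differentiableAt
    (by simp)).hasFDerivAt).congr_of_eventuallyEq (f₁ := ε.Φ ∘ (A.τ j).symm) (by
      filter_upwards [h2] with x hx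
      exact congrArg ε.Φ ((A.τ i).left_inv hx.2).symm)
  exact ⟨_, fun v => ⟨by rw [h3.fderiv]; rfl, A.compat i j p hp h1 v, hJ.om_compat i j p hp h1 v⟩⟩

theorem pc_data (hJ : A.JFacts) (q : κ → ℂ) : ∃ (T : Submodule ℂ (κ → ℂ)) (θ : (κ → ℂ) →L[ℂ] ℂ)
    (om : (κ → ℂ) →L[ℂ] (κ → ℂ) →L[ℂ] ℂ), ∀ j, ∀ p ∈ (A.τ j).target, ε.Φ ((A.τ j).symm p) = q →
      (∀ u, u ∈ T ↔ ∃ v, fderiv ℝ (ε.Φ ∘ (A.τ j).symm) p v = u) ∧
      ∀ v, θ (fderiv ℝ (ε.Φ ∘ (A.τ j).symm) p v) = thC (A.ϑ j) p v ∧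
        ∀ w, om (fderiv ℝ (ε.Φ ∘ (A.τ j).symm) p v) (fderiv ℝ (ε.Φ ∘ (A.τ j).symm) p w) =
          omC (A.ϑ j) p v w := by
  by_cases h : ∃ i, ∃ p' ∈ (A.τ i).target, ε.Φ ((A.τ i).symm p') = q
  swap
  · exact ⟨⊥, 0, 0, fun j p hp e => (h ⟨j, p, hp, e⟩).elim⟩
  obtain ⟨i, p', hp', rfl⟩ := h
  obtain ⟨R, h1, h2⟩ := pa_ret (pc_hol ε hp') (ε.imm i p' hp')
  have h3 : DifferentiableAt ℝ (A.ϑ i) p'.1 := ((A.ϑ_smooth i).contDiffAt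
    ((A.base_open i).mem_nhds (A.target i ▸ hp').1)).differentiableAt (by simp)
  have h4 : ∀ u v, (fderiv ℝ (pcTh (A.ϑ i)) p' - (fderiv ℝ (pcTh (A.ϑ i)) p').flip).bilinearComp
      R R u v = omC (A.ϑ i) p' (R u) (R v) := fun u v => (pc_th h3).2 _ _
  obtain ⟨om, h5⟩ := pc_bil _ (fun u v => by rw [h4, h4, h2, A.J_om i p' hp', smul_eq_mul])
    fun u v => by
      rw [h4, h4, h2, pc_anti, A.J_om i p' hp', pc_anti _ _ (R u), smul_eq_mul, mul_neg]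
  refine ⟨paRng _ _ (pc_hol ε hp'), paCpx ((pcTh (A.ϑ i) p').comp R) fun u => ?_, om,
    fun j p hp e => ?_⟩
  · change thC (A.ϑ i) p' (R (I • u)) = I * thC (A.ϑ i) p' (R u)
    rw [h2, hJ.th_J i p' hp']
  · obtain ⟨T, hT⟩ := pc_chg ε hJ hp hp' e.symm
    obtain ⟨T', hT'⟩ := pc_chg ε hJ hp' hp e
    refine ⟨fun u => ⟨?_, ?_⟩, fun v => ⟨?_, fun w => ?_⟩⟩
    · rintro ⟨v, rfl⟩
      exact ⟨_, (hT' v).1.symm⟩
    · rintro ⟨v, rfl⟩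
      exact ⟨_, (hT v).1.symm⟩
    · change thC (A.ϑ i) p' (R _) = _
      rw [(hT v).1, h1, (hT v).2.1]
    · rw [h5, h4, (hT v).1, (hT w).1, h1, h1, (hT v).2.2]

omit [Fintype κ] in
theorem pc_S (hp : p ∈ (A.τ j).target) {l : ℂ} (hl : l ≠ 0) : pcS l p ∈ (A.τ j).target ∧
    ε.Φ ((A.τ j).symm (pcS l p)) = act ε.w l (ε.Φ ((A.τ j).symm p)) := by
  have h1 := (A.τ j).map_target hp
  have h2 := A.act_eq j _ h1 l hl
  rw [(A.τ j).right_inv hp] at h2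
  have h3 : pcS l p = A.τ j (A.act l ((A.τ j).symm p)) := h2.symm
  rw [h3, (A.τ j).left_inv (A.act_mem j _ h1 l hl), pb_hom ε hl]
  exact ⟨(A.τ j).map_source (A.act_mem j _ h1 l hl), rfl⟩

theorem pc_DS (hp : p ∈ (A.τ j).target) {l : ℂ} (hl : l ≠ 0) (v : V × ℂ) :
    fderiv ℝ (ε.Φ ∘ (A.τ j).symm) (pcS l p) (pcS l v) =
      act ε.w l (fderiv ℝ (ε.Φ ∘ (A.τ j).symm) p v) := by
  have h1 := (pc_diff ε (pc_S ε hp hl).1).hasFDerivAt.comp p (pcS (V := V) l).hasFDerivAt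
  have h2 := (((act ε.w l).restrictScalars ℝ).hasFDerivAt.comp p
    (pc_diff ε hp).hasFDerivAt).congr_of_eventuallyEq (f₁ := (ε.Φ ∘ (A.τ j).symm) ∘ pcS l) (by
      filter_upwards [(A.τ j).open_target.mem_nhds hp] with x hx
      exact (pc_S ε hx hl).2)
  exact ContinuousLinearMap.ext_iff.1 (h1.unique h2) v

theorem pc_eul (hp : p ∈ (A.τ j).target) :
    fderiv ℝ (ε.Φ ∘ (A.τ j).symm) p (0, p.2) = eul ε.w (ε.Φ ((A.τ j).symm p)) := by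
  have h1 : HasDerivAt (fun t : ℝ => pcS (t : ℂ) p) (0, p.2) 1 :=
    (hasDerivAt_const _ _).prodMk (by
      simpa using (hasDerivAt_id (1 : ℝ)).ofReal_comp.mul_const p.2)
  have h2 := (pc_diff ε hp).hasFDerivAt.comp_hasDerivAt_of_eq _ h1 (Prod.ext rfl (by simp [pcS]))
  have h3 : HasDerivAt (fun t : ℝ => act ε.w t (ε.Φ ((A.τ j).symm p)))
      (eul ε.w (ε.Φ ((A.τ j).symm p))) 1 := hasDerivAt_pi.2 fun i => by
    simpa [act, eul] using ((hasDerivAt_pow (ε.w i) ((1 : ℝ) : ℂ)).comp_ofReal).mul_const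
      (ε.Φ ((A.τ j).symm p) i)
  refine h2.unique (h3.congr_of_eventuallyEq ?_)
  filter_upwards [eventually_ne_nhds (one_ne_zero (α := ℝ))] with t ht
  exact (pc_S ε hp (ofReal_ne_zero.2 ht)).2

end Vale.Agent.P292
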