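import Vale.Agent.P292.ALoc
import Vale.Agent.P292.AScal

/-! From the holonomy group to a quaternionic-Kaehler atlas. -/

set_option maxSynthPendingDepth 3

open scoped ContDiff Topology Manifold Bundle
open Set Filter

noncomputable section

namespace Vale.Agent.P292

open Vale.Agent.P219 (E)
open Vale.Agent.P219.R (ip brG)

theorem partA (m : ℕ) (hm : 2 ≤ m) (M : Type) [TopologicalSpace M] [T2Space M] [CompactSpace M]
    [ConnectedSpace M] [ChartedSpace (E (4 * m)) M] [IsManifold 𝓘(ℝ, E (4 * m)) ∞ M]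
    [Bundle.RiemannianBundle fun x : M => TangentSpace 𝓘(ℝ, E (4 * m)) x]
    [IsContMDiffRiemannianBundle 𝓘(ℝ, E (4 * m)) ∞ (E (4 * m))
      fun x : M => TangentSpace 𝓘(ℝ, E (4 * m)) x]
    (hol : St.HolonomySpSp m M) (pos : St.PosScal (4 * m) M)
    (e : OpenPartialHomeomorph M (E (4 * m))) (he : e ∈ atlas (E (4 * m)) M) (y : E (4 * m))
    (hy : y ∈ e.target) : ∃ (Q : QK m M) (j : Q.ι), y ∈ Q.U j ∧
      (fun z u v => ip (Q.G j z) u v) = St.chartMetric (4 * m) e := by
  classical
  obtain ⟨p, I₀, hI⟩ := exists_inv hol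
  have key : ∀ (e : OpenPartialHomeomorph M (E (4 * m))), e ∈ atlas (E (4 * m)) M →
      ∀ c ∈ e.target, ∃ L : LQ (4 * m), c ∈ L.U ∧ L.U ⊆ e.target ∧ L.G = brG e ∧
        ∀ y ∈ L.U, FrC p I₀ e y fun k => L.I k y := by
    intro e he c hc
    obtain ⟨r, I, hr, hsub, hsm, hF⟩ := exists_frame hI he hc
    have hg := ab_good (ab_at he)
    obtain ⟨L, h1, h2, h3⟩ := exists_lq hm (G := brG e) (U := Metric.ball c r)
      ⟨Metric.isOpen_ball, hg.smooth.mono hsub, fun y hy => hg.pos y (hsub hy)⟩ hsm
      (fun y hy => (hF y hy).1.quat hI he (hsub hy))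
      (fun k y hy u v => (hF y hy).1.skew hI he (hsub hy) k u v) (fun y hy => (hF y hy).2)
      (fun y hy => pos e he y (hsub hy))
    refine ⟨L, h1 ▸ Metric.mem_ball_self hr, h1 ▸ hsub, h2, fun y hy => ?_⟩
    rw [h3]
    exact (hF y (h1 ▸ hy)).1
  let ch : Option M → OpenPartialHomeomorph M (E (4 * m)) := fun o =>
    o.elim e fun x => chartAt (E (4 * m)) x
  let ct : Option M → E (4 * m) := fun o => o.elim y fun x => chartAt (E (4 * m)) x x
  have hch : ∀ o, ch o ∈ atlas (E (4 * m)) M := fun o => by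
    cases o with
    | none => exact he
    | some x => exact chart_mem_atlas _ x
  have hct : ∀ o, ct o ∈ (ch o).target := fun o => by
    cases o with
    | none => exact hy
    | some x => exact mem_chart_target _ x
  choose L hL1 hL2 hL3 hL4 using fun o => key (ch o) (hch o) (ct o) (hct o)
  obtain ⟨T, hT⟩ := isCompact_univ.elim_nhds_subcover'
    (fun x _ => (ch (some x)).source ∩ ch (some x) ⁻¹' (L (some x)).U) (fun x _ =>
      ((ch (some x)).isOpen_inter_preimage (L (some x)).good.isOpen).mem_nhds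
        ⟨mem_chart_source _ x, hL1 (some x)⟩)
  let φ : Option T → Option M := fun o => o.map fun x => x.1.1
  refine ⟨{
    ι := Option T
    fin := inferInstance
    e := fun j => ch (φ j)
    U := fun j => (L (φ j)).U
    sub := fun j => hL2 _
    cover := fun x => ?_
    G := fun j => (L (φ j)).G
    good := fun j => (L _).good
    smooth := fun i j => ?_
    compat := fun i j x hi hj _ _ u v => ?_
    I := fun j => (L (φ j)).I
    I_smooth := fun j => (L _).I_smooth
    I_sq := fun j => (L _).I_sq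
    I_mul := fun j => (L _).I_mul
    I_skew := fun j => (L _).I_skew
    I_span := fun i j x hi hj hi' hj' k =>
      FrC.span hI (hch _) (hch _) hi hj (hL4 _ _ hi') (hL4 _ _ hj') k
    a := fun j => (L (φ j)).a
    a_smooth := fun j => (L _).a_smooth
    par := fun j => (L _).par
    curv := fun j => (L _).curv }, none, hL1 none, ?_⟩
  · obtain ⟨z, hz, hx⟩ := mem_iUnion₂.1 (hT (mem_univ x))
    exact ⟨some ⟨z, hz⟩, hx⟩
  · have h1 := contMDiffOn_of_mem_maximalAtlas (ab_at (hch (φ i)))
    have h2 := contMDiffOn_symm_of_mem_maximalAtlas (ab_at (hch (φ j)))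
    exact (h1.comp (h2.mono inter_subset_left) fun z hz => hz.2).contDiffOn
  · rw [hL3, hL3]
    exact ab_compat (ab_at (hch _)) (ab_at (hch _)) hj hi u v
  · change (fun z u v => ip ((L none).G z) u v) = _
    rw [hL3]
    rfl

end Vale.Agent.P292
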