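import Vale.Agent.P292.Defs

/-! The projection on holomorphic functions. -/

set_option maxSynthPendingDepth 3

open scoped ContDiff Topology Manifold Bundle
open Set Filter

noncomputable section

namespace Vale.Agent.P292

variable {V : Type} [NormedAddCommGroup V] [NormedSpace ℝ V] [FiniteDimensional ℝ V]
  {C : Type} [TopologicalSpace C] [T2Space C]

theorem partC (A : Cone V C) (hJ : A.JFacts) : A.Approx := by
  sorry

end Vale.Agent.P292
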