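import Mathlib

/-!
The LeBrun-Salamon conjecture for the Riemannian manifolds of Mathlib: curvature, parallel
transport and holonomy are written in the charts of the atlas.
-/

open scoped ContDiff Bundle Manifold Quaternion Matrix

noncomputable section

namespace Vale.Agent.P292.Spec

variable {n : ℕ} {V : Type} [NormedAddCommGroup V] [NormedSpace ℝ V]

section Coordinates

/-- The derivative at `y` in the direction `a` of the metric coefficient `g(u, v)`. -/
def dG (g : V → V → V → ℝ) (y a u v : V) : ℝ := lineDeriv ℝ (fun z => g z u v) y a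

/-- The matrix `g_ij` at `y` in the basis `e`. -/
def gram (e : Fin n → V) (g : V → V → V → ℝ) (y : V) : Matrix (Fin n) (Fin n) ℝ :=
  Matrix.of fun i j => g y (e i) (e j)

/-- The Christoffel map `Γ(u, v)ᵏ = gᵏˡ (∂_u g(v, e_l) + ∂_v g(u, e_l) - ∂_l g(u, v)) / 2`. -/
def chr (e : Fin n → V) (g : V → V → V → ℝ) (y u v : V) : V :=
  ∑ k, (∑ l, (gram e g y)⁻¹ k l *
    ((dG g y u v (e l) + dG g y v u (e l) - dG g y (e l) u v) / 2)) • e k

/-- The curvature tensor `R(u, v) w = ∇_u ∇_v w - ∇_v ∇_u w` in coordinates. -/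
def riem (e : Fin n → V) (g : V → V → V → ℝ) (y u v w : V) : V :=
  lineDeriv ℝ (fun z => chr e g z v w) y u - lineDeriv ℝ (fun z => chr e g z u w) y v +
    chr e g y u (chr e g y v w) - chr e g y v (chr e g y u w)

/-- The Ricci tensor, the trace of `w ↦ R(w, u) v`. -/
def ric (b : Module.Basis (Fin n) ℝ V) (g : V → V → V → ℝ) (y u v : V) : ℝ :=
  ∑ k, b.repr (riem b g y (b k) u v) k

/-- The scalar curvature `gⁱʲ Ric_ij`. -/
def scal (b : Module.Basis (Fin n) ℝ V) (g : V → V → V → ℝ) (y : V) : ℝ :=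
  ∑ i, ∑ j, (gram b g y)⁻¹ i j * ric b g y (b i) (b j)

/-- The covariant derivative `(∇_a R)(u, v) w` of the curvature tensor in coordinates. -/
def covRiem (e : Fin n → V) (g : V → V → V → ℝ) (y a u v w : V) : V :=
  lineDeriv ℝ (fun z => riem e g z u v w) y a + chr e g y a (riem e g y u v w) -
    riem e g y (chr e g y a u) v w - riem e g y u (chr e g y a v) w -
    riem e g y u v (chr e g y a w)

end Coordinates

/-- The group `Sp(m) Sp(1)` acting on `ℍ^m`: the maps `v ↦ A v q`, where `A` is a quaternionic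
unitary matrix and `q` is a unit quaternion. -/
def InSpSp (m : ℕ) (P : (Fin m → ℍ[ℝ]) → Fin m → ℍ[ℝ]) : Prop :=
  ∃ (A : Matrix (Fin m) (Fin m) ℍ[ℝ]) (q : ℍ[ℝ]), Aᴴ * A = 1 ∧ ‖q‖ = 1 ∧
    ∀ v i, P v i = (∑ j, A i j * v j) * q

/-- The Euclidean inner product of `ℍ^m`. -/
def dot {m : ℕ} (u v : Fin m → ℍ[ℝ]) : ℝ := ∑ i, (u i * star (v i)).re

section Manifold

variable {M : Type} [TopologicalSpace M] [ChartedSpace V M]

variable (V) in
/-- The tangent space. -/
abbrev Tan (x : M) : Type := TangentSpace 𝓘(ℝ, V) x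

/-- The differential of a map to the model space. -/
def dmap (Φ : M → V) (x : M) (v : Tan V x) : V := mfderiv 𝓘(ℝ, V) 𝓘(ℝ, V) Φ x v

/-- The differential of a map from the model space. -/
def dinv (Ψ : V → M) (y u : V) : Tan V (Ψ y) := mfderiv 𝓘(ℝ, V) 𝓘(ℝ, V) Ψ y u

variable [Bundle.RiemannianBundle fun x : M => TangentSpace 𝓘(ℝ, V) x]

/-- The Riemannian metric. -/
def met (x : M) (u v : Tan V x) : ℝ := inner ℝ u v

/-- The Riemannian metric read in the chart `c`. -/
def chartMetric (c : OpenPartialHomeomorph M V) (y u v : V) : ℝ :=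
  met (c.symm y) (dinv c.symm y u) (dinv c.symm y v)

/-- The vector field `W` along the arc `γ` is parallel on `[0, 1]`: at every time it solves
`W' + Γ(γ', W) = 0` in a chart. -/
def IsParallel (e : Fin n → V) (γ : ℝ → M) (W : ∀ t, Tan V (γ t)) : Prop :=
  ∀ t ∈ Set.Icc (0 : ℝ) 1, ∃ c ∈ atlas V M, γ t ∈ c.source ∧
    HasDerivWithinAt (fun s => dmap c (γ s) (W s))
      (-chr e (chartMetric c) (c (γ t)) (derivWithin (c ∘ γ) (Set.Icc 0 1) t)
        (dmap c (γ t) (W t))) (Set.Icc 0 1) t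

/-- Parallel transport along piecewise smooth curves. -/
inductive Transport (e : Fin n → V) : ∀ x y : M, (Tan V x → Tan V y) → Prop
  | arc (γ : ℝ → M) (hγ : ContMDiffOn 𝓘(ℝ, ℝ) 𝓘(ℝ, V) ∞ γ (Set.Icc 0 1))
      (P : Tan V (γ 0) → Tan V (γ 1))
      (hP : ∀ v, ∃ W : ∀ t, Tan V (γ t), IsParallel e γ W ∧ W 0 = v ∧ W 1 = P v) :
      Transport e (γ 0) (γ 1) P
  | comp {x y z : M} {P : Tan V x → Tan V y} {Q : Tan V y → Tan V z} (hP : Transport e x y P)
      (hQ : Transport e y z Q) : Transport e x z (Q ∘ P)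

/-- A linear isometry `φ` of the tangent space at `p` onto `ℍ^m`, with inverse `ψ`. -/
def IsFrame {m : ℕ} (p : M) (φ : Tan V p → Fin m → ℍ[ℝ]) (ψ : (Fin m → ℍ[ℝ]) → Tan V p) : Prop :=
  IsLinearMap ℝ φ ∧ (∀ u, ψ (φ u) = u) ∧ (∀ v, φ (ψ v) = v) ∧
    ∀ u v, dot (φ u) (φ v) = met p u v

variable (M) in
/-- The holonomy group is contained in `Sp(m) Sp(1)`: at some point `p` a linear isometry of the
tangent space with `ℍ^m` carries the parallel transport along every piecewise smooth loop to an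
element of `Sp(m) Sp(1)`. -/
def HolonomySpSp (m : ℕ) (e : Fin n → V) : Prop :=
  ∃ (p : M) (φ : Tan V p → Fin m → ℍ[ℝ]) (ψ : (Fin m → ℍ[ℝ]) → Tan V p), IsFrame p φ ψ ∧
    ∀ P, Transport e p p P → InSpSp m (φ ∘ P ∘ ψ)

variable (M) in
/-- The scalar curvature is positive. -/
def PosScal (b : Module.Basis (Fin n) ℝ V) : Prop :=
  ∀ c ∈ atlas V M, ∀ y ∈ c.target, 0 < scal b (chartMetric c) y

variable (M) in
/-- The manifold is locally symmetric: the curvature tensor is parallel. -/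
def LocallySymmetric (e : Fin n → V) : Prop :=
  ∀ c ∈ atlas V M, ∀ y ∈ c.target, ∀ a u v w, covRiem e (chartMetric c) y a u v w = 0

end Manifold

/-- The conjecture for the manifolds modelled on `V`, with coordinates given by the basis `b`. -/
def Holds (m : ℕ) (b : Module.Basis (Fin n) ℝ V) : Prop :=
  ∀ (M : Type) [TopologicalSpace M] [T2Space M] [CompactSpace M] [ConnectedSpace M]
    [ChartedSpace V M] [IsManifold 𝓘(ℝ, V) ∞ M]
    [Bundle.RiemannianBundle fun x : M => TangentSpace 𝓘(ℝ, V) x]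
    [IsContMDiffRiemannianBundle 𝓘(ℝ, V) ∞ V fun x : M => TangentSpace 𝓘(ℝ, V) x],
    HolonomySpSp M m b → PosScal M b → LocallySymmetric M b

end Vale.Agent.P292.Spec
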