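import Vale.Agent.P292.Main
import Vale.Agent.P292.Spec

/-! From the statement over a basis to the statement in Euclidean coordinates. -/

open scoped ContDiff Manifold Bundle Quaternion Matrix

noncomputable section

namespace Vale.Agent.P292

theorem sb_basis (n : ℕ) : ⇑(EuclideanSpace.basisFun (Fin n) ℝ).toBasis = St.ev := by
  funext i
  simp [St.ev]

theorem sb_scal {n : ℕ} (g : St.E n → St.E n → St.E n → ℝ) (y : St.E n) :
    Spec.scal (EuclideanSpace.basisFun (Fin n) ℝ).toBasis g y = St.scal g y := by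
  simp only [Spec.scal, St.scal, Spec.ric, St.ric, sb_basis,
    OrthonormalBasis.coe_toBasis_repr_apply, EuclideanSpace.basisFun_repr]
  rfl

theorem sb_norm {m : ℕ} {A : Matrix (Fin m) (Fin m) ℍ[ℝ]} (h : Aᴴ * A = 1) (v : Fin m → ℍ[ℝ]) :
    ∑ i, ‖∑ j, A i j * v j‖ ^ 2 = ∑ i, ‖v i‖ ^ 2 := by
  have h1 : ∀ q : ℍ[ℝ], ‖q‖ ^ 2 = (star q * q).re := fun q => by
    rw [Quaternion.star_mul_self, Quaternion.normSq_eq_norm_mul_self, sq]; rfl
  have h2 : star (A *ᵥ v) ⬝ᵥ (A *ᵥ v) = star v ⬝ᵥ v := by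
    rw [Matrix.star_mulVec, ← Matrix.dotProduct_mulVec, Matrix.mulVec_mulVec, h,
      Matrix.one_mulVec]
  let f : ℍ[ℝ] →+ ℝ := ⟨⟨fun q => q.re, rfl⟩, fun _ _ => rfl⟩
  have h3 := congrArg f h2
  simp only [dotProduct, map_sum] at h3
  simp only [h1]
  exact h3

theorem sb_spsp {m : ℕ} {P : (Fin m → ℍ[ℝ]) → Fin m → ℍ[ℝ]} (h : Spec.InSpSp m P) :
    St.InSpSp m fun v => WithLp.toLp 2 (P v.ofLp) := by
  obtain ⟨A, q, h1, h2, h3⟩ := h
  let L : St.Hm m →ₗᵢ[ℝ] St.Hm m :=
    { toFun := fun v => WithLp.toLp 2 fun i => ∑ j, A i j * v j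
      map_add' := fun u v => by ext1 i; simp [mul_add, Finset.sum_add_distrib]
      map_smul' := fun r v => by ext1 i; simp [Finset.smul_sum]
      norm_map' := fun v => by
        simp only [PiLp.norm_eq_of_L2, LinearMap.coe_mk, AddHom.coe_mk]
        rw [sb_norm h1] }
  refine ⟨L.toLinearIsometryEquiv rfl, q, fun v p => ?_, h2, fun v => ?_⟩
  · ext1 i
    change ∑ j, A i j * (v j * p) = (∑ j, A i j * v j) * p
    simp [Finset.sum_mul, mul_assoc]
  · ext1 i
    exact h3 _ i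

theorem sb_transport {n : ℕ} {M : Type} [TopologicalSpace M] [ChartedSpace (St.E n) M]
    [Bundle.RiemannianBundle fun x : M => TangentSpace 𝓘(ℝ, St.E n) x] {x y : M}
    {P : St.Tan n x → St.Tan n y} (h : St.Transport n x y P) : Spec.Transport St.ev x y P := by
  induction h with
  | arc γ hγ P hP => exact Spec.Transport.arc γ hγ P hP
  | comp _ _ h1 h2 => exact h1.comp h2

theorem spec_holds (m : ℕ) (hm : 2 ≤ m) :
    Spec.Holds m (EuclideanSpace.basisFun (Fin (4 * m)) ℝ).toBasis := by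
  intro M _ _ _ _ _ _ _ _ hol pos
  rw [sb_basis] at hol ⊢
  obtain ⟨p, φ, ψ, ⟨h1, h2, h3, h4⟩, h5⟩ := hol
  refine main m hm M ⟨p, LinearEquiv.trans
    { toFun := φ, map_add' := h1.map_add, map_smul' := h1.map_smul, invFun := ψ,
      left_inv := h2, right_inv := h3 } (WithLp.linearEquiv 2 ℝ _).symm, fun u v => ?_,
    fun P hP => sb_spsp (h5 P (sb_transport hP))⟩ fun c hc y hy => ?_
  · exact h4 u v
  · rw [← sb_scal]
    exact pos c hc y hy

end Vale.Agent.P292
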