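import Mathlib

/-!
Quaternionic-Kaehler manifolds: curvature, parallel transport and holonomy of the Riemannian
manifolds of Mathlib, written in the charts of the atlas.
-/

open scoped ContDiff Bundle Manifold Quaternion

noncomputable section

namespace Vale.Agent.P292.St

/-- Euclidean space of dimension `n`. -/
abbrev E (n : ℕ) : Type := EuclideanSpace ℝ (Fin n)

section Coordinates

variable {n : ℕ}

/-- The coordinate vectors. -/
def ev (i : Fin n) : E n := EuclideanSpace.single i 1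

/-- The derivative at `y` in the direction `a` of the metric coefficient `g(u, v)`. -/
def dG (g : E n → E n → E n → ℝ) (y a u v : E n) : ℝ := lineDeriv ℝ (fun z => g z u v) y a

/-- The matrix `g_ij` at `y`. -/
def gram (g : E n → E n → E n → ℝ) (y : E n) : Matrix (Fin n) (Fin n) ℝ :=
  Matrix.of fun i j => g y (ev i) (ev j)

/-- The Christoffel map `Γ(u, v)ᵏ = gᵏˡ (∂_u g(v, e_l) + ∂_v g(u, e_l) - ∂_l g(u, v)) / 2`. -/
def chr (g : E n → E n → E n → ℝ) (y u v : E n) : E n :=
  ∑ k, (∑ l, (gram g y)⁻¹ k l *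
    ((dG g y u v (ev l) + dG g y v u (ev l) - dG g y (ev l) u v) / 2)) • ev k

/-- The curvature tensor `R(u, v) w = ∇_u ∇_v w - ∇_v ∇_u w` in coordinates. -/
def riem (g : E n → E n → E n → ℝ) (y u v w : E n) : E n :=
  lineDeriv ℝ (fun z => chr g z v w) y u - lineDeriv ℝ (fun z => chr g z u w) y v +
    chr g y u (chr g y v w) - chr g y v (chr g y u w)

/-- The Ricci tensor, the trace of `w ↦ R(w, u) v`. -/
def ric (g : E n → E n → E n → ℝ) (y u v : E n) : ℝ := ∑ k, riem g y (ev k) u v k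

/-- The scalar curvature `gⁱʲ Ric_ij`. -/
def scal (g : E n → E n → E n → ℝ) (y : E n) : ℝ :=
  ∑ i, ∑ j, (gram g y)⁻¹ i j * ric g y (ev i) (ev j)

/-- The covariant derivative `(∇_a R)(u, v) w` of the curvature tensor in coordinates. -/
def covRiem (g : E n → E n → E n → ℝ) (y a u v w : E n) : E n :=
  lineDeriv ℝ (fun z => riem g z u v w) y a + chr g y a (riem g y u v w) -
    riem g y (chr g y a u) v w - riem g y u (chr g y a v) w - riem g y u v (chr g y a w)

end Coordinates

section Group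

/-- The quaternionic space `ℍ^m` with its Euclidean norm. -/
abbrev Hm (m : ℕ) : Type := PiLp 2 fun _ : Fin m => ℍ[ℝ]

/-- Multiplication of a vector by a quaternion on the right. -/
def rmul {m : ℕ} (v : Hm m) (q : ℍ[ℝ]) : Hm m := WithLp.toLp 2 fun i => v i * q

/-- The group `Sp(m) Sp(1)`: the maps `v ↦ (A v) q`, where `A` is an isometry which commutes with
the quaternionic scalars and `q` is a unit quaternion. -/
def InSpSp (m : ℕ) (P : Hm m → Hm m) : Prop :=
  ∃ (A : Hm m ≃ₗᵢ[ℝ] Hm m) (q : ℍ[ℝ]), (∀ v p, A (rmul v p) = rmul (A v) p) ∧ ‖q‖ = 1 ∧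
    ∀ v, P v = rmul (A v) q

end Group

section Manifold

variable (n : ℕ) {M : Type} [TopologicalSpace M] [ChartedSpace (E n) M]

/-- The tangent space. -/
abbrev Tan (x : M) : Type := TangentSpace 𝓘(ℝ, E n) x

/-- The coordinates of a tangent vector in the chart `e`. -/
def coord (e : OpenPartialHomeomorph M (E n)) (x : M) (v : Tan n x) : E n :=
  mfderiv 𝓘(ℝ, E n) 𝓘(ℝ, E n) e x v

variable [Bundle.RiemannianBundle fun x : M => TangentSpace 𝓘(ℝ, E n) x]

/-- The Riemannian metric read in the chart `e`. -/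
def chartMetric (e : OpenPartialHomeomorph M (E n)) (y u v : E n) : ℝ :=
  inner ℝ (mfderiv 𝓘(ℝ, E n) 𝓘(ℝ, E n) e.symm y u) (mfderiv 𝓘(ℝ, E n) 𝓘(ℝ, E n) e.symm y v)

/-- The vector field `V` along the arc `γ` is parallel on `[0, 1]`: at every time it solves
`V' + Γ(γ', V) = 0` in a chart. -/
def IsParallel (γ : ℝ → M) (V : ∀ t, Tan n (γ t)) : Prop :=
  ∀ t ∈ Set.Icc (0 : ℝ) 1, ∃ e ∈ atlas (E n) M, γ t ∈ e.source ∧
    HasDerivWithinAt (fun s => coord n e (γ s) (V s))
      (-chr (chartMetric n e) (e (γ t)) (derivWithin (e ∘ γ) (Set.Icc 0 1) t)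
        (coord n e (γ t) (V t))) (Set.Icc 0 1) t

/-- Parallel transport along piecewise smooth curves. -/
inductive Transport : ∀ x y : M, (Tan n x → Tan n y) → Prop
  | arc (γ : ℝ → M) (hγ : ContMDiffOn 𝓘(ℝ, ℝ) 𝓘(ℝ, E n) ∞ γ (Set.Icc 0 1))
      (P : Tan n (γ 0) → Tan n (γ 1))
      (hP : ∀ v, ∃ V : ∀ t, Tan n (γ t), IsParallel n γ V ∧ V 0 = v ∧ V 1 = P v) :
      Transport (γ 0) (γ 1) P
  | comp {x y z : M} {P : Tan n x → Tan n y} {Q : Tan n y → Tan n z} (hP : Transport x y P)
      (hQ : Transport y z Q) : Transport x z (Q ∘ P)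

variable (M) in
/-- The scalar curvature is positive. -/
def PosScal : Prop := ∀ e ∈ atlas (E n) M, ∀ y ∈ e.target, 0 < scal (chartMetric n e) y

variable (M) in
/-- The manifold is locally symmetric: the curvature tensor is parallel. -/
def LocallySymmetric : Prop :=
  ∀ e ∈ atlas (E n) M, ∀ y ∈ e.target, ∀ a u v w, covRiem (chartMetric n e) y a u v w = 0

end Manifold

/-- The holonomy group is contained in `Sp(m) Sp(1)`: at some point `p` there is a linear isometry
of the tangent space with `ℍ^m` which carries the parallel transport along every piecewise smooth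
loop to an element of `Sp(m) Sp(1)`. -/
def HolonomySpSp (m : ℕ) (M : Type) [TopologicalSpace M] [ChartedSpace (E (4 * m)) M]
    [Bundle.RiemannianBundle fun x : M => TangentSpace 𝓘(ℝ, E (4 * m)) x] : Prop :=
  ∃ (p : M) (φ : Tan (4 * m) p ≃ₗ[ℝ] Hm m), (∀ u v, inner ℝ (φ u) (φ v) = inner ℝ u v) ∧
    ∀ P, Transport (4 * m) p p P → InSpSp m (φ ∘ P ∘ φ.symm)

end Vale.Agent.P292.St
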